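import Vale.Agent.P300.Rg3

/-! Invariants of the local ring. Work with the finite group `H / N` (`N = F.fixingSubgroup`), e.g. the image
of `H` in `F ≃ₐ[K] F`, or a finite set of representatives. There is `φ ∈ Bx x F` with `P.ev φ = 1`
and `P.ev (h φ) = 0` for all `h ∈ H` not fixing `P` at level `F` (product of separating elements
`b - P.ev (h b)`, rescaled). `desc`: `a = b / c`, `a ∑ h (φ c) = ∑ h (φ b)`. `at_mono`:
`X = ∑ h (φ u' ^ m₁) = u' ^ m₁ ε` with `ε` a unit of `S` (each `h` multiplies `u'` by a root of unity),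
`Σ` likewise, `Y = Σ ^ j / X`. For `a` in the maximal ideal use `Rg.expand` with `N ≥ m₁, m₂`, average over
the stabiliser (non invariant monomials die, invariant ones are divisible by `X`, `Y` or `Σ`, the
constant term vanishes), clear denominators `c`, multiply by `φ c` and sum over `H / N`. -/

open scoped LinearAlgebra.Projectivization Topology Classical Pointwise
open Polynomial

set_option linter.unusedSectionVars false

namespace Vale.Agent.P300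

variable {L : Type} [Field L] [Algebra ℂ L] [IsAlgClosed L] (A : Amb L)

theorem Amb.at_reps {F : IntermediateField A.K L} (hF : A.Tw F) (hn : Normal A.K F)
    {H : Subgroup A.G} (hN : F.fixingSubgroup ≤ H) :
    ∃ (ι : Type) (_ : Fintype ι) (t : ι → A.G), (∀ i, t i ∈ H) ∧ (∃ i, ∀ a ∈ F, t i a = a) ∧
      ∀ g ∈ H, ∀ a ∈ F, g (∑ i, t i a) = ∑ i, t i a := by
  have _ := hN
  have h1 := (hF.fix A hn).2.1
  have h2 : Finite (H ⧸ F.fixingSubgroup.subgroupOf H) := Subgroup.finite_quotient_of_finiteIndex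
  have key : ∀ (g : H) (a : L), a ∈ F →
      (((g : H ⧸ F.fixingSubgroup.subgroupOf H).out : H) : A.G) a = (g : A.G) a := by
    intro g a ha
    obtain ⟨n, hn⟩ := QuotientGroup.mk_out_eq_mul (F.fixingSubgroup.subgroupOf H) g
    rw [hn, Subgroup.coe_mul, AlgEquiv.mul_apply,
      (IntermediateField.mem_fixingSubgroup_iff _ _).1 (Subgroup.mem_subgroupOf.1 n.2) a ha]
  refine ⟨H ⧸ F.fixingSubgroup.subgroupOf H, Fintype.ofFinite _, fun q => (q.out : H),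
    fun q => q.out.2, ⟨((1 : H) : H ⧸ F.fixingSubgroup.subgroupOf H), fun a ha => key 1 a ha⟩,
    fun g hg a ha => ?_⟩
  let _ := Fintype.ofFinite (H ⧸ F.fixingSubgroup.subgroupOf H)
  rw [map_sum]
  refine Fintype.sum_equiv (MulAction.toPerm (⟨g, hg⟩ : H)) _ _ fun q => ?_
  have e : MulAction.toPerm (⟨g, hg⟩ : H) q =
      ((⟨g, hg⟩ * q.out : H) : H ⧸ F.fixingSubgroup.subgroupOf H) := by
    conv_lhs => rw [← q.out_eq']
    rfl
  rw [e, key _ a ha]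
  rfl

theorem Amb.at_sep {x P : LP L} (hx : ∀ a ∈ x.O, a ∈ A.K) (hP : Ab x P)
    {F : IntermediateField A.K L} (hn : Normal A.K F) {ι : Type} [Fintype ι] (t : ι → A.G) :
    ∃ φ ∈ Bx x (A.rs F), ∀ i, P.ev (t i φ) = if A.IP x (A.rs F) P (t i) then 1 else 0 := by
  have k : HomOn (Bx x (A.rs F)) P.ev :=
    P.hom.mono fun b hb => hP.int b (Ext_Bx_mono x le_top hb)
  have h1 : ∀ i, ∃ φ ∈ Bx x (A.rs F), P.ev φ = 1 ∧
      (¬ A.IP x (A.rs F) P (t i) → P.ev (t i φ) = 0) := by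
    intro i
    by_cases h : A.IP x (A.rs F) P (t i)
    · exact ⟨1, one_mem _, k.one, fun h' => (h' h).elim⟩
    · obtain ⟨b, hb, hb'⟩ : ∃ b ∈ Bx x (A.rs F), P.ev (t i b) ≠ P.ev b := by
        by_contra h'
        push Not at h'
        exact h h'
      have m1 := (Bx x (A.rs F)).algebraMap_mem (P.ev (t i b))
      have m2 := (Bx x (A.rs F)).algebraMap_mem (P.ev b - P.ev (t i b))⁻¹
      have m3 := A.Bx_map' hx hn (t i) hb
      refine ⟨algebraMap ℂ L (P.ev b - P.ev (t i b))⁻¹ * (b - algebraMap ℂ L (P.ev (t i b))),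
        mul_mem m2 (sub_mem hb m1), ?_, fun _ => ?_⟩
      · rw [k.mul _ m2 _ (sub_mem hb m1), k.sub hb m1, k.alg, k.alg,
          inv_mul_cancel₀ (sub_ne_zero.2 hb'.symm)]
      · rw [map_mul, map_sub, A.fixC, A.fixC, k.mul _ m2 _ (sub_mem m3 m1), k.sub m3 m1, k.alg,
          k.alg, sub_self, mul_zero]
  choose φ m e1 e2 using h1
  have hm : ∏ i, φ i ∈ Bx x (A.rs F) := prod_mem fun i _ => m i
  refine ⟨∏ i, φ i, hm, fun j => ?_⟩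
  split_ifs with h
  · rw [h _ hm, k.prod _ fun i _ => m i]
    exact Finset.prod_eq_one fun i _ => e1 i
  · rw [map_prod, k.prod _ fun i _ => A.Bx_map' hx hn (t j) (m i)]
    exact Finset.prod_eq_zero (Finset.mem_univ j) (e2 j h)

theorem Amb.at_tr {x P : LP L} (hx : ∀ a ∈ x.O, a ∈ A.K) (hP : Ab x P)
    {F : IntermediateField A.K L} (hF : A.Tw F) (hn : Normal A.K F) {H : Subgroup A.G}
    (hN : F.fixingSubgroup ≤ H) :
    ∃ τ : L → L, (∀ b ∈ Bx x (A.rs F), τ b ∈ Bx x (A.fx H)) ∧ (∀ a b, τ (a + b) = τ a + τ b) ∧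
      (∀ b, ∀ y ∈ A.fx H, τ (b * y) = τ b * y) ∧
      (∀ c ∈ Bx x (A.rs F), P.ev c ≠ 0 → P.ev (τ c) ≠ 0) ∧
      ∀ m : L, m ≠ 0 → (∀ g : A.G, ∃ ζ : ℂ, g m = algebraMap ℂ L ζ * m) →
        (∀ g ∈ H, A.IP x (A.rs F) P g → g m = m) →
        ∃ ε ∈ Bx x (A.rs F), P.ev ε ≠ 0 ∧ τ m = ε * m := by
  have k : HomOn (Bx x (A.rs F)) P.ev :=
    P.hom.mono fun b hb => hP.int b (Ext_Bx_mono x le_top hb)
  obtain ⟨ι, _, t, tH, ⟨i₀, hi₀⟩, tinv⟩ := A.at_reps hF hn hN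
  obtain ⟨φ, hφ, e⟩ := A.at_sep hx hP hn t
  have k0 : ∑ i, P.ev (t i φ) ≠ 0 := by
    simp only [e, Finset.sum_boole]
    refine Nat.cast_ne_zero.2 (Finset.card_ne_zero.2 ⟨i₀, Finset.mem_filter.2
      ⟨Finset.mem_univ _, fun b hb => ?_⟩⟩)
    rw [hi₀ b (mem_Bx.1 hb).2]
  refine ⟨fun b => ∑ i, t i (φ * b), fun b hb => ?_, fun a b => ?_, fun b y hy => ?_,
    fun c hc h0 => ?_, fun m m0 h1 h2 => ?_⟩
  · have h1 : ∑ i, t i (φ * b) ∈ Bx x (A.rs F) :=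
      sum_mem fun i _ => A.Bx_map' hx hn _ (mul_mem hφ hb)
    exact mem_Bx.2 ⟨(mem_Bx.1 h1).1, (IntermediateField.mem_fixedField_iff H _).2
      fun g hg => tinv g hg _ (mem_Bx.1 (mul_mem hφ hb)).2⟩
  · simp only [mul_add, map_add, Finset.sum_add_distrib]
  · rw [Finset.sum_mul]
    refine Finset.sum_congr rfl fun i _ => ?_
    rw [← mul_assoc, map_mul, (IntermediateField.mem_fixedField_iff H y).1 hy _ (tH i)]
  · rw [k.sum _ fun i _ => A.Bx_map' hx hn _ (mul_mem hφ hc)]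
    have : ∀ i, P.ev (t i (φ * c)) = P.ev (t i φ) * P.ev c := fun i => by
      rw [map_mul, k.mul _ (A.Bx_map' hx hn _ hφ) _ (A.Bx_map' hx hn _ hc), e]
      split_ifs with h
      · rw [h c hc]
      · rw [zero_mul, zero_mul]
    simp only [this, ← Finset.sum_mul]
    exact mul_ne_zero k0 h0
  · choose ζ hζ using h1
    have hm : ∀ i, t i φ * algebraMap ℂ L (ζ (t i)) ∈ Bx x (A.rs F) := fun i =>
      mul_mem (A.Bx_map' hx hn _ hφ) (Subalgebra.algebraMap_mem _ _)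
    refine ⟨∑ i, t i φ * algebraMap ℂ L (ζ (t i)), sum_mem fun i _ => hm i, ?_, ?_⟩
    · rw [k.sum _ fun i _ => hm i]
      have : ∀ i, P.ev (t i φ * algebraMap ℂ L (ζ (t i))) = P.ev (t i φ) := fun i => by
        by_cases h : A.IP x (A.rs F) P (t i)
        · have h3 : algebraMap ℂ L (ζ (t i)) = 1 :=
            mul_right_cancel₀ m0 (by rw [← hζ, h2 _ (tH i) h, one_mul])
          rw [h3, mul_one]
        · rw [k.mul _ (A.Bx_map' hx hn _ hφ) _ (Subalgebra.algebraMap_mem _ _), e, if_neg h,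
            zero_mul]
      simpa only [this] using k0
    · rw [Finset.sum_mul]
      exact Finset.sum_congr rfl fun i _ => by rw [map_mul, hζ (t i), mul_assoc]

theorem Amb.at_comb {x P : LP L} (hx : ∀ a ∈ x.O, a ∈ A.K) (hP : Ab x P)
    {F : IntermediateField A.K L} (hF : A.Tw F) (hn : Normal A.K F) {H : Subgroup A.G}
    (hN : F.fixingSubgroup ≤ H) {a X Y Z α β γ : L} (ha : a ∈ A.fx H) (hX : X ∈ A.fx H)
    (hY : Y ∈ A.fx H) (hZ : Z ∈ A.fx H) (hα : α ∈ (res x (A.rs F) P).O)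
    (hβ : β ∈ (res x (A.rs F) P).O) (hγ : γ ∈ (res x (A.rs F) P).O)
    (e : a = α * X + β * Y + γ * Z) :
    ∃ α ∈ (res x (A.fx H) P).O, ∃ β ∈ (res x (A.fx H) P).O, ∃ γ ∈ (res x (A.fx H) P).O,
      a = α * X + β * Y + γ * Z := by
  have k : HomOn (Bx x (A.rs F)) P.ev :=
    P.hom.mono fun b hb => hP.int b (Ext_Bx_mono x le_top hb)
  have k' : HomOn (Bx x (A.fx H)) P.ev :=
    P.hom.mono fun b hb => hP.int b (Ext_Bx_mono x le_top hb)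
  obtain ⟨τ, t1, t2, t3, t4, -⟩ := A.at_tr hx hP hF hn hN
  obtain ⟨b₁, hb₁, c₁, hc₁, n₁, e₁⟩ := (mem_mkLP k).1 hα
  obtain ⟨b₂, hb₂, c₂, hc₂, n₂, e₂⟩ := (mem_mkLP k).1 hβ
  obtain ⟨b₃, hb₃, c₃, hc₃, n₃, e₃⟩ := (mem_mkLP k).1 hγ
  have hc : c₁ * c₂ * c₃ ∈ Bx x (A.rs F) := mul_mem (mul_mem hc₁ hc₂) hc₃
  have c0 : P.ev (τ (c₁ * c₂ * c₃)) ≠ 0 := t4 _ hc (by
    rw [k.mul _ (mul_mem hc₁ hc₂) _ hc₃, k.mul _ hc₁ _ hc₂]
    exact mul_ne_zero (mul_ne_zero n₁ n₂) n₃)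
  have c1 : τ (c₁ * c₂ * c₃) ≠ 0 := k'.ne c0
  have hd : ∀ b ∈ Bx x (A.rs F), τ b / τ (c₁ * c₂ * c₃) ∈ (res x (A.fx H) P).O := fun b hb =>
    (mem_mkLP k').2 ⟨_, t1 b hb, _, t1 _ hc, c0, div_mul_cancel₀ _ c1⟩
  refine ⟨_, hd (b₁ * c₂ * c₃) (mul_mem (mul_mem hb₁ hc₂) hc₃),
    _, hd (c₁ * b₂ * c₃) (mul_mem (mul_mem hc₁ hb₂) hc₃),
    _, hd (c₁ * c₂ * b₃) (mul_mem (mul_mem hc₁ hc₂) hb₃), ?_⟩
  have e4 : c₁ * c₂ * c₃ * a = b₁ * c₂ * c₃ * X + c₁ * b₂ * c₃ * Y + c₁ * c₂ * b₃ * Z := by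
    rw [e, ← e₁, ← e₂, ← e₃]
    ring
  have e5 := congrArg τ e4
  rw [t3 _ a ha, t2, t2, t3 _ X hX, t3 _ Y hY, t3 _ Z hZ] at e5
  rw [div_mul_eq_mul_div, div_mul_eq_mul_div, div_mul_eq_mul_div, ← add_div, ← add_div, ← e5,
    mul_div_cancel_left₀ _ c1]

theorem Amb.desc {x P : LP L} (hx : ∀ a ∈ x.O, a ∈ A.K) (hP : Ab x P) {F : IntermediateField A.K L}
    (hF : A.Tw F) (hn : Normal A.K F) {H : Subgroup A.G} (hN : F.fixingSubgroup ≤ H) {a : L}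
    (ha : a ∈ A.fx H) (hS : a ∈ (res x (A.rs F) P).O) : a ∈ (res x (A.fx H) P).O := by
  obtain ⟨α, hα, β, -, γ, -, e⟩ := A.at_comb hx hP hF hn hN ha (one_mem _) (zero_mem _)
    (zero_mem _) hS (zero_mem _) (zero_mem _) (by ring)
  rw [e]
  simpa using hα

/-- constants plus the ideal generated by three elements -/
def atJ (S : LP L) (X Y Z : L) : Submodule ℂ L where
  carrier := {a | ∃ c : ℂ, ∃ α ∈ S.O, ∃ β ∈ S.O, ∃ γ ∈ S.O,
    a = algebraMap ℂ L c + (α * X + β * Y + γ * Z)}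
  add_mem' := by
    rintro _ _ ⟨c, α, h1, β, h2, γ, h3, rfl⟩ ⟨c', α', h1', β', h2', γ', h3', rfl⟩
    exact ⟨c + c', _, add_mem h1 h1', _, add_mem h2 h2', _, add_mem h3 h3', by
      rw [map_add]; ring⟩
  zero_mem' := ⟨0, 0, zero_mem _, 0, zero_mem _, 0, zero_mem _, by simp⟩
  smul_mem' := by
    rintro d _ ⟨c, α, h1, β, h2, γ, h3, rfl⟩
    have m := S.O.algebraMap_mem d
    exact ⟨d * c, _, mul_mem m h1, _, mul_mem m h2, _, mul_mem m h3, by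
      rw [map_mul, Algebra.smul_def]; ring⟩

theorem Amb.at_char {y : L} {n : ℕ} (hn : 1 ≤ n) (h : y ^ n ∈ A.K) (g : A.G) :
    ∃ ζ : ℂ, g y = algebraMap ℂ L ζ * y := by
  by_cases h0 : y = 0
  · exact ⟨0, by simp [h0]⟩
  · obtain ⟨ψ, -, h2⟩ := A.exists_char h0 hn h
    exact ⟨_, h2 g⟩

theorem Amb.at_char2 {u v : L} {n : ℕ} (hn : 1 ≤ n) (hu : u ^ n ∈ A.K) (hv : v ^ n ∈ A.K)
    (i l : ℕ) (g : A.G) : ∃ ζ : ℂ, g (u ^ i * v ^ l) = algebraMap ℂ L ζ * (u ^ i * v ^ l) :=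
  A.at_char hn (by
    rw [mul_pow, ← pow_mul, ← pow_mul, mul_comm i, mul_comm l, pow_mul, pow_mul]
    exact mul_mem (pow_mem hu _) (pow_mem hv _)) g

theorem Amb.at_gen {x P : LP L} (hx : ∀ a ∈ x.O, a ∈ A.K) (hP : Ab x P)
    {F : IntermediateField A.K L} (hF : A.Tw F) (hn : Normal A.K F) {u v : L}
    (hr : (res x (A.rs F) P).Rg u v (A.rs F)) {n : ℕ} (hn1 : 1 ≤ n) (hu : u ^ n ∈ x.O)
    (hv : v ^ n ∈ x.O) {H : Subgroup A.G} (hN : F.fixingSubgroup ≤ H) {k₁ k₂ m₁ m₂ : ℕ}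
    (h1 : ∀ g ∈ H, A.IP x (A.rs F) P g → g (u ^ m₁) = u ^ m₁ ∧ g (v ^ m₂) = v ^ m₂)
    (h2 : ∀ i l : ℕ, (∀ g ∈ H, A.IP x (A.rs F) P g → g (u ^ i * v ^ l) = u ^ i * v ^ l) →
      (i = 0 ∧ l = 0) ∨ m₁ ≤ i ∨ m₂ ≤ l ∨ (k₁ ≤ i ∧ k₂ ≤ l)) {a : L} (ha : a ∈ A.fx H)
    (hS : a ∈ (res x (A.rs F) P).O) :
    a ∈ atJ (res x (A.rs F) P) (u ^ m₁) (v ^ m₂) (u ^ k₁ * v ^ k₂) := by
  set S := res x (A.rs F) P with hSd
  let H' : Subgroup A.G :=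
    { carrier := {g | g ∈ H ∧ A.IP x (A.rs F) P g}
      mul_mem' := fun ha hb => ⟨H.mul_mem ha.1 hb.1, Amb.IP.mul A hx hn ha.2 hb.2⟩
      one_mem' := ⟨H.one_mem, fun _ _ => rfl⟩
      inv_mem' := fun ha => ⟨H.inv_mem ha.1, Amb.IP.inv A hx hn ha.2⟩ }
  have hN' : F.fixingSubgroup ≤ H' := fun g hg => ⟨hN hg, fun b hb => by
    rw [(IntermediateField.mem_fixingSubgroup_iff _ _).1 hg b (mem_Bx.1 hb).2]⟩
  obtain ⟨ι, _, t, tH, ⟨i₀, -⟩, tinv⟩ := A.at_reps hF hn hN'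
  have mu := hr.gen.1.1
  have mv := hr.gen.2.1.1
  have tS : ∀ b ∈ S.O, ∑ i, t i b ∈ S.O := fun b hb =>
    sum_mem fun i _ => (Amb.IP.res A hx hP hn (tH i).2 b hb).1
  have mon : ∀ i l : ℕ, ∑ q, t q (u ^ i * v ^ l) ∈ atJ S (u ^ m₁) (v ^ m₂) (u ^ k₁ * v ^ k₂) := by
    intro i l
    choose ζ hζ using A.at_char2 hn1 (hx _ hu) (hx _ hv) i l
    have e1 : ∑ q, t q (u ^ i * v ^ l) = (∑ q, ζ (t q)) • (u ^ i * v ^ l) := by
      rw [Algebra.smul_def, map_sum, Finset.sum_mul]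
      exact Finset.sum_congr rfl fun q _ => hζ _
    by_cases h : ∀ g ∈ H, A.IP x (A.rs F) P g → g (u ^ i * v ^ l) = u ^ i * v ^ l
    · rw [e1]
      refine Submodule.smul_mem _ _ ?_
      rcases h2 i l h with ⟨rfl, rfl⟩ | h3 | h3 | ⟨h3, h4⟩
      · exact ⟨1, 0, zero_mem _, 0, zero_mem _, 0, zero_mem _, by simp⟩
      · obtain ⟨r, rfl⟩ := Nat.exists_eq_add_of_le h3
        exact ⟨0, u ^ r * v ^ l, mul_mem (pow_mem mu _) (pow_mem mv _), 0, zero_mem _, 0,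
          zero_mem _, by rw [map_zero]; ring⟩
      · obtain ⟨r, rfl⟩ := Nat.exists_eq_add_of_le h3
        exact ⟨0, 0, zero_mem _, u ^ i * v ^ r, mul_mem (pow_mem mu _) (pow_mem mv _), 0,
          zero_mem _, by rw [map_zero]; ring⟩
      · obtain ⟨r, rfl⟩ := Nat.exists_eq_add_of_le h3
        obtain ⟨s, rfl⟩ := Nat.exists_eq_add_of_le h4
        exact ⟨0, 0, zero_mem _, 0, zero_mem _, u ^ r * v ^ s,
          mul_mem (pow_mem mu _) (pow_mem mv _), by rw [map_zero]; ring⟩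
    · push Not at h
      obtain ⟨g, g1, g2, g3⟩ := h
      have e2 := tinv g ⟨g1, g2⟩ _ (hr.sub _ (mul_mem (pow_mem mu i) (pow_mem mv l)))
      rw [e1, Algebra.smul_def, map_mul, A.fixC] at e2
      have e3 : algebraMap ℂ L (∑ q, ζ (t q)) = 0 := by
        by_contra h0
        exact g3 (mul_left_cancel₀ h0 e2)
      rw [e1, Algebra.smul_def, e3, zero_mul]
      exact zero_mem _
  obtain ⟨c, α, β, hα, hβ, e⟩ := hr.expand hS (m₁ + m₂)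
  have c0 : (Fintype.card ι : ℂ) ≠ 0 :=
    Nat.cast_ne_zero.2 (Fintype.card_pos_iff.2 ⟨i₀⟩).ne'
  have e1 : (Fintype.card ι : ℂ) • a = ∑ q, t q a := by
    rw [Finset.sum_congr rfl fun q _ => (IntermediateField.mem_fixedField_iff H a).1 ha _ (tH q).1,
      Finset.sum_const, Finset.card_univ, Nat.cast_smul_eq_nsmul]
  have e2 : ∑ q, t q a = ∑ i ∈ Finset.range (m₁ + m₂), ∑ l ∈ Finset.range (m₁ + m₂),
      c i l • ∑ q, t q (u ^ i * v ^ l) + ((∑ q, t q (α * u ^ m₂)) * u ^ m₁ +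
        (∑ q, t q (β * v ^ m₁)) * v ^ m₂ + 0 * (u ^ k₁ * v ^ k₂)) := by
    have e3 : ∀ q, t q a = ∑ i ∈ Finset.range (m₁ + m₂), ∑ l ∈ Finset.range (m₁ + m₂),
        c i l • t q (u ^ i * v ^ l) + (t q (α * u ^ m₂) * u ^ m₁ + t q (β * v ^ m₁) * v ^ m₂) := by
      intro q
      obtain ⟨f1, f2⟩ := h1 _ (tH q).1 (tH q).2
      have e4 : a = ∑ i ∈ Finset.range (m₁ + m₂), ∑ l ∈ Finset.range (m₁ + m₂),
          c i l • (u ^ i * v ^ l) + (α * u ^ m₂ * u ^ m₁ + β * v ^ m₁ * v ^ m₂) := by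
        rw [e]
        ring
      rw [e4, map_add, map_add, map_mul _ _ (u ^ m₁), map_mul _ _ (v ^ m₂), f1, f2]
      simp only [map_sum, Algebra.smul_def, map_mul (t q) (algebraMap ℂ L _), A.fixC]
    simp only [e3, Finset.sum_add_distrib, Finset.sum_mul, Finset.smul_sum, zero_mul, add_zero]
    congr 1
    rw [Finset.sum_comm]
    exact Finset.sum_congr rfl fun i _ => Finset.sum_comm
  rw [← (atJ S _ _ _).smul_mem_iff c0, e1, e2]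
  refine add_mem (sum_mem fun i _ => sum_mem fun l _ => Submodule.smul_mem _ _ (mon i l))
    ⟨0, _, tS _ (mul_mem hα (pow_mem mu m₂)), _, tS _ (mul_mem hβ (pow_mem mv m₁)), 0,
      zero_mem _, by rw [map_zero, zero_add]⟩

theorem at_pow {S : LP L} {a : L} (h : S.m a) {n : ℕ} (hn : 1 ≤ n) : S.m (a ^ n) :=
  ⟨pow_mem h.1 n, by rw [S.hom.pow h.1, h.2, zero_pow (by omega)]⟩

theorem Amb.at_mono {x P : LP L} (hx : ∀ a ∈ x.O, a ∈ A.K) (hP : Ab x P)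
    {F : IntermediateField A.K L} (hF : A.Tw F) (hn : Normal A.K F) {u v : L}
    (hr : (res x (A.rs F) P).Rg u v (A.rs F)) {n : ℕ} (hn1 : 1 ≤ n) (hu : u ^ n ∈ x.O)
    (hv : v ^ n ∈ x.O) {H : Subgroup A.G} (hN : F.fixingSubgroup ≤ H) {k₁ k₂ j : ℕ}
    (hk₁ : 1 ≤ k₁) (hk₂ : 1 ≤ k₂) (hj : 1 ≤ j)
    (h1 : ∀ g ∈ H, A.IP x (A.rs F) P g → g (u ^ (j * k₁)) = u ^ (j * k₁) ∧
      g (v ^ (j * k₂)) = v ^ (j * k₂) ∧ g (u ^ k₁ * v ^ k₂) = u ^ k₁ * v ^ k₂)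
    (h2 : ∀ i l : ℕ, (∀ g ∈ H, A.IP x (A.rs F) P g → g (u ^ i * v ^ l) = u ^ i * v ^ l) →
      (i = 0 ∧ l = 0) ∨ j * k₁ ≤ i ∨ j * k₂ ≤ l ∨ (k₁ ≤ i ∧ k₂ ≤ l)) :
    (res x (A.fx H) P).AT j := by
  have k : HomOn (Bx x (A.rs F)) P.ev :=
    P.hom.mono fun b hb => hP.int b (Ext_Bx_mono x le_top hb)
  have := hF.finite A
  have hle : (res x (A.fx H) P).Le (res x (A.rs F) P) :=
    res_mono hP (A.fix_fix H hN).2 fun a ha => (A.fx_span H hN).1 (hx a ha)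
  have mu := hr.gen.1
  have mv := hr.gen.2.1
  have u0 : u ≠ 0 := by
    rintro rfl
    have h := hr.nv 1
    exact h ⟨0, zero_mem _, by simp⟩
  have v0 : v ≠ 0 := by
    rintro rfl
    have h := hr.nu 1
    exact h ⟨0, zero_mem _, by simp⟩
  have bx : ∀ {w : L}, w ^ n ∈ x.O → w ∈ (res x (A.rs F) P).O → w ∈ Bx x (A.rs F) :=
    fun {w} h h' => mem_Bx.2 ⟨IsIntegral.of_pow hn1
      (isIntegral_algebraMap (x := (⟨w ^ n, h⟩ : x.O))), hr.sub _ h'⟩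
  have bu := bx hu mu.1
  have bv := bx hv mv.1
  obtain ⟨τ, t1, -, -, -, t5⟩ := A.at_tr hx hP hF hn hN
  obtain ⟨ε, hε, ε0, eX⟩ := t5 (u ^ (j * k₁)) (pow_ne_zero _ u0)
    (fun g => by simpa using A.at_char2 hn1 (hx _ hu) (hx _ hv) (j * k₁) 0 g)
    fun g hg hi => (h1 g hg hi).1
  obtain ⟨δ, hδ, δ0, eZ⟩ := t5 (u ^ k₁ * v ^ k₂) (mul_ne_zero (pow_ne_zero _ u0) (pow_ne_zero _ v0))
    (A.at_char2 hn1 (hx _ hu) (hx _ hv) k₁ k₂) fun g hg hi => (h1 g hg hi).2.2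
  have hX : ε * u ^ (j * k₁) ∈ A.fx H := eX ▸ (mem_Bx.1 (t1 _ (pow_mem bu _))).2
  have hZ : δ * (u ^ k₁ * v ^ k₂) ∈ A.fx H :=
    eZ ▸ (mem_Bx.1 (t1 _ (mul_mem (pow_mem bu _) (pow_mem bv _)))).2
  have Uε : (res x (A.rs F) P).U ε := ⟨(mkLP_base k hε).1, (mkLP_base k hε).2 ▸ ε0⟩
  have Uδ : (res x (A.rs F) P).U δ := ⟨(mkLP_base k hδ).1, (mkLP_base k hδ).2 ▸ δ0⟩
  have ε1 := Uε.ne
  have δ1 := Uδ.ne
  have iε := ((res x (A.rs F) P).ev_inv Uε).1.1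
  have iδ := ((res x (A.rs F) P).ev_inv Uδ).1.1
  have eY : (δ * (u ^ k₁ * v ^ k₂)) ^ j / (ε * u ^ (j * k₁)) = δ ^ j * ε⁻¹ * v ^ (j * k₂) := by
    field_simp
    ring
  have hY : δ ^ j * ε⁻¹ * v ^ (j * k₂) ∈ A.fx H := eY ▸ div_mem (pow_mem hZ j) hX
  have p1 := at_pow mu (Nat.mul_pos hj hk₁)
  have p2 := at_pow mv (Nat.mul_pos hj hk₂)
  have p3 := LP.m.mul_left (pow_mem mu.1 k₁) (at_pow mv hk₂)
  have dm : ∀ {w : L}, w ∈ A.fx H → (res x (A.rs F) P).m w → (res x (A.fx H) P).m w :=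
    fun {w} h h' => ⟨A.desc hx hP hF hn hN h h'.1,
      (hle w (A.desc hx hP hF hn hN h h'.1)).2.symm.trans h'.2⟩
  refine ⟨ε * u ^ (j * k₁), δ ^ j * ε⁻¹ * v ^ (j * k₂), δ * (u ^ k₁ * v ^ k₂),
    ⟨dm hX (LP.m.mul_left Uε.1 p1), dm hY (LP.m.mul_left (mul_mem (pow_mem Uδ.1 j) iε) p2),
      dm hZ (LP.m.mul_left Uδ.1 p3), fun a ha => ?_⟩, ?_⟩
  · have haH : a ∈ A.fx H :=
      (res_np hP le_top fun a ha => (A.fx_span H hN).1 (hx a ha)).1.sub a ha.1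
    obtain ⟨c, α, hα, β, hβ, γ, hγ, e⟩ := A.at_gen hx hP hF hn hr hn1 hu hv hN
      (fun g hg hi => ⟨(h1 g hg hi).1, (h1 g hg hi).2.1⟩) h2 haH (hle a ha.1).1
    have q := ((LP.m.mul_left hα p1).add (LP.m.mul_left hβ p2)).add (LP.m.mul_left hγ p3)
    have c0 : c = 0 := by
      have e1 := (hle a ha.1).2.trans ha.2
      rwa [e, (res x (A.rs F) P).hom.add _ (Subalgebra.algebraMap_mem _ c) _ q.1, q.2,
        (res x (A.rs F) P).hom.alg, add_zero] at e1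
    refine A.at_comb hx hP hF hn hN haH hX hY hZ (mul_mem hα iε)
      (mul_mem hβ (mul_mem (pow_mem iδ j) Uε.1)) (mul_mem hγ iδ) ?_
    rw [e, c0, map_zero, inv_pow]
    field_simp
    ring
  · rw [← eY]
    field_simp

end Vale.Agent.P300
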