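import Vale.Agent.P300.Top

/-! Blowing up a point: local rings. `ℓ (i, k) = ξ k f i - ξ i f k` are the linear forms vanishing at
`ξ`; divided by `f j` (`ξ j ≠ 0`) they generate the maximal ideal `m` of `O = T.loc ξ`. At a point
`η` above `ξ` the ideal `m O'` is principal, generated by one of `u, v, w`. If `w` generates then
`u' = u / w`, `v' = v / w ∈ O'`, `u' v' = w ^ (j - 2)` and the maximal ideal of `O'` is generated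
by `w, u' - u'(η), v' - v'(η)` (`Model.seg_m`; each `ℓ / w` is `α u' + β v' + γ`). If `u`
generates then `v / u = u ^ (j - 2) (w / u) ^ j`, two generators `u, w / u - c`. -/

open scoped LinearAlgebra.Projectivization Topology Classical
open Polynomial

namespace Vale.Agent.P300

variable {L : Type} [Field L] [Algebra ℂ L]

/-- linear forms vanishing at `ξ` -/
noncomputable def Model.lin (T : Model L) (ξ : ℙ ℂ (T.ι → ℂ)) (p : T.ι × T.ι) : L :=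
  algebraMap ℂ L (ξ.rep p.2) * T.f p.1 - algebraMap ℂ L (ξ.rep p.1) * T.f p.2

/-- the projection from `ξ` -/
noncomputable def Model.prj (T : Model L) (ξ : ℙ ℂ (T.ι → ℂ)) (h : ∃ p, T.lin ξ p ≠ 0) : Model L :=
  ⟨T.ι × T.ι, T.lin ξ, h⟩

/-- the blow-up -/
noncomputable def Model.bl (T : Model L) (ξ : ℙ ℂ (T.ι → ℂ)) (h : ∃ p, T.lin ξ p ≠ 0) : Model L :=
  T.seg (T.prj ξ h)

theorem Blow1_ev {T : Model L} {x : LP L} {η : ℙ ℂ (T.ι → ℂ)} (hx : T.Ctr x η)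
    (ξ : ℙ ℂ (T.ι → ℂ)) {k : T.ι} (hk : η.rep k ≠ 0) (p : T.ι × T.ι) :
    T.lin ξ p / T.f k ∈ x.O ∧ x.ev (T.lin ξ p / T.f k) =
      (ξ.rep p.2 * η.rep p.1 - ξ.rep p.1 * η.rep p.2) / η.rep k := by
  have h := hx.ratio hk
  have m := fun c i => x.O.mul_mem (x.O.algebraMap_mem c) (h i).1
  have e := fun c i => x.hom.mul _ (x.O.algebraMap_mem c) _ (h i).1
  rw [Model.lin, sub_div, mul_div_assoc, mul_div_assoc, x.hom.sub (m _ _) (m _ _), e, e, (h _).2,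
    (h _).2, x.hom.alg, x.hom.alg]
  exact ⟨x.O.sub_mem (m _ _) (m _ _), by ring⟩

theorem Blow1_m {T : Model L} {ξ : ℙ ℂ (T.ι → ℂ)} (hξ : ξ ∈ T.Pt) (p : T.ι × T.ι) :
    (T.loc ξ).m (T.lin ξ p / T.f (nz ξ)) :=
  (Blow1_ev (T.ctr_loc hξ) ξ (nz_spec ξ) p).imp_right fun h => h.trans (by ring)

theorem Blow1_gen {T : Model L} {ξ : ℙ ℂ (T.ι → ℂ)} (hξ : ξ ∈ T.Pt) {a : L} (ha : (T.loc ξ).m a)
    (r : L) : ∃ α : T.ι → L, (∀ i, α i ∈ (T.loc ξ).O) ∧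
      a / r = ∑ i, α i * (T.lin ξ (i, nz ξ) / T.f (nz ξ) / r) := by
  obtain ⟨α, h1, h2⟩ := pv_m (T.valid hξ (nz_spec ξ)) ha
  refine ⟨fun i => α i * algebraMap ℂ L (ξ.rep (nz ξ))⁻¹,
    fun i => Subalgebra.mul_mem _ (h1 i) (Subalgebra.algebraMap_mem _ _), ?_⟩
  rw [h2, Finset.sum_div]
  refine Finset.sum_congr rfl fun i _ => ?_
  have e1 := T.f_ne hξ (nz_spec ξ)
  have e2 := (_root_.map_ne_zero (algebraMap ℂ L)).2 (nz_spec ξ)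
  simp only [Model.lin, map_div₀, map_inv₀, ← mul_div_assoc]
  congr 1
  field_simp

theorem Blow1_div {x : LP L} {u v w : L} (hg : x.Gen3 u v w) (hw : w ≠ 0) {R : Subalgebra ℂ L}
    (hR : ∀ a ∈ x.O, a ∈ R) (hu : u / w ∈ R) (hv : v / w ∈ R) (a : L) (ha : x.m a) :
    a / w ∈ R := by
  obtain ⟨α, hα, β, hβ, γ, hγ, rfl⟩ := hg.2.2.2 a ha
  rw [add_div, add_div, mul_div_assoc, mul_div_assoc, mul_div_cancel_right₀ _ hw]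
  exact R.add_mem (R.add_mem (R.mul_mem (hR _ hα) hu) (R.mul_mem (hR _ hβ) hv)) (hR _ hγ)

theorem Blow1_swap {x : LP L} {u v w : L} (h : x.Gen3 u v w) : x.Gen3 v u w :=
  ⟨h.2.1, h.1, h.2.2.1, fun a ha => by
    obtain ⟨α, hα, β, hβ, γ, hγ, e⟩ := h.2.2.2 a ha
    exact ⟨β, hβ, α, hα, γ, hγ, e.trans (by ring)⟩⟩

theorem Blow1_rot {x : LP L} {u v w : L} (h : x.Gen3 u v w) : x.Gen3 v w u :=
  ⟨h.2.1, h.2.2.1, h.1, fun a ha => by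
    obtain ⟨α, hα, β, hβ, γ, hγ, e⟩ := h.2.2.2 a ha
    exact ⟨β, hβ, γ, hγ, α, hα, e.trans (by ring)⟩⟩

/-- elements congruent to their value modulo `(a, b, c)` -/
def Blow1_S (y : LP L) (a b c : L) : Subalgebra ℂ L where
  carrier := {x | x ∈ y.O ∧ ∃ α ∈ y.O, ∃ β ∈ y.O, ∃ γ ∈ y.O,
    x - algebraMap ℂ L (y.ev x) = α * a + β * b + γ * c}
  mul_mem' := by
    rintro s t ⟨hs, α, hα, β, hβ, γ, hγ, e⟩ ⟨ht, α', hα', β', hβ', γ', hγ', e'⟩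
    have m : ∀ {p q}, p ∈ y.O → q ∈ y.O → s * p + algebraMap ℂ L (y.ev t) * q ∈ y.O :=
      fun hp hq => y.O.add_mem (y.O.mul_mem hs hp) (y.O.mul_mem (y.O.algebraMap_mem _) hq)
    refine ⟨y.O.mul_mem hs ht, _, m hα' hα, _, m hβ' hβ, _, m hγ' hγ, ?_⟩
    rw [y.hom.mul _ hs _ ht, map_mul]
    linear_combination s * e' + algebraMap ℂ L (y.ev t) * e
  add_mem' := by
    rintro s t ⟨hs, α, hα, β, hβ, γ, hγ, e⟩ ⟨ht, α', hα', β', hβ', γ', hγ', e'⟩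
    refine ⟨y.O.add_mem hs ht, _, y.O.add_mem hα hα', _, y.O.add_mem hβ hβ', _,
      y.O.add_mem hγ hγ', ?_⟩
    rw [y.hom.add _ hs _ ht, map_add]
    linear_combination e + e'
  algebraMap_mem' := fun r => ⟨y.O.algebraMap_mem r, 0, y.O.zero_mem, 0, y.O.zero_mem, 0,
    y.O.zero_mem, by simp [y.hom.alg]⟩

theorem Model.lin_ne (T : Model L) {ξ : ℙ ℂ (T.ι → ℂ)} (hξ : ξ ∈ T.Pt) (hd : (T.loc ξ).Dim2) :
    ∃ p, T.lin ξ p ≠ 0 := by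
  by_contra! h
  obtain ⟨b, hb, hn⟩ := hd 0 ⟨Subalgebra.zero_mem _, (T.loc ξ).hom.zero⟩
  obtain ⟨α, -, e⟩ := Blow1_gen hξ hb 1
  exact hn 1 ⟨0, Subalgebra.zero_mem _, by simpa [h] using e⟩

theorem Model.bl_dom (T : Model L) (ξ : ℙ ℂ (T.ι → ℂ)) (h : ∃ p, T.lin ξ p ≠ 0) :
    (T.bl ξ h).Dom T := T.seg_dom_left _

theorem Model.bl_in {T : Model L} {M : IntermediateField ℂ L} (hM : T.In M) (ξ : ℙ ℂ (T.ι → ℂ))
    (h : ∃ p, T.lin ξ p ≠ 0) : (T.bl ξ h).In M := by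
  obtain ⟨j, hj⟩ := T.ne
  have m : ∀ p, T.lin ξ p / T.f j ∈ M := fun p => by
    rw [Model.lin, sub_div, mul_div_assoc, mul_div_assoc]
    exact M.sub_mem (M.mul_mem (M.algebraMap_mem _) (hM _ _))
      (M.mul_mem (M.algebraMap_mem _) (hM _ _))
  exact hM.seg fun p q => div_div_div_cancel_right₀ hj (T.lin ξ p) _ ▸ M.div_mem (m p) (m q)

theorem Model.bl_reg (T : Model L) (ξ : ℙ ℂ (T.ι → ℂ)) (h : ∃ p, T.lin ξ p ≠ 0)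
    {η : ℙ ℂ (T.ι → ℂ)} (hη : η ∈ T.Pt) (hne : η ≠ ξ) : (T.bl ξ h).Reg (T.loc η) := by
  have e := Blow1_ev (T.ctr_loc hη) ξ (nz_spec η)
  simp only [div_eq_inv_mul (T.lin ξ _)] at e
  refine (T.reg_seg _ _).2 ⟨(T.ctr_loc hη).reg, _, fun p => (e p).1, ?_⟩
  by_contra! h0
  refine hne ?_
  rw [← η.mk_rep, ← ξ.mk_rep, Projectivization.mk_eq_mk_iff']
  refine ⟨η.rep (nz ξ) / ξ.rep (nz ξ), funext fun i => ?_⟩
  have h1 := (div_eq_zero_iff.1 ((e (i, nz ξ)).2.symm.trans (h0 _))).resolve_right (nz_spec η)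
  rw [Pi.smul_apply, smul_eq_mul, div_mul_eq_mul_div, div_eq_iff (nz_spec ξ)]
  linear_combination -h1

/-- regularity of the blow-up at a local point where `w` generates the extended ideal -/
theorem Model.bl_reg_of (T : Model L) {ξ : ℙ ℂ (T.ι → ℂ)} (hξ : ξ ∈ T.Pt) (h : ∃ p, T.lin ξ p ≠ 0)
    {y : LP L} (hy : (T.loc ξ).Le y) {w : L} (hw : (T.loc ξ).m w) (hw0 : w ≠ 0)
    (hg : ∀ a, (T.loc ξ).m a → a / w ∈ y.O) : (T.bl ξ h).Reg y := by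
  have e := fun p => hg _ (Blow1_m hξ p)
  obtain ⟨α, hα, e'⟩ := Blow1_gen hξ hw w
  have e2 : y.ev 1 ≠ 0 := y.hom.one ▸ one_ne_zero
  rw [← div_self hw0, e', y.hom.sum _ fun i _ => y.O.mul_mem (hy _ (hα i)).1 (e _)] at e2
  obtain ⟨i, -, hi⟩ := Finset.exists_ne_zero_of_sum_ne_zero e2
  rw [y.hom.mul _ (hy _ (hα i)).1 _ (e _)] at hi
  simp only [div_div] at e hi
  simp only [div_eq_inv_mul] at e hi
  exact (T.reg_seg _ _).2 ⟨((T.ctr_loc hξ).mono hy).reg, _, e, _, right_ne_zero_of_mul hi⟩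

theorem Blow1_le {T : Model L} {ξ : ℙ ℂ (T.ι → ℂ)} {h : ∃ p, T.lin ξ p ≠ 0}
    {η : ℙ ℂ ((T.bl ξ h).ι → ℂ)} (hη : η ∈ (T.bl ξ h).Pt) (he : (T.bl ξ h).dm T η = ξ) :
    (T.loc ξ).Le ((T.bl ξ h).loc η) := by
  have := (T.bl_dom ξ h).loc_le hη
  rwa [he] at this

theorem Blow1_key {T : Model L} {ξ : ℙ ℂ (T.ι → ℂ)} (hξ : ξ ∈ T.Pt) (h : ∃ p, T.lin ξ p ≠ 0)
    {u v w : L} (hg : (T.loc ξ).Gen3 u v w) (hw : w ≠ 0) {y : LP L} {S : Subalgebra ℂ L}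
    (hS : HomOn S y.ev) (hy : (T.loc ξ).Le y) (h1 : ∀ a ∈ (T.loc ξ).O, a ∈ S) (hu : u / w ∈ S)
    (hv : v / w ∈ S) : ∃ η, (T.bl ξ h).Ctr (mkLP S y.ev) η :=
  (T.bl_reg_of hξ h (fun a ha => (mkLP_base hS (h1 a ha)).imp_right (·.trans (hy a ha).2))
    hg.2.2.1 hw fun a ha => (mkLP_base hS (Blow1_div hg hw h1 hu hv a ha)).1).ctr

/-- structure of a point above the centre -/
theorem Model.bl_gen (T : Model L) {ξ : ℙ ℂ (T.ι → ℂ)} (hξ : ξ ∈ T.Pt) (h : ∃ p, T.lin ξ p ≠ 0)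
    {u v w : L} (hg : (T.loc ξ).Gen3 u v w) {η : ℙ ℂ ((T.bl ξ h).ι → ℂ)}
    (hη : η ∈ (T.bl ξ h).Pt) (he : (T.bl ξ h).dm T η = ξ) :
    ∃ r ∈ ({u, v, w} : Set L), r ≠ 0 ∧ u / r ∈ ((T.bl ξ h).loc η).O ∧ v / r ∈ ((T.bl ξ h).loc η).O ∧
      w / r ∈ ((T.bl ξ h).loc η).O := by
  have hy := Blow1_le hη he
  obtain ⟨q, hq, hp⟩ := (Model.reg_iff _ _).1 (T.seg_dom_right (T.prj ξ h) η hη)
  change ∀ p, T.lin ξ p / T.lin ξ q ∈ ((T.bl ξ h).loc η).O at hp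
  generalize (T.bl ξ h).loc η = y at *
  have f0 := T.f_ne hξ (nz_spec ξ)
  have t0 : T.lin ξ q / T.f (nz ξ) ≠ 0 := div_ne_zero hq f0
  have m : ∀ a, (T.loc ξ).m a → a / (T.lin ξ q / T.f (nz ξ)) ∈ y.O := fun a ha => by
    obtain ⟨α, hα, e⟩ := Blow1_gen hξ ha (T.lin ξ q / T.f (nz ξ))
    rw [e]
    exact y.O.sum_mem fun i _ => y.O.mul_mem (hy _ (hα i)).1
      ((div_div_div_cancel_right₀ f0 _ _).symm ▸ hp _)
  obtain ⟨α, hα, β, hβ, γ, hγ, e⟩ := hg.2.2.2 _ (Blow1_m hξ q)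
  generalize T.lin ξ q / T.f (nz ξ) = t at *
  have k : ∀ r, (T.loc ξ).m r → y.ev (r / t) ≠ 0 →
      r ≠ 0 ∧ u / r ∈ y.O ∧ v / r ∈ y.O ∧ w / r ∈ y.O := fun r hr h0 => by
    have d : ∀ a, (T.loc ξ).m a → a / r ∈ y.O := fun a ha =>
      div_div_div_cancel_right₀ t0 a r ▸ (y.ev_div (m a ha) ⟨m r hr, h0⟩).1
    exact ⟨fun e => y.hom.ne h0 (by rw [e, zero_div]), d _ hg.1, d _ hg.2.1, d _ hg.2.2.1⟩
  by_contra hn
  have z : ∀ r ∈ ({u, v, w} : Set L), (T.loc ξ).m r → ∀ a ∈ (T.loc ξ).O, y.m (a * (r / t)) :=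
    fun r hr hm a ha => LP.m.mul_left (hy a ha).1
      ⟨m r hm, by_contra fun h0 => hn ⟨r, hr, k r hm h0⟩⟩
  have := (((z u (by simp) hg.1 α hα).add (z v (by simp) hg.2.1 β hβ)).add
    (z w (by simp) hg.2.2.1 γ hγ)).2
  rw [← mul_div_assoc, ← mul_div_assoc, ← mul_div_assoc, ← add_div, ← add_div, ← e, div_self t0,
    y.hom.one] at this
  exact one_ne_zero this

/-- generators of the maximal ideal above the centre when `w` generates the extended ideal -/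
theorem Model.bl_gen3 (T : Model L) {ξ : ℙ ℂ (T.ι → ℂ)} (hξ : ξ ∈ T.Pt) (h : ∃ p, T.lin ξ p ≠ 0)
    {u v w : L} (hg : (T.loc ξ).Gen3 u v w) {η : ℙ ℂ ((T.bl ξ h).ι → ℂ)}
    (hη : η ∈ (T.bl ξ h).Pt) (he : (T.bl ξ h).dm T η = ξ) (hw : w ≠ 0)
    (hu : u / w ∈ ((T.bl ξ h).loc η).O) (hv : v / w ∈ ((T.bl ξ h).loc η).O) :
    ((T.bl ξ h).loc η).Gen3 (u / w - algebraMap ℂ L (((T.bl ξ h).loc η).ev (u / w)))
      (v / w - algebraMap ℂ L (((T.bl ξ h).loc η).ev (v / w))) w := by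
  have hy := Blow1_le hη he
  have hc := (T.bl ξ h).ctr_loc hη
  refine ⟨LP.m_sub_ev _ hu, LP.m_sub_ev _ hv, (hy w hg.2.2.1.1).imp_right (·.trans hg.2.2.1.2),
    fun a ha => ?_⟩
  set y := (T.bl ξ h).loc η
  have hS : HomOn (Blow1_S y (u / w - algebraMap ℂ L (y.ev (u / w)))
    (v / w - algebraMap ℂ L (y.ev (v / w))) w) y.ev := y.hom.mono fun a ha => ha.1
  obtain ⟨η', h'⟩ := Blow1_key hξ h hg hw hS hy
    (fun a ha => ⟨(hy a ha).1, 0, y.O.zero_mem, 0, y.O.zero_mem, _, Blow1_div hg hw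
      (fun a ha => (hy a ha).1) hu hv _ (LP.m_sub_ev _ ha), by simp [(hy a ha).2, hw]⟩)
    ⟨hu, 1, y.O.one_mem, 0, y.O.zero_mem, 0, y.O.zero_mem, by simp⟩
    ⟨hv, 0, y.O.zero_mem, 1, y.O.one_mem, 0, y.O.zero_mem, by simp⟩
  rw [(h'.mono (mkLP_le hS fun a ha => ⟨ha.1, rfl⟩)).unique hc] at h'
  obtain ⟨b, ⟨-, α, hα, β, hβ, γ, hγ, e⟩, c, ⟨hc, -⟩, h1, rfl⟩ :=
    (mem_mkLP hS).1 (h'.loc_le a ha.1).1
  have i := y.inv_mem c hc h1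
  refine ⟨_, y.O.mul_mem i hα, _, y.O.mul_mem i hβ, _, y.O.mul_mem i hγ, ?_⟩
  rw [y.hom.mul _ ha.1 _ hc, ha.2, zero_mul, map_zero, sub_zero] at e
  linear_combination c⁻¹ * e - a * inv_mul_cancel₀ (y.hom.ne h1)

/-- a point above the centre is determined by the values of `u / w` and `v / w` -/
theorem Model.bl_ext (T : Model L) {ξ : ℙ ℂ (T.ι → ℂ)} (hξ : ξ ∈ T.Pt) (h : ∃ p, T.lin ξ p ≠ 0)
    {u v w : L} (hg : (T.loc ξ).Gen3 u v w) (hw : w ≠ 0) {η η' : ℙ ℂ ((T.bl ξ h).ι → ℂ)}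
    {y y' : LP L} (hη : (T.bl ξ h).Ctr y η) (hη' : (T.bl ξ h).Ctr y' η') (hy : (T.loc ξ).Le y)
    (hy' : (T.loc ξ).Le y') (hu : u / w ∈ y.O) (hv : v / w ∈ y.O) (hu' : u / w ∈ y'.O)
    (hv' : v / w ∈ y'.O) (e1 : y.ev (u / w) = y'.ev (u / w)) (e2 : y.ev (v / w) = y'.ev (v / w)) :
    η = η' := by
  let S : Subalgebra ℂ L :=
    { carrier := {a | a ∈ y.O ∧ a ∈ y'.O ∧ y'.ev a = y.ev a}
      mul_mem' := fun ha hb => ⟨y.O.mul_mem ha.1 hb.1, y'.O.mul_mem ha.2.1 hb.2.1, by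
        rw [y.hom.mul _ ha.1 _ hb.1, y'.hom.mul _ ha.2.1 _ hb.2.1, ha.2.2, hb.2.2]⟩
      add_mem' := fun ha hb => ⟨y.O.add_mem ha.1 hb.1, y'.O.add_mem ha.2.1 hb.2.1, by
        rw [y.hom.add _ ha.1 _ hb.1, y'.hom.add _ ha.2.1 _ hb.2.1, ha.2.2, hb.2.2]⟩
      algebraMap_mem' := fun r => ⟨y.O.algebraMap_mem r, y'.O.algebraMap_mem r, by
        rw [y.hom.alg, y'.hom.alg]⟩ }
  have hS : HomOn S y.ev := y.hom.mono fun a ha => ha.1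
  obtain ⟨ζ, h'⟩ := Blow1_key hξ h hg hw hS hy
    (fun a ha => ⟨(hy a ha).1, (hy' a ha).1, (hy' a ha).2.trans (hy a ha).2.symm⟩)
    ⟨hu, hu', e1.symm⟩ ⟨hv, hv', e2.symm⟩
  exact (hη.unique (h'.mono (mkLP_le hS fun a ha => ⟨ha.1, rfl⟩))).trans
    ((h'.mono (mkLP_le hS fun a ha => ha.2)).unique hη')

theorem Blow1_u {T : Model L} {ξ : ℙ ℂ (T.ι → ℂ)} (hξ : ξ ∈ T.Pt) {h : ∃ p, T.lin ξ p ≠ 0}
    {u v w : L} (hg : (T.loc ξ).Gen3 u v w) {k : ℕ} (e : u * v = w ^ (k + 2))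
    {η : ℙ ℂ ((T.bl ξ h).ι → ℂ)} (hη : η ∈ (T.bl ξ h).Pt) (he : (T.bl ξ h).dm T η = ξ)
    (hu : u ≠ 0) (hv : v / u ∈ ((T.bl ξ h).loc η).O) (hw : w / u ∈ ((T.bl ξ h).loc η).O) :
    ∃ a b, ((T.bl ξ h).loc η).Gen2 a b := by
  obtain ⟨-, h2, h3, h4⟩ := T.bl_gen3 hξ h (Blow1_rot hg) hη he hu hv hw
  refine ⟨_, _, h2, h3, fun a ha => ?_⟩
  generalize (T.bl ξ h).loc η = y at *
  obtain ⟨α, hα, β, hβ, γ, hγ, rfl⟩ := h4 a ha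
  have a1 : u ∈ Blow1_S y 0 (w / u - algebraMap ℂ L (y.ev (w / u))) u :=
    ⟨h3.1, 0, y.O.zero_mem, 0, y.O.zero_mem, 1, y.O.one_mem, by simp [h3.2]⟩
  have a2 : w / u ∈ Blow1_S y 0 (w / u - algebraMap ℂ L (y.ev (w / u))) u :=
    ⟨hw, 0, y.O.zero_mem, 1, y.O.one_mem, 0, y.O.zero_mem, by simp⟩
  have := Subalgebra.mul_mem _ (Subalgebra.pow_mem _ a1 k) (Subalgebra.pow_mem _ a2 (k + 2))
  rw [show u ^ k * (w / u) ^ (k + 2) = v / u by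
    rw [div_pow, ← e]
    field_simp
    ring] at this
  obtain ⟨-, α', -, β', hβ', γ', hγ', e'⟩ := this
  exact ⟨_, y.O.add_mem (y.O.mul_mem hα hβ') hβ, _, y.O.add_mem (y.O.mul_mem hα hγ') hγ, by
    linear_combination α * e'⟩

theorem Model.bl_loc (T : Model L) {ξ : ℙ ℂ (T.ι → ℂ)} (hξ : ξ ∈ T.Pt) (h : ∃ p, T.lin ξ p ≠ 0)
    {j : ℕ} (hj : 2 ≤ j) (hA : (T.loc ξ).AT j) :
    ∃ η₀, ∀ η ∈ (T.bl ξ h).Pt, (T.bl ξ h).dm T η = ξ →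
      (∃ a b, ((T.bl ξ h).loc η).Gen2 a b) ∨
        (η = η₀ ∧ 3 ≤ j ∧ ((T.bl ξ h).loc η).AT (j - 2)) := by
  obtain ⟨k, rfl⟩ := Nat.exists_eq_add_of_le' hj
  obtain ⟨u, v, w, hg, e⟩ := hA
  obtain ⟨η₀, h0⟩ : ∃ η₀, ∀ η ∈ (T.bl ξ h).Pt, ((T.bl ξ h).dm T η = ξ ∧ w ≠ 0 ∧
      ((T.bl ξ h).loc η).m (u / w) ∧ ((T.bl ξ h).loc η).m (v / w)) → η = η₀ := by
    by_contra! hn
    obtain ⟨η, h1, h2, -⟩ := hn (T.bl ξ h).nonempty.choose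
    obtain ⟨η', h1', h2', h3⟩ := hn η
    exact h3 (T.bl_ext hξ h hg h2.2.1 (Model.ctr_loc _ h1') (Model.ctr_loc _ h1)
      (Blow1_le h1' h2'.1) (Blow1_le h1 h2.1) h2'.2.2.1.1 h2'.2.2.2.1 h2.2.2.1.1 h2.2.2.2.1
      (h2'.2.2.1.2.trans h2.2.2.1.2.symm) (h2'.2.2.2.2.trans h2.2.2.2.2.symm))
  refine ⟨η₀, fun η hη he => ?_⟩
  have e' := (mul_comm v u).trans e
  obtain ⟨r, rfl | rfl | rfl, h1, h2, h3, h4⟩ := T.bl_gen hξ h hg hη he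
  · exact .inl (Blow1_u hξ hg e hη he h1 h3 h4)
  · exact .inl (Blow1_u hξ (Blow1_swap hg) e' hη he h1 h2 h4)
  have d : ∀ {a b}, ((T.bl ξ h).loc η).U (a / r) → b / r ∈ ((T.bl ξ h).loc η).O →
      b / a ∈ ((T.bl ξ h).loc η).O := fun ha hb =>
    div_div_div_cancel_right₀ h1 _ _ ▸ (LP.ev_div _ hb ha).1
  by_cases a : ((T.bl ξ h).loc η).ev (u / r) = 0
  swap
  · exact .inl (Blow1_u hξ hg e hη he (div_ne_zero_iff.1 (LP.U.ne ⟨h2, a⟩)).1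
      (d ⟨h2, a⟩ h3) (d ⟨h2, a⟩ h4))
  by_cases b : ((T.bl ξ h).loc η).ev (v / r) = 0
  swap
  · exact .inl (Blow1_u hξ (Blow1_swap hg) e' hη he (div_ne_zero_iff.1 (LP.U.ne ⟨h3, b⟩)).1
      (d ⟨h3, b⟩ h2) (d ⟨h3, b⟩ h4))
  have q : u / r * (v / r) = r ^ k := by
    rw [div_mul_div_comm, e]
    field_simp
    ring
  refine .inr ⟨h0 η hη ⟨he, h1, ⟨h2, a⟩, h3, b⟩, ?_, u / r, v / r, r, ?_, q⟩
  · rcases k with _ | k
    · have := (LP.m.mul_left h2 ⟨h3, b⟩).2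
      rw [q, pow_zero, (LP.hom _).one] at this
      exact absurd this one_ne_zero
    · omega
  · simpa only [a, b, map_zero, sub_zero] using T.bl_gen3 hξ h hg hη he h1 h2 h3

end Vale.Agent.P300
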