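import Vale.Agent.P300.Mod

/-! Local rings of two-dimensional models have dimension at least two.
`R = ℂ[f i / f j]` is finite over a polynomial ring `ℂ[t₁..t_d]`
(`exists_integral_inj_algHom_of_fg`), `d ≥ 2` since `u, v` are fractions of `R`
(transcendence degree; or: for `d ≤ 1` any two elements are algebraically dependent); the trace of
the maximal ideal is the ideal of a point, which has a chain of primes of length two; going down
(`Mathlib/RingTheory/IntegralClosure/GoingDown.lean`) gives height `≥ 2`; Krull's principal ideal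
theorem (`Ideal.height_le_one_of_isPrincipal_of_mem_minimalPrimes`). -/

open scoped LinearAlgebra.Projectivization Topology Classical
open Polynomial

namespace Vale.Agent.P300

variable {L : Type} [Field L] [Algebra ℂ L]

theorem dim_poly {s : ℕ} (hs : 2 ≤ s) (χ : MvPolynomial (Fin s) ℂ →ₐ[ℂ] ℂ) :
    ∃ p : Ideal (MvPolynomial (Fin s) ℂ), p.IsPrime ∧ p ≠ ⊥ ∧ p < RingHom.ker χ := by
  let i₀ : Fin s := ⟨0, by omega⟩
  let i₁ : Fin s := ⟨1, by omega⟩
  have h01 : i₁ ≠ i₀ := by simp [i₀, i₁]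
  let φ : MvPolynomial (Fin s) ℂ →ₐ[ℂ] MvPolynomial (Fin s) ℂ := MvPolynomial.aeval fun i =>
    if i = i₀ then MvPolynomial.C (χ (MvPolynomial.X i₀)) else MvPolynomial.X i
  have hC : ∀ c : ℂ, χ (MvPolynomial.C c) = c := fun c => χ.commutes c
  have hφ : χ.comp φ = χ := by
    ext i
    by_cases h : i = i₀ <;> simp [φ, h, hC]
  have hX : ∀ (i : Fin s) (c : ℂ), (MvPolynomial.X i - MvPolynomial.C c :
      MvPolynomial (Fin s) ℂ) ≠ 0 := fun i c e => by
    have h := congrArg (MvPolynomial.eval fun _ => c + 1) e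
    simp at h
  refine ⟨RingHom.ker φ, RingHom.ker_isPrime _, fun e => ?_, lt_of_le_of_ne (fun F hF => ?_) ?_⟩
  · have h : MvPolynomial.X i₀ - MvPolynomial.C (χ (MvPolynomial.X i₀)) ∈ RingHom.ker φ := by
      simp [RingHom.mem_ker, φ]
    rw [e] at h
    exact hX _ _ h
  · rw [RingHom.mem_ker] at hF ⊢
    rw [← hφ, AlgHom.comp_apply, hF, map_zero]
  · intro e
    have h : MvPolynomial.X i₁ - MvPolynomial.C (χ (MvPolynomial.X i₁)) ∈ RingHom.ker χ := by
      simp [RingHom.mem_ker, hC]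
    rw [← e, RingHom.mem_ker] at h
    simp only [φ, map_sub, MvPolynomial.aeval_X, if_neg h01, MvPolynomial.aeval_C,
      MvPolynomial.algebraMap_eq] at h
    exact hX _ _ h

theorem dim_two {R : Type} [CommRing R] [IsDomain R] [Algebra ℂ R] [Algebra.FiniteType ℂ R]
    (h2 : 2 ≤ Algebra.trdeg ℂ R) (ψ : R →ₐ[ℂ] ℂ) : 2 ≤ (RingHom.ker ψ).height := by
  obtain ⟨s, g, hinj, hint⟩ := exists_integral_inj_algHom_of_fg ℂ R
  let _ : Algebra (MvPolynomial (Fin s) ℂ) R := g.toRingHom.toAlgebra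
  have : IsScalarTower ℂ (MvPolynomial (Fin s) ℂ) R :=
    IsScalarTower.of_algebraMap_eq fun c => (g.commutes c).symm
  have : FaithfulSMul (MvPolynomial (Fin s) ℂ) R :=
    (faithfulSMul_iff_algebraMap_injective _ _).2 hinj
  have : Algebra.IsIntegral (MvPolynomial (Fin s) ℂ) R := ⟨hint⟩
  have hs : 2 ≤ s := by
    rw [← trdeg_add_eq ℂ (MvPolynomial (Fin s) ℂ), trdeg_eq_zero (R := MvPolynomial (Fin s) ℂ),
      add_zero, MvPolynomial.trdeg_of_isDomain] at h2
    simp only [Cardinal.mk_fin, Cardinal.lift_natCast] at h2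
    exact_mod_cast h2
  obtain ⟨p, hp, hp0, hlt⟩ := dim_poly hs (ψ.comp g)
  have : (RingHom.ker ψ).IsPrime := RingHom.ker_isPrime _
  obtain ⟨P, hP, hP1, hP2⟩ := Ideal.exists_ideal_lt_liesOver_of_lt (p := p)
    (q := (RingHom.ker ψ).under (MvPolynomial (Fin s) ℂ)) (RingHom.ker ψ) hlt
  have hP0 : ⊥ < P := by
    refine bot_lt_iff_ne_bot.2 fun e => hp0 ?_
    rw [hP2.over, e]
    exact Ideal.comap_bot_of_injective _ hinj
  have h3 := Ideal.height_add_one_le_of_lt_of_isPrime hP0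
  have h4 := Ideal.height_add_one_le_of_lt_of_isPrime hP
  rw [Ideal.height_bot, zero_add] at h3
  calc (2 : ℕ∞) = 1 + 1 := one_add_one_eq_two.symm
    _ ≤ P.height + 1 := by gcongr
    _ ≤ _ := h4

open scoped IntermediateField.algebraAdjoinAdjoin in
theorem dim_tr {S : Set L} {u v : L} (h : AlgebraicIndependent ℂ ![u, v])
    (hu : u ∈ IntermediateField.adjoin ℂ S) (hv : v ∈ IntermediateField.adjoin ℂ S) :
    2 ≤ Algebra.trdeg ℂ (Algebra.adjoin ℂ S) := by
  have h1 : AlgebraicIndependent ℂ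
      ![(⟨u, hu⟩ : IntermediateField.adjoin ℂ S), (⟨v, hv⟩ : IntermediateField.adjoin ℂ S)] := by
    refine AlgebraicIndependent.of_comp (IntermediateField.adjoin ℂ S).val ?_
    have e : ((IntermediateField.adjoin ℂ S).val ∘
        ![(⟨u, hu⟩ : IntermediateField.adjoin ℂ S), (⟨v, hv⟩ : IntermediateField.adjoin ℂ S)]) =
        ![u, v] := by
      funext i
      fin_cases i <;> rfl
    rw [e]
    exact h
  have h2 := h1.cardinalMk_le_trdeg
  have : FaithfulSMul ℂ (Algebra.adjoin ℂ S) :=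
    (faithfulSMul_iff_algebraMap_injective _ _).2 (algebraMap ℂ _).injective
  rw [← trdeg_add_eq ℂ (Algebra.adjoin ℂ S), trdeg_eq_zero (R := Algebra.adjoin ℂ S),
    add_zero] at h2
  simpa using h2

theorem dim_pv {ι : Type} [Finite ι] {g : ι → L} {c : ι → ℂ} (h : Valid g c)
    (h2 : 2 ≤ Algebra.trdeg ℂ (Algebra.adjoin ℂ (Set.range g))) : (pv g c).Dim2 := by
  set R := Algebra.adjoin ℂ (Set.range g) with hR
  set x := pv g c with hx
  have hle : R ≤ x.O := Algebra.adjoin_le (by rintro _ ⟨i, rfl⟩; exact (pv_gen h i).1)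
  have : Algebra.FiniteType ℂ R :=
    (Subalgebra.fg_iff_finiteType _).1 (Subalgebra.fg_def.2 ⟨_, Set.finite_range g, rfl⟩)
  have : IsNoetherianRing R := Algebra.FiniteType.isNoetherianRing ℂ R
  let ψ : R →ₐ[ℂ] ℂ := x.evH.comp (Subalgebra.inclusion hle)
  have hψ : ∀ a : R, ψ a = x.ev a := fun a => rfl
  have hfr : ∀ a ∈ x.O, ∃ p q : R, ψ q ≠ 0 ∧ a * q = p := by
    intro a ha
    obtain ⟨P, Q, h3, h4⟩ := (mem_pv h).1 ha
    have hm : ∀ F : MvPolynomial ι ℂ, MvPolynomial.aeval g F ∈ R := fun F => by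
      rw [hR, Algebra.adjoin_range_eq_range_aeval]
      exact ⟨F, rfl⟩
    refine ⟨⟨_, hm P⟩, ⟨_, hm Q⟩, ?_, h4⟩
    rw [hψ, (pv_aeval h Q).2]
    exact h3
  have hp : (RingHom.ker ψ).IsPrime := RingHom.ker_isPrime _
  intro a ha
  by_contra hcon
  push Not at hcon
  obtain ⟨p, q, hq, hpq⟩ := hfr a ha.1
  have hmin : RingHom.ker ψ ∈ (Ideal.span {p}).minimalPrimes := by
    refine ⟨⟨hp, ?_⟩, ?_⟩
    · rw [Ideal.span_singleton_le_iff_mem, RingHom.mem_ker, hψ, ← hpq,
        x.hom.mul _ ha.1 _ (hle q.2), ha.2, zero_mul]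
    · rintro Q ⟨hQ, hpQ⟩ hQm b hb
      rw [Ideal.span_singleton_le_iff_mem] at hpQ
      obtain ⟨n, d, hd, e⟩ := hcon b ⟨hle b.2, hb⟩
      obtain ⟨p', q', hq', hpq'⟩ := hfr d hd
      have e2 : b ^ n * (q * q') = p * p' := by
        apply Subtype.ext
        simp only [MulMemClass.coe_mul, SubmonoidClass.coe_pow]
        rw [e, ← hpq, ← hpq']
        ring
      have h5 : b ^ n * (q * q') ∈ Q := e2 ▸ Q.mul_mem_right _ hpQ
      rcases hQ.mem_or_mem h5 with h6 | h6
      · exact hQ.mem_of_pow_mem _ h6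
      · have h7 := hQm h6
        rw [RingHom.mem_ker, map_mul] at h7
        exact absurd h7 (mul_ne_zero hq hq')
  have h8 := Ideal.height_le_one_of_isPrincipal_of_mem_minimalPrimes _ _ hmin
  have h9 := (dim_two h2 ψ).trans h8
  exact absurd h9 (by decide)

theorem Model.Tr2.dim2 {T : Model L} (h : T.Tr2) {ξ : ℙ ℂ (T.ι → ℂ)} (hξ : ξ ∈ T.Pt) :
    (T.loc ξ).Dim2 := by
  obtain ⟨u, v, hi, hf⟩ := h
  have hv := T.valid hξ (nz_spec ξ)
  have hs := pv_sub hv (M := IntermediateField.adjoin ℂ (Set.range fun i => T.f i / T.f (nz ξ)))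
    fun i => IntermediateField.subset_adjoin _ _ ⟨i, rfl⟩
  have hF : ∀ a, (T.loc ξ).Fr a →
      a ∈ IntermediateField.adjoin ℂ (Set.range fun i => T.f i / T.f (nz ξ)) := by
    rintro a ⟨b, hb, c, hc, h0, e⟩
    rw [eq_div_of_mul_eq h0 e]
    exact div_mem (hs b hb) (hs c hc)
  exact dim_pv hv (dim_tr hi (hF u (hf ξ hξ).1) (hF v (hf ξ hξ).2))

end Vale.Agent.P300
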