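import Vale.Agent.P300.Blow1
import Vale.Agent.P300.Dim

/-! The exceptional fibre is connected by curves. Let `η` be above `ξ` with `u` generating the
extended ideal, `w' = w / u`, `v / u = u ^ (j - 2) w' ^ j`. In `R = O[w']` every element is
`P(w') + u r`. No nonzero `P` has `P(w') ∈ u R`: otherwise in `O' = loc η` (maximal ideal
`(u, w' - c)`) a power of `w' - c` is divisible by `u`, against `Dim2`. So `θ : R → ℂ[t]`
(`u ↦ 0`, `w' ↦ t`) is a homomorphism and `t ↦ centre of mkLP R (θ(t))` is a polynomial curve through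
all points of the `u`-chart (`bl_reg_of`, `bl_ext`); reverse it (`Curve.rev`): the limit point has
`u / w = v / w = 0` (`j ≥ 3`) or `u / v = w / v = 0` (`j = 2`). Same for `v`; the only other point is
`u / w = v / w = 0` with `j ≥ 3`. -/

open scoped LinearAlgebra.Projectivization Topology Classical
open Polynomial

namespace Vale.Agent.P300

variable {L : Type} [Field L] [Algebra ℂ L]

theorem aeval_mem_Blow2 {A : Subalgebra ℂ L} {s : L} (hs : s ∈ A) (P : ℂ[X]) : aeval s P ∈ A :=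
  Algebra.adjoin_le (by simpa using hs) (aeval_mem_adjoin_singleton ℂ s (p := P))

/-- elements congruent to a polynomial in `s` modulo `u A` -/
theorem fam_Blow2 {A : Subalgebra ℂ L} {u s : L} (hu : u ∈ A) (u0 : u ≠ 0) (hs : s ∈ A)
    (tr : ∀ P : ℂ[X], aeval s P / u ∈ A → P = 0) :
    ∃ (R : Subalgebra ℂ L) (θ : L → ℂ[X]), (∀ t, HomOn R fun a => (θ a).eval t) ∧
      ∀ a P, (a - aeval s P) / u ∈ A → a ∈ R ∧ θ a = P := by
  have hm : ∀ {a a' : L} {P P' : ℂ[X]}, (a - aeval s P) / u ∈ A → (a' - aeval s P') / u ∈ A →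
      (a * a' - aeval s (P * P')) / u ∈ A := by
    intro a a' P P' h h'
    have := A.add_mem (A.add_mem (A.mul_mem (A.mul_mem h h') hu)
      (A.mul_mem h (aeval_mem_Blow2 hs P'))) (A.mul_mem (aeval_mem_Blow2 hs P) h')
    convert this using 1
    rw [map_mul]
    field_simp
    ring
  have ha : ∀ {a a' : L} {P P' : ℂ[X]}, (a - aeval s P) / u ∈ A → (a' - aeval s P') / u ∈ A →
      (a + a' - aeval s (P + P')) / u ∈ A := by
    intro a a' P P' h h'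
    convert A.add_mem h h' using 1
    rw [map_add]
    ring
  have hc : ∀ c : ℂ, (algebraMap ℂ L c - aeval s (C c)) / u ∈ A := fun c => by
    rw [aeval_C, sub_self, zero_div]
    exact A.zero_mem
  let R : Subalgebra ℂ L :=
    { carrier := {a | ∃ P : ℂ[X], (a - aeval s P) / u ∈ A}
      mul_mem' := fun ⟨_, h⟩ ⟨_, h'⟩ => ⟨_, hm h h'⟩
      add_mem' := fun ⟨_, h⟩ ⟨_, h'⟩ => ⟨_, ha h h'⟩
      algebraMap_mem' := fun c => ⟨_, hc c⟩ }
  let θ : L → ℂ[X] := fun a => if h : ∃ P : ℂ[X], (a - aeval s P) / u ∈ A then h.choose else 0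
  have e : ∀ a P, (a - aeval s P) / u ∈ A → θ a = P := by
    intro a P h
    have ex : ∃ P : ℂ[X], (a - aeval s P) / u ∈ A := ⟨P, h⟩
    have e1 : θ a = ex.choose := dif_pos ex
    rw [e1, ← sub_eq_zero]
    refine tr _ ?_
    convert A.sub_mem h ex.choose_spec using 1
    rw [map_sub]
    ring
  refine ⟨R, θ, fun t => ⟨?_, ?_, fun c => ?_⟩, fun a P h => ⟨⟨P, h⟩, e a P h⟩⟩
  · rintro a ⟨P, h⟩ a' ⟨P', h'⟩
    simp only [e _ _ h, e _ _ h', e _ _ (ha h h'), eval_add]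
  · rintro a ⟨P, h⟩ a' ⟨P', h'⟩
    simp only [e _ _ h, e _ _ h', e _ _ (hm h h'), eval_mul]
  · simp only [e _ _ (hc c), eval_C]

theorem curve_Blow2 (T : Model L) {ξ : ℙ ℂ (T.ι → ℂ)} (hξ : ξ ∈ T.Pt) (h : ∃ p, T.lin ξ p ≠ 0)
    {R : Subalgebra ℂ L} {θ : L → ℂ[X]} (hθ : ∀ t, HomOn R fun a => (θ a).eval t)
    (hO : ∀ a ∈ (T.loc ξ).O, a ∈ R ∧ θ a = C ((T.loc ξ).ev a)) {r : L} (hr : (T.loc ξ).m r)
    (r0 : r ≠ 0) (hg : ∀ a, (T.loc ξ).m a → a / r ∈ R) :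
    ∃ c : Curve (T.bl ξ h).Pt, ∀ t, (T.bl ξ h).Ctr (mkLP R fun a => (θ a).eval t) (c.pt t) ∧
      (T.loc ξ).Le (mkLP R fun a => (θ a).eval t) := by
  have hz := nz_spec ξ
  have f0 := T.f_ne hξ hz
  have hrat := (T.ctr_loc hξ).ratio hz
  have hlin : ∀ p, (T.loc ξ).m (T.lin ξ p / T.f (nz ξ)) := by
    intro p
    have e : T.lin ξ p / T.f (nz ξ) = ξ.rep p.2 • (T.f p.1 / T.f (nz ξ)) -
        ξ.rep p.1 • (T.f p.2 / T.f (nz ξ)) := by
      rw [Model.lin, Algebra.smul_def, Algebra.smul_def]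
      ring
    have m1 := (T.loc ξ).O.smul_mem (hrat p.1).1 (ξ.rep p.2)
    have m2 := (T.loc ξ).O.smul_mem (hrat p.2).1 (ξ.rep p.1)
    rw [e]
    refine ⟨(T.loc ξ).O.sub_mem m1 m2, ?_⟩
    rw [(T.loc ξ).hom.sub m1 m2, (T.loc ξ).hom.smul _ (hrat _).1, (T.loc ξ).hom.smul _ (hrat _).1,
      (hrat _).2, (hrat _).2]
    ring
  set l : L := (T.f (nz ξ) * T.f (nz ξ) * r)⁻¹ with hl
  have hmem : ∀ i : (T.bl ξ h).ι, l * (T.bl ξ h).f i ∈ R := by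
    rintro ⟨i, p⟩
    convert R.mul_mem (hO _ (hrat i).1).1 (hg _ (hlin p)) using 1
    show l * (T.f i * T.lin ξ p) = _
    rw [hl]
    field_simp
  have hne : ∀ t, (fun i : (T.bl ξ h).ι => (θ (l * (T.bl ξ h).f i)).eval t) ≠ 0 := by
    intro t e0
    obtain ⟨α, a1, a2⟩ := pv_m (T.valid hξ hz) hr
    have m1 : ∀ i, (ξ.rep (nz ξ))⁻¹ • α i ∈ R := fun i => R.smul_mem (hO _ (a1 i)).1 _
    have e1 : (1 : L) = ∑ i, ((ξ.rep (nz ξ))⁻¹ • α i) * (l * (T.bl ξ h).f (nz ξ, (i, nz ξ))) := by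
      have z : algebraMap ℂ L (ξ.rep (nz ξ)) ≠ 0 := by simpa using hz
      rw [← div_self r0]
      nth_rewrite 1 [a2]
      rw [Finset.sum_div]
      refine Finset.sum_congr rfl fun i _ => ?_
      show _ = _ * (l * (T.f (nz ξ) * T.lin ξ (i, nz ξ)))
      rw [hl, Model.lin, Algebra.smul_def, map_inv₀, map_div₀]
      field_simp
    have e2 := (hθ t).sum Finset.univ fun i _ => R.mul_mem (m1 i) (hmem (nz ξ, (i, nz ξ)))
    have e3 : ∀ i, (θ (l * (T.bl ξ h).f i)).eval t = 0 := congrFun e0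
    rw [← e1, (hθ t).one, Finset.sum_eq_zero fun i _ =>
      ((hθ t).mul _ (m1 i) _ (hmem (nz ξ, (i, nz ξ)))).trans (mul_eq_zero_of_right _ (e3 _))] at e2
    exact one_ne_zero e2
  have hc : ∀ t, (T.bl ξ h).Ctr (mkLP R fun a => (θ a).eval t)
      (Projectivization.mk ℂ _ (hne t)) := by
    intro t
    have e : (fun i => (mkLP R fun a => (θ a).eval t).ev (l * (T.bl ξ h).f i)) =
        fun i => (θ (l * (T.bl ξ h).f i)).eval t := funext fun i => (mkLP_base (hθ t) (hmem i)).2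
    have := (T.bl ξ h).ctr_mk (fun i => (mkLP_base (hθ t) (hmem i)).1) (by rw [e]; exact hne t)
    simpa only [e] using this
  refine ⟨⟨fun i => θ (l * (T.bl ξ h).f i), hne, fun t => (hc t).mem⟩, fun t => ⟨hc t, fun a ha =>
    ⟨(mkLP_base (hθ t) (hO a ha).1).1, ?_⟩⟩⟩
  rw [(mkLP_base (hθ t) (hO a ha).1).2, (hO a ha).2, eval_C]

theorem gen_swap_Blow2 {x : LP L} {u v w : L} (h : x.Gen3 u v w) : x.Gen3 v u w :=
  ⟨h.2.1, h.1, h.2.2.1, fun a ha => by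
    obtain ⟨α, h1, β, h2, γ, h3, e⟩ := h.2.2.2 a ha
    exact ⟨β, h2, α, h1, γ, h3, by rw [e]; ring⟩⟩

theorem gen_rot_Blow2 {x : LP L} {u v w : L} (h : x.Gen3 u v w) : x.Gen3 v w u :=
  ⟨h.2.1, h.2.2.1, h.1, fun a ha => by
    obtain ⟨α, h1, β, h2, γ, h3, e⟩ := h.2.2.2 a ha
    exact ⟨β, h2, γ, h3, α, h1, by rw [e]; ring⟩⟩

omit [Algebra ℂ L] in
theorem quot_Blow2 {u v w : L} {k : ℕ} (e : u * v = w ^ (k + 2)) (u0 : u ≠ 0) :
    v / u = u ^ k * (w / u) ^ (k + 2) := by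
  rw [div_pow, ← e]
  field_simp
  ring

theorem evq_Blow2 {y : LP L} {u v w : L} {k : ℕ} (e : u * v = w ^ (k + 2)) (u0 : u ≠ 0)
    (hu : y.m u) (ht : w / u ∈ y.O) :
    v / u ∈ y.O ∧ y.ev (v / u) = 0 ^ k * y.ev (w / u) ^ (k + 2) := by
  rw [quot_Blow2 e u0]
  refine ⟨y.O.mul_mem (y.O.pow_mem hu.1 _) (y.O.pow_mem ht _), ?_⟩
  rw [y.hom.mul _ (y.O.pow_mem hu.1 _) _ (y.O.pow_mem ht _), y.hom.pow hu.1, y.hom.pow ht, hu.2]

theorem le_m_Blow2 {x y : LP L} (h : x.Le y) {a : L} (ha : x.m a) : y.m a :=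
  ⟨(h a ha.1).1, (h a ha.1).2.trans ha.2⟩

/-- no nonzero polynomial in `w / u` is divisible by `u` -/
theorem tr_Blow2 {y : LP L} (hd : y.Dim2) {u v w : L} {k : ℕ} (e : u * v = w ^ (k + 2))
    (u0 : u ≠ 0) (ht : w / u ∈ y.O)
    (hg : y.Gen3 (v / u - algebraMap ℂ L (y.ev (v / u))) (w / u - algebraMap ℂ L (y.ev (w / u))) u)
    {Q : ℂ[X]} (hQ : aeval (w / u) Q / u ∈ y.O) : Q = 0 := by
  by_contra Q0
  have hu := hg.2.2.1
  obtain ⟨b, hb, hn⟩ := hd u hu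
  obtain ⟨Q1, q1, q2⟩ := exists_eq_pow_rootMultiplicity_mul_and_not_dvd Q Q0 (y.ev (w / u))
  have hU : y.U (aeval (w / u) Q1) := ⟨(y.hom.aeval ht Q1).1, by
    rw [(y.hom.aeval ht Q1).2]
    exact fun z => q2 (dvd_iff_isRoot.2 z)⟩
  have e2 := (evq_Blow2 e u0 hu ht).2
  have e3 := quot_Blow2 e u0
  have hτ := hg.2.1.1
  obtain ⟨α, h1, β, h2, γ, h3, e1⟩ := hg.2.2.2 b hb
  rw [e2, e3] at e1
  have hc := y.O.algebraMap_mem (y.ev (w / u))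
  generalize rootMultiplicity (y.ev (w / u)) Q = n at q1
  generalize y.ev (w / u) = c at *
  generalize w / u = t at *
  have hp : (t - algebraMap ℂ L c) ^ n = u * (aeval t Q / u / aeval t Q1) := by
    have := hU.ne
    rw [q1, map_mul, map_pow, map_sub, aeval_X, aeval_C]
    field_simp
  obtain ⟨δ, d1, ε, d2, e4⟩ : ∃ δ ∈ y.O, ∃ ε ∈ y.O, b = δ * u + ε * (t - algebraMap ℂ L c) := by
    cases k with
    | zero =>
      refine ⟨γ, h3, α * (t + algebraMap ℂ L c) + β,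
        y.O.add_mem (y.O.mul_mem h1 (y.O.add_mem ht hc)) h2, ?_⟩
      rw [e1, map_mul, map_pow, map_pow]
      ring
    | succ k =>
      refine ⟨γ + α * (u ^ k * t ^ (k + 3)), y.O.add_mem h3 (y.O.mul_mem h1
        (y.O.mul_mem (y.O.pow_mem hu.1 _) (y.O.pow_mem ht _))), β, h2, ?_⟩
      rw [e1, zero_pow k.succ_ne_zero, zero_mul, map_zero]
      ring
  have key : ∀ m : ℕ, ∃ κ ∈ y.O, b ^ m = u * κ + (ε * (t - algebraMap ℂ L c)) ^ m := by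
    intro m
    induction m with
    | zero => exact ⟨0, y.O.zero_mem, by simp⟩
    | succ m ih =>
      obtain ⟨κ, k1, k2⟩ := ih
      refine ⟨κ * b + (ε * (t - algebraMap ℂ L c)) ^ m * δ, y.O.add_mem (y.O.mul_mem k1 hb.1)
        (y.O.mul_mem (y.O.pow_mem (y.O.mul_mem d2 hτ) _) d1), ?_⟩
      rw [pow_succ, k2, pow_succ]
      linear_combination (ε * (t - algebraMap ℂ L c)) ^ m * e4
  obtain ⟨κ, k1, k2⟩ := key n
  refine hn n ⟨κ + ε ^ n * (aeval t Q / u / aeval t Q1),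
    y.O.add_mem k1 (y.O.mul_mem (y.O.pow_mem d2 _) (y.ev_div hQ hU).1), ?_⟩
  rw [k2, mul_pow, hp]
  ring

/-- a point above the centre with `a / r` regular of value `c` -/
def TyB (T : Model L) (ξ : ℙ ℂ (T.ι → ℂ)) (h : ∃ p, T.lin ξ p ≠ 0) (a b : L) (c c' : ℂ)
    (η : ℙ ℂ ((T.bl ξ h).ι → ℂ)) : Prop :=
  ∃ y, (T.bl ξ h).Ctr y η ∧ (T.loc ξ).Le y ∧ (a ∈ y.O ∧ y.ev a = c) ∧ b ∈ y.O ∧ y.ev b = c'

theorem uniq_Blow2 {T : Model L} {ξ : ℙ ℂ (T.ι → ℂ)} (hξ : ξ ∈ T.Pt) {h : ∃ p, T.lin ξ p ≠ 0}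
    {u v w : L} {k : ℕ} (hg : (T.loc ξ).Gen3 u v w) (e : u * v = w ^ (k + 2)) (u0 : u ≠ 0) {c : ℂ}
    {η η' : ℙ ℂ ((T.bl ξ h).ι → ℂ)} (h1 : TyB T ξ h (w / u) (w / u) c c η)
    (h2 : TyB T ξ h (w / u) (w / u) c c η') : η = η' := by
  obtain ⟨y, a1, a2, ⟨a3, a4⟩, -⟩ := h1
  obtain ⟨y', b1, b2, ⟨b3, b4⟩, -⟩ := h2
  obtain ⟨a5, a6⟩ := evq_Blow2 e u0 (le_m_Blow2 a2 hg.1) a3
  obtain ⟨b5, b6⟩ := evq_Blow2 e u0 (le_m_Blow2 b2 hg.1) b3
  exact T.bl_ext hξ h (gen_rot_Blow2 hg) u0 a1 b1 a2 b2 a5 a3 b5 b3 (by rw [a6, b6, a4, b4])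
    (a4.trans b4.symm)

theorem step_Blow2 {T : Model L} {ξ : ℙ ℂ (T.ι → ℂ)} (hξ : ξ ∈ T.Pt) {h : ∃ p, T.lin ξ p ≠ 0}
    (c : Curve (T.bl ξ h).Pt) {y : ℂ → LP L}
    (hc : ∀ t, (T.bl ξ h).Ctr (y t) (c.pt t) ∧ (T.loc ξ).Le (y t)) (t t' : ℂ) :
    CStep (T.bl ξ h).Pt ((T.bl ξ h).dm T) (c.pt t) (c.pt t') := by
  have e : ∀ r, (T.bl ξ h).dm T (c.pt r) = ξ := fun r =>
    ((T.bl_dom ξ h).ctr (hc r).1).unique ((T.ctr_loc hξ).mono (hc r).2)
  exact ⟨c, t, t', rfl, rfl, fun r => (e r).trans (e t).symm⟩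

theorem chart_Blow2 {T : Model L} (hT : T.Tr2) {ξ : ℙ ℂ (T.ι → ℂ)} (hξ : ξ ∈ T.Pt)
    {h : ∃ p, T.lin ξ p ≠ 0} {u v w : L} {k : ℕ} (hg : (T.loc ξ).Gen3 u v w)
    (e : u * v = w ^ (k + 2)) (u0 : u ≠ 0) {η : ℙ ℂ ((T.bl ξ h).ι → ℂ)}
    (hη : η ∈ (T.bl ξ h).Pt) (he : (T.bl ξ h).dm T η = ξ) (ht : w / u ∈ ((T.bl ξ h).loc η).O) :
    (∃ η', Relation.ReflTransGen (CStep (T.bl ξ h).Pt ((T.bl ξ h).dm T)) η η' ∧
      TyB T ξ h (w / u) (w / u) 0 0 η') ∧ w ≠ 0 ∧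
    ∃ η', Relation.ReflTransGen (CStep (T.bl ξ h).Pt ((T.bl ξ h).dm T)) η η' ∧
      (k = 0 → TyB T ξ h (w / v) (w / v) 0 0 η') ∧ (k ≠ 0 → TyB T ξ h (u / w) (v / w) 0 0 η') := by
  have hle : (T.loc ξ).Le ((T.bl ξ h).loc η) := by
    have := (T.bl_dom ξ h).loc_le hη
    rwa [he] at this
  have hv := quot_Blow2 e u0
  have g3 := T.bl_gen3 hξ h (gen_rot_Blow2 hg) hη he u0
    (evq_Blow2 e u0 (le_m_Blow2 hle hg.1) ht).1 ht
  have tr0 := fun Q => tr_Blow2 ((Model.Tr2.dom (T.bl_dom ξ h) hT).dim2 hη) e u0 ht g3 (Q := Q)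
  set A : Subalgebra ℂ L := Algebra.adjoin ℂ (((T.loc ξ).O : Set L) ∪ {w / u, (w / u)⁻¹}) with hA
  have oA : ∀ a ∈ (T.loc ξ).O, a ∈ A := fun a ha => Algebra.subset_adjoin (Or.inl ha)
  have tA : w / u ∈ A := Algebra.subset_adjoin (Or.inr (Or.inl rfl))
  have sA : (w / u)⁻¹ ∈ A := Algebra.subset_adjoin (Or.inr (Or.inr rfl))
  have uA := oA u hg.1.1
  have den : ∀ a ∈ A, ∃ n : ℕ, (w / u) ^ n * a ∈ ((T.bl ξ h).loc η).O := by
    intro a ha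
    induction ha using Algebra.adjoin_induction with
    | mem a ha =>
      rcases ha with ha | rfl | rfl
      · exact ⟨0, by simpa using (hle a ha).1⟩
      · exact ⟨0, by simpa using ht⟩
      · refine ⟨1, ?_⟩
        by_cases z : w / u = 0
        · rw [z, inv_zero, mul_zero]
          exact Subalgebra.zero_mem _
        · rw [pow_one, mul_inv_cancel₀ z]
          exact Subalgebra.one_mem _
    | algebraMap c => exact ⟨0, by simp⟩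
    | add a b _ _ ha hb =>
      obtain ⟨n, hn⟩ := ha
      obtain ⟨m, hm⟩ := hb
      refine ⟨n + m, ?_⟩
      convert Subalgebra.add_mem _ (Subalgebra.mul_mem _ (Subalgebra.pow_mem _ ht m) hn)
        (Subalgebra.mul_mem _ (Subalgebra.pow_mem _ ht n) hm) using 1
      ring
    | mul a b _ _ ha hb =>
      obtain ⟨n, hn⟩ := ha
      obtain ⟨m, hm⟩ := hb
      refine ⟨n + m, ?_⟩
      convert Subalgebra.mul_mem _ hn hm using 1
      ring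
  have tr1 : ∀ P : ℂ[X], aeval (w / u) P / u ∈ A → P = 0 := by
    intro P hP
    obtain ⟨n, hn⟩ := den _ hP
    have := tr0 (X ^ n * P) (by rwa [map_mul, map_pow, aeval_X, mul_div_assoc])
    exact (mul_eq_zero.1 this).resolve_left (pow_ne_zero _ X_ne_zero)
  have t0 : w / u ≠ 0 := fun z => X_ne_zero (tr1 X (by
    rw [aeval_X, z, zero_div]
    exact A.zero_mem))
  have w0 : w ≠ 0 := fun z => t0 (by rw [z, zero_div])
  have v0 : v ≠ 0 := fun z => pow_ne_zero (k + 2) w0 (by rw [← e, z, mul_zero])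
  have tr2 : ∀ P : ℂ[X], aeval (w / u)⁻¹ P / u ∈ A → P = 0 := by
    intro P hP
    let _ := invertibleOfNonzero (inv_ne_zero t0)
    have e1 := eval₂_reverse_mul_pow (algebraMap ℂ L) (w / u)⁻¹ P
    rw [invOf_eq_inv, inv_inv, ← aeval_def, ← aeval_def] at e1
    refine reverse_eq_zero.1 (tr1 _ ?_)
    convert A.mul_mem hP (A.pow_mem tA P.natDegree) using 1
    rw [← e1, inv_pow]
    field_simp
  have mA : ∀ a ∈ (T.loc ξ).O, (a - aeval (w / u) (C ((T.loc ξ).ev a))) / u ∈ A := by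
    intro a ha
    obtain ⟨α, h1, β, h2, γ, h3, e1⟩ := hg.2.2.2 _ ((T.loc ξ).m_sub_ev ha)
    convert A.add_mem (A.add_mem (oA _ h1) (A.mul_mem (oA _ h2)
      (A.mul_mem (A.pow_mem uA k) (A.pow_mem tA (k + 2))))) (A.mul_mem (oA _ h3) tA) using 1
    rw [aeval_C, e1, ← hv]
    field_simp
  have gen : ∀ (R : Subalgebra ℂ L) (r : L), (∀ a ∈ (T.loc ξ).O, a ∈ R) → u / r ∈ R → v / r ∈ R →
      w / r ∈ R → ∀ a, (T.loc ξ).m a → a / r ∈ R := by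
    intro R r hR h4 h5 h6 a ha
    obtain ⟨α, h1, β, h2, γ, h3, e1⟩ := hg.2.2.2 _ ha
    convert R.add_mem (R.add_mem (R.mul_mem (hR _ h1) h4) (R.mul_mem (hR _ h2) h5))
      (R.mul_mem (hR _ h3) h6) using 1
    rw [e1]
    ring
  obtain ⟨R, θ, p1, p2⟩ := fam_Blow2 uA u0 tA tr1
  have p3 := fun a ha => p2 _ _ (mA a ha)
  have p4 := p2 (w / u) X (by rw [aeval_X, sub_self, zero_div]; exact A.zero_mem)
  obtain ⟨c1, hc1⟩ := curve_Blow2 T hξ h p1 p3 hg.1 u0 (gen R u (fun a ha => (p3 a ha).1)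
    (by rw [div_self u0]; exact R.one_mem)
    (by rw [hv]; exact R.mul_mem (R.pow_mem (p3 u hg.1.1).1 _) (R.pow_mem p4.1 _)) p4.1)
  have ty1 : ∀ t, TyB T ξ h (w / u) (w / u) t t (c1.pt t) := fun t => by
    have := mkLP_base (p1 t) p4.1
    rw [p4.2, eval_X] at this
    exact ⟨_, (hc1 t).1, (hc1 t).2, this, this⟩
  have eη := uniq_Blow2 hξ hg e u0 ⟨_, (T.bl ξ h).ctr_loc hη, hle, ⟨ht, rfl⟩, ht, rfl⟩ (ty1 _)
  have s1 : ∀ t, Relation.ReflTransGen (CStep (T.bl ξ h).Pt ((T.bl ξ h).dm T)) η (c1.pt t) :=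
    fun t => by
      nth_rewrite 1 [eη]
      exact Relation.ReflTransGen.single (step_Blow2 hξ c1 hc1 _ t)
  refine ⟨⟨_, s1 0, ty1 0⟩, w0, ?_⟩
  obtain ⟨R', θ', q1, q2⟩ := fam_Blow2 uA u0 sA tr2
  have q3 := fun a ha => q2 a (C ((T.loc ξ).ev a)) (by simpa only [aeval_C] using mA a ha)
  have q4 := q2 (w / u)⁻¹ X (by rw [aeval_X, sub_self, zero_div]; exact A.zero_mem)
  have q5 : ∀ t, (w / u)⁻¹ ∈ (mkLP R' fun a => (θ' a).eval t).O ∧
      (mkLP R' fun a => (θ' a).eval t).ev (w / u)⁻¹ = t := fun t => by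
    have := mkLP_base (q1 t) q4.1
    rwa [q4.2, eval_X] at this
  have s2 : ∀ c2 : Curve (T.bl ξ h).Pt, (∀ t, (T.bl ξ h).Ctr (mkLP R' fun a => (θ' a).eval t)
      (c2.pt t) ∧ (T.loc ξ).Le (mkLP R' fun a => (θ' a).eval t)) →
      Relation.ReflTransGen (CStep (T.bl ξ h).Pt ((T.bl ξ h).dm T)) η (c2.pt 0) := by
    intro c2 hc2
    have := LP.ev_inv _ ⟨(q5 1).1, by rw [(q5 1).2]; exact one_ne_zero⟩
    rw [inv_inv, (q5 1).2, inv_one] at this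
    have e1 := uniq_Blow2 hξ hg e u0 (ty1 1)
      ⟨_, (hc2 1).1, (hc2 1).2, ⟨this.1.1, this.2⟩, this.1.1, this.2⟩
    exact (s1 1).tail (e1 ▸ step_Blow2 hξ c2 hc2 1 0)
  cases k with
  | zero =>
    have e1 : w / v = (w / u)⁻¹ := by
      rw [inv_div, div_eq_div_iff v0 w0, e]
      ring
    have e2 : u / v = (w / u)⁻¹ * (w / u)⁻¹ := by
      nth_rewrite 2 [← e1]
      field_simp
    obtain ⟨c2, hc2⟩ := curve_Blow2 T hξ h q1 q3 hg.2.1 v0 (gen R' v (fun a ha => (q3 a ha).1)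
      (by rw [e2]; exact R'.mul_mem q4.1 q4.1) (by rw [div_self v0]; exact R'.one_mem)
      (by rw [e1]; exact q4.1))
    refine ⟨_, s2 c2 hc2, fun _ => ?_, fun z => absurd rfl z⟩
    rw [e1]
    exact ⟨_, (hc2 0).1, (hc2 0).2, q5 0, q5 0⟩
  | succ k =>
    have q6 := q2 (v / w) 0 (by
      convert A.mul_mem (A.pow_mem uA k) (A.pow_mem tA (k + 2)) using 1
      rw [map_zero, sub_zero, div_div, div_eq_iff (mul_ne_zero w0 u0), ← div_mul_cancel₀ v u0, hv,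
        show k + 1 + 2 = k + 2 + 1 from rfl, pow_succ (w / u) (k + 2), pow_succ u k]
      generalize (w / u) ^ (k + 2) = Z
      field_simp)
    obtain ⟨c2, hc2⟩ := curve_Blow2 T hξ h q1 q3 hg.2.2.1 w0 (gen R' w (fun a ha => (q3 a ha).1)
      (by rw [← inv_div]; exact q4.1) q6.1 (by rw [div_self w0]; exact R'.one_mem))
    refine ⟨_, s2 c2 hc2, fun z => absurd z k.succ_ne_zero, fun _ => ?_⟩
    have := mkLP_base (q1 0) q6.1
    rw [q6.2, eval_zero] at this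
    rw [← inv_div w u]
    exact ⟨_, (hc2 0).1, (hc2 0).2, q5 0, this⟩

theorem Model.bl_fib (T : Model L) (hT : T.Tr2) {ξ : ℙ ℂ (T.ι → ℂ)} (hξ : ξ ∈ T.Pt)
    (h : ∃ p, T.lin ξ p ≠ 0) {j : ℕ} (hj : 2 ≤ j) (hA : (T.loc ξ).AT j) :
    (T.bl ξ h).FibConn T := by
  intro a ha b hb hab
  by_cases hne : (T.bl ξ h).dm T a = ξ
  swap
  · rw [(((T.bl_dom ξ h).loc_eq ha (T.bl_reg ξ h ((T.bl_dom ξ h).mem ha) hne)).2 b hb hab.symm)]
  obtain ⟨u, v, w, hg, e⟩ := hA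
  obtain ⟨k, rfl⟩ : ∃ k, j = k + 2 := ⟨j - 2, by omega⟩
  have e' : v * u = w ^ (k + 2) := by rwa [mul_comm]
  have key : ∀ η ∈ (T.bl ξ h).Pt, (T.bl ξ h).dm T η = ξ → ∃ η',
      Relation.ReflTransGen (CStep (T.bl ξ h).Pt ((T.bl ξ h).dm T)) η η' ∧ w ≠ 0 ∧
        (k = 0 → TyB T ξ h (w / u) (w / u) 0 0 η') ∧
        (k ≠ 0 → TyB T ξ h (u / w) (v / w) 0 0 η') := by
    intro η hη he
    have cu : u ≠ 0 → w / u ∈ ((T.bl ξ h).loc η).O → ∃ η',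
        Relation.ReflTransGen (CStep (T.bl ξ h).Pt ((T.bl ξ h).dm T)) η η' ∧ w ≠ 0 ∧
        (k = 0 → TyB T ξ h (w / u) (w / u) 0 0 η') ∧
        (k ≠ 0 → TyB T ξ h (u / w) (v / w) 0 0 η') := by
      intro u0 ht
      obtain ⟨⟨η1, a1, a2⟩, w0, η2, a3, -, a4⟩ := chart_Blow2 hT hξ hg e u0 hη he ht
      by_cases z : k = 0
      · exact ⟨η1, a1, w0, fun _ => a2, fun z' => absurd z z'⟩
      · exact ⟨η2, a3, w0, fun z' => absurd z' z, a4⟩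
    have cv : v ≠ 0 → w / v ∈ ((T.bl ξ h).loc η).O → ∃ η',
        Relation.ReflTransGen (CStep (T.bl ξ h).Pt ((T.bl ξ h).dm T)) η η' ∧ w ≠ 0 ∧
        (k = 0 → TyB T ξ h (w / u) (w / u) 0 0 η') ∧
        (k ≠ 0 → TyB T ξ h (u / w) (v / w) 0 0 η') := by
      intro v0 ht
      obtain ⟨-, w0, η2, a3, a4, a5⟩ := chart_Blow2 hT hξ (gen_swap_Blow2 hg) e' v0 hη he ht
      refine ⟨η2, a3, w0, a4, fun z => ?_⟩
      obtain ⟨y, b1, b2, b3, b4⟩ := a5 z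
      exact ⟨y, b1, b2, b4, b3⟩
    obtain ⟨r, hr, r0, h1, h2, h3⟩ := T.bl_gen hξ h hg hη he
    rcases hr with rfl | rfl | rfl
    · exact cu r0 h3
    · exact cv r0 h3
    by_cases z1 : ((T.bl ξ h).loc η).ev (u / r) = 0
    swap
    · have := (LP.ev_inv _ ⟨h1, z1⟩).1
      rw [inv_div] at this
      exact cu (fun z => LP.U.ne ⟨h1, z1⟩ (by rw [z, zero_div])) this.1
    by_cases z2 : ((T.bl ξ h).loc η).ev (v / r) = 0
    swap
    · have := (LP.ev_inv _ ⟨h2, z2⟩).1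
      rw [inv_div] at this
      exact cv (fun z => LP.U.ne ⟨h2, z2⟩ (by rw [z, zero_div])) this.1
    have hle := (T.bl_dom ξ h).loc_le hη
    rw [he] at hle
    refine ⟨η, Relation.ReflTransGen.refl, r0, fun z => ?_,
      fun _ => ⟨_, (T.bl ξ h).ctr_loc hη, hle, ⟨h1, z1⟩, h2, z2⟩⟩
    have e1 := ((T.bl ξ h).loc η).hom.mul _ h1 _ h2
    rw [z1, zero_mul, div_mul_div_comm, e, z, zero_add, pow_two, div_self (mul_ne_zero r0 r0),
      ((T.bl ξ h).loc η).hom.one] at e1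
    exact absurd e1 one_ne_zero
  obtain ⟨a', a1, w0, a2, a3⟩ := key a ha hne
  obtain ⟨b', b1, -, b2, b3⟩ := key b hb (hab ▸ hne)
  have e1 : a' = b' := by
    by_cases z : k = 0
    · exact uniq_Blow2 hξ hg e (fun z' => pow_ne_zero (k + 2) w0 (by rw [← e, z', zero_mul]))
        (a2 z) (b2 z)
    · obtain ⟨y, c1, c2, c3, c4⟩ := a3 z
      obtain ⟨y', d1, d2, d3, d4⟩ := b3 z
      exact T.bl_ext hξ h hg w0 c1 d1 c2 d2 c3.1 c4.1 d3.1 d4.1 (c3.2.trans d3.2.symm)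
        (c4.2.trans d4.2.symm)
  refine a1.trans (e1 ▸ ?_)
  clear b2 b3 e1
  induction b1 with
  | refl => exact Relation.ReflTransGen.refl
  | tail _ hs ih =>
    obtain ⟨c, t, t', rfl, rfl, hc⟩ := hs
    exact Relation.ReflTransGen.head ⟨c, t', t, rfl, rfl, fun r => (hc r).trans (hc t').symm⟩ ih

end Vale.Agent.P300
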