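import Vale.Agent.P300.Blow2

/-! Resolution by induction. `bl_lift`: a curve `Φ` not constantly equal to `ξ` lifts to the tuple
`Φ i * ℓ p (Φ)` (`exists_curve`; relations of the join are relations of `T.f`). `FibConn.bl`: lift
each step of a chain (constant steps at `ξ` stay in the fibre), join the lifts by `bl_fib`.
`resolve`: induction on the sum of the `j` over the finite bad set; finally reindex by `Fin n`
(`Fintype.equivFin`), which dominates in both directions. -/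

open scoped LinearAlgebra.Projectivization Topology Classical
open Polynomial

namespace Vale.Agent.P300

variable {L : Type} [Field L] [Algebra ℂ L]

theorem blow3_mem {ι : Type} {X : Set (ℙ ℂ (ι → ℂ))} (c : Curve X) (t : ℂ) : c.pt t ∈ X := c.mem t

theorem blow3_rep (T : Model L) (c : Curve T.Pt) (t : ℂ) : ∃ (a : ℂ) (l : L), a ≠ 0 ∧
    (∀ i, l * T.f i ∈ (T.loc (c.pt t)).O) ∧
      ∀ i, (T.loc (c.pt t)).ev (l * T.f i) = a * (c.Φ i).eval t := by
  obtain ⟨l, hl, he⟩ := T.ctr_loc (blow3_mem c t)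
  obtain ⟨a, ha⟩ := Projectivization.exists_smul_eq_mk_rep ℂ _ (c.ne t)
  exact ⟨a, l, a.ne_zero, hl, fun i => (he i).symm.trans (congrFun ha i).symm⟩

theorem blow3_mk {T : Model L} {x : LP L} {a : ℂ} {l : L} {v : T.ι → ℂ} (ha : a ≠ 0)
    (hl : ∀ i, l * T.f i ∈ x.O) (he : ∀ i, x.ev (l * T.f i) = a * v i) (hv : v ≠ 0) :
    T.Ctr x (Projectivization.mk ℂ v hv) := by
  have h : (fun i => x.ev (l * T.f i)) ≠ 0 := fun e => hv (funext fun i =>
    (mul_eq_zero.1 ((he i).symm.trans (congrFun e i))).resolve_left ha)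
  rw [← (Projectivization.mk_eq_mk_iff' ℂ _ _ h hv).2 ⟨a, funext fun i => (he i).symm⟩]
  exact T.ctr_mk hl h

theorem blow3_fib {B T S : Model L} (hB : B.Dom T) (hd : T.Dom S) (hS : T.FibConn S)
    (hb : B.FibConn T) (hl : ∀ c : Curve T.Pt, (∀ t t', c.pt t = c.pt t') ∨
      ∃ c' : Curve B.Pt, ∀ t, B.dm T (c'.pt t) = c.pt t) : B.FibConn S := by
  have h1 : ∀ a ∈ B.Pt, ∀ b ∈ B.Pt, B.dm T a = B.dm T b →
      Relation.ReflTransGen (CStep B.Pt (B.dm S)) a b := fun a ha b hb' e => by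
    refine Relation.ReflTransGen.mono ?_ _ _ (hb a ha b hb' e)
    rintro _ _ ⟨c, t, t', rfl, rfl, h⟩
    refine ⟨c, t, t', rfl, rfl, fun r => ?_⟩
    rw [← Model.dm_trans hB hd (blow3_mem c r), ← Model.dm_trans hB hd (blow3_mem c t), h r]
  have h2 : ∀ a ∈ B.Pt, ∀ y, Relation.ReflTransGen (CStep T.Pt (T.dm S)) (B.dm T a) y →
      ∀ b ∈ B.Pt, B.dm T b = y → Relation.ReflTransGen (CStep B.Pt (B.dm S)) a b := by
    intro a ha y hy
    induction hy with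
    | refl => exact fun b hb' e => h1 a ha b hb' e.symm
    | tail _ hs ih =>
      obtain ⟨c, t, t', rfl, rfl, h⟩ := hs
      intro b hb' e
      rcases hl c with h' | ⟨c', h'⟩
      · exact ih b hb' (e.trans (h' _ _))
      · refine ((ih _ (blow3_mem c' t) (h' t)).tail ⟨c', t, t', rfl, rfl, fun r => ?_⟩).trans
          (h1 _ (blow3_mem c' t') b hb' ((h' t').trans e.symm))
        rw [← Model.dm_trans hB hd (blow3_mem c' r), ← Model.dm_trans hB hd (blow3_mem c' t),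
          h', h', h r]
  intro a ha b hb' e
  refine h2 a ha _ (hS _ (hB.mem ha) _ (hB.mem hb') ?_) b hb' rfl
  rw [Model.dm_trans hB hd ha, Model.dm_trans hB hd hb', e]

theorem Model.bl_lift (T : Model L) (ξ : ℙ ℂ (T.ι → ℂ)) (h : ∃ p, T.lin ξ p ≠ 0) (c : Curve T.Pt)
    (hc : ∃ t, c.pt t ≠ ξ) : ∃ c' : Curve (T.bl ξ h).Pt, ∀ t, (T.bl ξ h).dm T (c'.pt t) = c.pt t := by
  let Ψ : (T.bl ξ h).ι → ℂ[X] := fun q : T.ι × T.ι × T.ι =>
    c.Φ q.1 * (C (ξ.rep q.2.2) * c.Φ q.2.1 - C (ξ.rep q.2.1) * c.Φ q.2.2)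
  have key : ∀ (t : ℂ) (ht : (fun q => (Ψ q).eval t) ≠ 0),
      (T.bl ξ h).Ctr (T.loc (c.pt t)) (Projectivization.mk ℂ _ ht) := by
    intro t ht
    obtain ⟨a, l, ha, hl, he⟩ := blow3_rep T c t
    have hh := (T.loc (c.pt t)).hom
    have e : ∀ q : (T.bl ξ h).ι, l * l * (T.bl ξ h).f q = l * T.f q.1 *
        (algebraMap ℂ L (ξ.rep q.2.2) * (l * T.f q.2.1) -
          algebraMap ℂ L (ξ.rep q.2.1) * (l * T.f q.2.2)) := fun q => by
      change l * l * (T.f q.1 * (algebraMap ℂ L (ξ.rep q.2.2) * T.f q.2.1 -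
        algebraMap ℂ L (ξ.rep q.2.1) * T.f q.2.2)) = _
      ring
    have hm : ∀ (z : ℂ) i, algebraMap ℂ L z * (l * T.f i) ∈ (T.loc (c.pt t)).O := fun z i =>
      mul_mem (Subalgebra.algebraMap_mem _ z) (hl i)
    refine blow3_mk (a := a * a) (l := l * l) (mul_ne_zero ha ha) (fun q => ?_) (fun q => ?_) ht
    · rw [e]
      exact mul_mem (hl _) (sub_mem (hm _ _) (hm _ _))
    · rw [e, hh.mul _ (hl _) _ (sub_mem (hm _ _) (hm _ _)), hh.sub (hm _ _) (hm _ _),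
        hh.mul _ (Subalgebra.algebraMap_mem _ _) _ (hl _),
        hh.mul _ (Subalgebra.algebraMap_mem _ _) _ (hl _), hh.alg, hh.alg]
      rw [he, he, he]
      simp only [Ψ, eval_mul, eval_sub, eval_C]
      ring
  have h0 : Ψ ≠ 0 := by
    intro e
    obtain ⟨t, ht⟩ := hc
    obtain ⟨i, hi⟩ := Function.ne_iff.1 (c.ne t)
    refine ht (Eq.trans ?_ ξ.mk_rep)
    refine (Projectivization.mk_eq_mk_iff' ℂ _ _ _ _).2
      ⟨(c.Φ (nz ξ)).eval t / ξ.rep (nz ξ), funext fun j => ?_⟩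
    have h1 := (congrArg (eval t) (congrFun e (i, j, nz ξ))).trans eval_zero
    simp only [Ψ, eval_mul, eval_sub, eval_C] at h1
    have h2 := (mul_eq_zero.1 h1).resolve_left hi
    have h3 := nz_spec ξ
    rw [Pi.smul_apply, smul_eq_mul]
    field_simp
    linear_combination -h2
  obtain ⟨c', hc'⟩ := exists_curve (T.bl ξ h).isClosed Ψ h0 fun t ht => (key t ht).mem
  obtain ⟨q, hq⟩ := Function.ne_iff.1 h0
  refine ⟨c', congrFun (Continuous.ext_on
    ((Ψ q).roots.toFinset.finite_toSet.countable.dense_compl ℂ)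
    ((T.bl_dom ξ h).continuousOn.comp_continuous c'.continuous c'.mem) c.continuous
    fun t ht => ?_)⟩
  have h1 : (fun q => (Ψ q).eval t) ≠ 0 := fun e => ht (by
    simpa using And.intro hq (congrFun e q))
  change (T.bl ξ h).dm T (c'.pt t) = _
  rw [hc' t h1]
  exact ((T.bl_dom ξ h).ctr (key t h1)).unique (T.ctr_loc (c.mem t))

theorem Model.FibConn.bl {T S : Model L} (hd : T.Dom S) (hS : T.FibConn S) (ξ : ℙ ℂ (T.ι → ℂ))
    (h : ∃ p, T.lin ξ p ≠ 0) (hb : (T.bl ξ h).FibConn T) : (T.bl ξ h).FibConn S := by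
  refine blow3_fib (T.bl_dom ξ h) hd hS hb fun c => ?_
  by_cases e : ∃ t, c.pt t ≠ ξ
  · exact .inr (T.bl_lift ξ h c e)
  · push Not at e
    exact .inl fun t t' => (e t).trans (e t').symm

theorem blow3_one {x : LP L} (h : x.AT 1) : ∃ u v, x.Gen2 u v := by
  obtain ⟨u, v, w, ⟨hu, hv, -, h⟩, e⟩ := h
  refine ⟨u, v, hu, hv, fun a ha => ?_⟩
  obtain ⟨α, hα, β, hβ, γ, hγ, rfl⟩ := h a ha
  refine ⟨α + γ * v, add_mem hα (mul_mem hγ hv.1), β, hβ, ?_⟩
  rw [pow_one] at e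
  rw [← e]
  ring

theorem blow3_res (S : Model L) (M : IntermediateField ℂ L) (n : ℕ) :
    ∀ Z : Multiset (LP L × ℕ), (Z.map Prod.snd).sum ≤ n → ∀ T : Model L, T.Dom S → T.In M →
      T.Tr2 → T.FibConn S → (∀ ξ ∈ T.Pt, (∃ u v, (T.loc ξ).Gen2 u v) ∨
        ∃ j, (T.loc ξ, j) ∈ Z ∧ 1 ≤ j ∧ (T.loc ξ).AT j) →
      ∃ R : Model L, R.Dom S ∧ R.In M ∧ R.FibConn S ∧ ∀ ξ ∈ R.Pt, ∃ u v, (R.loc ξ).Gen2 u v := by
  induction n using Nat.strong_induction_on with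
  | _ n ih =>
    intro Z hZ T hd hM hT hf h
    by_cases hg : ∀ ξ ∈ T.Pt, ∃ u v, (T.loc ξ).Gen2 u v
    · exact ⟨T, hd, hM, hf, hg⟩
    obtain ⟨ξ, hξ, hn⟩ := not_forall₂.1 hg
    obtain ⟨j, hj, h1, hA⟩ := (h ξ hξ).resolve_left hn
    have h2 : 2 ≤ j := by
      by_contra e
      obtain rfl : j = 1 := by omega
      exact hn (blow3_one hA)
    obtain ⟨Z, rfl⟩ := Multiset.exists_cons_of_mem hj
    have hl := T.lin_ne hξ (hT.dim2 hξ)
    have hB := T.bl_dom ξ hl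
    obtain ⟨η₀, hη⟩ := T.bl_loc hξ hl h2 hA
    rw [Multiset.map_cons, Multiset.sum_cons] at hZ
    refine ih (n - 1) (by omega) (((T.bl ξ hl).loc η₀, j - 2) ::ₘ Z) ?_ _ (hB.trans hd)
      (Model.bl_in hM ξ hl) (hT.dom hB) (hf.bl hd ξ hl (T.bl_fib hT hξ hl h2 hA)) fun η hη' => ?_
    · rw [Multiset.map_cons, Multiset.sum_cons]
      dsimp only at hZ ⊢
      omega
    by_cases e : (T.bl ξ hl).dm T η = ξ
    · refine (hη η hη' e).imp_right ?_
      rintro ⟨rfl, h3, h4⟩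
      exact ⟨j - 2, Multiset.mem_cons_self _ _, by omega, h4⟩
    · rw [(hB.loc_eq hη' (T.bl_reg ξ hl (hB.mem hη') e)).1]
      refine (h _ (hB.mem hη')).imp_right ?_
      rintro ⟨i, hi, h3⟩
      refine ⟨i, Multiset.mem_cons_of_mem ((Multiset.mem_cons.1 hi).resolve_left fun e' => e ?_),
        h3⟩
      exact (T.ctr_loc (hB.mem hη')).unique ((Prod.mk.inj e').1 ▸ T.ctr_loc hξ)

/-- a model indexed by `Fin n` -/
def finModel {n : ℕ} (f : Fin n → L) (hf : ∃ i, f i ≠ 0) : Model L := ⟨Fin n, f, hf⟩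

theorem Model.resolve (T : Model L) {M : IntermediateField ℂ L} (hM : T.In M) (hT : T.Tr2)
    (Z : Set (ℙ ℂ (T.ι → ℂ))) (hZ : Z.Finite)
    (h1 : ∀ ξ ∈ T.Pt, ξ ∉ Z → ∃ u v, (T.loc ξ).Gen2 u v)
    (h2 : ∀ ξ ∈ T.Pt, ξ ∈ Z → ∃ j, 1 ≤ j ∧ (T.loc ξ).AT j) :
    ∃ (n : ℕ) (f : Fin n → L) (hf : ∃ i, f i ≠ 0), (finModel f hf).Dom T ∧ (finModel f hf).In M ∧
      (finModel f hf).FibConn T ∧
      ∀ ξ ∈ (finModel f hf).Pt, ∃ u v, ((finModel f hf).loc ξ).Gen2 u v := by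
  choose! j hj using h2
  obtain ⟨R, hd, hi, hf, hg⟩ := blow3_res T M _
    (hZ.toFinset.1.map fun ξ => (T.loc ξ, j ξ)) le_rfl T (Model.Dom.refl T) hM hT
    (fun a ha b hb e => by
      rw [T.dm_self ha, T.dm_self hb] at e
      rw [e])
    (fun ξ hξ => by
      by_cases e : ξ ∈ Z
      · exact .inr ⟨j ξ, Multiset.mem_map.2 ⟨ξ, hZ.mem_toFinset.2 e, rfl⟩, hj ξ hξ e⟩
      · exact .inl (h1 ξ hξ e))
  let e := (Fintype.equivFin R.ι).symm
  have hne : ∃ i, R.f (e i) ≠ 0 := ⟨e.symm R.ne.choose, by simpa using R.ne.choose_spec⟩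
  have hr : ∀ x, (finModel (fun i => R.f (e i)) hne).Reg x ↔ R.Reg x := fun x =>
    exists_congr fun l => and_congr (e.forall_congr_right (q := fun i => l * R.f i ∈ x.O))
      (e.exists_congr_right (q := fun i => x.ev (l * R.f i) ≠ 0))
  have hD : (finModel (fun i => R.f (e i)) hne).Dom R := fun ξ hξ =>
    (hr _).1 (Model.ctr_loc _ hξ).reg
  have hl := fun ξ hξ => hD.loc_eq (ξ := ξ) hξ ((hr _).2 (R.ctr_loc (hD.mem hξ)).reg)
  refine ⟨_, _, hne, hD.trans hd, fun i k => hi _ _, blow3_fib hD hd hf (fun a ha b hb h => ?_)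
    fun c => .inr ?_, fun ξ hξ => ?_⟩
  · rw [(hl b hb).2 a ha h]
  · have n1 : ∀ t : ℂ, (fun i => (c.Φ (e i)).eval t) ≠ 0 := fun t h => c.ne t (funext fun i => by
      simpa using congrFun h (e.symm i))
    have key : ∀ t, (finModel (fun i => R.f (e i)) hne).Ctr (R.loc (c.pt t))
        (Projectivization.mk ℂ _ (n1 t)) := fun t => by
      obtain ⟨a, l, ha, hl, he⟩ := blow3_rep R c t
      exact blow3_mk ha (fun i => hl (e i)) (fun i => he (e i)) (n1 t)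
    exact ⟨⟨fun i => c.Φ (e i), n1, fun t => (key t).mem⟩,
      fun t => (hD.ctr (key t)).unique (R.ctr_loc (c.mem t))⟩
  · rw [(hl ξ hξ).1]
    exact hg _ (hD.mem hξ)

end Vale.Agent.P300
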