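import Vale.Agent.P300.Tw

/-! The algebraic closure `Lb` of `ℂ(s)` and the fibre group. `fix_Lb`: the subgroup fixing all `Bs`
elements is the fixing subgroup of `K(Lb)`, whose fixed field is `K(Lb) = Lb(z)`
(`InfiniteGalois.fixedField_fixingSubgroup`, `IntermediateField.mem_adjoin_simple_iff`).
`eval_sign`: choose `z₀ ∈ ℂ` with `P(z₀) Q(z₀) ≠ 0`; polynomial identities follow from `z_trans`. -/

open scoped LinearAlgebra.Projectivization Topology Classical Pointwise
open Polynomial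

set_option linter.unusedSectionVars false

namespace Vale.Agent.P300

variable {L : Type} [Field L] [Algebra ℂ L] [IsAlgClosed L] (A : Amb L)

/-- the algebraic closure of `ℂ(s)` -/
def Amb.Lb : IntermediateField ℂ L where
  carrier := {a | A.Bs a}
  mul_mem' := fun ha hb => IsAlgebraic.mul ha hb
  add_mem' := fun ha hb => IsAlgebraic.add ha hb
  algebraMap_mem' := fun c =>
    isAlgebraic_algebraMap (R := Algebra.adjoin ℂ {A.s}) (A := L)
      ⟨algebraMap ℂ L c, Subalgebra.algebraMap_mem _ c⟩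
  inv_mem' := fun _ ha => IsAlgebraic.inv ha

theorem Amb.mem_Lb {a : L} : a ∈ A.Lb ↔ A.Bs a := Iff.rfl

theorem Amb.pi_base {a : L} (h : a ∈ Algebra.adjoin ℂ {A.s}) : A.Bs a :=
  isAlgebraic_algebraMap (R := Algebra.adjoin ℂ {A.s}) (A := L) ⟨a, h⟩

theorem Amb.pi_sK : A.s ∈ A.K := IntermediateField.subset_adjoin ℂ _ (by simp)

theorem Amb.pi_zK : A.z ∈ A.K := IntermediateField.subset_adjoin ℂ _ (by simp)

theorem Amb.pi_fix (g : A.G) {a : L} (h : a ∈ A.K) : g a = a := g.commutes ⟨a, h⟩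

theorem Amb.pi_baseK {a : L} (h : a ∈ Algebra.adjoin ℂ {A.s}) : a ∈ A.K := by
  have e : Algebra.adjoin ℂ {A.s} ≤ A.K.toSubalgebra :=
    Algebra.adjoin_le (Set.singleton_subset_iff.2 A.pi_sK)
  exact e h

theorem Amb.bs_s : A.Bs A.s := A.pi_base (Algebra.self_mem_adjoin_singleton ℂ A.s)

theorem Amb.bs_p (i : Sec) : A.Bs (A.p i) := by
  cases i with
  | zero => exact A.Lb.zero_mem
  | cst a => exact A.Lb.algebraMap_mem _
  | dia a => exact A.Lb.mul_mem (A.Lb.algebraMap_mem _) A.bs_s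

theorem Amb.Bs.map {a : L} (h : A.Bs a) (g : A.G) : A.Bs (g a) := by
  let f : L →ₐ[Algebra.adjoin ℂ {A.s}] L :=
    { (g : L →+* L) with commutes' := fun r => A.pi_fix g (A.pi_baseK r.2) }
  exact IsAlgebraic.algHom f h

theorem Amb.Bs.root {a : L} {n : ℕ} (hn : 1 ≤ n) (h : A.Bs (a ^ n)) : A.Bs a :=
  IsAlgebraic.of_pow hn h

theorem Amb.bs_of_alg {a : L} (h : IsAlgebraic A.Lb a) : A.Bs a := by
  have e : Algebra.adjoin ℂ {A.s} ≤ A.Lb.toSubalgebra := fun _ ha => A.pi_base ha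
  let _ : Algebra (Algebra.adjoin ℂ {A.s}) A.Lb := (Subalgebra.inclusion e).toRingHom.toAlgebra
  have _ : IsScalarTower (Algebra.adjoin ℂ {A.s}) A.Lb L :=
    IsScalarTower.of_algebraMap_eq fun _ => rfl
  have _ : Algebra.IsAlgebraic (Algebra.adjoin ℂ {A.s}) A.Lb := ⟨fun x =>
    (isAlgebraic_algebraMap_iff (A := L) (algebraMap A.Lb L).injective).1 x.2⟩
  exact IsAlgebraic.restrictScalars _ h

instance Amb.Lb_closed : IsAlgClosed A.Lb := by
  refine IsAlgClosed.of_exists_root _ fun p _ hp => ?_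
  obtain ⟨x, hx⟩ := IsAlgClosed.exists_aeval_eq_zero L p (degree_pos_of_irreducible hp).ne'
  have hb : x ∈ A.Lb := A.bs_of_alg ⟨p, hp.ne_zero, hx⟩
  refine ⟨⟨x, hb⟩, (algebraMap A.Lb L).injective ?_⟩
  rw [map_zero, ← hx, ← coe_aeval_eq_eval, ← aeval_algebraMap_apply]
  rfl

instance Amb.pi_normal : A.pi.Normal := ⟨fun g hg h a ha hb => by
  rw [AlgEquiv.mul_apply, AlgEquiv.mul_apply, hg _ (ha.map A h⁻¹) (hb.map A h⁻¹),
    ← AlgEquiv.mul_apply, mul_inv_cancel, AlgEquiv.one_apply]⟩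

theorem Amb.z_trans : Transcendental A.Lb A.z := by
  intro h
  have h1 := A.ind.transcendental_adjoin (s := {0}) (i := 1) (by simp)
  have e : (![A.s, A.z] : Fin 2 → L) '' {0} = {A.s} := by simp
  rw [e] at h1
  exact h1 (A.bs_of_alg h)

theorem pi_frac {F : Type} [Field F] [Algebra F L] {z w : L}
    (h : w ∈ IntermediateField.adjoin F {z}) :
    ∃ P Q : F[X], Q ≠ 0 ∧ w * aeval z Q = aeval z P := by
  obtain ⟨P, Q, e⟩ := (IntermediateField.mem_adjoin_simple_iff F w).1 h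
  by_cases hQ : aeval z Q = 0
  · refine ⟨0, 1, one_ne_zero, ?_⟩
    rw [e, hQ]
    simp
  · refine ⟨P, Q, ?_, ?_⟩
    · rintro rfl
      exact hQ (map_zero _)
    · rw [e, div_mul_cancel₀ _ hQ]

theorem Amb.pi_K_le (F : IntermediateField ℂ L) (hs : A.s ∈ F) {a : L} (ha : a ∈ A.K) :
    a ∈ IntermediateField.adjoin F {A.z} := by
  have e : A.K ≤ (IntermediateField.adjoin F {A.z}).restrictScalars ℂ := by
    refine IntermediateField.adjoin_le_iff.2 ?_
    rintro x (rfl | rfl)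
    · exact (IntermediateField.adjoin F {A.z}).algebraMap_mem ⟨A.s, hs⟩
    · exact IntermediateField.mem_adjoin_simple_self F A.z
  exact e ha

theorem Amb.fix_Lb {w : L} (h : ∀ g : A.G, (∀ a, A.Bs a → g a = a) → g w = w) :
    ∃ P Q : A.Lb[X], Q ≠ 0 ∧ w * aeval A.z Q = aeval A.z P := by
  let M : IntermediateField A.K L :=
    (IntermediateField.adjoin A.Lb {A.z}).toSubfield.toIntermediateField
      fun x => A.pi_K_le A.Lb A.bs_s x.2
  have hw : w ∈ IntermediateField.fixedField M.fixingSubgroup := by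
    rw [IntermediateField.mem_fixedField_iff]
    intro g hg
    rw [IntermediateField.mem_fixingSubgroup_iff] at hg
    exact h g fun a ha =>
      hg a ((IntermediateField.adjoin A.Lb {A.z}).algebraMap_mem ⟨a, ha⟩)
  rw [InfiniteGalois.fixedField_fixingSubgroup] at hw
  exact pi_frac hw

/-- restriction of an automorphism to `Lb` -/
noncomputable def Amb.piRes (g : A.G) : A.Lb →+* A.Lb where
  toFun := fun a => ⟨g a, Amb.Bs.map A a.2 g⟩
  map_one' := Subtype.ext (map_one g)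
  map_mul' := fun a b => Subtype.ext (map_mul g (a : L) (b : L))
  map_zero' := Subtype.ext (map_zero g)
  map_add' := fun a b => Subtype.ext (map_add g (a : L) (b : L))

theorem Amb.pi_aeval (g : A.G) (P : A.Lb[X]) :
    g (aeval A.z P) = aeval A.z (P.map (A.piRes g)) := by
  have e := map_aeval_eq_aeval_map (φ := A.piRes g) (ψ := (g : L →+* L))
    (RingHom.ext fun _ => rfl) P A.z
  rw [show (g : L →+* L) A.z = A.z from A.pi_fix g A.pi_zK] at e
  exact e

theorem Amb.pi_point {P : A.Lb[X]} (hP : P ≠ 0) :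
    ∃ c : ℂ, P.eval (algebraMap ℂ A.Lb c) ≠ 0 := by
  by_contra hc
  push Not at hc
  refine hP (eq_zero_of_infinite_isRoot P ?_)
  refine (Set.infinite_range_of_injective (algebraMap ℂ A.Lb).injective).mono ?_
  rintro _ ⟨c, rfl⟩
  exact hc c

/-- specialisation of `z`: a nonzero `w ∈ Lb(z)` has a nonzero value in `Lb` with the same signs -/
theorem Amb.eval_sign {w : L} (hw : w ≠ 0) {P Q : A.Lb[X]} (hQ : Q ≠ 0)
    (h : w * aeval A.z Q = aeval A.z P) :
    ∃ w₀, A.Bs w₀ ∧ w₀ ≠ 0 ∧ (∀ g : A.G, (g w = w → g w₀ = w₀) ∧ (g w = -w → g w₀ = -w₀)) := by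
  have hinj : Function.Injective (aeval A.z : A.Lb[X] →ₐ[A.Lb] L) :=
    transcendental_iff_injective.1 A.z_trans
  have hQz : aeval A.z Q ≠ 0 := fun e => hQ (hinj (by rw [e, map_zero]))
  have hP : P ≠ 0 := by
    rintro rfl
    rw [map_zero] at h
    exact mul_ne_zero hw hQz h
  obtain ⟨c, hc⟩ := A.pi_point (mul_ne_zero hP hQ)
  rw [eval_mul] at hc
  have hp := left_ne_zero_of_mul hc
  have hq := right_ne_zero_of_mul hc
  set x : A.Lb := algebraMap ℂ A.Lb c with hx
  have key : ∀ (g : A.G) (ε : A.Lb), g w = (ε : L) * w →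
      A.piRes g (P.eval x / Q.eval x) = ε * (P.eval x / Q.eval x) := by
    intro g ε hg
    have hgx : A.piRes g x = x := Subtype.ext (A.pi_fix g (A.K.algebraMap_mem c))
    have h1 := congrArg g h
    rw [map_mul, hg, A.pi_aeval, A.pi_aeval] at h1
    have h2 : C ε * P * Q.map (A.piRes g) = P.map (A.piRes g) * Q := by
      apply hinj
      rw [map_mul, map_mul, map_mul, aeval_C, ← h1, ← h]
      show (ε : L) * _ * _ = _
      ring
    have h3 := congrArg (eval x) h2
    have e1 : ∀ R : A.Lb[X], (R.map (A.piRes g)).eval x = A.piRes g (R.eval x) := fun R => by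
      conv_lhs => rw [← hgx]
      exact eval_map_apply _ _
    rw [eval_mul, eval_mul, eval_mul, eval_C, e1, e1] at h3
    have hq' : A.piRes g (Q.eval x) ≠ 0 := (_root_.map_ne_zero _).2 hq
    rw [map_div₀, div_eq_iff hq']
    field_simp
    linear_combination -h3
  refine ⟨((P.eval x / Q.eval x : A.Lb) : L), (P.eval x / Q.eval x).2, ?_, fun g => ⟨?_, ?_⟩⟩
  · exact fun e => div_ne_zero hp hq (Subtype.ext e)
  · intro hg
    have e := key g 1 (by simpa using hg)
    rw [one_mul] at e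
    exact congrArg Subtype.val e
  · intro hg
    have e := key g (-1) (by simpa using hg)
    rw [neg_one_mul] at e
    exact congrArg Subtype.val e

theorem Amb.bs_K {a : L} (h : A.Bs a) (hK : a ∈ A.K) :
    ∃ P Q : ℂ[X], Q ≠ 0 ∧ a * aeval A.s Q = aeval A.s P := by
  set F : IntermediateField ℂ L := IntermediateField.adjoin ℂ {A.s} with hF
  have hle : F ≤ A.Lb :=
    IntermediateField.adjoin_le_iff.2 (Set.singleton_subset_iff.2 A.bs_s)
  obtain ⟨P, Q, hQ, e⟩ := pi_frac
    (A.pi_K_le F (IntermediateField.mem_adjoin_simple_self ℂ A.s) hK)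
  let ι : F →+* A.Lb := (IntermediateField.inclusion hle : F →ₐ[ℂ] A.Lb)
  have hι : ∀ R : F[X], aeval A.z (R.map ι) = aeval A.z R := fun R => by
    rw [aeval_def, eval₂_map, aeval_def]
    rfl
  have hinj : Function.Injective (aeval A.z : A.Lb[X] →ₐ[A.Lb] L) :=
    transcendental_iff_injective.1 A.z_trans
  have h2 : C (⟨a, h⟩ : A.Lb) * Q.map ι = P.map ι := by
    apply hinj
    rw [map_mul, aeval_C, hι, hι]
    exact e
  have h3 := congrArg (fun R : A.Lb[X] => ((R.coeff Q.natDegree : A.Lb) : L)) h2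
  simp only [coeff_C_mul, coeff_map] at h3
  have h4 : a * ((Q.coeff Q.natDegree : F) : L) = ((P.coeff Q.natDegree : F) : L) := h3
  have h5 : ((Q.coeff Q.natDegree : F) : L) ≠ 0 := fun e =>
    leadingCoeff_ne_zero.2 hQ (Subtype.ext e)
  refine pi_frac (F := ℂ) ?_
  rw [(eq_div_iff h5).2 h4]
  exact F.div_mem (P.coeff _).2 (Q.coeff _).2

theorem Amb.pi_memV {V : ValuationSubring L}
    (h : ∀ P : ℂ[X], P ≠ 0 → VU V (aeval A.s P)) {a : L} (ha : A.Bs a) : a ∈ V := by
  have hR : ∀ r : Algebra.adjoin ℂ {A.s}, r ≠ 0 → VU V r := by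
    rintro ⟨r, hr⟩ h0
    rw [Algebra.adjoin_singleton_eq_range_aeval] at hr
    obtain ⟨P, rfl⟩ := hr
    refine h P ?_
    rintro rfl
    exact h0 (Subtype.ext (map_zero _))
  have hR' : ∀ r : Algebra.adjoin ℂ {A.s}, (r : L) ∈ V := fun r => by
    by_cases h0 : r = 0
    · rw [h0]
      exact V.zero_mem
    · exact (hR r h0).1
  obtain ⟨r, h0, hint⟩ := IsAlgebraic.exists_integral_multiple ha
  let φ : Algebra.adjoin ℂ {A.s} →+* V :=
    (algebraMap (Algebra.adjoin ℂ {A.s}) L).codRestrict V.toSubring hR'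
  have h1 : IsIntegral V (r • a) :=
    hint.map_of_comp_eq φ (RingHom.id L) (RingHom.ext fun _ => rfl)
  obtain ⟨y, hy⟩ := IsIntegrallyClosed.isIntegral_iff.1 h1
  have h2 : (r : L) * a ∈ V := by
    have e : (r : L) * a = y := hy.symm
    rw [e]
    exact y.2
  have h3 := (hR r h0).2
  rw [ValuationSubring.mem_nonunits_iff_or, not_or, not_not] at h3
  have e : a = (r : L)⁻¹ * ((r : L) * a) := by rw [inv_mul_cancel_left₀ h3.1]
  rw [e]
  exact V.mul_mem _ _ h3.2 h2

/-- a valuation ring containing `ℂ(s)` contains `Lb`, whose nonzero elements are units -/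
theorem Amb.bs_unit {V : ValuationSubring L} (hc : ∀ c : ℂ, algebraMap ℂ L c ∈ V)
    (h : ∀ P : ℂ[X], P ≠ 0 → VU V (aeval A.s P)) {a : L} (ha : A.Bs a) :
    a ∈ V ∧ (a ∈ V.nonunits → a = 0) := by
  refine ⟨A.pi_memV h ha, fun hn => ?_⟩
  rcases V.mem_nonunits_iff_or.1 hn with e | e
  · exact e
  · exact (e (A.pi_memV h (A.Lb.inv_mem ha))).elim

theorem Amb.pi_of_ivo {V : ValuationSubring L} (hc : ∀ c : ℂ, algebraMap ℂ L c ∈ V)
    (h : ∀ P : ℂ[X], P ≠ 0 → VU V (aeval A.s P)) {g : A.G} (hg : A.IVO V g) : g ∈ A.pi := by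
  intro a ha hb
  have h1 := hg a hb (A.bs_unit hc h ha).1
  exact sub_eq_zero.1 ((A.bs_unit hc h (A.Lb.sub_mem (ha.map A g) ha)).2 h1)

end Vale.Agent.P300
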