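import Vale.Agent.P300.Grp
import Vale.Agent.P300.Pi

/-! The marked configuration over the special fibre `s = 1` and the group theoretic data. -/

open scoped LinearAlgebra.Projectivization Topology Classical Pointwise
open Polynomial

set_option linter.unusedSectionVars false

namespace Vale.Agent.P300

variable {L : Type} [Field L] [Algebra ℂ L] [IsAlgClosed L]

/-- valuation rings over the components of the fibre `s = 1`, points and inertia generators -/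
structure Amb.Cfg (A : Amb L) where
  V0 : ValuationSubring L
  V : Mu → ValuationSubring L
  Ph : Option Sec → LP L
  y : Option Sec → A.G
  x : Option Sec → A.G
  Pn : Nd → LP L
  n1 : Nd → A.G
  n2 : Nd → A.G
  hV0 : Over V0 (A.s - 1) A.z
  hV : ∀ a, Over (V a) (A.nc (.fin 0 a)).2 (A.nc (.fin 0 a)).1
  frh : ∀ i, A.Fr (A.hc i).1 (A.hc i).2 (Ph i) (y i) (x i)
  frn : ∀ n, A.Fr (A.nc n).1 (A.nc n).2 (Pn n) (n1 n) (n2 n)
  on_inf : On (Ph none) V0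
  on_zero : On (Ph (some .zero)) V0
  on_cst : ∀ a, On (Ph (some (.cst a))) (V a)
  on_dia : ∀ a, On (Ph (some (.dia a))) (V a)
  on_n0 : ∀ a, On (Pn (.fin 0 a)) V0
  on_n1 : ∀ a, On (Pn (.fin 0 a)) (V a)

variable {A : Amb L}

/-- vanishing cycles -/
noncomputable def Amb.Cfg.c (C : A.Cfg) (n : Nd) : A.G := C.n1 n * (C.n2 n)⁻¹

/-- the output of the Golod-Shafarevich argument -/
structure Amb.Cfg.Pack (C : A.Cfg) where
  a : ℕ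
  E : Subgroup A.G
  B : ℕ → Subgroup A.G
  piE : A.pi ≤ E
  opE : ∃ N ∈ A.NN, N ≤ E
  chr : ∀ ψ : A.G →* ℂˣ, (∀ g, ψ g ^ 2 ^ a = 1) → (∀ h ∈ A.pi, ψ h = 1) →
    (∃ N ∈ A.NN, ∀ h ∈ N, ψ h = 1) → ∀ g ∈ E, ψ g = 1
  anti : Antitone B
  le : ∀ M, B M ≤ A.pi
  nor : ∀ M, ∀ g ∈ E, ∀ h ∈ B M, g * h * g⁻¹ ∈ B M
  opB : ∀ M, ∃ N ∈ A.NN, A.pi ⊓ N ≤ B M
  kc : ∀ M b, b ≠ 0 → C.c (.fin 0 b) ∈ B M
  q0 : ∀ M, C.x (some .zero) ^ 2 ∈ B M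
  qi : ∀ M, C.x none ^ 2 ∈ B M
  qc : ∀ M, C.c (.fin 0 0) ^ 2 ∈ B M
  q1 : ∀ M, C.x (some (.cst 0)) ^ 2 ∈ B M
  q2 : ∀ M, C.x (some (.dia 0)) ^ 2 ∈ B M
  dx : ∀ M i g, g * C.x i ^ 2 ^ a * g⁻¹ ∈ B M
  dc : ∀ M n g, g * C.c n ^ 2 ^ a * g⁻¹ ∈ B M
  idx : ∀ M, M ≤ (B M).relIndex A.pi

/-- the groups of the covers -/
noncomputable def Amb.Cfg.Pack.H {C : A.Cfg} (D : C.Pack) (M : ℕ) : Subgroup A.G := D.E ⊓ cenS A.pi (D.B M)

/-- a good level below the data of step `M` -/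
structure Amb.Cfg.Pack.Lv {C : A.Cfg} (D : C.Pack) (M : ℕ) (F : IntermediateField A.K L) (b : ℕ) :
    Prop where
  good : A.Good F b
  le : D.a ≤ b
  hH : F.fixingSubgroup ≤ D.H M
  hB : A.pi ⊓ F.fixingSubgroup ≤ D.B M

/-- the stabilisers in `H M₀` lie in all `H M` -/
def Amb.Cfg.Pack.Free {C : A.Cfg} (D : C.Pack) (M₀ : ℕ) : Prop :=
  ∀ M, ∀ ξ ∈ A.X.Pt, ∀ P, Ab (A.X.loc ξ) P → ∀ h ∈ D.H M₀, A.IP (A.X.loc ξ) ⊤ P h → h ∈ D.H M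

end Vale.Agent.P300
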