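import Vale.Agent.P300.GS2

/-! Dimension subgroups. `ga G` is two-sided. `dimS_succ`: let `κ i` kill the generator `i`; for `h` with
`chi i h = 1` one has `h - κ i h ∈ I ^ 2` (modulo `I ^ 2` the map `g ↦ g - 1` is additive), so for
`w - 1` in the image of `I' ^ m` one gets `w - κ i w ∈ I ^ (m + 1)`; compose all `κ i`.
`exists_deep`: replace a generator `y₀` of least degree by `y₀ ^ 2` and add the commutators
`y₀ y j y₀⁻¹ (y j)⁻¹`; the new subgroup is normal of index `≤ 2` in the old one; for `t < t'`,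
`card κ * t' ≤ 1` the sum `η(t')` does not increase (`η - w₀ (1 - η)`), and
`η(t) ≤ (t / t') ^ N η(t')` once all degrees are `≥ N`. -/

open scoped Classical

namespace Vale.Agent.P300

theorem gs3_mem {G : Type} [Group G] (g : G) : MonoidAlgebra.of (ZMod 2) G g - 1 ∈ ga G :=
  Ideal.subset_span ⟨g, rfl⟩

theorem gs3_smul {G : Type} [Group G] {J : Ideal (MonoidAlgebra (ZMod 2) G)} (c : ZMod 2)
    {x : MonoidAlgebra (ZMod 2) G} (hx : x ∈ J) : c • x ∈ J := by
  rw [Algebra.smul_def]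
  exact J.mul_mem_left _ hx

instance ga_twoSided (G : Type) [Group G] : (ga G).IsTwoSided := ⟨fun {a} b ha => by
  induction ha using Submodule.span_induction with
  | mem x hx =>
    obtain ⟨h, rfl⟩ := hx
    induction b using MonoidAlgebra.induction_on with
    | of g =>
      have e : (MonoidAlgebra.of (ZMod 2) G h - 1) * MonoidAlgebra.of (ZMod 2) G g =
          (MonoidAlgebra.of (ZMod 2) G (h * g) - 1) - (MonoidAlgebra.of (ZMod 2) G g - 1) := by
        rw [map_mul]
        noncomm_ring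
      rw [e]
      exact (ga G).sub_mem (gs3_mem _) (gs3_mem _)
    | add x y hx hy =>
      rw [mul_add]
      exact (ga G).add_mem hx hy
    | smul c x hx =>
      rw [mul_smul_comm]
      exact gs3_smul c hx
  | zero =>
    rw [zero_mul]
    exact (ga G).zero_mem
  | add x y _ _ hx hy =>
    rw [add_mul]
    exact (ga G).add_mem hx hy
  | smul c x _ hx =>
    rw [smul_eq_mul, mul_assoc]
    exact (ga G).mul_mem_left _ hx⟩

theorem gs3_mul {G : Type} [Group G] {m n : ℕ} {x y : MonoidAlgebra (ZMod 2) G}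
    (hx : x ∈ ga G ^ m) (hy : y ∈ ga G ^ n) : x * y ∈ ga G ^ (m + n) := by
  rw [Ideal.IsTwoSided.pow_add]
  exact Ideal.mul_mem_mul hx hy

theorem gs3_two (G : Type) [Group G] : (2 : MonoidAlgebra (ZMod 2) G) = 0 := by
  rw [← map_ofNat (algebraMap (ZMod 2) (MonoidAlgebra (ZMod 2) G)) 2,
    show (OfNat.ofNat 2 : ZMod 2) = 0 from rfl, map_zero]

theorem gs3_sq {G : Type} [Group G] (x : MonoidAlgebra (ZMod 2) G) :
    x * x - 1 = (x - 1) * (x - 1) := by
  have e : (x - 1) * (x - 1) = x * x - 1 - 2 * (x - 1) := by noncomm_ring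
  rw [e, gs3_two, zero_mul, sub_zero]

theorem gs3_pow {G : Type} [Group G] (x : MonoidAlgebra (ZMod 2) G) (a : ℕ) :
    x ^ 2 ^ a - 1 = (x - 1) ^ 2 ^ a := by
  induction a with
  | zero => simp
  | succ a ih => rw [pow_succ 2, pow_mul, pow_mul, sq, sq, gs3_sq, ih]

/-- the map of group algebras -/
noncomputable def gs3Map {G H : Type} [Group G] [Group H] (φ : G →* H) :
    MonoidAlgebra (ZMod 2) G →ₐ[ZMod 2] MonoidAlgebra (ZMod 2) H :=
  MonoidAlgebra.lift (ZMod 2) (MonoidAlgebra (ZMod 2) H) G ((MonoidAlgebra.of (ZMod 2) H).comp φ)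

theorem gs3Map_of {G H : Type} [Group G] [Group H] (φ : G →* H) (g : G) :
    gs3Map φ (MonoidAlgebra.of (ZMod 2) G g) = MonoidAlgebra.of (ZMod 2) H (φ g) :=
  MonoidAlgebra.lift_of _ g

theorem gs3Map_one {G H : Type} [Group G] [Group H] (φ : G →* H) {x : MonoidAlgebra (ZMod 2) G}
    (hx : x ∈ ga G) : gs3Map φ x ∈ ga H := by
  induction hx using Submodule.span_induction with
  | mem x hx =>
    obtain ⟨h, rfl⟩ := hx
    rw [map_sub, map_one, gs3Map_of]
    exact gs3_mem _
  | zero =>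
    rw [map_zero]
    exact (ga H).zero_mem
  | add x y _ _ hx hy =>
    rw [map_add]
    exact (ga H).add_mem hx hy
  | smul c x _ hx =>
    rw [smul_eq_mul, map_mul]
    exact (ga H).mul_mem_left _ hx

theorem gs3Map_mem {G H : Type} [Group G] [Group H] (φ : G →* H) (n : ℕ) :
    ∀ x ∈ ga G ^ n, gs3Map φ x ∈ ga H ^ n := by
  induction n with
  | zero =>
    intro x _
    rw [Submodule.pow_zero, Ideal.one_eq_top]
    trivial
  | succ n ih =>
    intro x hx
    rw [Submodule.pow_succ] at hx ⊢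
    induction hx using Submodule.mul_induction_on' with
    | mem_mul_mem r hr s hs =>
      rw [map_mul]
      exact Ideal.mul_mem_mul (ih r hr) (gs3Map_one φ hs)
    | add x _ y _ hx hy =>
      rw [map_add]
      exact Ideal.add_mem _ hx hy

theorem DimS.one' (G : Type) [Group G] (g : G) : DimS G 1 g := by
  rw [dimS_iff, Submodule.pow_one]
  exact gs3_mem g

theorem DimS.anti {G : Type} [Group G] {m n : ℕ} (h : m ≤ n) {g : G} (hg : DimS G n g) :
    DimS G m g := Ideal.pow_le_pow_right h hg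

theorem DimS.mul {G : Type} [Group G] {n : ℕ} {g h : G} (hg : DimS G n g) (hh : DimS G n h) :
    DimS G n (g * h) := by
  rw [dimS_iff] at hg hh ⊢
  have e : MonoidAlgebra.of (ZMod 2) G (g * h) - 1 = MonoidAlgebra.of (ZMod 2) G g *
      (MonoidAlgebra.of (ZMod 2) G h - 1) + (MonoidAlgebra.of (ZMod 2) G g - 1) := by
    rw [map_mul]
    noncomm_ring
  rw [e]
  exact Ideal.add_mem _ (Ideal.mul_mem_left _ _ hh) hg

theorem DimS.inv {G : Type} [Group G] {n : ℕ} {g : G} (hg : DimS G n g) : DimS G n g⁻¹ := by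
  rw [dimS_iff] at hg ⊢
  have e : MonoidAlgebra.of (ZMod 2) G g⁻¹ - 1 = -MonoidAlgebra.of (ZMod 2) G g⁻¹ *
      (MonoidAlgebra.of (ZMod 2) G g - 1) := by
    rw [mul_sub, neg_mul, ← map_mul, inv_mul_cancel, map_one]
    noncomm_ring
  rw [e]
  exact Ideal.mul_mem_left _ _ hg

theorem DimS.map {G H : Type} [Group G] [Group H] (φ : G →* H) {n : ℕ} {g : G} (hg : DimS G n g) :
    DimS H n (φ g) := by
  have h := gs3Map_mem φ n _ (dimS_iff.1 hg)
  rwa [map_sub, map_one, gs3Map_of] at h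

theorem DimS.comm {G : Type} [Group G] {m n : ℕ} {g h : G} (hg : DimS G m g) (hh : DimS G n h) :
    DimS G (m + n) (g * h * g⁻¹ * h⁻¹) := by
  rw [dimS_iff] at hg hh ⊢
  have e : MonoidAlgebra.of (ZMod 2) G (g * h * g⁻¹ * h⁻¹) - 1 =
      ((MonoidAlgebra.of (ZMod 2) G g - 1) * (MonoidAlgebra.of (ZMod 2) G h - 1) -
        (MonoidAlgebra.of (ZMod 2) G h - 1) * (MonoidAlgebra.of (ZMod 2) G g - 1)) *
        MonoidAlgebra.of (ZMod 2) G (g⁻¹ * h⁻¹) := by
    have e1 : (MonoidAlgebra.of (ZMod 2) G g - 1) * (MonoidAlgebra.of (ZMod 2) G h - 1) -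
        (MonoidAlgebra.of (ZMod 2) G h - 1) * (MonoidAlgebra.of (ZMod 2) G g - 1) =
        MonoidAlgebra.of (ZMod 2) G (g * h) - MonoidAlgebra.of (ZMod 2) G (h * g) := by
      rw [map_mul, map_mul]
      noncomm_ring
    rw [e1, sub_mul, ← map_mul, ← map_mul, show h * g * (g⁻¹ * h⁻¹) = 1 by group, map_one,
      mul_assoc (g * h)]
  rw [e]
  exact Ideal.mul_mem_right _ _ (Ideal.sub_mem _ (gs3_mul hg hh) (add_comm n m ▸ gs3_mul hh hg))

theorem DimS.two_pow {G : Type} [Group G] {m : ℕ} {g : G} (hg : DimS G m g) (a : ℕ) :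
    DimS G (2 ^ a * m) (g ^ 2 ^ a) := by
  induction a with
  | zero => simpa using hg
  | succ a ih =>
    rw [dimS_iff] at ih ⊢
    rw [pow_succ 2, pow_mul, sq, map_mul, gs3_sq, show 2 ^ a * 2 * m = 2 ^ a * m + 2 ^ a * m by ring]
    exact gs3_mul ih ih

theorem gs3_cyc {H : Type} [CommGroup H] {z : H} (hz : ∀ y, y ∈ Submonoid.powers z) (n : ℕ) :
    ga H ^ n ≤ Ideal.span {(MonoidAlgebra.of (ZMod 2) H z - 1) ^ n} := by
  have h1 : ga H ≤ Ideal.span {MonoidAlgebra.of (ZMod 2) H z - 1} := by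
    refine Ideal.span_le.2 ?_
    rintro _ ⟨y, rfl⟩
    obtain ⟨k, rfl⟩ := hz y
    obtain ⟨c, hc⟩ := sub_one_dvd_pow_sub_one (MonoidAlgebra.of (ZMod 2) H z) k
    refine Ideal.mem_span_singleton'.2 ⟨c, ?_⟩
    simp only [map_pow]
    rw [hc, mul_comm]
  induction n with
  | zero =>
    rw [pow_zero (MonoidAlgebra.of (ZMod 2) H z - 1), Ideal.span_singleton_one]
    exact le_top
  | succ n ih =>
    rw [Submodule.pow_succ]
    refine Ideal.mul_le.2 fun r hr s hs => ?_
    obtain ⟨a, rfl⟩ := Ideal.mem_span_singleton'.1 (ih hr)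
    obtain ⟨b, rfl⟩ := Ideal.mem_span_singleton'.1 (h1 hs)
    exact Ideal.mem_span_singleton'.2 ⟨a * b, by ring⟩

/-- characters of exponent `2 ^ a` kill the `2 ^ a`-th dimension subgroup -/
theorem DimS.char {G : Type} [Group G] {a : ℕ} {g : G} (hg : DimS G (2 ^ a) g) (ψ : G →* ℂˣ)
    (hψ : ∀ h, ψ h ^ 2 ^ a = 1) : ψ g = 1 := by
  let ψ' : G →* rootsOfUnity (2 ^ a) ℂ :=
    ψ.codRestrict _ fun h => (mem_rootsOfUnity _ _).2 (hψ h)
  obtain ⟨z, hz⟩ := IsCyclic.exists_monoid_generator (α := rootsOfUnity (2 ^ a) ℂ)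
  have h1 := gs3_cyc hz (2 ^ a) (dimS_iff.1 (hg.map ψ'))
  have h2 : z ^ 2 ^ a = 1 := Subtype.ext ((mem_rootsOfUnity _ _).1 z.2)
  rw [← gs3_pow, ← map_pow, h2, map_one, sub_self, Ideal.span_singleton_zero, Ideal.mem_bot,
    sub_eq_zero, ← map_one (MonoidAlgebra.of (ZMod 2) (rootsOfUnity (2 ^ a) ℂ))] at h1
  exact congrArg Subtype.val (MonoidAlgebra.of_injective h1)

/-- parity of the exponent of the generator `i` -/
noncomputable def chi {ι : Type} (i : ι) : FreeGroup ι →* ℤˣ :=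
  FreeGroup.lift fun j => if j = i then -1 else 1

theorem gs3_chi_of {ι : Type} (i j : ι) : chi i (FreeGroup.of j) = if j = i then -1 else 1 :=
  FreeGroup.lift_apply_of

/-- additive form of a sign -/
def gs3E (u : ℤˣ) : ZMod 2 := if u = 1 then 0 else 1

theorem gs3E_mul (u v : ℤˣ) : gs3E (u * v) = gs3E u + gs3E v := by
  revert u v
  decide

theorem gs3_form {ι : Type} [Fintype ι] (w : FreeGroup ι) :
    MonoidAlgebra.of (ZMod 2) _ w - 1 - ∑ i, gs3E (chi i w) •
      (MonoidAlgebra.of (ZMod 2) _ (FreeGroup.of i) - 1) ∈ ga (FreeGroup ι) ^ 2 := by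
  have hm : ∀ x y : FreeGroup ι, (MonoidAlgebra.of (ZMod 2) _ x - 1) *
      (MonoidAlgebra.of (ZMod 2) _ y - 1) ∈ ga (FreeGroup ι) ^ 2 := fun x y =>
    gs3_mul (dimS_iff.1 (DimS.one' _ x)) (dimS_iff.1 (DimS.one' _ y))
  induction w using FreeGroup.induction_on with
  | C1 =>
    simp only [map_one, show gs3E 1 = 0 from rfl, zero_smul, Finset.sum_const_zero, sub_self]
    exact Ideal.zero_mem _
  | of j =>
    rw [Finset.sum_eq_single j (fun i _ hi => by rw [gs3_chi_of, if_neg hi.symm]; simp [gs3E])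
      (fun h => absurd (Finset.mem_univ j) h), gs3_chi_of, if_pos rfl,
      show gs3E (-1) = 1 by decide, one_smul, sub_self]
    exact Ideal.zero_mem _
  | inv_of j ih =>
    have h1 := hm (FreeGroup.of j)⁻¹ (FreeGroup.of j)
    have e : MonoidAlgebra.of (ZMod 2) _ (FreeGroup.of j)⁻¹ - 1 =
        (MonoidAlgebra.of (ZMod 2) _ (FreeGroup.of j) - 1) -
        (MonoidAlgebra.of (ZMod 2) _ (FreeGroup.of j)⁻¹ - 1) *
          (MonoidAlgebra.of (ZMod 2) (FreeGroup ι) (FreeGroup.of j) - 1) -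
        2 * (MonoidAlgebra.of (ZMod 2) (FreeGroup ι) (FreeGroup.of j) - 1) := by
      rw [sub_mul, mul_sub, ← map_mul, inv_mul_cancel, map_one]
      noncomm_ring
    rw [gs3_two, zero_mul, sub_zero] at e
    simp only [map_inv, Int.units_inv_eq_self]
    rw [e, sub_right_comm]
    exact Ideal.sub_mem _ ih h1
  | mul x y hx hy =>
    have e : MonoidAlgebra.of (ZMod 2) _ (x * y) - 1 = (MonoidAlgebra.of (ZMod 2) _ x - 1) *
        (MonoidAlgebra.of (ZMod 2) _ y - 1) + ((MonoidAlgebra.of (ZMod 2) _ x - 1) +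
          (MonoidAlgebra.of (ZMod 2) (FreeGroup ι) y - 1)) := by
      rw [map_mul]
      noncomm_ring
    rw [e]
    simp only [map_mul, gs3E_mul, add_smul, Finset.sum_add_distrib]
    rw [add_sub_assoc, add_sub_add_comm]
    exact Ideal.add_mem _ (hm x y) (Ideal.add_mem _ hx hy)

theorem dimS_two {ι : Type} [Fintype ι] {w : FreeGroup ι} (h : ∀ i, chi i w = 1) :
    DimS (FreeGroup ι) 2 w := by
  have h1 := gs3_form w
  simp only [h, show gs3E 1 = 0 from rfl, zero_smul, Finset.sum_const_zero, sub_zero] at h1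
  exact h1

/-- kill the generators in `S` -/
noncomputable def gs3K {ι : Type} (S : Finset ι) : FreeGroup ι →* FreeGroup ι :=
  FreeGroup.lift fun j => if j ∈ S then 1 else FreeGroup.of j

theorem gs3K_of {ι : Type} (S : Finset ι) (j : ι) :
    gs3K S (FreeGroup.of j) = if j ∈ S then 1 else FreeGroup.of j := FreeGroup.lift_apply_of

theorem gs3K_two {ι : Type} [Fintype ι] (i : ι) {h : FreeGroup ι} (hh : chi i h = 1) :
    DimS (FreeGroup ι) 2 (h⁻¹ * gs3K {i} h) := by
  refine dimS_two fun j => ?_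
  rw [map_mul, map_inv, inv_mul_eq_one]
  by_cases hj : j = i
  · subst hj
    have e : (chi j).comp (gs3K {j}) = 1 := by
      refine FreeGroup.ext_hom _ _ fun k => ?_
      rw [MonoidHom.comp_apply, gs3K_of]
      by_cases hk : k = j <;> simp [hk, gs3_chi_of]
    rw [hh]
    exact (DFunLike.congr_fun e h).symm
  · have e : (chi j).comp (gs3K {i}) = chi j := by
      refine FreeGroup.ext_hom _ _ fun k => ?_
      rw [MonoidHom.comp_apply, gs3K_of]
      by_cases hk : k = i
      · subst hk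
        simp [gs3_chi_of, Ne.symm hj]
      · simp [hk]
    exact (DFunLike.congr_fun e h).symm

theorem gs3_close {G H : Type} [Group G] [Group H] (φ κ : G →* H)
    (h : ∀ g, DimS H 2 ((φ g)⁻¹ * κ g)) (n : ℕ) :
    ∀ x ∈ ga G ^ n, gs3Map κ x - gs3Map φ x ∈ ga H ^ (n + 1) := by
  have h2 : ∀ x, gs3Map κ x - gs3Map φ x ∈ ga H ^ 2 := by
    intro x
    induction x using MonoidAlgebra.induction_on with
    | of g =>
      have h3 := Ideal.mul_mem_left _ (MonoidAlgebra.of (ZMod 2) H (φ g)) (dimS_iff.1 (h g))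
      rw [mul_sub, ← map_mul, mul_inv_cancel_left, mul_one] at h3
      rwa [gs3Map_of, gs3Map_of]
    | add x y hx hy =>
      rw [map_add, map_add, add_sub_add_comm]
      exact Ideal.add_mem _ hx hy
    | smul c x hx =>
      rw [map_smul, map_smul, ← smul_sub]
      exact gs3_smul c hx
  induction n with
  | zero => exact fun x _ => Ideal.pow_le_pow_right (by norm_num) (h2 x)
  | succ n ih =>
    intro x hx
    rw [Submodule.pow_succ] at hx
    induction hx using Submodule.mul_induction_on' with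
    | mem_mul_mem r hr s hs =>
      have e : gs3Map κ (r * s) - gs3Map φ (r * s) = (gs3Map κ r - gs3Map φ r) * gs3Map κ s +
          gs3Map φ r * (gs3Map κ s - gs3Map φ s) := by
        rw [map_mul, map_mul]
        noncomm_ring
      rw [e]
      refine Ideal.add_mem _ (gs3_mul (ih r hr) ?_) (gs3_mul (m := n) (n := 2) (gs3Map_mem φ n r hr) (h2 s))
      rw [Submodule.pow_one]
      exact gs3Map_one κ hs
    | add x _ y _ hx hy =>
      rw [map_add, map_add, add_sub_add_comm]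
      exact Ideal.add_mem _ hx hy

theorem dimS_succ {ι : Type} [Fintype ι] {m : ℕ} (hm : 1 ≤ m) {w : FreeGroup ι}
    (h : ∀ i, ∃ (ι' : Type) (φ : FreeGroup ι' →* FreeGroup ι) (w' : FreeGroup ι'),
      (∀ j, chi i (φ (FreeGroup.of j)) = 1) ∧ φ w' = w ∧ DimS (FreeGroup ι') m w') :
    DimS (FreeGroup ι) (m + 1) w := by
  have h1 : ∀ i, DimS (FreeGroup ι) (m + 1) (w⁻¹ * gs3K {i} w) := by
    intro i
    obtain ⟨ι', φ, w', h2, rfl, h3⟩ := h i
    have e : (chi i).comp φ = 1 := FreeGroup.ext_hom _ _ h2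
    have h4 := gs3_close φ ((gs3K {i}).comp φ)
      (fun g => gs3K_two i (DFunLike.congr_fun e g)) m _ (dimS_iff.1 h3)
    rw [map_sub, map_sub, map_one, map_one, gs3Map_of, gs3Map_of, sub_sub_sub_cancel_right] at h4
    have h5 := Ideal.mul_mem_left _ (MonoidAlgebra.of (ZMod 2) _ (φ w')⁻¹) h4
    rw [mul_sub, ← map_mul, ← map_mul, inv_mul_cancel, map_one] at h5
    exact h5
  have h6 : ∀ S : Finset ι, DimS (FreeGroup ι) (m + 1) (w⁻¹ * gs3K S w) := by
    intro S
    induction S using Finset.induction_on with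
    | empty =>
      have e : gs3K (∅ : Finset ι) = MonoidHom.id _ :=
        FreeGroup.ext_hom _ _ fun k => by simp [gs3K_of]
      rw [e, MonoidHom.id_apply, inv_mul_cancel, dimS_iff, map_one, sub_self]
      exact Ideal.zero_mem _
    | insert i S _ ih =>
      have e : (gs3K S).comp (gs3K {i}) = gs3K (insert i S) := by
        refine FreeGroup.ext_hom _ _ fun k => ?_
        rw [MonoidHom.comp_apply, gs3K_of, gs3K_of]
        by_cases hk : k = i <;> simp [hk, gs3K_of]
      have h7 := ih.mul ((h1 i).map (gs3K S))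
      rw [map_mul, map_inv, mul_assoc, mul_inv_cancel_left, ← MonoidHom.comp_apply, e] at h7
      exact h7
  have e : gs3K (Finset.univ : Finset ι) = 1 := FreeGroup.ext_hom _ _ fun k => by simp [gs3K_of]
  have h8 := (h6 Finset.univ).inv
  rwa [e, MonoidHom.one_apply, mul_one, inv_inv] at h8

/-- Schreier generators of the kernel of `chi i` -/
def sch {ι G : Type} [Group G] (x : ι → G) (i : ι) : Option ({j // j ≠ i} × Bool) → G
  | none => x i * x i
  | some (j, false) => x j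
  | some (j, true) => x i * x j * (x i)⁻¹

theorem gs3_cosets {ι G : Type} [Group G] (y : ι → G) (i : ι) (H : Subgroup G)
    (h2 : y i * y i ∈ H) (hj : ∀ j, j ≠ i → y j ∈ H ∧ y i * y j * (y i)⁻¹ ∈ H) {w : G}
    (hw : w ∈ Subgroup.closure (Set.range y)) : w ∈ H ∨ w * (y i)⁻¹ ∈ H := by
  induction hw using Subgroup.closure_induction_right with
  | one => exact Or.inl H.one_mem
  | mul_right x _ z hz ih =>
    obtain ⟨j, rfl⟩ := hz
    by_cases h : j = i
    · subst h
      rcases ih with ih | ih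
      · exact Or.inr (by rwa [mul_inv_cancel_right])
      · refine Or.inl ?_
        rw [show x * y j = x * (y j)⁻¹ * (y j * y j) by group]
        exact H.mul_mem ih h2
    · rcases ih with ih | ih
      · exact Or.inl (H.mul_mem ih (hj j h).1)
      · refine Or.inr ?_
        rw [show x * y j * (y i)⁻¹ = x * (y i)⁻¹ * (y i * y j * (y i)⁻¹) by group]
        exact H.mul_mem ih (hj j h).2
  | mul_inv_cancel x _ z hz ih =>
    obtain ⟨j, rfl⟩ := hz
    by_cases h : j = i
    · subst h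
      rcases ih with ih | ih
      · refine Or.inr ?_
        rw [show x * (y j)⁻¹ * (y j)⁻¹ = x * (y j * y j)⁻¹ by group]
        exact H.mul_mem ih (H.inv_mem h2)
      · exact Or.inl ih
    · rcases ih with ih | ih
      · exact Or.inl (H.mul_mem ih (H.inv_mem (hj j h).1))
      · refine Or.inr ?_
        rw [show x * (y j)⁻¹ * (y i)⁻¹ = x * (y i)⁻¹ * (y i * y j * (y i)⁻¹)⁻¹ by group]
        exact H.mul_mem ih (H.inv_mem (hj j h).2)

theorem sch_surj {ι : Type} (i : ι) {w : FreeGroup ι} (h : chi i w = 1) :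
    ∃ w', FreeGroup.lift (sch FreeGroup.of i) w' = w := by
  have hm : ∀ o, sch FreeGroup.of i o ∈ (FreeGroup.lift (sch FreeGroup.of i)).range := fun o =>
    ⟨FreeGroup.of o, FreeGroup.lift_apply_of⟩
  rcases gs3_cosets FreeGroup.of i _ (hm none)
    (fun j hj => ⟨hm (some (⟨j, hj⟩, false)), hm (some (⟨j, hj⟩, true))⟩)
    (w := w) (by rw [FreeGroup.closure_range_of]; trivial) with h1 | ⟨w', h1⟩
  · exact h1
  · exfalso
    have e : (chi i).comp (FreeGroup.lift (sch FreeGroup.of i)) = 1 := by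
      refine FreeGroup.ext_hom _ _ fun o => ?_
      rw [MonoidHom.comp_apply, FreeGroup.lift_apply_of]
      rcases o with _ | ⟨⟨j, hj⟩, _ | _⟩
      · simp [sch, gs3_chi_of]
      · simp [sch, gs3_chi_of, hj]
      · simp [sch, gs3_chi_of, hj]
    have h2 := DFunLike.congr_fun e w'
    rw [MonoidHom.comp_apply, h1, map_mul, map_inv, h, gs3_chi_of, if_pos rfl] at h2
    revert h2
    simp

theorem gs3_fin {G : Type} [Group G] {H H' : Subgroup G} [H.FiniteIndex] {z : G}
    (h : ∀ w ∈ H, w ∈ H' ∨ w * z ∈ H') : H'.FiniteIndex := by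
  have : Finite (G ⧸ H') := by
    refine Finite.of_surjective (fun p : (G ⧸ H) × Bool =>
      ((p.1.out * (if p.2 then 1 else z) : G) : G ⧸ H')) fun q => ?_
    obtain ⟨g, rfl⟩ := QuotientGroup.mk_surjective q
    have h1 : g⁻¹ * (g : G ⧸ H).out ∈ H := QuotientGroup.eq.1 (QuotientGroup.out_eq' _).symm
    rcases h _ h1 with h2 | h2
    · exact ⟨(g, true), (QuotientGroup.eq.2 (by simpa using h2)).symm⟩
    · exact ⟨(g, false), (QuotientGroup.eq.2 (by simpa [mul_assoc] using h2)).symm⟩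
  exact Subgroup.finiteIndex_of_finite_quotient

/-- families with degrees at least `n`, of which `k` are equal to `n` -/
def Gs3Good (G : Type) [Group G] (s : ℝ) (n k : ℕ) : Prop :=
  ∃ (ι' : Type) (_ : Fintype ι') (y : ι' → G) (d : ι' → ℕ),
    (Subgroup.closure (Set.range y)).FiniteIndex ∧ (∀ j, n ≤ d j ∧ DimS G (d j) (y j)) ∧
      ∑ j, s ^ d j ≤ 1 ∧ ∑ j, (if d j ≤ n then 1 else 0) = k

theorem gs3_step {G : Type} [Group G] {s : ℝ} (hs : 0 ≤ s) {n k : ℕ} (hn : 1 ≤ n)
    (h : Gs3Good G s n (k + 1)) : Gs3Good G s n k := by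
  obtain ⟨ι, _, y, d, h1, h2, h3, h4⟩ := h
  obtain ⟨i, -, hi⟩ := Finset.exists_ne_zero_of_sum_ne_zero (h4.trans_ne (Nat.succ_ne_zero k))
  have hd : d i ≤ n := by
    by_contra hc
    exact hi (if_neg hc)
  rw [Fintype.sum_eq_add_sum_subtype_ne _ i] at h3 h4
  let y' : Option ({j // j ≠ i} ⊕ {j // j ≠ i}) → G := fun o =>
    o.elim (y i ^ 2 ^ 1) (Sum.elim (fun j => y j) fun j => y i * y j * (y i)⁻¹ * (y j)⁻¹)
  let d' : Option ({j // j ≠ i} ⊕ {j // j ≠ i}) → ℕ := fun o =>
    o.elim (2 ^ 1 * d i) (Sum.elim (fun j => d j) fun j => d i + d j)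
  refine ⟨_, inferInstance, y', d', ?_, ?_, ?_, ?_⟩
  · have hm : ∀ o, y' o ∈ Subgroup.closure (Set.range y') := fun o =>
      Subgroup.subset_closure ⟨o, rfl⟩
    refine gs3_fin (H := Subgroup.closure (Set.range y)) (z := (y i)⁻¹) fun w hw =>
      gs3_cosets y i _ ?_ (fun j hj => ⟨hm (some (Sum.inl ⟨j, hj⟩)), ?_⟩) hw
    · rw [← sq]
      exact hm none
    · rw [show y i * y j * (y i)⁻¹ = y i * y j * (y i)⁻¹ * (y j)⁻¹ * y j by group]
      exact Subgroup.mul_mem _ (hm (some (Sum.inr ⟨j, hj⟩))) (hm (some (Sum.inl ⟨j, hj⟩)))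
  · rintro (_ | j | j)
    · exact ⟨by have := (h2 i).1; show n ≤ 2 ^ 1 * d i; omega, (h2 i).2.two_pow 1⟩
    · exact h2 j
    · exact ⟨by have := (h2 i).1; show n ≤ d i + d j; omega, (h2 i).2.comm (h2 j).2⟩
  · rw [Fintype.sum_option, Fintype.sum_sum_type]
    show s ^ (2 ^ 1 * d i) + (∑ j : {j // j ≠ i}, s ^ d j + ∑ j : {j // j ≠ i}, s ^ (d i + d j)) ≤ 1
    simp only [pow_add, ← Finset.mul_sum]
    rw [pow_one, mul_comm 2, pow_mul]
    have h5 := pow_nonneg hs (d i)
    nlinarith [mul_le_mul_of_nonneg_left h3 h5]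
  · rw [Fintype.sum_option, Fintype.sum_sum_type]
    show (if 2 ^ 1 * d i ≤ n then 1 else 0) + (∑ j : {j // j ≠ i}, (if d j ≤ n then 1 else 0) +
      ∑ j : {j // j ≠ i}, (if d i + d j ≤ n then 1 else 0)) = k
    have h5 := (h2 i).1
    rw [if_neg (by omega), Finset.sum_eq_zero (s := Finset.univ)
      (f := fun j : {j // j ≠ i} => if d i + d j ≤ n then 1 else 0)
      fun j _ => if_neg (by have := (h2 j).1; omega)]
    rw [if_pos hd] at h4
    omega

theorem gs3_next {G : Type} [Group G] {s : ℝ} (hs : 0 ≤ s) {n : ℕ} (hn : 1 ≤ n) (k : ℕ)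
    (h : Gs3Good G s n k) : ∃ k', Gs3Good G s (n + 1) k' := by
  induction k with
  | succ k ih => exact ih (gs3_step hs hn h)
  | zero =>
    obtain ⟨ι, _, y, d, h1, h2, h3, h4⟩ := h
    refine ⟨_, ι, inferInstance, y, d, h1, fun j => ⟨?_, (h2 j).2⟩, h3, rfl⟩
    have h5 := Finset.sum_eq_zero_iff.1 h4 j (Finset.mem_univ j)
    by_contra hc
    rw [if_pos (by omega)] at h5
    exact one_ne_zero h5

theorem exists_deep (κ : Type) [Fintype κ] {t η : ℝ} (h0 : 0 < t) (h1 : t < 1)
    (hκ : Fintype.card κ * t < 1) (hη : 0 < η) (N : ℕ) :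
    ∃ (ι' : Type) (_ : Fintype ι') (y : ι' → FreeGroup κ) (d : ι' → ℕ),
      (Subgroup.closure (Set.range y)).FiniteIndex ∧
      (∀ j, N ≤ d j ∧ DimS (FreeGroup κ) (d j) (y j)) ∧ ∑ j, t ^ d j ≤ η := by
  have hc : (0 : ℝ) ≤ Fintype.card κ * t := by positivity
  have hq0 : (0 : ℝ) < (1 + Fintype.card κ * t) / 2 := by positivity
  have hq1 : (1 + Fintype.card κ * t) / 2 < (1 : ℝ) := by linarith
  set q : ℝ := (1 + Fintype.card κ * t) / 2 with hq
  have hs : 0 ≤ t / q := by positivity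
  have key : ∀ n, ∃ k, Gs3Good (FreeGroup κ) (t / q) (n + 1) k := by
    intro n
    induction n with
    | zero =>
      refine ⟨_, κ, inferInstance, FreeGroup.of, fun _ => 1, ?_, fun j => ⟨le_rfl, DimS.one' _ _⟩,
        ?_, rfl⟩
      · rw [FreeGroup.closure_range_of]
        infer_instance
      · rw [Finset.sum_const, Finset.card_univ, nsmul_eq_mul, pow_one, ← mul_div_assoc,
          div_le_one hq0]
        linarith
    | succ n ih =>
      obtain ⟨k, hk⟩ := ih
      exact gs3_next hs (by omega) k hk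
  obtain ⟨n, hn⟩ := exists_pow_lt_of_lt_one hη hq1
  obtain ⟨k, ι', _, y, d, a1, a2, a3, -⟩ := key (n + N)
  refine ⟨ι', inferInstance, y, d, a1, fun j => ⟨by have := (a2 j).1; omega, (a2 j).2⟩, ?_⟩
  calc ∑ j, t ^ d j ≤ ∑ j, η * (t / q) ^ d j := by
        refine Finset.sum_le_sum fun j _ => ?_
        have h2 : q ^ d j ≤ η :=
          (pow_le_pow_of_le_one hq0.le hq1.le (by have := (a2 j).1; omega)).trans hn.le
        calc t ^ d j = q ^ d j * (t / q) ^ d j := by
              rw [← mul_pow, mul_div_cancel₀ _ hq0.ne']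
          _ ≤ _ := mul_le_mul_of_nonneg_right h2 (pow_nonneg hs _)
    _ ≤ η := by
        rw [← Finset.mul_sum]
        exact mul_le_of_le_one_right hη.le a3

end Vale.Agent.P300
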