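import Vale.Agent.P300.Ine1
import Vale.Agent.P300.GS3

/-! Cofinality of genus zero towers. Induction on `M` for data `(ι, y, q, x)`: `y` and `q i` in `Om`, `y`
integral over `R0`, `q i` `Bs` and integral over `R0`, `Un (y - q i)`, `Un (q i - q j)` for `i ≠ j`,
`x i ∈ pi`, `x i y = y`, and for each `i` a valuation ring `V ∋ y` as in the statement with
`y - q i ∈ V.nonunits`, `IVO V (x i)`, `Acts (x i) (y - q i) 1`. Step at `i`: `y' ^ 2 = y - q i`, new index
`Option ({j // j ≠ i} × Bool)`, new elements `sch x i`, punctures `0` and `± √(q j - q i)` (sign chosen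
with `y' - q' ∈ V.nonunits` for `(j, false)`; conjugate by `x i` for `(j, true)`, `x i y' = -y'`).
`x j` fixes `y'` for `j ≠ i` (`acts_unit`), so an element fixing `y'` has `chi i w = 1`; `sch_surj`,
`dimS_succ`. `Acts (x j) (y' - q') 1` since `y - q j = (y' - q') (y' + q')` and `y' + q'` is a unit. -/

open scoped LinearAlgebra.Projectivization Topology Classical Pointwise
open Polynomial

set_option linter.unusedSectionVars false

namespace Vale.Agent.P300

variable {L : Type} [Field L] [Algebra ℂ L] [IsAlgClosed L] (A : Amb L)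

theorem cof_ne (a : Mu) : muC a ≠ 0 := Circle.coe_ne_zero _

theorem cof_add (a b : Mu) : muC (a + b) = muC a * muC b := by
  unfold muC
  rw [AddChar.map_add_eq_mul, Circle.coe_mul]

theorem cof_inj {a b : Mu} (h : a ≠ b) : muC a - muC b ≠ 0 := fun e =>
  h (ZMod.injective_toCircle (Circle.coe_injective (sub_eq_zero.1 e)))

theorem Amb.cof_neg {a : L} (h : A.Un a) : A.Un (-a) := by
  have h1 := (A.un_const (c := -1) (by norm_num)).mul A h
  rwa [map_neg, map_one, neg_one_mul] at h1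

theorem Amb.cof_s : A.Un A.s := by
  simpa [Amb.form, Cusp.val] using A.un_form (.cusp .zero)

theorem Amb.cof_mix (a b : Mu) : A.Un (mu L b * A.s - mu L a) := by
  have h1 := (A.un_const (cof_ne b)).mul A (A.un_form (.cusp (.cst (a - b))))
  have e : muC a = muC b * muC (a - b) := by rw [← cof_add, add_sub_cancel]
  simp only [Amb.form, Cusp.val] at h1
  rw [mul_sub, ← map_mul, ← e] at h1
  exact h1

theorem Amb.cof_p {i j : Sec} (h : i ≠ j) : A.Un (A.p i - A.p j) := by
  rcases i with _ | a | a <;> rcases j with _ | b | b <;> simp only [Amb.p]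
  · exact absurd rfl h
  · rw [zero_sub]
    exact A.cof_neg (A.un_const (cof_ne b))
  · rw [zero_sub]
    exact A.cof_neg ((A.un_const (cof_ne b)).mul A A.cof_s)
  · rw [sub_zero]
    exact A.un_const (cof_ne a)
  · have h1 := A.un_const (cof_inj (a := a) (b := b) fun e => h (by rw [e]))
    rwa [map_sub] at h1
  · have h1 := A.cof_neg (A.cof_mix a b)
    rwa [neg_sub] at h1
  · rw [sub_zero]
    exact (A.un_const (cof_ne a)).mul A A.cof_s
  · exact A.cof_mix b a
  · have h1 := (A.un_const (cof_inj (a := a) (b := b) fun e => h (by rw [e]))).mul A A.cof_s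
    rwa [map_sub, sub_mul] at h1

/-- the valuation attached to a puncture -/
def Amb.CofV (u : L) (e : A.G) : Prop :=
  ∃ V : ValuationSubring L, (∀ c : ℂ, algebraMap ℂ L c ∈ V) ∧
    (∀ Q : ℂ[X], Q ≠ 0 → VU V (aeval A.s Q)) ∧ u ∈ V.nonunits ∧ A.IVO V e ∧ A.Acts e u 1

/-- data of a genus zero level -/
structure Amb.CofD {ι : Type} (y : L) (q : ι → L) (x : ι → A.G) : Prop where
  oy : A.Om y
  oq : ∀ i, A.Om (q i)
  iy : IsIntegral A.R0 y
  bq : ∀ i, A.Bs (q i)
  iq : ∀ i, IsIntegral A.R0 (q i)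
  uy : ∀ i, A.Un (y - q i)
  uq : ∀ i j, i ≠ j → A.Un (q i - q j)
  px : ∀ i, x i ∈ A.pi
  fy : ∀ i, x i y = y
  val : ∀ i, A.CofV (y - q i) (x i)

theorem cof_sq {V : ValuationSubring L} {a : L} (h : a ^ 2 ∈ V) : a ∈ V := by
  rw [← V.valuation_le_one_iff] at h ⊢
  rw [map_pow] at h
  exact (pow_le_one_iff_of_nonneg zero_le (by norm_num)).1 h

theorem cof_prime {V : ValuationSubring L} {a b : L} (h : a * b ∈ V.nonunits) :
    a ∈ V.nonunits ∨ b ∈ V.nonunits := by
  simp only [V.mem_nonunits_iff] at h ⊢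
  by_contra hc
  push Not at hc
  rw [map_mul] at h
  exact absurd (one_le_mul hc.1 hc.2) (not_le.2 h)

theorem Amb.cof_smul {V : ValuationSubring L} (g : A.G) {a : L} :
    g a ∈ g • V ↔ a ∈ V := by
  rw [ValuationSubring.mem_pointwise_smul_iff_inv_smul_mem]
  show g⁻¹ (g a) ∈ V ↔ _
  rw [← AlgEquiv.mul_apply, inv_mul_cancel, AlgEquiv.one_apply]

theorem Amb.cof_smul' {V : ValuationSubring L} (g : A.G) {a : L} :
    g a ∈ (g • V).nonunits ↔ a ∈ V.nonunits := by
  rw [ValuationSubring.mem_nonunits_iff_or, ValuationSubring.mem_nonunits_iff_or, map_eq_zero,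
    ← map_inv₀, A.cof_smul]

theorem Amb.CofV.conj {u : L} {e : A.G} (h : A.CofV u e) (g : A.G) :
    A.CofV (-g u) (g * e * g⁻¹) := by
  obtain ⟨V, h1, h2, h3, h4, h5⟩ := h
  refine ⟨g • V, fun c => ?_, fun Q hQ => ?_, ?_, h4.conj A g, ?_⟩
  · rw [← A.fixC g c, A.cof_smul]
    exact h1 c
  · have e1 : g (aeval A.s Q) = aeval A.s Q := by
      refine A.fixK g (A.pi_baseK ?_)
      rw [Algebra.adjoin_singleton_eq_range_aeval]
      exact ⟨Q, rfl⟩
    rw [← e1, VU, A.cof_smul, A.cof_smul']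
    exact h2 Q hQ
  · exact (g • V).nonunits.neg_mem ((A.cof_smul' g).2 h3)
  · have h6 : A.Acts (g * e * g⁻¹) (g u) 1 := fun a y ho hy => by
      rw [AlgEquiv.mul_apply, AlgEquiv.mul_apply, h5 a _ (ho.map A g⁻¹)
        (by rw [← map_pow, hy, ← AlgEquiv.mul_apply, inv_mul_cancel, AlgEquiv.one_apply]),
        map_mul, A.ine1_zt, ← AlgEquiv.mul_apply, mul_inv_cancel, AlgEquiv.one_apply]
    have h7 := (A.acts_const (g * e * g⁻¹) (-1)).mul_right A h6 (A.un_const (by norm_num))
      (A.om_K (A.K.algebraMap_mem _))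
    rwa [map_neg, map_one, neg_one_mul, zero_add] at h7

theorem Amb.CofV.sq {u y : L} {e : A.G} (h : A.CofV u e) (hy : y ^ 2 = u) :
    A.CofV y (e * e) := by
  obtain ⟨V, h1, h2, h3, h4, h5⟩ := h
  refine ⟨V, h1, h2, ?_, fun a ho ha => ?_, fun a z ho hz => ?_⟩
  · rw [← hy, _root_.sq] at h3
    exact (cof_prime h3).elim id id
  · have h6 := h4 a ho ha
    have h7 : e a ∈ V := by
      have := V.add_mem _ _ (V.nonunits_subset h6) ha
      rwa [sub_add_cancel] at this
    have e1 : (e * e) a - a = (e (e a) - e a) + (e a - a) := by rw [AlgEquiv.mul_apply]; ring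
    rw [e1]
    exact V.nonunits.add_mem (h4 _ (ho.map A e) h7) h6
  · have h6 := h5 (a + 1) z ho (by rw [pow_succ, pow_mul, hz, hy])
    rw [AlgEquiv.mul_apply, h6, map_mul, A.ine1_zt, h6, zpow_one, zpow_one, ← mul_assoc, ← _root_.sq,
      zt_sq]

variable {A} in
theorem Amb.CofD.om {ι : Type} {y : L} {q : ι → L} {x : ι → A.G} (D : A.CofD y q x) {i : ι} {y' : L}
    (hy : y' ^ 2 = y - q i) : A.Om y' :=
  Amb.Om.root A (a := 1) (by rw [pow_one, hy]; exact A.OmF.sub_mem D.oy (D.oq i))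
    (by rw [pow_one, hy]; exact D.uy i)

variable {A} in
theorem Amb.CofD.neg {ι : Type} {y : L} {q : ι → L} {x : ι → A.G} (D : A.CofD y q x) {i : ι} {y' : L}
    (hy : y' ^ 2 = y - q i) : x i y' = -y' := by
  obtain ⟨V, -, -, -, -, h5⟩ := D.val i
  rw [h5 1 y' (D.om hy) (by rw [pow_one, hy]), zt_one, zpow_one, neg_one_mul]

variable {A} in
/-- the other generators: they fix the root, and a sign of the new puncture is singled out -/
theorem Amb.CofD.other {ι : Type} {y : L} {q : ι → L} {x : ι → A.G} (D : A.CofD y q x) {i j : ι}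
    (hj : j ≠ i) {y' : L} (hy : y' ^ 2 = y - q i) :
    x j y' = y' ∧ ∃ r, r ^ 2 = q j - q i ∧ A.CofV (y' - r) (x j) := by
  obtain ⟨V, h1, h2, h3, h4, h5⟩ := D.val j
  have hb : A.Bs (q j - q i) := A.Lb.sub_mem (D.bq j) (D.bq i)
  have hu := D.uq j i hj
  have e1 : y - q i = (y - q j) + (q j - q i) := by ring
  have hV : VU V (y - q i) := by
    refine ⟨e1 ▸ V.add_mem _ _ (V.nonunits_subset h3) (A.bs_unit h1 h2 hb).1, fun hn => ?_⟩
    have h6 := V.nonunits.sub_mem hn h3
    rw [e1, add_sub_cancel_left] at h6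
    exact hu.1 ((A.bs_unit h1 h2 hb).2 h6)
  have hfix : x j y' = y' := by
    have h6 := A.acts_unit h1 h4 hV (by rw [map_sub, D.fy j, D.px j _ (D.bq i) (D.oq i)]) 1 y'
      (D.om hy) (by rw [pow_one, hy])
    rwa [zpow_zero, one_mul] at h6
  refine ⟨hfix, ?_⟩
  have key : ∀ r, r ^ 2 = q j - q i → y' - r ∈ V.nonunits → A.CofV (y' - r) (x j) := by
    intro r hr hn
    have hrb : A.Bs r := Amb.Bs.root A (n := 2) (by norm_num) (hr ▸ hb)
    have hr0 : r ≠ 0 := fun e => hu.1 (by rw [← hr, e]; ring)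
    have hro : A.Om r := Amb.Om.root A (a := 1)
      (by rw [pow_one, hr]; exact A.OmF.sub_mem (D.oq j) (D.oq i)) (by rw [pow_one, hr]; exact hu)
    have h2r : A.Bs (r + r) := A.Lb.add_mem hrb hrb
    have e2 : y' + r = (y' - r) + (r + r) := by ring
    have hW : VU V (y' + r) := by
      refine ⟨e2 ▸ V.add_mem _ _ (V.nonunits_subset hn) (A.bs_unit h1 h2 h2r).1, fun hm => ?_⟩
      have h6 := V.nonunits.sub_mem hm hn
      rw [e2, add_sub_cancel_left] at h6
      have h7 := (A.bs_unit h1 h2 h2r).2 h6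
      have : CharZero L := charZero_of_injective_algebraMap (algebraMap ℂ L).injective
      exact hr0 (by simpa [← two_mul] using h7)
    have h0 : y' + r ≠ 0 := fun e => hW.2 (e ▸ V.nonunits.zero_mem)
    have h6 := (A.acts_unit h1 h4 hW (by rw [map_add, hfix, D.px j r hrb hro])).inv_right A
    have h7 := h5.mul_right A h6 (D.uy j) (A.OmF.sub_mem D.oy (D.oq j))
    have e3 : (y - q j) * (y' + r)⁻¹ = y' - r := by
      rw [mul_inv_eq_iff_eq_mul₀ h0]
      linear_combination hr - hy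
    rw [e3, neg_zero, add_zero] at h7
    exact ⟨V, h1, h2, hn, h4, h7⟩
  obtain ⟨r, hr⟩ := IsAlgClosed.exists_pow_nat_eq (q j - q i) (n := 2) (by norm_num)
  have e4 : (y' - r) * (y' - -r) = y - q j := by linear_combination hy - hr
  rcases cof_prime (e4 ▸ h3) with h6 | h6
  · exact ⟨r, hr, key r hr h6⟩
  · exact ⟨-r, by rw [neg_sq, hr], key (-r) (by rw [neg_sq, hr]) h6⟩

variable {A} in
theorem Amb.CofD.step {ι : Type} {y : L} {q : ι → L} {x : ι → A.G} (D : A.CofD y q x) (i : ι)
    {y' : L} (hy : y' ^ 2 = y - q i) : ∃ q', A.CofD y' q' (sch x i) := by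
  have : CharZero L := charZero_of_injective_algebraMap (algebraMap ℂ L).injective
  choose r hr hv using fun j : {j // j ≠ i} => (D.other j.2 hy).2
  let q' : Option ({j // j ≠ i} × Bool) → L := fun o =>
    o.elim 0 fun p => if p.2 then -r p.1 else r p.1
  let π : Option ({j // j ≠ i} × Bool) → ι := fun o => o.elim i fun p => p.1
  have hq : ∀ o, q' o ^ 2 = q (π o) - q i := by
    rintro (_ | ⟨j, _ | _⟩)
    · simp [q', π]
    · simpa [q', π] using hr j
    · simpa [q', π] using hr j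
  have iy : IsIntegral A.R0 y' := IsIntegral.of_pow (n := 2) (by norm_num)
    (hy ▸ D.iy.sub (D.iq i))
  have iq : ∀ o, IsIntegral A.R0 (q' o) := fun o => IsIntegral.of_pow (n := 2) (by norm_num)
    (hq o ▸ (D.iq _).sub (D.iq i))
  have ur : ∀ j : {j // j ≠ i}, A.Un (r j) := fun j =>
    Amb.Un.of_pow A (n := 2) (by norm_num) (hr j ▸ D.uq j i j.2)
  have bq : ∀ o, A.Bs (q' o) := fun o =>
    Amb.Bs.root A (n := 2) (by norm_num) (hq o ▸ A.Lb.sub_mem (D.bq _) (D.bq i))
  have or : ∀ j : {j // j ≠ i}, A.Om (r j) := fun j => Amb.Om.root A (a := 1)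
    (by rw [pow_one, hr]; exact A.OmF.sub_mem (D.oq j) (D.oq i))
    (by rw [pow_one, hr]; exact D.uq j i j.2)
  have hneg := D.neg hy
  have hinv : (x i)⁻¹ y' = -y' := by
    rw [AlgEquiv.aut_inv, AlgEquiv.symm_apply_eq, map_neg, hneg, neg_neg]
  refine ⟨q', D.om hy, ?_, iy, bq, iq, fun o => ?_, fun o o' hoo => ?_, ?_, ?_, ?_⟩
  · rintro (_ | ⟨j, _ | _⟩)
    exacts [A.OmF.zero_mem, or j, A.OmF.neg_mem (or j)]
  · refine Amb.Un.of_mul A (b := y' + q' o) ?_ (iy.sub (iq o)) (iy.add (iq o))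
    have e : (y' - q' o) * (y' + q' o) = y - q (π o) := by linear_combination hy - hq o
    rw [e]
    exact D.uy _
  · by_cases hπ : π o = π o'
    · have h2 : ∀ j, A.Un (r j + r j) := fun j => by
        have h3 := (A.un_const (c := 2) (by norm_num)).mul A (ur j)
        rwa [map_ofNat, two_mul] at h3
      rcases o with _ | ⟨j, b⟩ <;> rcases o' with _ | ⟨j', b'⟩
      · exact absurd rfl hoo
      · exact absurd hπ.symm j'.2
      · exact absurd hπ j.2
      · obtain rfl : j = j' := Subtype.ext hπ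
        rcases b with _ | _ <;> rcases b' with _ | _
        · exact absurd rfl hoo
        · simpa [q'] using h2 j
        · have h3 := A.cof_neg (h2 j)
          rw [neg_add, ← sub_eq_add_neg] at h3
          simpa [q'] using h3
        · exact absurd rfl hoo
    · refine Amb.Un.of_mul A (b := q' o + q' o') ?_ ((iq o).sub (iq o')) ((iq o).add (iq o'))
      have e : (q' o - q' o') * (q' o + q' o') = q (π o) - q (π o') := by
        linear_combination hq o - hq o'
      rw [e]
      exact D.uq _ _ hπ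
  · rintro (_ | ⟨j, _ | _⟩)
    exacts [A.pi.mul_mem (D.px i) (D.px i), D.px j,
      A.pi.mul_mem (A.pi.mul_mem (D.px i) (D.px j)) (A.pi.inv_mem (D.px i))]
  · rintro (_ | ⟨j, _ | _⟩)
    · show (x i * x i) y' = y'
      rw [AlgEquiv.mul_apply, hneg, map_neg, hneg, neg_neg]
    · exact (D.other j.2 hy).1
    · show (x i * x j * (x i)⁻¹) y' = y'
      rw [AlgEquiv.mul_apply, AlgEquiv.mul_apply, hinv, map_neg, (D.other j.2 hy).1, map_neg, hneg,
        neg_neg]
  · rintro (_ | ⟨j, _ | _⟩)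
    · have h1 := (D.val i).sq A hy
      simpa [q', sch] using h1
    · exact hv j
    · have h1 := (hv j).conj A (x i)
      have hb : A.Bs (r j) := bq (some (j, false))
      rw [map_sub, hneg, D.px i _ hb (or j)] at h1
      have e : -(-y' - r j) = y' - q' (some (j, true)) := by
        simp only [q', Option.elim, if_true]
        ring
      rw [e] at h1
      exact h1

variable {A} in
theorem Amb.CofD.chi {ι : Type} {y : L} {q : ι → L} {x : ι → A.G} (D : A.CofD y q x) (i : ι)
    {y' : L} (hy : y' ^ 2 = y - q i) (w : FreeGroup ι) :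
    FreeGroup.lift x w y' = ((chi i w : ℤˣ) : ℤ) * y' := by
  have h1 : ∀ j, x j y' = ((P300.chi i (FreeGroup.of j) : ℤˣ) : ℤ) * y' := fun j => by
    rw [gs3_chi_of]
    split_ifs with h
    · rw [h, D.neg hy]
      simp
    · rw [(D.other h hy).1]
      simp
  induction w using FreeGroup.induction_on with
  | C1 => simp
  | of j => rw [FreeGroup.lift_apply_of, h1]
  | inv_of j ih =>
    rw [map_inv, map_inv, AlgEquiv.aut_inv, AlgEquiv.symm_apply_eq, map_mul, map_intCast, ih,
      ← mul_assoc, ← Int.cast_mul, ← Units.val_mul, inv_mul_cancel]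
    simp
  | mul a b ha hb =>
    rw [map_mul, AlgEquiv.mul_apply, hb, map_mul, map_intCast, ha, map_mul, Units.val_mul,
      Int.cast_mul]
    ring

theorem Amb.cof_ind (M : ℕ) : ∀ (ι : Type) [Fintype ι] (y : L) (q : ι → L) (x : ι → A.G),
    A.CofD y q x → ∃ s : Finset L, (∀ b ∈ s, A.Om b) ∧
      ∀ w, (∀ b ∈ s, FreeGroup.lift x w b = b) → DimS (FreeGroup ι) (M + 1) w := by
  have : CharZero L := charZero_of_injective_algebraMap (algebraMap ℂ L).injective
  induction M with
  | zero => exact fun ι _ y q x _ => ⟨∅, by simp, fun w _ => DimS.one' _ w⟩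
  | succ M ih =>
    intro ι _ y q x D
    choose y' hy' using fun i => IsAlgClosed.exists_pow_nat_eq (y - q i) (n := 2) (by norm_num)
    choose q' hq' using fun i => D.step i (hy' i)
    choose s hs hw using fun i => ih _ (y' i) (q' i) (sch x i) (hq' i)
    refine ⟨Finset.univ.biUnion fun i => insert (y' i) (s i), fun b hb => ?_, fun w h => ?_⟩
    · obtain ⟨i, -, hi⟩ := Finset.mem_biUnion.1 hb
      rcases Finset.mem_insert.1 hi with rfl | hi
      exacts [(hq' i).oy, hs i b hi]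
    · refine dimS_succ (by omega) fun i => ?_
      have h0 : y' i ≠ 0 := fun e => (D.uy i).1 (by rw [← hy' i, e]; ring)
      have h1 := h (y' i) (Finset.mem_biUnion.2 ⟨i, Finset.mem_univ _, Finset.mem_insert_self _ _⟩)
      rw [D.chi i (hy' i), mul_eq_right₀ h0] at h1
      have h2 : chi i w = 1 := Units.val_eq_one.1 (by exact_mod_cast h1)
      obtain ⟨w', hw'⟩ := sch_surj i h2
      refine ⟨_, FreeGroup.lift (sch FreeGroup.of i), w', fun o => ?_, hw', hw i w' fun b hb => ?_⟩
      · rw [FreeGroup.lift_apply_of]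
        rcases o with _ | ⟨⟨j, hj⟩, _ | _⟩
        · simp [sch, gs3_chi_of]
        · simp [sch, gs3_chi_of, hj]
        · simp [sch, gs3_chi_of, hj]
      · have e : (FreeGroup.lift x).comp (FreeGroup.lift (sch FreeGroup.of i)) =
            FreeGroup.lift (sch x i) := by
          refine FreeGroup.ext_hom _ _ fun o => ?_
          rcases o with _ | ⟨j, _ | _⟩ <;> simp [sch]
        rw [← e, MonoidHom.comp_apply, hw']
        exact h b (Finset.mem_biUnion.2 ⟨i, Finset.mem_univ _, Finset.mem_insert_of_mem hb⟩)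

theorem Amb.cof {x : Sec → A.G} (hx : ∀ i, A.Kum (x i) i)
    (hV : ∀ i, ∃ V : ValuationSubring L, (∀ c : ℂ, algebraMap ℂ L c ∈ V) ∧
      (∀ Q : ℂ[X], Q ≠ 0 → VU V (aeval A.s Q)) ∧ A.form (.sec i) ∈ V.nonunits ∧ A.IVO V (x i))
    (M : ℕ) : ∃ N ∈ A.NN, ∀ w, FreeGroup.lift x w ∈ N → DimS (FreeGroup Sec) M w := by
  have hs : A.s ∈ A.R0 := Algebra.subset_adjoin (by simp)
  have hz : A.z ∈ A.R0 := Algebra.subset_adjoin (by simp)
  have hp : ∀ i, A.p i ∈ A.R0 := fun i => by
    have h1 := A.R0.sub_mem hz (A.tw_form _ hs hz (.sec i))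
    simpa [Amb.form] using h1
  have D : A.CofD A.z A.p x := by
    refine ⟨A.om_K A.pi_zK, fun i => A.om_K (A.R0_sub _ (hp i)), A.tw_int hz, A.bs_p,
      fun i => A.tw_int (hp i), fun i => A.un_form (.sec i), fun i j h => A.cof_p h,
      fun i => (hx i).1, fun i => A.fixK _ A.pi_zK, fun i => ?_⟩
    obtain ⟨V, h1, h2, h3, h4⟩ := hV i
    have h5 := (hx i).2 i
    rw [if_pos rfl] at h5
    exact ⟨V, h1, h2, h3, h4, h5⟩
  obtain ⟨s, h1, h2⟩ := A.cof_ind M Sec _ _ _ D
  obtain ⟨F, a, hG, -, -, h3⟩ := A.good_above s h1 Amb.Tw.bot 0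
  exact ⟨_, ⟨F, a, hG, rfl⟩, fun w hw => (h2 w fun b hb =>
    (IntermediateField.mem_fixingSubgroup_iff F _).1 hw b (h3 b hb)).anti (Nat.le_succ M)⟩

end Vale.Agent.P300
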