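import Vale.Agent.P300.Core

/-! Group lemmas. `frattini`: in the finite 2-group `B / N` a proper subgroup lies in a maximal one,
which is normal of index two (`IsPGroup.isNilpotent`, `normalizerCondition_of_isNilpotent`,
`Subgroup.NormalizerCondition.normal_of_coatom`). `g222`: modulo `S` every element is `(a b) ^ j` or
`(a b) ^ j a`; `c = (a b) ^ j` with `j` odd, so `(a b) ^ 2 ∈ S`. `cen_index` (Schur): in
`Q = P / A M` with `[Q : Z] ≤ C` the commutator subgroup is bounded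
(`Subgroup.card_commutator_le_of_finite_commutatorSet`, at most `C ^ 2` commutators) and the
abelianisation has at most `e ^ card ι` elements. `conn_of_action`: for a clopen `Z` the pattern
`{g | g • y ∈ Z}` is locally constant (finitely many cosets of `N`); its orbit under right
multiplication descends to `X`, so is constant; the stabiliser of one pattern is everything. -/

open scoped Classical

namespace Vale.Agent.P300

variable {G : Type} [Group G]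

/-- elements acting trivially on `P` modulo `A` -/
def cenS (P A : Subgroup G) [hP : P.Normal] : Subgroup G where
  carrier := {g | Cen P A g}
  mul_mem' := fun {g g'} hg hg' h hh => by
    have e : g * g' * h * (g * g')⁻¹ * h⁻¹ =
        g * (g' * h * g'⁻¹) * g⁻¹ * (g' * h * g'⁻¹)⁻¹ * (g' * h * g'⁻¹ * h⁻¹) := by group
    rw [e]
    exact A.mul_mem (hg _ (hP.conj_mem h hh g')) (hg' h hh)
  one_mem' := fun h _ => by simp
  inv_mem' := fun {g} hg h hh => by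
    have e : g⁻¹ * h * g⁻¹⁻¹ * h⁻¹ = (g * (g⁻¹ * h * g⁻¹⁻¹) * g⁻¹ * (g⁻¹ * h * g⁻¹⁻¹)⁻¹)⁻¹ := by group
    rw [e]
    exact A.inv_mem (hg _ (hP.conj_mem h hh g⁻¹))

theorem mem_cenS {P A : Subgroup G} [P.Normal] {g : G} :
    g ∈ cenS P A ↔ ∀ h ∈ P, g * h * g⁻¹ * h⁻¹ ∈ A := Iff.rfl

/-- it suffices to test generators -/
theorem mem_cenS_of_gen {P A N : Subgroup G} [P.Normal] [N.Normal] (hA : A ≤ P)
    (hn : ∀ g ∈ P, ∀ h ∈ A, g * h * g⁻¹ ∈ A) (hN : P ⊓ N ≤ A) {ι : Type} {x : ι → G}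
    (hx : ∀ i, x i ∈ P) (gen : P ≤ Subgroup.closure (Set.range x) ⊔ N) {g : G}
    (h : ∀ i, g * x i * g⁻¹ * (x i)⁻¹ ∈ A) : g ∈ cenS P A := by
  have hP : P.Normal := inferInstance
  have hN' : N.Normal := inferInstance
  let K : Subgroup G :=
    { carrier := {h | h ∈ P ∧ g * h * g⁻¹ * h⁻¹ ∈ A}
      mul_mem' := fun {a b} ha hb => ⟨P.mul_mem ha.1 hb.1, by
        have e : g * (a * b) * g⁻¹ * (a * b)⁻¹ =
            (g * a * g⁻¹) * (g * b * g⁻¹ * b⁻¹) * (g * a * g⁻¹)⁻¹ * (g * a * g⁻¹ * a⁻¹) := by group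
        rw [e]
        exact A.mul_mem (hn _ (hP.conj_mem a ha.1 g) _ hb.2) ha.2⟩
      one_mem' := ⟨P.one_mem, by simp⟩
      inv_mem' := fun {a} ha => ⟨P.inv_mem ha.1, by
        have e : g * a⁻¹ * g⁻¹ * a⁻¹⁻¹ = a⁻¹ * (g * a * g⁻¹ * a⁻¹)⁻¹ * a⁻¹⁻¹ := by group
        rw [e]
        exact hn _ (P.inv_mem ha.1) _ (A.inv_mem ha.2)⟩ }
  have _ := hA
  have hK : Subgroup.closure (Set.range x) ≤ K := by
    rw [Subgroup.closure_le]
    rintro _ ⟨i, rfl⟩
    exact ⟨hx i, h i⟩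
  intro y hy
  obtain ⟨c, hc, n, hn', rfl⟩ := Subgroup.mem_sup_of_normal_right.1 (gen hy)
  have h1 : n ∈ P := by simpa using P.mul_mem (P.inv_mem (hK hc).1) hy
  have h2 : n ∈ K := ⟨h1, hN ⟨P.mul_mem (hP.conj_mem n h1 g) (P.inv_mem h1),
    N.mul_mem (hN'.conj_mem n hn' g) (N.inv_mem hn')⟩⟩
  exact (K.mul_mem (hK hc) h2).2

theorem grp_normal {B S : Subgroup G} (hn : ∀ g ∈ B, ∀ h ∈ S, g * h * g⁻¹ ∈ S) :
    (S.subgroupOf B).Normal := ⟨fun h hh g => hn g g.2 h hh⟩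

theorem grp_gen {B S : Subgroup G} (hSB : S ≤ B) [(S.subgroupOf B).Normal] {T : Set G}
    (T' : Set B) (hT : ∀ t ∈ T, ∃ t' ∈ T', (t' : G) = t) (gen : B ≤ Subgroup.closure T ⊔ S)
    (K : Subgroup (B ⧸ S.subgroupOf B)) (hK : ∀ t ∈ T', QuotientGroup.mk' _ t ∈ K)
    (q : B ⧸ S.subgroupOf B) : q ∈ K := by
  obtain ⟨b, rfl⟩ := QuotientGroup.mk'_surjective _ q
  have h : Subgroup.closure T ⊔ S ≤ (K.comap (QuotientGroup.mk' _)).map B.subtype := by
    refine sup_le ?_ fun s hs => ⟨⟨s, hSB hs⟩, ?_, rfl⟩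
    · rw [Subgroup.closure_le]
      intro t ht
      obtain ⟨t', h1, rfl⟩ := hT t ht
      exact ⟨t', hK t' h1, rfl⟩
    · have : QuotientGroup.mk' (S.subgroupOf B) ⟨s, hSB hs⟩ = 1 :=
        (QuotientGroup.eq_one_iff _).2 hs
      show QuotientGroup.mk' (S.subgroupOf B) ⟨s, hSB hs⟩ ∈ K
      rw [this]; exact K.one_mem
  obtain ⟨b', h1, h2⟩ := h (gen b.2)
  rw [← Subtype.ext h2]; exact h1

theorem grp_coatom {Q : Type} [Group Q] [Finite Q] (hQ : IsPGroup 2 Q) {H : Subgroup Q}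
    (hH : H ≠ ⊤) : ∃ M : Subgroup Q, H ≤ M ∧ M ≠ ⊤ ∧ ∀ g h, g ∉ M → h ∉ M → g * h ∈ M := by
  obtain ⟨M, hM, hHM⟩ := (eq_top_or_exists_le_coatom H).resolve_left hH
  have : Group.IsNilpotent Q := hQ.isNilpotent
  have hn : M.Normal := Subgroup.NormalizerCondition.normal_of_coatom M
    Group.normalizerCondition_of_isNilpotent hM
  refine ⟨M, hHM, hM.1, fun g h hg hh => ?_⟩
  have h1 : 2 ∣ orderOf (QuotientGroup.mk' M g) :=
    (hQ.to_quotient M).dvd_orderOf fun e => hg ((QuotientGroup.eq_one_iff _).1 e)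
  obtain ⟨z, hz⟩ := exists_prime_orderOf_dvd_card' (G := Q ⧸ M) 2 (h1.trans (orderOf_dvd_natCard _))
  have z1 : z ≠ 1 := by rintro rfl; simp at hz
  have z2 : z * z = 1 := by rw [← sq, ← hz, pow_orderOf_eq_one]
  let K : Subgroup (Q ⧸ M) :=
    { carrier := {q | q = 1 ∨ q = z}
      mul_mem' := by rintro a b (rfl | rfl) (rfl | rfl) <;> simp [z2]
      one_mem' := Or.inl rfl
      inv_mem' := by
        rintro a (rfl | rfl)
        · simp
        · exact Or.inr (inv_eq_of_mul_eq_one_right z2) }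
  have hK : K.comap (QuotientGroup.mk' M) = ⊤ := by
    refine hM.2 _ (lt_of_le_of_ne (fun m hm => Or.inl ((QuotientGroup.eq_one_iff _).2 hm)) ?_)
    intro e
    obtain ⟨w, rfl⟩ := QuotientGroup.mk'_surjective M z
    have : w ∈ M := by rw [e]; exact Or.inr rfl
    exact z1 ((QuotientGroup.eq_one_iff _).2 this)
  have k : ∀ g, g ∉ M → QuotientGroup.mk' M g = z := fun g hg => by
    have : g ∈ K.comap (QuotientGroup.mk' M) := by rw [hK]; trivial
    exact this.resolve_left fun e => hg ((QuotientGroup.eq_one_iff _).1 e)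
  have : QuotientGroup.mk' M (g * h) = 1 := by rw [map_mul, k g hg, k h hh, z2]
  exact (QuotientGroup.eq_one_iff _).1 this

theorem frattini (A B N : Subgroup G) (hAB : A ≤ B) (hNB : N ≤ B)
    (hn : ∀ g ∈ B, ∀ h ∈ N, g * h * g⁻¹ ∈ N) (h2 : ∃ k, ∀ g ∈ B, g ^ 2 ^ k ∈ N)
    (hf : N.relIndex B ≠ 0) (h : ¬ B ≤ A ⊔ N) :
    ∃ C : Subgroup G, A ≤ C ∧ N ≤ C ∧ C ≤ B ∧ (∃ τ ∈ B, τ ∉ C) ∧
      ∀ g ∈ B, ∀ h ∈ B, g ∉ C → h ∉ C → g * h ∈ C := by
  have := grp_normal hn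
  have : (N.subgroupOf B).FiniteIndex := ⟨hf⟩
  have hQ : IsPGroup 2 (B ⧸ N.subgroupOf B) := fun q => by
    obtain ⟨b, rfl⟩ := QuotientGroup.mk'_surjective _ q
    obtain ⟨k, hk⟩ := h2
    exact ⟨k, by rw [← map_pow]; exact (QuotientGroup.eq_one_iff _).2 (hk b b.2)⟩
  have hH : (A.subgroupOf B).map (QuotientGroup.mk' (N.subgroupOf B)) ≠ ⊤ := by
    intro e
    refine h fun b hb => ?_
    have : QuotientGroup.mk' (N.subgroupOf B) ⟨b, hb⟩ ∈
        (A.subgroupOf B).map (QuotientGroup.mk' (N.subgroupOf B)) := by rw [e]; trivial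
    obtain ⟨a, ha, e'⟩ := this
    have h3 : a⁻¹ * ⟨b, hb⟩ ∈ N.subgroupOf B := QuotientGroup.eq.1 e'
    have h4 : (a : G)⁻¹ * b ∈ N := h3
    have h5 : (a : G) ∈ A := ha
    simpa using Subgroup.mul_mem_sup h5 h4
  obtain ⟨M, h1, h3, h4⟩ := grp_coatom hQ hH
  have mem : ∀ g (hg : g ∈ B), g ∈ (M.comap (QuotientGroup.mk' _)).map B.subtype ↔
      QuotientGroup.mk' (N.subgroupOf B) ⟨g, hg⟩ ∈ M := fun g hg =>
    ⟨fun ⟨b, hb, e⟩ => by rw [← Subtype.ext (a2 := ⟨g, hg⟩) e]; exact hb, fun hb => ⟨_, hb, rfl⟩⟩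
  refine ⟨(M.comap (QuotientGroup.mk' _)).map B.subtype, fun a ha => ?_, fun n hn' => ?_,
    Subgroup.map_subtype_le _, ?_, fun g hg g' hg' k k' => ?_⟩
  · exact (mem a (hAB ha)).2 (h1 ⟨_, ha, rfl⟩)
  · have : QuotientGroup.mk' (N.subgroupOf B) ⟨n, hNB hn'⟩ = 1 := (QuotientGroup.eq_one_iff _).2 hn'
    rw [mem n (hNB hn'), this]; exact M.one_mem
  · by_contra k
    push Not at k
    refine h3 ((Subgroup.eq_top_iff' M).2 fun q => ?_)
    obtain ⟨b, rfl⟩ := QuotientGroup.mk'_surjective _ q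
    exact (mem b b.2).1 (k b b.2)
  · rw [mem g hg] at k
    rw [mem g' hg'] at k'
    rw [mem _ (B.mul_mem hg hg')]
    have := h4 _ _ k k'
    rwa [← map_mul] at this

theorem g222 (B S : Subgroup G) (hSB : S ≤ B) (hn : ∀ g ∈ B, ∀ h ∈ S, g * h * g⁻¹ ∈ S)
    (h2 : ∃ k, ∀ g ∈ B, g ^ 2 ^ k ∈ S) {a b c : B} (gen : B ≤ Subgroup.closure {(a : G), (b : G)} ⊔ S)
    (χ₁ χ₂ : B →* ℤˣ) (h1 : ∀ g : B, (g : G) ∈ S → χ₁ g = 1 ∧ χ₂ g = 1)
    (ha : χ₁ a = -1 ∧ χ₂ a = 1) (hb : χ₁ b = 1 ∧ χ₂ b = -1) (hc : χ₁ c = -1 ∧ χ₂ c = -1)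
    (sa : (a : G) ^ 2 ∈ S) (sb : (b : G) ^ 2 ∈ S) (sc : (c : G) ^ 2 ∈ S) (g : B) (g1 : χ₁ g = 1)
    (g2 : χ₂ g = 1) : (g : G) ∈ S := by
  have := grp_normal hn
  set π := QuotientGroup.mk' (S.subgroupOf B) with hπ
  have one : ∀ g : B, π g = 1 ↔ (g : G) ∈ S := fun g => QuotientGroup.eq_one_iff g
  let c₁ := QuotientGroup.lift (S.subgroupOf B) χ₁ fun g hg => (h1 g hg).1
  let c₂ := QuotientGroup.lift (S.subgroupOf B) χ₂ fun g hg => (h1 g hg).2
  have e₁ : ∀ g, c₁ (π g) = χ₁ g := fun g => rfl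
  have e₂ : ∀ g, c₂ (π g) = χ₂ g := fun g => rfl
  have a2 : π a * π a = 1 := by rw [← sq, ← map_pow]; exact (one _).2 sa
  have b2 : π b * π b = 1 := by rw [← sq, ← map_pow]; exact (one _).2 sb
  have c2 : π c * π c = 1 := by rw [← sq, ← map_pow]; exact (one _).2 sc
  have ai : (π a)⁻¹ = π a := inv_eq_of_mul_eq_one_right a2
  have bi : (π b)⁻¹ = π b := inv_eq_of_mul_eq_one_right b2
  obtain ⟨r, hr⟩ : ∃ r, r = π a * π b := ⟨_, rfl⟩
  have conj : ∀ j : ℤ, π a * r ^ j = r ^ (-j) * π a := fun j => by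
    have : π a * r * (π a)⁻¹ = r⁻¹ := by
      rw [hr, ← mul_assoc, a2, one_mul, mul_inv_rev, ai, bi]
    rw [zpow_neg, ← inv_zpow, ← this, conj_zpow]; group
  let K : Subgroup (B ⧸ S.subgroupOf B) :=
    { carrier := {q | ∃ j : ℤ, q = r ^ j ∨ q = r ^ j * π a}
      mul_mem' := by
        rintro _ _ ⟨i, rfl | rfl⟩ ⟨j, rfl | rfl⟩
        · exact ⟨i + j, Or.inl (zpow_add r i j).symm⟩
        · exact ⟨i + j, Or.inr (by rw [zpow_add, mul_assoc])⟩
        · exact ⟨i + -j, Or.inr (by rw [zpow_add, mul_assoc, conj, mul_assoc])⟩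
        · exact ⟨i + -j, Or.inl (by
            rw [zpow_add, mul_assoc, ← mul_assoc (π a), conj, mul_assoc, a2, mul_one])⟩
      one_mem' := ⟨0, Or.inl (zpow_zero r).symm⟩
      inv_mem' := by
        rintro _ ⟨i, rfl | rfl⟩
        · exact ⟨-i, Or.inl (zpow_neg r i).symm⟩
        · exact ⟨i, Or.inr (by rw [mul_inv_rev, ai, ← zpow_neg, conj, neg_neg])⟩ }
  have hK : ∀ q, q ∈ K := grp_gen hSB {a, b} (by
      rintro _ (rfl | rfl)
      · exact ⟨a, Or.inl rfl, rfl⟩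
      · exact ⟨b, Or.inr rfl, rfl⟩) gen K (by
      rintro _ (rfl | rfl)
      · exact ⟨0, Or.inr (by rw [zpow_zero, one_mul])⟩
      · exact ⟨-1, Or.inr (by rw [← conj, zpow_one, hr, ← mul_assoc, a2, one_mul])⟩)
  have r1 : c₁ r = -1 := by rw [hr, map_mul, e₁, e₁, ha.1, hb.1, mul_one]
  have r2 : c₂ r = -1 := by rw [hr, map_mul, e₂, e₂, ha.2, hb.2, one_mul]
  have form : ∀ t : B, χ₁ t = χ₂ t → ∃ j : ℤ, π t = r ^ j ∧ χ₁ t = (-1) ^ j := fun t ht => by
    obtain ⟨j, h | h⟩ := hK (π t)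
    · exact ⟨j, h, by rw [← e₁, h, map_zpow, r1]⟩
    · exfalso
      rw [← e₁, ← e₂, h, map_mul, map_mul, map_zpow, map_zpow, r1, r2, e₁, e₂, ha.1, ha.2] at ht
      exact absurd (mul_left_cancel ht) (by decide)
  obtain ⟨j, hj, hj'⟩ := form c (hc.1.trans hc.2.symm)
  obtain ⟨i, hi, hi'⟩ := form g (g1.trans g2.symm)
  have jo : Odd j := by
    by_contra k
    rw [hc.1, (Int.not_odd_iff_even.1 k).neg_one_zpow] at hj'
    exact absurd hj' (by decide)
  have ie : Even i := by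
    by_contra k
    rw [g1, (Int.not_even_iff_odd.1 k).neg_one_zpow] at hi'
    exact absurd hi' (by decide)
  obtain ⟨k, hk⟩ := h2
  have o1 : orderOf r ∣ 2 ^ k := orderOf_dvd_of_pow_eq_one (by
    rw [hr, ← map_mul, ← map_pow]; exact (one _).2 (hk _ (a * b).2))
  have o2 : (orderOf r : ℤ) ∣ 2 * j := orderOf_dvd_iff_zpow_eq_one.2 (by
    rw [two_mul, zpow_add, ← hj, c2])
  have o3 : orderOf r ∣ 2 := by
    have h3 : orderOf r ∣ 2 * j.natAbs := by simpa [Int.natAbs_mul] using Int.natAbs_dvd_natAbs.2 o2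
    refine Nat.Coprime.dvd_of_dvd_mul_right ?_ h3
    exact Nat.Coprime.coprime_dvd_left o1
      (Nat.Coprime.pow_left k ((Nat.coprime_two_left).2 (Int.natAbs_odd.2 jo)))
  rw [← one, hi]
  exact orderOf_dvd_iff_zpow_eq_one.1 ((Int.natCast_dvd_natCast.2 o3).trans ie.two_dvd)

theorem gcyc (B S : Subgroup G) (hSB : S ≤ B) (hn : ∀ g ∈ B, ∀ h ∈ S, g * h * g⁻¹ ∈ S) {a : B}
    (gen : B ≤ Subgroup.closure {(a : G)} ⊔ S) (ψ : B →* ℂˣ) (h1 : ∀ g : B, (g : G) ∈ S → ψ g = 1)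
    {n : ℕ} (ha : IsPrimitiveRoot (ψ a) n) (sa : (a : G) ^ n ∈ S) (g : B) (hg : ψ g = 1) :
    (g : G) ∈ S := by
  have := grp_normal hn
  set π := QuotientGroup.mk' (S.subgroupOf B) with hπ
  have one : ∀ g : B, π g = 1 ↔ (g : G) ∈ S := fun g => QuotientGroup.eq_one_iff g
  let c := QuotientGroup.lift (S.subgroupOf B) ψ h1
  have e : ∀ g, c (π g) = ψ g := fun g => rfl
  obtain ⟨j, hj⟩ := grp_gen hSB {a} (by rintro _ rfl; exact ⟨a, rfl, rfl⟩) gen
    (Subgroup.zpowers (π a)) (by rintro _ rfl; exact Subgroup.mem_zpowers _) (π g)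
  simp only at hj
  rw [← e, ← hj, map_zpow, e, ha.zpow_eq_one_iff_dvd] at hg
  obtain ⟨m, rfl⟩ := hg
  have : π a ^ n = 1 := by rw [← map_pow]; exact (one _).2 sa
  rw [← one, ← hj, zpow_mul, zpow_natCast, this, one_zpow]

open scoped IsMulCommutative in
theorem grp_schur {Q : Type} [Group Q] [Finite Q] (T : Finset Q)
    (hT : Subgroup.closure (T : Set Q) = ⊤) {e : ℕ} (hTe : ∀ t ∈ T, t ^ e = 1) (he : 1 ≤ e) {C r : ℕ}
    (hr : T.card ≤ r) (hC : (Subgroup.center Q).index ≤ C) :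
    Nat.card Q ≤ (C * e) ^ (C * r) * C := by
  have i0 : 1 ≤ (Subgroup.center Q).index := Nat.pos_of_ne_zero Subgroup.FiniteIndex.index_ne_zero
  have h1 : (powMonoidHom e).comp (MonoidHom.transferCenterPow Q) = 1 := by
    refine MonoidHom.eq_of_eqOn_dense hT fun t ht => Subtype.ext ?_
    simp only [MonoidHom.comp_apply, powMonoidHom_apply, SubgroupClass.coe_pow,
      MonoidHom.transferCenterPow_apply, MonoidHom.one_apply, OneMemClass.coe_one]
    rw [← pow_mul, mul_comm, pow_mul, hTe t ht, one_pow]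
  have h2 : ∀ z : Subgroup.center Q, z ^ ((Subgroup.center Q).index * e) = 1 := fun z => by
    have := congrArg Subtype.val (DFunLike.congr_fun h1 (z : Q))
    simp only [MonoidHom.comp_apply, powMonoidHom_apply, SubgroupClass.coe_pow,
      MonoidHom.transferCenterPow_apply, MonoidHom.one_apply, OneMemClass.coe_one] at this
    exact Subtype.ext (by rw [SubgroupClass.coe_pow, pow_mul, this]; rfl)
  have h3 := card_dvd_exponent_pow_rank' (Subgroup.center Q) h2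
  have h4 := (Subgroup.rank_le_index_mul_rank (Subgroup.center Q)).trans
    (Nat.mul_le_mul hC ((Group.rank_le hT).trans hr))
  rw [← (Subgroup.center Q).card_mul_index]
  refine Nat.mul_le_mul ((Nat.le_of_dvd (by positivity) h3).trans ?_) hC
  exact (Nat.pow_le_pow_left (Nat.mul_le_mul_right e hC) _).trans
    (Nat.pow_le_pow_right (Nat.mul_pos (i0.trans hC) he) h4)

theorem cen_index (P : Subgroup G) [P.Normal] (A : ℕ → Subgroup G) {ι : Type} [Fintype ι]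
    (x : ι → G) (hx : ∀ i, x i ∈ P) {e : ℕ} (he : 1 ≤ e) (hA : ∀ M, A M ≤ P)
    (hn : ∀ M, ∀ g ∈ P, ∀ h ∈ A M, g * h * g⁻¹ ∈ A M)
    (gen : ∀ M, P ≤ Subgroup.closure (Set.range x) ⊔ A M) (hxe : ∀ M i, x i ^ e ∈ A M)
    (hf : ∀ M, (A M).relIndex P ≠ 0) (hM : ∀ M, M ≤ (A M).relIndex P) (C : ℕ) :
    ∃ M, C ≤ (cenS P (A M)).relIndex P := by
  refine ⟨(C * e) ^ (C * Fintype.card ι) * C + 1, ?_⟩
  generalize hM' : (C * e) ^ (C * Fintype.card ι) * C + 1 = M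
  by_contra k
  have := grp_normal (hn M)
  have : ((A M).subgroupOf P).FiniteIndex := ⟨hf M⟩
  set π := QuotientGroup.mk' ((A M).subgroupOf P) with hπ
  have e1 : (Subgroup.center _).comap π = (cenS P (A M)).subgroupOf P := by
    ext g
    rw [Subgroup.mem_comap, Subgroup.mem_center_iff, Subgroup.mem_subgroupOf, mem_cenS]
    have : ∀ h : P, π h * π g = π g * π h ↔ (g : G) * h * (g : G)⁻¹ * (h : G)⁻¹ ∈ A M := fun h => by
      rw [eq_comm, ← mul_inv_eq_one, mul_inv_rev, ← mul_assoc, ← map_inv, ← map_inv, ← map_mul,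
        ← map_mul, ← map_mul]
      exact QuotientGroup.eq_one_iff _
    refine ⟨fun H h hh => (this ⟨h, hh⟩).1 (H _), fun H q => ?_⟩
    obtain ⟨h, rfl⟩ := QuotientGroup.mk'_surjective _ q
    exact (this h).2 (H h h.2)
  have e2 : (Subgroup.center (P ⧸ (A M).subgroupOf P)).index = (cenS P (A M)).relIndex P := by
    rw [Subgroup.relIndex, ← e1,
      Subgroup.index_comap_of_surjective _ (QuotientGroup.mk'_surjective _)]
  have h1 := grp_schur (Finset.univ.image fun i => π ⟨x i, hx i⟩)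
    ((Subgroup.eq_top_iff' _).2 (grp_gen (hA M) (Set.range fun i => (⟨x i, hx i⟩ : P))
      (by rintro _ ⟨i, rfl⟩; exact ⟨_, ⟨i, rfl⟩, rfl⟩) (gen M) _
      (by rintro _ ⟨i, rfl⟩; exact Subgroup.subset_closure (by simp [hπ])))) (e := e)
    (fun t ht => by
      obtain ⟨i, -, rfl⟩ := Finset.mem_image.1 ht
      rw [← map_pow]; exact (QuotientGroup.eq_one_iff _).2 (hxe M i)) he
    (Finset.card_image_le.trans Finset.card_univ.le) (C := C) (by omega)
  have h2 : M ≤ Nat.card (P ⧸ (A M).subgroupOf P) := hM M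
  omega

theorem conn_of_action {X Y : Type} [TopologicalSpace X] [TopologicalSpace Y] [PreconnectedSpace X]
    (ρ : G → Y → Y) (h1 : ∀ y, ρ 1 y = y) (hm : ∀ g h y, ρ (g * h) y = ρ g (ρ h y))
    (hc : ∀ g, Continuous (ρ g)) (N : Subgroup G) [N.Normal] [N.FiniteIndex]
    (hN : ∀ g ∈ N, ∀ y, ρ g y = y) (q : Y → X) (hq : Topology.IsQuotientMap q)
    (hf : ∀ y y', q y = q y' ↔ ∃ g, ρ g y = y')
    (h : ∀ S : Subgroup G, N ≤ S → (∀ x, ∃ y, q y = x ∧ ∀ g, ρ g y = y → g ∈ S) → S = ⊤) :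
    PreconnectedSpace Y := by
  refine preconnectedSpace_iff_clopen.2 fun Z hZ => ?_
  rcases Z.eq_empty_or_nonempty with h0 | ⟨y0, h0⟩
  · exact Or.inl h0
  right
  let E : Y → Y → Prop := fun y y' => ∀ g, ρ g y ∈ Z ↔ ρ g y' ∈ Z
  have Er : ∀ y, E y y := fun _ _ => Iff.rfl
  have Es : ∀ {y y'}, E y y' → E y' y := fun H g => (H g).symm
  have Et : ∀ {y y' y''}, E y y' → E y' y'' → E y y'' := fun H H' g => (H g).trans (H' g)
  have Eg : ∀ k {y y'}, E y y' → E (ρ k y) (ρ k y') := fun k y y' H g => by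
    rw [← hm, ← hm]; exact H _
  have Ec : ∀ y', IsClopen {y | E y y'} := fun y' => by
    have e : {y | E y y'} = ⋂ c : G ⧸ N, {y | ρ c.out y ∈ Z ↔ ρ c.out y' ∈ Z} := by
      ext y
      simp only [Set.mem_iInter, Set.mem_ofPred_eq]
      refine ⟨fun H c => H _, fun H g => ?_⟩
      obtain ⟨n, hn⟩ := QuotientGroup.mk_out_eq_mul N g
      have := H (g : G ⧸ N)
      rwa [hn, hm, hm, hN n n.2, hN n n.2] at this
    rw [e]
    refine isClopen_iInter_of_finite fun c => ?_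
    by_cases k : ρ c.out y' ∈ Z
    · simp only [k, iff_true]; exact hZ.preimage (hc _)
    · simp only [k, iff_false]; exact (hZ.preimage (hc _)).compl
  let W : Set Y := {y | ∃ g, E y (ρ g y0)}
  have Wc : IsClopen W := by
    refine ⟨⟨isOpen_iff_forall_mem_open.2 fun y hy => ?_⟩,
      isOpen_iff_forall_mem_open.2 fun y hy => ?_⟩
    · exact ⟨_, fun y' k ⟨g, hg⟩ => hy ⟨g, Et (Es k) hg⟩, (Ec y).2, Er y⟩
    · obtain ⟨g, hg⟩ := hy
      exact ⟨_, fun y' k => ⟨g, Et k hg⟩, (Ec y).2, Er y⟩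
  have Wq : q ⁻¹' (q '' W) = W := by
    refine Set.Subset.antisymm ?_ (Set.subset_preimage_image q W)
    rintro y ⟨y', ⟨g, hg⟩, e⟩
    obtain ⟨k, rfl⟩ := (hf _ _).1 e
    exact ⟨k * g, by rw [hm]; exact Eg k hg⟩
  have Wu : q '' W = Set.univ :=
    (isClopen_iff.1 (hq.isClopen_preimage.1 (Wq.symm ▸ Wc))).resolve_left
      (Set.Nonempty.ne_empty ⟨_, y0, ⟨1, by rw [h1]; exact Er _⟩, rfl⟩)
  have Wa : ∀ y, y ∈ W := fun y => by rw [← Wq, Wu]; trivial
  let S : Subgroup G :=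
    { carrier := {g | E (ρ g y0) y0}
      mul_mem' := fun {a b} ha hb => by
        show E (ρ (a * b) y0) y0
        rw [hm]; exact Et (Eg a hb) ha
      one_mem' := by
        show E (ρ 1 y0) y0
        rw [h1]; exact Er _
      inv_mem' := fun {a} ha => by
        have := Eg a⁻¹ ha
        rw [← hm, inv_mul_cancel, h1] at this
        exact Es this }
  have hS : S = ⊤ := by
    refine h S (fun n hn => ?_) fun x => ?_
    · show E (ρ n y0) y0
      rw [hN n hn]; exact Er _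
    · obtain ⟨y, rfl⟩ := hq.surjective x
      obtain ⟨g, hg⟩ := Wa y
      have k := Eg g⁻¹ hg
      rw [← hm g⁻¹ g, inv_mul_cancel, h1] at k
      refine ⟨ρ g⁻¹ y, ((hf _ _).2 ⟨g⁻¹, rfl⟩).symm, fun t ht => ?_⟩
      have k' := Eg t k
      rw [ht] at k'
      exact Et (Es k') k
  refine Set.eq_univ_of_forall fun y => ?_
  obtain ⟨g, hg⟩ := Wa y
  have k : g ∈ S := by rw [hS]; trivial
  have := Et hg k 1
  rw [h1, h1] at this
  exact this.2 h0

end Vale.Agent.P300
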