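import Vale.Agent.P300.Val
import Vale.Agent.P300.Pi

/-! Charts of the arrangement, part 1: the chart property. To prove `Ch u v`: `s, z` are rational in
`u, v` and conversely (`gen`; `ind` then follows from `ind_of_gen`: transcendence degree two, or an
explicit substitution); for `r0` it suffices (`ch_of`) to treat the generators `s`, `z`, `(form l)⁻¹`:
each form is `u ^ i v ^ j` times a polynomial in `u, v` with nonzero constant term, or the inverse of one. -/

open scoped LinearAlgebra.Projectivization Topology Classical Pointwise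
open Polynomial

set_option linter.unusedSectionVars false

namespace Vale.Agent.P300

variable {L : Type} [Field L] [Algebra ℂ L] [IsAlgClosed L] (A : Amb L)

theorem muC_ne (a : Mu) : muC a ≠ 0 := Circle.coe_ne_zero _

theorem muC_inj : Function.Injective muC := fun _ _ h =>
  ZMod.injective_toCircle (Subtype.ext h)

theorem muC_zero : muC 0 = 1 := by simp [muC]

theorem muC_add (a b : Mu) : muC (a + b) = muC a * muC b := by
  simp [muC, AddChar.map_add_eq_mul]

theorem mu_zero : mu L 0 = 1 := by rw [mu, muC_zero, map_one]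

theorem card_Sec : Fintype.card Sec = 17 := by decide

theorem card_Cusp : Fintype.card Cusp = 9 := by decide

theorem Amb.ind_of_gen {u v : L} (h : IntermediateField.adjoin ℂ {u, v} = A.K) :
    AlgebraicIndependent ℂ ![u, v] := by
  have e : Set.range ![u, v] = {u, v} := by simp [Matrix.range_cons, Set.pair_comm]
  have h1 : Algebra.IsAlgebraic (IntermediateField.adjoin ℂ (Set.range ![u, v])) L := by
    rw [e, h]; exact A.alg
  have h2 := IntermediateField.isAlgebraic_adjoin_iff_top.1 h1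
  exact (Algebra.IsAlgebraic.isTranscendenceBasis_of_le_trdeg_of_finite ℂ ![u, v]
    A.ind.cardinalMk_le_trdeg).1

/-- a unit times a monomial in the flagged parameters -/
def X1Mon (u v : L) (fu fv : Bool) (a : L) : Prop :=
  ∃ (i j : ℤ) (ε : L), (cl u v).U ε ∧ a = ε * u ^ i * v ^ j ∧
    (fu = false → i = 0) ∧ (fv = false → j = 0)

theorem x1_one (x : LP L) : x.U 1 := ⟨x.O.one_mem, by rw [x.hom.one]; exact one_ne_zero⟩

theorem x1_U {x : LP L} {c : ℂ} (hc : c ≠ 0) {a : L} (ha : x.m a) : x.U (algebraMap ℂ L c + a) :=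
  ⟨x.O.add_mem (x.O.algebraMap_mem c) ha.1, by
    rw [x.hom.add _ (x.O.algebraMap_mem c) _ ha.1, x.hom.alg, ha.2, add_zero]; exact hc⟩

theorem x1_cm {x : LP L} (c : ℂ) {a : L} (ha : x.m a) : x.m (algebraMap ℂ L c * a) :=
  ha.mul_left (x.O.algebraMap_mem c)

theorem x1_U1 {x : LP L} (c : ℂ) {a : L} (ha : x.m a) : x.U (1 - algebraMap ℂ L c * a) := by
  have h := x1_U one_ne_zero (x1_cm (-c) ha)
  rwa [map_one, map_neg, neg_mul, ← sub_eq_add_neg] at h

theorem x1_mu_ne (a : Mu) : mu L a ≠ 0 := (_root_.map_ne_zero _).2 (muC_ne a)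

theorem x1_mu_sub (a b : Mu) : mu L (a - b) * mu L b = mu L a := by
  rw [mu, mu, ← map_mul, ← muC_add, sub_add_cancel, mu]

variable {u v : L} {fu fv : Bool}

theorem X1Mon.unit {a : L} (h : (cl u v).U a) : X1Mon u v fu fv a :=
  ⟨0, 0, a, h, by simp, fun _ => rfl, fun _ => rfl⟩

theorem X1Mon.left : X1Mon u v true fv u :=
  ⟨1, 0, 1, x1_one _, by simp, fun h => by simp at h, fun _ => rfl⟩

theorem X1Mon.right : X1Mon u v fu true v :=
  ⟨0, 1, 1, x1_one _, by simp, fun _ => rfl, fun h => by simp at h⟩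

theorem X1Mon.mul (hI : AlgebraicIndependent ℂ ![u, v]) {a b : L} (ha : X1Mon u v fu fv a)
    (hb : X1Mon u v fu fv b) : X1Mon u v fu fv (a * b) := by
  obtain ⟨i, j, ε, h1, rfl, h2, h3⟩ := ha
  obtain ⟨i', j', ε', h1', rfl, h2', h3'⟩ := hb
  have hu : u ≠ 0 := hI.ne_zero 0
  have hv : v ≠ 0 := hI.ne_zero 1
  refine ⟨i + i', j + j', ε * ε', h1.mul h1', ?_, fun h => by rw [h2 h, h2' h, add_zero],
    fun h => by rw [h3 h, h3' h, add_zero]⟩
  rw [zpow_add₀ hu, zpow_add₀ hv]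
  ring

theorem X1Mon.inv {a : L} (ha : X1Mon u v fu fv a) : X1Mon u v fu fv a⁻¹ := by
  obtain ⟨i, j, ε, h1, rfl, h2, h3⟩ := ha
  refine ⟨-i, -j, ε⁻¹, ((cl u v).ev_inv h1).1, ?_, fun h => by rw [h2 h, neg_zero],
    fun h => by rw [h3 h, neg_zero]⟩
  rw [zpow_neg, zpow_neg, mul_inv, mul_inv]

theorem X1Mon.eq {a b : L} (ha : X1Mon u v fu fv a) (h : b = a) : X1Mon u v fu fv b := h ▸ ha

theorem x1_pow {x : LP L} {u : L} (hu : u ∈ x.O) (h0 : u ≠ 0) (f : Bool) {i : ℤ}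
    (hi : f = false → i = 0) {N : ℕ} (hN : i.natAbs ≤ N) :
    u ^ i * (if f then u else 1) ^ N ∈ x.O := by
  cases f with
  | false => simp [hi rfl]
  | true =>
    obtain ⟨k, hk⟩ : ∃ k : ℕ, i + N = k := ⟨(i + N).toNat, by omega⟩
    rw [if_pos rfl, ← zpow_natCast, ← zpow_add₀ h0, hk, zpow_natCast]
    exact x.O.pow_mem hu k

theorem X1Mon.r0 (hI : AlgebraicIndependent ℂ ![u, v]) {a : L} (ha : X1Mon u v fu fv a) :
    ∃ N : ℕ, a * ((if fu then u else 1) * (if fv then v else 1)) ^ N ∈ (cl u v).O := by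
  obtain ⟨i, j, ε, h1, rfl, h2, h3⟩ := ha
  refine ⟨i.natAbs + j.natAbs, ?_⟩
  have a1 := x1_pow (cl_m_LPB hI).1.1 (hI.ne_zero 0) fu h2 (Nat.le_add_right _ j.natAbs)
  have a2 := x1_pow (cl_m_LPB hI).2.1 (hI.ne_zero 1) fv h3 (Nat.le_add_left _ i.natAbs)
  refine Set.mem_of_eq_of_mem ?_ ((cl u v).O.mul_mem h1.1 ((cl u v).O.mul_mem a1 a2))
  rw [mul_pow]
  ring

theorem Amb.x1_s : A.form (.cusp .zero) = A.s := by simp [Amb.form, Cusp.val]

theorem Amb.x1_z : A.form (.sec .zero) = A.z := by simp [Amb.form, Amb.p]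

theorem Amb.x1_s1 : A.form (.cusp (.cst 0)) = A.s - 1 := by simp [Amb.form, Cusp.val, muC_zero]

theorem Amb.x1_s_ne : A.s ≠ 0 := A.x1_s ▸ A.form_ne _

theorem Amb.x1_z_ne : A.z ≠ 0 := A.x1_z ▸ A.form_ne _

theorem Amb.x1_c_ne (a : Mu) : A.z - mu L a ≠ 0 := A.form_ne (.sec (.cst a))

theorem Amb.x1_d_ne (a : Mu) : A.z - mu L a * A.s ≠ 0 := A.form_ne (.sec (.dia a))

theorem Amb.ch_of {u v : L} {fu fv : Bool} (h : IntermediateField.adjoin ℂ {u, v} = A.K)
    (hu : fu = true → A.Rat u) (hv : fv = true → A.Rat v)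
    (hl : ∀ l, ∃ (i j : ℤ) (ε : L), (cl u v).U ε ∧ A.form l = ε * u ^ i * v ^ j ∧
      (fu = false → i = 0) ∧ (fv = false → j = 0)) : A.Ch u v fu fv := by
  have hI := A.ind_of_gen h
  refine ⟨hI, h, fun a ha => ?_, hu, hv⟩
  have hw : (if fu then u else 1) * (if fv then v else 1) ∈ (cl u v).O := by
    refine (cl u v).O.mul_mem ?_ ?_ <;> split_ifs
    exacts [(cl_m_LPB hI).1.1, (cl u v).O.one_mem, (cl_m_LPB hI).2.1, (cl u v).O.one_mem]
  have hm : ∀ a, X1Mon u v fu fv a →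
      ∃ N : ℕ, a * ((if fu then u else 1) * (if fv then v else 1)) ^ N ∈ (cl u v).O :=
    fun a ha => ha.r0 hI
  generalize (if fu then u else 1) * (if fv then v else 1) = w at hw hm
  induction ha using Algebra.adjoin_induction with
  | mem a ha =>
    rcases ha with (rfl | rfl) | ⟨l, rfl⟩
    · exact hm _ (A.x1_s ▸ hl (.cusp .zero))
    · exact hm _ (A.x1_z ▸ hl (.sec .zero))
    · exact hm _ (X1Mon.inv (hl l))
  | algebraMap c => exact ⟨0, by simp⟩
  | add a b _ _ ha hb =>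
    obtain ⟨N, hN⟩ := ha
    obtain ⟨M, hM⟩ := hb
    refine ⟨N + M, ?_⟩
    refine Set.mem_of_eq_of_mem ?_ ((cl u v).O.add_mem
      ((cl u v).O.mul_mem hN ((cl u v).O.pow_mem hw M))
      ((cl u v).O.mul_mem hM ((cl u v).O.pow_mem hw N)))
    ring
  | mul a b _ _ ha hb =>
    obtain ⟨N, hN⟩ := ha
    obtain ⟨M, hM⟩ := hb
    refine ⟨N + M, ?_⟩
    refine Set.mem_of_eq_of_mem ?_ ((cl u v).O.mul_mem hN hM)
    ring

theorem Amb.x1_gen (hu : u ∈ A.K) (hv : v ∈ A.K)
    (h : ∀ F : IntermediateField ℂ L, u ∈ F → v ∈ F → A.s ∈ F ∧ A.z ∈ F) :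
    IntermediateField.adjoin ℂ {u, v} = A.K := by
  refine le_antisymm (IntermediateField.adjoin_le_iff.2 ?_) (IntermediateField.adjoin_le_iff.2 ?_)
  · rintro _ (rfl | rfl)
    exacts [hu, hv]
  · obtain ⟨h1, h2⟩ := h (IntermediateField.adjoin ℂ {u, v})
      (IntermediateField.subset_adjoin ℂ _ (by simp)) (IntermediateField.subset_adjoin ℂ _ (by simp))
    rintro _ (rfl | rfl)
    exacts [h1, h2]

theorem x1_mem {F : IntermediateField ℂ L} {a b : L} (ha : a ∈ F) (h : b = a) : b ∈ F := h ▸ ha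

theorem x1_mu_mem (F : IntermediateField ℂ L) (a : Mu) : mu L a ∈ F := F.algebraMap_mem _

theorem Amb.x1_cusp {s₀ : ℂ} (hs : (cl u v).m (A.s - algebraMap ℂ L s₀))
    (h1 : ∀ j : Cusp, s₀ = j.val → X1Mon u v fu fv (A.form (.cusp j))) (j : Cusp) :
    X1Mon u v fu fv (A.form (.cusp j)) := by
  by_cases h : s₀ = j.val
  · exact h1 j h
  · refine (X1Mon.unit (x1_U (sub_ne_zero.2 h) hs)).eq ?_
    simp only [Amb.form, map_sub]
    ring

theorem Amb.x1_fin {s₀ z₀ : ℂ} (hs : (cl u v).m (A.s - algebraMap ℂ L s₀))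
    (hz : (cl u v).m (A.z - algebraMap ℂ L z₀))
    (h1 : ∀ j : Cusp, s₀ = j.val → X1Mon u v fu fv (A.form (.cusp j)))
    (h2 : z₀ = 0 → X1Mon u v fu fv A.z)
    (h3 : ∀ a, z₀ = muC a → X1Mon u v fu fv (A.z - mu L a))
    (h4 : ∀ a, z₀ = muC a * s₀ → X1Mon u v fu fv (A.z - mu L a * A.s)) (l : Ln) :
    X1Mon u v fu fv (A.form l) := by
  rcases l with _ | j | _ | a | a
  · exact X1Mon.unit (x1_one _)
  · exact A.x1_cusp hs h1 j
  · rw [A.x1_z]
    by_cases h : z₀ = 0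
    · exact h2 h
    · exact (X1Mon.unit (x1_U h hz)).eq (by ring)
  · by_cases h : z₀ = muC a
    · exact h3 a h
    · refine (X1Mon.unit (x1_U (sub_ne_zero.2 h) hz)).eq ?_
      simp only [Amb.form, Amb.p, mu, map_sub]
      ring
  · by_cases h : z₀ = muC a * s₀
    · exact h4 a h
    · refine (X1Mon.unit (x1_U (sub_ne_zero.2 h) (hz.add (x1_cm (-muC a) hs)))).eq ?_
      simp only [Amb.form, Amb.p, mu, map_sub, map_mul, map_neg]
      ring

theorem x1_val {b : Mu} {j : Cusp} (h : muC b = j.val) : j = .cst b := by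
  cases j with
  | zero => exact absurd h (muC_ne b)
  | cst c => rw [muC_inj h]

theorem Amb.x1_near {a b : Mu} (hs : (cl u v).m (A.s - mu L b))
    (hs' : X1Mon u v fu fv (A.s - mu L b)) (hz : (cl u v).m (A.z - mu L a))
    (hz' : X1Mon u v fu fv (A.z - mu L a)) (hd : X1Mon u v fu fv (A.z - mu L (a - b) * A.s))
    (l : Ln) : X1Mon u v fu fv (A.form l) :=
  A.x1_fin hs hz (fun _ h => x1_val h ▸ hs') (fun h => absurd h (muC_ne a))
    (fun _ h => muC_inj h ▸ hz')
    (fun c h => by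
      rw [← muC_add] at h
      rw [eq_sub_of_add_eq (muC_inj h).symm]
      exact hd) l

theorem Amb.x1_s1m (h : (cl u v).m (A.s - 1)) : (cl u v).m (A.s - algebraMap ℂ L (muC 0)) := by
  rwa [muC_zero, map_one]

theorem Amb.x1_s1c (h : X1Mon u v fu fv (A.s - 1)) (j : Cusp) (hj : muC 0 = j.val) :
    X1Mon u v fu fv (A.form (.cusp j)) := by
  rwa [x1_val hj, A.x1_s1]

/-- charts at the triple points of the fibre `s = 1` -/
theorem Amb.x1_near0 (hI : AlgebraicIndependent ℂ ![u, v]) {a : Mu} {ε w : L} (hε : (cl u v).U ε)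
    (hw : (cl u v).m w) (hw' : X1Mon u v fu fv w) (hs : mu L a * (A.s - 1) = ε * w)
    (hz : (cl u v).m (A.z - mu L a)) (hz' : X1Mon u v fu fv (A.z - mu L a))
    (hd : X1Mon u v fu fv (A.z - mu L a * A.s)) (l : Ln) : X1Mon u v fu fv (A.form l) := by
  have h1 : (cl u v).U (algebraMap ℂ L (muC a)⁻¹) :=
    ⟨(cl u v).O.algebraMap_mem _, by rw [(cl u v).hom.alg]; exact inv_ne_zero (muC_ne a)⟩
  have e : A.s - mu L 0 = algebraMap ℂ L (muC a)⁻¹ * ε * w := by
    rw [mul_assoc, ← hs, map_inv₀, mu_zero]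
    exact (inv_mul_cancel_left₀ (x1_mu_ne a) _).symm
  exact A.x1_near (b := 0) (e ▸ hw.mul_left (h1.mul hε).1)
    (((X1Mon.unit (h1.mul hε)).mul hI hw').eq e) hz hz' (by rwa [sub_zero]) l

theorem Amb.x1_lin (s₀ z₀ : ℂ) : IntermediateField.adjoin ℂ
    {A.s - algebraMap ℂ L s₀, A.z - algebraMap ℂ L z₀} = A.K :=
  A.x1_gen (sub_mem A.pi_sK (A.K.algebraMap_mem _)) (sub_mem A.pi_zK (A.K.algebraMap_mem _))
    fun F hu hv => ⟨x1_mem (add_mem hu (F.algebraMap_mem s₀)) (by ring),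
      x1_mem (add_mem hv (F.algebraMap_mem z₀)) (by ring)⟩

theorem Amb.ch_int {s₀ z₀ : ℂ} (h1 : ∀ j : Cusp, s₀ ≠ j.val) (h2 : z₀ ≠ 0)
    (h3 : ∀ a, z₀ ≠ muC a) (h4 : ∀ a, z₀ ≠ muC a * s₀) :
    A.Ch (A.s - algebraMap ℂ L s₀) (A.z - algebraMap ℂ L z₀) false false := by
  have g := A.x1_lin s₀ z₀
  have hm := cl_m_LPB (A.ind_of_gen g)
  exact A.ch_of g (by simp) (by simp) (A.x1_fin hm.1 hm.2 (fun j h => absurd h (h1 j))
    (fun h => absurd h h2) (fun a h => absurd h (h3 a)) fun a h => absurd h (h4 a))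

theorem Amb.x1_rat (l : Ln) : A.Rat (A.form l) := ⟨l, .inf, (div_one _).symm⟩

theorem Amb.x1_rat_s1 : A.Rat (A.s - 1) := A.x1_s1 ▸ A.x1_rat _

theorem Amb.x1_rat_z : A.Rat A.z := A.x1_z ▸ A.x1_rat _

theorem Amb.x1_rat_zi : A.Rat A.z⁻¹ := ⟨.inf, .sec .zero, by rw [A.x1_z, ← one_div]; rfl⟩

theorem Amb.x1_rat_zs : A.Rat (A.z / A.s) := ⟨.sec .zero, .cusp .zero, by rw [A.x1_z, A.x1_s]⟩

theorem Amb.yb_rat (a : Mu) : A.Rat (A.yb a) := ⟨.sec (.dia a), .sec (.cst a), rfl⟩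

theorem Amb.yb_gen (a : Mu) : IntermediateField.adjoin ℂ {A.z - mu L a, A.yb a} = A.K := by
  have h1 := A.x1_c_ne a
  have h2 := x1_mu_ne (L := L) a
  refine A.x1_gen (A.form_mem (.sec (.cst a))) ((A.yb_rat a).un A).2 fun F hu hv => ?_
  have hz : A.z ∈ F := x1_mem (add_mem hu (x1_mu_mem F a)) (by ring)
  refine ⟨x1_mem (div_mem (sub_mem hz (mul_mem hu hv)) (x1_mu_mem F a)) ?_, hz⟩
  rw [Amb.yb]
  field_simp
  ring

theorem Amb.ch_hc (i : Option Sec) : A.Ch (A.hc i).1 (A.hc i).2 true true := by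
  rcases i with _ | _ | a | a <;> simp only [Amb.hc]
  · have hz := A.x1_z_ne
    have g : IntermediateField.adjoin ℂ {A.s - 1, A.z⁻¹} = A.K :=
      A.x1_gen (A.x1_rat_s1.un A).2 (A.x1_rat_zi.un A).2 fun F hu hv =>
        ⟨x1_mem (add_mem hu F.one_mem) (by ring), x1_mem (inv_mem hv) (inv_inv _).symm⟩
    have hI := A.ind_of_gen g
    have hm := cl_m_LPB hI
    refine A.ch_of g (fun _ => A.x1_rat_s1) (fun _ => A.x1_rat_zi) fun l => ?_
    rcases l with _ | j | _ | a | a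
    · exact X1Mon.unit (x1_one _)
    · exact A.x1_cusp (A.x1_s1m hm.1) (A.x1_s1c X1Mon.left) j
    · exact X1Mon.right.inv.eq (by rw [A.x1_z, inv_inv])
    · refine (X1Mon.right.inv.mul hI (X1Mon.unit (x1_U1 (muC a) hm.2))).eq ?_
      simp only [Amb.form, Amb.p, mu]
      field_simp
    · refine (X1Mon.right.inv.mul hI (X1Mon.unit (x1_U1 (muC a)
        (hm.2.add (hm.2.mul_left hm.1.1))))).eq ?_
      simp only [Amb.form, Amb.p, mu]
      field_simp
      ring
  · have g : IntermediateField.adjoin ℂ {A.s - 1, A.z} = A.K := by simpa using A.x1_lin 1 0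
    have hm := cl_m_LPB (A.ind_of_gen g)
    exact A.ch_of g (fun _ => A.x1_rat_s1) (fun _ => A.x1_rat_z) (A.x1_fin (z₀ := 0)
      (A.x1_s1m hm.1) (by simpa using hm.2) (A.x1_s1c X1Mon.left) (fun _ => X1Mon.right)
      (fun a h => absurd h.symm (muC_ne a))
      fun a h => absurd h.symm (mul_ne_zero (muC_ne a) (muC_ne 0)))
  · have h1 := A.x1_d_ne a
    have h2 := x1_mu_ne (L := L) a
    have r1 : A.Rat (A.z - mu L a * A.s) := A.x1_rat (.sec (.dia a))
    have r2 : A.Rat ((A.z - mu L a) / (A.z - mu L a * A.s)) := ⟨.sec (.cst a), .sec (.dia a), rfl⟩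
    have e : A.z - mu L a = (A.z - mu L a * A.s) * ((A.z - mu L a) / (A.z - mu L a * A.s)) := by
      field_simp
    have g : IntermediateField.adjoin ℂ
        {A.z - mu L a * A.s, (A.z - mu L a) / (A.z - mu L a * A.s)} = A.K := by
      refine A.x1_gen (r1.un A).2 (r2.un A).2 fun F hu hv => ?_
      have hz : A.z ∈ F := x1_mem (add_mem (mul_mem hu hv) (x1_mu_mem F a)) (by rw [← e]; ring)
      refine ⟨x1_mem (div_mem (sub_mem hz hu) (x1_mu_mem F a)) ?_, hz⟩
      field_simp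
      ring
    have hI := A.ind_of_gen g
    have hm := cl_m_LPB hI
    refine A.ch_of g (fun _ => r1) (fun _ => r2) (A.x1_near0 hI (a := a)
      (x1_U (neg_ne_zero.2 one_ne_zero) hm.2) hm.1 X1Mon.left ?_ ?_
      ((X1Mon.left.mul hI X1Mon.right).eq e) X1Mon.left)
    · rw [map_neg, map_one]
      field_simp
      ring
    · have h3 := hm.2.mul_left hm.1.1
      rwa [← e] at h3
  · have h1 := A.x1_c_ne a
    have g := A.yb_gen a
    have hI := A.ind_of_gen g
    have hm := cl_m_LPB hI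
    refine A.ch_of g (fun _ => A.x1_rat (.sec (.cst a))) (fun _ => A.yb_rat a)
      (A.x1_near0 hI (a := a) (x1_U1 1 hm.2) hm.1 X1Mon.left ?_ hm.1 X1Mon.left
      ((X1Mon.left.mul hI X1Mon.right).eq ?_))
    · rw [map_one, Amb.yb]
      field_simp
      ring
    · rw [Amb.yb]
      field_simp

theorem Amb.ch_nc (n : Nd) : A.Ch (A.nc n).1 (A.nc n).2 true true := by
  have hz := A.x1_z_ne
  have hs := A.x1_s_ne
  rcases n with _ | _ | ⟨b, a⟩ <;> simp only [Amb.nc]
  · have r1 : A.Rat (A.s / A.z) := ⟨.cusp .zero, .sec .zero, by rw [A.x1_z, A.x1_s]⟩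
    have e : A.s = A.s / A.z * A.z := by field_simp
    have g : IntermediateField.adjoin ℂ {A.s / A.z, A.z} = A.K :=
      A.x1_gen (r1.un A).2 A.pi_zK fun F hu hv => ⟨x1_mem (mul_mem hu hv) e, hv⟩
    have hI := A.ind_of_gen g
    have hm := cl_m_LPB hI
    refine A.ch_of g (fun _ => r1) (fun _ => A.x1_rat_z) (A.x1_fin (s₀ := 0) (z₀ := 0) ?_
      (by simpa using hm.2) (fun j h => ?_) (fun _ => X1Mon.right)
      (fun a h => absurd h.symm (muC_ne a)) fun a _ => ?_)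
    · have h3 := hm.2.mul_left hm.1.1
      rw [← e] at h3
      rwa [map_zero, sub_zero]
    · refine (X1Mon.left.mul hI X1Mon.right).eq ?_
      rw [← e, Amb.form, ← h, map_zero, sub_zero]
    · refine (X1Mon.right.mul hI (X1Mon.unit (x1_U1 (muC a) hm.1))).eq ?_
      rw [mu]
      field_simp
  · have e : A.s = (A.z⁻¹ * (A.z / A.s))⁻¹ := by field_simp
    have g : IntermediateField.adjoin ℂ {A.z⁻¹, A.z / A.s} = A.K :=
      A.x1_gen (A.x1_rat_zi.un A).2 (A.x1_rat_zs.un A).2 fun F hu hv =>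
        ⟨x1_mem (inv_mem (mul_mem hu hv)) e, x1_mem (inv_mem hu) (inv_inv _).symm⟩
    have hI := A.ind_of_gen g
    have hm := cl_m_LPB hI
    have ms : X1Mon A.z⁻¹ (A.z / A.s) true true A.s := (X1Mon.left.mul hI X1Mon.right).inv.eq e
    refine A.ch_of g (fun _ => A.x1_rat_zi) (fun _ => A.x1_rat_zs) fun l => ?_
    rcases l with _ | j | _ | a | a
    · exact X1Mon.unit (x1_one _)
    · refine (ms.mul hI (X1Mon.unit (x1_U1 j.val (hm.2.mul_left hm.1.1)))).eq ?_
      simp only [Amb.form]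
      field_simp
    · exact X1Mon.left.inv.eq (by rw [A.x1_z, inv_inv])
    · refine (X1Mon.left.inv.mul hI (X1Mon.unit (x1_U1 (muC a) hm.1))).eq ?_
      simp only [Amb.form, Amb.p, mu]
      field_simp
    · refine (ms.mul hI (X1Mon.unit (x1_U (neg_ne_zero.2 (muC_ne a)) hm.2))).eq ?_
      simp only [Amb.form, Amb.p, mu, map_neg]
      field_simp
      ring
  · have h1 := A.x1_c_ne a
    have r1 : A.Rat ((A.s - mu L b) / (A.z - mu L a)) := ⟨.cusp (.cst b), .sec (.cst a), rfl⟩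
    have r2 : A.Rat (A.z - mu L a) := A.x1_rat (.sec (.cst a))
    have e : A.s - mu L b = (A.s - mu L b) / (A.z - mu L a) * (A.z - mu L a) := by field_simp
    have g : IntermediateField.adjoin ℂ {(A.s - mu L b) / (A.z - mu L a), A.z - mu L a} = A.K :=
      A.x1_gen (r1.un A).2 (r2.un A).2 fun F hu hv =>
        ⟨x1_mem (add_mem (mul_mem hu hv) (x1_mu_mem F b)) (by rw [← e]; ring),
          x1_mem (add_mem hv (x1_mu_mem F a)) (by ring)⟩
    have hI := A.ind_of_gen g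
    have hm := cl_m_LPB hI
    refine A.ch_of g (fun _ => r1) (fun _ => r2) (A.x1_near (a := a) (b := b) ?_
      ((X1Mon.left.mul hI X1Mon.right).eq e) hm.2 X1Mon.right
      ((X1Mon.right.mul hI (X1Mon.unit (x1_U1 (muC (a - b)) hm.1))).eq ?_))
    · have h3 := hm.2.mul_left hm.1.1
      rwa [← e] at h3
    · change _ = _ * (1 - mu L (a - b) * _)
      field_simp
      linear_combination -x1_mu_sub (L := L) a b

theorem Amb.nc_mul (n : Nd) : (A.nc n).1 * (A.nc n).2 = (A.mc n.cusp).1 := by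
  rcases n with _ | _ | ⟨b, a⟩
  · exact (div_mul_cancel₀ _ A.x1_z_ne).trans A.x1_s.symm
  · have hz := A.x1_z_ne
    simp only [Amb.nc, Amb.mc, Nd.cusp]
    field_simp
  · exact div_mul_cancel₀ _ (A.x1_c_ne a)

theorem Amb.mc_gen (j : Option Cusp) :
    IntermediateField.adjoin ℂ {(A.mc j).1, (A.mc j).2} = A.K := by
  rcases j with _ | j
  · refine A.x1_gen (inv_mem A.pi_sK) (A.x1_rat_zs.un A).2 fun F hu hv => ?_
    have hs : A.s ∈ F := x1_mem (inv_mem hu) (inv_inv _).symm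
    exact ⟨hs, x1_mem (mul_mem hv hs) (div_mul_cancel₀ _ A.x1_s_ne).symm⟩
  · simpa [Amb.mc, Amb.form] using A.x1_lin j.val 0

theorem Amb.x1_bs {t : L} (h : IntermediateField.adjoin ℂ {t} = IntermediateField.adjoin ℂ {A.s}) :
    A.Bs t ∧ ∀ a, A.Bs a → IsAlgebraic (Algebra.adjoin ℂ {t}) a := by
  refine ⟨IntermediateField.isAlgebraic_adjoin_iff.1 ?_, fun a ha => ?_⟩
  · exact isAlgebraic_algebraMap (R := IntermediateField.adjoin ℂ {A.s}) (A := L)
      ⟨t, h ▸ IntermediateField.mem_adjoin_simple_self ℂ t⟩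
  · rw [← IntermediateField.isAlgebraic_adjoin_iff, h]
    exact IntermediateField.isAlgebraic_adjoin_iff.2 ha

theorem Amb.mc_rat (j : Option Cusp) : A.Rat (A.mc j).1 ∧ A.Bs (A.mc j).1 ∧
    ∀ a, A.Bs a → IsAlgebraic (Algebra.adjoin ℂ {(A.mc j).1}) a := by
  rcases j with _ | j <;> simp only [Amb.mc]
  · refine ⟨⟨.inf, .cusp .zero, by rw [A.x1_s, ← one_div]; rfl⟩, A.x1_bs (le_antisymm
      (IntermediateField.adjoin_simple_le_iff.2 ?_) (IntermediateField.adjoin_simple_le_iff.2 ?_))⟩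
    · exact inv_mem (IntermediateField.mem_adjoin_simple_self ℂ _)
    · exact x1_mem (inv_mem (IntermediateField.mem_adjoin_simple_self ℂ _)) (inv_inv _).symm
  · refine ⟨A.x1_rat _, A.x1_bs (le_antisymm
      (IntermediateField.adjoin_simple_le_iff.2 ?_) (IntermediateField.adjoin_simple_le_iff.2 ?_))⟩
    · exact sub_mem (IntermediateField.mem_adjoin_simple_self ℂ _)
        (IntermediateField.algebraMap_mem _ _)
    · exact x1_mem (add_mem (IntermediateField.mem_adjoin_simple_self ℂ _)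
        (IntermediateField.algebraMap_mem _ j.val)) (sub_add_cancel _ _).symm

theorem Amb.mc_one : A.mc (some (.cst 0)) = (A.s - 1, A.z) := by rw [Amb.mc, A.x1_s1]

theorem Amb.ch_main {y : ℂ} (h0 : y ≠ 0) (h : ∀ a, y ≠ muC a) :
    A.Ch (A.s - 1) (A.z - algebraMap ℂ L y) true false := by
  have g : IntermediateField.adjoin ℂ {A.s - 1, A.z - algebraMap ℂ L y} = A.K := by
    simpa using A.x1_lin 1 y
  have hm := cl_m_LPB (A.ind_of_gen g)
  exact A.ch_of g (fun _ => A.x1_rat_s1) (by simp) (A.x1_fin (A.x1_s1m hm.1) hm.2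
    (A.x1_s1c X1Mon.left) (fun e => absurd e h0) (fun a e => absurd e (h a))
    fun a e => absurd (e.trans (by rw [muC_zero, mul_one])) (h a))

theorem Amb.ch_bub (a : Mu) {y : ℂ} (h0 : y ≠ 0) (h1 : y ≠ 1) :
    A.Ch (A.z - mu L a) (A.yb a - algebraMap ℂ L y) true false := by
  have h2 := A.x1_c_ne a
  have g : IntermediateField.adjoin ℂ {A.z - mu L a, A.yb a - algebraMap ℂ L y} = A.K := by
    refine A.x1_gen (A.form_mem (.sec (.cst a)))
      (sub_mem ((A.yb_rat a).un A).2 (A.K.algebraMap_mem y)) fun F hu hv => ?_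
    have h3 : A.K ≤ F := by
      rw [← A.yb_gen a, IntermediateField.adjoin_le_iff]
      rintro _ (rfl | rfl)
      exacts [hu, x1_mem (add_mem hv (F.algebraMap_mem y)) (sub_add_cancel _ _).symm]
    exact ⟨h3 A.pi_sK, h3 A.pi_zK⟩
  have hI := A.ind_of_gen g
  have hm := cl_m_LPB hI
  refine A.ch_of g (fun _ => A.x1_rat (.sec (.cst a))) (by simp) (A.x1_near0 hI (a := a)
    (x1_U (sub_ne_zero.2 h1.symm) (x1_cm (-1) hm.2)) hm.1 X1Mon.left ?_ hm.1 X1Mon.left
    ((X1Mon.left.mul hI (X1Mon.unit (x1_U h0 hm.2))).eq ?_))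
  · rw [map_sub, map_neg, map_one, Amb.yb]
    field_simp
    ring
  · rw [Amb.yb]
    field_simp
    ring

theorem Amb.yb_sub (a : Mu) :
    A.yb a - 1 = algebraMap ℂ L (-muC a) * (A.nc (.fin 0 a)).1 := by
  have h2 := A.x1_c_ne a
  rw [Amb.nc, Amb.yb, mu_zero, map_neg]
  change _ = -mu L a * _
  field_simp
  ring

end Vale.Agent.P300
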