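import Vale.Agent.P300.Ine2
import Vale.Agent.P300.X1
import Vale.Agent.P300.Grp

/-! The fibre group is generated by inertia elements. Otherwise `frattini` (`B = pi ⊔ N`) and `kummer`
give `w ∈ F`. `w ^ 2` is fixed by all `g` fixing `Lb`, so (`fix_Lb`, `Lb` algebraically closed)
`w = w' r`, `r ∈ Lb(z)`, `w' ^ 2 = ∏ (z - q)` over a finite set of `q ∈ Lb`. If some `q` is not a `p j`:
let `D` = localisation of `Lb[z]` at `z - q`, `B` its integral closure in `L`, `Q` a prime over the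
maximal ideal, `τ` fixing `Lb(z)` with `τ w' = -w'`; `Q` and `τ Q` agree on `Lb(z)(w')` (elements
`a + b w'` with `a, b ∈ D`), so `tr_prime` gives `g` fixing `Lb(z)`, `g Q = Q`, `g w' = -w'`; `B / Q = Lb`, so
`g b - b ∈ Q`. The integral closure `B°` of `R0` lies in `B`; `hom_of_fg` gives a complex point `ψ` of
`B°` killing `Q`, with coordinates `(s₀, z₀)` off the arrangement; `mkLP B° ψ` is above
`cl (s - s₀) (z - z₀)` and fixed by `g`; `ip_int` gives `g w = w`, a contradiction. So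
`w' = ± ∏ √(z - p j)` is in `Om`, `r` is in `Om`, and `r` is fixed by `pi` (`eval_sign`: `r₀` is fixed by
the fixing subgroup of `OmF`, so is `Om`). The `x j` fix `w`, so the product is empty, `pi` fixes `w`. -/

open scoped LinearAlgebra.Projectivization Topology Classical Pointwise
open Polynomial

set_option linter.unusedSectionVars false

namespace Vale.Agent.P300

variable {L : Type} [Field L] [Algebra ℂ L] [IsAlgClosed L] (A : Amb L)

theorem f1_sq {k : Type} [Field k] [IsAlgClosed k] (R : k[X]) (hR : R ≠ 0) :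
    ∃ (S : k[X]) (s : Finset k), S ≠ 0 ∧ R = S ^ 2 * ∏ q ∈ s, (X - C q) := by
  rw [(IsAlgClosed.splits R).eq_prod_roots]
  obtain ⟨d, hd⟩ := IsAlgClosed.exists_pow_nat_eq R.leadingCoeff (n := 2) two_pos
  have hd0 : d ≠ 0 := fun e => leadingCoeff_ne_zero.2 hR (by rw [← hd, e]; ring)
  induction R.roots using Multiset.induction_on with
  | empty => exact ⟨C d, ∅, C_ne_zero.2 hd0, by rw [← hd, map_pow]; simp⟩
  | cons a m ih =>
    obtain ⟨S, s, hS, e⟩ := ih
    rw [Multiset.map_cons, Multiset.prod_cons, mul_left_comm, e]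
    by_cases ha : a ∈ s
    · refine ⟨S * (X - C a), s.erase a, mul_ne_zero hS (X_sub_C_ne_zero a), ?_⟩
      rw [← Finset.mul_prod_erase s _ ha]
      ring
    · refine ⟨S, insert a s, hS, ?_⟩
      rw [Finset.prod_insert ha]
      ring

theorem f1_val {k : Type} [Field k] [Algebra k L] {u : L} (h1 : Transcendental k u) :
    ∃ V : ValuationSubring L, (∀ a : k, algebraMap k L a ∈ V) ∧ u ∈ V.nonunits := by
  set R : Subalgebra k L := Algebra.adjoin k {u} with hR
  have hu : u ∈ R.toSubring := Algebra.self_mem_adjoin_singleton k u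
  have hI : Ideal.span {(⟨u, hu⟩ : R.toSubring)} ≠ ⊤ := by
    rw [Ne, Ideal.span_singleton_eq_top, isUnit_iff_exists_inv]
    rintro ⟨⟨b, hb⟩, e⟩
    have e' : u * b = 1 := congrArg Subtype.val e
    have hb' : b ∈ Algebra.adjoin k {u} := hb
    rw [Algebra.adjoin_singleton_eq_range_aeval] at hb'
    obtain ⟨P, rfl⟩ := hb'
    refine h1 ⟨X * P - 1, fun h => ?_, ?_⟩
    · have := congrArg (eval 0) h
      simp at this
    · rw [map_sub, map_mul, aeval_X, map_one, sub_eq_zero]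
      exact e'
  obtain ⟨V, hV, hV'⟩ := Ideal.image_subset_nonunits_valuationSubring _ hI
  exact ⟨V, fun a => hV (R.algebraMap_mem a), hV' ⟨_, Ideal.subset_span rfl, rfl⟩⟩

theorem f1_on {V : ValuationSubring L} {x : LP L} (hO : ∀ a ∈ x.O, a ∈ V) :
    ∃ P, Ab x P ∧ On P V := by
  have hB : ∀ b ∈ Bx x ⊤, b ∈ V := fun b hb => val_int hO hb.1
  let φ : Bx x ⊤ →+* V := (Bx x ⊤).val.toRingHom.codRestrict V fun a => hB a a.2
  have hQ : ∀ a : Bx x ⊤,
      a ∈ (IsLocalRing.maximalIdeal V).comap φ ↔ (a : L) ∈ V.nonunits := fun a =>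
    (ValuationSubring.coe_mem_nonunits_iff (a := φ a)).symm
  obtain ⟨ψ, h1, h2, h3⟩ := hom_ext_int (B := Bx x ⊤) x.hom
    (fun a ha => ⟨isIntegral_algebraMap (x := (⟨a, ha⟩ : x.O)), trivial⟩)
    (fun b hb => hb.1) ((IsLocalRing.maximalIdeal V).comap φ)
    fun a ha ha' => val_ev hO ha' ((hQ a).1 ha)
  refine ⟨_, np_mk (M := ⊤) (fun _ _ => trivial) h1 h2, fun a ha => ?_⟩
  obtain ⟨b, hb, c, hc, h0, e⟩ := (mem_mkLP h1).1 ha
  exact val_div (hB b hb) ⟨hB c hc, fun hn => h0 (h3 ⟨c, hc⟩ ((hQ _).2 hn))⟩ e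

/-- a valuation ring containing `R0` contains the local ring of an interior point -/
theorem Amb.f1_int {V : ValuationSubring L} (hV : ∀ a ∈ A.R0, a ∈ V) :
    ∃ u v, A.Ch u v false false ∧ ∀ a ∈ (cl u v).O, a ∈ V := by
  let φ : A.R0 →+* V := A.R0.val.toRingHom.codRestrict V fun a => hV a a.2
  have hQ : ∀ a : A.R0,
      a ∈ (IsLocalRing.maximalIdeal V).comap φ ↔ (a : L) ∈ V.nonunits := fun a =>
    (ValuationSubring.coe_mem_nonunits_iff (a := φ a)).symm
  obtain ⟨ψ, h1, h3⟩ := hom_of_fg A.R0_fg le_rfl (fun b hb => A.tw_int hb)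
    ((IsLocalRing.maximalIdeal V).comap φ)
  have hs : A.s ∈ A.R0 := Algebra.subset_adjoin (by simp)
  have hz : A.z ∈ A.R0 := Algebra.subset_adjoin (by simp)
  have hf : ∀ l, ψ (A.form l) ≠ 0 := fun l e => by
    have h4 := h1.mul _ (A.tw_form A.R0 hs hz l) (A.form l)⁻¹
      (Algebra.subset_adjoin (Or.inr ⟨l, rfl⟩))
    rw [mul_inv_cancel₀ (A.form_ne l), h1.one, e, zero_mul] at h4
    exact one_ne_zero h4
  have hc : ∀ c : ℂ, algebraMap ℂ L c ∈ A.R0 := A.R0.algebraMap_mem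
  have hch := A.ch_int (s₀ := ψ A.s) (z₀ := ψ A.z)
    (fun j e => hf (.cusp j) (by
      rw [Amb.form, h1.sub hs (hc _), h1.alg, e, sub_self]))
    (fun e => hf (.sec .zero) (by rw [Amb.form, Amb.p, sub_zero, e]))
    (fun a e => hf (.sec (.cst a)) (by
      rw [Amb.form, Amb.p, mu, h1.sub hz (hc _), h1.alg, e, sub_self]))
    (fun a e => hf (.sec (.dia a)) (by
      rw [Amb.form, Amb.p, mu, h1.sub hz (A.R0.mul_mem (hc _) hs), h1.mul _ (hc _) _ hs, h1.alg, e,
        sub_self]))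
  have hm : ∀ a ∈ A.R0, (mkLP A.R0 ψ).m (a - algebraMap ℂ L (ψ a)) := fun a ha => by
    have h4 := (mkLP A.R0 ψ).m_sub_ev (mkLP_base h1 ha).1
    rwa [(mkLP_base h1 ha).2] at h4
  refine ⟨_, _, hch, fun a ha => ?_⟩
  obtain ⟨b, hb, c, hc, h0, e⟩ := (mem_mkLP h1).1 (cl_le hch.ind (hm _ hs) (hm _ hz) a ha).1
  exact val_div (hV b hb) ⟨hV c hc, fun hn => h0 (h3 ⟨c, hc⟩ ((hQ _).2 hn))⟩ e

/-- the subgroup fixing the algebraic closure of `ℂ(s)` -/
def Amb.f1H : Subgroup A.G where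
  carrier := {g | ∀ a, A.Bs a → g a = a}
  mul_mem' := fun {g h} hg hh a ha => by rw [AlgEquiv.mul_apply, hh a ha, hg a ha]
  one_mem' := fun _ _ => rfl
  inv_mem' := fun {g} hg a ha => by
    rw [AlgEquiv.aut_inv, AlgEquiv.symm_apply_eq, hg a ha]

theorem Amb.f1_aeval (P : A.Lb[X]) : aeval A.z P ∈ IntermediateField.fixedField A.f1H := by
  rw [IntermediateField.mem_fixedField_iff]
  intro g hg
  have e : A.piRes g = RingHom.id _ := RingHom.ext fun a => Subtype.ext (hg a a.2)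
  rw [A.pi_aeval, e, Polynomial.map_id]

theorem Amb.f1_ne {P : A.Lb[X]} (hP : P ≠ 0) : aeval A.z P ≠ 0 := fun e => A.z_trans ⟨P, hP, e⟩

section Par

variable {V : ValuationSubring L} (hV : ∀ a : A.Lb, (a : L) ∈ V) {q : A.Lb}
  (hq : A.z - q ∈ V.nonunits)

include hV in
theorem Amb.f1_unit {a : L} (ha : A.Bs a) (h0 : a ≠ 0) : VU V a :=
  val_vu_of_inv h0 (hV ⟨a, ha⟩) (hV ⟨a⁻¹, A.Lb.inv_mem ha⟩)

include hV hq in
theorem Amb.f1_lin {a : L} (ha : A.Bs a) (h0 : a ≠ q) : VU V (A.z - a) := by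
  have h1 := (A.f1_unit hV (A.Lb.sub_mem q.2 ha) (sub_ne_zero.2 h0.symm)).add hq
  rwa [show (q : L) - a + (A.z - q) = A.z - a by ring] at h1

include hV hq in
theorem Amb.f1_poly {P : A.Lb[X]} (hP : P ≠ 0) :
    ∃ m : ℕ, V.valuation (aeval A.z P) = V.valuation (A.z - q) ^ m := by
  rw [(IsAlgClosed.splits P).eq_prod_roots, map_mul, aeval_C, map_mul]
  have h1 : V.valuation (algebraMap A.Lb L P.leadingCoeff) = 1 :=
    vu_iff.1 (A.f1_unit hV P.leadingCoeff.2 fun e => leadingCoeff_ne_zero.2 hP (Subtype.ext e))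
  rw [h1, one_mul]
  induction P.roots using Multiset.induction_on with
  | empty => exact ⟨0, by simp⟩
  | cons a s ih =>
    obtain ⟨m, hm⟩ := ih
    rw [Multiset.map_cons, Multiset.prod_cons, map_mul, map_mul, hm, map_sub, aeval_X, aeval_C]
    by_cases h : a = q
    · exact ⟨m + 1, by rw [h, pow_succ']; rfl⟩
    · have h2 : V.valuation (A.z - algebraMap A.Lb L a) = 1 :=
        vu_iff.1 (A.f1_lin hV hq a.2 fun e => h (Subtype.ext e))
      exact ⟨m, by rw [h2, one_mul]⟩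

include hV hq in
theorem Amb.f1_par {s : Finset A.Lb} (hs : q ∈ s) {w β : L}
    (hw : w ^ 2 = aeval A.z (∏ c ∈ s, (Polynomial.X - C c))) (hβ : β ∈ IntermediateField.fixedField A.f1H) :
    ¬ VU V (β * w) := fun h => by
  obtain ⟨P, Q, hQ, e⟩ := A.fix_Lb ((IntermediateField.mem_fixedField_iff _ _).1 hβ)
  have hβ0 : β ≠ 0 := fun e => h.2 (by rw [e, zero_mul]; exact zero_mem _)
  have hP : P ≠ 0 := fun e' => mul_ne_zero hβ0 (A.f1_ne hQ) (by rw [e, e', map_zero])
  obtain ⟨m, hm⟩ := A.f1_poly hV hq hP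
  obtain ⟨n, hn⟩ := A.f1_poly hV hq hQ
  have h1 : V.valuation w ^ 2 = V.valuation (A.z - q) := by
    rw [← map_pow, hw, map_prod, map_prod, Finset.prod_eq_single_of_mem q hs]
    · rw [map_sub, aeval_X, aeval_C]
      rfl
    · intro c _ hc
      rw [map_sub, aeval_X, aeval_C]
      exact vu_iff.1 (A.f1_lin hV hq c.2 fun e => hc (Subtype.ext e))
  have h2 := congrArg V.valuation e
  rw [map_mul, hm, hn] at h2
  have h3 := vu_iff.1 h
  rw [map_mul] at h3
  have h0 : A.z - q ≠ 0 := by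
    have := A.f1_ne (X_sub_C_ne_zero q)
    rwa [map_sub, aeval_X, aeval_C] at this
  have h4 : V.valuation (A.z - q) ^ (2 * n) = V.valuation (A.z - q) ^ (2 * m + 1) := by
    have h6 : V.valuation β ^ 2 * V.valuation (A.z - q) = 1 := by
      rw [← h1, ← mul_pow, h3, one_pow]
    rw [pow_succ, pow_mul', pow_mul', ← h2, mul_pow, mul_right_comm, h6, one_mul]
  have h5 := pow_right_injective₀ (zero_lt_iff.2 ((_root_.map_ne_zero _).2 h0))
    (V.mem_nonunits_iff.1 hq).ne h4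
  omega

end Par

/-- no ramification outside the sections -/
theorem Amb.f1_ram {F : IntermediateField A.K L} {a : ℕ} (hF : A.Good F a) {s : Finset A.Lb}
    {w r : L} (hw : w ^ 2 = aeval A.z (∏ c ∈ s, (Polynomial.X - C c)))
    (hr : r ∈ IntermediateField.fixedField A.f1H) (hF' : w * r ∈ F) (h0 : w * r ≠ 0) :
    ∀ q ∈ s, ∃ j, (q : L) = A.p j := by
  intro q hs
  by_contra hj
  push Not at hj
  have ht : Transcendental A.Lb (A.z - q) := by
    have := A.z_trans.aeval (Polynomial.X - C q) (by rw [natDegree_X_sub_C]; exact one_ne_zero)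
      (by rw [leadingCoeff_X_sub_C]; exact one_mem _)
    rwa [map_sub, aeval_X, aeval_C] at this
  obtain ⟨V, hV, hq⟩ := f1_val ht
  replace hV : ∀ a : A.Lb, (a : L) ∈ V := hV
  have hc : ∀ c : ℂ, algebraMap ℂ L c ∈ V := fun c => hV ⟨_, A.Lb.algebraMap_mem c⟩
  have hR : A.R0 ≤ valAlg V hc := by
    refine Algebra.adjoin_le ?_
    rintro b ((rfl | rfl) | ⟨l, rfl⟩)
    · exact hV ⟨_, A.bs_s⟩
    · have := add_mem (V.nonunits_subset hq) (hV q)
      rwa [sub_add_cancel] at this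
    · cases l with
      | inf => exact hV ⟨_, A.Lb.inv_mem A.Lb.one_mem⟩
      | cusp j => exact hV ⟨_, A.Lb.inv_mem (A.Lb.sub_mem A.bs_s (A.Lb.algebraMap_mem _))⟩
      | sec i => exact (A.f1_lin hV hq (A.bs_p i) (hj i).symm).inv.1
  obtain ⟨u, v, hch, hO⟩ := A.f1_int (V := V) fun a ha => hR ha
  obtain ⟨P, hP, ho⟩ := f1_on hO
  have hw0 : w ≠ 0 := left_ne_zero_of_mul h0
  have hw2 : w ^ 2 ∈ IntermediateField.fixedField A.f1H := hw ▸ A.f1_aeval _
  obtain ⟨τ, hτ, h1⟩ := A.ine1_flip (IntermediateField.fixedField A.f1H) (w := w)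
    (fun h => A.f1_par hV hq hs hw (inv_mem h) (by
      rw [inv_mul_cancel₀ hw0]
      simpa using VU.const hc one_ne_zero)) hw2
  rw [IntermediateField.mem_fixingSubgroup_iff] at hτ
  obtain ⟨g, h3, h4⟩ := A.ine1_fix (hch.sub A) hP
    (IntermediateField.fixedField A.f1H ⊔ IntermediateField.adjoin A.K {w}) τ fun b hb => by
      have hb1 : b ∈ Bx (cl u v) ⊤ := ⟨hb.1, trivial⟩
      have hb2 := hP.int _ (A.Bx_map (hch.sub A) τ hb1)
      have hb3 := hP.int _ hb1
      have hb4 := (mem_Bx.1 hb).2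
      rw [A.rs_sup] at hb4
      obtain ⟨α, hα, β, hβ, e⟩ := Rg2_repr (E := A.rs (IntermediateField.fixedField A.f1H)) hw2 hb4
      have e2 : b - τ b = (β + β) * w := by
        rw [e, map_add, map_mul, hτ α hα, hτ β hβ, h1]
        ring
      have hb5 := P.O.sub_mem hb3 hb2
      have h5 : b - τ b ∈ V.nonunits := by
        by_contra h6
        exact A.f1_par hV hq hs hw (β := β + β) (add_mem hβ hβ) (e2 ▸ ⟨ho _ hb5, h6⟩)
      have h6 := ho.ev hb5 h5
      rw [P.hom.sub hb3 hb2, sub_eq_zero] at h6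
      rw [A.ev_act, inv_inv, h6]
  have h5 := (IntermediateField.mem_fixingSubgroup_iff _ _).1
    (A.ip_int hF hch hP (h3.mono A le_top)) _ hF'
  rw [map_mul, h4 w (A.ine1_mem _ rfl), h4 r (SetLike.le_def.1 le_sup_left hr), h1, hτ r hr] at h5
  refine h0 ?_
  have h7 : (2 : L) ≠ 0 := by
    have := (_root_.map_ne_zero (algebraMap ℂ L)).2 (two_ne_zero (α := ℂ))
    rwa [map_ofNat] at this
  exact (mul_eq_zero.1 (by linear_combination -h5 : (2 : L) * (w * r) = 0)).resolve_left h7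

theorem Amb.f1_prod (s : Finset A.Lb) (hs : ∀ q ∈ s, ∃ j, (q : L) = A.p j) :
    A.Un (aeval A.z (∏ c ∈ s, (Polynomial.X - C c))) ∧ aeval A.z (∏ c ∈ s, (Polynomial.X - C c)) ∈ A.K ∧
      ∀ e i, A.Kum e i → (∀ q ∈ s, (q : L) ≠ A.p i) → A.Acts e (aeval A.z (∏ c ∈ s, (Polynomial.X - C c))) 0 := by
  induction s using Finset.induction_on with
  | empty =>
    rw [Finset.prod_empty, map_one]
    refine ⟨A.un_form .inf, one_mem _, fun e _ _ _ => ?_⟩
    simpa using A.acts_const e 1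
  | insert c s hc ih =>
    obtain ⟨h1, h2, h3⟩ := ih fun q hq => hs q (Finset.mem_insert_of_mem hq)
    obtain ⟨j, hj⟩ := hs c (Finset.mem_insert_self _ _)
    have e1 : aeval A.z (Polynomial.X - C c) = A.form (.sec j) := by
      rw [map_sub, aeval_X, aeval_C, Amb.form, ← hj]
      rfl
    rw [Finset.prod_insert hc, map_mul, e1]
    refine ⟨(A.un_form _).mul A h1, mul_mem (A.form_mem _) h2, fun e i he hi => ?_⟩
    have h4 := he.2 j
    rw [if_neg fun h : j = i => hi c (Finset.mem_insert_self _ _) (h ▸ hj)] at h4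
    exact h4.mul_right A (h3 e i he fun q hq => hi q (Finset.mem_insert_of_mem hq)) (A.un_form _)
      (A.om_K (A.form_mem _))

theorem Amb.gen_pi {x : Sec → A.G} (hx : ∀ i, A.Kum (x i) i) {F : IntermediateField A.K L} {a : ℕ}
    (hF : A.Good F a) : A.pi ≤ Subgroup.closure (Set.range x) ⊔ F.fixingSubgroup := by
  by_contra hne
  obtain ⟨hN, hfi, h2⟩ := hF.tw.fix A hF.normal
  have := hF.tw.finite A
  have hxp : Subgroup.closure (Set.range x) ≤ A.pi :=
    (Subgroup.closure_le _).2 (Set.range_subset_iff.2 fun i => (hx i).1)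
  obtain ⟨D, hD1, hD2, hD3, hD4, hD5⟩ := frattini (Subgroup.closure (Set.range x))
    (A.pi ⊔ F.fixingSubgroup) F.fixingSubgroup (hxp.trans le_sup_left) le_sup_right
    (fun g _ h hh => hN.conj_mem h hh g) (h2.imp fun k hk g _ => hk g)
    Subgroup.FiniteIndex.index_ne_zero fun h => hne (le_sup_left.trans h)
  obtain ⟨w, hwF, hw0, hw⟩ := A.kummer _ D hD2 hD3 hD4 hD5
  have h7 : (2 : L) ≠ 0 := by
    have := (_root_.map_ne_zero (algebraMap ℂ L)).2 (two_ne_zero (α := ℂ))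
    rwa [map_ofNat] at this
  have hneg : ∀ y : L, y ≠ 0 → y ≠ -y := fun y hy e =>
    hy ((mul_eq_zero.1 (by linear_combination e : (2 : L) * y = 0)).resolve_left h7)
  have hpm : ∀ g ∈ A.pi, g w = w ∨ g w = -w := fun g hg =>
    (em (g ∈ D)).imp (hw g ((le_sup_left : A.pi ≤ _) hg)).1 (hw g ((le_sup_left : A.pi ≤ _) hg)).2
  obtain ⟨P, Q, hQ, e⟩ := A.fix_Lb (w := w ^ 2) fun g hg => by
    rw [map_pow]
    exact sq_eq_sq_iff_eq_or_eq_neg.2 (hpm g fun a ha _ => hg a ha)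
  have hQ0 := A.f1_ne hQ
  have hP : P ≠ 0 := fun e' => mul_ne_zero (pow_ne_zero 2 hw0) hQ0 (by rw [e, e', map_zero])
  obtain ⟨S, s, hS, e1⟩ := f1_sq (P * Q) (mul_ne_zero hP hQ)
  have hS0 := A.f1_ne hS
  obtain ⟨w', hw'⟩ : ∃ w', w' = w * aeval A.z Q / aeval A.z S := ⟨_, rfl⟩
  obtain ⟨r, hr⟩ : ∃ r, r = aeval A.z S / aeval A.z Q := ⟨_, rfl⟩
  have e2 : w' ^ 2 = aeval A.z (∏ c ∈ s, (Polynomial.X - C c)) := by
    have h1 := congrArg (aeval A.z) e1
    rw [map_mul, map_mul, map_pow, ← e] at h1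
    rw [hw', div_pow, div_eq_iff (pow_ne_zero 2 hS0)]
    linear_combination h1
  have e3 : w' * r = w := by
    rw [hw', hr]
    field_simp
  have hs := A.f1_ram hF e2 (r := r) (hr ▸ div_mem (A.f1_aeval S) (A.f1_aeval Q)) (e3 ▸ hwF)
    (e3 ▸ hw0)
  obtain ⟨u1, u2, -⟩ := A.f1_prod s hs
  have hw'0 : w' ≠ 0 := left_ne_zero_of_mul (e3 ▸ hw0)
  have hr0 : r ≠ 0 := right_ne_zero_of_mul (e3 ▸ hw0)
  have o1 : A.Om w' := Amb.Om.root A (a := 1) (by rw [pow_one, e2]; exact A.om_K u2)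
    (by rw [pow_one, e2]; exact u1)
  have o2 : A.Om r := by
    rw [eq_div_of_mul_eq hw'0 ((mul_comm r w').trans e3)]
    exact A.OmF.div_mem (⟨F, hF.tw, hwF⟩ : A.Om w) o1
  obtain ⟨r₀, b0, n0, k0⟩ := A.eval_sign hr0 hQ (P := S) (by rw [hr, div_mul_cancel₀ _ hQ0])
  have o3 : A.Om r₀ := by
    rw [← A.mem_OmF, ← InfiniteGalois.fixedField_fixingSubgroup A.OmF,
      IntermediateField.mem_fixedField_iff]
    exact fun g hg => (k0 g).1 ((IntermediateField.mem_fixingSubgroup_iff _ _).1 hg r o2)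
  have hfr : ∀ g ∈ A.pi, g r = r := fun g hg => by
    have h1 : (g w') ^ 2 = w' ^ 2 := by rw [← map_pow, e2, A.fixK g u2]
    have h3 : (g w) ^ 2 = w ^ 2 := sq_eq_sq_iff_eq_or_eq_neg.2 (hpm g hg)
    rw [← e3, map_mul, mul_pow, mul_pow, h1, mul_right_inj' (pow_ne_zero 2 hw'0)] at h3
    exact (sq_eq_sq_iff_eq_or_eq_neg.1 h3).resolve_right fun h =>
      hneg r₀ n0 ((hg r₀ b0 o3).symm.trans ((k0 g).2 h))
  have hemp : s = ∅ := by
    refine Finset.eq_empty_of_forall_notMem fun q hq => ?_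
    obtain ⟨j, hj⟩ := hs q hq
    obtain ⟨-, -, u3⟩ := A.f1_prod (s.erase q) fun c hc => hs c (Finset.mem_of_mem_erase hc)
    have h1 := (hx j).2 j
    rw [if_pos rfl] at h1
    have h3 := h1.mul_right A (u3 _ j (hx j) fun c hc e =>
      Finset.ne_of_mem_erase hc (Subtype.ext (e.trans hj.symm))) (A.un_form _)
      (A.om_K (A.form_mem _))
    have h4 := h3 1 w' o1 (by
      rw [pow_one, e2, ← Finset.mul_prod_erase s _ hq, map_mul, map_sub, aeval_X, aeval_C, Amb.form,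
        ← hj]
      rfl)
    rw [add_zero, zpow_one, zt_one, neg_one_mul] at h4
    have h5 := (hw (x j) ((le_sup_left : A.pi ≤ _) (hx j).1)).1
      (hD1 (Subgroup.subset_closure ⟨j, rfl⟩))
    rw [← e3, map_mul, hfr _ (hx j).1, h4, mul_left_inj' hr0] at h5
    exact hneg w' hw'0 h5.symm
  rw [hemp, Finset.prod_empty, map_one] at e2
  obtain ⟨c, -, hc⟩ := root_mem (n := 2) one_le_two e2
  obtain ⟨τ, t1, t2⟩ := hD4
  refine t2 ((sup_le (fun g hg => ?_) hD2 : A.pi ⊔ F.fixingSubgroup ≤ D) t1)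
  by_contra hgD
  have h1 := (hw g ((le_sup_left : A.pi ≤ _) hg)).2 hgD
  have h3 : g w = w := by rw [← e3, map_mul, hfr g hg, hc, A.fixC]
  exact hneg w hw0 (h3.symm.trans h1)

end Vale.Agent.P300
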