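import Vale.Agent.P300.Ine2
import Vale.Agent.P300.X1
import Vale.Agent.P300.Grp

/-! Generation of the base group. Otherwise `frattini` (`B = ⊤`) and `kummer` give `w`, fixed by `pi`, so
in `Lb(z)`; `eval_sign` gives `w₀ ∈ Lb` with the same signs, `w₀ ^ 2 ∈ ℂ(s)` (`mem_K`, `bs_K`); up to
a factor in `ℂ(s)`, `w₀ ^ 2 = ∏ (s - s i)` over a finite set. If `s₁` is not a cusp take `z₁` generic
(`ch_int`), `ram` and `ip_int` contradict. Otherwise `γ j` changes the sign. -/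

open scoped LinearAlgebra.Projectivization Topology Classical Pointwise
open Polynomial

set_option linter.unusedSectionVars false

namespace Vale.Agent.P300

variable {L : Type} [Field L] [Algebra ℂ L] [IsAlgClosed L] (A : Amb L)

theorem frat2_sq (R : ℂ[X]) (hR : R ≠ 0) :
    ∃ (S : ℂ[X]) (T : Finset ℂ), S ≠ 0 ∧ R = S ^ 2 * ∏ r ∈ T, (X - C r) := by
  have key : ∀ m : Multiset ℂ, ∃ (S : ℂ[X]) (T : Finset ℂ), S ≠ 0 ∧
      (m.map fun r => X - C r).prod = S ^ 2 * ∏ r ∈ T, (X - C r) := by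
    intro m
    induction m using Multiset.induction_on with
    | empty => exact ⟨1, ∅, one_ne_zero, by simp⟩
    | cons r m ih =>
      obtain ⟨S, T, hS, e⟩ := ih
      rw [Multiset.map_cons, Multiset.prod_cons, e]
      by_cases hr : r ∈ T
      · refine ⟨S * (X - C r), T.erase r, mul_ne_zero hS (X_sub_C_ne_zero r), ?_⟩
        rw [← Finset.mul_prod_erase T _ hr]
        ring
      · refine ⟨S, insert r T, hS, ?_⟩
        rw [Finset.prod_insert hr]
        ring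
  obtain ⟨S, T, hS, e⟩ := key R.roots
  obtain ⟨c, hc⟩ := IsAlgClosed.exists_pow_nat_eq R.leadingCoeff two_pos
  have hc0 : c ≠ 0 := by
    rintro rfl
    exact hR (leadingCoeff_eq_zero.1 (by rw [← hc]; simp))
  refine ⟨C c * S, T, mul_ne_zero (C_ne_zero.2 hc0) hS, ?_⟩
  rw [mul_pow, ← C_pow, hc, mul_assoc, ← e]
  exact (IsAlgClosed.splits R).eq_prod_roots

theorem Amb.frat2_ne {P : ℂ[X]} (hP : P ≠ 0) : aeval A.s P ≠ 0 := fun e =>
  A.ind.transcendental 0 ⟨P, hP, e⟩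

theorem Amb.frat2_K (P : ℂ[X]) : aeval A.s P ∈ A.K :=
  A.pi_baseK (aeval_mem_adjoin_singleton ℂ A.s)

theorem frat2_neg {w : L} (h : w = -w) : w = 0 := by
  have : CharZero L := charZero_of_injective_algebraMap (algebraMap ℂ L).injective
  exact self_eq_neg.1 h

theorem Amb.frat2_unit {s₁ z₁ : ℂ}
    (hi : AlgebraicIndependent ℂ ![A.s - algebraMap ℂ L s₁, A.z - algebraMap ℂ L z₁])
    (T : Finset ℂ) (hT : s₁ ∉ T) :
    (cl (A.s - algebraMap ℂ L s₁) (A.z - algebraMap ℂ L z₁)).U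
      (∏ r ∈ T, (A.s - algebraMap ℂ L r)) := by
  set x := cl (A.s - algebraMap ℂ L s₁) (A.z - algebraMap ℂ L z₁) with hx
  have hm : x.m (A.s - algebraMap ℂ L s₁) := (cl_m_LPB hi).1
  induction T using Finset.induction_on with
  | empty => exact ⟨x.O.one_mem, by rw [Finset.prod_empty, x.hom.one]; exact one_ne_zero⟩
  | insert r T hr ih =>
    rw [Finset.prod_insert hr]
    refine LP.U.mul ?_ (ih fun h => hT (Finset.mem_insert_of_mem h))
    have e : A.s - algebraMap ℂ L r = (A.s - algebraMap ℂ L s₁) + algebraMap ℂ L (s₁ - r) := by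
      rw [map_sub]
      ring
    rw [e]
    refine ⟨x.O.add_mem hm.1 (x.O.algebraMap_mem _), ?_⟩
    rw [x.hom.add _ hm.1 _ (x.O.algebraMap_mem _), hm.2, x.hom.alg, zero_add, sub_ne_zero]
    rintro rfl
    exact hT (Finset.mem_insert_self _ _)

theorem Amb.frat2_acts {e : A.G} {j : Cusp}
    (h : ∀ j', A.Acts e (A.form (.cusp j')) (if j' = j then 1 else 0)) (T : Finset ℂ)
    (hT : ∀ r ∈ T, ∃ j' : Cusp, r = j'.val) (hj : j.val ∉ T) :
    A.Un (∏ r ∈ T, (A.s - algebraMap ℂ L r)) ∧ A.Acts e (∏ r ∈ T, (A.s - algebraMap ℂ L r)) 0 := by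
  induction T using Finset.induction_on with
  | empty =>
    rw [Finset.prod_empty, ← map_one (algebraMap ℂ L)]
    exact ⟨A.un_const one_ne_zero, A.acts_const e 1⟩
  | insert r T hr ih =>
    obtain ⟨h1, h2⟩ := ih (fun r hr => hT r (Finset.mem_insert_of_mem hr))
      fun h => hj (Finset.mem_insert_of_mem h)
    obtain ⟨j', rfl⟩ := hT r (Finset.mem_insert_self _ _)
    have hne : j' ≠ j := by
      rintro rfl
      exact hj (Finset.mem_insert_self _ _)
    have h3 := h j'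
    rw [if_neg hne] at h3
    rw [Finset.prod_insert hr]
    exact ⟨(A.un_form (.cusp j')).mul A h1,
      h3.mul_right A h2 (A.un_form _) (A.om_K (A.form_mem _))⟩

theorem Amb.gen_G {γ : Cusp → A.G}
    (hγ : ∀ j j', A.Acts (γ j) (A.form (.cusp j')) (if j' = j then 1 else 0))
    {F : IntermediateField A.K L} {a : ℕ} (hF : A.Good F a) :
    ⊤ ≤ A.pi ⊔ Subgroup.closure (Set.range γ) ⊔ F.fixingSubgroup := by
  by_contra hcon
  obtain ⟨hN, hfi, h2⟩ := hF.tw.fix A hF.normal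
  have := hF.tw.finite A
  obtain ⟨C, hAC, hNC, -, ⟨τ, -, hτ⟩, hC⟩ := frattini (A.pi ⊔ Subgroup.closure (Set.range γ)) ⊤
    F.fixingSubgroup le_top le_top (fun g _ h hh => hN.conj_mem h hh g)
    ⟨h2.choose, fun g _ => h2.choose_spec g⟩
    (by rw [Subgroup.relIndex_top_right]; exact hfi.index_ne_zero) hcon
  obtain ⟨w, -, hw0, hw⟩ := A.kummer ⊤ C hNC le_top ⟨τ, trivial, hτ⟩ hC
  obtain ⟨P, Q, hQ, hPQ⟩ := A.fix_Lb (w := w) fun g hg =>
    (hw g trivial).1 (hAC (Subgroup.mem_sup_left fun a ha _ => hg a ha))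
  obtain ⟨w₀, hb, h0, hs⟩ := A.eval_sign hw0 hQ hPQ
  have s1 : ∀ g ∈ C, g w₀ = w₀ := fun g hg => (hs g).1 ((hw g trivial).1 hg)
  have s2 : ∀ g ∉ C, g w₀ = -w₀ := fun g hg => (hs g).2 ((hw g trivial).2 hg)
  have hK : w₀ * w₀ ∈ A.K := A.mem_K fun g => by
    by_cases hg : g ∈ C
    · rw [map_mul, s1 g hg]
    · rw [map_mul, s2 g hg, neg_mul_neg]
  obtain ⟨P₁, Q₁, hQ₁, e₁⟩ := A.bs_K (A.mem_Lb.1 (A.Lb.mul_mem hb hb)) hK
  have hP₁ : P₁ ≠ 0 := by
    rintro rfl
    rw [map_zero] at e₁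
    exact mul_ne_zero (mul_ne_zero h0 h0) (A.frat2_ne hQ₁) e₁
  obtain ⟨S, T, hS, e₂⟩ := frat2_sq (P₁ * Q₁) (mul_ne_zero hP₁ hQ₁)
  have hS' := A.frat2_ne hS
  obtain ⟨y, hy⟩ : ∃ y, y = w₀ * (aeval A.s Q₁ / aeval A.s S) := ⟨_, rfl⟩
  have hy0 : y ≠ 0 := hy ▸ mul_ne_zero h0 (div_ne_zero (A.frat2_ne hQ₁) hS')
  have hq : aeval A.s Q₁ / aeval A.s S ∈ A.K := A.K.div_mem (A.frat2_K _) (A.frat2_K _)
  have t1 : ∀ g ∈ C, g y = y := fun g hg => by rw [hy, map_mul, s1 g hg, A.fixK g hq]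
  have t2 : τ y = -y := by rw [hy, map_mul, s2 τ hτ, A.fixK τ hq, neg_mul]
  have hy2 : y ^ 2 = ∏ r ∈ T, (A.s - algebraMap ℂ L r) := by
    have e₃ := congrArg (aeval A.s) e₂
    simp only [map_mul, map_pow, map_prod, map_sub, aeval_X, aeval_C] at e₃
    rw [← e₁] at e₃
    rw [hy]
    field_simp
    linear_combination e₃
  by_cases hT : ∀ r ∈ T, ∃ j : Cusp, r = j.val
  · rcases T.eq_empty_or_nonempty with rfl | ⟨r, hr⟩
    · rw [Finset.prod_empty, sq_eq_one_iff] at hy2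
      refine hy0 (frat2_neg ?_)
      rw [← t2]
      rcases hy2 with h | h <;> simp [h]
    · obtain ⟨j, rfl⟩ := hT r hr
      obtain ⟨u1, u2⟩ := A.frat2_acts (hγ j) (T.erase j.val)
        (fun r hr => hT r (Finset.mem_of_mem_erase hr)) (Finset.notMem_erase _ _)
      have u3 := hγ j j
      rw [if_pos rfl] at u3
      have u4 := u3.mul_right A u2 (A.un_form _) (A.om_K (A.form_mem _))
      have u5 := (A.un_form (.cusp j)).mul A u1
      have u6 : y ^ 2 ^ 1 = A.form (.cusp j) * ∏ r ∈ T.erase j.val, (A.s - algebraMap ℂ L r) := by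
        rw [pow_one, hy2, ← Finset.mul_prod_erase T _ hr]
        rfl
      have u7 : y ^ 2 ^ 1 ∈ A.K := by
        rw [pow_one, hy2]
        exact A.K.prod_mem fun r _ => A.K.sub_mem A.pi_sK (A.K.algebraMap_mem r)
      have u8 := u4 1 y ((A.om_K u7).root A (u6 ▸ u5)) u6
      rw [t1 _ (hAC (Subgroup.mem_sup_right (Subgroup.subset_closure ⟨j, rfl⟩))), zt_one] at u8
      exact hy0 (frat2_neg (by simpa using u8))
  · push Not at hT
    obtain ⟨s₁, hs₁, hc⟩ := hT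
    obtain ⟨z₁, hz⟩ := Infinite.exists_notMem_finset
      (insert 0 (Finset.univ.image muC ∪ Finset.univ.image fun a => muC a * s₁))
    simp only [Finset.mem_insert, Finset.mem_union, Finset.mem_image, Finset.mem_univ, true_and,
      not_or, not_exists] at hz
    have hch := A.ch_int hc hz.1 (fun a h => hz.2.1 a h.symm) fun a h => hz.2.2 a h.symm
    obtain ⟨P, hP⟩ := exists_ab (cl (A.s - algebraMap ℂ L s₁) (A.z - algebraMap ℂ L z₁))
    obtain ⟨g, hg, hgy⟩ := A.ram hch.ind hch.gen hP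
      (A.frat2_unit hch.ind (T.erase s₁) (Finset.notMem_erase _ _)) (w := y)
      (by rw [hy2, ← Finset.mul_prod_erase T _ hs₁, mul_comm])
    rw [t1 g (hNC (A.ip_int hF hch hP (hg.mono A le_top)))] at hgy
    exact hy0 (frat2_neg hgy)

end Vale.Agent.P300
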