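import Vale.Agent.P300.X1

/-! Charts, part 2: which valuation rings lie over which branch (`Over.change`, `VU` calculus).
Table for `fib_str`: cusp `b`: section `0` meets the main line at `(s - b, z)`; the sections `z = a` and
`z = μ(a - b) s` meet the bubble `fin b a` at `(z - μ(a-b) s, (z - a) / (z - μ(a-b) s))` and
`(z - a, (z - μ(a-b) s) / (z - a))`. Cusp `0`: main `(s, z - a)`; bubble `(s, z / s)`,
`(s, (z - a s) / s)`. Cusp `∞`: main `(1 / s, (z - a s) / s)`; bubble `(1 / s, z)`, `(1 / s, z - a)`. -/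

open scoped LinearAlgebra.Projectivization Topology Classical Pointwise
open Polynomial

set_option linter.unusedSectionVars false

namespace Vale.Agent.P300

variable {L : Type} [Field L] [Algebra ℂ L] [IsAlgClosed L] (A : Amb L)

theorem Over.x2_sub {V : ValuationSubring L} {u v : L} (h : Over V u v) (d : ℂ) :
    VU V (v - algebraMap ℂ L d) := by
  have := val_lin h (c := 1) (d := -d) (by simp)
  simpa [sub_eq_add_neg] using this

theorem Over.x2_vu {V : ValuationSubring L} {u v : L} (h : Over V u v) : VU V v := by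
  simpa using h.x2_sub 0

theorem Over.x2_u {V : ValuationSubring L} {u v u' : L} (h : Over V u v) (hu : u' ∈ V.nonunits) :
    Over V u' v := ⟨h.alg, hu, h.hv, h.tr⟩

theorem Over.x2_mob {V : ValuationSubring L} {u v v' n : L} (h : Over V u v) (a b c d : ℂ)
    (hd : a * d - b * c ≠ 0) (hn : n ∈ V.nonunits)
    (e : (algebraMap ℂ L c * v + algebraMap ℂ L d) * v' - (algebraMap ℂ L a * v + algebraMap ℂ L b)
      = n) : Over V u v' := h.change h.hu hd (e ▸ hn)

theorem Over.x2_shift {V : ValuationSubring L} {u v : L} (h : Over V u v) (y : ℂ) :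
    Over V u (v - algebraMap ℂ L y) :=
  h.x2_mob 1 (-y) 0 1 (by simp) V.nonunits.zero_mem (by simp [sub_eq_add_neg])

theorem Over.x2_inv {V : ValuationSubring L} {u v : L} (h : Over V u v) (hv : v ≠ 0) :
    Over V u v⁻¹ :=
  h.x2_mob 0 1 1 0 (by simp) V.nonunits.zero_mem (by simp [hv])

theorem Over.x2_uv {V : ValuationSubring L} {u v : L} (h : Over V u v) : u * v ∈ V.nonunits := by
  rw [mul_comm]; exact val_nu_mul h.hv h.hu

theorem x2_mu_ne (a : Mu) : mu L a ≠ 0 := (_root_.map_ne_zero _).2 (muC_ne a)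

theorem Amb.x2_s : A.s ≠ 0 := by simpa [Amb.form, Cusp.val] using A.form_ne (.cusp .zero)

theorem Amb.x2_z : A.z ≠ 0 := by simpa [Amb.form, Amb.p] using A.form_ne (.sec .zero)

theorem Amb.x2_c (a : Mu) : A.z - mu L a ≠ 0 := A.form_ne (.sec (.cst a))

theorem Amb.x2_d (a : Mu) : A.z - mu L a * A.s ≠ 0 := A.form_ne (.sec (.dia a))

theorem Amb.x2_nc1 (n : Nd) : (A.nc n).1 ≠ 0 := (Amb.Rat.un A ((A.ch_nc n).ru rfl)).1.1

theorem Amb.x2_nc2 (n : Nd) : (A.nc n).2 ≠ 0 := (Amb.Rat.un A ((A.ch_nc n).rv rfl)).1.1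

theorem Amb.over_nc (n : Nd) (V : ValuationSubring L) :
    Over V (A.mc n.cusp).1 (A.mc n.cusp).2 ↔ Over V (A.nc n).1 (A.nc n).2 := by
  obtain ⟨y, hy⟩ : ∃ y : ℂ, (A.nc n).2 = (A.mc n.cusp).2 - algebraMap ℂ L y := by
    cases n with
    | zero => exact ⟨0, by simp [Amb.nc, Amb.mc, Nd.cusp]⟩
    | inf => exact ⟨0, by simp [Amb.nc, Amb.mc, Nd.cusp]⟩
    | fin b a => exact ⟨muC a, rfl⟩
  constructor
  · intro h
    have h1 := h.x2_shift y
    rw [← hy] at h1
    refine h1.x2_u ?_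
    have e : (A.nc n).1 = (A.nc n).2⁻¹ * (A.mc n.cusp).1 := by
      rw [← A.nc_mul n]; field_simp [A.x2_nc2 n]
    rw [e]
    exact val_nu_mul h1.x2_vu.inv.1 h.hu
  · intro h
    have h1 := h.x2_shift (-y)
    rw [hy, map_neg, sub_neg_eq_add, sub_add_cancel] at h1
    refine h1.x2_u ?_
    rw [← A.nc_mul n]; exact h.x2_uv

/-- slope and constant term of a section -/
noncomputable def x2_co : Sec → ℂ × ℂ
  | .zero => (0, 0)
  | .cst a => (0, muC a)
  | .dia a => (muC a, 0)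

theorem Amb.x2_p (i : Sec) :
    A.p i = algebraMap ℂ L (x2_co i).1 * A.s + algebraMap ℂ L (x2_co i).2 := by
  cases i <;> simp [Amb.p, x2_co, mu]

theorem x2_co_inj {i j : Sec} (h : x2_co i = x2_co j) : i = j := by
  cases i <;> cases j <;> simp [x2_co, muC_ne, (muC_ne _).symm, muC_inj.eq_iff] at h ⊢ <;> exact h

theorem Amb.x2_hb {u v : L} {i : Sec} (hu : u ≠ 0)
    (h : ∀ V, Over V u v → Over V u A.s ∧ VU V (A.form (.sec i) / u)) : A.HB u v (some i) := by
  intro V hV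
  obtain ⟨h1, h2⟩ := h V hV
  refine ⟨fun P hP => val_tr h1.alg h1.x2_sub hP, fun j => ?_⟩
  show VU V (if j = i then _ else _)
  split_ifs with e
  · rw [e]; exact h2
  · have h3 := val_lin h1 (c := (x2_co i).1 - (x2_co j).1) (d := (x2_co i).2 - (x2_co j).2)
      fun k => e (x2_co_inj (Prod.ext (sub_eq_zero.1 k.1) (sub_eq_zero.1 k.2))).symm
    have h4 := h3.add (val_nu_mul h2.1 hV.hu)
    convert h4 using 1
    rw [div_mul_cancel₀ _ hu]
    simp only [Amb.form, A.x2_p, map_sub]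
    ring

theorem Amb.x2_hbc {a b c : Mu} (e : a = c + b) :
    A.HB ((A.z - mu L a) / (A.z - mu L c * A.s)) (A.z - mu L c * A.s) (some (.cst a)) := by
  have _ := e
  have h1 := A.x2_c a
  have h2 := A.x2_d c
  refine A.x2_hb (div_ne_zero h1 h2) fun V hV => ⟨?_, ?_⟩
  · refine hV.x2_mob (-1) (muC a) 0 (muC c) (by simpa using muC_ne c) hV.x2_uv ?_
    rw [div_mul_cancel₀ _ h2]
    simp [mu]
    ring
  · convert hV.x2_vu using 1
    show (A.z - mu L a) / _ = _
    field_simp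

theorem Amb.x2_hbd {a b c : Mu} (e : a = c + b) :
    A.HB ((A.z - mu L c * A.s) / (A.z - mu L a)) (A.z - mu L a) (some (.dia c)) := by
  have _ := e
  have h1 := A.x2_c a
  have h2 := A.x2_d c
  refine A.x2_hb (div_ne_zero h2 h1) fun V hV => ⟨?_, ?_⟩
  · refine hV.x2_mob 1 (muC a) 0 (muC c) (by simpa using muC_ne c) (V.nonunits.neg_mem hV.x2_uv) ?_
    rw [div_mul_cancel₀ _ h1]
    simp [mu]
  · convert hV.x2_vu using 1
    show (A.z - mu L c * A.s) / _ = _
    field_simp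

theorem x2_one {V : ValuationSubring L} : VU V 1 := vu_iff.2 (map_one _)

theorem Amb.x2_hb1 {u v : L} {i : Sec} (e : A.form (.sec i) = u)
    (h : ∀ V, Over V u v → Over V u A.s) : A.HB u v (some i) := by
  have hu : u ≠ 0 := e ▸ A.form_ne _
  exact A.x2_hb hu fun V hV => ⟨h V hV, by rw [e, div_self hu]; exact x2_one⟩

theorem Amb.x2_hbs {u v : L} {i : Sec} (e : A.form (.sec i) / A.s = u)
    (h : ∀ V, Over V u v → Over V u A.s) : A.HB u v (some i) := by
  have hu : u ≠ 0 := e ▸ div_ne_zero (A.form_ne _) A.x2_s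
  refine A.x2_hb hu fun V hV => ⟨h V hV, ?_⟩
  convert (h V hV).x2_vu using 1
  rw [← e]
  field_simp [A.form_ne (.sec i), A.x2_s]

theorem Over.x2_add {V : ValuationSubring L} {u v : L} {y : ℂ}
    (h : Over V u (v - algebraMap ℂ L y)) : Over V u v := by
  simpa using h.x2_shift (-y)

theorem Amb.x2_si {V : ValuationSubring L} {u : L} (h : Over V u A.s⁻¹) : Over V u A.s := by
  simpa using h.x2_inv (inv_ne_zero A.x2_s)

theorem Amb.hb_hc (i : Option Sec) : A.HB (A.hc i).2 (A.hc i).1 i := by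
  rcases i with _ | _ | a | a
  · intro V hV
    have h1 : Over V A.z⁻¹ A.s := Over.x2_add (y := 1) (by simpa [Amb.hc] using hV)
    refine ⟨fun P hP => val_tr h1.alg h1.x2_sub hP, fun j => ?_⟩
    have h2 : -A.p j ∈ V := by
      rw [A.x2_p]
      exact V.neg_mem _ (V.add_mem _ _ (V.mul_mem _ _ (h1.alg _) h1.hv) (h1.alg _))
    have h3 := x2_one.add (val_nu_mul h2 h1.hu)
    show VU V ((A.z - A.p j) * A.z⁻¹)
    convert h3 using 1
    field_simp [A.x2_z]
    ring
  · exact A.x2_hb1 (by simp [Amb.hc, Amb.form, Amb.p]) fun V hV =>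
      Over.x2_add (y := 1) (by simpa [Amb.hc] using hV)
  · exact A.x2_hbc (b := 0) (add_zero a).symm
  · exact A.x2_hbd (b := 0) (add_zero a).symm

/-- a unit times a monomial -/
def x2_Mon (u v a : L) : Prop := ∃ (i j : ℤ) (ε : L), (cl u v).U ε ∧ a = ε * u ^ i * v ^ j

/-- coefficient patterns of monomial type -/
def x2_H (a b c d : ℂ) : Prop := a ≠ 0 ∨ (c = 0 ∧ (b ≠ 0 ∨ d ≠ 0)) ∨ (b = 0 ∧ c ≠ 0)

/-- bilinear expressions -/
noncomputable def x2_E (u v : L) (a b c d : ℂ) : L :=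
  algebraMap ℂ L a + algebraMap ℂ L b * u + algebraMap ℂ L c * v + algebraMap ℂ L d * (u * v)

theorem x2_unit {u v : L} (h : AlgebraicIndependent ℂ ![u, v]) {a : ℂ} (ha : a ≠ 0) (b c d : ℂ) :
    (cl u v).U (x2_E u v a b c d) := by
  obtain ⟨hu, hv⟩ := cl_m_LPB h
  have hc := (cl u v).O.algebraMap_mem
  have m := ((hu.mul_left (hc b)).add (hv.mul_left (hc c))).add ((hv.mul_left hu.1).mul_left (hc d))
  have e : x2_E u v a b c d = algebraMap ℂ L a + (algebraMap ℂ L b * u + algebraMap ℂ L c * v +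
      algebraMap ℂ L d * (u * v)) := by rw [x2_E]; ring
  rw [e]
  refine ⟨add_mem (hc a) m.1, ?_⟩
  rw [(cl u v).hom.add _ (hc a) _ m.1, m.2, add_zero, (cl u v).hom.alg]
  exact ha

theorem x2_mon {u v : L} (h : AlgebraicIndependent ℂ ![u, v]) {a b c d : ℂ} (H : x2_H a b c d) :
    x2_Mon u v (x2_E u v a b c d) := by
  by_cases ha : a = 0
  swap
  · exact ⟨0, 0, _, x2_unit h ha b c d, by simp⟩
  subst ha
  rcases H with H | ⟨rfl, H⟩ | ⟨rfl, H⟩
  · exact absurd rfl H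
  · by_cases hb : b = 0
    · subst hb
      exact ⟨1, 1, _, x2_unit h (H.resolve_left fun k => k rfl) 0 0 0, by simp [x2_E, mul_assoc]⟩
    · exact ⟨1, 0, _, x2_unit h hb 0 d 0, by simp [x2_E]; ring⟩
  · exact ⟨0, 1, _, x2_unit h H d 0 0, by simp [x2_E]; ring⟩

theorem Amb.x2_ch {u v : L} (hu : A.Rat u) (hv : A.Rat v) (k : Bool)
    (s1 s2 s3 s4 z1 z2 z3 z4 : ℂ)
    (hs : A.s * (if k then u else 1) = x2_E u v s1 s2 s3 s4)
    (hz : A.z * (if k then u else 1) = x2_E u v z1 z2 z3 z4)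
    (H1 : ∀ y : ℂ, x2_H (s1 - if k then 0 else y) (s2 - if k then y else 0) s3 s4)
    (H2 : x2_H z1 z2 z3 z4)
    (H3 : ∀ a, x2_H (z1 - if k then 0 else muC a) (z2 - if k then muC a else 0) z3 z4)
    (H4 : ∀ a, x2_H (z1 - muC a * s1) (z2 - muC a * s2) (z3 - muC a * s3) (z4 - muC a * s4)) :
    A.Ch u v true true := by
  have u0 : u ≠ 0 := (Amb.Rat.un A hu).1.1
  have w0 : (if k then u else 1) ≠ 0 := by split_ifs <;> simp [u0]
  have gen : IntermediateField.adjoin ℂ {u, v} = A.K := by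
    refine le_antisymm (IntermediateField.adjoin_le_iff.2 ?_) (IntermediateField.adjoin_le_iff.2 ?_)
    · rintro _ (rfl | rfl)
      · exact (Amb.Rat.un A hu).2
      · exact (Amb.Rat.un A hv).2
    · have m1 : u ∈ IntermediateField.adjoin ℂ {u, v} :=
        IntermediateField.subset_adjoin _ _ (Or.inl rfl)
      have m2 : v ∈ IntermediateField.adjoin ℂ {u, v} :=
        IntermediateField.subset_adjoin _ _ (Or.inr rfl)
      have mc := (IntermediateField.adjoin ℂ {u, v}).algebraMap_mem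
      have m3 : ∀ a b c d, x2_E u v a b c d / (if k then u else 1) ∈
          IntermediateField.adjoin ℂ {u, v} := fun a b c d =>
        div_mem (add_mem (add_mem (add_mem (mc a) (mul_mem (mc b) m1)) (mul_mem (mc c) m2))
          (mul_mem (mc d) (mul_mem m1 m2))) (by split_ifs; exacts [m1, one_mem _])
      rintro _ (rfl | rfl)
      · rw [eq_div_of_mul_eq w0 hs]; exact m3 _ _ _ _
      · rw [eq_div_of_mul_eq w0 hz]; exact m3 _ _ _ _
  have ind := A.ind_of_gen gen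
  have key : ∀ {f : L} {a b c d : ℂ}, x2_H a b c d → f * (if k then u else 1) = x2_E u v a b c d →
      x2_Mon u v f := fun {f a b c d} H e => by
    obtain ⟨i, j, ε, h1, h2⟩ := x2_mon ind H
    rw [← e] at h2
    cases k with
    | false => exact ⟨i, j, ε, h1, by simpa using h2⟩
    | true =>
      refine ⟨i - 1, j, ε, h1, ?_⟩
      rw [zpow_sub_one₀ u0, eq_div_of_mul_eq w0 h2]
      simp only [if_true]
      field_simp
  have all : ∀ l, x2_Mon u v (A.form l) := by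
    rintro (_ | j | _ | a | a)
    · exact ⟨0, 0, _, x2_unit ind one_ne_zero 0 0 0, by simp [x2_E, Amb.form]⟩
    · refine key (H1 j.val) ?_
      rw [Amb.form, sub_mul, hs]
      cases k <;> simp [x2_E] <;> ring
    · exact key H2 (by rw [← hz]; simp [Amb.form, Amb.p])
    · refine key (H3 a) ?_
      rw [Amb.form, sub_mul, hz]
      cases k <;> simp [x2_E, Amb.p, mu] <;> ring
    · refine key (H4 a) ?_
      rw [Amb.form, sub_mul, hz, Amb.p, mul_assoc, hs]
      simp only [x2_E, mu, map_sub, map_mul]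
      ring
  exact A.ch_of gen (fun _ => hu) (fun _ => hv) fun l => by
    obtain ⟨i, j, ε, h1, h2⟩ := all l
    exact ⟨i, j, ε, h1, h2, nofun, nofun⟩

theorem Amb.x2_bub {a b c : Mu} (e : a = c + b) {V : ValuationSubring L}
    (h : Over V (A.nc (.fin b a)).2 (A.nc (.fin b a)).1) :
    Over V (A.z - mu L a) ((A.z - mu L c * A.s) / (A.z - mu L a)) ∧
      Over V (A.z - mu L c * A.s) ((A.z - mu L a) / (A.z - mu L c * A.s)) := by
  have h1 := A.x2_c a
  have h2 := A.x2_d c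
  have h3 : Over V (A.z - mu L a) ((A.z - mu L c * A.s) / (A.z - mu L a)) := by
    refine h.x2_mob (-muC c) 1 0 1 (by simpa using muC_ne c) V.nonunits.zero_mem ?_
    have e' : mu L a = mu L c * mu L b := by rw [e, mu, muC_add, map_mul]; rfl
    have e2 : algebraMap ℂ L (muC c) = mu L c := rfl
    simp only [Amb.nc, map_zero, map_one, map_neg, e2]
    field_simp
    rw [e']; ring
  refine ⟨h3, ?_⟩
  have h4 := (h3.x2_inv (div_ne_zero h2 h1)).x2_u h3.x2_uv
  rwa [inv_div, mul_div_cancel₀ _ h1] at h4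

theorem Amb.fib_str (j : Option Cusp) (i : Sec) : ∃ u v, A.Ch u v true true ∧ A.HB v u (some i) ∧
    ((∀ V, Over V (A.mc j).1 (A.mc j).2 → Over V u v) ∨
      ∃ n : Nd, n.cusp = j ∧ ∀ V, Over V (A.nc n).2 (A.nc n).1 → Over V u v) := by
  have hs := A.x2_s
  have hz := A.x2_z
  have rs : A.Rat A.s := ⟨.cusp .zero, .inf, by simp [Amb.form, Cusp.val]⟩
  have ri : A.Rat A.s⁻¹ := ⟨.inf, .cusp .zero, by simp [Amb.form, Cusp.val]⟩
  have r1 : ∀ i, A.Rat (A.form (.sec i)) := fun i => ⟨.sec i, .inf, by simp [Amb.form]⟩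
  have r2 : ∀ i, A.Rat (A.form (.sec i) / A.s) := fun i =>
    ⟨.sec i, .cusp .zero, by simp [Amb.form, Cusp.val]⟩
  have inf : ∀ (i : Sec) (κ : ℂ), A.p i = algebraMap ℂ L κ → ∃ u v, A.Ch u v true true ∧
      A.HB v u (some i) ∧ ∀ V, Over V (A.nc .inf).2 (A.nc .inf).1 → Over V u v := fun i κ e => by
    refine ⟨A.s⁻¹, A.form (.sec i), A.x2_ch ri (r1 i) true 1 0 0 0 0 κ 0 1 ?_ ?_ ?_ ?_ ?_ ?_,
      A.x2_hb1 rfl fun V => A.x2_si, fun V hV => ?_⟩
    · simp [x2_E, hs]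
    · simp [x2_E, Amb.form, e]; ring
    all_goals try simp [x2_H, muC_ne]
    have h1 := (hV.x2_inv (A.x2_nc1 .inf)).x2_u hV.x2_uv
    rw [mul_comm, A.nc_mul] at h1
    rw [Amb.form, e]
    refine Over.x2_shift ?_ κ
    simpa [Amb.nc, Amb.mc, Nd.cusp] using h1
  have zer : ∀ (i : Sec) (κ : ℂ), A.p i = algebraMap ℂ L κ * A.s → ∃ u v, A.Ch u v true true ∧
      A.HB v u (some i) ∧ ∀ V, Over V (A.nc .zero).2 (A.nc .zero).1 → Over V u v := fun i κ e => by
    refine ⟨A.s, A.form (.sec i) / A.s, A.x2_ch rs (r2 i) false 0 1 0 0 0 κ 0 1 ?_ ?_ ?_ ?_ ?_ ?_,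
      A.x2_hbs rfl fun V h => h, fun V hV => ?_⟩
    · simp [x2_E]
    · simp [x2_E, Amb.form, e]; field_simp; ring
    all_goals try simp [x2_H, muC_ne]
    have h1 := (hV.x2_inv (A.x2_nc1 .zero)).x2_u hV.x2_uv
    rw [mul_comm, A.nc_mul] at h1
    have h2 : Over V A.s (A.z / A.s) := by
      simpa [Amb.nc, Amb.mc, Nd.cusp, Amb.form, Cusp.val] using h1
    convert h2.x2_shift κ using 1
    rw [Amb.form, e]; field_simp
  rcases j with _ | _ | b
  · rcases i with _ | a | a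
    · obtain ⟨u, v, h1, h2, h3⟩ := inf .zero 0 (by simp [Amb.p])
      exact ⟨u, v, h1, h2, Or.inr ⟨.inf, rfl, h3⟩⟩
    · obtain ⟨u, v, h1, h2, h3⟩ := inf (.cst a) (muC a) rfl
      exact ⟨u, v, h1, h2, Or.inr ⟨.inf, rfl, h3⟩⟩
    · refine ⟨A.s⁻¹, A.form (.sec (.dia a)) / A.s,
        A.x2_ch ri (r2 _) true 1 0 0 0 (muC a) 0 1 0 ?_ ?_ ?_ ?_ ?_ ?_,
        A.x2_hbs rfl fun V => A.x2_si, Or.inl fun V hV => ?_⟩
      · simp [x2_E, hs]
      · simp [x2_E, Amb.form, Amb.p, mu]; field_simp; ring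
      all_goals try simp [x2_H, muC_ne]
      convert Over.x2_shift (u := A.s⁻¹) (v := A.z / A.s) hV (muC a) using 1
      simp only [Amb.form, Amb.p, mu]; field_simp
  · rcases i with _ | a | a
    · obtain ⟨u, v, h1, h2, h3⟩ := zer .zero 0 (by simp [Amb.p])
      exact ⟨u, v, h1, h2, Or.inr ⟨.zero, rfl, h3⟩⟩
    · refine ⟨A.s, A.form (.sec (.cst a)),
        A.x2_ch rs (r1 _) false 0 1 0 0 (muC a) 0 1 0 ?_ ?_ ?_ ?_ ?_ ?_,
        A.x2_hb1 rfl fun V h => h, Or.inl fun V hV => ?_⟩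
      · simp [x2_E]
      · simp [x2_E, Amb.form, Amb.p, mu]
      all_goals try simp [x2_H, muC_ne]
      refine Over.x2_shift ?_ (muC a)
      simpa [Amb.mc, Amb.form, Cusp.val] using hV
    · obtain ⟨u, v, h1, h2, h3⟩ := zer (.dia a) (muC a) rfl
      exact ⟨u, v, h1, h2, Or.inr ⟨.zero, rfl, h3⟩⟩
  · rcases i with _ | a | c
    · refine ⟨A.form (.cusp (.cst b)), A.z,
        A.x2_ch ⟨.cusp (.cst b), .inf, by simp [Amb.form]⟩
          ⟨.sec .zero, .inf, by simp [Amb.form, Amb.p]⟩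
          false (muC b) 1 0 0 0 0 1 0 ?_ ?_ ?_ ?_ ?_ ?_,
        A.x2_hb1 (by simp [Amb.form, Amb.p]) fun V h => h.x2_add, Or.inl fun V hV => hV⟩
      · simp [x2_E, Amb.form, Cusp.val]
      · simp [x2_E]
      all_goals simp [x2_H, muC_ne]
    · obtain ⟨c, e⟩ : ∃ c, a = c + b := ⟨a - b, (sub_add_cancel a b).symm⟩
      have e' : mu L a = mu L c * mu L b := by rw [e, mu, muC_add, map_mul]; rfl
      have h2 := A.x2_d c
      have h3 := x2_mu_ne (L := L) c
      refine ⟨_, _, A.x2_ch (r1 (.dia c)) ⟨.sec (.cst a), .sec (.dia c), rfl⟩ false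
          (muC b) (-(muC c)⁻¹) 0 (muC c)⁻¹ (muC a) 0 0 1 ?_ ?_ ?_ ?_ ?_ ?_,
        A.x2_hbc e, Or.inr ⟨.fin b a, rfl, fun V hV => (A.x2_bub e hV).2⟩⟩
      · simp only [x2_E, Amb.form, Amb.p, map_neg, map_inv₀, map_zero]
        change _ = mu L b + -(mu L c)⁻¹ * _ + _ + (mu L c)⁻¹ * _
        rw [mul_div_cancel₀ _ h2, e']
        simp only [Bool.false_eq_true, if_false]
        field_simp
        ring
      · simp only [x2_E, Amb.form, Amb.p, map_one, map_zero]
        change _ = mu L a + _ + _ + _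
        simp only [Bool.false_eq_true, if_false]
        field_simp
        ring
      all_goals simp [x2_H, muC_ne]
    · obtain ⟨a, e⟩ : ∃ a, a = c + b := ⟨_, rfl⟩
      have e' : mu L a = mu L c * mu L b := by rw [e, mu, muC_add, map_mul]; rfl
      have h2 := A.x2_c a
      have h3 := x2_mu_ne (L := L) c
      refine ⟨_, _, A.x2_ch (r1 (.cst a)) ⟨.sec (.dia c), .sec (.cst a), rfl⟩ false
          (muC b) (muC c)⁻¹ 0 (-(muC c)⁻¹) (muC a) 1 0 0 ?_ ?_ ?_ ?_ ?_ ?_,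
        A.x2_hbd e, Or.inr ⟨.fin b a, rfl, fun V hV => (A.x2_bub e hV).1⟩⟩
      · simp only [x2_E, Amb.form, Amb.p, map_neg, map_inv₀, map_zero]
        change _ = mu L b + (mu L c)⁻¹ * _ + _ + -(mu L c)⁻¹ * _
        simp only [Bool.false_eq_true, if_false]
        field_simp
        rw [e']
        ring
      · simp [x2_E, Amb.form, Amb.p, mu]
      all_goals simp [x2_H, muC_ne]

theorem Amb.over_main {V : ValuationSubring L} (h : Over V (A.s - 1) A.z) :
    Over V (A.hc none).1 (A.hc none).2 ∧ (∀ a, Over V (A.nc (.fin 0 a)).1 (A.nc (.fin 0 a)).2) ∧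
      ∀ y : ℂ, Over V (A.s - 1) (A.z - algebraMap ℂ L y) :=
  ⟨h.x2_inv A.x2_z, fun a => (A.over_nc (.fin 0 a) V).1 (by rw [Nd.cusp, A.mc_one]; exact h),
    h.x2_shift⟩

theorem Amb.over_bub (a : Mu) {V : ValuationSubring L}
    (h : Over V (A.nc (.fin 0 a)).2 (A.nc (.fin 0 a)).1) :
    Over V (A.z - mu L a) (A.yb a) ∧ Over V (A.hc (some (.cst a))).1 (A.hc (some (.cst a))).2 ∧
      ∀ y : ℂ, Over V (A.z - mu L a) (A.yb a - algebraMap ℂ L y) :=
  have h1 := A.x2_bub (add_zero a).symm h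
  ⟨h1.1, h1.2, h1.1.x2_shift⟩

/-- on a main component the other cusp forms are units -/
theorem Amb.cusp_unit {j j' : Cusp} (h : j' ≠ j) {V : ValuationSubring L}
    (hV : Over V (A.mc (some j)).1 (A.mc (some j)).2) : VU V (A.form (.cusp j')) := by
  have h1 : j.val - j'.val ≠ 0 := by
    rw [sub_ne_zero]
    cases j <;> cases j' <;> simp [Cusp.val, muC_ne, (muC_ne _).symm, muC_inj.eq_iff] at h ⊢
    exact fun e => h e.symm
  convert (VU.const hV.alg h1).add hV.hu using 1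
  simp [Amb.mc, Amb.form]

theorem Amb.nc_unit (n : Nd) {V : ValuationSubring L} (hV : Over V (A.nc n).1 (A.nc n).2) :
    VU V ((A.mc n.cusp).1 / (A.nc n).1) := by
  rw [← A.nc_mul n, mul_div_cancel_left₀ _ (A.x2_nc1 n)]
  exact hV.x2_vu

theorem Amb.ver_nc (n : Nd) : A.Ver (A.nc n).1 (A.nc n).2 ∧ A.Ver (A.nc n).2 (A.nc n).1 := by
  refine ⟨Or.inl ⟨n.cusp, fun V hV => ⟨(A.over_nc n V).2 hV, A.nc_unit n hV⟩⟩,
    Or.inr ⟨n, fun V hV => ⟨hV, ?_⟩⟩⟩
  rw [← A.nc_mul n, mul_div_cancel_right₀ _ (A.x2_nc2 n)]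
  exact hV.x2_vu

end Vale.Agent.P300
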