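import Vale.Agent.P300.Ine2
import Vale.Agent.P300.X2

/-! Inertia elements in the fibre group. `hb_*`: take `V` over the branch `v = 0` through `P`
(`exists_over_on`, `Fr.swap`, `fr_ivo`), `pi_of_ivo`, `acts_of_ratio`, `acts_unit`.
`node_pi`: let `l` be `Bs` and `Om`, in a good level `F`; `τ' = u' v'` is a root of `τ = u v`, fixed by
`c = e₁ e₂⁻¹`. Every `Bs` element of `S = res F` is a constant modulo `u'` (its residue in the domain
`S / u'` is a root of a nonzero complex polynomial: divide an equation over `ℂ[τ']` by powers of `τ'`)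
and modulo `v'`, so `l = l₀ + τ' l₁` (`inter`) with `l₁` again `Bs` in `S`; hence `c l - l` is divisible by
all powers of `τ'`. A general `l` times a nonzero polynomial in `τ'` is integral, so in `S`. -/

open scoped LinearAlgebra.Projectivization Topology Classical Pointwise
open Polynomial

set_option linter.unusedSectionVars false

namespace Vale.Agent.P300

variable {L : Type} [Field L] [Algebra ℂ L] [IsAlgClosed L] (A : Amb L)

theorem Amb.ine3_V {u v : L} {fu fv : Bool} (hc : A.Ch u v fu fv) {P : LP L} {e₁ e₂ : A.G}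
    (h : A.Fr u v P e₁ e₂) : ∃ V, Over V u v ∧ A.IVO V e₁ := by
  obtain ⟨V, hV, ho⟩ := A.exists_over_on hc.ind hc.gen h.ab
  exact ⟨V, hV, A.fr_ivo hc h hV ho⟩

theorem Amb.ine3_V' {u v : L} {fu fv : Bool} (hc : A.Ch u v fu fv) {P : LP L} {e₁ e₂ : A.G}
    (h : A.Fr u v P e₁ e₂) : ∃ V, Over V v u ∧ A.IVO V e₂ :=
  A.ine3_V (hc.swap A) (h.swap A hc.ind)

theorem ine3_res {V : ValuationSubring L} (hc : ∀ c : ℂ, algebraMap ℂ L c ∈ V) {τ b : L}
    (h0 : τ ≠ 0) (hτ : τ ∈ V.nonunits) (hb : b ∈ V) (ha : IsAlgebraic (Algebra.adjoin ℂ {τ}) b) :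
    ∃ c : ℂ, b - algebraMap ℂ L c ∈ V.nonunits := by
  by_contra hcon
  have h1 : ∀ c : ℂ, VU V (b - algebraMap ℂ L c) := fun c =>
    ⟨sub_mem hb (hc c), fun h => hcon ⟨c, h⟩⟩
  have hτV : τ ∈ V := V.nonunits_subset hτ
  have h2 : Transcendental ℂ b := fun ⟨Q, hQ, e⟩ => by
    have h3 := (val_tr hc h1 hQ).2
    rw [e] at h3
    exact h3 V.nonunits.zero_mem
  have h3 : Transcendental ℂ τ := fun h4 => by
    obtain ⟨t, ht, r, hr, e⟩ := h4.exists_nonzero_eq_adjoin_mul (mem_nonZeroDivisors_of_ne_zero h0)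
    have h5 : t ∈ V := Algebra.adjoin_le (S := valAlg V hc) (Set.singleton_subset_iff.2 hτV) ht
    refine (VU.const hc hr).2 ?_
    rw [← e, mul_comm]
    exact val_nu_mul h5 hτ
  have h4 : IsAlgebraic (Algebra.adjoin ℂ {b}) τ := ha.adjoin_singleton h3 h2
  obtain ⟨t, ht, ⟨r, hr⟩, hr0, e⟩ :=
    h4.exists_nonzero_eq_adjoin_mul (mem_nonZeroDivisors_of_ne_zero h0)
  have h5 : t ∈ V := by
    refine Algebra.adjoin_induction (p := fun x _ => x ∈ V) (fun x hx => ?_) (fun x => ?_)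
      (fun _ _ _ _ => add_mem) (fun _ _ _ _ => mul_mem) ht
    · rw [Set.mem_singleton_iff.1 hx]
      exact hτV
    · exact Algebra.adjoin_le (S := valAlg V hc) (Set.singleton_subset_iff.2 hb) x.2
  obtain ⟨Q, hQ⟩ : ∃ Q : ℂ[X], aeval b Q = r := by
    rw [Algebra.adjoin_singleton_eq_range_aeval] at hr
    exact hr
  have hQ0 : Q ≠ 0 := fun h6 => hr0 (Subtype.ext (by rw [h6, map_zero] at hQ; exact hQ.symm))
  refine (val_tr hc h1 hQ0).2 ?_
  have e' : τ * t = r := e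
  rw [hQ, ← e', mul_comm]
  exact val_nu_mul h5 hτ

theorem ine3_dvd {S : LP L} {u v : L} {F : IntermediateField ℂ L} (hr : S.Rg u v F)
    {V : ValuationSubring L} (hV : ∀ a ∈ S.O, a ∈ V) (hu : u ∈ V.nonunits) (hv : v ∉ V.nonunits)
    {τ b : L} (h0 : τ ≠ 0) (hτ : τ ∈ V.nonunits) (hb : b ∈ S.O)
    (ha : IsAlgebraic (Algebra.adjoin ℂ {τ}) b) : S.Dvd u (b - algebraMap ℂ L (S.ev b)) := by
  obtain ⟨c, hc⟩ := ine3_res (fun c => hV _ (S.O.algebraMap_mem c)) h0 hτ (hV b hb) ha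
  have h1 := S.O.sub_mem hb (S.O.algebraMap_mem c)
  have h2 := val_ev hV h1 hc
  rw [S.hom.sub hb (S.O.algebraMap_mem c), S.hom.alg, sub_eq_zero] at h2
  rw [h2]
  exact ((hr.val hV hu hv).1 _ h1).1 hc

theorem Amb.hb_pi {u v : L} {fu fv : Bool} (hc : A.Ch u v fu fv) {i : Option Sec} (hb : A.HB v u i)
    {P : LP L} {e₁ e₂ : A.G} (h : A.Fr u v P e₁ e₂) : e₂ ∈ A.pi := by
  obtain ⟨V, hV, hg⟩ := A.ine3_V' hc h
  exact A.pi_of_ivo hV.alg (hb V hV).1 hg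

theorem Amb.hb_kum {u v : L} {fu : Bool} (hc : A.Ch u v fu true) {i : Sec} (hb : A.HB v u (some i))
    {P : LP L} {e₁ e₂ : A.G} (h : A.Fr u v P e₁ e₂) : A.Kum e₂ i := by
  refine ⟨A.hb_pi hc hb h, fun j => ?_⟩
  obtain ⟨V, hV, hg⟩ := A.ine3_V' hc h
  have h1 : VU V (if j = i then A.form (.sec j) / v else A.form (.sec j)) := (hb V hV).2 j
  have h2 := (hc.rv rfl).un A
  by_cases hj : j = i
  · rw [if_pos hj] at h1 ⊢
    exact A.acts_of_ratio hV.alg hg h2.1 h2.2 (A.form_mem _) h1 h.a22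
  · rw [if_neg hj] at h1 ⊢
    exact A.acts_unit hV.alg hg h1 (A.fixK _ (A.form_mem _))

theorem Amb.hb_inf {u v : L} {fu : Bool} (hc : A.Ch u v fu true) (hb : A.HB v u none)
    {P : LP L} {e₁ e₂ : A.G} (h : A.Fr u v P e₁ e₂) (j : Sec) :
    A.Acts e₂ (A.form (.sec j)) (-1) := by
  obtain ⟨V, hV, hg⟩ := A.ine3_V' hc h
  have h1 : VU V (A.form (.sec j) * v) := (hb V hV).2 j
  have h2 := (hc.rv rfl).un A
  exact A.acts_of_ratio hV.alg hg (h2.1.inv A) (A.K.inv_mem h2.2) (A.form_mem _)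
    (by rwa [div_inv_eq_mul]) (h.a22.inv_right A)

theorem Amb.hb_inert {u v : L} {fu : Bool} (hc : A.Ch u v fu true) {i : Sec}
    (hb : A.HB v u (some i)) {P : LP L} {e₁ e₂ : A.G} (h : A.Fr u v P e₁ e₂) :
    ∃ V : ValuationSubring L, (∀ c : ℂ, algebraMap ℂ L c ∈ V) ∧
      (∀ Q : ℂ[X], Q ≠ 0 → VU V (aeval A.s Q)) ∧ A.form (.sec i) ∈ V.nonunits ∧ A.IVO V e₂ := by
  obtain ⟨V, hV, hg⟩ := A.ine3_V' hc h
  have h1 : VU V (if i = i then A.form (.sec i) / v else A.form (.sec i)) := (hb V hV).2 i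
  rw [if_pos rfl] at h1
  refine ⟨V, hV.alg, (hb V hV).1, ?_, hg⟩
  rw [← div_mul_cancel₀ (A.form (.sec i)) ((hc.rv rfl).un A).1.1]
  exact val_nu_mul h1.1 hV.hu

theorem Amb.node_pi (n : Nd) {P : LP L} {e₁ e₂ : A.G} (h : A.Fr (A.nc n).1 (A.nc n).2 P e₁ e₂) :
    e₁ * e₂⁻¹ ∈ A.pi := by
  rintro l hl ⟨F₀, hF₀, hlF⟩
  have hc := A.ch_nc n
  obtain ⟨hτr, hτb, hτa⟩ := A.mc_rat n.cusp
  rw [← A.nc_mul] at hτr hτb hτa
  generalize (A.nc n).1 = u at *
  generalize (A.nc n).2 = v at *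
  obtain ⟨F, a, hF, hle, -⟩ := A.good_exists hF₀ 0
  obtain ⟨u', hu⟩ := ine2_root u true a
  obtain ⟨v', hv⟩ := ine2_root v true a
  have hr := hF.rg u v true true hc P h.ab u' v' hu hv
  have hres := Amb.IP.res A (hc.sub A) h.ab hF.normal (Amb.IP.mul A (hc.sub A) hF.normal
    (Amb.IP.mono A le_top h.i1) (Amb.IP.inv A (hc.sub A) hF.normal (Amb.IP.mono A le_top h.i2)))
  have a1 := A.ine2_acts hF.tw (h.a11.mul A (h.a21.inv A)) hu (ine2_mem hr).1
  have a2 := A.ine2_acts hF.tw (h.a12.mul A (h.a22.inv A)) hv (ine2_mem hr).2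
  generalize e₁ * e₂⁻¹ = g at hres a1 a2 ⊢
  have a3 : g (u' * v') = u' * v' := by
    rw [map_mul, a1, a2, mul_mul_mul_comm, ← zpow_add₀ (ine1_zt_ne _)]
    simp
  have hτ0 := (hτr.un A).1.1
  have hτ' : (u' * v') ^ (if true then 2 ^ a else 1) = u * v := by rw [mul_pow, hu, hv]
  have hb' : A.Bs (u' * v') := Amb.Bs.root A (ine2_pos true a) (by rwa [hτ'])
  obtain ⟨V, hV, ho⟩ := A.exists_over_on hc.ind hc.gen h.ab
  obtain ⟨W, hW, ho'⟩ := A.exists_over_on (hc.swap A).ind (hc.swap A).gen (h.swap A hc.ind).ab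
  have hSV := A.ine2_sub (hc.sub A) h.ab F ho
  have hSW := A.ine2_sub (hc.sub A) h.ab F ho'
  generalize res (cl u v) (A.rs F) P = S at hr hres hSV hSW
  have h0 : u' * v' ≠ 0 := mul_ne_zero hr.ne hr.swap.ne
  have key : ∀ N : ℕ, ∀ b ∈ S.O, A.Bs b → S.Dvd ((u' * v') ^ N) (g b - b) := by
    intro N
    induction N with
    | zero => exact fun b hb _ => ⟨_, S.O.sub_mem (hres b hb).1 hb, by rw [pow_zero, one_mul]⟩
    | succ N ih =>
      intro b hb hbs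
      obtain ⟨b₁, hb₁, e⟩ := hr.inter
        (ine3_dvd hr hSV (hV.mem hu (ine2_pos true a)) (hV.not_mem (ine2_pos true a) hv) hτ0
          (by rw [mul_comm]; exact val_nu_mul hV.hv hV.hu) hb (hτa b hbs))
        (ine3_dvd hr.swap hSW (hW.mem hv (ine2_pos true a)) (hW.not_mem (ine2_pos true a) hu) hτ0
          (val_nu_mul hW.hv hW.hu) hb (hτa b hbs))
      have h1 : A.Bs b₁ := by
        rw [← eq_div_of_mul_eq h0 ((mul_comm _ _).trans e.symm) |>.symm]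
        exact A.Lb.div_mem (A.Lb.sub_mem hbs (A.Lb.algebraMap_mem _)) hb'
      obtain ⟨d, hd, e'⟩ := ih b₁ hb₁ h1
      refine ⟨d, hd, ?_⟩
      have e2 := congrArg g e
      rw [map_sub, A.fixC, map_mul, a3] at e2
      linear_combination e2 - e + u' * v' * e'
  have hfix : ∀ b ∈ S.O, A.Bs b → g b = b := fun b hb hbs =>
    sub_eq_zero.1 (hr.zero_of_dvd (LP.m.mul_left hr.gen.1.1 hr.gen.2.1) fun N => key N b hb hbs)
  obtain ⟨⟨d, hd⟩, hd0, hi⟩ := (hτa l hl).exists_integral_multiple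
  have hO : Algebra.adjoin ℂ {u * v} ≤ S.O := Algebra.adjoin_le (Set.singleton_subset_iff.2 (by
    rw [← hτ']
    exact S.O.pow_mem (S.O.mul_mem hr.gen.1.1 hr.gen.2.1.1) _))
  have hdK : d ∈ A.K :=
    Algebra.adjoin_le (S := A.K.toSubalgebra) (Set.singleton_subset_iff.2 (hτr.un A).2) hd
  have hdB : A.Bs d := Algebra.adjoin_le (S := A.Lb.toSubalgebra) (Set.singleton_subset_iff.2 hτb) hd
  have h1 := hfix (d * l) (hr.normal _ ((A.rs F).mul_mem (A.ine2_KF F hdK) (hle hlF))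
    (Ext_int_mono hO hi)) (A.Lb.mul_mem hdB hl)
  rw [map_mul, A.fixK g hdK] at h1
  exact mul_left_cancel₀ (fun h2 => hd0 (Subtype.ext h2)) h1

theorem Amb.node_cusp {n : Nd} {j : Cusp} (hn : n.cusp = some j) {P : LP L} {e₁ e₂ : A.G}
    (h : A.Fr (A.nc n).1 (A.nc n).2 P e₁ e₂) (j' : Cusp) :
    A.Acts e₁ (A.form (.cusp j')) (if j' = j then 1 else 0) := by
  have hc := A.ch_nc n
  obtain ⟨V, hV, hg⟩ := A.ine3_V hc h
  by_cases hj : j' = j
  · have h1 := A.nc_unit n hV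
    have h2 := (hc.ru rfl).un A
    rw [hn] at h1
    rw [if_pos hj, hj]
    exact A.acts_of_ratio hV.alg hg h2.1 h2.2 (A.form_mem (.cusp j)) h1 h.a11
  · have h1 := (A.over_nc n V).2 hV
    rw [hn] at h1
    rw [if_neg hj]
    exact A.acts_unit hV.alg hg (A.cusp_unit hj h1) (A.fixK _ (A.form_mem _))

/-- a vertical inertia generator acts primitively on the roots of the fibre parameter -/
theorem Amb.ver_acts {u v : L} {fv : Bool} (hc : A.Ch u v true fv) (hv : A.Ver u v) {P : LP L}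
    {e₁ e₂ : A.G} (h : A.Fr u v P e₁ e₂) : ∃ j, A.Acts e₁ (A.mc j).1 1 := by
  obtain ⟨V, hV, hg⟩ := A.ine3_V hc h
  have h2 := (hc.ru rfl).un A
  rcases hv with ⟨j, H⟩ | ⟨n, H⟩
  · exact ⟨j, A.acts_of_ratio hV.alg hg h2.1 h2.2 ((A.mc_rat j).1.un A).2 (H V hV).2 h.a11⟩
  · exact ⟨_, A.acts_of_ratio hV.alg hg h2.1 h2.2 ((A.mc_rat _).1.un A).2 (H V hV).2 h.a11⟩

/-- the character of the fibre parameter -/
theorem Amb.ver_char (j : Option Cusp) (a : ℕ) : ∃ ψ : A.G →* ℂˣ, (∀ g, ψ g ^ 2 ^ a = 1) ∧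
    (∀ h ∈ A.pi, ψ h = 1) ∧ (∃ N ∈ A.NN, ∀ h ∈ N, ψ h = 1) ∧
    ∀ (e : A.G) (i : ℤ), A.Acts e (A.mc j).1 i → ψ e = 1 → ((2 ^ a : ℕ) : ℤ) ∣ i := by
  obtain ⟨hr, hb, -⟩ := A.mc_rat j
  obtain ⟨hu, hK⟩ := hr.un A
  obtain ⟨y, hy⟩ := IsAlgClosed.exists_pow_nat_eq (A.mc j).1 (n := 2 ^ a) (by positivity)
  have h0 : y ≠ 0 := fun h => hu.1 (by rw [← hy, h, zero_pow (by positivity)])
  have ho : A.Om y := Amb.Om.root A (a := a) (by rw [hy]; exact A.om_K hK) (by rwa [hy])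
  obtain ⟨ψ, h1, h2⟩ := A.exists_char h0 (n := 2 ^ a) Nat.one_le_two_pow (by rwa [hy])
  have h3 : ∀ g : A.G, g y = y → ψ g = 1 := fun g hg => by
    rw [h2, mul_left_eq_self₀, or_iff_left h0, ← map_one (algebraMap ℂ L)] at hg
    exact Units.ext ((algebraMap ℂ L).injective hg)
  refine ⟨ψ, h1, fun g hg => h3 g (hg y (Amb.Bs.root A Nat.one_le_two_pow (by rwa [hy])) ho), ?_,
    fun e i he h4 => ?_⟩
  · obtain ⟨F₀, hF₀, hy₀⟩ := ho
    obtain ⟨F, b, hF, hle, -⟩ := A.good_exists hF₀ 0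
    exact ⟨_, ⟨F, b, hF, rfl⟩, fun g hg =>
      h3 g ((IntermediateField.mem_fixingSubgroup_iff F g).1 hg y (hle hy₀))⟩
  · have h5 := he a y ho hy
    rw [h2, h4, Units.val_one, map_one] at h5
    exact ((zt_prim a).zpow_eq_one_iff_dvd i).1 (mul_right_cancel₀ h0 h5).symm

theorem Amb.sec_sign (i : Sec) : ∃ χ : A.G →* ℤˣ, (∃ N ∈ A.NN, ∀ h ∈ N, χ h = 1) ∧
    ∀ e j, A.Kum e j → χ e = if j = i then -1 else 1 := by
  have : CharZero L := charZero_of_injective_algebraMap (algebraMap ℂ L).injective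
  obtain ⟨y, hy⟩ := IsAlgClosed.exists_pow_nat_eq (A.form (.sec i)) (n := 2 ^ 1) (by positivity)
  have h0 : y ≠ 0 := fun h => A.form_ne _ (by rw [← hy, h, zero_pow (by positivity)])
  have ho : A.Om y := Amb.Om.root A (a := 1) (by rw [hy]; exact A.om_K (A.form_mem _))
    (by rw [hy]; exact A.un_form _)
  obtain ⟨χ, h2⟩ := A.exists_sign h0 (by rw [← pow_one 2, hy]; exact A.form_mem _)
  have h3 : ∀ (g : A.G) (s : ℤˣ), g y = ((s : ℤ) : L) * y → χ g = s := fun g s hg => by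
    rw [h2] at hg
    exact Units.ext (Int.cast_injective (mul_right_cancel₀ h0 hg))
  refine ⟨χ, ?_, fun e j he => h3 e _ ?_⟩
  · obtain ⟨F₀, hF₀, hy₀⟩ := ho
    obtain ⟨F, b, hF, hle, -⟩ := A.good_exists hF₀ 0
    refine ⟨_, ⟨F, b, hF, rfl⟩, fun g hg => h3 g 1 ?_⟩
    rw [(IntermediateField.mem_fixingSubgroup_iff F g).1 hg y (hle hy₀)]
    simp
  · rw [he.2 i 1 y ho hy, zt_one]
    by_cases hj : j = i
    · simp [hj]
    · simp [hj, Ne.symm hj]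

end Vale.Agent.P300
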