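import Vale.Agent.P300.Top

/-! Rational curves defined by a valuation ring. On `R = ℂ[t] + V.nonunits` the value `P(t₀)` is a
well defined homomorphism (`tr`). `cv_curve`: normalise the tuple by an entry of minimal value, the
ratios lie in `V ∩ M`, clear denominators, divide by the gcd: `c * (f i / f j) - Φ i (t) ∈ V.nonunits`
with `Φ` coprime and `c` a fraction of polynomials in `t`.
`cv_ctr`: for `a ∈ y.O ∩ M` write `Q(t) a ≡ P(t)` with `P, Q` coprime; then `Q(s) a - P(s)` is a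
nonunit of `V` in `y.O`, so has value `0`; hence `Q(ev s) ≠ 0`, `a ∈ cv` with the same value; apply
this to the ratios `f i / f j`. -/

open scoped LinearAlgebra.Projectivization Topology Classical
open Polynomial

namespace Vale.Agent.P300

variable {L : Type} [Field L] [Algebra ℂ L]

section
variable {V : ValuationSubring L} {M : IntermediateField ℂ L} {t : L}

theorem cv_nu_mem {a : L} (ha : a ∈ V.nonunits) : a ∈ V :=
  (V.valuation_le_one_iff a).1 (le_of_lt ha)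

theorem cv_nu_mul {a b : L} (ha : a ∈ V) (hb : b ∈ V.nonunits) : a * b ∈ V.nonunits := by
  rw [ValuationSubring.mem_nonunits_iff, map_mul]
  exact (mul_le_of_le_one_left' ((V.valuation_le_one_iff a).2 ha)).trans_lt hb

theorem cv_unit {a : L} (ha : a ∉ V.nonunits) : a ≠ 0 ∧ a⁻¹ ∈ V := by
  rw [ValuationSubring.mem_nonunits_iff_or, not_or, not_not] at ha
  exact ha

theorem cv_aeval (h : ∀ c : ℂ, algebraMap ℂ L c ∈ V) {s : L} (hs : s ∈ V) (P : ℂ[X]) :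
    aeval s P ∈ V := by
  refine Polynomial.induction_on P (fun a => ?_) (fun p q hp hq => ?_) fun n a ih => ?_
  · rw [aeval_C]; exact h a
  · rw [map_add]; exact add_mem hp hq
  · rw [pow_succ, ← mul_assoc, map_mul, aeval_X]; exact mul_mem ih hs

theorem cv_aeval_sub (h : RatOn V M t) {s : L} (hs : s ∈ V) (hts : t - s ∈ V.nonunits)
    (P : ℂ[X]) : aeval t P - aeval s P ∈ V.nonunits := by
  refine Polynomial.induction_on P (fun a => ?_) (fun p q hp hq => ?_) fun n a ih => ?_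
  · rw [aeval_C, aeval_C, sub_self]; exact zero_mem _
  · rw [map_add, map_add, add_sub_add_comm]; exact add_mem hp hq
  · have e : aeval t (C a * X ^ (n + 1)) - aeval s (C a * X ^ (n + 1)) =
        t * (aeval t (C a * X ^ n) - aeval s (C a * X ^ n)) + aeval s (C a * X ^ n) * (t - s) := by
      rw [pow_succ, ← mul_assoc, map_mul, map_mul (aeval s), aeval_X, aeval_X]
      ring
    rw [e]
    exact add_mem (cv_nu_mul h.ht ih) (cv_nu_mul (cv_aeval h.alg hs _) hts)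

theorem cv_refl (ht : t ≠ 0) {n : ℕ} {P : ℂ[X]} (hP : P.natDegree ≤ n) :
    aeval t⁻¹ (reflect n P) * t ^ n = aeval t P := by
  let _ := invertibleOfNonzero ht
  have := eval₂_reflect_mul_pow (algebraMap ℂ L) t n P hP
  rwa [invOf_eq_inv] at this

theorem cv_t (h : RatOn V M t) : t ≠ 0 ∧ t⁻¹ ∈ V := by
  have := h.tr X X_ne_zero
  rw [aeval_X] at this
  exact cv_unit this

theorem cv_R (h : RatOn V M t) {a : L} :
    a ∈ Algebra.adjoin ℂ (insert t (V.nonunits : Set L)) ↔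
      ∃ P : ℂ[X], a - aeval t P ∈ V.nonunits := by
  constructor
  · intro ha
    induction ha using Algebra.adjoin_induction with
    | mem x hx =>
      rcases hx with rfl | hx
      · exact ⟨X, by rw [aeval_X, sub_self]; exact zero_mem _⟩
      · exact ⟨0, by rwa [map_zero, sub_zero]⟩
    | algebraMap r => exact ⟨C r, by rw [aeval_C, sub_self]; exact zero_mem _⟩
    | add x y _ _ hx hy =>
      obtain ⟨P, hP⟩ := hx
      obtain ⟨Q, hQ⟩ := hy
      exact ⟨P + Q, by rw [map_add, add_sub_add_comm]; exact add_mem hP hQ⟩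
    | mul x y _ _ hx hy =>
      obtain ⟨P, hP⟩ := hx
      obtain ⟨Q, hQ⟩ := hy
      refine ⟨P * Q, ?_⟩
      have e : x * y - aeval t (P * Q) = (x - aeval t P) * (y - aeval t Q) +
          aeval t Q * (x - aeval t P) + aeval t P * (y - aeval t Q) := by
        rw [map_mul]; ring
      rw [e]
      exact add_mem (add_mem (mul_mem hP hQ) (cv_nu_mul (cv_aeval h.alg h.ht _) hP))
        (cv_nu_mul (cv_aeval h.alg h.ht _) hQ)
  · rintro ⟨P, hP⟩
    rw [← sub_add_cancel a (aeval t P)]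
    exact add_mem (Algebra.subset_adjoin (Set.mem_insert_of_mem _ hP))
      (Algebra.adjoin_mono (Set.singleton_subset_iff.2 (Set.mem_insert _ _))
        (aeval_mem_adjoin_singleton ℂ t))

/-- the value at `t₀` -/
noncomputable def cvVal (V : ValuationSubring L) (t : L) (t₀ : ℂ) (a : L) : ℂ :=
  if h : ∃ P : ℂ[X], a - aeval t P ∈ V.nonunits then h.choose.eval t₀ else 0

theorem cv_val (h : RatOn V M t) (t₀ : ℂ) {a : L} {P : ℂ[X]} (hP : a - aeval t P ∈ V.nonunits) :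
    cvVal V t t₀ a = P.eval t₀ := by
  have e : ∃ P : ℂ[X], a - aeval t P ∈ V.nonunits := ⟨P, hP⟩
  have h1 : e.choose - P = 0 := by
    by_contra h0
    refine h.tr _ h0 ?_
    have := sub_mem hP e.choose_spec
    rwa [sub_sub_sub_cancel_left, ← map_sub] at this
  rw [cvVal, dif_pos e, sub_eq_zero.1 h1]

theorem cv_hom (h : RatOn V M t) (t₀ : ℂ) :
    HomOn (Algebra.adjoin ℂ (insert t (V.nonunits : Set L))) (cvVal V t t₀) := by
  refine ⟨fun a ha b hb => ?_, fun a ha b hb => ?_, fun c => ?_⟩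
  · obtain ⟨P, hP⟩ := (cv_R h).1 ha
    obtain ⟨Q, hQ⟩ := (cv_R h).1 hb
    rw [cv_val h t₀ hP, cv_val h t₀ hQ, ← eval_add]
    exact cv_val h t₀ (by rw [map_add, add_sub_add_comm]; exact add_mem hP hQ)
  · obtain ⟨P, hP⟩ := (cv_R h).1 ha
    obtain ⟨Q, hQ⟩ := (cv_R h).1 hb
    rw [cv_val h t₀ hP, cv_val h t₀ hQ, ← eval_mul]
    refine cv_val h t₀ ?_
    have e : a * b - aeval t (P * Q) = (a - aeval t P) * (b - aeval t Q) +
        aeval t Q * (a - aeval t P) + aeval t P * (b - aeval t Q) := by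
      rw [map_mul]; ring
    rw [e]
    exact add_mem (add_mem (mul_mem hP hQ) (cv_nu_mul (cv_aeval h.alg h.ht _) hP))
      (cv_nu_mul (cv_aeval h.alg h.ht _) hQ)
  · rw [cv_val h t₀ (P := C c) (by rw [aeval_C, sub_self]; exact zero_mem _), eval_C]

theorem cv_base (h : RatOn V M t) (t₀ : ℂ) {a : L} {P : ℂ[X]} (hP : a - aeval t P ∈ V.nonunits) :
    a ∈ (cv V t t₀).O ∧ (cv V t t₀).ev a = P.eval t₀ := by
  rw [← cv_val h t₀ hP]
  exact mkLP_base (cv_hom h t₀) ((cv_R h).2 ⟨P, hP⟩)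

theorem cv_frac (h : RatOn V M t) (t₀ : ℂ) {a : L} {P Q : ℂ[X]} (hQ : Q.eval t₀ ≠ 0)
    (hP : aeval t Q * a - aeval t P ∈ V.nonunits) :
    a ∈ (cv V t t₀).O ∧ (cv V t t₀).ev a = P.eval t₀ / Q.eval t₀ := by
  obtain ⟨h1, h2⟩ := cv_base h t₀ hP
  obtain ⟨h3, h4⟩ := cv_base h t₀ (a := aeval t Q) (P := Q) (by rw [sub_self]; exact zero_mem _)
  have h5 : (cv V t t₀).U (aeval t Q) := ⟨h3, by rwa [h4]⟩
  have := (cv V t t₀).ev_div h1 h5
  rwa [mul_div_cancel_left₀ _ h5.ne, h2, h4] at this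

theorem cv_le (h : RatOn V M t) {t₀ : ℂ} {y : LP L} (h1 : t ∈ y.O) (h2 : y.ev t = t₀)
    (h3 : ∀ n ∈ V.nonunits, n ∈ y.O ∧ y.ev n = 0) : (cv V t t₀).Le y := by
  refine mkLP_le (cv_hom h t₀) fun a ha => ?_
  obtain ⟨P, hP⟩ := (cv_R h).1 ha
  obtain ⟨h4, h5⟩ := y.hom.aeval h1 P
  obtain ⟨h6, h7⟩ := h3 _ hP
  have h8 := y.hom.add _ h6 _ h4
  have h9 := y.O.add_mem h6 h4
  rw [sub_add_cancel] at h8 h9
  refine ⟨h9, ?_⟩
  rw [h8, h7, h5, h2, zero_add]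
  exact (cv_val h t₀ hP).symm

theorem cv_le_inv (h : RatOn V M t) (h' : RatOn V M t⁻¹) {t₀ : ℂ} (h0 : t₀ ≠ 0) :
    (cv V t⁻¹ t₀⁻¹).Le (cv V t t₀) := by
  obtain ⟨h1, h2⟩ := cv_base h t₀ (a := t) (P := X) (by rw [aeval_X, sub_self]; exact zero_mem _)
  rw [eval_X] at h2
  obtain ⟨h3, h4⟩ := (cv V t t₀).ev_inv ⟨h1, by rwa [h2]⟩
  refine cv_le h' h3.1 (by rw [h4, h2]) fun n hn => ?_
  have := cv_base h t₀ (a := n) (P := 0) (by rwa [map_zero, sub_zero])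
  rwa [eval_zero] at this

theorem cv_ev_zero {y : LP L} (hy : ∀ a ∈ y.O, a ∈ V) {b : L} (hb : b ∈ y.O)
    (hb' : b ∈ V.nonunits) : y.ev b = 0 := by
  by_contra h0
  rcases V.mem_nonunits_iff_or.1 hb' with h | h
  · exact y.hom.ne h0 h
  · exact h (hy _ (y.inv_mem b hb h0))

theorem cv_on (h : RatOn V M t) {y : LP L} (hy : ∀ a ∈ y.O, a ∈ V) {s : L} (hs : s ∈ y.O)
    (hts : t - s ∈ V.nonunits) {a : L} (ha : a ∈ y.O) (haM : a ∈ M) :
    a ∈ (cv V t (y.ev s)).O ∧ (cv V t (y.ev s)).ev a = y.ev a := by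
  obtain ⟨P₀, Q₀, hQ₀, h0⟩ := h.rat a haM (hy a ha)
  obtain ⟨P, Q, hP, hQ, hu⟩ := extract_gcd P₀ Q₀
  have hg : gcd P₀ Q₀ ≠ 0 := fun e => hQ₀ (by rw [hQ, e, zero_mul])
  obtain ⟨h1, h2⟩ := cv_unit (h.tr _ hg)
  have h3 : aeval t Q * a - aeval t P ∈ V.nonunits := by
    have h4 := cv_nu_mul h2 h0
    have e : aeval t Q₀ * a - aeval t P₀ =
        aeval t (gcd P₀ Q₀) * (aeval t Q * a - aeval t P) := by
      rw [mul_sub, ← mul_assoc, ← map_mul, ← map_mul, ← hP, ← hQ]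
    rwa [e, inv_mul_cancel_left₀ h1] at h4
  have h4 : aeval s Q * a - aeval s P ∈ V.nonunits := by
    have e : aeval s Q * a - aeval s P = (aeval t Q * a - aeval t P) -
        a * (aeval t Q - aeval s Q) + (aeval t P - aeval s P) := by ring
    rw [e]
    exact add_mem (sub_mem h3 (cv_nu_mul (hy a ha) (cv_aeval_sub h (hy s hs) hts Q)))
      (cv_aeval_sub h (hy s hs) hts P)
  obtain ⟨q1, q2⟩ := y.hom.aeval hs Q
  obtain ⟨p1, p2⟩ := y.hom.aeval hs P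
  have h5 := cv_ev_zero hy (y.O.sub_mem (y.O.mul_mem q1 ha) p1) h4
  rw [y.hom.sub (y.O.mul_mem q1 ha) p1, y.hom.mul _ q1 _ ha, q2, p2] at h5
  have h6 : Q.eval (y.ev s) ≠ 0 := fun e => by
    rw [e, zero_mul, zero_sub, neg_eq_zero] at h5
    exact not_isUnit_X_sub_C (y.ev s) (isUnit_of_dvd_unit
      (dvd_gcd (dvd_iff_isRoot.2 h5) (dvd_iff_isRoot.2 e)) hu)
  obtain ⟨h7, h8⟩ := cv_frac h (y.ev s) h6 h3
  refine ⟨h7, ?_⟩
  rw [h8, div_eq_iff h6]
  linear_combination -h5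

end

theorem RatOn.inv {V : ValuationSubring L} {M : IntermediateField ℂ L} {t : L} (h : RatOn V M t) :
    RatOn V M t⁻¹ := by
  obtain ⟨h0, h1⟩ := cv_t h
  refine ⟨h.alg, h1, fun P hP hn => ?_, fun a ha ha' => ?_⟩
  · refine h.tr (reflect P.natDegree P) (fun e => hP (reflect_eq_zero_iff.1 e)) ?_
    have e := cv_refl (inv_ne_zero h0) (le_refl P.natDegree)
    rw [inv_inv, inv_pow, mul_inv_eq_iff_eq_mul₀ (pow_ne_zero _ h0), mul_comm] at e
    rw [e]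
    exact cv_nu_mul (pow_mem h.ht _) hn
  · obtain ⟨P, Q, hQ, h2⟩ := h.rat a ha ha'
    refine ⟨reflect (max P.natDegree Q.natDegree) P, reflect (max P.natDegree Q.natDegree) Q,
      fun e => hQ (reflect_eq_zero_iff.1 e), ?_⟩
    have h3 := cv_nu_mul (pow_mem h1 (max P.natDegree Q.natDegree)) h2
    rw [← cv_refl h0 (le_max_left P.natDegree Q.natDegree),
      ← cv_refl h0 (le_max_right P.natDegree Q.natDegree), mul_right_comm, ← sub_mul, inv_pow,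
      mul_comm, mul_inv_cancel_right₀ (pow_ne_zero _ h0)] at h3
    exact h3

theorem RatOn.mono {V : ValuationSubring L} {M M' : IntermediateField ℂ L} {t : L} (h : RatOn V M t)
    (hM : M' ≤ M) : RatOn V M' t := ⟨h.alg, h.ht, h.tr, fun a ha => h.rat a (hM ha)⟩

theorem cv_inv {V : ValuationSubring L} {M : IntermediateField ℂ L} {t : L} (h : RatOn V M t)
    {t₀ : ℂ} (h0 : t₀ ≠ 0) : cv V t⁻¹ t₀⁻¹ = cv V t t₀ := by
  refine LP.ext' (cv_le_inv h h.inv h0) ?_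
  have := cv_le_inv h.inv (by rwa [inv_inv]) (inv_ne_zero h0)
  rwa [inv_inv, inv_inv] at this

theorem cv_curve {V : ValuationSubring L} {M : IntermediateField ℂ L} {t : L} (h : RatOn V M t)
    {T : Model L} (hT : T.In M) : ∃ c : Curve T.Pt, ∀ t₀, T.Ctr (cv V t t₀) (c.pt t₀) := by
  obtain ⟨i₀, hi₀⟩ := T.ne
  obtain ⟨j, -, hj⟩ := Finset.exists_max_image Finset.univ (fun i => V.valuation (T.f i))
    ⟨i₀, Finset.mem_univ _⟩
  have hj0 : V.valuation (T.f j) ≠ 0 := fun e =>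
    hi₀ ((map_eq_zero _).1 (le_zero_iff.1 (e ▸ hj i₀ (Finset.mem_univ _))))
  have hj1 : T.f j ≠ 0 := (_root_.map_ne_zero _).1 hj0
  have h1 : ∀ i, T.f i / T.f j ∈ V := fun i => by
    rw [← V.valuation_le_one_iff, map_div₀, div_le_one₀ (zero_lt_iff.2 hj0)]
    exact hj i (Finset.mem_univ _)
  choose P Q hQ hP using fun i => h.rat _ (hT i j) (h1 i)
  have hD : ∏ i, Q i ≠ 0 := Finset.prod_ne_zero_iff.2 fun i _ => hQ i
  have h2 : ∀ i, ∃ Ψ : ℂ[X], aeval t (∏ i, Q i) * (T.f i / T.f j) - aeval t Ψ ∈ V.nonunits := by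
    intro i
    obtain ⟨E, hE⟩ := Finset.dvd_prod_of_mem Q (Finset.mem_univ i)
    refine ⟨E * P i, ?_⟩
    rw [hE, mul_comm (Q i), map_mul, map_mul, mul_assoc, ← mul_sub]
    exact cv_nu_mul (cv_aeval h.alg h.ht _) (hP i)
  choose Ψ hΨ using h2
  obtain ⟨Φ, hΦ, hg⟩ := Finset.extract_gcd Ψ ⟨j, Finset.mem_univ j⟩
  have hg0 : Finset.univ.gcd Ψ ≠ 0 := fun e => by
    have := hΨ j
    rw [hΦ j (Finset.mem_univ _), e, zero_mul, map_zero, sub_zero, div_self hj1, mul_one] at this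
    exact h.tr _ hD this
  obtain ⟨h3, h4⟩ := cv_unit (h.tr _ hg0)
  have h5 : ∀ i, (aeval t (Finset.univ.gcd Ψ))⁻¹ * aeval t (∏ i, Q i) / T.f j * T.f i -
      aeval t (Φ i) ∈ V.nonunits := fun i => by
    have h6 := cv_nu_mul h4 (hΨ i)
    have e := congrArg (aeval t) (hΦ i (Finset.mem_univ _))
    rw [map_mul] at e
    rw [e, mul_sub, inv_mul_cancel_left₀ h3] at h6
    have e2 : (aeval t (Finset.univ.gcd Ψ))⁻¹ * aeval t (∏ i, Q i) / T.f j * T.f i =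
        (aeval t (Finset.univ.gcd Ψ))⁻¹ * (aeval t (∏ i, Q i) * (T.f i / T.f j)) := by ring
    rwa [e2]
  have hne : ∀ t₀ : ℂ, (fun i => (Φ i).eval t₀) ≠ 0 := fun t₀ e =>
    not_isUnit_X_sub_C t₀ (isUnit_of_dvd_one (hg ▸ Finset.dvd_gcd fun i _ =>
      dvd_iff_isRoot.2 (congrFun e i)))
  have hc : ∀ t₀ : ℂ, T.Ctr (cv V t t₀) (Projectivization.mk ℂ _ (hne t₀)) := fun t₀ => by
    have e : (fun i => (cv V t t₀).ev ((aeval t (Finset.univ.gcd Ψ))⁻¹ * aeval t (∏ i, Q i) /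
        T.f j * T.f i)) = fun i => (Φ i).eval t₀ := funext fun i => (cv_base h t₀ (h5 i)).2
    have := T.ctr_mk (fun i => (cv_base h t₀ (h5 i)).1) (e ▸ hne t₀)
    simp only [e] at this
    exact this
  exact ⟨⟨Φ, hne, fun t₀ => (hc t₀).mem⟩, hc⟩

theorem cv_ctr {V : ValuationSubring L} {M : IntermediateField ℂ L} {t : L} (h : RatOn V M t)
    {T : Model L} (hT : T.In M) {y : LP L} (hy : ∀ a ∈ y.O, a ∈ V) {s : L} (hs : s ∈ y.O)
    (hts : t - s ∈ V.nonunits) {ξ : ℙ ℂ (T.ι → ℂ)} (hξ : T.Ctr y ξ) :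
    T.Ctr (cv V t (y.ev s)) ξ := by
  have h1 := fun i => hξ.ratio (nz_spec ξ) i
  have h2 := fun i => cv_on h hy hs hts (h1 i).1 (hT i (nz ξ))
  have e : ∀ i, algebraMap ℂ L (ξ.rep (nz ξ)) / T.f (nz ξ) * T.f i =
      algebraMap ℂ L (ξ.rep (nz ξ)) * (T.f i / T.f (nz ξ)) := fun i => by ring
  refine ⟨algebraMap ℂ L (ξ.rep (nz ξ)) / T.f (nz ξ), fun i => ?_, fun i => ?_⟩
  · rw [e]
    exact Subalgebra.mul_mem _ (Subalgebra.algebraMap_mem _ _) (h2 i).1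
  · rw [e, (cv V t (y.ev s)).hom.mul _ (Subalgebra.algebraMap_mem _ _) _ (h2 i).1,
      (cv V t (y.ev s)).hom.alg, (h2 i).2, (h1 i).2, mul_div_cancel₀ _ (nz_spec ξ)]

theorem cv_vert {W S S' : Model L} (hWS : W.Dom S) (hS : S'.Dom S) (hf : W.FibConn S)
    {η : S'.Pt} {a b : W.Pt} (ha : hWS.mp a = hS.mp η) (hb : hWS.mp b = hS.mp η) :
    Relation.ReflTransGen (LStep W.Pt hWS.mp hS.mp) (a, η) (b, η) := by
  have ha' : W.dm S a = S'.dm S η := congrArg Subtype.val ha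
  have hb' : W.dm S b = S'.dm S η := congrArg Subtype.val hb
  have key : ∀ b, Relation.ReflTransGen (CStep W.Pt (W.dm S)) a.1 b → W.dm S b = S'.dm S η ∧
      ∃ hb : b ∈ W.Pt, Relation.ReflTransGen (LStep W.Pt hWS.mp hS.mp) (a, η) (⟨b, hb⟩, η) := by
    intro b h
    induction h with
    | refl => exact ⟨ha', a.2, Relation.ReflTransGen.refl⟩
    | tail _ h2 ih =>
      obtain ⟨c, r, r', rfl, rfl, h3⟩ := h2
      obtain ⟨h4, h5, h6⟩ := ih
      exact ⟨(h3 r').trans h4, c.mem r', h6.tail ⟨c, fun _ => η, r, r', continuous_const,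
        fun q => Subtype.ext ((h3 q).trans h4).symm, rfl, rfl⟩⟩
  obtain ⟨-, _, h⟩ := key b (hf a a.2 b b.2 (ha'.trans hb'.symm))
  exact h

theorem cv_base_link {V : ValuationSubring L} {M : IntermediateField ℂ L} {t : L}
    (h : RatOn V M t) {W S S' : Model L} (hW : W.In M) (hS' : S'.In M) (hWS : W.Dom S)
    (hS : S'.Dom S) (hf : W.FibConn S) {y : LP L} (hy : ∀ a ∈ y.O, a ∈ V) {s : L} (hs : s ∈ y.O)
    (hts : t - s ∈ V.nonunits) {η η₀ : S'.Pt} (hη : S'.Ctr y η) {a a₀ : W.Pt}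
    (ha : hWS.mp a = hS.mp η) (h1 : W.Ctr (cv V t 1) a₀) (h2 : S'.Ctr (cv V t 1) η₀) :
    Relation.ReflTransGen (LStep W.Pt hWS.mp hS.mp) (a, η) (a₀, η₀) ∧
      Relation.ReflTransGen (LStep W.Pt hWS.mp hS.mp) (a₀, η₀) (a, η) := by
  obtain ⟨c, hc⟩ := cv_curve h hW
  obtain ⟨d, hd⟩ := cv_curve h hS'
  have h3 : ∀ r, hS.mp ⟨d.pt r, d.mem r⟩ = hWS.mp ⟨c.pt r, c.mem r⟩ := fun r =>
    Subtype.ext ((hS.ctr (hd r)).unique (hWS.ctr (hc r)))
  have h4 : ∀ r r', LStep W.Pt hWS.mp hS.mp (⟨c.pt r, c.mem r⟩, ⟨d.pt r, d.mem r⟩)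
      (⟨c.pt r', c.mem r'⟩, ⟨d.pt r', d.mem r'⟩) := fun r r' =>
    ⟨c, fun r => ⟨d.pt r, d.mem r⟩, r, r', d.continuous.subtype_mk _, h3, rfl, rfl⟩
  obtain rfl : a₀ = ⟨c.pt 1, c.mem 1⟩ := Subtype.ext (h1.unique (hc 1))
  obtain rfl : η₀ = ⟨d.pt 1, d.mem 1⟩ := Subtype.ext (h2.unique (hd 1))
  obtain rfl : η = ⟨d.pt (y.ev s), d.mem _⟩ :=
    Subtype.ext ((cv_ctr h hS' hy hs hts hη).unique (hd _))
  exact ⟨(cv_vert hWS hS hf ha (h3 _).symm).tail (h4 _ _),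
    (cv_vert hWS hS hf (h3 _).symm ha).head (h4 _ _)⟩

/-- Two points lying on the curve of `V` are joined by lifted steps. -/
theorem cv_link {V : ValuationSubring L} {M : IntermediateField ℂ L} {t : L} (h : RatOn V M t)
    {W S S' : Model L} (hW : W.In M) (hS' : S'.In M) (hWS : W.Dom S) (hS : S'.Dom S)
    (hf : W.FibConn S) {y y' : LP L} (hy : ∀ a ∈ y.O, a ∈ V) (hy' : ∀ a ∈ y'.O, a ∈ V)
    (hs : ∃ s ∈ y.O, t - s ∈ V.nonunits ∨ t⁻¹ - s ∈ V.nonunits)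
    (hs' : ∃ s ∈ y'.O, t - s ∈ V.nonunits ∨ t⁻¹ - s ∈ V.nonunits)
    {η η' : S'.Pt} (hη : S'.Ctr y η) (hη' : S'.Ctr y' η') {a a' : W.Pt}
    (ha : hWS.mp a = hS.mp η) (ha' : hWS.mp a' = hS.mp η') :
    Relation.ReflTransGen (LStep W.Pt hWS.mp hS.mp) (a, η) (a', η') := by
  obtain ⟨c, hc⟩ := cv_curve h hW
  obtain ⟨d, hd⟩ := cv_curve h hS'
  have e : cv V t⁻¹ 1 = cv V t 1 := by
    have := cv_inv h one_ne_zero
    rwa [inv_one] at this
  have key : ∀ {y : LP L}, (∀ a ∈ y.O, a ∈ V) →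
      (∃ s ∈ y.O, t - s ∈ V.nonunits ∨ t⁻¹ - s ∈ V.nonunits) → ∀ {η : S'.Pt}, S'.Ctr y η →
      ∀ {a : W.Pt}, hWS.mp a = hS.mp η →
      Relation.ReflTransGen (LStep W.Pt hWS.mp hS.mp) (a, η)
        (⟨c.pt 1, c.mem 1⟩, ⟨d.pt 1, d.mem 1⟩) ∧
      Relation.ReflTransGen (LStep W.Pt hWS.mp hS.mp) (⟨c.pt 1, c.mem 1⟩, ⟨d.pt 1, d.mem 1⟩)
        (a, η) := by
    rintro y hy ⟨s, hs, h1 | h1⟩ η hη a ha
    · exact cv_base_link h hW hS' hWS hS hf hy hs h1 hη ha (hc 1) (hd 1)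
    · exact cv_base_link h.inv hW hS' hWS hS hf hy hs h1 hη ha (e ▸ hc 1) (e ▸ hd 1)
  exact (key hy hs hη ha).1.trans (key hy' hs' hη' ha').2

end Vale.Agent.P300
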