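import Vale.Agent.P300.X3
import Vale.Agent.P300.Cv

/-! The blown-up plane is connected. Let `U` be the set of centres of `cl (s - s₀) (z - z₀)` with
`(s₀, z₀)` not a finite multiple point (the model is regular there and the centre
`[(1, s₀, z₀) ⊗ pencils]` depends continuously on `(s₀, z₀)`); `ℂ²` minus a finite set is connected
(`Set.Countable.isConnected_compl_of_one_lt_rank` / `isPathConnected_compl_of_one_lt_rank`). Every
point is in the closure of `U`: with `loc ξ = cl u v` (`classify`) the centres of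
`cl (u - ε α) (v - ε β)` converge to `ξ` and lie in `U` for all but finitely many `ε`. Alternatively use
`cv_curve`, `cv_ctr`, `Rg.val` with valuation rings over lines and exceptional curves. -/

open scoped LinearAlgebra.Projectivization Topology Classical Pointwise
open Polynomial

set_option linter.unusedSectionVars false

namespace Vale.Agent.P300

theorem x4_line {σ : Type} (D : MvPolynomial σ ℂ) (x w : σ → ℂ) :
    ∃ p : ℂ[X], ∀ t, p.eval t = MvPolynomial.eval (fun i => x i + t * w i) D := by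
  induction D using MvPolynomial.induction_on with
  | C a => exact ⟨C a, fun t => by simp⟩
  | add P Q hP hQ =>
    obtain ⟨p, hp⟩ := hP
    obtain ⟨q, hq⟩ := hQ
    exact ⟨p + q, fun t => by simp [hp, hq]⟩
  | mul_X P i hP =>
    obtain ⟨p, hp⟩ := hP
    exact ⟨p * (C (x i) + X * C (w i)), fun t => by simp [hp, mul_comm t]⟩

theorem x4_conn {σ : Type} (D : MvPolynomial σ ℂ) :
    IsPreconnected {c : σ → ℂ | MvPolynomial.eval c D ≠ 0} := by
  refine isPreconnected_of_forall_pair fun x hx y hy => ?_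
  let γ : ℂ → σ → ℂ := fun t i => x i + t * (y i - x i)
  have hγ : Continuous γ := continuous_pi fun i => by fun_prop
  obtain ⟨p, hp⟩ : ∃ p : ℂ[X], ∀ t, p.eval t = MvPolynomial.eval (γ t) D :=
    x4_line D x fun i => y i - x i
  have e0 : γ 0 = x := funext fun i => by simp [γ]
  have e1 : γ 1 = y := funext fun i => by simp [γ]
  have hp0 : p ≠ 0 := fun e => hx (by rw [← e0, ← hp, e, eval_zero])
  have hfin : {t | IsRoot p t}.Finite := finite_setOfPred_isRoot hp0
  have hc := hfin.countable.isConnected_compl_of_one_lt_rank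
    (by rw [Complex.rank_real_complex]; exact Nat.one_lt_ofNat)
  refine ⟨γ '' {t | IsRoot p t}ᶜ, ?_, ⟨0, ?_, e0⟩, ⟨1, ?_, e1⟩,
    hc.isPreconnected.image γ hγ.continuousOn⟩
  · rintro _ ⟨t, ht, rfl⟩ h
    exact ht ((hp t).trans h)
  · exact fun h => hx (by rw [← e0, ← hp]; exact h)
  · exact fun h => hy (by rw [← e1, ← hp]; exact h)

theorem x4_dense {σ : Type} [Fintype σ] {D : MvPolynomial σ ℂ} (hD : D ≠ 0) :
    (𝓝[{c : σ → ℂ | MvPolynomial.eval c D ≠ 0}] 0).NeBot := by
  rw [← mem_closure_iff_nhdsWithin_neBot, Metric.mem_closure_iff]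
  intro ε hε
  by_contra hn
  refine hD (MvPolynomial.funext_set (fun _ => Metric.ball (0 : ℂ) ε)
    (fun _ => infinite_of_mem_nhds (0 : ℂ) (Metric.ball_mem_nhds _ hε)) fun c hc => ?_)
  rw [map_zero]
  by_contra h
  refine hn ⟨c, h, ?_⟩
  rw [dist_comm, dist_pi_lt_iff hε]
  exact fun i => hc i trivial

variable {L : Type} [Field L] [Algebra ℂ L] [IsAlgClosed L] (A : Amb L)

theorem x4_frac {σ : Type} {g : σ → L} {a : L} (ha : a ∈ IntermediateField.adjoin ℂ (Set.range g)) :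
    ∃ P Q : MvPolynomial σ ℂ, Q ≠ 0 ∧ a * MvPolynomial.aeval g Q = MvPolynomial.aeval g P := by
  obtain ⟨P, Q, rfl⟩ := (IntermediateField.mem_adjoin_range_iff ℂ g a).1 ha
  by_cases h : MvPolynomial.aeval g Q = 0
  · exact ⟨0, 1, one_ne_zero, by simp [h]⟩
  · exact ⟨P, Q, fun e => h (by rw [e, map_zero]), div_mul_cancel₀ _ h⟩

theorem x4_tendsto {σ : Type} [Fintype σ] (T : Model L) {g : σ → L} (hg : AlgebraicIndependent ℂ g)
    {ξ : ℙ ℂ (T.ι → ℂ)} (hξ : ξ ∈ T.Pt) (hl : T.loc ξ = pv g 0) {B : Set (σ → ℂ)}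
    {ζ : (σ → ℂ) → ℙ ℂ (T.ι → ℂ)} (hζ : ∀ c ∈ B, T.Ctr (pv g c) (ζ c)) :
    Filter.Tendsto ζ (𝓝[B] 0) (𝓝 ξ) := by
  have h1 := (T.ctr_loc hξ).ratio (nz_spec ξ)
  rw [hl] at h1
  choose P Q hQ e using fun i => (mem_pv (valid_of_ind hg 0)).1 (h1 i).1
  have hv : (fun i => ξ.rep i / ξ.rep (nz ξ)) ≠ 0 := fun h =>
    div_ne_zero (nz_spec ξ) (nz_spec ξ) (congrFun h (nz ξ))
  have h2 : Projectivization.mk ℂ _ hv = ξ := by
    refine Eq.trans ((top_mk_eq _ _ hv ξ.rep_nonzero).2 fun i j => ?_) (Projectivization.mk_rep ξ)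
    ring
  rw [← h2]
  refine top_tendsto (φ := fun c i => MvPolynomial.eval c (P i) / MvPolynomial.eval c (Q i)) hv
    (Filter.Tendsto.mono_left (tendsto_pi_nhds.2 fun i => ?_) nhdsWithin_le_nhds) ?_
  · rw [← (h1 i).2, (top_ev (valid_of_ind hg 0) (hQ i) (e i)).2]
    exact ((MvPolynomial.continuous_eval (P i)).tendsto 0).div
      ((MvPolynomial.continuous_eval (Q i)).tendsto 0) (hQ i)
  · have h3 : ∀ᶠ c in 𝓝 (0 : σ → ℂ), ∀ i, MvPolynomial.eval c (Q i) ≠ 0 :=
      Filter.eventually_all.2 fun i =>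
        (MvPolynomial.continuous_eval (Q i)).continuousAt.eventually_ne (hQ i)
    filter_upwards [h3.filter_mono nhdsWithin_le_nhds, self_mem_nhdsWithin] with c h4 h5 h6
    have h7 := fun i => top_ev (valid_of_ind hg c) (h4 i) (e i)
    simp only [div_eq_inv_mul (T.f _)] at h7
    have h8 : (fun i => (pv g c).ev ((T.f (nz ξ))⁻¹ * T.f i)) =
        fun i => MvPolynomial.eval c (P i) / MvPolynomial.eval c (Q i) := funext fun i => (h7 i).2
    rw [(hζ c h5).eq_mk (fun i => (h7 i).1) (h8 ▸ h6)]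
    simp only [h8]

theorem x4_general {σ : Type} [Fintype σ] (T : Model L) {g : σ → L} (hg : AlgebraicIndependent ℂ g)
    (hf : ∀ i, T.f i ∈ Algebra.adjoin ℂ (Set.range g))
    (hloc : ∀ ξ ∈ T.Pt, ∃ g' : σ → L, AlgebraicIndependent ℂ g' ∧
      (∀ i, g i ∈ IntermediateField.adjoin ℂ (Set.range g')) ∧ T.loc ξ = pv g' 0) :
    IsConnected T.Pt := by
  choose F hF using fun i => mem_adj_LPB.1 (hf i)
  obtain ⟨j, hj⟩ := T.ne
  let W : Set (σ → ℂ) := {c | MvPolynomial.eval c (F j) ≠ 0}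
  have h0 : ∀ c : W, (fun i => MvPolynomial.eval c.1 (F i)) ≠ 0 := fun c h => c.2 (congrFun h j)
  let ψ : W → ℙ ℂ (T.ι → ℂ) := fun c => Projectivization.mk ℂ _ (h0 c)
  have hψ : Continuous ψ := continuous_mk (continuous_pi fun i =>
    (MvPolynomial.continuous_eval (F i)).comp continuous_subtype_val) h0
  have key : ∀ (y : LP L) (c : W), (∀ i, g i ∈ y.O) → (fun i => y.ev (g i)) = c.1 →
      T.Ctr y (ψ c) := by
    intro y c h1 h2
    have h3 := fun i => y.hom.mvaeval h1 (F i)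
    simp only [hF, h2] at h3
    have h4 : (fun i => y.ev (1 * T.f i)) = fun i => MvPolynomial.eval c.1 (F i) :=
      funext fun i => by rw [one_mul, (h3 i).2]
    have h5 := T.ctr_mk (x := y) (l := 1) (fun i => by rw [one_mul]; exact (h3 i).1) (h4 ▸ h0 c)
    simpa only [h4] using h5
  have : PreconnectedSpace W := Subtype.preconnectedSpace (x4_conn (F j))
  refine ⟨T.nonempty, (isPreconnected_range hψ).subset_closure ?_ fun ξ hξ => ?_⟩
  · rintro _ ⟨c, rfl⟩
    exact (key (pv g c) c (fun i => (pv_gen (valid_of_ind hg _) i).1)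
      (funext fun i => (pv_gen (valid_of_ind hg _) i).2)).mem
  · obtain ⟨g', hg', h1, h2⟩ := hloc ξ hξ
    choose P Q hQ e using fun i => x4_frac (h1 i)
    have h3 : T.f j ∈ IntermediateField.adjoin ℂ (Set.range g') :=
      Algebra.adjoin_le (S := (IntermediateField.adjoin ℂ (Set.range g')).toSubalgebra)
        (Set.range_subset_iff.2 h1) (hf j)
    obtain ⟨P', Q', hQ', e'⟩ := x4_frac (inv_mem h3)
    have hD : Q' * ∏ i, Q i ≠ 0 := mul_ne_zero hQ' (Finset.prod_ne_zero_iff.2 fun i _ => hQ i)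
    have h4 : ∀ c : σ → ℂ, ∃ w, MvPolynomial.eval c (Q' * ∏ i, Q i) ≠ 0 →
        w ∈ Set.range ψ ∧ T.Ctr (pv g' c) w := by
      intro c
      by_cases hc : MvPolynomial.eval c (Q' * ∏ i, Q i) = 0
      · exact ⟨ξ, fun h => absurd hc h⟩
      rw [map_mul, map_prod, mul_eq_zero, not_or] at hc
      have h5 : ∀ i, g i ∈ (pv g' c).O := fun i => (top_ev (valid_of_ind hg' c)
        (Finset.prod_ne_zero_iff.1 hc.2 i (Finset.mem_univ i)) (e i)).1
      have h6 := (pv g' c).hom.mvaeval h5 (F j)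
      rw [hF] at h6
      have h7 := ((pv g' c).U_of_inv h6.1 (top_ev (valid_of_ind hg' c) hc.1 e').1 hj).2
      rw [h6.2] at h7
      exact ⟨ψ ⟨_, h7⟩, fun _ => ⟨⟨_, rfl⟩, key _ _ h5 rfl⟩⟩
    choose ζ hζ using h4
    have := x4_dense hD
    refine mem_closure_of_tendsto (x4_tendsto T hg' hξ h2
      (B := {c | MvPolynomial.eval c (Q' * ∏ i, Q i) ≠ 0}) fun c hc => (hζ c hc).2) ?_
    filter_upwards [self_mem_nhdsWithin] with c hc
    exact (hζ c hc).1

theorem Amb.X_conn : IsConnected A.X.Pt := by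
  have hs : A.s ∈ Algebra.adjoin ℂ (Set.range ![A.s, A.z]) := Algebra.subset_adjoin ⟨0, rfl⟩
  have hz : A.z ∈ Algebra.adjoin ℂ (Set.range ![A.s, A.z]) := Algebra.subset_adjoin ⟨1, rfl⟩
  refine x4_general A.X A.ind (fun p => ?_) fun ξ hξ => ?_
  · refine mul_mem ?_ (prod_mem fun m _ => ?_)
    · obtain ⟨i, e⟩ := p
      fin_cases i
      exacts [one_mem _, hs, hz]
    · generalize p.2 m = e
      cases m <;> cases e
      exacts [hz, hs, hz, one_mem _, hs, one_mem _, sub_mem hz (Subalgebra.algebraMap_mem _ _),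
        sub_mem hs (Subalgebra.algebraMap_mem _ _)]
  · obtain ⟨u, v, fu, fv, h, -, hl⟩ := A.classify hξ
    refine ⟨![u, v], h.ind, fun i => ?_, hl⟩
    rw [Matrix.range_cons_cons_empty, h.gen]
    fin_cases i
    exacts [IntermediateField.subset_adjoin _ _ (Or.inl rfl),
      IntermediateField.subset_adjoin _ _ (Or.inr rfl)]

end Vale.Agent.P300
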