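import Vale.Agent.P300.Quot
import Vale.Agent.P300.X4
import Vale.Agent.P300.Ine3
import Vale.Agent.P300.Frat1
import Vale.Agent.P300.Frat2

/-! The normalisation is connected. Take a good `F` with `N = F.fixingSubgroup ≤ H`, `Y` the
normalisation of `X` in `fx N` (`exists_norm`, `fx_span`); it dominates `S` (`dom_of_le`). Apply
`conn_of_action` to the action of `G` on `Y.Pt` (`exists_action`), `q = mp` (a continuous surjection
of compact Hausdorff spaces; fibres are orbits by `tr_lp0`, the local rings of `X` are normal by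
`classify`). A subgroup as in the hypothesis contains `N`, inertia generators `e₂` above the points
`loc_hc` (`hb_kum`) and `e₁` above nodes (`node_cusp`); `gen_pi`, `gen_G`. -/

open scoped LinearAlgebra.Projectivization Topology Classical Pointwise
open Polynomial

set_option linter.unusedSectionVars false

namespace Vale.Agent.P300

variable {L : Type} [Field L] [Algebra ℂ L] [IsAlgClosed L] (A : Amb L)

theorem Amb.conn_loc {ξ : ℙ ℂ (A.X.ι → ℂ)} (hξ : ξ ∈ A.X.Pt) :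
    (∀ a ∈ (A.X.loc ξ).O, a ∈ A.K) ∧
      ∀ a ∈ A.K, IsIntegral (A.X.loc ξ).O a → a ∈ (A.X.loc ξ).O := by
  obtain ⟨u, v, fu, fv, hc, -, e⟩ := A.classify hξ
  rw [e]
  exact ⟨hc.sub A, (hc.rg A).normal⟩

theorem Amb.conn_norm {Y : Model L} {F : IntermediateField A.K L} {a : ℕ} (hF : A.Good F a)
    (hY : IsNorm A.X (A.fx F.fixingSubgroup) Y) : IsConnected Y.Pt := by
  obtain ⟨hn, hfi, -⟩ := hF.tw.fix A hF.normal
  obtain ⟨ρ, hρ⟩ := A.exists_action A.X_in hY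
  have hρ' : ∀ g, Continuous (ρ g) ∧
      ∀ (P : LP L) (η : Y.Pt), Y.Ctr P η → Y.Ctr (A.act g P) (ρ g η) := fun g =>
    hρ g fun h hh => ⟨hn.conj_mem h hh g, by simpa using hn.conj_mem h hh g⁻¹⟩
  have uq : ∀ (g : A.G) (P : LP L) (η η' : Y.Pt), Y.Ctr P η → Y.Ctr (A.act g P) η' →
      ρ g η = η' := fun g P η η' h h' => Subtype.ext (((hρ' g).2 P η h).unique h')
  have : PreconnectedSpace A.X.Pt := Subtype.preconnectedSpace A.X_conn.isPreconnected
  have hsurj : Function.Surjective hY.dom.mp := fun x => by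
    obtain ⟨η, h1, h2⟩ := hY.dom.surj x.2
    exact ⟨⟨η, h1⟩, Subtype.ext h2⟩
  refine ⟨Y.nonempty, isPreconnected_iff_preconnectedSpace.2 ?_⟩
  refine conn_of_action ρ (fun y => ?_) (fun g h y => ?_) (fun g => (hρ' g).1) F.fixingSubgroup
    (fun g hg y => ?_) hY.dom.mp
    (hY.dom.continuous.isClosedMap.isQuotientMap hY.dom.continuous hsurj) (fun y y' => ?_)
    (fun S hS h => ?_)
  · refine uq 1 _ y y (Y.ctr_loc y.2) ?_
    rw [A.act_one]
    exact Y.ctr_loc y.2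
  · refine uq _ _ y _ (Y.ctr_loc y.2) ?_
    rw [← A.act_act]
    exact (hρ' g).2 _ _ ((hρ' h).2 _ _ (Y.ctr_loc y.2))
  · exact uq g _ y y (Y.ctr_loc y.2) (A.ctr_act A.X_in hY (Y.ctr_loc y.2) hg)
  · obtain ⟨P, hP, hc⟩ := hY.exists_ab y.2
    have hξ := hY.dom.mem y.2
    constructor
    · intro e
      obtain ⟨P', hP', hc'⟩ := hY.exists_ab y'.2
      have e' : Y.dm A.X y = Y.dm A.X y' := congrArg Subtype.val e
      rw [← e'] at hP'
      obtain ⟨g, hg⟩ := A.tr_lp0 (A.conn_loc hξ).1 (A.conn_loc hξ).2 hP hP'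
      exact ⟨g, uq g P y y' hc (by rw [hg]; exact hc')⟩
    · rintro ⟨g, rfl⟩
      obtain ⟨η, h1, h2, -⟩ := hY.ctr hξ (A.ab_act (A.conn_loc hξ).1 hP g)
      have e : (ρ g y : ℙ ℂ (Y.ι → ℂ)) = η := ((hρ' g).2 P y hc).unique h1
      refine Subtype.ext ?_
      show Y.dm A.X y = Y.dm A.X (ρ g y)
      rw [e, h2]
  · have key : ∀ u v : L, A.Ch u v true true → (∃ ξ ∈ A.X.Pt, A.X.loc ξ = cl u v) →
        ∃ P e₁ e₂, A.Fr u v P e₁ e₂ ∧ e₁ ∈ S ∧ e₂ ∈ S := by
      rintro u v hc ⟨ξ, hξ, e⟩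
      obtain ⟨y, hy, hst⟩ := h ⟨ξ, hξ⟩
      obtain ⟨P, hP, hct⟩ := hY.exists_ab y.2
      have e' : Y.dm A.X y = ξ := congrArg Subtype.val hy
      rw [e', e] at hP
      obtain ⟨e₁, e₂, hf⟩ := A.exists_fr hc.ind hc.gen hP
      refine ⟨P, e₁, e₂, hf, hst _ (uq _ P y y hct ?_), hst _ (uq _ P y y hct ?_)⟩
      · rw [(A.ip_iff (hc.sub A) hP e₁).1 hf.i1]
        exact hct
      · rw [(A.ip_iff (hc.sub A) hP e₂).1 hf.i2]
        exact hct
    have h1 : ∀ i : Sec, ∃ e, A.Kum e i ∧ e ∈ S := fun i => by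
      obtain ⟨P, e₁, e₂, hf, -, h2⟩ := key _ _ (A.ch_hc (some i)) (A.loc_hc (some i))
      exact ⟨e₂, A.hb_kum (A.ch_hc (some i)) (A.hb_hc (some i)) hf, h2⟩
    have h2 : ∀ j : Cusp, ∃ e, (∀ j', A.Acts e (A.form (.cusp j')) (if j' = j then 1 else 0)) ∧
        e ∈ S := fun j => by
      obtain ⟨n, hn⟩ : ∃ n : Nd, n.cusp = some j := by
        cases j with
        | zero => exact ⟨.zero, rfl⟩
        | cst b => exact ⟨.fin b 0, rfl⟩
      obtain ⟨P, e₁, e₂, hf, h2, -⟩ := key _ _ (A.ch_nc n) (A.loc_nc n)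
      exact ⟨e₁, A.node_cusp hn hf, h2⟩
    choose x hx hxS using h1
    choose γ hγ hγS using h2
    have h3 : A.pi ≤ S := (A.gen_pi hx hF).trans
      (sup_le ((Subgroup.closure_le _).2 (by rintro _ ⟨i, rfl⟩; exact hxS i)) hS)
    exact top_le_iff.1 ((A.gen_G hγ hF).trans
      (sup_le (sup_le h3 ((Subgroup.closure_le _).2 (by rintro _ ⟨i, rfl⟩; exact hγS i))) hS))

theorem Amb.norm_conn {S : Model L} {H : Subgroup A.G} {F : IntermediateField A.K L} {a : ℕ}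
    (hF : A.Good F a) (hN : F.fixingSubgroup ≤ H) (hS : IsNorm A.X (A.fx H) S) :
    IsConnected S.Pt := by
  have := hF.tw.finite A
  obtain ⟨h1, h2⟩ := A.fx_span F.fixingSubgroup (F := F) le_rfl
  obtain ⟨Y, hY⟩ := A.X.exists_norm h1 A.X_in A.X_gen h2
  have hle : A.fx H ≤ A.fx F.fixingSubgroup := fun b hb g => hb ⟨g.1, hN g.2⟩
  exact (hS.dom_of_le hY hle).isConnected (A.conn_norm hF hY)

end Vale.Agent.P300
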