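import Vale.Agent.P300.Defs

/-! Core definitions: local points of a field over `ℂ`, projective models, curves. See notes/P300.md. -/

open scoped LinearAlgebra.Projectivization Topology Classical
open Polynomial

namespace Vale.Agent.P300

variable {L : Type} [Field L] [Algebra ℂ L]

/-- `φ` is a `ℂ`-algebra homomorphism on `R`. -/
structure HomOn (R : Subalgebra ℂ L) (φ : L → ℂ) : Prop where
  add : ∀ a ∈ R, ∀ b ∈ R, φ (a + b) = φ a + φ b
  mul : ∀ a ∈ R, ∀ b ∈ R, φ (a * b) = φ a * φ b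
  alg : ∀ c : ℂ, φ (algebraMap ℂ L c) = c

/-- A local point: a local subalgebra with residue field `ℂ`, and its evaluation map. -/
structure LP (L : Type) [Field L] [Algebra ℂ L] where
  O : Subalgebra ℂ L
  ev : L → ℂ
  hom : HomOn O ev
  inv_mem : ∀ a ∈ O, ev a ≠ 0 → a⁻¹ ∈ O
  out : ∀ a, a ∉ O → ev a = 0

/-- domination -/
def LP.Le (x y : LP L) : Prop := ∀ a ∈ x.O, a ∈ y.O ∧ y.ev a = x.ev a

/-- the maximal ideal -/
def LP.m (x : LP L) (a : L) : Prop := a ∈ x.O ∧ x.ev a = 0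

/-- units -/
def LP.U (x : LP L) (a : L) : Prop := a ∈ x.O ∧ x.ev a ≠ 0

/-- divisibility in the local ring -/
def LP.Dvd (x : LP L) (a b : L) : Prop := ∃ c ∈ x.O, b = a * c

/-- `a` lies in the fraction field -/
def LP.Fr (x : LP L) (a : L) : Prop := ∃ b ∈ x.O, ∃ c ∈ x.O, c ≠ 0 ∧ a * c = b

def LP.Gen2 (x : LP L) (u v : L) : Prop :=
  x.m u ∧ x.m v ∧ ∀ a, x.m a → ∃ α ∈ x.O, ∃ β ∈ x.O, a = α * u + β * v

def LP.Gen3 (x : LP L) (u v w : L) : Prop :=
  x.m u ∧ x.m v ∧ x.m w ∧ ∀ a, x.m a → ∃ α ∈ x.O, ∃ β ∈ x.O, ∃ γ ∈ x.O, a = α * u + β * v + γ * w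

/-- a point of type `A (j - 1)` -/
def LP.AT (x : LP L) (j : ℕ) : Prop := ∃ u v w, x.Gen3 u v w ∧ u * v = w ^ j

/-- the maximal ideal is not the radical of a principal ideal -/
def LP.Dim2 (x : LP L) : Prop := ∀ a, x.m a → ∃ b, x.m b ∧ ∀ n : ℕ, ¬ x.Dvd a (b ^ n)

/-- regular two-dimensional normal local ring with parameters `u, v` and fraction field `F` -/
structure LP.Rg (x : LP L) (u v : L) (F : IntermediateField ℂ L) : Prop where
  noeth : IsNoetherianRing x.O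
  gen : x.Gen2 u v
  nu : ∀ n : ℕ, ¬ x.Dvd u (v ^ n)
  nv : ∀ n : ℕ, ¬ x.Dvd v (u ^ n)
  sub : ∀ a ∈ x.O, a ∈ F
  fr : ∀ a ∈ F, x.Fr a
  normal : ∀ a ∈ F, IsIntegral x.O a → a ∈ x.O

theorem HomOn.one {R : Subalgebra ℂ L} {φ : L → ℂ} (h : HomOn R φ) : φ 1 = 1 := by
  simpa using h.alg 1

theorem HomOn.zero {R : Subalgebra ℂ L} {φ : L → ℂ} (h : HomOn R φ) : φ 0 = 0 := by
  simpa using h.alg 0

theorem HomOn.ne {R : Subalgebra ℂ L} {φ : L → ℂ} (h : HomOn R φ) {c : L} (hc : φ c ≠ 0) :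
    c ≠ 0 := by
  rintro rfl
  exact hc h.zero

/-- fractions with denominators of nonzero value -/
def frAlg (R : Subalgebra ℂ L) (φ : L → ℂ) (h : HomOn R φ) : Subalgebra ℂ L where
  carrier := {a | ∃ b ∈ R, ∃ c ∈ R, φ c ≠ 0 ∧ a * c = b}
  mul_mem' := by
    rintro a a' ⟨b, hb, c, hc, h1, h2⟩ ⟨b', hb', c', hc', h1', h2'⟩
    refine ⟨b * b', R.mul_mem hb hb', c * c', R.mul_mem hc hc', ?_, ?_⟩
    · rw [h.mul c hc c' hc']; exact mul_ne_zero h1 h1'
    · rw [← h2, ← h2']; ring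
  add_mem' := by
    rintro a a' ⟨b, hb, c, hc, h1, h2⟩ ⟨b', hb', c', hc', h1', h2'⟩
    refine ⟨b * c' + b' * c, R.add_mem (R.mul_mem hb hc') (R.mul_mem hb' hc), c * c',
      R.mul_mem hc hc', ?_, ?_⟩
    · rw [h.mul c hc c' hc']; exact mul_ne_zero h1 h1'
    · rw [← h2, ← h2']; ring
  algebraMap_mem' := fun c => ⟨_, R.algebraMap_mem c, 1, R.one_mem, by rw [h.one]; simp, by simp⟩

/-- value of a fraction -/
noncomputable def frEv (R : Subalgebra ℂ L) (φ : L → ℂ) (a : L) : ℂ :=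
  if h : ∃ p : L × L, p.1 ∈ R ∧ p.2 ∈ R ∧ φ p.2 ≠ 0 ∧ a * p.2 = p.1 then
    φ h.choose.1 / φ h.choose.2 else 0

theorem frEv_eq {R : Subalgebra ℂ L} {φ : L → ℂ} (h : HomOn R φ) {a b c : L} (hb : b ∈ R)
    (hc : c ∈ R) (h1 : φ c ≠ 0) (h2 : a * c = b) : frEv R φ a = φ b / φ c := by
  have e : ∃ p : L × L, p.1 ∈ R ∧ p.2 ∈ R ∧ φ p.2 ≠ 0 ∧ a * p.2 = p.1 := ⟨(b, c), hb, hc, h1, h2⟩
  obtain ⟨k1, k2, k3, k4⟩ := e.choose_spec
  rw [frEv, dif_pos e, div_eq_div_iff k3 h1, ← h.mul _ k1 _ hc, ← h.mul _ hb _ k2, ← k4, ← h2]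
  congr 1
  ring

/-- localisation of `R` at the kernel of `φ` -/
noncomputable def frLP (R : Subalgebra ℂ L) (φ : L → ℂ) (h : HomOn R φ) : LP L where
  O := frAlg R φ h
  ev := frEv R φ
  hom := by
    refine ⟨?_, ?_, fun c => ?_⟩
    · rintro a ⟨b, hb, c, hc, h1, h2⟩ a' ⟨b', hb', c', hc', h1', h2'⟩
      rw [frEv_eq h hb hc h1 h2, frEv_eq h hb' hc' h1' h2',
        frEv_eq h (R.add_mem (R.mul_mem hb hc') (R.mul_mem hb' hc)) (R.mul_mem hc hc')
          (by rw [h.mul c hc c' hc']; exact mul_ne_zero h1 h1') (by rw [← h2, ← h2']; ring),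
        h.add _ (R.mul_mem hb hc') _ (R.mul_mem hb' hc), h.mul _ hb _ hc', h.mul _ hb' _ hc,
        h.mul _ hc _ hc']
      field_simp
    · rintro a ⟨b, hb, c, hc, h1, h2⟩ a' ⟨b', hb', c', hc', h1', h2'⟩
      rw [frEv_eq h hb hc h1 h2, frEv_eq h hb' hc' h1' h2',
        frEv_eq h (R.mul_mem hb hb') (R.mul_mem hc hc')
          (by rw [h.mul c hc c' hc']; exact mul_ne_zero h1 h1') (by rw [← h2, ← h2']; ring),
        h.mul _ hb _ hb', h.mul _ hc _ hc']
      field_simp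
    · rw [frEv_eq h (R.algebraMap_mem c) R.one_mem (by rw [h.one]; simp) (mul_one _), h.alg, h.one,
        div_one]
  inv_mem := by
    rintro a ⟨b, hb, c, hc, h1, h2⟩ ha
    rw [frEv_eq h hb hc h1 h2] at ha
    have hb0 : φ b ≠ 0 := fun e => ha (by rw [e, zero_div])
    have ha0 : a ≠ 0 := by
      rintro rfl
      exact h.ne hb0 (by rw [← h2, zero_mul])
    exact ⟨c, hc, b, hb, hb0, by rw [← h2]; field_simp⟩
  out := fun a ha => dif_neg fun ⟨p, h1, h2, h3, h4⟩ => ha ⟨p.1, h1, p.2, h2, h3, h4⟩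

theorem homOn_bot : HomOn (⊥ : Subalgebra ℂ L) (Function.invFun (algebraMap ℂ L)) := by
  have e := Function.leftInverse_invFun (algebraMap ℂ L).injective
  refine ⟨?_, ?_, e⟩
  · intro a ha b hb
    obtain ⟨a, rfl⟩ := Algebra.mem_bot.1 ha
    obtain ⟨b, rfl⟩ := Algebra.mem_bot.1 hb
    rw [← map_add, e, e, e]
  · intro a ha b hb
    obtain ⟨a, rfl⟩ := Algebra.mem_bot.1 ha
    obtain ⟨b, rfl⟩ := Algebra.mem_bot.1 hb
    rw [← map_mul, e, e, e]

/-- total version of `frLP` -/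
noncomputable def mkLP (R : Subalgebra ℂ L) (φ : L → ℂ) : LP L :=
  if h : HomOn R φ then frLP R φ h else frLP ⊥ _ homOn_bot

theorem mem_mkLP {R : Subalgebra ℂ L} {φ : L → ℂ} (h : HomOn R φ) {a : L} :
    a ∈ (mkLP R φ).O ↔ ∃ b ∈ R, ∃ c ∈ R, φ c ≠ 0 ∧ a * c = b := by
  rw [mkLP, dif_pos h]; rfl

theorem ev_mkLP {R : Subalgebra ℂ L} {φ : L → ℂ} (h : HomOn R φ) {a b c : L} (hb : b ∈ R)
    (hc : c ∈ R) (h1 : φ c ≠ 0) (h2 : a * c = b) : (mkLP R φ).ev a = φ b / φ c := by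
  rw [mkLP, dif_pos h]; exact frEv_eq h hb hc h1 h2

/-- the local ring of the algebra generated by `g` at the point with coordinates `c` -/
noncomputable def pv {ι : Type} (g : ι → L) (c : ι → ℂ) : LP L :=
  mkLP (Algebra.adjoin ℂ (Set.range g)) fun a =>
    if h : ∃ P : MvPolynomial ι ℂ, MvPolynomial.aeval g P = a then MvPolynomial.eval c h.choose
    else 0

/-- the local ring of `ℂ[u, v]` at the origin -/
noncomputable def cl (u v : L) : LP L := pv ![u, v] 0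

/-- a projective model: a finite nonzero tuple of elements of `L` -/
structure Model (L : Type) [Field L] where
  ι : Type
  [fin : Fintype ι]
  f : ι → L
  ne : ∃ i, f i ≠ 0

instance (T : Model L) : Fintype T.ι := T.fin

/-- the projective variety of the model -/
def Model.Pt (T : Model L) : Set (ℙ ℂ (T.ι → ℂ)) :=
  {ξ | ∀ (F : MvPolynomial T.ι ℂ) (d : ℕ), F.IsHomogeneous d → MvPolynomial.aeval T.f F = 0 →
    MvPolynomial.eval ξ.rep F = 0}

/-- `ξ` is the centre of the local point `x` on the model -/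
def Model.Ctr (T : Model L) (x : LP L) (ξ : ℙ ℂ (T.ι → ℂ)) : Prop :=
  ∃ l : L, (∀ i, l * T.f i ∈ x.O) ∧ ∀ i, ξ.rep i = x.ev (l * T.f i)

/-- the model is regular at the local point -/
def Model.Reg (T : Model L) (x : LP L) : Prop :=
  ∃ l : L, (∀ i, l * T.f i ∈ x.O) ∧ ∃ i, x.ev (l * T.f i) ≠ 0

/-- an index with nonzero coordinate -/
noncomputable def nz {ι : Type} (ξ : ℙ ℂ (ι → ℂ)) : ι :=
  (Function.ne_iff.1 ξ.rep_nonzero).choose

theorem nz_spec {ι : Type} (ξ : ℙ ℂ (ι → ℂ)) : ξ.rep (nz ξ) ≠ 0 :=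
  (Function.ne_iff.1 ξ.rep_nonzero).choose_spec

/-- local ring of the model at a point -/
noncomputable def Model.loc (T : Model L) (ξ : ℙ ℂ (T.ι → ℂ)) : LP L :=
  pv (fun i => T.f i / T.f (nz ξ)) fun i => ξ.rep i / ξ.rep (nz ξ)

/-- `T` dominates `S` -/
def Model.Dom (T S : Model L) : Prop := ∀ ξ ∈ T.Pt, S.Reg (T.loc ξ)

/-- the map between the varieties when `T` dominates `S` -/
noncomputable def Model.dm (T S : Model L) (ξ : ℙ ℂ (T.ι → ℂ)) : ℙ ℂ (S.ι → ℂ) :=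
  if h : ∃ η, S.Ctr (T.loc ξ) η then h.choose
  else Projectivization.mk ℂ (fun _ => 1) (Function.ne_iff.2 ⟨S.ne.choose, one_ne_zero⟩)

/-- all ratios of the tuple lie in `M` -/
def Model.In (T : Model L) (M : IntermediateField ℂ L) : Prop := ∀ i j, T.f i / T.f j ∈ M

/-- two algebraically independent elements in the function field -/
def Model.Tr2 (T : Model L) : Prop :=
  ∃ u v : L, AlgebraicIndependent ℂ ![u, v] ∧ ∀ ξ ∈ T.Pt, (T.loc ξ).Fr u ∧ (T.loc ξ).Fr v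

/-- Segre join -/
def Model.seg (T S : Model L) : Model L where
  ι := T.ι × S.ι
  f := fun p => T.f p.1 * S.f p.2
  ne := ⟨(T.ne.choose, S.ne.choose), mul_ne_zero T.ne.choose_spec S.ne.choose_spec⟩

/-- a polynomial curve in a subset of projective space -/
structure Curve {ι : Type} (X : Set (ℙ ℂ (ι → ℂ))) where
  Φ : ι → ℂ[X]
  ne : ∀ t : ℂ, (fun i => (Φ i).eval t) ≠ 0
  mem : ∀ t : ℂ, Projectivization.mk ℂ (fun i => (Φ i).eval t) (ne t) ∈ X

/-- point of a curve -/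
noncomputable def Curve.pt {ι : Type} {X : Set (ℙ ℂ (ι → ℂ))} (c : Curve X) (t : ℂ) :
    ℙ ℂ (ι → ℂ) := Projectivization.mk ℂ (fun i => (c.Φ i).eval t) (c.ne t)

/-- two points of a curve on which `β` is constant -/
def CStep {ι : Type} {Y : Type} (X : Set (ℙ ℂ (ι → ℂ))) (β : ℙ ℂ (ι → ℂ) → Y)
    (a b : ℙ ℂ (ι → ℂ)) : Prop :=
  ∃ (c : Curve X) (t t' : ℂ), a = c.pt t ∧ b = c.pt t' ∧ ∀ r, β (c.pt r) = β a

/-- fibres of `T → S` are connected by chains of contracted curves -/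
def Model.FibConn (T S : Model L) : Prop :=
  ∀ a ∈ T.Pt, ∀ b ∈ T.Pt, T.dm S a = T.dm S b → Relation.ReflTransGen (CStep T.Pt (T.dm S)) a b

/-- step along a curve with a continuous lift -/
def LStep {ι : Type} {S S' : Type} [TopologicalSpace S'] (X : Set (ℙ ℂ (ι → ℂ))) (β : X → S)
    (π : S' → S) (a b : X × S') : Prop :=
  ∃ (c : Curve X) (ψ : ℂ → S') (t t' : ℂ), Continuous ψ ∧ (∀ r, π (ψ r) = β ⟨c.pt r, c.mem r⟩) ∧
    a = (⟨c.pt t, c.mem t⟩, ψ t) ∧ b = (⟨c.pt t', c.mem t'⟩, ψ t')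

/-- integral closure of the local ring in `M` -/
def Bx (x : LP L) (M : IntermediateField ℂ L) : Subalgebra ℂ L :=
  (integralClosure x.O L).restrictScalars ℂ ⊓ M.toSubalgebra

theorem mem_Bx {x : LP L} {M : IntermediateField ℂ L} {b : L} :
    b ∈ Bx x M ↔ IsIntegral x.O b ∧ b ∈ M := Iff.rfl

/-- `y` is a point of the normalisation in `M` above `x` -/
structure NP (x : LP L) (M : IntermediateField ℂ L) (y : LP L) : Prop where
  le : x.Le y
  int : ∀ b ∈ Bx x M, b ∈ y.O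
  fr : ∀ a ∈ y.O, ∃ b ∈ Bx x M, ∃ c ∈ Bx x M, y.ev c ≠ 0 ∧ a * c = b

/-- restriction of a point `P` above `x` to the subfield `M` -/
noncomputable def res (x : LP L) (M : IntermediateField ℂ L) (P : LP L) : LP L :=
  mkLP (Bx x M) P.ev

/-- `S` is the normalisation of `T` in `M` -/
structure IsNorm (T : Model L) (M : IntermediateField ℂ L) (S : Model L) : Prop where
  dom : S.Dom T
  inn : S.In M
  np : ∀ η ∈ S.Pt, NP (T.loc (S.dm T η)) M (S.loc η)
  reg : ∀ ξ ∈ T.Pt, ∀ y : LP L, (T.loc ξ).Le y → (∀ b ∈ Bx (T.loc ξ) M, b ∈ y.O) → S.Reg y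

/-- `V` is a valuation ring with `u` in the maximal ideal and `v` of transcendental residue -/
structure Over (V : ValuationSubring L) (u v : L) : Prop where
  alg : ∀ c : ℂ, algebraMap ℂ L c ∈ V
  hu : u ∈ V.nonunits
  hv : v ∈ V
  tr : ∀ P : ℂ[X], P ≠ 0 → aeval v P ∉ V.nonunits

/-- unit of a valuation ring -/
def VU (V : ValuationSubring L) (a : L) : Prop := a ∈ V ∧ a ∉ V.nonunits

/-- the point `t = t₀` of the rational curve defined by `V` and `t` -/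
noncomputable def cv (V : ValuationSubring L) (t : L) (t₀ : ℂ) : LP L :=
  mkLP (Algebra.adjoin ℂ (insert t (V.nonunits : Set L))) fun a =>
    if h : ∃ P : ℂ[X], a - aeval t P ∈ V.nonunits then h.choose.eval t₀ else 0

/-- the residues of `V ∩ M` are rational functions of the residue of `t` -/
structure RatOn (V : ValuationSubring L) (M : IntermediateField ℂ L) (t : L) : Prop where
  alg : ∀ c : ℂ, algebraMap ℂ L c ∈ V
  ht : t ∈ V
  tr : ∀ P : ℂ[X], P ≠ 0 → aeval t P ∉ V.nonunits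
  rat : ∀ a ∈ M, a ∈ V → ∃ P Q : ℂ[X], Q ≠ 0 ∧ aeval t Q * a - aeval t P ∈ V.nonunits

/-- transport of a local point by an automorphism -/
def LP.map (g : L ≃ₐ[ℂ] L) (x : LP L) : LP L where
  O := x.O.comap (g.symm : L →ₐ[ℂ] L)
  ev := fun a => x.ev (g.symm a)
  hom := ⟨fun a ha b hb => by rw [map_add]; exact x.hom.add _ ha _ hb,
    fun a ha b hb => by rw [map_mul]; exact x.hom.mul _ ha _ hb,
    fun c => by rw [AlgEquiv.commutes]; exact x.hom.alg c⟩
  inv_mem := fun a ha h => by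
    show g.symm a⁻¹ ∈ x.O
    rw [map_inv₀]
    exact x.inv_mem _ ha h
  out := fun _ ha => x.out _ ha

/-- mod 2 dimension subgroups, as a predicate -/
def DimS (G : Type) [Group G] (n : ℕ) (g : G) : Prop :=
  MonoidAlgebra.of (ZMod 2) G g - 1 ∈
    (Ideal.span (Set.range fun h : G => MonoidAlgebra.of (ZMod 2) G h - 1)) ^ n

/-- elements acting trivially on `P` modulo `A` -/
def Cen {G : Type} [Group G] (P A : Subgroup G) (g : G) : Prop :=
  ∀ h ∈ P, g * h * g⁻¹ * h⁻¹ ∈ A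

end Vale.Agent.P300
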