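import Mathlib

/-! Statement definitions for P300 (Shafarevich holomorphic convexity conjecture). -/

open scoped LinearAlgebra.Projectivization Topology

namespace Vale.Agent.P300

/-- The classical (quotient) topology on complex projective space. -/
instance projTop (ι : Type) : TopologicalSpace (ℙ ℂ (ι → ℂ)) :=
  inferInstanceAs (TopologicalSpace (Quotient (projectivizationSetoid ℂ (ι → ℂ))))

/-- `X` is the common zero set of a family of homogeneous polynomials. -/
def IsProjAlg {ι : Type} (X : Set (ℙ ℂ (ι → ℂ))) : Prop :=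
  ∃ S : Set (MvPolynomial ι ℂ), (∀ F ∈ S, ∃ d, F.IsHomogeneous d) ∧
    ∀ (v : ι → ℂ) (hv : v ≠ 0),
      Projectivization.mk ℂ v hv ∈ X ↔ ∀ F ∈ S, MvPolynomial.eval v F = 0

/-- Near each of its points `X` is cut out by homogeneous polynomials with linearly independent
differentials. -/
def IsSmoothProj {ι : Type} (X : Set (ℙ ℂ (ι → ℂ))) : Prop :=
  ∀ (v : ι → ℂ) (hv : v ≠ 0), Projectivization.mk ℂ v hv ∈ X →
    ∃ (c : ℕ) (F : Fin c → MvPolynomial ι ℂ), (∀ i, ∃ d, (F i).IsHomogeneous d) ∧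
      LinearIndependent ℂ (fun i => fun j => MvPolynomial.eval v (MvPolynomial.pderiv j (F i))) ∧
      ∀ᶠ w in 𝓝 v, ∀ hw : w ≠ 0,
        Projectivization.mk ℂ w hw ∈ X ↔ ∀ i, MvPolynomial.eval w (F i) = 0

/-- `g` is holomorphic on the covering space `p : E → X`: near each point it is the pull-back of a
holomorphic function of the homogeneous coordinates. -/
def IsHol {ι : Type} [Fintype ι] {X : Set (ℙ ℂ (ι → ℂ))} {E : Type} [TopologicalSpace E]
    (p : E → X) (g : E → ℂ) : Prop :=
  ∀ e : E, ∃ (v : ι → ℂ) (hv : v ≠ 0), Projectivization.mk ℂ v hv = (p e).1 ∧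
    ∃ (W : Set (ι → ℂ)) (G : (ι → ℂ) → ℂ), IsOpen W ∧ v ∈ W ∧ DifferentiableOn ℂ G W ∧
      ∀ᶠ e' in 𝓝 e, ∀ w ∈ W, ∀ hw : w ≠ 0, Projectivization.mk ℂ w hw = (p e').1 → g e' = G w

/-- The holomorphic hull of every nonempty compact set is compact. -/
def HolConvex {ι : Type} [Fintype ι] {X : Set (ℙ ℂ (ι → ℂ))} {E : Type} [TopologicalSpace E]
    (p : E → X) : Prop :=
  ∀ C : Set E, IsCompact C → C.Nonempty →
    IsCompact {e | ∀ g : E → ℂ, IsHol p g → ‖g e‖ ≤ sSup ((fun a => ‖g a‖) '' C)}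

/-- `p : E → X` is a universal cover: a surjective covering map from a simply connected space. -/
def IsUnivCover {X E : Type} [TopologicalSpace X] [TopologicalSpace E] (p : E → X) : Prop :=
  IsCoveringMap p ∧ Function.Surjective p ∧ SimplyConnectedSpace E

end Vale.Agent.P300
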