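import Vale.Agent.P300.LPB

/-! Extension of local points.
`exists_reg`: take a valuation subring `V` dominating `x.O` (`LocalSubring.exists_le_valuationSubring`
or `IsLocalRing.exists_factor_valuationRing`), `j` with `f i / f j ∈ V` for all `i`; the finitely
generated `x.O`-algebra `R = x.O[f i / f j]` has a maximal ideal containing `V.nonunits ∩ R`; its
residue field is finitely generated over `ℂ`, hence `ℂ` (Zariski lemma
`finite_of_finite_type_of_isJacobsonRing`, `IsAlgClosed.algebraMap_bijective_of_isIntegral`).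
`hom_ext_int`: lying over (`Ideal.exists_ideal_over_prime_of_isIntegral`), the residue field is
integral over `ℂ`. -/

open scoped LinearAlgebra.Projectivization Topology Classical
open Polynomial

namespace Vale.Agent.P300

variable {L : Type} [Field L] [Algebra ℂ L]

theorem Ext_hom (B : Subalgebra ℂ L) (Q : Ideal B) [Q.IsPrime] [Algebra.IsIntegral ℂ (B ⧸ Q)] :
    ∃ ψ : L → ℂ, HomOn B ψ ∧ ∀ a : B, ψ a = 0 ↔ a ∈ Q := by
  let e : ℂ ≃ₐ[ℂ] (B ⧸ Q) :=
    AlgEquiv.ofBijective (Algebra.ofId ℂ (B ⧸ Q)) IsAlgClosed.algebraMap_bijective_of_isIntegral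
  let χ : B →ₐ[ℂ] ℂ := e.symm.toAlgHom.comp (Ideal.Quotient.mkₐ ℂ Q)
  have hχ : ∀ a : B, χ a = 0 ↔ a ∈ Q := fun a => by
    change e.symm (Ideal.Quotient.mk Q a) = 0 ↔ _
    rw [map_eq_zero_iff _ e.symm.injective, Ideal.Quotient.eq_zero_iff_mem]
  refine ⟨fun a => if h : a ∈ B then χ ⟨a, h⟩ else 0, ⟨fun a ha b hb => ?_, fun a ha b hb => ?_,
    fun c => ?_⟩, fun a => ?_⟩
  · rw [dif_pos ha, dif_pos hb, dif_pos (B.add_mem ha hb), ← map_add]
    rfl
  · rw [dif_pos ha, dif_pos hb, dif_pos (B.mul_mem ha hb), ← map_mul]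
    rfl
  · rw [dif_pos (B.algebraMap_mem c)]
    exact χ.commutes c
  · simp only [dif_pos a.2]
    exact hχ a

theorem Ext_max (B : Subalgebra ℂ L) (Q : Ideal B) [Q.IsMaximal]
    [Algebra.FiniteType ℂ (B ⧸ Q)] : ∃ ψ : L → ℂ, HomOn B ψ ∧ ∀ a : B, ψ a = 0 ↔ a ∈ Q := by
  have h1 : Module.Finite ℂ (B ⧸ Q) := by
    let _ := Ideal.Quotient.field Q
    exact finite_of_finite_type_of_isJacobsonRing ℂ (B ⧸ Q)
  have h2 : Algebra.IsIntegral ℂ (B ⧸ Q) := Algebra.IsIntegral.of_finite ℂ (B ⧸ Q)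
  exact Ext_hom B Q

theorem Ext_val {B : Subalgebra ℂ L} {ψ : L → ℂ} (h : HomOn B ψ) {a : L} (ha : a ∈ B) {c : ℂ}
    (e : ψ (a - algebraMap ℂ L c) = 0) : ψ a = c := by
  rw [h.sub ha (B.algebraMap_mem c), h.alg] at e
  exact sub_eq_zero.1 e

theorem Ext_int_mono {R R' : Subalgebra ℂ L} (h : R ≤ R') {b : L} (hb : IsIntegral R b) :
    IsIntegral R' b :=
  hb.map_of_comp_eq (Subalgebra.inclusion h).toRingHom (RingHom.id L) rfl

theorem Ext_int_trans {R B : Subalgebra ℂ L} (hRB : R ≤ B) (hB : ∀ b ∈ B, IsIntegral R b) {a : L}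
    (ha : IsIntegral B a) : IsIntegral R a := by
  let _ : Algebra R B := (Subalgebra.inclusion hRB).toRingHom.toAlgebra
  have : IsScalarTower R B L := IsScalarTower.of_algebraMap_eq fun _ => rfl
  have : Algebra.IsIntegral R B :=
    ⟨fun b => (isIntegral_algebraMap_iff (B := L) Subtype.val_injective).1 (hB b b.2)⟩
  exact isIntegral_trans a ha

theorem Ext_O_le {x : LP L} {M : IntermediateField ℂ L} (hx : ∀ a ∈ x.O, a ∈ M) : x.O ≤ Bx x M :=
  fun a ha => mem_Bx.2 ⟨isIntegral_algebraMap (x := (⟨a, ha⟩ : x.O)), hx a ha⟩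

theorem Ext_Bx_mono (x : LP L) {M M' : IntermediateField ℂ L} (hM : M ≤ M') : Bx x M ≤ Bx x M' :=
  fun _ ha => mem_Bx.2 ⟨(mem_Bx.1 ha).1, hM (mem_Bx.1 ha).2⟩

theorem exists_reg (x : LP L) (T : Model L) : ∃ y, x.Le y ∧ T.Reg y := by
  obtain ⟨V, hV, hloc⟩ := IsLocalRing.exists_factor_valuationRing (x.O.val : x.O →+* L)
  obtain ⟨i₀, hi₀⟩ := T.ne
  obtain ⟨j, -, hj⟩ := Finset.exists_max_image Finset.univ (fun i => V.valuation (T.f i))
    ⟨i₀, Finset.mem_univ _⟩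
  have hj0 : T.f j ≠ 0 := by
    intro e
    have h1 := hj i₀ (Finset.mem_univ _)
    rw [e, map_zero, le_zero_iff, map_eq_zero] at h1
    exact hi₀ h1
  have hg : ∀ i, (T.f j)⁻¹ * T.f i ∈ V := fun i => by
    rw [← V.valuation_le_one_iff, map_mul, map_inv₀]
    have h2 : V.valuation (T.f j) ≠ 0 := (_root_.map_ne_zero _).2 hj0
    rw [inv_mul_le_iff₀ (zero_lt_iff.2 h2), mul_one]
    exact hj i (Finset.mem_univ _)
  let R : Subalgebra ℂ L :=
    Algebra.adjoin ℂ ((x.O : Set L) ∪ Set.range fun i => (T.f j)⁻¹ * T.f i)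
  have hxR : ∀ a ∈ x.O, a ∈ R := fun a ha => Algebra.subset_adjoin (Or.inl ha)
  have hgR : ∀ i, (T.f j)⁻¹ * T.f i ∈ R := fun i => Algebra.subset_adjoin (Or.inr ⟨i, rfl⟩)
  have hRV : ∀ a ∈ R, a ∈ V := by
    intro a ha
    induction ha using Algebra.adjoin_induction with
    | mem a h =>
      rcases h with h | ⟨i, rfl⟩
      · exact hV ⟨a, h⟩
      · exact hg i
    | algebraMap c => exact hV ⟨_, x.O.algebraMap_mem c⟩
    | add a b _ _ ha hb => exact V.add_mem _ _ ha hb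
    | mul a b _ _ ha hb => exact V.mul_mem _ _ ha hb
  let ρ : R →+* V := (R.val : R →+* L).codRestrict V.toSubring fun a => hRV a a.2
  obtain ⟨m, hm, hIm⟩ := Ideal.exists_le_maximal ((IsLocalRing.maximalIdeal V).comap ρ)
    (Ideal.comap_ne_top _ (IsLocalRing.maximalIdeal.isMaximal V).ne_top)
  have hmm : ∀ a (ha : a ∈ x.O), (⟨a - algebraMap ℂ L (x.ev a),
      R.sub_mem (hxR a ha) (R.algebraMap_mem _)⟩ : R) ∈ m := by
    intro a ha
    apply hIm
    have h1 := x.m_sub_ev ha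
    have h2 : ¬ IsUnit (⟨_, h1.1⟩ : x.O) := by
      rw [LP.isUnit_iff]
      exact fun h => h h1.2
    exact fun h => h2 (hloc.1 _ h)
  have : Algebra.FiniteType ℂ (R ⧸ m) := by
    refine ⟨Subalgebra.fg_def.2 ⟨Set.range fun i => Ideal.Quotient.mk m ⟨_, hgR i⟩,
      Set.finite_range _, ?_⟩⟩
    rw [eq_top_iff]
    rintro q -
    obtain ⟨⟨a, ha⟩, rfl⟩ := Ideal.Quotient.mk_surjective q
    induction ha using Algebra.adjoin_induction with
    | mem a h =>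
      rcases h with h | ⟨i, rfl⟩
      · have e : Ideal.Quotient.mk m ⟨a, hxR a h⟩ = algebraMap ℂ (R ⧸ m) (x.ev a) :=
          Ideal.Quotient.eq.2 (hmm a h)
        exact e ▸ Subalgebra.algebraMap_mem _ _
      · exact Algebra.subset_adjoin ⟨i, rfl⟩
    | algebraMap c => exact Subalgebra.algebraMap_mem _ c
    | add a b _ _ ha hb => exact Subalgebra.add_mem _ ha hb
    | mul a b _ _ ha hb => exact Subalgebra.mul_mem _ ha hb
  obtain ⟨ψ, hψ, hk⟩ := Ext_max R m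
  refine ⟨mkLP R ψ, fun a ha => ?_, (T.f j)⁻¹, fun i => (mkLP_base hψ (hgR i)).1, j, ?_⟩
  · obtain ⟨h1, h2⟩ := mkLP_base hψ (hxR a ha)
    exact ⟨h1, h2.trans (Ext_val hψ (hxR a ha) ((hk _).2 (hmm a ha)))⟩
  · rw [inv_mul_cancel₀ hj0, (mkLP R ψ).hom.one]
    exact one_ne_zero

/-- extension of a homomorphism along an integral extension, killing a given prime `Q` of the big
ring whose trace is killed -/
theorem hom_ext_int {R B : Subalgebra ℂ L} {φ : L → ℂ} (h : HomOn R φ) (hRB : R ≤ B)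
    (hB : ∀ b ∈ B, IsIntegral R b) (Q : Ideal B) [Q.IsPrime]
    (hQ : ∀ a : B, a ∈ Q → (a : L) ∈ R → φ a = 0) :
    ∃ ψ : L → ℂ, HomOn B ψ ∧ (∀ a ∈ R, ψ a = φ a) ∧ ∀ a : B, a ∈ Q → ψ a = 0 := by
  let _ : Algebra R B := (Subalgebra.inclusion hRB).toRingHom.toAlgebra
  have : IsScalarTower R B L := IsScalarTower.of_algebraMap_eq fun _ => rfl
  have : Algebra.IsIntegral R B :=
    ⟨fun b => (isIntegral_algebraMap_iff (B := L) Subtype.val_injective).1 (hB b b.2)⟩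
  let χ : R →+* ℂ :=
    { toFun := fun a => φ a
      map_one' := h.one
      map_mul' := fun a b => h.mul _ a.2 _ b.2
      map_zero' := h.zero
      map_add' := fun a b => h.add _ a.2 _ b.2 }
  have : (RingHom.ker χ).IsPrime := RingHom.ker_isPrime χ
  obtain ⟨Q', hQQ, hQ', hc⟩ := Ideal.exists_ideal_over_prime_of_isIntegral (RingHom.ker χ) Q
    (fun a ha => hQ (algebraMap R B a) ha a.2)
  have hmem : ∀ a (ha : a ∈ R), (⟨a - algebraMap ℂ L (φ a),
      B.sub_mem (hRB ha) (B.algebraMap_mem _)⟩ : B) ∈ Q' := by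
    intro a ha
    have h1 : (⟨a - algebraMap ℂ L (φ a), R.sub_mem ha (R.algebraMap_mem _)⟩ : R)
        ∈ RingHom.ker χ := by
      change φ (a - algebraMap ℂ L (φ a)) = 0
      rw [h.sub ha (R.algebraMap_mem _), h.alg, sub_self]
    rw [← hc] at h1
    exact h1
  have : Algebra.IsIntegral ℂ (B ⧸ Q') := by
    refine ⟨fun q => ?_⟩
    obtain ⟨b, rfl⟩ := Ideal.Quotient.mk_surjective q
    refine (Algebra.IsIntegral.isIntegral (R := R) b).map_of_comp_eq χ (Ideal.Quotient.mk Q') ?_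
    ext a
    exact (Ideal.Quotient.eq.2 (hmem a a.2)).symm
  obtain ⟨ψ, hψ, hk⟩ := Ext_hom B Q'
  exact ⟨ψ, hψ, fun a ha => Ext_val hψ (hRB ha) ((hk _).2 (hmem a ha)),
    fun a ha => (hk a).2 (hQQ ha)⟩

/-- a proper prime of an integral extension of a finitely generated algebra has a complex point -/
theorem hom_of_fg {R B : Subalgebra ℂ L} (hR : R.FG) (hRB : R ≤ B) (hB : ∀ b ∈ B, IsIntegral R b)
    (Q : Ideal B) [Q.IsPrime] : ∃ ψ : L → ℂ, HomOn B ψ ∧ ∀ a : B, a ∈ Q → ψ a = 0 := by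
  obtain ⟨m, hm, hIm⟩ := Ideal.exists_le_maximal (Q.comap (Subalgebra.inclusion hRB))
    (Ideal.comap_ne_top _ (Ideal.IsPrime.ne_top inferInstance))
  have : Algebra.FiniteType ℂ R := (Subalgebra.fg_iff_finiteType R).1 hR
  obtain ⟨φ, hφ, hk⟩ := Ext_max R m
  obtain ⟨ψ, h1, -, h2⟩ := hom_ext_int hφ hRB hB Q
    (fun a ha ha' => (hk ⟨a, ha'⟩).2 (hIm ha))
  exact ⟨ψ, h1, h2⟩

theorem np_mk {x : LP L} {M : IntermediateField ℂ L} (hx : ∀ a ∈ x.O, a ∈ M) {ψ : L → ℂ}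
    (h : HomOn (Bx x M) ψ) (h' : ∀ a ∈ x.O, ψ a = x.ev a) : NP x M (mkLP (Bx x M) ψ) := by
  refine ⟨fun a ha => ?_, fun b hb => (mkLP_base h hb).1, fun a ha => ?_⟩
  · obtain ⟨h1, h2⟩ := mkLP_base h (Ext_O_le hx ha)
    exact ⟨h1, h2.trans (h' a ha)⟩
  · obtain ⟨b, hb, c, hc, h1, h2⟩ := (mem_mkLP h).1 ha
    exact ⟨b, hb, c, hc, by rw [(mkLP_base h hc).2]; exact h1, h2⟩

theorem exists_ab (x : LP L) : ∃ P, NP x ⊤ P := by
  obtain ⟨ψ, h1, h2, -⟩ := hom_ext_int x.hom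
    (Ext_O_le (M := ⊤) fun _ _ => IntermediateField.mem_top) (fun b hb => (mem_Bx.1 hb).1) ⊥
    (fun a ha _ => by rw [Ideal.mem_bot.1 ha]; exact x.hom.zero)
  exact ⟨_, np_mk (fun _ _ => IntermediateField.mem_top) h1 h2⟩

theorem res_np {x P : LP L} {M M' : IntermediateField ℂ L} (h : NP x M' P) (hM : M ≤ M')
    (hx : ∀ a ∈ x.O, a ∈ M) : NP x M (res x M P) ∧ (res x M P).Le P := by
  have h1 : HomOn (Bx x M) P.ev := P.hom.mono fun b hb => h.int b (Ext_Bx_mono x hM hb)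
  exact ⟨np_mk hx h1 fun a ha => (h.le a ha).2,
    mkLP_le h1 fun a ha => ⟨h.int a (Ext_Bx_mono x hM ha), rfl⟩⟩

theorem NP.eq_res {x y P : LP L} {M : IntermediateField ℂ L} (h : NP x M y) (hP : y.Le P) :
    y = res x M P := by
  have h1 : HomOn (Bx x M) P.ev := P.hom.mono fun b hb => (hP b (h.int b hb)).1
  refine LP.ext' (fun a ha => ?_) (mkLP_le h1 fun a ha => ⟨h.int a ha, (hP a (h.int a ha)).2.symm⟩)
  obtain ⟨b, hb, c, hc, h2, h3⟩ := h.fr a ha
  have h4 : P.ev c ≠ 0 := by rw [(hP c (h.int c hc)).2]; exact h2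
  refine ⟨(mem_mkLP h1).2 ⟨b, hb, c, hc, h4, h3⟩, ?_⟩
  rw [res, ev_mkLP h1 hb hc h4 h3, (hP c (h.int c hc)).2, (hP b (h.int b hb)).2, ← h3,
    y.hom.mul a ha c (h.int c hc), mul_div_cancel_right₀ _ h2]

theorem NP.sub {x y : LP L} {M : IntermediateField ℂ L} (h : NP x M y) : ∀ a ∈ y.O, a ∈ M := by
  intro a ha
  obtain ⟨b, hb, c, hc, h2, h3⟩ := h.fr a ha
  rw [eq_div_of_mul_eq (y.hom.ne h2) h3]
  exact M.div_mem (mem_Bx.1 hb).2 (mem_Bx.1 hc).2

theorem NP.ext {x y y' : LP L} {M : IntermediateField ℂ L} (h : NP x M y) (h' : NP x M y')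
    (e : ∀ b ∈ Bx x M, y.ev b = y'.ev b) : y = y' := by
  have h1 : (res x M y).Le y' :=
    mkLP_le (y.hom.mono h.int) fun a ha => ⟨h'.int a ha, (e a ha).symm⟩
  have h2 : (res x M y').Le y :=
    mkLP_le (y'.hom.mono h'.int) fun a ha => ⟨h.int a ha, e a ha⟩
  rw [← h.eq_res (LP.Le.refl y)] at h1
  rw [← h'.eq_res (LP.Le.refl y')] at h2
  exact LP.ext' h1 h2

theorem NP.exists_ab {x y : LP L} {M : IntermediateField ℂ L} (h : NP x M y) :
    ∃ P, NP x ⊤ P ∧ y.Le P := by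
  have hx : x.O ≤ Bx x M := Ext_O_le fun a ha => h.sub a (h.le a ha).1
  obtain ⟨ψ, h1, h2, -⟩ := hom_ext_int (y.hom.mono h.int) (Ext_Bx_mono x (le_top : M ≤ ⊤))
    (fun b hb => Ext_int_mono hx (mem_Bx.1 hb).1) ⊥
    (fun a ha _ => by rw [Ideal.mem_bot.1 ha]; exact y.hom.zero)
  refine ⟨_, np_mk (fun _ _ => IntermediateField.mem_top) h1
    fun a ha => (h2 a (hx ha)).trans (h.le a ha).2, ?_⟩
  have h3 : (res x M y).Le (mkLP (Bx x ⊤) ψ) := mkLP_le (y.hom.mono h.int) fun a ha => by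
    obtain ⟨h4, h5⟩ := mkLP_base h1 (Ext_Bx_mono x (le_top : M ≤ ⊤) ha)
    exact ⟨h4, h5.trans (h2 a ha)⟩
  rwa [← h.eq_res (LP.Le.refl y)] at h3

theorem res_mono {x P : LP L} {M M' : IntermediateField ℂ L} (h : NP x ⊤ P) (hM : M ≤ M')
    (hx : ∀ a ∈ x.O, a ∈ M) : (res x M P).Le (res x M' P) := by
  have h1 : HomOn (Bx x M) P.ev := P.hom.mono fun b hb => h.int b (Ext_Bx_mono x le_top hb)
  have h2 : HomOn (Bx x M') P.ev := P.hom.mono fun b hb => h.int b (Ext_Bx_mono x le_top hb)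
  have _ := hx
  exact mkLP_le h1 fun a ha => mkLP_base h2 (Ext_Bx_mono x hM ha)

/-- elements of `M` integral over a point of the normalisation lie in it -/
theorem NP.normal {x y : LP L} {M : IntermediateField ℂ L} (h : NP x M y) {a : L} (ha : a ∈ M)
    (hi : IsIntegral y.O a) : a ∈ y.O := by
  have hx : x.O ≤ Bx x M := Ext_O_le fun a ha => h.sub a (h.le a ha).1
  have hBy : Bx x M ≤ y.O := h.int
  let _ : Algebra (Bx x M) y.O := (Subalgebra.inclusion hBy).toRingHom.toAlgebra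
  have : IsScalarTower (Bx x M) y.O L := IsScalarTower.of_algebraMap_eq fun _ => rfl
  let S : Submonoid (Bx x M) :=
    { carrier := {c | y.ev c ≠ 0}
      one_mem' := by
        change y.ev 1 ≠ 0
        rw [y.hom.one]
        exact one_ne_zero
      mul_mem' := fun {b c} hb hc => by
        change y.ev (b * c) ≠ 0
        rw [y.hom.mul _ (hBy b.2) _ (hBy c.2)]
        exact mul_ne_zero hb hc }
  have : IsLocalization S y.O := by
    rw [isLocalization_iff]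
    refine ⟨fun s => (y.isUnit_iff _).2 s.2, fun z => ?_, fun {b c} e => ⟨1, ?_⟩⟩
    · obtain ⟨b, hb, c, hc, h2, h3⟩ := h.fr z z.2
      exact ⟨(⟨b, hb⟩, ⟨⟨c, hc⟩, h2⟩), Subtype.ext h3⟩
    · have e' : (b : L) = c := congrArg (fun z : y.O => (z : L)) e
      rw [Subtype.ext e']
  obtain ⟨s, hs⟩ := IsIntegral.exists_multiple_integral_of_isLocalization S a hi
  have h1 : IsIntegral x.O ((s.1 : L) * a) := Ext_int_trans hx (fun b hb => (mem_Bx.1 hb).1) hs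
  have h2 : (s.1 : L) * a ∈ y.O := h.int _ (mem_Bx.2 ⟨h1, M.mul_mem (mem_Bx.1 s.1.2).2 ha⟩)
  have h3 : (s.1 : L)⁻¹ ∈ y.O := y.inv_mem _ (hBy s.1.2) s.2
  have h4 := y.O.mul_mem h3 h2
  rwa [inv_mul_cancel_left₀ (y.hom.ne s.2)] at h4

theorem NP.map {x y : LP L} {M : IntermediateField ℂ L} (h : NP x M y) (g : L ≃ₐ[ℂ] L)
    (hx : ∀ a ∈ x.O, g a = a) (hM : ∀ a, g a ∈ M ↔ a ∈ M) : NP x M (y.map g) := by
  have hx' : ∀ a ∈ x.O, g.symm a = a := fun a ha => by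
    rw [AlgEquiv.symm_apply_eq, hx a ha]
  have h1 : ∀ b ∈ Bx x M, g b ∈ Bx x M := fun b hb =>
    mem_Bx.2 ⟨(mem_Bx.1 hb).1.map_of_comp_eq (RingHom.id _) (g : L →+* L)
      (RingHom.ext fun a : x.O => (hx a a.2).symm), (hM b).2 (mem_Bx.1 hb).2⟩
  have h2 : ∀ b ∈ Bx x M, g.symm b ∈ Bx x M := fun b hb =>
    mem_Bx.2 ⟨(mem_Bx.1 hb).1.map_of_comp_eq (RingHom.id _) (g.symm : L →+* L)
      (RingHom.ext fun a : x.O => (hx' a a.2).symm),
      (hM _).1 (by rw [AlgEquiv.apply_symm_apply]; exact (mem_Bx.1 hb).2)⟩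
  refine ⟨fun a ha => ?_, fun b hb => LP.mem_map.2 (h.int _ (h2 b hb)), fun a ha => ?_⟩
  · rw [LP.mem_map, LP.ev_map, hx' a ha]
    exact h.le a ha
  · obtain ⟨b, hb, c, hc, h3, h4⟩ := h.fr _ (LP.mem_map.1 ha)
    refine ⟨g b, h1 b hb, g c, h1 c hc, ?_, ?_⟩
    · rw [LP.ev_map, AlgEquiv.symm_apply_apply]
      exact h3
    · rw [← h4, map_mul, AlgEquiv.apply_symm_apply]

end Vale.Agent.P300
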