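import Vale.Agent.P300.Top

/-! The final topological argument. `hol_const`: lift `c.pt : ℂ → X` through `p`
(`IsCoveringMap.existsUnique_continuousMap_lifts`, `ℂ` is simply connected); `g ∘ lift` is entire
(locally `G (λ(t) Φ(t))`); it is bounded: by `Curve.rev` the curve converges at infinity to a point
with an evenly covered neighbourhood, `{R < ‖t‖}` is connected so the lift stays in one sheet and
converges, and `g` is continuous there; Liouville. `not_holConvex`: fix `e` over `w`; call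
`(e', s')` related if there are paths from `e` to `e'` and from `s₀` to `s'` with the same image in
`S`, and `g e' = g e` for all holomorphic `g`. Steps preserve this; the same `e'` forces the same
`s'` (`E` simply connected, `IsCoveringMap.liftPath_apply_one_eq_of_homotopicRel`). So the hull of
`{e}` meets the closed discrete fibre in at least `N` points for all `N`. -/

open scoped LinearAlgebra.Projectivization Topology Classical
open Polynomial

namespace Vale.Agent.P300

variable {L : Type} [Field L] [Algebra ℂ L]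

theorem final_rep {ι : Type} {v : ι → ℂ} (hv : v ≠ 0) :
    ∃ a : ℂ, a ≠ 0 ∧ ∀ i, (Projectivization.mk ℂ v hv).rep i = a * v i := by
  obtain ⟨a, ha⟩ := Projectivization.exists_smul_eq_mk_rep ℂ v hv
  exact ⟨a, a.ne_zero, fun i => by rw [← ha]; rfl⟩

theorem final_div {ι : Type} {v : ι → ℂ} (hv : v ≠ 0) (i j : ι) :
    (Projectivization.mk ℂ v hv).rep i / (Projectivization.mk ℂ v hv).rep j = v i / v j := by
  obtain ⟨a, ha, h⟩ := final_rep hv
  rw [h, h, mul_div_mul_left _ _ ha]

theorem final_sec {ι : Type} {X : Set (ℙ ℂ (ι → ℂ))} {E : Type} [TopologicalSpace E] {p : E → X}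
    (hp : Continuous p) (a : ℂ) {j : ι} {e : E} (h : (p e).1.rep j ≠ 0) :
    ContinuousAt (fun e' => fun i => a * ((p e').1.rep i / (p e').1.rep j)) e :=
  continuousAt_pi.2 fun i => continuousAt_const.mul
    (((continuousOn_chart i j).continuousAt ((isOpen_chart j).mem_nhds h)).comp
      (f := fun e' => (p e').1) (continuous_subtype_val.comp hp).continuousAt)

theorem final_local {ι : Type} [Fintype ι] {X : Set (ℙ ℂ (ι → ℂ))} {E : Type}
    [TopologicalSpace E] {p : E → X} (hp : Continuous p) {g : E → ℂ} (hg : IsHol p g) (e : E) :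
    ∃ (j : ι) (a : ℂ) (G : (ι → ℂ) → ℂ), (p e).1.rep j ≠ 0 ∧
      DifferentiableAt ℂ G (fun i => a * ((p e).1.rep i / (p e).1.rep j)) ∧
      ∀ᶠ e' in 𝓝 e, g e' = G fun i => a * ((p e').1.rep i / (p e').1.rep j) := by
  obtain ⟨v, hv, he, W, G, hW, hvW, hG, hev⟩ := hg e
  obtain ⟨j, hj⟩ := Function.ne_iff.1 hv
  have hj' : v j ≠ 0 := hj
  have h1 : (p e).1.rep j ≠ 0 := by
    obtain ⟨a, ha, h⟩ := final_rep hv
    rw [← he, h]
    exact mul_ne_zero ha hj'
  have h2 : (fun i => v j * ((p e).1.rep i / (p e).1.rep j)) = v := funext fun i => by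
    rw [← he, final_div, mul_div_cancel₀ _ hj']
  refine ⟨j, v j, G, h1, h2.symm ▸ hG.differentiableAt (hW.mem_nhds hvW), ?_⟩
  have h3 := (final_sec hp (v j) h1).eventually_mem (hW.mem_nhds (h2.symm ▸ hvW))
  have h4 := (continuous_subtype_val.comp hp).continuousAt.eventually_mem
    ((isOpen_chart j).mem_nhds (x := (p e).1) h1)
  filter_upwards [hev, h3, h4] with e' k1 k2 k3
  have k4 : (p e').1.rep j ≠ 0 := k3
  have k5 : (fun i => v j * ((p e').1.rep i / (p e').1.rep j)) ≠ 0 := fun k => by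
    have := congrFun k j
    rw [div_self k4, mul_one] at this
    exact hj' this
  refine k1 _ k2 k5 (Eq.trans ?_ (Projectivization.mk_rep _))
  refine (Projectivization.mk_eq_mk_iff' ℂ _ _ _ _).2 ⟨v j / (p e').1.rep j, funext fun i => ?_⟩
  simp only [Pi.smul_apply, smul_eq_mul]
  ring

theorem IsHol.continuous {ι : Type} [Fintype ι] {X : Set (ℙ ℂ (ι → ℂ))} {E : Type}
    [TopologicalSpace E] {p : E → X} (hp : Continuous p) {g : E → ℂ} (hg : IsHol p g) :
    Continuous g :=
by
  refine continuous_iff_continuousAt.2 fun e => ?_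
  obtain ⟨j, a, G, h1, h2, h3⟩ := final_local hp hg e
  exact (h2.continuousAt.comp (f := fun e' => fun i => a * ((p e').1.rep i / (p e').1.rep j))
    (final_sec hp a h1)).congr (h3.mono fun e' he' => he'.symm)

theorem final_diff {ι : Type} [Fintype ι] {X : Set (ℙ ℂ (ι → ℂ))} {E : Type}
    [TopologicalSpace E] {p : E → X} (hp : Continuous p) {g : E → ℂ} (hg : IsHol p g)
    (c : Curve X) {φ : ℂ → E} (hφ : Continuous φ) (h : ∀ t, (p (φ t)).1 = c.pt t) :
    Differentiable ℂ fun t => g (φ t) := fun t => by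
  obtain ⟨j, a, G, h1, h2, h3⟩ := final_local hp hg (φ t)
  have e : ∀ r i, (p (φ r)).1.rep i / (p (φ r)).1.rep j = (c.Φ i).eval r / (c.Φ j).eval r :=
    fun r i => by rw [h]; exact final_div (c.ne r) i j
  have h4 : (c.Φ j).eval t ≠ 0 := by
    obtain ⟨b, -, hb⟩ := final_rep (c.ne t)
    rw [h, Curve.pt, hb] at h1
    exact right_ne_zero_of_mul h1
  have h5 : DifferentiableAt ℂ (fun r => fun i => a * ((c.Φ i).eval r / (c.Φ j).eval r)) t :=
    differentiableAt_pi.2 fun i =>
      ((c.Φ i).differentiableAt.div (c.Φ j).differentiableAt h4).const_mul a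
  simp only [e] at h2
  refine (h2.comp t h5).congr_of_eventuallyEq ((hφ.continuousAt.eventually h3).mono fun r hr => ?_)
  simp only [e] at hr
  exact hr

theorem final_lift {ι : Type} {X : Set (ℙ ℂ (ι → ℂ))} {E : Type} [TopologicalSpace E] {p : E → X}
    (hp : IsCoveringMap p) (c : Curve X) (t : ℂ) (e : E) (he : (p e).1 = c.pt t) :
    ∃ φ : ℂ → E, Continuous φ ∧ φ t = e ∧ ∀ r, (p (φ r)).1 = c.pt r := by
  obtain ⟨F, ⟨h1, h2⟩, -⟩ := hp.existsUnique_continuousMap_lifts
    (⟨fun r => ⟨c.pt r, c.mem r⟩, c.continuous.subtype_mk _⟩ : C(ℂ, X)) t e (Subtype.ext he)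
  exact ⟨F, F.continuous, h1, fun r => congrArg Subtype.val (congrFun h2 r)⟩

theorem hol_const {ι : Type} [Fintype ι] {X : Set (ℙ ℂ (ι → ℂ))} (hX : IsClosed X) {E : Type}
    [TopologicalSpace E] {p : E → X} (hp : IsCoveringMap p) {g : E → ℂ} (hg : IsHol p g)
    (c : Curve X) (φ : ℂ → E) (hφ : Continuous φ) (h : ∀ t, (p (φ t)).1 = c.pt t) (t t' : ℂ) :
    g (φ t) = g (φ t') :=
by
  obtain ⟨c', hc'⟩ := c.rev hX
  obtain ⟨ψ, hψ, h1, h2⟩ := final_lift hp c' 1 (φ 1) (by rw [h, hc' 1 one_ne_zero, inv_one])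
  have hpre : IsPreconnected ({0}ᶜ : Set ℂ) :=
    (isConnected_compl_singleton_of_one_lt_rank
      (by rw [Complex.rank_real_complex]; exact Nat.one_lt_ofNat) 0).isPreconnected
  have h3 : Set.EqOn φ (fun t => ψ t⁻¹) {0}ᶜ :=
    hp.eqOn_of_comp_eqOn hpre hφ.continuousOn (hψ.comp_continuousOn continuousOn_inv₀)
      (fun t ht => Subtype.ext (by
        show (p (φ t)).1 = (p (ψ t⁻¹)).1
        rw [h, h2, hc' _ (inv_ne_zero ht), inv_inv])) (a := 1) one_ne_zero
      (by simp only [inv_one, h1])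
  have hgc := hg.continuous hp.continuous
  have b1 := ((isCompact_closedBall (0 : ℂ) 1).image (hgc.comp hφ)).isBounded
  have b2 := ((isCompact_closedBall (0 : ℂ) 1).image (hgc.comp hψ)).isBounded
  refine (final_diff hp.continuous hg c hφ h).apply_eq_apply_of_bounded
    ((b1.union b2).subset ?_) t t'
  rintro _ ⟨r, rfl⟩
  rcases le_total ‖r‖ 1 with hr | hr
  · exact Or.inl ⟨r, mem_closedBall_zero_iff.2 hr, rfl⟩
  · have h0 : r ≠ 0 := norm_pos_iff.1 (one_pos.trans_le hr)
    refine Or.inr ⟨r⁻¹, mem_closedBall_zero_iff.2 ?_, congrArg g (h3 h0).symm⟩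
    rw [norm_inv]
    exact inv_le_one_of_one_le₀ hr

theorem final_uniq {E S S' : Type} [TopologicalSpace E] [TopologicalSpace S] [TopologicalSpace S']
    [SimplyConnectedSpace E] {q : E → S} {π : S' → S} (hq : Continuous q) (hπ : IsCoveringMap π)
    {z₀ z z' : {z : E × S' // q z.1 = π z.2}} (h : Joined z₀ z) (h' : Joined z₀ z')
    (e : z.1.1 = z'.1.1) : z.1.2 = z'.1.2 := by
  obtain ⟨γ⟩ := h
  obtain ⟨γ'⟩ := h'
  have c1 : Continuous fun z : {z : E × S' // q z.1 = π z.2} => z.1.1 := by fun_prop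
  have c2 : Continuous fun z : {z : E × S' // q z.1 = π z.2} => z.1.2 := by fun_prop
  have hh : ContinuousMap.HomotopicRel ((γ.map c1).map hq).toContinuousMap
      (((γ'.map c1).cast rfl e).map hq).toContinuousMap {0, 1} :=
    (SimplyConnectedSpace.paths_homotopic (γ.map c1) ((γ'.map c1).cast rfl e)).map ⟨q, hq⟩
  have a1 : ((γ.map c1).map hq).toContinuousMap 0 = π z₀.1.2 :=
    ((γ.map c1).map hq).source.trans z₀.2
  have a2 : (((γ'.map c1).cast rfl e).map hq).toContinuousMap 0 = π z₀.1.2 :=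
    (((γ'.map c1).cast rfl e).map hq).source.trans z₀.2
  have h0 := hπ.liftPath_apply_one_eq_of_homotopicRel hh z₀.1.2 a1 a2
  rw [← (hπ.eq_liftPath_iff' (Γ := (γ.map c2).toContinuousMap) a1).2
      ⟨_root_.funext fun r => (γ r).2.symm, (γ.map c2).source⟩,
    ← (hπ.eq_liftPath_iff' (Γ := (γ'.map c2).toContinuousMap) a2).2
      ⟨_root_.funext fun r => (γ' r).2.symm, (γ'.map c2).source⟩] at h0
  exact (γ.map c2).target.symm.trans (h0.trans (γ'.map c2).target)

theorem not_holConvex {ι : Type} [Fintype ι] {X : Set (ℙ ℂ (ι → ℂ))} (hX : IsClosed X) (w : X)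
    (h : ∀ N : ℕ, ∃ (S S' : Type) (_ : TopologicalSpace S) (_ : TopologicalSpace S') (β : X → S)
      (π : S' → S), Continuous β ∧ IsCoveringMap π ∧ ∃ (s₀ : S') (s : Fin N → S'),
        π s₀ = β w ∧ Function.Injective s ∧
        ∀ k, Relation.ReflTransGen (LStep X β π) (w, s₀) (w, s k))
    {E : Type} [TopologicalSpace E] {p : E → X} (hp : IsUnivCover p) : ¬ HolConvex p :=
by
  intro hH
  obtain ⟨hc, hs, hsc⟩ := hp
  obtain ⟨e, he⟩ := hs w
  have hK := hH {e} isCompact_singleton (Set.singleton_nonempty e)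
  simp only [Set.image_singleton, csSup_singleton] at hK
  have hd : IsDiscrete (p ⁻¹' {w}) := ⟨(hc w).1⟩
  have hf := (hK.inter_right (isClosed_singleton.preimage hc.continuous)).finite
    (hd.mono Set.inter_subset_right)
  obtain ⟨S, S', _, _, β, π, hβ, hπ, s₀, s, h0, hinj, hk⟩ := h (hf.toFinset.card + 1)
  have hq : Continuous (β ∘ p) := hβ.comp hc.continuous
  have hz : (β ∘ p) (e, s₀).1 = π (e, s₀).2 := by
    show β (p e) = π s₀
    rw [he, h0]
  have key : ∀ a, Relation.ReflTransGen (LStep X β π) (w, s₀) a →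
      ∃ z : {z : E × S' // (β ∘ p) z.1 = π z.2}, p z.1.1 = a.1 ∧ z.1.2 = a.2 ∧
        Joined ⟨(e, s₀), hz⟩ z ∧ ∀ g, IsHol p g → g z.1.1 = g e := by
    intro a ha
    induction ha with
    | refl => exact ⟨⟨(e, s₀), hz⟩, he, rfl, Joined.refl _, fun _ _ => rfl⟩
    | tail _ hbc ih =>
      obtain ⟨c, ψ, t, t', hψ, h1, rfl, rfl⟩ := hbc
      obtain ⟨⟨⟨e', s'⟩, hz'⟩, k1, k2, k3, k4⟩ := ih
      obtain ⟨φ, hφ, rfl, m2⟩ := final_lift hc c t e' (congrArg Subtype.val k1)
      obtain rfl : s' = ψ t := k2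
      have m3 : ∀ r, (β ∘ p) (φ r, ψ r).1 = π (φ r, ψ r).2 := fun r =>
        (congrArg β (Subtype.ext (m2 r))).trans (h1 r).symm
      have m4 : Continuous fun r => (⟨(φ r, ψ r), m3 r⟩ : {z : E × S' // (β ∘ p) z.1 = π z.2}) :=
        (hφ.prodMk hψ).subtype_mk _
      exact ⟨⟨(φ t', ψ t'), m3 t'⟩, Subtype.ext (m2 t'), rfl,
        k3.trans ⟨(PathConnectedSpace.somePath t t').map m4⟩,
        fun g hg => (hol_const hX hc hg c φ hφ m2 t' t).trans (k4 g hg)⟩
  choose z z1 z2 z3 z4 using fun k => key _ (hk k)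
  have hi : Function.Injective fun k => (z k).1.1 := fun k k' hkk =>
    hinj ((z2 k).symm.trans ((final_uniq hq hπ (z3 k) (z3 k') hkk).trans (z2 k')))
  have hcard := Finset.card_le_card_of_injOn (s := Finset.univ) (t := hf.toFinset)
    (fun k => (z k).1.1)
    (fun k _ => hf.mem_toFinset.2 ⟨fun g hg => (congrArg norm (z4 k g hg)).le, z1 k⟩) hi.injOn
  rw [Finset.card_fin] at hcard
  omega

end Vale.Agent.P300
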