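import Vale.Agent.P300.Ine2
import Vale.Agent.P300.Grp

/-! Residue fields. `D = V ∩ K` is the localisation of `ℂ[τ, y]` at `τ` (`cl_rg`, `Rg.val`), residue field
`ℂ(y)`. `fix_res`: let `B` be the integral closure of `D` in `F`, `Q = V.nonunits ∩ B` maximal,
`V ∩ F = B_Q`; pick `b ∈ B` congruent to `a` modulo `Q` and in all other conjugates of `Q` (Chinese
remainder); the trace `∑ g, g b` over `Gal(F / K)` lies in `D` and is congruent to `card(DV) a`.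
(Or `Ideal.Quotient.stabilizerHom_surjective`.) `fix_t`: the finite group `DVs` acts on the residue
field `κ` of `V ∩ F` with fixed field `ℂ(y)`; Galois correspondence for `ℂ(y, t) = ℂ(t)`
(`FixedPoints.toAlgAut_surjective`, `IsGalois.fixedField_fixingSubgroup`). -/

open scoped LinearAlgebra.Projectivization Topology Classical Pointwise
open Polynomial

set_option linter.unusedSectionVars false

namespace Vale.Agent.P300

variable {L : Type} [Field L] [Algebra ℂ L] [IsAlgClosed L] (A : Amb L)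

section Abs

variable {K E : Type} [Field K] [Field E] [Algebra K E] {W : ValuationSubring E}

theorem fr3_mul {a b : E} (ha : a ∈ W) (hb : b ∈ W.nonunits) : a * b ∈ W.nonunits := by
  rw [W.mem_nonunits_iff] at hb ⊢
  rw [map_mul]
  exact (mul_le_of_le_one_left' ((W.valuation_le_one_iff a).2 ha)).trans_lt hb

theorem fr3_unit {a b : E} (ha : a ∉ W.nonunits) (hb : b ∉ W.nonunits) : a * b ∉ W.nonunits := by
  rw [W.mem_nonunits_iff, not_lt] at ha hb ⊢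
  rw [map_mul]
  exact one_le_mul ha hb

theorem fr3_inv {a : E} (ha : a ∉ W.nonunits) : a ≠ 0 ∧ a⁻¹ ∈ W := by
  rwa [W.mem_nonunits_iff_or, not_or, not_not] at ha

theorem fr3_const {ι : ℂ →+* E} (hι : ∀ c, ι c ∈ W) {c : ℂ} (hc : c ≠ 0) : ι c ∉ W.nonunits := by
  rw [W.mem_nonunits_iff_or, not_or, not_not, ← map_inv₀]
  exact ⟨(_root_.map_ne_zero _).2 hc, hι _⟩

theorem fr3_dec {σ : E ≃ₐ[K] E} (h : σ ∈ W.decompositionSubgroup K) (x : E) : σ x ∈ W ↔ x ∈ W := by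
  have h1 : σ • W = W := h
  have h2 := ValuationSubring.smul_mem_pointwise_smul_iff (g := σ) (S := W) (x := x)
  rwa [h1] at h2

theorem fr3_dec' {σ : E ≃ₐ[K] E} (h : σ ∈ W.decompositionSubgroup K) (x : E) :
    σ x ∈ W.nonunits ↔ x ∈ W.nonunits := by
  rw [W.mem_nonunits_iff_or, W.mem_nonunits_iff_or, ← map_inv₀, fr3_dec h,
    _root_.map_eq_zero]

theorem fr3_out [Finite (E ≃ₐ[K] E)] {σ : E ≃ₐ[K] E} (h : σ ∉ W.decompositionSubgroup K) :
    ∃ x ∈ W, σ x ∉ W := by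
  by_contra hx
  push Not at hx
  have hp : ∀ n : ℕ, ∀ x ∈ W, (σ ^ n) x ∈ W := fun n => by
    induction n with
    | zero => exact fun x hx => hx
    | succ n ih => exact fun x hx' => by rw [pow_succ, AlgEquiv.mul_apply]; exact ih _ (hx x hx')
  have hi : σ⁻¹ = σ ^ (orderOf σ - 1) := by
    rw [inv_eq_iff_mul_eq_one, ← pow_succ', Nat.sub_add_cancel (orderOf_pos σ), pow_orderOf_eq_one]
  refine h (SetLike.ext fun x => ?_)
  rw [ValuationSubring.mem_pointwise_smul_iff_inv_smul_mem]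
  refine ⟨fun h1 => ?_, fun h1 => hi ▸ hp _ x h1⟩
  have h2 := hx _ h1
  rwa [AlgEquiv.smul_def, ← AlgEquiv.mul_apply, mul_inv_cancel, AlgEquiv.one_apply] at h2

theorem fr3_z [Finite (E ≃ₐ[K] E)] {ι : ℂ →+* E} (hι : ∀ c, ι c ∈ W)
    (hf : ∀ (σ : E ≃ₐ[K] E) c, σ (ι c) = ι c) (x : E) : ∃ z, ∀ σ : E ≃ₐ[K] E,
      σ z ∈ W ∧ σ (z * x) ∈ W ∧ (σ x ∈ W → σ z ∉ W.nonunits) ∧ (σ x ∉ W → σ z ∈ W.nonunits) := by
  have hfin : (⋃ σ : E ≃ₐ[K] E, {c : ℂ | σ x - ι c ∈ W.nonunits}).Finite := by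
    refine Set.finite_iUnion fun σ => Set.Subsingleton.finite fun c hc c' hc' => ?_
    by_contra hne
    refine fr3_const hι (sub_ne_zero.2 hne) ?_
    have e : ι (c - c') = (σ x - ι c') - (σ x - ι c) := by rw [map_sub]; ring
    rw [e]
    exact W.nonunits.sub_mem hc' hc
  obtain ⟨c, hc⟩ := hfin.exists_notMem
  refine ⟨(x - ι c)⁻¹, fun σ => ?_⟩
  have h1 : σ x - ι c ∉ W.nonunits := fun h => hc (Set.mem_iUnion.2 ⟨σ, h⟩)
  obtain ⟨h2, h3⟩ := fr3_inv h1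
  rw [map_mul, map_inv₀, map_sub, hf, W.inv_mem_nonunits_iff]
  refine ⟨h3, ?_, fun h4 h5 => h5.elim h2 fun h6 => h6 (sub_mem h4 (hι c)),
    fun h4 => Or.inr fun h5 => h4 ?_⟩
  · have e : (σ x - ι c)⁻¹ * σ x = 1 + (σ x - ι c)⁻¹ * ι c := by field_simp; ring
    rw [e]
    exact add_mem (one_mem _) (mul_mem h3 (hι c))
  · simpa using add_mem h5 (hι c)

theorem fr3_s [Finite (E ≃ₐ[K] E)] {ι : ℂ →+* E} (hι : ∀ c, ι c ∈ W)
    (hf : ∀ (σ : E ≃ₐ[K] E) c, σ (ι c) = ι c) {a : E} (ha : a ∈ W) : ∃ s, s ∉ W.nonunits ∧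
      ∀ σ : E ≃ₐ[K] E, σ s ∈ W ∧ (σ ∉ W.decompositionSubgroup K →
        σ s ∈ W.nonunits ∧ σ (s * a) ∈ W.nonunits) := by
  have := Fintype.ofFinite (E ≃ₐ[K] E)
  have h1 : ∀ σ : E ≃ₐ[K] E, ∃ z, z ∉ W.nonunits ∧ (∀ ρ : E ≃ₐ[K] E, ρ z ∈ W) ∧
      (σ ∉ W.decompositionSubgroup K → σ z ∈ W.nonunits) := fun σ => by
    by_cases h : σ ∈ W.decompositionSubgroup K
    · exact ⟨1, by simpa using fr3_const hι one_ne_zero, fun ρ => by simp, fun h' => absurd h h'⟩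
    · obtain ⟨x, hx, hx'⟩ := fr3_out h
      obtain ⟨z, hz⟩ := fr3_z hι hf x
      exact ⟨z, (hz 1).2.2.1 hx, fun ρ => (hz ρ).1, fun _ => (hz σ).2.2.2 hx'⟩
  choose z z1 z2 z3 using h1
  obtain ⟨w, hw⟩ := fr3_z hι hf a
  have h2 : ∀ σ ∉ W.decompositionSubgroup K, σ (∏ ρ, z ρ) ∈ W.nonunits := fun σ hσ => by
    rw [← Finset.prod_erase_mul _ _ (Finset.mem_univ σ), map_mul, map_prod]
    exact fr3_mul (prod_mem fun ρ _ => z2 ρ σ) (z3 σ hσ)
  refine ⟨w * ∏ ρ, z ρ, fr3_unit ((hw 1).2.2.1 ha) ?_, fun σ => ⟨?_, fun hσ => ⟨?_, ?_⟩⟩⟩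
  · exact Finset.prod_induction _ (· ∉ W.nonunits) (fun _ _ => fr3_unit)
      (by simpa using fr3_const hι one_ne_zero) fun ρ _ => z1 ρ
  · rw [map_mul, map_prod]
    exact mul_mem (hw σ).1 (prod_mem fun ρ _ => z2 ρ σ)
  · rw [map_mul]
    exact fr3_mul (hw σ).1 (h2 σ hσ)
  · rw [mul_right_comm, map_mul]
    exact fr3_mul (hw σ).2.1 (h2 σ hσ)

theorem fr3_res [Finite (E ≃ₐ[K] E)] {ι : ℂ →+* E} (hι : ∀ c, ι c ∈ W)
    (hf : ∀ (σ : E ≃ₐ[K] E) c, σ (ι c) = ι c) {a : E} (ha : a ∈ W)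
    (h : ∀ σ ∈ W.decompositionSubgroup K, σ a - a ∈ W.nonunits) :
    ∃ d, (∀ σ : E ≃ₐ[K] E, σ d = d) ∧ a - d ∈ W.nonunits := by
  have := Fintype.ofFinite (E ≃ₐ[K] E)
  obtain ⟨s, s1, s2⟩ := fr3_s (K := K) hι hf ha
  obtain ⟨N, hN⟩ : ∃ N, N = ∏ δ : W.decompositionSubgroup K, δ • s := ⟨_, rfl⟩
  have N1 : ∀ σ ∈ W.decompositionSubgroup K, σ N = N := fun σ hσ => by
    rw [hN]
    exact Finset.smul_prod_perm s (⟨σ, hσ⟩ : W.decompositionSubgroup K)
  have N2 : N ∉ W.nonunits := by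
    rw [hN]
    exact Finset.prod_induction _ (· ∉ W.nonunits) (fun _ _ => fr3_unit)
      (by simpa using fr3_const hι one_ne_zero) fun δ _ => (fr3_dec' δ.2 s).not.2 s1
  obtain ⟨N', e, N3⟩ : ∃ N', N = N' * s ∧ ∀ σ : E ≃ₐ[K] E, σ N' ∈ W := by
    refine ⟨∏ δ ∈ (Finset.univ : Finset (W.decompositionSubgroup K)).erase 1, δ • s, ?_, fun σ => ?_⟩
    · rw [hN, ← Finset.prod_erase_mul _ _ (Finset.mem_univ 1), one_smul]
    · rw [map_prod]
      exact prod_mem fun δ _ => (s2 (σ * δ.1)).1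
  have N4 : ∀ σ : E ≃ₐ[K] E, σ N ∈ W := fun σ => by
    rw [e, map_mul]
    exact mul_mem (N3 σ) (s2 σ).1
  have T : ∀ (u : E) (σ : E ≃ₐ[K] E), σ (∑ ρ : E ≃ₐ[K] E, ρ u) = ∑ ρ : E ≃ₐ[K] E, ρ u := fun u σ => by
    rw [map_sum]
    exact Fintype.sum_equiv (Equiv.mulLeft σ) _ _ fun ρ => rfl
  have h1 : ∑ ρ : E ≃ₐ[K] E, ρ N ∉ W.nonunits := fun h1 => by
    have h2 : ∑ ρ : E ≃ₐ[K] E, (ρ N - if ρ ∈ W.decompositionSubgroup K then N else 0) ∈
        W.nonunits := sum_mem fun ρ _ => by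
      split_ifs with hρ
      · rw [N1 ρ hρ, sub_self]
        exact zero_mem _
      · rw [sub_zero, e, map_mul]
        exact fr3_mul (N3 ρ) ((s2 ρ).2 hρ).1
    rw [Finset.sum_sub_distrib, ← Finset.sum_filter, Finset.sum_const, nsmul_eq_mul,
      ← map_natCast ι] at h2
    have h3 := W.nonunits.sub_mem h1 h2
    rw [sub_sub_cancel] at h3
    exact fr3_unit (fr3_const hι (Nat.cast_ne_zero.2 (Finset.card_ne_zero.2
      ⟨1, Finset.mem_filter.2 ⟨Finset.mem_univ _, one_mem _⟩⟩))) N2 h3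
  have h2 : ∑ ρ : E ≃ₐ[K] E, (a * ρ N - ρ (N * a)) ∈ W.nonunits := sum_mem fun ρ _ => by
    by_cases hρ : ρ ∈ W.decompositionSubgroup K
    · have e' : a * ρ N - ρ (N * a) = -(ρ N * (ρ a - a)) := by rw [map_mul]; ring
      rw [e']
      exact neg_mem (fr3_mul (N4 ρ) (h ρ hρ))
    · rw [e, mul_assoc, map_mul ρ N', map_mul ρ N']
      exact sub_mem (fr3_mul ha (fr3_mul (N3 ρ) ((s2 ρ).2 hρ).1)) (fr3_mul (N3 ρ) ((s2 ρ).2 hρ).2)
  obtain ⟨h3, h4⟩ := fr3_inv h1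
  refine ⟨(∑ ρ : E ≃ₐ[K] E, ρ N)⁻¹ * ∑ ρ : E ≃ₐ[K] E, ρ (N * a), fun σ => ?_, ?_⟩
  · rw [map_mul, map_inv₀, T, T]
  · have h5 := fr3_mul h4 h2
    rwa [Finset.sum_sub_distrib, ← Finset.mul_sum, mul_sub, mul_left_comm, inv_mul_cancel₀ h3,
      mul_one] at h5

theorem fr3_gal {D κ : Type} [Group D] [Finite D] [Field κ] [MulSemiringAction D κ] {t a : κ}
    (h : ∀ g : D, g • t = t → g • a = a) (S : Subfield κ) (ht : t ∈ S)
    (hS : ∀ x, (∀ g : D, g • x = x) → x ∈ S) : a ∈ S := by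
  have h1 : a ∈ IntermediateField.adjoin (FixedPoints.subfield D κ) {t} := by
    rw [← IsGalois.fixedField_fixingSubgroup (IntermediateField.adjoin _ {t}),
      IntermediateField.mem_fixedField_iff]
    intro φ hφ
    obtain ⟨g, rfl⟩ := FixedPoints.toAlgAut_surjective D κ φ
    exact h g ((IntermediateField.mem_fixingSubgroup_iff _ _).1 hφ t
      (IntermediateField.mem_adjoin_simple_self _ t))
  refine (Subfield.closure_le.2 ?_ : _ ≤ S) h1
  rintro x (⟨x, rfl⟩ | rfl)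
  exacts [hS _ x.2, ht]

end Abs

theorem fr3_K {V : ValuationSubring L} {τ y : L} (hV : Over V τ y)
    (hi : AlgebraicIndependent ℂ ![τ, y]) {d : L} (hd : d ∈ IntermediateField.adjoin ℂ {τ, y})
    (hv : d ∈ V) : ∃ P Q : ℂ[X], Q ≠ 0 ∧ aeval y Q * d - aeval y P ∈ V.nonunits := by
  obtain ⟨h1, h2, -⟩ := (cl_rg hi).val (hV.cl_sub hi) hV.hu (by simpa using hV.tr X X_ne_zero)
  obtain ⟨b, hb, c, hc, h3, e⟩ := (h2 d hd).1 hv
  obtain ⟨P1, Q1, q1, e1⟩ := (mem_pv (valid_of_ind hi 0)).1 hb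
  obtain ⟨P2, Q2, q2, e2⟩ := (mem_pv (valid_of_ind hi 0)).1 hc
  have hu : ∀ Q : MvPolynomial (Fin 2) ℂ, MvPolynomial.eval 0 Q ≠ 0 →
      MvPolynomial.aeval ![τ, y] Q ∉ V.nonunits := fun Q hQ hm =>
    hQ ((pv_aeval (valid_of_ind hi 0) Q).2.symm.trans
      (val_ev (hV.cl_sub hi) (pv_aeval (valid_of_ind hi 0) Q).1 hm))
  have h4 : MvPolynomial.aeval ![τ, y] (P2 * Q1) ∉ V.nonunits := by
    rw [map_mul, ← e2]
    exact fr3_unit (fr3_unit (fun h => h3 ((h1 c hc).1 h)) (hu _ q2)) (hu _ q1)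
  have h5 : d * MvPolynomial.aeval ![τ, y] (P2 * Q1) = MvPolynomial.aeval ![τ, y] (P1 * Q2) := by
    rw [map_mul, map_mul, ← e1, ← e2, ← e]
    ring
  have h6 := val_mv hV (P2 * Q1)
  refine ⟨MvPolynomial.aeval ![(0 : ℂ[X]), X] (P1 * Q2), MvPolynomial.aeval ![(0 : ℂ[X]), X] (P2 * Q1),
    fun h0 => h4 (by rwa [h0, map_zero, sub_zero] at h6), ?_⟩
  convert V.nonunits.sub_mem (val_mv hV (P1 * Q2)) (fr3_mul hv h6) using 1
  linear_combination h5

theorem Amb.fr3_lift {V : ValuationSubring L} {F : IntermediateField A.K L} (hn : Normal A.K F)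
    {σ : F ≃ₐ[A.K] F} (hσ : σ ∈ (V.comap (algebraMap F L)).decompositionSubgroup A.K) :
    ∃ g ∈ A.DVs V hn, ∀ x : F, g x = σ x := by
  have e : ∀ x : F, σ.liftNormal L x = σ x := σ.liftNormal_commutes L
  exact ⟨σ.liftNormal L, fun a ha => (e ⟨a, ha⟩).symm ▸ fr3_dec hσ ⟨a, ha⟩, e⟩

theorem fr3_comap {E : Type} [Field E] (V : ValuationSubring L) (f : E →+* L) (x : E) :
    x ∈ (V.comap f).nonunits ↔ f x ∈ V.nonunits := by
  rw [ValuationSubring.mem_nonunits_iff_or, ValuationSubring.mem_nonunits_iff_or,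
    ValuationSubring.mem_comap, map_inv₀, _root_.map_eq_zero]

/-- the constants inside a level -/
noncomputable def Amb.fr3c (F : IntermediateField A.K L) : ℂ →+* F :=
  (algebraMap A.K F).comp (algebraMap ℂ A.K)

theorem fr3_ev {V : ValuationSubring L} (hc : ∀ c : ℂ, algebraMap ℂ L c ∈ V) {t : L} (ht : t ∈ V)
    {c : ℂ} (h : t - algebraMap ℂ L c ∈ V.nonunits) (P : ℂ[X]) :
    aeval t P - algebraMap ℂ L (P.eval c) ∈ V.nonunits := by
  obtain ⟨R, hR⟩ := X_sub_C_dvd_sub_C_eval (a := c) (p := P)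
  have e := congrArg (aeval t) hR
  simp only [map_sub, map_mul, aeval_X, aeval_C] at e
  rw [e, mul_comm]
  exact fr3_mul (val_aeval hc ht R) h

theorem Amb.fix_res {V : ValuationSubring L} {τ y : L} (hV : Over V τ y)
    (hi : AlgebraicIndependent ℂ ![τ, y]) (hg : IntermediateField.adjoin ℂ {τ, y} = A.K)
    {F : IntermediateField A.K L} (hF : A.Tw F) (hn : Normal A.K F) {a : L} (ha : a ∈ F)
    (hv : a ∈ V) (h : ∀ g ∈ A.DVs V hn, g a - a ∈ V.nonunits) :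
    ∃ P Q : ℂ[X], Q ≠ 0 ∧ aeval y Q * a - aeval y P ∈ V.nonunits := by
  have := hF.finite A
  obtain ⟨d, h1, h2⟩ := fr3_res (K := A.K) (W := V.comap (algebraMap F L)) (ι := A.fr3c F)
    (fun c => hV.alg c) (fun σ c => σ.commutes _) (a := ⟨a, ha⟩) hv fun σ hσ => by
      obtain ⟨g, g1, g2⟩ := A.fr3_lift hn hσ
      have h3 := h g g1
      rw [g2 ⟨a, ha⟩] at h3
      exact (fr3_comap V _ _).2 h3
  have h3 : a - d ∈ V.nonunits := (fr3_comap V _ _).1 h2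
  have h4 : (d : L) ∈ A.K := A.mem_K fun g =>
    (g.restrictNormal_commutes F d).symm.trans (congrArg Subtype.val (h1 _))
  obtain ⟨P, Q, hQ, h5⟩ := fr3_K hV hi (hg.ge h4)
    (by simpa using sub_mem hv (ValuationSubring.nonunits_subset h3))
  refine ⟨P, Q, hQ, ?_⟩
  convert V.nonunits.add_mem h5 (fr3_mul (val_aeval hV.alg hV.hv Q) h3) using 1
  ring

theorem Amb.fix_t {V : ValuationSubring L} {τ y : L} (hV : Over V τ y)
    (hi : AlgebraicIndependent ℂ ![τ, y]) (hg : IntermediateField.adjoin ℂ {τ, y} = A.K)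
    {F : IntermediateField A.K L} (hF : A.Tw F) (hn : Normal A.K F) {t : L} (ht : t ∈ F)
    (htV : t ∈ V) {P₀ Q₀ : ℂ[X]} (h0 : aeval t Q₀ ∉ V.nonunits) (hy : aeval t Q₀ * y = aeval t P₀)
    {M : IntermediateField ℂ L} (hM : M ≤ A.rs F)
    (h : ∀ g ∈ A.DVs V hn, g t - t ∈ V.nonunits → ∀ a ∈ M, a ∈ V → g a - a ∈ V.nonunits) :
    RatOn V M t := by
  have := hF.finite A
  have htr : ∀ P : ℂ[X], P ≠ 0 → aeval t P ∉ V.nonunits := fun P hP => by
    refine (val_tr hV.alg (fun c => ⟨sub_mem htV (hV.alg c), fun hc => ?_⟩) hP).2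
    have h1 := fr3_ev hV.alg htV hc Q₀
    have h2 := fr3_ev hV.alg htV hc P₀
    refine (val_lin hV (c := Q₀.eval c) (d := -P₀.eval c) fun h3 => h0 ?_).2 ?_
    · rwa [h3.1, map_zero, sub_zero] at h1
    · convert V.nonunits.sub_mem h2 (fr3_mul hV.hv h1) using 1
      rw [map_neg]
      linear_combination hy
  refine ⟨hV.alg, htV, htr, fun a ha hv => ?_⟩
  obtain ⟨W, hW⟩ : ∃ W, W = V.comap (algebraMap F L) := ⟨_, rfl⟩
  have hm : ∀ x : F, x ∈ W ↔ (x : L) ∈ V := fun x => by rw [hW]; rfl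
  have hr : ∀ r s : W, IsLocalRing.residue W r = IsLocalRing.residue W s ↔
      ((r : F) : L) - (s : F) ∈ V.nonunits := fun r s => by
    rw [← sub_eq_zero, ← map_sub, IsLocalRing.residue_eq_zero_iff,
      ← ValuationSubring.coe_mem_nonunits_iff]
    subst hW
    exact fr3_comap V _ _
  have hψ : ∀ u : W, ∃ ψ : ℂ[X] →+* W, ψ Polynomial.X = u ∧ (∀ c, (ψ (C c) : F) = A.fr3c F c) ∧
      ∀ P, ((ψ P : F) : L) = aeval ((u : F) : L) P := fun u => by
    refine ⟨eval₂RingHom ((A.fr3c F).codRestrict W fun c => (hm _).2 (hV.alg c)) u, by simp,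
      fun c => by simp, fun P => ?_⟩
    exact (hom_eval₂ P _ ((algebraMap F L).comp W.subtype) u).trans rfl
  have hyF : y ∈ F := A.ine2_KF F (hg.le (IntermediateField.subset_adjoin ℂ _ (by simp)))
  obtain ⟨ψ, ψ1, ψ2, ψ3⟩ := hψ ⟨⟨t, ht⟩, (hm _).2 htV⟩
  obtain ⟨φ, φ1, φ2, φ3⟩ := hψ ⟨⟨y, hyF⟩, (hm _).2 hV.hv⟩
  let S := Subfield.closure (((IsLocalRing.residue W).comp ψ).range : Set (IsLocalRing.ResidueField W))
  have S1 : ∀ P, IsLocalRing.residue W (ψ P) ∈ S := fun P => Subfield.subset_closure ⟨P, rfl⟩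
  have S0 : ∀ (x p q : W), ((q : F) : L) ∉ V.nonunits → ((q : F) : L) * (x : F) - (p : F) ∈ V.nonunits →
      IsLocalRing.residue W p ∈ S → IsLocalRing.residue W q ∈ S → IsLocalRing.residue W x ∈ S :=
    fun x p q h1 h2 h3 h4 => by
      have h5 : IsLocalRing.residue W q ≠ 0 := fun h5 => h1 (by simpa using (hr q 0).1 h5)
      have h6 := (hr (q * x) p).2 h2
      rw [map_mul, mul_comm] at h6
      rw [eq_div_of_mul_eq h5 h6]
      exact div_mem h3 h4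
  have S2 : ∀ P, IsLocalRing.residue W (φ P) ∈ S := fun P => by
    have hX : IsLocalRing.residue W (φ Polynomial.X) ∈ S :=
      S0 _ (ψ P₀) (ψ Q₀) (by rwa [ψ3]) (by rw [ψ3, ψ3, φ1, hy, sub_self]; exact zero_mem _)
        (S1 _) (S1 _)
    have hC : ∀ c, IsLocalRing.residue W (φ (C c)) ∈ S := fun c => by
      rw [Subtype.ext ((φ2 c).trans (ψ2 c).symm)]
      exact S1 _
    induction P using Polynomial.induction_on' with
    | add p q hp hq => rw [map_add, map_add]; exact add_mem hp hq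
    | monomial n c =>
      rw [← C_mul_X_pow_eq_monomial, map_mul, map_mul, map_pow, map_pow]
      exact mul_mem (hC c) (pow_mem hX n)
  have hl : ∀ δ : W.decompositionSubgroup A.K, ∃ g ∈ A.DVs V hn, ∀ r : W,
      δ • IsLocalRing.residue W r = IsLocalRing.residue W r ↔
        g (r : F) - (r : F) ∈ V.nonunits := fun δ => by
    obtain ⟨g, g1, g2⟩ := A.fr3_lift hn (V := V) (σ := δ.1) (by rw [← hW]; exact δ.2)
    refine ⟨g, g1, fun r => ?_⟩
    rw [← IsLocalRing.ResidueField.residue_smul, hr, g2]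
    rfl
  have hl' : ∀ g ∈ A.DVs V hn, ∃ δ : W.decompositionSubgroup A.K, ∀ r : W,
      ((δ • r : W) : F) = g (r : F) := fun g g1 => by
    refine ⟨⟨g.restrictNormal F, SetLike.ext fun x => ?_⟩, fun r => g.restrictNormal_commutes F r⟩
    obtain ⟨x, rfl⟩ := (g.restrictNormal F).surjective x
    refine (ValuationSubring.smul_mem_pointwise_smul_iff (g := g.restrictNormal F)).trans ?_
    rw [hm, hm, ← g1 x x.2]
    exact Iff.of_eq (congrArg (· ∈ V) (g.restrictNormal_commutes F x).symm)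
  have key : IsLocalRing.residue W ⟨⟨a, hM ha⟩, (hm _).2 hv⟩ ∈ S := by
    refine fr3_gal (D := W.decompositionSubgroup A.K) (fun δ hδ => ?_) S (S1 Polynomial.X) fun x hx => ?_
    · obtain ⟨g, g1, g2⟩ := hl δ
      refine (g2 _).2 (h g g1 ?_ a ha hv)
      have h1 := (g2 _).1 hδ
      rwa [ψ1] at h1
    · obtain ⟨r, rfl⟩ := IsLocalRing.residue_surjective x
      obtain ⟨P, Q, hQ, h1⟩ := A.fix_res hV hi hg hF hn r.1.2 ((hm _).1 r.2) fun g g1 => by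
        obtain ⟨δ, hδ⟩ := hl' g g1
        rw [← hδ, ← hr, IsLocalRing.ResidueField.residue_smul]
        exact hx δ
      exact S0 r (φ P) (φ Q) (by rw [φ3]; exact hV.tr Q hQ) (by rwa [φ3, φ3]) (S2 _) (S2 _)
  obtain ⟨p, hp, q, hq, e⟩ := Subfield.mem_closure_iff.1 key
  rw [Subring.closure_eq] at hp hq
  obtain ⟨P, rfl⟩ := hp
  obtain ⟨Q, rfl⟩ := hq
  by_cases hQ : (IsLocalRing.residue W).comp ψ Q = 0
  · rw [hQ, div_zero] at e
    exact ⟨0, 1, one_ne_zero, by simpa using (hr _ 0).1 e.symm⟩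
  · refine ⟨P, Q, fun h1 => hQ (by rw [h1, map_zero]), ?_⟩
    rw [div_eq_iff hQ, mul_comm, RingHom.comp_apply, RingHom.comp_apply, ← map_mul, eq_comm, hr] at e
    rw [← ψ3, ← ψ3]
    exact e

end Vale.Agent.P300
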