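import Vale.Agent.P300.Frat3

/-! The decomposition group of a component is generated by the marked inertia elements. Otherwise
`frattini` (`B = DVs`, `N = IVs`) gives `C` of index two; `B / IVs` acts faithfully on the residue
field, so (Artin, or: some `a ∈ V ∩ F` has residue fixed by `C` and moved by `τ`) there is
`w ∈ V ∩ F`, a unit, with `g w ≡ ± w`. By `fix_res`, `w ^ 2 ≡ P(y) / Q(y)`; multiply `w` by a rational
function of `y` so that `w ^ 2 ≡ ∏ (y - y i)` over a finite set. An unmarked `y₁` contradicts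
`Rg.not_sq` at a point on `V` above the chart `(u, y - y₁)` (`exists_on`, `Good.rg`, `Rg.val`). So
`w ≡ ± ∏ √(y - y i)` and `e (y i)` changes the sign; the empty product is moved by nobody. -/

open scoped LinearAlgebra.Projectivization Topology Classical Pointwise
open Polynomial

set_option linter.unusedSectionVars false

namespace Vale.Agent.P300

variable {L : Type} [Field L] [Algebra ℂ L] [IsAlgClosed L] (A : Amb L)

theorem f4_artin {G R κ : Type} [Group G] [MulOneClass R] [Field κ] (S : Subgroup G)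
    [Fintype (G ⧸ S)] (χ : G → (R →* κ)) (hχ : ∀ g h, χ g = χ h ↔ g⁻¹ * h ∈ S) (ε : G → ℤ)
    (hε : ∀ g h, ε (g * h) = ε g * ε h) (hε2 : ∀ g, ε g * ε g = 1) (hS : ∀ g ∈ S, ε g = 1) :
    ∃ a : R, ∑ q : G ⧸ S, (ε q.out : κ) * χ (1 * q.out) a ≠ 0 ∧
      ∀ h, ∑ q : G ⧸ S, (ε q.out : κ) * χ (h * q.out) a =
        ε h * ∑ q : G ⧸ S, (ε q.out : κ) * χ (1 * q.out) a := by
  have hinj : Function.Injective fun q : G ⧸ S => χ q.out := by
    intro q q' e
    have := QuotientGroup.eq.2 ((hχ _ _).1 e)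
    simpa using this
  have hli := (linearIndependent_monoidHom R κ).comp _ hinj
  have hne : ∃ a : R, ∑ q : G ⧸ S, (ε q.out : κ) * χ (1 * q.out) a ≠ 0 := by
    by_contra hc
    push Not at hc
    have h0 := Fintype.linearIndependent_iff.1 hli (fun q => (ε q.out : κ)) (by
      funext a
      simpa using hc a) (QuotientGroup.mk 1)
    have h1 := congrArg (Int.cast : ℤ → κ) (hε2 (QuotientGroup.mk 1 : G ⧸ S).out)
    simp only [Int.cast_mul, Int.cast_one] at h1
    rw [h0, zero_mul] at h1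
    exact zero_ne_one h1
  obtain ⟨a, ha⟩ := hne
  refine ⟨a, ha, fun h => ?_⟩
  rw [Finset.mul_sum, ← Equiv.sum_comp (MulAction.toPerm h : Equiv.Perm (G ⧸ S))
    (fun q => (ε h : κ) * ((ε q.out : κ) * χ (1 * q.out) a))]
  refine Finset.sum_congr rfl fun q _ => ?_
  have hm : (h * q.out)⁻¹ * (h • q).out ∈ S := by
    rw [← QuotientGroup.eq, QuotientGroup.out_eq']
    exact MulAction.Quotient.mk_smul_out S h q
  have e1 : ε (h • q).out = ε h * ε q.out := by
    have e : (h • q).out = h * q.out * ((h * q.out)⁻¹ * (h • q).out) := by group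
    rw [e, hε, hS _ hm, hε, mul_one]
  have e2 := congrArg (Int.cast : ℤ → κ) (hε2 h)
  simp only [Int.cast_mul, Int.cast_one] at e2
  simp only [MulAction.toPerm_apply, one_mul]
  rw [(hχ _ _).2 hm, e1, Int.cast_mul, ← mul_assoc, ← mul_assoc, e2, one_mul]

theorem Amb.f4_nu {V : ValuationSubring L} {F : IntermediateField A.K L} {hF : Normal A.K F}
    {g : A.G} (hg : g ∈ A.DVs V hF) {a : L} (ha : a ∈ F) (hn : a ∈ V.nonunits) :
    g a ∈ V.nonunits := by
  rw [ValuationSubring.mem_nonunits_iff_or] at hn ⊢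
  rcases hn with rfl | hn
  · exact Or.inl (map_zero g)
  · right
    rw [← map_inv₀]
    exact fun h => hn ((hg _ (F.inv_mem ha)).1 h)

theorem f4_res {V : ValuationSubring L} (a b : V) :
    IsLocalRing.residue V a = IsLocalRing.residue V b ↔ (a : L) - b ∈ V.nonunits := by
  rw [← sub_eq_zero, ← map_sub, IsLocalRing.residue_eq_zero_iff,
    ← ValuationSubring.coe_mem_nonunits_iff]
  rfl

/-- action of the decomposition group on `V ∩ F` -/
noncomputable def Amb.f4_rho (V : ValuationSubring L) {F : IntermediateField A.K L}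
    (hF : Normal A.K F) (g : A.DVs V hF) : (V.toSubring ⊓ F.toSubfield.toSubring : Subring L) →+* V where
  toFun := fun a => ⟨g.1 a, (g.2 _ a.2.2).2 a.2.1⟩
  map_one' := Subtype.ext (by simp)
  map_mul' := fun a b => Subtype.ext (by simp)
  map_zero' := Subtype.ext (by simp)
  map_add' := fun a b => Subtype.ext (by simp)

theorem Amb.f4_sign {V : ValuationSubring L} {F : IntermediateField A.K L} (hF : Normal A.K F)
    (C : Subgroup A.G) (hIC : A.IVs V hF ≤ C) (hfin : (A.IVs V hF).relIndex (A.DVs V hF) ≠ 0)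
    (h2 : ∀ g ∈ A.DVs V hF, ∀ h ∈ A.DVs V hF, g ∉ C → h ∉ C → g * h ∈ C) :
    ∃ w ∈ F, VU V w ∧ ∀ g ∈ A.DVs V hF,
      (g ∈ C → g w - w ∈ V.nonunits) ∧ (g ∉ C → g w + w ∈ V.nonunits) := by
  set S := (A.IVs V hF).subgroupOf (A.DVs V hF) with hS
  have : S.FiniteIndex := ⟨hfin⟩
  have : Fintype (A.DVs V hF ⧸ S) := Fintype.ofFinite _
  let χ : A.DVs V hF → ((V.toSubring ⊓ F.toSubfield.toSubring : Subring L) →*
      IsLocalRing.ResidueField V) := fun g =>
    ((IsLocalRing.residue V).comp (A.f4_rho V hF g)).toMonoidHom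
  have hχ : ∀ g h, χ g = χ h ↔ g⁻¹ * h ∈ S := by
    intro g h
    rw [hS, Subgroup.mem_subgroupOf]
    constructor
    · intro e
      refine ⟨(g⁻¹ * h).2, fun a ha hv => ?_⟩
      have e1 := (f4_res _ _).1 (DFunLike.congr_fun e.symm ⟨a, hv, ha⟩)
      have e2 := A.f4_nu (g⁻¹).2 (F.sub_mem (A.nm hF h.1 ha) (A.nm hF g.1 ha)) e1
      rw [map_sub] at e2
      have e3 : (g⁻¹).1 (g.1 a) = a := A.tr_cancel' g.1 a
      rw [e3] at e2
      exact e2
    · intro e
      ext a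
      have e1 := e.2 a a.2.2 a.2.1
      have e2 := A.f4_nu g.2 (F.sub_mem (A.nm hF _ a.2.2) a.2.2) e1
      rw [map_sub] at e2
      have e3 : g.1 ((g⁻¹ * h).1 a) = h.1 a := A.tr_cancel g.1 _
      rw [e3] at e2
      exact ((f4_res (A.f4_rho V hF h a) (A.f4_rho V hF g a)).2 e2).symm
  let ε : A.DVs V hF → ℤ := fun g => if g.1 ∈ C then 1 else -1
  have hε : ∀ g h, ε (g * h) = ε g * ε h := by
    intro g h
    by_cases hg : g.1 ∈ C <;> by_cases hh : h.1 ∈ C
    · have : (g * h).1 ∈ C := C.mul_mem hg hh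
      simp only [ε, if_pos hg, if_pos hh, if_pos this, mul_one]
    · have : (g * h).1 ∉ C := fun k => hh ((C.mul_mem_cancel_left hg).1 k)
      simp only [ε, if_pos hg, if_neg hh, if_neg this, one_mul]
    · have : (g * h).1 ∉ C := fun k => hg ((C.mul_mem_cancel_right hh).1 k)
      simp only [ε, if_neg hg, if_pos hh, if_neg this, mul_one]
    · have : (g * h).1 ∈ C := h2 _ g.2 _ h.2 hg hh
      simp only [ε, if_neg hg, if_neg hh, if_pos this]
      norm_num
  have hε2 : ∀ g, ε g * ε g = 1 := by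
    intro g
    by_cases hg : g.1 ∈ C <;> simp [ε, hg]
  have hS1 : ∀ g ∈ S, ε g = 1 := fun g hg => if_pos (hIC hg)
  obtain ⟨a, ha, hb⟩ := f4_artin S χ hχ ε hε hε2 hS1
  let W : A.DVs V hF → V := fun h =>
    ∑ q : A.DVs V hF ⧸ S, (ε q.out : V) * A.f4_rho V hF (h * q.out) a
  have hW : ∀ h, IsLocalRing.residue V (W h) =
      ∑ q : A.DVs V hF ⧸ S, (ε q.out : IsLocalRing.ResidueField V) * χ (h * q.out) a := by
    intro h
    simp only [W, map_sum, map_mul, map_intCast]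
    rfl
  have hc : ∀ h, (W h : L) = ∑ q : A.DVs V hF ⧸ S, (ε q.out : L) * (h * q.out).1 a := by
    intro h
    have := map_sum V.subtype
      (fun q : A.DVs V hF ⧸ S => (ε q.out : V) * A.f4_rho V hF (h * q.out) a) Finset.univ
    simp only [map_mul, map_intCast] at this
    exact this
  have hg : ∀ h : A.DVs V hF, h.1 (W 1) = W h := by
    intro h
    rw [hc, hc, map_sum]
    refine Finset.sum_congr rfl fun q _ => ?_
    rw [map_mul, map_intCast, one_mul]
    rfl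
  refine ⟨W 1, ?_, ⟨(W 1).2, fun k => ha ?_⟩, fun g hgD => ⟨fun k => ?_, fun k => ?_⟩⟩
  · rw [hc]
    exact F.sum_mem fun q _ => F.mul_mem (intCast_mem F _) (A.nm hF _ a.2.2)
  · rw [← hW, ← map_zero (IsLocalRing.residue V), f4_res]
    simpa using k
  · have e := hb ⟨g, hgD⟩
    rw [← hW, ← hW, show ε ⟨g, hgD⟩ = 1 from if_pos k, Int.cast_one, one_mul, f4_res,
      ← hg ⟨g, hgD⟩] at e
    exact e
  · have e := hb ⟨g, hgD⟩
    rw [← hW, ← hW, show ε ⟨g, hgD⟩ = -1 from if_neg k, Int.cast_neg, Int.cast_one, neg_one_mul,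
      ← map_neg, f4_res, ← hg ⟨g, hgD⟩] at e
    simpa using e

theorem f4_sqfree (n : ℕ) : ∀ P : ℂ[X], P ≠ 0 → P.natDegree = n →
    ∃ (S : ℂ[X]) (T : Finset ℂ), S ≠ 0 ∧ P = S ^ 2 * ∏ c ∈ T, (X - C c) := by
  induction n with
  | zero =>
    intro P hP hd
    obtain ⟨c, rfl⟩ := natDegree_eq_zero.1 hd
    obtain ⟨d, rfl⟩ := IsAlgClosed.exists_pow_nat_eq c (n := 2) two_pos
    refine ⟨C d, ∅, fun h => hP ?_, by simp⟩
    rw [C_pow, h, zero_pow two_ne_zero]
  | succ n ih =>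
    intro P hP hd
    obtain ⟨c, hc⟩ := IsAlgClosed.exists_root P (by
      rw [degree_eq_natDegree hP, hd]
      exact_mod_cast Nat.succ_ne_zero n)
    obtain ⟨P', rfl⟩ := dvd_iff_isRoot.2 hc
    have hP' : P' ≠ 0 := right_ne_zero_of_mul hP
    rw [natDegree_mul (X_sub_C_ne_zero c) hP', natDegree_X_sub_C] at hd
    obtain ⟨S, T, hS, rfl⟩ := ih P' hP' (by omega)
    by_cases hT : c ∈ T
    · refine ⟨S * (X - C c), T.erase c, mul_ne_zero hS (X_sub_C_ne_zero c), ?_⟩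
      rw [← Finset.mul_prod_erase T _ hT]
      ring
    · refine ⟨S, insert c T, hS, ?_⟩
      rw [Finset.prod_insert hT]
      ring

theorem f4_prime {V : ValuationSubring L} {a b : L} (ha : a ∈ V) (hb : b ∈ V)
    (h : a * b ∈ V.nonunits) : a ∈ V.nonunits ∨ b ∈ V.nonunits := by
  by_contra hc
  push Not at hc
  exact (VU.mul ⟨ha, hc.1⟩ ⟨hb, hc.2⟩).2 h

theorem Amb.f4_unm {V : ValuationSubring L} {F : IntermediateField A.K L} {a : ℕ}
    (hF : A.Good F a) {y u : L} {fu : Bool} {c : ℂ} (hc : A.Ch u (y - algebraMap ℂ L c) fu false)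
    (hV : Over V u (y - algebraMap ℂ L c)) {T : Finset ℂ} (hT : c ∈ T) {w : L} (hw : w ∈ F)
    (hv : w ∈ V) : w ^ 2 - ∏ c' ∈ T, (y - algebraMap ℂ L c') ∉ V.nonunits := by
  intro hn
  obtain ⟨P, hP, ho⟩ := exists_on hV hc.ind
  obtain ⟨u', hu'⟩ := ine2_root u fu a
  have hx := hF.rg u _ fu false hc P hP u' (y - algebraMap ℂ L c) hu' (by simp)
  have hsub := A.ine2_sub hc.sub hP F ho
  obtain ⟨k1, k2, -⟩ := hx.val hsub (hV.mem hu' (ine2_pos fu a))
    (hV.not_mem (le_refl 1) (pow_one _))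
  obtain ⟨b, hb, d, hd, hdu, e⟩ := (k2 w hw).1 hv
  set x := res (cl u (y - algebraMap ℂ L c)) (A.rs F) P with hxd
  have hm := hx.gen.2.1
  have hU : ∀ c' ∈ T.erase c, x.U (y - algebraMap ℂ L c') := by
    intro c' hc'
    have e' : y - algebraMap ℂ L c' = (y - algebraMap ℂ L c) + algebraMap ℂ L (c - c') := by
      rw [map_sub]
      ring
    rw [e']
    refine ⟨x.O.add_mem hm.1 (x.O.algebraMap_mem _), ?_⟩
    rw [x.hom.add _ hm.1 _ (x.O.algebraMap_mem _), hm.2, x.hom.alg, zero_add, sub_ne_zero]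
    exact (Finset.ne_of_mem_erase hc').symm
  have hε : x.U (∏ c' ∈ T.erase c, (y - algebraMap ℂ L c')) := by
    refine ⟨x.O.prod_mem fun c' hc' => (hU c' hc').1, ?_⟩
    rw [x.hom.prod _ fun c' hc' => (hU c' hc').1]
    exact Finset.prod_ne_zero_iff.2 fun c' hc' => (hU c' hc').2
  refine hx.not_sq hε hb hd hdu ((k1 _ ?_).1 ?_)
  · exact x.O.sub_mem (x.O.pow_mem hb 2)
      (x.O.mul_mem (x.O.mul_mem hε.1 hm.1) (x.O.pow_mem hd 2))
  · have e' : b ^ 2 - (∏ c' ∈ T.erase c, (y - algebraMap ℂ L c')) * (y - algebraMap ℂ L c) * d ^ 2 =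
        d ^ 2 * (w ^ 2 - ∏ c' ∈ T, (y - algebraMap ℂ L c')) := by
      rw [← Finset.mul_prod_erase T _ hT, ← e]
      ring
    rw [e']
    exact val_nu_mul (V.pow_mem (hsub d hd) 2) hn

theorem Amb.gen_D {V : ValuationSubring L} {τ y : L} (hV : Over V τ y)
    (hi : AlgebraicIndependent ℂ ![τ, y]) (hg : IntermediateField.adjoin ℂ {τ, y} = A.K)
    {F : IntermediateField A.K L} {a : ℕ} (hF : A.Good F a) (Y : Finset ℂ) (e : ℂ → A.G)
    (he : ∀ c ∈ Y, e c ∈ A.DVs V hF.normal)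
    (hr : ∀ c ∈ Y, ∀ w, w ^ 2 = y - algebraMap ℂ L c → w ∈ F)
    (ha : ∀ c ∈ Y, ∀ c' ∈ Y, A.Acts (e c) (y - algebraMap ℂ L c') (if c' = c then 1 else 0))
    (hu : ∀ c, c ∉ Y → ∃ u fu, A.Ch u (y - algebraMap ℂ L c) fu false ∧
      Over V u (y - algebraMap ℂ L c)) :
    A.DVs V hF.normal ≤ Subgroup.closure (e '' Y) ⊔ A.IVs V hF.normal := by
  by_contra hcon
  obtain ⟨hN, hfi, k, hk⟩ := hF.tw.fix A hF.normal
  have hNI : F.fixingSubgroup ≤ A.IVs V hF.normal := by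
    intro g hg'
    have hfix : ∀ b ∈ F, g b = b := fun b hb => hg' ⟨b, hb⟩
    exact ⟨fun b hb => by rw [hfix b hb], fun b hb _ => by rw [hfix b hb, sub_self]; exact zero_mem _⟩
  have hfin : (A.IVs V hF.normal).relIndex (A.DVs V hF.normal) ≠ 0 := by
    have := Subgroup.finiteIndex_of_le hNI
    exact Subgroup.FiniteIndex.index_ne_zero
  obtain ⟨C, hAC, hIC, -, ⟨τ₀, hτ, hτC⟩, h2⟩ := frattini (Subgroup.closure (e '' Y))
    (A.DVs V hF.normal) (A.IVs V hF.normal)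
    ((Subgroup.closure_le _).2 (by rintro _ ⟨c, hc, rfl⟩; exact he c hc)) (fun g hg' => hg'.1)
    (fun g hg' h hh => ⟨(A.DVs V hF.normal).mul_mem ((A.DVs V hF.normal).mul_mem hg' hh.1)
      ((A.DVs V hF.normal).inv_mem hg'), fun b hb hv => by
        have hb' := A.nm hF.normal g⁻¹ hb
        have h1 := hh.2 _ hb' (((A.DVs V hF.normal).inv_mem hg' b hb).2 hv)
        have h3 := A.f4_nu hg' (F.sub_mem (A.nm hF.normal h hb') hb') h1
        rw [map_sub, A.tr_cancel] at h3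
        exact h3⟩)
    ⟨k, fun g _ => hNI (hk g)⟩ hfin hcon
  obtain ⟨w, hwF, hwU, hw⟩ := A.f4_sign hF.normal C hIC hfin h2
  have hgV : ∀ g ∈ A.DVs V hF.normal, ∀ b ∈ F, b ∈ V → g b ∈ V := fun g hg' b hb hv =>
    (hg' b hb).2 hv
  obtain ⟨P, Q, hQ, hPQ⟩ := A.fix_res hV hi hg hF.tw hF.normal (pow_mem hwF 2)
    (pow_mem hwU.1 2) (fun g hg' => by
      have e1 : g (w ^ 2) - w ^ 2 = (g w + w) * (g w - w) := by rw [map_pow]; ring
      have hgw := hgV g hg' w hwF hwU.1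
      rw [e1]
      by_cases hC : g ∈ C
      · exact val_nu_mul (V.add_mem _ _ hgw hwU.1) ((hw g hg').1 hC)
      · rw [mul_comm]
        exact val_nu_mul (V.sub_mem hgw hwU.1) ((hw g hg').2 hC))
  have hvu : ∀ R : ℂ[X], R ≠ 0 → VU V (aeval y R) := fun R hR =>
    ⟨val_aeval hV.alg hV.hv R, hV.tr R hR⟩
  have hP : P ≠ 0 := by
    rintro rfl
    rw [map_zero, sub_zero, pow_two] at hPQ
    exact ((hvu Q hQ).mul (hwU.mul hwU)).2 hPQ
  obtain ⟨S, T, hS, hST⟩ := f4_sqfree _ (P * Q) (mul_ne_zero hP hQ) rfl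
  have hyK : y ∈ A.K := hg ▸ IntermediateField.subset_adjoin ℂ _ (by simp)
  have haK : ∀ R : ℂ[X], aeval y R ∈ A.K := fun R => by
    have := aeval_subalgebra_coe R A.K.toSubalgebra ⟨y, hyK⟩
    rw [← show _ = aeval y R from this]
    exact Subtype.property _
  set r := aeval y Q * (aeval y S)⁻¹ with hr'
  have hrK : r ∈ A.K := A.K.mul_mem (haK Q) (A.K.inv_mem (haK S))
  have hrU : VU V r := (hvu Q hQ).mul (hvu S hS).inv
  have hS0 : aeval y S ≠ 0 := fun h => (hvu S hS).2 (by rw [h]; exact zero_mem _)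
  have hw2F : r * w ∈ F := F.mul_mem (A.ine2_KF F hrK) hwF
  have hw2U : VU V (r * w) := hrU.mul hwU
  have hsq : (r * w) ^ 2 - ∏ c ∈ T, (y - algebraMap ℂ L c) ∈ V.nonunits := by
    have e1 : aeval y P * aeval y Q = aeval y S ^ 2 * ∏ c ∈ T, (y - algebraMap ℂ L c) := by
      rw [← map_mul, hST]
      simp [map_prod]
    have e2 : (r * w) ^ 2 - ∏ c ∈ T, (y - algebraMap ℂ L c) =
        (r * (aeval y S)⁻¹) * (aeval y Q * w ^ 2 - aeval y P) := by
      have e3 : ∏ c ∈ T, (y - algebraMap ℂ L c) =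
          aeval y P * aeval y Q * (aeval y S)⁻¹ ^ 2 := by
        rw [e1]
        field_simp
      rw [e3, hr']
      ring
    rw [e2]
    exact val_nu_mul (hrU.mul (hvu S hS).inv).1 hPQ
  have hTY : ∀ c ∈ T, c ∈ Y := by
    intro c hc
    by_contra hY
    obtain ⟨u, fu, h1, h3⟩ := hu c hY
    exact A.f4_unm hF h1 h3 hc hw2F hw2U.1 hsq
  choose ρ hρ using fun c : ℂ => IsAlgClosed.exists_pow_nat_eq (y - algebraMap ℂ L c) two_pos
  have hρF : ∀ c ∈ T, ρ c ∈ F := fun c hc => hr c (hTY c hc) _ (hρ c)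
  have hΩF : ∏ c ∈ T, ρ c ∈ F := F.prod_mem hρF
  have hΩ2 : (∏ c ∈ T, ρ c) ^ 2 = ∏ c ∈ T, (y - algebraMap ℂ L c) := by
    rw [← Finset.prod_pow]
    exact Finset.prod_congr rfl fun c _ => hρ c
  have hΩV : ∏ c ∈ T, ρ c ∈ V := by
    refine V.toSubring.prod_mem fun c _ => ?_
    have h1 : ρ c ^ 2 ∈ V := by rw [hρ]; exact V.sub_mem hV.hv (hV.alg c)
    have h3 := (V.valuation_le_one_iff _).2 h1
    rw [map_pow, pow_le_one_iff_of_nonneg zero_le two_ne_zero] at h3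
    exact (V.valuation_le_one_iff _).1 h3
  have hs : ∃ η : ℤ, r * w - η * ∏ c ∈ T, ρ c ∈ V.nonunits := by
    rw [← hΩ2, sq_sub_sq] at hsq
    rcases f4_prime (V.add_mem _ _ hw2U.1 hΩV) (V.sub_mem hw2U.1 hΩV) hsq with h | h
    · exact ⟨-1, by simpa using h⟩
    · exact ⟨1, by simpa using h⟩
  obtain ⟨η, hη⟩ := hs
  have h2U : VU V (algebraMap ℂ L 2) := VU.const hV.alg two_ne_zero
  have hfin2 : algebraMap ℂ L 2 * (r * w) ∉ V.nonunits := (h2U.mul hw2U).2
  have h22 : algebraMap ℂ L 2 = 2 := map_ofNat _ 2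
  rw [h22] at hfin2
  have hact : ∀ g ∈ A.DVs V hF.normal, r * g w - η * g (∏ c ∈ T, ρ c) ∈ V.nonunits := by
    intro g hg'
    have := A.f4_nu hg' (F.sub_mem hw2F (F.mul_mem (intCast_mem F η) hΩF)) hη
    rwa [map_sub, map_mul g r w, map_mul g (η : L), A.fixK g hrK, map_intCast] at this
  rcases T.eq_empty_or_nonempty with rfl | ⟨c₀, hc₀⟩
  · have h1 := hact τ₀ hτ
    have h3 := val_nu_mul hrU.1 ((hw τ₀ hτ).2 hτC)
    simp only [Finset.prod_empty, map_one] at h1 hη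
    apply hfin2
    have e1 : 2 * (r * w) = r * (τ₀ w + w) - (r * τ₀ w - η * 1) + (r * w - η * 1) := by ring
    rw [e1]
    exact add_mem (sub_mem h3 h1) hη
  · have hY := hTY c₀ hc₀
    have h1 := hact _ (he c₀ hY)
    have h3 := val_nu_mul hrU.1 ((hw _ (he c₀ hY)).1
      (hAC (Subgroup.subset_closure ⟨c₀, hY, rfl⟩)))
    have h4 : e c₀ (∏ c ∈ T, ρ c) = -∏ c ∈ T, ρ c := by
      have h5 : ∀ c ∈ T, e c₀ (ρ c) = (if c = c₀ then -1 else 1) * ρ c := by
        intro c hc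
        rw [ha c₀ hY c (hTY c hc) 1 (ρ c) ⟨F, hF.tw, hρF c hc⟩ (by simpa using hρ c), zt_one]
        split_ifs <;> simp
      rw [map_prod, Finset.prod_congr rfl h5, Finset.prod_mul_distrib, Finset.prod_ite_eq',
        if_pos hc₀, neg_one_mul]
    rw [h4] at h1
    apply hfin2
    have e1 : 2 * (r * w) = (r * e c₀ w - η * -∏ c ∈ T, ρ c) - r * (e c₀ w - w) +
        (r * w - η * ∏ c ∈ T, ρ c) := by ring
    rw [e1]
    exact add_mem (sub_mem h1 h3) hη

end Vale.Agent.P300
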