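import Vale.Agent.P300.Core

/-! The Golod-Shafarevich-Vinberg inequality. `𝔪` = left ideal generated by the generators, free as a
left module on them, and `∑ a i * X i ∈ 𝔪 ^ (n + 1)` iff all `a i ∈ 𝔪 ^ n` (basis of words,
`FreeAlgebra.basisFreeMonoid` / `equivMonoidAlgebraFreeMonoid`). Write `r j = ∑ r j i * X i` with
`r j i ∈ 𝔪 ^ (d j - 1)`. With `a n = dim A / (J + 𝔪 ^ n)`: the map `(A / (J + 𝔪 ^ n)) ^ ι → 𝔪 / (J + 𝔪 ^ (n + 1))`,
`a ↦ ∑ a i * X i`, is onto with kernel the image of `⨁ j, A / (J + 𝔪 ^ (n + 1 - d j))`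
(`J = ∑ A r j + J 𝔪`), so `card ι * a n + 1 ≤ a (n + 1) + ∑ j, a (n + 1 - d j)` (`a 0 = 0`). If
`a (n + 1) = a n` once then `a` is constant afterwards; summing against `t ^ (n + 1)` contradicts the
hypothesis. So `a` is strictly increasing. -/

open scoped Classical

namespace Vale.Agent.P300

/-- augmentation ideal of the free algebra -/
def fm (ι : Type) : Ideal (FreeAlgebra (ZMod 2) ι) := Ideal.span (Set.range (FreeAlgebra.ι (ZMod 2)))

/-- two-sided ideal generated by a family -/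
def tw {R ρ : Type} [Ring R] (r : ρ → R) : Ideal R := Ideal.span {y | ∃ j b, y = r j * b}

theorem gs1_D (ι : Type) : ∃ D : FreeAlgebra (ZMod 2) ι →ₗ[ZMod 2]
    ZMod 2 × (ι → FreeAlgebra (ZMod 2) ι),
    (∀ c, D (algebraMap _ _ c) = (c, 0)) ∧
      ∀ x j, D (x * FreeAlgebra.ι (ZMod 2) j) = (0, Pi.single j x) := by
  let T : ι → Module.End (ZMod 2) (ZMod 2 × (ι → FreeAlgebra (ZMod 2) ι)) := fun j =>
    LinearMap.inr (ZMod 2) (ZMod 2) (ι → FreeAlgebra (ZMod 2) ι) ∘ₗ
      ((LinearMap.single (ZMod 2) (fun _ : ι => FreeAlgebra (ZMod 2) ι) j ∘ₗ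
        Algebra.linearMap (ZMod 2) (FreeAlgebra (ZMod 2) ι)).coprod
        ((LinearMap.mulLeft (ZMod 2) (FreeAlgebra.ι (ZMod 2) j)).compLeft ι))
  have hT : ∀ j c a, T j (c, a) = (0, Pi.single j (algebraMap _ _ c) +
      fun i => FreeAlgebra.ι (ZMod 2) j * a i) := fun j c a => rfl
  let φ := FreeAlgebra.lift (ZMod 2) T
  have h1 : ∀ x a, φ x (0, a) = (0, fun i => x * a i) := by
    intro x
    induction x with
    | grade0 c =>
      intro a
      rw [AlgHom.commutes, Module.algebraMap_end_apply]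
      ext i
      · simp
      · simp [Algebra.smul_def]
    | grade1 j =>
      intro a
      rw [FreeAlgebra.lift_ι_apply, hT]
      simp
    | mul x y hx hy =>
      intro a
      rw [map_mul, Module.End.mul_apply, hy, hx]
      simp [mul_assoc]
    | add x y hx hy =>
      intro a
      rw [map_add, LinearMap.add_apply, hx, hy]
      ext i
      · simp
      · simp [add_mul]
  refine ⟨LinearMap.applyₗ ((1 : ZMod 2), (0 : ι → FreeAlgebra (ZMod 2) ι)) ∘ₗ φ.toLinearMap,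
    ?_, ?_⟩
  · intro c
    show φ (algebraMap _ _ c) (1, 0) = _
    rw [AlgHom.commutes, Module.algebraMap_end_apply]
    simp
  · intro x j
    show φ (x * FreeAlgebra.ι (ZMod 2) j) (1, 0) = _
    rw [map_mul, Module.End.mul_apply, FreeAlgebra.lift_ι_apply, hT, h1]
    ext i
    · rfl
    · by_cases hij : i = j
      · subst hij
        simp
      · simp [hij]

theorem gs1_dec {ι : Type} (x : FreeAlgebra (ZMod 2) ι) :
    ∃ c : ZMod 2, ∃ m ∈ fm ι, x = algebraMap _ _ c + m := by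
  induction x with
  | grade0 c => exact ⟨c, 0, zero_mem _, by simp⟩
  | grade1 j => exact ⟨0, _, Ideal.subset_span ⟨j, rfl⟩, by simp⟩
  | mul x y hx hy =>
    obtain ⟨c, m, hm, rfl⟩ := hx
    obtain ⟨c', m', hm', rfl⟩ := hy
    refine ⟨c * c', algebraMap _ _ c' * m + (algebraMap _ _ c + m) * m',
      add_mem (Ideal.mul_mem_left _ _ hm) (Ideal.mul_mem_left _ _ hm'), ?_⟩
    rw [mul_add, add_mul, ← map_mul, ← Algebra.commutes c' m, add_assoc]
  | add x y hx hy =>
    obtain ⟨c, m, hm, rfl⟩ := hx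
    obtain ⟨c', m', hm', rfl⟩ := hy
    exact ⟨c + c', m + m', add_mem hm hm', by rw [map_add]; abel⟩

theorem gs1_fm_two (ι : Type) : (fm ι).IsTwoSided := by
  refine ⟨fun {a} b ha => ?_⟩
  obtain ⟨c, m, hm, rfl⟩ := gs1_dec b
  rw [mul_add, ← Algebra.commutes c a]
  exact add_mem (Ideal.mul_mem_left _ _ ha) (Ideal.mul_mem_left _ _ hm)

theorem gs1_tw_two {R ρ : Type} [Ring R] (r : ρ → R) : (tw r).IsTwoSided := by
  refine ⟨fun {a} b ha => ?_⟩
  induction ha using Submodule.span_induction with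
  | mem y hy =>
    obtain ⟨j, b', rfl⟩ := hy
    exact Ideal.subset_span ⟨j, b' * b, mul_assoc _ _ _⟩
  | zero => simp
  | add x y _ _ hx hy =>
    rw [add_mul]
    exact add_mem hx hy
  | smul c x _ hx =>
    rw [smul_eq_mul, mul_assoc]
    exact Ideal.mul_mem_left _ _ hx

theorem gs1_P (ι : Type) [Fintype ι] : ∃ D : FreeAlgebra (ZMod 2) ι →ₗ[ZMod 2]
    ZMod 2 × (ι → FreeAlgebra (ZMod 2) ι), Function.Surjective D ∧
    (∀ x, x = algebraMap _ _ (D x).1 + ∑ i, (D x).2 i * FreeAlgebra.ι (ZMod 2) i) ∧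
    ∀ m ∈ fm ι, ∀ y, D (y * m) = (0, fun i => y * (D m).2 i) := by
  obtain ⟨D, h1, h2⟩ := gs1_D ι
  have h3 : ∀ a : ι → FreeAlgebra (ZMod 2) ι,
      D (∑ i, a i * FreeAlgebra.ι (ZMod 2) i) = (0, a) := by
    intro a
    rw [map_sum]
    simp only [h2]
    ext i
    · simp [Prod.fst_sum]
    · simp [Prod.snd_sum]
  have h4 : ∀ c a, D (algebraMap _ _ c + ∑ i, a i * FreeAlgebra.ι (ZMod 2) i) = (c, a) := by
    intro c a
    rw [map_add, h1, h3]
    simp
  refine ⟨D, fun v => ⟨_, h4 v.1 v.2⟩, ?_, ?_⟩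
  · intro x
    obtain ⟨c, m, hm, rfl⟩ := gs1_dec x
    obtain ⟨a, rfl⟩ := Ideal.mem_span_range_iff_exists_fun.1 hm
    rw [h4]
  · intro m hm y
    obtain ⟨a, rfl⟩ := Ideal.mem_span_range_iff_exists_fun.1 hm
    rw [h3, Finset.mul_sum]
    simp only [← mul_assoc]
    exact h3 fun i => y * a i

theorem gs1_pow {ι : Type} {D : FreeAlgebra (ZMod 2) ι →ₗ[ZMod 2]
    ZMod 2 × (ι → FreeAlgebra (ZMod 2) ι)}
    (hD : ∀ m ∈ fm ι, ∀ y, D (y * m) = (0, fun i => y * (D m).2 i)) (n : ℕ)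
    {x : FreeAlgebra (ZMod 2) ι} (hx : x ∈ fm ι ^ (n + 1)) :
    (D x).1 = 0 ∧ ∀ i, (D x).2 i ∈ fm ι ^ n := by
  have := gs1_fm_two ι
  rw [Submodule.pow_succ] at hx
  refine Submodule.mul_induction_on hx ?_ ?_
  · intro y hy m hm
    rw [hD m hm]
    exact ⟨rfl, fun i => Ideal.mul_mem_right _ _ hy⟩
  · intro x y hx hy
    rw [map_add]
    exact ⟨by simp [hx.1, hy.1], fun i => add_mem (hx.2 i) (hy.2 i)⟩

/-- the subspace of the statement -/
def gs1K {ι ρ : Type} (r : ρ → FreeAlgebra (ZMod 2) ι) (n : ℕ) :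
    Submodule (ZMod 2) (FreeAlgebra (ZMod 2) ι) := (tw r ⊔ fm ι ^ n).restrictScalars (ZMod 2)

theorem gs1_mem {ι ρ : Type} {r : ρ → FreeAlgebra (ZMod 2) ι} {n : ℕ}
    {x : FreeAlgebra (ZMod 2) ι} : x ∈ gs1K r n ↔ x ∈ tw r ⊔ fm ι ^ n := Iff.rfl

theorem gs1_zero {ι ρ : Type} (r : ρ → FreeAlgebra (ZMod 2) ι) : gs1K r 0 = ⊤ := by
  unfold gs1K
  rw [Submodule.pow_zero, Ideal.one_eq_top]
  simp

theorem gs1_fin {ι ρ : Type} [Fintype ι] (r : ρ → FreeAlgebra (ZMod 2) ι) (n : ℕ) :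
    Module.Finite (ZMod 2) (FreeAlgebra (ZMod 2) ι ⧸ gs1K r n) := by
  induction n with
  | zero =>
    rw [gs1_zero]
    infer_instance
  | succ n ih =>
    obtain ⟨D, -, h2, -⟩ := gs1_P ι
    let D' := (LinearMap.id.prodMap ((gs1K r n).mkQ.compLeft ι)) ∘ₗ D
    have h1 : LinearMap.ker D' ≤ gs1K r (n + 1) := by
      intro x hx
      have hx1 : (D x).1 = 0 := congrArg Prod.fst (LinearMap.mem_ker.1 hx)
      have hx2 : ∀ i, (D x).2 i ∈ tw r ⊔ fm ι ^ n := fun i =>
        (Submodule.Quotient.mk_eq_zero (gs1K r n)).1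
          (congrFun (congrArg Prod.snd (LinearMap.mem_ker.1 hx)) i)
      rw [gs1_mem, h2 x, hx1, map_zero, zero_add]
      refine Submodule.sum_mem _ fun i _ => ?_
      obtain ⟨a, ha, b, hb, e⟩ := Submodule.mem_sup.1 (hx2 i)
      rw [← e, add_mul]
      have := gs1_tw_two r
      refine Submodule.add_mem_sup (Ideal.mul_mem_right _ _ ha) ?_
      rw [Submodule.pow_succ]
      exact Ideal.mul_mem_mul hb (Ideal.subset_span ⟨i, rfl⟩)
    have h3 : Module.Finite (ZMod 2) (FreeAlgebra (ZMod 2) ι ⧸ LinearMap.ker D') :=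
      Module.Finite.equiv D'.quotKerEquivRange.symm
    exact Module.Finite.of_surjective _ (Submodule.factor_surjective h1)

theorem gs1_rec {ι ρ : Type} [Fintype ι] [Fintype ρ] (r : ρ → FreeAlgebra (ZMod 2) ι)
    (d : ρ → ℕ) (hd : ∀ j, 1 ≤ d j) (hr : ∀ j, r j ∈ fm ι ^ d j) (n : ℕ) :
    1 + Fintype.card ι * Module.finrank (ZMod 2) (FreeAlgebra (ZMod 2) ι ⧸ gs1K r n) ≤
      Module.finrank (ZMod 2) (FreeAlgebra (ZMod 2) ι ⧸ gs1K r (n + 1)) +
        ∑ j, Module.finrank (ZMod 2) (FreeAlgebra (ZMod 2) ι ⧸ gs1K r (n + 1 - d j)) := by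
  have hfin := gs1_fin r
  have htw := gs1_tw_two r
  have hfm := gs1_fm_two ι
  obtain ⟨D, h1, -, h3⟩ := gs1_P ι
  let π : (ZMod 2 × (ι → FreeAlgebra (ZMod 2) ι)) →ₗ[ZMod 2]
      ZMod 2 × (ι → FreeAlgebra (ZMod 2) ι ⧸ gs1K r n) :=
    LinearMap.id.prodMap ((gs1K r n).mkQ.compLeft ι)
  have hπ : Function.Surjective π := by
    rintro ⟨c, a⟩
    choose b hb using fun i => (gs1K r n).mkQ_surjective (a i)
    exact ⟨(c, b), Prod.ext rfl (funext hb)⟩
  have hπ0 : ∀ a : ι → FreeAlgebra (ZMod 2) ι, (∀ i, a i ∈ tw r ⊔ fm ι ^ n) → π (0, a) = 0 :=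
    fun a ha => Prod.ext rfl (funext fun i => (Submodule.Quotient.mk_eq_zero (gs1K r n)).2 (ha i))
  let D' := π ∘ₗ D
  have hr1 : ∀ j, r j ∈ fm ι := fun j => Ideal.pow_le_self (by have := hd j; omega) (hr j)
  have hα : ∀ j, gs1K r (n + 1 - d j) ≤
      LinearMap.ker (D' ∘ₗ LinearMap.mulRight (ZMod 2) (r j)) := by
    intro j b hb
    show π (D (b * r j)) = 0
    rw [h3 _ (hr1 j)]
    refine hπ0 _ fun i => ?_
    obtain ⟨a, ha, c, hc, rfl⟩ := Submodule.mem_sup.1 (gs1_mem.1 hb)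
    rw [add_mul]
    refine Submodule.add_mem_sup (Ideal.mul_mem_right _ _ ha) ?_
    obtain ⟨e, he⟩ : ∃ e, d j = e + 1 := ⟨d j - 1, by have := hd j; omega⟩
    have h4 := (gs1_pow h3 e (he ▸ hr j)).2 i
    have h5 := Ideal.mul_mem_mul hc h4
    rw [← Ideal.IsTwoSided.pow_add] at h5
    exact Ideal.pow_le_pow_right (by omega) h5
  let α : (∀ j, FreeAlgebra (ZMod 2) ι ⧸ gs1K r (n + 1 - d j)) →ₗ[ZMod 2]
      ZMod 2 × (ι → FreeAlgebra (ZMod 2) ι ⧸ gs1K r n) :=
    ∑ j, (gs1K r (n + 1 - d j)).liftQ _ (hα j) ∘ₗ LinearMap.proj j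
  have hW : ∀ j b, D' (b * r j) ∈ LinearMap.range α := by
    intro j b
    refine ⟨Pi.single j ((gs1K r (n + 1 - d j)).mkQ b), ?_⟩
    simp only [α, LinearMap.sum_apply, LinearMap.comp_apply, LinearMap.proj_apply]
    rw [Finset.sum_eq_single j]
    · simp
    · intro j' _ hj
      rw [Pi.single_eq_of_ne hj, map_zero]
    · simp
  have hker : gs1K r (n + 1) ≤ LinearMap.ker ((LinearMap.range α).mkQ ∘ₗ D') := by
    intro x hx
    obtain ⟨a, ha, c, hc, rfl⟩ := Submodule.mem_sup.1 (gs1_mem.1 hx)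
    have e1 : D' c = 0 := by
      have h4 := gs1_pow h3 n hc
      show π (D c) = 0
      rw [show D c = (0, (D c).2) from Prod.ext h4.1 rfl]
      exact hπ0 _ fun i => Submodule.mem_sup_right (h4.2 i)
    have e2 : ∀ y, D' (y * a) ∈ LinearMap.range α := by
      clear hx
      induction ha using Submodule.span_induction with
      | mem z hz =>
        obtain ⟨j, b, rfl⟩ := hz
        intro y
        obtain ⟨e, m, hm, rfl⟩ := gs1_dec b
        rw [mul_add, mul_add, map_add, ← Algebra.commutes e (r j), ← mul_assoc, ← mul_assoc]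
        refine add_mem (hW j _) ?_
        have e3 : D' (y * r j * m) = 0 := by
          show π (D _) = 0
          rw [h3 m hm]
          refine hπ0 _ fun i => Submodule.mem_sup_left ?_
          rw [mul_assoc]
          exact Ideal.mul_mem_left _ _ (Ideal.subset_span ⟨j, _, rfl⟩)
        rw [e3]
        exact zero_mem _
      | zero => simp
      | add x y _ _ hx hy =>
        intro z
        rw [mul_add, map_add]
        exact add_mem (hx z) (hy z)
      | smul c x _ hx =>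
        intro z
        rw [smul_eq_mul, ← mul_assoc]
        exact hx _
    rw [LinearMap.mem_ker, LinearMap.comp_apply, map_add, e1, add_zero, Submodule.mkQ_apply,
      Submodule.Quotient.mk_eq_zero]
    simpa using e2 1
  have hs : Function.Surjective ((gs1K r (n + 1)).liftQ _ hker) := by
    rw [← LinearMap.range_eq_top, Submodule.range_liftQ, LinearMap.range_eq_top]
    exact (Submodule.mkQ_surjective _).comp (hπ.comp h1)
  have a1 := LinearMap.finrank_le_finrank_of_surjective hs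
  have a2 := Submodule.finrank_quotient_add_finrank (LinearMap.range α)
  have a3 := LinearMap.finrank_range_le α
  rw [Module.finrank_pi_fintype] at a3
  rw [Module.finrank_prod, Module.finrank_self, Module.finrank_pi_fintype, Finset.sum_const,
    Finset.card_univ, smul_eq_mul] at a2
  omega

theorem gs1_unb {ρ : Type} [Fintype ρ] (g : ℕ) (d : ρ → ℕ) (hd : ∀ j, 1 ≤ d j) (a : ℕ → ℕ)
    (a0 : a 0 = 0) (ha : ∀ n, 1 + g * a n ≤ a (n + 1) + ∑ j, a (n + 1 - d j)) {t : ℝ}
    (h0 : 0 < t) (h : 1 - g * t + ∑ j, t ^ d j < 0) (N : ℕ) : t ≤ a (N + 1) * t ^ (N + 1) := by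
  set F : ℕ → ℝ := fun N => ∑ n ∈ Finset.range N, (a n : ℝ) * t ^ n with hF
  have F0 : ∀ N, 0 ≤ F N := fun N => Finset.sum_nonneg fun n _ => by positivity
  have Fm : Monotone F := by
    refine monotone_nat_of_le_succ fun N => ?_
    simp only [hF, Finset.sum_range_succ]
    have : (0 : ℝ) ≤ a N * t ^ N := by positivity
    linarith
  have hsh : ∀ e N, ∑ n ∈ Finset.range N, (a (n + 1 - (e + 1)) : ℝ) * t ^ (n + 1) =
      t ^ (e + 1) * F (N - e) := by
    intro e N
    induction N with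
    | zero => simp [hF]
    | succ N ih =>
      rw [Finset.sum_range_succ, ih]
      by_cases hN : e ≤ N
      · obtain ⟨m, rfl⟩ := Nat.exists_eq_add_of_le hN
        have e1 : e + m + 1 - (e + 1) = m := by omega
        have e2 : e + m + 1 - e = m + 1 := by omega
        have e3 : e + m - e = m := by omega
        simp only [e1, e2, e3, hF, Finset.sum_range_succ]
        ring
      · have e1 : N + 1 - (e + 1) = 0 := by omega
        have e2 : N + 1 - e = 0 := by omega
        have e3 : N - e = 0 := by omega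
        simp [e1, e2, e3, a0]
  have hsh' : ∀ j N, ∑ n ∈ Finset.range N, (a (n + 1 - d j) : ℝ) * t ^ (n + 1) ≤
      t ^ d j * F N := by
    intro j N
    obtain ⟨e, he⟩ : ∃ e, d j = e + 1 := ⟨d j - 1, by have := hd j; omega⟩
    rw [he, hsh]
    exact mul_le_mul_of_nonneg_left (Fm (Nat.sub_le _ _)) (by positivity)
  have s1 : ∑ n ∈ Finset.range (N + 1), (1 + g * a n : ℝ) * t ^ (n + 1) ≤
      ∑ n ∈ Finset.range (N + 1), (a (n + 1) + ∑ j, a (n + 1 - d j) : ℝ) * t ^ (n + 1) := by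
    refine Finset.sum_le_sum fun n _ => mul_le_mul_of_nonneg_right ?_ (by positivity)
    exact_mod_cast ha n
  have s2 : t + g * t * F (N + 1) ≤
      ∑ n ∈ Finset.range (N + 1), (1 + g * a n : ℝ) * t ^ (n + 1) := by
    simp only [add_mul, Finset.sum_add_distrib, hF, Finset.mul_sum]
    refine add_le_add ?_ (le_of_eq (Finset.sum_congr rfl fun n _ => by ring))
    rw [Finset.sum_range_succ']
    have : 0 ≤ ∑ n ∈ Finset.range N, 1 * t ^ (n + 1 + 1) :=
      Finset.sum_nonneg fun n _ => by positivity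
    simp only [zero_add, pow_one, one_mul] at this ⊢
    linarith
  have s3 : ∑ n ∈ Finset.range (N + 1), (a (n + 1) : ℝ) * t ^ (n + 1) =
      F (N + 1) + a (N + 1) * t ^ (N + 1) := by
    have e1 : F (N + 2) = F (N + 1) + a (N + 1) * t ^ (N + 1) := Finset.sum_range_succ _ _
    rw [← e1]
    simp only [hF]
    rw [Finset.sum_range_succ' _ (N + 1)]
    simp [a0]
  have s4 : ∑ n ∈ Finset.range (N + 1), (∑ j, a (n + 1 - d j) : ℝ) * t ^ (n + 1) ≤
      (∑ j, t ^ d j) * F (N + 1) := by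
    simp only [Finset.sum_mul]
    rw [Finset.sum_comm]
    exact Finset.sum_le_sum fun j _ => hsh' j _
  simp only [add_mul, Finset.sum_add_distrib, Nat.cast_sum] at s1 s2
  have s5 := mul_nonneg (neg_pos.2 h).le (F0 (N + 1))
  nlinarith

theorem gs1_stall {ι ρ : Type} (r : ρ → FreeAlgebra (ZMod 2) ι) {n : ℕ}
    (h : gs1K r n ≤ gs1K r (n + 1)) (m : ℕ) : gs1K r n ≤ gs1K r (n + m) := by
  have htw := gs1_tw_two r
  have hfm := gs1_fm_two ι
  have h1 : fm ι ^ n ≤ tw r ⊔ fm ι ^ (n + 1) := fun x hx => h (Submodule.mem_sup_right hx)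
  have h2 : fm ι ^ n ≤ tw r ⊔ fm ι ^ (n + m) := by
    induction m with
    | zero => exact le_sup_right
    | succ m ih =>
      refine ih.trans (sup_le le_sup_left ?_)
      rw [Ideal.IsTwoSided.pow_add]
      refine (Ideal.mul_mono_left h1).trans ?_
      rw [Ideal.sup_mul, ← Ideal.IsTwoSided.pow_add, show n + 1 + m = n + (m + 1) by omega]
      exact sup_le_sup_right Ideal.mul_le_left _
  exact fun x hx => (sup_le le_sup_left h2 : tw r ⊔ fm ι ^ n ≤ tw r ⊔ fm ι ^ (n + m)) hx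

theorem gs_free {ι ρ : Type} [Fintype ι] [Fintype ρ] (r : ρ → FreeAlgebra (ZMod 2) ι) (d : ρ → ℕ)
    (hd : ∀ j, 1 ≤ d j) (hr : ∀ j, r j ∈ fm ι ^ d j) {t : ℝ} (h0 : 0 < t) (h1 : t < 1)
    (h : 1 - Fintype.card ι * t + ∑ j, t ^ d j < 0) (n : ℕ) :
    n ≤ Module.finrank (ZMod 2)
      (FreeAlgebra (ZMod 2) ι ⧸ (tw r ⊔ fm ι ^ n).restrictScalars (ZMod 2)) := by
  set a : ℕ → ℕ := fun n => Module.finrank (ZMod 2) (FreeAlgebra (ZMod 2) ι ⧸ gs1K r n) with ha
  have hfin := gs1_fin r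
  have a0 : a 0 = 0 := by
    simp only [ha]
    rw [gs1_zero]
    exact Module.finrank_zero_of_subsingleton
  have hu := gs1_unb (Fintype.card ι) d hd a a0 (gs1_rec r d hd hr) h0 h
  have hle : ∀ {m n}, gs1K r m ≤ gs1K r n → a n ≤ a m := fun hmn =>
    LinearMap.finrank_le_finrank_of_surjective (Submodule.factor_surjective hmn)
  have hst : ∀ n, a n < a (n + 1) := by
    intro n
    by_contra hn
    have hle1 : gs1K r (n + 1) ≤ gs1K r n := fun x hx =>
      (sup_le_sup_left (Ideal.pow_le_pow_right (Nat.le_succ n)) (tw r)) hx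
    have hinj : Function.Injective (Submodule.factor hle1) :=
      (LinearMap.injective_iff_surjective_of_finrank_eq_finrank
        (le_antisymm (not_lt.1 hn) (hle hle1))).2 (Submodule.factor_surjective hle1)
    have hle2 : gs1K r n ≤ gs1K r (n + 1) := by
      intro x hx
      rw [← Submodule.Quotient.mk_eq_zero]
      apply hinj
      rw [map_zero]
      exact (Submodule.Quotient.mk_eq_zero _).2 hx
    have hb : ∀ m, t ≤ a n * t ^ (n + m + 1) := fun m =>
      (hu (n + m)).trans (mul_le_mul_of_nonneg_right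
        (by exact_mod_cast hle (gs1_stall r hle2 (m + 1))) (by positivity))
    have hlim : Filter.Tendsto (fun m => (a n : ℝ) * t ^ (n + m + 1)) Filter.atTop (nhds 0) := by
      have := (tendsto_pow_atTop_nhds_zero_of_lt_one h0.le h1).const_mul ((a n : ℝ) * t ^ (n + 1))
      rw [mul_zero] at this
      refine this.congr fun m => by ring
    exact absurd (ge_of_tendsto' hlim hb) (not_le.2 h0)
  exact (strictMono_nat_of_lt_succ hst).id_le n

end Vale.Agent.P300
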