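import Vale.Agent.P300.GS1

/-! Transfer to the group algebra of the free group (Magnus). The algebra map
`FreeAlgebra → k[F]`, `X i ↦ x i - 1` maps `𝔪 ^ n` into `I ^ n`, and induces an isomorphism
`A / 𝔪 ^ n ≃ k[F] / I ^ n` (inverse: `x i ↦ 1 + X i`, a unit modulo `𝔪 ^ n`; use `RingQuot`/`RingCon` or
`Ideal.Quotient` with `IsTwoSided`). Lift each `r j` modulo `I ^ n` to `𝔪 ^ d j`. -/

open scoped Classical

namespace Vale.Agent.P300

/-- augmentation ideal of the group algebra -/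
noncomputable def ga (G : Type) [Group G] : Ideal (MonoidAlgebra (ZMod 2) G) :=
  Ideal.span (Set.range fun h : G => MonoidAlgebra.of (ZMod 2) G h - 1)

theorem dimS_iff {G : Type} [Group G] {n : ℕ} {g : G} :
    DimS G n g ↔ MonoidAlgebra.of (ZMod 2) G g - 1 ∈ ga G ^ n := Iff.rfl

theorem gs2_two {k R : Type} [CommRing k] [Ring R] [Algebra k R] {K : Ideal R}
    (h : ∀ b, ∃ c, b - algebraMap k R c ∈ K) : K.IsTwoSided := by
  refine ⟨fun {a} b ha => ?_⟩
  obtain ⟨c, hc⟩ := h b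
  have := K.add_mem (K.mul_mem_left a hc) (K.mul_mem_left (algebraMap k R c) ha)
  rwa [mul_sub, Algebra.commutes, sub_add_cancel] at this

theorem gs2_ga (G : Type) [Group G] : (ga G).IsTwoSided := by
  refine gs2_two (k := ZMod 2) fun b => ?_
  induction b using MonoidAlgebra.induction_on with
  | of g => exact ⟨1, by rw [map_one]; exact Ideal.subset_span ⟨g, rfl⟩⟩
  | add x y hx hy =>
    obtain ⟨c, hc⟩ := hx
    obtain ⟨c', hc'⟩ := hy
    exact ⟨c + c', by rw [map_add, add_sub_add_comm]; exact add_mem hc hc'⟩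
  | smul r x hx =>
    obtain ⟨c, hc⟩ := hx
    exact ⟨r * c, by rw [map_mul, Algebra.smul_def, ← mul_sub]; exact Ideal.mul_mem_left _ _ hc⟩

theorem gs2_fm (ι : Type) : (fm ι).IsTwoSided := by
  refine gs2_two (k := ZMod 2) fun b => ?_
  induction b using FreeAlgebra.induction with
  | grade0 r => exact ⟨r, by rw [sub_self]; exact zero_mem _⟩
  | grade1 x => exact ⟨0, by rw [map_zero, sub_zero]; exact Ideal.subset_span ⟨x, rfl⟩⟩
  | add x y hx hy =>
    obtain ⟨c, hc⟩ := hx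
    obtain ⟨c', hc'⟩ := hy
    exact ⟨c + c', by rw [map_add, add_sub_add_comm]; exact add_mem hc hc'⟩
  | mul x y hx hy =>
    obtain ⟨c, hc⟩ := hx
    obtain ⟨c', hc'⟩ := hy
    have := add_mem (Ideal.mul_mem_left _ x hc') (Ideal.mul_mem_left _ (algebraMap _ _ c') hc)
    rw [mul_sub, mul_sub, Algebra.commutes c' x, sub_add_sub_cancel, ← map_mul] at this
    exact ⟨_, this⟩

theorem gs2_tw {R ρ : Type} [Ring R] (r : ρ → R) (K : Ideal R) [K.IsTwoSided] :
    (tw r ⊔ K).IsTwoSided := by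
  refine ⟨fun {a} b ha => ?_⟩
  obtain ⟨x, hx, y, hy, rfl⟩ := Submodule.mem_sup.1 ha
  rw [add_mul]
  refine Submodule.add_mem_sup ?_ (K.mul_mem_right b hy)
  clear ha
  induction hx using Submodule.span_induction with
  | mem x h =>
    obtain ⟨j, c, rfl⟩ := h
    exact Ideal.subset_span ⟨j, c * b, mul_assoc _ _ _⟩
  | zero => rw [zero_mul]; exact zero_mem _
  | add x y _ _ hx hy => rw [add_mul]; exact add_mem hx hy
  | smul c x _ hx => rw [smul_eq_mul, mul_assoc]; exact Ideal.mul_mem_left _ _ hx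

theorem gs2_pow {R S T : Type} [Ring R] [Ring S] [Ring T] (f : R →+* T) (g : S →+* T)
    (hg : Function.Surjective g) {I : Ideal R} {K : Ideal S} (h : I ≤ (K.map g).comap f) (d : ℕ) :
    ∀ b ∈ I ^ d, ∃ a ∈ K ^ d, g a = f b := by
  induction d with
  | zero =>
    intro b _
    obtain ⟨a, ha⟩ := hg (f b)
    exact ⟨a, by rw [Submodule.pow_zero, Ideal.one_eq_top]; trivial, ha⟩
  | succ d ih =>
    intro b hb
    refine Submodule.mul_induction_on (C := fun b => ∃ a ∈ K ^ (d + 1), g a = f b) hb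
      (fun x hx y hy => ?_) ?_
    · obtain ⟨a, ha, e⟩ := ih x hx
      obtain ⟨a', ha', e'⟩ := (Ideal.mem_map_iff_of_surjective g hg).1 (h hy)
      exact ⟨a * a', Ideal.mul_mem_mul ha ha', by rw [map_mul, map_mul, e, e']⟩
    · rintro x y ⟨a, ha, e⟩ ⟨a', ha', e'⟩
      exact ⟨a + a', add_mem ha ha', by rw [map_add, map_add, e, e']⟩

theorem gs2_gen {ι : Type} {K : Ideal (MonoidAlgebra (ZMod 2) (FreeGroup ι))}
    (h : ∀ i, MonoidAlgebra.of (ZMod 2) _ (FreeGroup.of i) - 1 ∈ K) : ga (FreeGroup ι) ≤ K := by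
  refine Ideal.span_le.2 ?_
  rintro _ ⟨g, rfl⟩
  change _ ∈ K
  induction g using FreeGroup.induction_on with
  | C1 => simp only [map_one, sub_self, zero_mem]
  | of i => exact h i
  | inv_of i hi =>
    have := K.neg_mem (K.mul_mem_left (MonoidAlgebra.of (ZMod 2) _ (FreeGroup.of i)⁻¹) hi)
    rwa [mul_sub, ← map_mul, inv_mul_cancel, map_one, mul_one, neg_sub] at this
  | mul x y hx hy =>
    have := K.add_mem (K.mul_mem_left (MonoidAlgebra.of (ZMod 2) _ x) hy) hx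
    rwa [mul_sub, ← map_mul, mul_one, sub_add_sub_cancel] at this

/-- the Magnus map -/
noncomputable def gs2M (ι : Type) :
    FreeAlgebra (ZMod 2) ι →ₐ[ZMod 2] MonoidAlgebra (ZMod 2) (FreeGroup ι) :=
  FreeAlgebra.lift (ZMod 2) fun i => MonoidAlgebra.of (ZMod 2) _ (FreeGroup.of i) - 1

theorem gs2M_ι {ι : Type} (i : ι) : gs2M ι (FreeAlgebra.ι (ZMod 2) i) =
    MonoidAlgebra.of (ZMod 2) _ (FreeGroup.of i) - 1 := FreeAlgebra.lift_ι_apply _ _

theorem gs2M_pow {ι : Type} {d : ℕ} {a : FreeAlgebra (ZMod 2) ι} (ha : a ∈ fm ι ^ d) :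
    gs2M ι a ∈ ga (FreeGroup ι) ^ d := by
  obtain ⟨b, hb, e⟩ := gs2_pow (gs2M ι).toRingHom (RingHom.id _) Function.surjective_id
    (K := ga (FreeGroup ι)) (Ideal.span_le.2 (by
      rintro _ ⟨i, rfl⟩
      exact Ideal.mem_map_of_mem (RingHom.id _) (Ideal.subset_span ⟨_, (gs2M_ι i).symm⟩))) d a ha
  exact (show b = gs2M ι a from e) ▸ hb

theorem gs2_lift {ι : Type} (n d : ℕ) {b : MonoidAlgebra (ZMod 2) (FreeGroup ι)}
    (hb : b ∈ ga (FreeGroup ι) ^ d) :
    ∃ a ∈ fm ι ^ d, gs2M ι a - b ∈ ga (FreeGroup ι) ^ n := by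
  have := gs2_ga (FreeGroup ι)
  let π := Ideal.Quotient.mkₐ (ZMod 2) (ga (FreeGroup ι) ^ n)
  have hs : ∀ b, π b ∈ (π.comp (gs2M ι)).range := fun b => by
    induction b using MonoidAlgebra.induction_on with
    | add x y hx hy => rw [map_add]; exact add_mem hx hy
    | smul r x hx => rw [map_smul]; exact Subalgebra.smul_mem _ hx r
    | of g =>
      have h1 : ∀ i, π (MonoidAlgebra.of (ZMod 2) _ (FreeGroup.of i)) ∈
          (π.comp (gs2M ι)).range := fun i =>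
        ⟨FreeAlgebra.ι (ZMod 2) i + 1, by
          change π (gs2M ι _) = _
          rw [map_add, gs2M_ι, map_one, sub_add_cancel]⟩
      induction g using FreeGroup.induction_on with
      | C1 => rw [map_one, map_one]; exact one_mem _
      | of i => exact h1 i
      | mul x y hx hy => rw [map_mul, map_mul]; exact mul_mem hx hy
      | inv_of i hi =>
        have h2 := mul_neg_geom_sum (1 - π (MonoidAlgebra.of (ZMod 2) _ (FreeGroup.of i))) n
        have h3 : (1 - π (MonoidAlgebra.of (ZMod 2) _ (FreeGroup.of i))) ^ n = 0 := by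
          rw [← map_one π, ← map_sub, ← map_pow, ← neg_sub]
          exact Ideal.Quotient.eq_zero_iff_mem.2
            (Ideal.pow_mem_pow (neg_mem (Ideal.subset_span (Set.mem_range_self _))) n)
        rw [h3, sub_sub_cancel, sub_zero] at h2
        rw [← mul_one (π _), ← h2, ← mul_assoc, ← map_mul, ← map_mul, inv_mul_cancel, map_one,
          map_one, one_mul]
        exact sum_mem fun j _ => pow_mem (sub_mem (one_mem _) hi) j
  obtain ⟨a, ha, e⟩ := gs2_pow π.toRingHom (π.comp (gs2M ι)).toRingHom (fun y => by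
    obtain ⟨x, rfl⟩ := Ideal.Quotient.mkₐ_surjective (ZMod 2) _ y
    exact hs x) (K := fm ι) (gs2_gen fun i => by
      rw [← gs2M_ι]
      exact Ideal.mem_map_of_mem (π.comp (gs2M ι)).toRingHom (Ideal.subset_span ⟨i, rfl⟩)) d b hb
  exact ⟨a, ha, Ideal.Quotient.eq.1 e⟩

theorem gs2_inv {ι : Type} {n : ℕ} (J : Ideal (FreeAlgebra (ZMod 2) ι)) [J.IsTwoSided]
    (hJ : fm ι ^ n ≤ J) : ∃ ψ : MonoidAlgebra (ZMod 2) (FreeGroup ι) →ₐ[ZMod 2] _ ⧸ J,
      (∀ a, ψ (gs2M ι a) = Ideal.Quotient.mk J a) ∧ ∀ b ∈ ga (FreeGroup ι) ^ n, ψ b = 0 := by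
  have hu : ∀ i, IsUnit (1 + Ideal.Quotient.mk J (FreeAlgebra.ι (ZMod 2) i)) := fun i =>
    IsNilpotent.isUnit_one_add ⟨n, by
      rw [← map_pow]
      exact Ideal.Quotient.eq_zero_iff_mem.2
        (hJ (Ideal.pow_mem_pow (Ideal.subset_span (Set.mem_range_self i)) n))⟩
  let ψ := MonoidAlgebra.lift (ZMod 2) _ _
    ((Units.coeHom _).comp (FreeGroup.lift fun i => (hu i).unit))
  have h1 : ∀ i, ψ (gs2M ι (FreeAlgebra.ι (ZMod 2) i)) =
      Ideal.Quotient.mk J (FreeAlgebra.ι (ZMod 2) i) := fun i => by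
    rw [gs2M_ι, map_sub, map_one, MonoidAlgebra.lift_of]
    simp
  refine ⟨ψ, fun a => DFunLike.congr_fun (FreeAlgebra.hom_ext (f := ψ.comp (gs2M ι))
    (g := Ideal.Quotient.mkₐ (ZMod 2) J) (funext h1)) a, fun b hb => ?_⟩
  obtain ⟨a, ha, e⟩ := gs2_pow ψ.toRingHom (Ideal.Quotient.mk J) Ideal.Quotient.mk_surjective
    (K := fm ι) (gs2_gen fun i => by
      rw [← gs2M_ι]
      exact Ideal.mem_comap.2 (Set.mem_of_eq_of_mem (h1 i)
        (Ideal.mem_map_of_mem _ (Ideal.subset_span ⟨i, rfl⟩)))) n b hb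
  exact e.symm.trans (Ideal.Quotient.eq_zero_iff_mem.2 (hJ ha))

theorem gs_group {ι ρ : Type} [Fintype ι] [Fintype ρ]
    (r : ρ → MonoidAlgebra (ZMod 2) (FreeGroup ι)) (d : ρ → ℕ) (hd : ∀ j, 1 ≤ d j)
    (hr : ∀ j, r j ∈ ga (FreeGroup ι) ^ d j) {t : ℝ} (h0 : 0 < t) (h1 : t < 1)
    (h : 1 - Fintype.card ι * t + ∑ j, t ^ d j < 0) (n : ℕ) :
    n ≤ Module.finrank (ZMod 2) (MonoidAlgebra (ZMod 2) (FreeGroup ι) ⧸
      (tw r ⊔ ga (FreeGroup ι) ^ n).restrictScalars (ZMod 2)) := by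
  have := gs2_ga (FreeGroup ι)
  have := gs2_fm ι
  choose r' h2 h3 using fun j => gs2_lift n (d j) (hr j)
  have := gs2_tw r' (fm ι ^ n)
  obtain ⟨ψ, h4, h5⟩ := gs2_inv (tw r' ⊔ fm ι ^ n) le_sup_right
  let f := ((tw r ⊔ ga (FreeGroup ι) ^ n).restrictScalars (ZMod 2)).mkQ ∘ₗ (gs2M ι).toLinearMap
  have hf : Function.Surjective f := fun y => by
    obtain ⟨b, rfl⟩ := Submodule.mkQ_surjective _ y
    obtain ⟨a, -, e⟩ := gs2_lift n 0 (b := b) (by rw [Submodule.pow_zero, Ideal.one_eq_top]; trivial)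
    exact ⟨a, (Submodule.Quotient.eq _).2 (Ideal.mem_sup_right e)⟩
  have hk : (tw r' ⊔ fm ι ^ n).restrictScalars (ZMod 2) = LinearMap.ker f := by
    have a1 : tw r' ⊔ fm ι ^ n ≤ (tw r ⊔ ga (FreeGroup ι) ^ n).comap (gs2M ι) := by
      refine sup_le (Ideal.span_le.2 ?_) fun a ha => Ideal.mem_sup_right (gs2M_pow ha)
      rintro _ ⟨j, b, rfl⟩
      have := Submodule.add_mem_sup (S := tw r) (Ideal.subset_span ⟨j, gs2M ι b, rfl⟩)
        (Ideal.mul_mem_right (gs2M ι b) _ (h3 j))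
      rwa [← add_mul, add_sub_cancel, ← map_mul] at this
    have a2 : tw r ⊔ ga (FreeGroup ι) ^ n ≤ RingHom.ker ψ := by
      refine sup_le (Ideal.span_le.2 ?_) h5
      rintro _ ⟨j, b, rfl⟩
      have := h5 _ (h3 j)
      rw [map_sub, h4, sub_eq_zero, Ideal.Quotient.eq_zero_iff_mem.2
        (Ideal.mem_sup_left (show r' j ∈ tw r' from
          Ideal.subset_span ⟨j, 1, (mul_one _).symm⟩))] at this
      change ψ _ = 0
      rw [map_mul, ← this, zero_mul]
    ext a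
    refine ⟨fun ha => (Submodule.Quotient.mk_eq_zero _).2 (a1 ha), fun ha => ?_⟩
    exact Ideal.Quotient.eq_zero_iff_mem.1
      ((h4 a).symm.trans (a2 ((Submodule.Quotient.mk_eq_zero _).1 ha)))
  rw [← ((Submodule.quotEquivOfEq _ _ hk).trans (f.quotKerEquivOfSurjective hf)).finrank_eq]
  exact gs_free r' d hd h2 h0 h1 h n

end Vale.Agent.P300
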