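import Vale.Agent.P300.GS4C

/-! The group theoretic package. Take `t = 11 / 100`, `a` with `card δ * t ^ 2 ^ a / (1 - 9 t)` small,
`y, d` from `exists_deep κ` (`N = 2 ^ a`, `η` small). `E N = P ⊔ ⟨lift γ (y j)⟩ ⊔ N` has index at most
that of `⟨y⟩`; take `N₀ ∈ 𝒩` with maximal index, `E = E N₀`; then `E ≤ E N` for every `N ∈ 𝒩`.
For `N ∈ 𝒩` let `R N = k[P / (P ⊓ N)]`, `J N` the two-sided ideal generated by `ρ - 1` for `ρ` in the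
`E`-conjugates of `c i`, `q i ^ 2` and the `G`-conjugates of `dd i ^ 2 ^ a`;
`A M = {g ∈ P | ∀ N ∈ 𝒩, g - 1 ∈ J N + I ^ M}`. Openness: `cof` and `genP`. Index: at a level `N`
below the `cof` level, conjugation by `g` is an algebra automorphism `σ g` of `R N` with
`(σ g - 1) I ^ n ⊆ I ^ (n + 1)` (`chi`, `dimS_two`), so `(σ (lift γ y) - 1) I ^ n ⊆ I ^ (n + d)` for
`DimS d y`. The ideal generated by `I ^ M` and the elements `(σ y₁ - 1) ⋯ (σ y_l - 1) (ρ - 1)`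
(`l < M`) is stable under each `σ y`, hence under the group (finite order), so it contains `J N`.
Pull back to `k[FreeGroup ι]` (onto, kernel in `I ^ M`), apply `gs_group`: the weights add up to
`(7 t + 5 t ^ 2) / (1 - η) + card δ * t ^ 2 ^ a / (1 - 9 t)`. The quotient algebra is spanned by the
image of `P`, which has at most `[P : A M]` elements. Split into several files. -/

open scoped Classical

namespace Vale.Agent.P300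

theorem gs_pack {G : Type} [Group G] (P : Subgroup G) [P.Normal] (𝒩 : Set (Subgroup G))
    (hne : 𝒩.Nonempty) (hdir : ∀ N ∈ 𝒩, ∀ N' ∈ 𝒩, ∃ N'' ∈ 𝒩, N'' ≤ N ⊓ N')
    (hnor : ∀ N ∈ 𝒩, N.Normal) (hfin : ∀ N ∈ 𝒩, N.FiniteIndex)
    {ι κ α β δ : Type} [Fintype ι] [Fintype κ] [Fintype α] [Fintype β] [Fintype δ]
    (hι : Fintype.card ι = 17) (hκ : Fintype.card κ = 9) (hα : Fintype.card α = 7)
    (hβ : Fintype.card β = 5) (x : ι → G) (γ : κ → G) (c : α → G) (q : β → G) (dd : δ → G)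
    (hx : ∀ i, x i ∈ P) (hc : ∀ i, c i ∈ P) (hq : ∀ i, q i ∈ P) (hd : ∀ i, dd i ∈ P)
    (genP : ∀ N ∈ 𝒩, P ≤ Subgroup.closure (Set.range x) ⊔ N)
    (genG : ∀ N ∈ 𝒩, ⊤ ≤ P ⊔ Subgroup.closure (Set.range γ) ⊔ N)
    (cof : ∀ M, ∃ N ∈ 𝒩, ∀ w, FreeGroup.lift x w ∈ N → DimS (FreeGroup ι) M w)
    (hχ : ∀ i, ∃ χ : G →* ℤˣ, (∀ j, χ (x j) = if j = i then -1 else 1) ∧
      ∃ N ∈ 𝒩, ∀ h ∈ N, χ h = 1) :
    ∃ (a : ℕ) (E : Subgroup G) (A : ℕ → Subgroup G), 1 ≤ a ∧ P ≤ E ∧ (∃ N ∈ 𝒩, N ≤ E) ∧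
      (∀ ψ : G →* ℂˣ, (∀ g, ψ g ^ 2 ^ a = 1) → (∀ h ∈ P, ψ h = 1) →
        (∃ N ∈ 𝒩, ∀ h ∈ N, ψ h = 1) → ∀ g ∈ E, ψ g = 1) ∧ Antitone A ∧
      ∀ M, A M ≤ P ∧ (∀ g ∈ E, ∀ h ∈ A M, g * h * g⁻¹ ∈ A M) ∧ (∃ N ∈ 𝒩, P ⊓ N ≤ A M) ∧
        (∀ i, c i ∈ A M) ∧ (∀ i, q i ^ 2 ∈ A M) ∧ (∀ i g, g * dd i ^ 2 ^ a * g⁻¹ ∈ A M) ∧
        M ≤ (A M).relIndex P := by
  obtain ⟨a, ha1, ha⟩ := gs4_num (Fintype.card δ)
  obtain ⟨ι', _, y, d, hY, hy, hη⟩ := exists_deep κ (t := 11 / 100) (η := 1 / 100) (by norm_num)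
    (by norm_num) (by rw [hκ]; norm_num) (by norm_num) (2 ^ a)
  obtain ⟨K, hK⟩ : ∃ K, K = Subgroup.closure (Set.range fun j => FreeGroup.lift γ (y j)) :=
    ⟨_, rfl⟩
  obtain ⟨N₀, hN₀, hE⟩ := gs4_E P K hne hdir hnor γ genG (Subgroup.closure (Set.range y))
    ((Subgroup.closure_le _).2 (by
      rintro _ ⟨j, rfl⟩
      exact hK ▸ Subgroup.subset_closure ⟨j, rfl⟩))
  obtain ⟨E, hEd⟩ : ∃ E, E = P ⊔ K ⊔ N₀ := ⟨_, rfl⟩
  rw [← hEd] at hE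
  obtain ⟨S, hS⟩ : ∃ S : Subgroup G → Set P,
    S = fun N => gsS P E N c (fun i => q i ^ 2) fun i => dd i ^ 2 ^ a := ⟨_, rfl⟩
  obtain ⟨A, hAd⟩ : ∃ A : ℕ → Subgroup G, A = fun M => (⨅ N ∈ 𝒩, relS (S N) M).map P.subtype :=
    ⟨_, rfl⟩
  have hA : ∀ M (p : P), (p : G) ∈ A M ↔ ∀ N ∈ 𝒩, p ∈ relS (S N) M := fun M p => by
    simp only [hAd, Subgroup.mem_map, Subgroup.mem_iInf, Subgroup.coe_subtype]
    exact ⟨fun ⟨p', h, e⟩ => Subtype.ext e ▸ h, fun h => ⟨p, h, rfl⟩⟩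
  have hAP : ∀ M, A M ≤ P := fun M => hAd ▸ Subgroup.map_subtype_le _
  have hmem : ∀ M (p : P), (∀ N ∈ 𝒩, p ∈ gsS P E N c (fun i => q i ^ 2) fun i => dd i ^ 2 ^ a) →
      (p : G) ∈ A M := fun M p h => (hA M p).2 fun N hN => relS_of_mem (hS ▸ h N hN)
  have hop : ∀ M, ∃ N ∈ 𝒩, P ⊓ N ≤ A M := fun M => by
    obtain ⟨N, hN, h⟩ := cof M
    refine ⟨N, hN, fun g hg => (hA M ⟨g, hg.1⟩).2 fun N' hN' => ?_⟩
    obtain ⟨N'', hN'', hle⟩ := hdir N hN N' hN'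
    obtain ⟨w, n, hn, e⟩ := gsX_split hx (hnor N'' hN'') (genP N'' hN'') ⟨g, hg.1⟩
    have h1 : FreeGroup.lift x w ∈ N := by
      have h2 : FreeGroup.lift x w * n = g := by
        rw [← gsX_val hx]
        exact congrArg Subtype.val e
      exact (Subgroup.mul_mem_cancel_right _ (hle hn).1).1 (h2 ▸ hg.2)
    rw [← e]
    exact mul_mem (relS_of_dim ((h w h1).map (gsX hx)))
      (relS_of_mem (hS ▸ gsS_mem.2 (Or.inr (Or.inr (Or.inr (hle hn).2)))))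
  refine ⟨a, E, A, ha1, hEd ▸ le_sup_left.trans le_sup_left, ⟨N₀, hN₀, hEd ▸ le_sup_right⟩,
    fun ψ h1 h2 ⟨N, hN, h3⟩ g hg => ?_, fun M M' h g hg => (hA M ⟨g, hAP M' hg⟩).2 fun N hN =>
      relS_anti h ((hA M' ⟨g, hAP M' hg⟩).1 hg N hN), fun M => ⟨hAP M, fun g hg h hh => ?_, hop M,
    fun i => hmem M ⟨c i, hc i⟩ fun N _ => gsS_mem.2 (Or.inl ⟨1, one_mem _, i, by simp⟩),
    fun i => hmem M ⟨q i ^ 2, pow_mem (hq i) _⟩ fun N _ =>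
      gsS_mem.2 (Or.inr (Or.inl ⟨1, one_mem _, i, by simp⟩)),
    fun i g => hmem M ⟨_, Subgroup.Normal.conj_mem inferInstance _ (pow_mem (hd i) _) g⟩
      fun N _ => gsS_mem.2 (Or.inr (Or.inr (Or.inl ⟨g, i, rfl⟩))), ?_⟩⟩
  · refine (sup_le (sup_le h2 (hK ▸ (Subgroup.closure_le _).2 ?_)) h3 : P ⊔ K ⊔ N ≤ ψ.ker)
      (hE N hN hg)
    rintro _ ⟨j, rfl⟩
    exact ((hy j).2.anti (hy j).1).char (ψ.comp (FreeGroup.lift γ)) fun w => h1 _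
  · refine (hA M (MulAut.conjNormal g ⟨h, hAP M hh⟩)).2 fun N hN => ?_
    refine relS_map (MulAut.conjNormal (H := P) g).toMonoidHom
      (fun s hs => relS_of_mem (S := S N) (M := M) ?_) le_sup_right
      ((hA M ⟨h, hAP M hh⟩).1 hh N hN)
    rw [hS] at hs ⊢
    exact gsS_conj (hnor N hN) hg rfl hs
  obtain ⟨N, hN, hcof⟩ := cof M
  have := hnor N hN
  have := hfin N hN
  obtain ⟨H, _, _, φ, σ, hφ, hφN, hσ, hN1⟩ := gs4_lev P N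
  obtain ⟨B, key, hB⟩ := gs4_level hι hκ hα hβ hx hc hq hd (hnor N hN) ha
    (fun j => ⟨Nat.one_le_two_pow.trans (hy j).1, (hy j).2⟩) hη (hK ▸ hE N hN) (genP N hN)
    (genG N hN) hcof hφ hφN hσ hN1 (gs4_two hdir hnor hx genP hχ hN hφ hφN hσ)
  obtain ⟨N₁, hN₁, hle⟩ := hop M
  have := hfin N₁ hN₁
  have : ((A M).subgroupOf P).FiniteIndex :=
    Subgroup.finiteIndex_of_le (H := N₁.subgroupOf P) fun p hp => hle ⟨p.2, hp⟩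
  refine key.trans (Subgroup.index_antitone fun p hp => hB ?_)
  have h1 := (hA M p).1 hp N hN
  rwa [hS] at h1

end Vale.Agent.P300
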