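import Vale.Agent.P300.GS3

/-! Ring lemmas for `GS4`: filtrations, deep automorphisms, weighted families of relations. -/

open scoped Classical

namespace Vale.Agent.P300

section ring

variable {R S : Type} [Ring R] [Ring S]

theorem gs4_pow_map (f : R →+* S) {I : Ideal R} {J : Ideal S} (h : ∀ a ∈ I, f a ∈ J) (n : ℕ) :
    ∀ a ∈ I ^ n, f a ∈ J ^ n := by
  induction n with
  | zero =>
    intro a _
    rw [Submodule.pow_zero, Ideal.one_eq_top]
    trivial
  | succ n ih =>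
    intro a ha
    rw [Submodule.pow_succ] at ha ⊢
    refine Submodule.mul_induction_on ha (fun x hx y hy => ?_) fun x y hx hy => ?_
    · rw [map_mul]
      exact Ideal.mul_mem_mul (ih x hx) (h y hy)
    · rw [map_add]
      exact add_mem hx hy

theorem gs4_pow_surj (f : R →+* S) (hf : Function.Surjective f) {I : Ideal R} {J : Ideal S}
    (h : ∀ b ∈ J, ∃ a ∈ I, f a = b) (n : ℕ) : ∀ b ∈ J ^ n, ∃ a ∈ I ^ n, f a = b := by
  induction n with
  | zero =>
    intro b _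
    obtain ⟨a, rfl⟩ := hf b
    refine ⟨a, ?_, rfl⟩
    rw [Submodule.pow_zero, Ideal.one_eq_top]
    trivial
  | succ n ih =>
    intro b hb
    rw [Submodule.pow_succ] at hb ⊢
    refine Submodule.mul_induction_on hb (fun x hx y hy => ?_) ?_
    · obtain ⟨a, ha, rfl⟩ := ih x hx
      obtain ⟨c, hc, rfl⟩ := h y hy
      exact ⟨a * c, Ideal.mul_mem_mul ha hc, map_mul _ _ _⟩
    · rintro _ _ ⟨a, ha, rfl⟩ ⟨c, hc, rfl⟩
      exact ⟨a + c, add_mem ha hc, map_add _ _ _⟩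

theorem gs4_der {I : Ideal R} [I.IsTwoSided] (f : R →+* R) (h : ∀ a, f a - a ∈ I ^ 2) (n : ℕ) :
    ∀ a ∈ I ^ n, f a - a ∈ I ^ (n + 1) := by
  induction n with
  | zero => exact fun a _ => Ideal.pow_le_pow_right (by norm_num) (h a)
  | succ n ih =>
    intro a ha
    rw [Submodule.pow_succ] at ha
    refine Submodule.mul_induction_on ha (fun x hx y hy => ?_) fun x y hx hy => ?_
    · have h1 : f y ∈ I := by
        simpa using add_mem (Ideal.pow_le_self two_ne_zero (h y)) hy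
      have e : f (x * y) - x * y = (f x - x) * f y + x * (f y - y) := by
        rw [map_mul]
        noncomm_ring
      rw [e]
      refine add_mem (Ideal.mul_mem_mul (ih x hx) h1) ?_
      rw [add_assoc, Ideal.IsTwoSided.pow_add]
      exact Ideal.mul_mem_mul hx (h y)
    · rw [map_add, add_sub_add_comm]
      exact add_mem hx hy

/-- weighted families of relations capturing `T` modulo `I ^ M` -/
def Blk (I : Ideal R) (t : ℝ) (M : ℕ) (b : ℝ) (T : Set R) : Prop :=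
  ∃ (ρ : Type) (_ : Fintype ρ) (w : ρ → R) (d : ρ → ℕ), (∀ j, 1 ≤ d j ∧ w j ∈ I ^ d j) ∧
    ∑ j, t ^ d j ≤ b ∧ ∀ a ∈ T, a ∈ tw w ⊔ I ^ M

theorem gs4_tw_le {ρ ρ' : Type} {w : ρ → R} {w' : ρ' → R} {J : Ideal R} {a : R}
    (ha : a ∈ tw w ⊔ J) (h : ∀ j, ∃ j', w j = w' j') : a ∈ tw w' ⊔ J := by
  refine (sup_le_sup_right (Ideal.span_mono ?_) J : tw w ⊔ J ≤ tw w' ⊔ J) ha
  rintro _ ⟨j, b, rfl⟩
  obtain ⟨j', e⟩ := h j
  exact ⟨j', b, by rw [e]⟩

theorem Blk.iUnion {I : Ideal R} {t : ℝ} {M : ℕ} {Λ : Type} [Fintype Λ] {b : Λ → ℝ}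
    {T : Λ → Set R} (h : ∀ l, Blk I t M (b l) (T l)) : Blk I t M (∑ l, b l) (⋃ l, T l) := by
  choose ρ inst w d h1 h2 h3 using h
  refine ⟨Σ l, ρ l, inferInstance, fun p => w p.1 p.2, fun p => d p.1 p.2, fun p => h1 p.1 p.2,
    ?_, fun a ha => ?_⟩
  · rw [Fintype.sum_sigma]
    exact Finset.sum_le_sum fun l _ => h2 l
  · obtain ⟨l, hl⟩ := Set.mem_iUnion.1 ha
    exact gs4_tw_le (h3 l a hl) fun j => ⟨⟨l, j⟩, rfl⟩

theorem Blk.union {I : Ideal R} {t : ℝ} {M : ℕ} {b b' : ℝ} {T T' : Set R} (h : Blk I t M b T)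
    (h' : Blk I t M b' T') : Blk I t M (b + b') (T ∪ T') := by
  obtain ⟨ρ, _, w, d, h1, h2, h3⟩ := h
  obtain ⟨ρ', _, w', d', h1', h2', h3'⟩ := h'
  refine ⟨ρ ⊕ ρ', inferInstance, Sum.elim w w', Sum.elim d d', ?_, ?_, ?_⟩
  · rintro (j | j)
    exacts [h1 j, h1' j]
  · rw [Fintype.sum_sum_type]
    exact add_le_add h2 h2'
  · rintro a (ha | ha)
    · exact gs4_tw_le (h3 a ha) fun j => ⟨Sum.inl j, rfl⟩
    · exact gs4_tw_le (h3' a ha) fun j => ⟨Sum.inr j, rfl⟩

end ring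

theorem gs4_ind {H : Type} [Group H] {p : MonoidAlgebra (ZMod 2) H → Prop} (h0 : p 0)
    (h1 : ∀ g, p (MonoidAlgebra.of (ZMod 2) H g)) (h2 : ∀ x y, p x → p y → p (x + y))
    (x : MonoidAlgebra (ZMod 2) H) : p x := by
  refine MonoidAlgebra.induction_on x h1 h2 fun r x hx => ?_
  rcases (by decide : ∀ r : ZMod 2, r = 0 ∨ r = 1) r with rfl | rfl
  · rwa [zero_smul]
  · rwa [one_smul]

variable {R : Type} [Ring R] [Algebra (ZMod 2) R] {I : Ideal R}

theorem gs4_deep {Γ : Type} [Group Γ] (τ : Γ →* R ≃ₐ[ZMod 2] R)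
    (h : ∀ g n, ∀ a ∈ I ^ n, τ g a - a ∈ I ^ (n + 1)) {d : ℕ} {y : Γ} (hy : DimS Γ d y) (n : ℕ) :
    ∀ a ∈ I ^ n, τ y a - a ∈ I ^ (n + d) := by
  let s := MonoidAlgebra.lift (ZMod 2) (Module.End (ZMod 2) R) Γ
    ((DistribMulAction.toModuleEnd (ZMod 2) R).comp τ)
  have hs : ∀ g a, s (MonoidAlgebra.of (ZMod 2) Γ g) a = τ g a := fun g a => by
    rw [MonoidAlgebra.lift_of]
    rfl
  have hs' : ∀ g a, s (MonoidAlgebra.of (ZMod 2) Γ g - 1) a = τ g a - a := fun g a => by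
    rw [map_sub, map_one, LinearMap.sub_apply, hs, Module.End.one_apply]
  have h0 : ∀ u n, ∀ a ∈ I ^ n, s u a ∈ I ^ n := fun u n a ha => by
    refine gs4_ind (p := fun u => s u a ∈ I ^ n) (by simp) (fun g => ?_) (fun x y hx hy => ?_) u
    · rw [hs]
      simpa using add_mem (Ideal.pow_le_pow_right (Nat.le_succ n) (h g n a ha)) ha
    · rw [map_add, LinearMap.add_apply]
      exact add_mem hx hy
  have h1 : ∀ u ∈ ga Γ, ∀ n, ∀ a ∈ I ^ n, s u a ∈ I ^ (n + 1) := fun u hu n a ha => by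
    induction hu using Submodule.span_induction with
    | mem x hx =>
      obtain ⟨g, rfl⟩ := hx
      exact hs' g a ▸ h g n a ha
    | zero => simp
    | add x y _ _ hx hy =>
      rw [map_add, LinearMap.add_apply]
      exact add_mem hx hy
    | smul v x _ hx =>
      rw [smul_eq_mul, map_mul, Module.End.mul_apply]
      exact h0 v _ _ hx
  have h2 : ∀ d, ∀ u ∈ ga Γ ^ d, ∀ n, ∀ a ∈ I ^ n, s u a ∈ I ^ (n + d) := fun d => by
    induction d with
    | zero => exact fun u _ => h0 u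
    | succ d ih =>
      intro u hu n a ha
      rw [Submodule.pow_succ] at hu
      refine Submodule.mul_induction_on hu (fun x hx y hy => ?_) fun x y hx hy => ?_
      · rw [map_mul, Module.End.mul_apply, add_comm d, ← add_assoc]
        exact ih x hx _ _ (h1 y hy n a ha)
      · rw [map_add, LinearMap.add_apply]
        exact add_mem hx hy
  exact fun a ha => hs' y a ▸ h2 d _ hy n a ha

/-- the stabiliser of an ideal -/
def gs4_stab {G : Type} [Group G] (τ : G →* R ≃ₐ[ZMod 2] R) (hfin : ∀ g, IsOfFinOrder (τ g))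
    (L : Ideal R) : Subgroup G where
  carrier := {g | ∀ a ∈ L, τ g a ∈ L}
  mul_mem' := fun {g h} hg hh a ha => by
    rw [map_mul]
    exact hg _ (hh a ha)
  one_mem' := fun a ha => by rwa [map_one]
  inv_mem' := fun {g} hg a ha => by
    obtain ⟨n, hn, e⟩ := isOfFinOrder_iff_pow_eq_one.1 (hfin g)
    have h1 : ∀ k : ℕ, (τ g ^ k) a ∈ L := fun k => by
      induction k with
      | zero => exact ha
      | succ k ih =>
        rw [pow_succ']
        exact hg _ ih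
    obtain ⟨m, rfl⟩ := Nat.exists_eq_add_of_lt hn
    rw [pow_succ] at e
    rw [map_inv, ← eq_inv_of_mul_eq_one_left e]
    exact h1 _

theorem gs4_geom {x η : ℝ} (h0 : 0 ≤ x) (h : x ≤ η) (h1 : η < 1) (M : ℕ) :
    ∑ n : Fin M, x ^ (n : ℕ) ≤ 1 / (1 - η) := by
  rw [Fin.sum_univ_eq_sum_range (fun n => x ^ n), le_div_iff₀ (by linarith)]
  have h2 := mul_neg_geom_sum x M
  have h3 : 0 ≤ ∑ n ∈ Finset.range M, x ^ n := Finset.sum_nonneg fun n _ => pow_nonneg h0 n
  nlinarith [pow_nonneg h0 M]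

theorem gs4_orb [I.IsTwoSided] {G ι' : Type} [Group G] [Fintype ι'] (τ : G →* R ≃ₐ[ZMod 2] R)
    (hI : ∀ g, ∀ a ∈ I, τ g a ∈ I) (hfin : ∀ g, IsOfFinOrder (τ g)) (y : ι' → G) (d : ι' → ℕ)
    (hd : ∀ j, 1 ≤ d j) (hy : ∀ j n, ∀ a ∈ I ^ n, τ (y j) a - a ∈ I ^ (n + d j))
    {E P N : Subgroup G} (hP : ∀ g ∈ P, ∃ u v : R, ∀ a, τ g a = u * a * v)
    (hN : ∀ g ∈ N, ∃ u v : R, ∀ a, τ g a = u * a * v)
    (hE : E ≤ P ⊔ Subgroup.closure (Set.range y) ⊔ N) {s : R} {e : ℕ} (he : 1 ≤ e)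
    (hs : s ∈ I ^ e) {t η : ℝ} (h0 : 0 < t) (hη : ∑ j, t ^ d j ≤ η) (hη1 : η < 1) (M : ℕ) :
    Blk I t M (t ^ e / (1 - η)) {a | ∃ g ∈ E, a = τ g s} := by
  let w : List ι' → R := fun l => l.foldr (fun j a => τ (y j) a - a) s
  have hw : ∀ l, w l ∈ I ^ (e + (l.map d).sum) := fun l => by
    induction l with
    | nil => exact hs
    | cons j l ih =>
      rw [List.map_cons, List.sum_cons, add_comm (d j), ← add_assoc]
      exact hy j _ _ ih
  refine ⟨Σ n : Fin M, Fin n → ι', inferInstance, fun p => w (List.ofFn p.2),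
    fun p => e + ∑ i, d (p.2 i), fun p => ⟨le_add_right he, ?_⟩, ?_, ?_⟩
  · simpa [List.map_ofFn, List.sum_ofFn] using hw (List.ofFn p.2)
  · rw [Fintype.sum_sigma]
    simp only [pow_add, ← Finset.mul_sum, ← Finset.prod_pow_eq_pow_sum]
    simp only [← Fintype.sum_pow (fun j => t ^ d j)]
    rw [div_eq_mul_one_div]
    exact mul_le_mul_of_nonneg_left
      (gs4_geom (Finset.sum_nonneg fun j _ => by positivity) hη hη1 M) (by positivity)
  set L := tw (fun p : Σ n : Fin M, Fin n → ι' => w (List.ofFn p.2)) ⊔ I ^ M with hL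
  have h1 : ∀ l b, w l * b ∈ L := fun l b => by
    by_cases hl : l.length < M
    · exact Submodule.mem_sup_left (Ideal.subset_span
        ⟨⟨⟨_, hl⟩, l.get⟩, b, by simp only [List.ofFn_get]⟩)
    · refine Submodule.mem_sup_right (Ideal.mul_mem_right _ _ (Ideal.pow_le_pow_right ?_ (hw l)))
      have := List.length_le_sum_of_one_le (l.map d) fun i hi => by
        obtain ⟨j, -, rfl⟩ := List.mem_map.1 hi
        exact hd j
      rw [List.length_map] at this
      omega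
  have h2 : ∀ g, (∀ l b, τ g (w l * b) ∈ L) → g ∈ gs4_stab τ hfin L := fun g hg => by
    have : L ≤ L.comap (τ g).toRingEquiv.toRingHom := by
      refine sup_le (Ideal.span_le.2 ?_) fun a ha =>
        Submodule.mem_sup_right (gs4_pow_map (τ g).toRingEquiv.toRingHom (hI g) M a ha)
      rintro _ ⟨p, b, rfl⟩
      exact hg _ b
    exact fun a ha => this ha
  have h3 : ∀ g, (∃ u v : R, ∀ a, τ g a = u * a * v) → g ∈ gs4_stab τ hfin L := by
    rintro g ⟨u, v, h⟩
    refine h2 g fun l b => ?_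
    rw [h, mul_assoc, mul_assoc]
    exact L.mul_mem_left _ (h1 l _)
  have h4 : E ≤ gs4_stab τ hfin L := by
    refine hE.trans (sup_le (sup_le (fun g hg => h3 g (hP g hg)) ((Subgroup.closure_le _).2 ?_))
      fun g hg => h3 g (hN g hg))
    rintro _ ⟨j, rfl⟩
    refine h2 _ fun l b => ?_
    have e1 : τ (y j) (w l * b) = w (j :: l) * τ (y j) b + w l * τ (y j) b := by
      rw [map_mul, ← add_mul]
      exact congrArg (· * _) (sub_add_cancel _ _).symm
    rw [e1]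
    exact add_mem (h1 _ _) (h1 _ _)
  rintro _ ⟨g, hg, rfl⟩
  exact h4 hg s (by simpa [w] using h1 [] 1)

end Vale.Agent.P300
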