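import Vale.Agent.P300.GS4A

/-! Group algebra lemmas for `GS4`: the index bound at a finite level. -/

open scoped Classical

namespace Vale.Agent.P300

variable {H H' : Type} [Group H] [Group H']

/-- `g - 1` -/
noncomputable def gsO (g : H) : MonoidAlgebra (ZMod 2) H := MonoidAlgebra.of (ZMod 2) H g - 1

/-- functoriality of the group algebra -/
noncomputable def gsM (φ : H →* H') : MonoidAlgebra (ZMod 2) H →+* MonoidAlgebra (ZMod 2) H' :=
  MonoidAlgebra.mapDomainRingHom (ZMod 2) φ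

theorem gsM_of (φ : H →* H') (g : H) :
    gsM φ (MonoidAlgebra.of (ZMod 2) H g) = MonoidAlgebra.of (ZMod 2) H' (φ g) := by
  simp [gsM]

theorem gsM_O (φ : H →* H') (g : H) : gsM φ (gsO g) = gsO (φ g) := by
  rw [gsO, map_sub, map_one, gsM_of, gsO]

theorem gsO_mem (g : H) : gsO g ∈ ga H := Ideal.subset_span ⟨g, rfl⟩

theorem gsM_ga (φ : H →* H') : ∀ a ∈ ga H, gsM φ a ∈ ga H' := by
  have : ga H ≤ (ga H').comap (gsM φ) := Ideal.span_le.2 (by
    rintro _ ⟨g, rfl⟩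
    exact (show gsM φ (gsO g) ∈ ga H' from (gsM_O φ g).symm ▸ gsO_mem (φ g)))
  exact fun a ha => this ha

/-- elements congruent to one modulo a left ideal -/
def idS (L : Ideal (MonoidAlgebra (ZMod 2) H)) : Subgroup H where
  carrier := {g | gsO g ∈ L}
  mul_mem' := fun {g h} hg hh => by
    have e : gsO (g * h) = MonoidAlgebra.of (ZMod 2) H g * gsO h + gsO g := by
      simp only [gsO, map_mul]
      noncomm_ring
    exact (show gsO (g * h) ∈ L from e ▸ add_mem (L.mul_mem_left _ hh) hg)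
  one_mem' := by simp [gsO, MonoidAlgebra.one_def]
  inv_mem' := fun {g} hg => by
    have e : gsO g⁻¹ = -MonoidAlgebra.of (ZMod 2) H g⁻¹ * gsO g := by
      rw [gsO, gsO, mul_sub, neg_mul, ← map_mul, inv_mul_cancel, map_one]
      noncomm_ring
    exact (show gsO g⁻¹ ∈ L from e ▸ L.mul_mem_left _ hg)

/-- the subgroup attached to a set of relations and a level -/
noncomputable def relS (S : Set H) (M : ℕ) : Subgroup H := idS (Ideal.span (gsO '' S) ⊔ ga H ^ M)

theorem relS_map (φ : H →* H') {S : Set H} {M : ℕ} {L : Ideal (MonoidAlgebra (ZMod 2) H')}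
    (hS : ∀ s ∈ S, gsO (φ s) ∈ L) (hM : ga H' ^ M ≤ L) {g : H} (hg : g ∈ relS S M) :
    φ g ∈ idS L := by
  have : Ideal.span (gsO '' S) ⊔ ga H ^ M ≤ L.comap (gsM φ) := by
    refine sup_le (Ideal.span_le.2 ?_) fun a ha => hM (gs4_pow_map _ (gsM_ga φ) M a ha)
    rintro _ ⟨s, hs, rfl⟩
    exact (show gsM φ (gsO s) ∈ L from (gsM_O φ s).symm ▸ hS s hs)
  exact (show gsO (φ g) ∈ L from gsM_O φ g ▸ this hg)

theorem relS_of_mem {S : Set H} {M : ℕ} {g : H} (hg : g ∈ S) : g ∈ relS S M :=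
  Submodule.mem_sup_left (Ideal.subset_span ⟨g, hg, rfl⟩)

theorem relS_of_dim {S : Set H} {M : ℕ} {g : H} (hg : DimS H M g) : g ∈ relS S M :=
  Submodule.mem_sup_right hg

theorem relS_anti {S : Set H} {M M' : ℕ} (h : M ≤ M') : relS S M' ≤ relS S M := fun _ hg =>
  (sup_le_sup_left (Ideal.pow_le_pow_right h) _ :
    Ideal.span (gsO '' S) ⊔ ga H ^ M' ≤ Ideal.span (gsO '' S) ⊔ ga H ^ M) hg

theorem gs4_index {ι : Type} [Fintype ι] [Finite H] (φ : FreeGroup ι →* H)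
    (hφ : Function.Surjective φ) {M : ℕ} (hker : ∀ w, φ w = 1 → DimS (FreeGroup ι) M w)
    {t b : ℝ} {T : Set (MonoidAlgebra (ZMod 2) H)} (hB : Blk (ga H) t M b T) (h0 : 0 < t)
    (h1 : t < 1) (h : 1 - Fintype.card ι * t + b < 0) :
    M ≤ (idS (Ideal.span T ⊔ ga H ^ M)).index := by
  obtain ⟨ρ, _, w, d, hw, hb, hT⟩ := hB
  choose s hs using hφ
  have hΦ : Function.Surjective (gsM φ) := fun a => by
    refine gs4_ind (p := fun a => ∃ b, gsM φ b = a) ⟨0, map_zero _⟩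
      (fun g => ⟨_, (gsM_of φ (s g)).trans (by rw [hs])⟩) ?_ a
    rintro _ _ ⟨x, rfl⟩ ⟨y, rfl⟩
    exact ⟨x + y, map_add _ _ _⟩
  have hp := gs4_pow_surj (gsM φ) hΦ (I := ga (FreeGroup ι)) (J := ga H) fun b hb => by
    have : ga H ≤ (ga (FreeGroup ι)).map (gsM φ) := Ideal.span_le.2 (by
      rintro _ ⟨g, rfl⟩
      have e : gsM φ (gsO (s g)) = gsO g := by rw [gsM_O, hs]
      exact (show gsO g ∈ _ from e ▸ Ideal.mem_map_of_mem _ (gsO_mem _)))
    exact (Ideal.mem_map_iff_of_surjective _ hΦ).1 (this hb)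
  choose r hr hrw using fun j => hp (d j) (w j) (hw j).2
  set L := tw r ⊔ ga (FreeGroup ι) ^ M with hL
  have hk : ∀ a, gsM φ a = 0 → a ∈ ga (FreeGroup ι) ^ M := fun a ha => by
    have h2 : ∀ a, a - MonoidAlgebra.mapDomain s (gsM φ a) ∈ ga (FreeGroup ι) ^ M := fun a => by
      refine gs4_ind (p := fun a => a - MonoidAlgebra.mapDomain s (gsM φ a) ∈ _) (by simp)
        (fun g => ?_) (fun x y hx hy => ?_) a
      · have h3 := (ga (FreeGroup ι) ^ M).mul_mem_left (MonoidAlgebra.of (ZMod 2) _ (s (φ g)))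
          (hker ((s (φ g))⁻¹ * g) (by rw [map_mul, map_inv, hs, inv_mul_cancel]))
        rw [mul_sub, ← map_mul, mul_inv_cancel_left, mul_one] at h3
        rw [gsM_of]
        simpa using h3
      · rw [map_add, MonoidAlgebra.mapDomain_add, add_sub_add_comm]
        exact add_mem hx hy
    simpa [ha] using h2 a
  have hc : ∀ a, gsM φ a ∈ Ideal.span T ⊔ ga H ^ M → a ∈ L := fun a ha => by
    have h2 : ga H ^ M ≤ L.map (gsM φ) := fun b hb => by
      obtain ⟨c, hc, rfl⟩ := hp M b hb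
      exact Ideal.mem_map_of_mem _ (Submodule.mem_sup_right hc)
    have h3 : tw w ≤ L.map (gsM φ) := Ideal.span_le.2 (by
      rintro _ ⟨j, b, rfl⟩
      obtain ⟨c, rfl⟩ := hΦ b
      rw [← hrw, ← map_mul]
      exact Ideal.mem_map_of_mem _ (Submodule.mem_sup_left (Ideal.subset_span ⟨j, c, rfl⟩)))
    obtain ⟨c, hc, e⟩ := (Ideal.mem_map_iff_of_surjective _ hΦ).1
      (sup_le (Ideal.span_le.2 fun b hb => sup_le h3 h2 (hT b hb)) h2 ha)
    have h4 := hk (a - c) (by rw [map_sub, e, sub_self])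
    simpa using add_mem (Submodule.mem_sup_right h4 : a - c ∈ L) hc
  refine (gs_group r d (fun j => (hw j).1) hr h0 h1 (by linarith) M).trans ?_
  set B := idS (Ideal.span T ⊔ ga H ^ M) with hB
  have := Fintype.ofFinite (H ⧸ B)
  rw [Subgroup.index, Nat.card_eq_fintype_card]
  refine finrank_le_of_span_eq_top (v := fun q : H ⧸ B => (L.restrictScalars (ZMod 2)).mkQ
    (MonoidAlgebra.of (ZMod 2) _ (s q.out))) (top_unique ?_)
  rintro a -
  obtain ⟨a, rfl⟩ := (L.restrictScalars (ZMod 2)).mkQ_surjective a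
  refine gs4_ind (p := fun a => (L.restrictScalars (ZMod 2)).mkQ a ∈ _) (by simp)
    (fun g => ?_) (fun x y hx hy => ?_) a
  · refine Submodule.subset_span ⟨(φ g : H ⧸ B), (Submodule.Quotient.eq _).2 (hc _ ?_)⟩
    obtain ⟨u, hu⟩ := QuotientGroup.mk_out_eq_mul B (φ g)
    rw [map_sub, gsM_of, gsM_of, hs, hu, map_mul, ← mul_sub_one]
    exact Ideal.mul_mem_left _ _ u.2
  · rw [map_add]
    exact add_mem hx hy

/-- the action on the group algebra -/
noncomputable def gsT {G : Type} [Group G] (σ : G →* MulAut H) :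
    G →* MonoidAlgebra (ZMod 2) H ≃ₐ[ZMod 2] MonoidAlgebra (ZMod 2) H :=
  (MonoidAlgebra.domCongrAut (R := ZMod 2) (A := ZMod 2)).comp σ

theorem gsT_of {G : Type} [Group G] (σ : G →* MulAut H) (g : G) (h : H) :
    gsT σ g (MonoidAlgebra.of (ZMod 2) H h) = MonoidAlgebra.of (ZMod 2) H (σ g h) := by
  simp [gsT]

theorem gsT_O {G : Type} [Group G] (σ : G →* MulAut H) (g : G) (h : H) :
    gsT σ g (gsO h) = gsO (σ g h) := by
  rw [gsO, map_sub, map_one, gsT_of, gsO]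

theorem gs4_blk {G κ ι' : Type} [Group G] [Fintype ι'] [Finite H] (σ : G →* MulAut H)
    (h2 : ∀ g h, DimS H 2 (σ g h * h⁻¹)) (γ : FreeGroup κ →* G) (y : ι' → FreeGroup κ)
    (d : ι' → ℕ) (hd : ∀ j, 1 ≤ d j ∧ DimS (FreeGroup κ) (d j) (y j)) {E P N : Subgroup G}
    (hP : ∀ g ∈ P, ∃ u, ∀ h, σ g h = u * h * u⁻¹) (hN : ∀ g ∈ N, σ g = 1)
    (hE : E ≤ P ⊔ Subgroup.closure (Set.range fun j => γ (y j)) ⊔ N) {s : H} {e : ℕ} (he : 1 ≤ e)
    (hs : DimS H e s) {t η : ℝ} (h0 : 0 < t) (hη : ∑ j, t ^ d j ≤ η) (hη1 : η < 1) (M : ℕ) :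
    Blk (ga H) t M (t ^ e / (1 - η)) {a | ∃ g ∈ E, a = gsT σ g (gsO s)} := by
  have h3 : ∀ g n, ∀ a ∈ ga H ^ n, gsT σ g a - a ∈ ga H ^ (n + 1) := fun g =>
    gs4_der (gsT σ g).toRingEquiv.toRingHom fun a => by
      refine gs4_ind (p := fun a => gsT σ g a - a ∈ ga H ^ 2) (by simp) (fun h => ?_)
        (fun x y hx hy => ?_) a
      · have := Ideal.mul_mem_right (MonoidAlgebra.of (ZMod 2) H h) _ (dimS_iff.1 (h2 g h))
        rwa [sub_mul, ← map_mul, inv_mul_cancel_right, one_mul, ← gsT_of] at this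
      · rw [map_add, add_sub_add_comm]
        exact add_mem hx hy
  refine gs4_orb (gsT σ) (fun g a ha => ?_)
    (fun g => MonoidHom.isOfFinOrder (MonoidAlgebra.domCongrAut (R := ZMod 2) (A := ZMod 2))
      (isOfFinOrder_of_finite (σ g))) (fun j => γ (y j)) d
    (fun j => (hd j).1) (fun j => gs4_deep ((gsT σ).comp γ) (fun g => h3 (γ g)) (hd j).2)
    (fun g hg => ?_) (fun g hg => ⟨1, 1, fun a => ?_⟩) hE he hs h0 hη hη1 M
  · have := h3 g 1 a (by rwa [Submodule.pow_one])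
    simpa using add_mem (Ideal.pow_le_self two_ne_zero this) ha
  · obtain ⟨u, hu⟩ := hP g hg
    refine ⟨MonoidAlgebra.of (ZMod 2) H u, MonoidAlgebra.of (ZMod 2) H u⁻¹, fun a => ?_⟩
    refine gs4_ind (p := fun a => gsT σ g a = _ * a * _) (by simp) (fun h => ?_)
      (fun x y hx hy => ?_) a
    · rw [gsT_of, hu, map_mul, map_mul]
    · rw [map_add, hx, hy, mul_add, add_mul]
  · rw [gsT, MonoidHom.comp_apply, hN g hg, map_one, one_mul, mul_one, AlgEquiv.one_apply]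

end Vale.Agent.P300
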