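import Vale.Agent.P300.GS4B

/-! Group lemmas for `GS4`. -/

open scoped Classical

namespace Vale.Agent.P300

theorem gs4_dir {G ι : Type} [Group G] [Fintype ι] {𝒩 : Set (Subgroup G)}
    (hdir : ∀ N ∈ 𝒩, ∀ N' ∈ 𝒩, ∃ N'' ∈ 𝒩, N'' ≤ N ⊓ N') {N : Subgroup G} (hN : N ∈ 𝒩)
    (f : ι → Subgroup G) (hf : ∀ i, f i ∈ 𝒩) : ∃ N' ∈ 𝒩, N' ≤ N ∧ ∀ i, N' ≤ f i := by
  have : ∀ s : Finset ι, ∃ N' ∈ 𝒩, N' ≤ N ∧ ∀ i ∈ s, N' ≤ f i := fun s => by
    induction s using Finset.induction_on with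
    | empty => exact ⟨N, hN, le_rfl, by simp⟩
    | insert i s _ ih =>
      obtain ⟨N', h1, h2, h3⟩ := ih
      obtain ⟨N'', h4, h5⟩ := hdir N' h1 _ (hf i)
      refine ⟨N'', h4, (h5.trans inf_le_left).trans h2, fun j hj => ?_⟩
      rcases Finset.mem_insert.1 hj with rfl | hj
      · exact h5.trans inf_le_right
      · exact (h5.trans inf_le_left).trans (h3 j hj)
  obtain ⟨N', h1, h2, h3⟩ := this Finset.univ
  exact ⟨N', h1, h2, fun i => h3 i (Finset.mem_univ i)⟩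

theorem gs4_E {G κ : Type} [Group G] (P K : Subgroup G) [P.Normal] {𝒩 : Set (Subgroup G)}
    (hne : 𝒩.Nonempty) (hdir : ∀ N ∈ 𝒩, ∀ N' ∈ 𝒩, ∃ N'' ∈ 𝒩, N'' ≤ N ⊓ N')
    (hnor : ∀ N ∈ 𝒩, N.Normal) (γ : κ → G)
    (genG : ∀ N ∈ 𝒩, ⊤ ≤ P ⊔ Subgroup.closure (Set.range γ) ⊔ N) (Y : Subgroup (FreeGroup κ))
    [Y.FiniteIndex] (hY : Y ≤ K.comap (FreeGroup.lift γ)) :
    ∃ N₀ ∈ 𝒩, ∀ N ∈ 𝒩, P ⊔ K ⊔ N₀ ≤ P ⊔ K ⊔ N := by
  let C : Subgroup G → Subgroup (FreeGroup κ) := fun N => (P ⊔ K ⊔ N).comap (FreeGroup.lift γ)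
  have hC : ∀ N, Y ≤ C N := fun N =>
    hY.trans (Subgroup.comap_mono (le_sup_right.trans le_sup_left))
  have hb : BddAbove ((fun N => (C N).index) '' 𝒩) :=
    ⟨Y.index, by
      rintro _ ⟨N, -, rfl⟩
      exact Subgroup.index_antitone (hC N)⟩
  obtain ⟨N₀, hN₀, h0⟩ := Nat.sSup_mem (hne.image _) hb
  refine ⟨N₀, hN₀, fun N hN g hg => ?_⟩
  obtain ⟨N', hN', hle⟩ := hdir N hN N₀ hN₀
  have h1 : P ⊔ K ⊔ N' ≤ P ⊔ K ⊔ N₀ := sup_le_sup_left (hle.trans inf_le_right) _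
  have h2 : C N' ≤ C N₀ := Subgroup.comap_mono h1
  have := Subgroup.finiteIndex_of_le (hC N')
  have := Subgroup.finiteIndex_of_le (hC N₀)
  have h3 : (C N').index = (C N₀).index :=
    le_antisymm ((le_csSup hb ⟨N', hN', rfl⟩).trans h0.ge) (Subgroup.index_antitone h2)
  have h4 : C N₀ ≤ C N' := by
    have h5 := Subgroup.relIndex_mul_index h2
    rw [h3] at h5
    exact Subgroup.relIndex_eq_one.1
      ((mul_eq_right₀ Subgroup.FiniteIndex.index_ne_zero).1 h5)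
  have := hnor N' hN'
  have h5 : g ∈ (FreeGroup.lift γ).range ⊔ (P ⊔ N') := by
    rw [FreeGroup.range_lift_eq_closure, ← sup_assoc, sup_comm _ P]
    exact genG N' hN' (Subgroup.mem_top g)
  obtain ⟨_, ⟨w, rfl⟩, u, hu, rfl⟩ := Subgroup.mem_sup_of_normal_right.1 h5
  have h6 : u ∈ P ⊔ K ⊔ N' := sup_le_sup_right (le_sup_left : P ≤ P ⊔ K) N' hu
  have h7 : w ∈ C N' := h4 ((Subgroup.mul_mem_cancel_right _ (h1 h6)).1 hg)
  exact sup_le_sup_left (hle.trans inf_le_left) _ (mul_mem h7 h6)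

theorem gs4_split {G ι : Type} [Group G] {P N : Subgroup G} [N.Normal] {x : ι → G}
    (gen : P ≤ Subgroup.closure (Set.range x) ⊔ N) {g : G} (hg : g ∈ P) :
    ∃ w, ∃ n ∈ N, FreeGroup.lift x w * n = g := by
  rw [← FreeGroup.range_lift_eq_closure] at gen
  obtain ⟨_, ⟨w, rfl⟩, h⟩ := Subgroup.mem_sup_of_normal_right.1 (gen hg)
  exact ⟨w, h⟩

theorem gs4_num (n : ℕ) : ∃ a : ℕ, 1 ≤ a ∧ (n : ℝ) * ((11 / 100) ^ 2 ^ a / (1 - 99 / 100)) ≤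
    3 / 100 := by
  obtain ⟨a, ha⟩ := exists_pow_lt_of_lt_one (show (0 : ℝ) < 3 / 10000 / (n + 1) by positivity)
    (show (11 / 100 : ℝ) < 1 by norm_num)
  refine ⟨a + 1, by omega, ?_⟩
  have h1 : (11 / 100 : ℝ) ^ 2 ^ (a + 1) ≤ (11 / 100) ^ a :=
    pow_le_pow_of_le_one (by norm_num) (by norm_num)
      ((Nat.le_succ a).trans Nat.lt_two_pow_self.le)
  rw [lt_div_iff₀ (by positivity)] at ha
  have h2 : (0 : ℝ) ≤ (11 / 100) ^ a := by positivity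
  have h3 := mul_le_mul_of_nonneg_left h1 (Nat.cast_nonneg n : (0 : ℝ) ≤ n)
  rw [← mul_div_assoc, div_le_iff₀ (by norm_num)]
  linarith

theorem gs4_lev {G : Type} [Group G] (P N : Subgroup G) [P.Normal] [N.Normal] [N.FiniteIndex] :
    ∃ (H : Type) (_ : Group H) (_ : Finite H) (φ : P →* H) (σ : G →* MulAut H),
      Function.Surjective φ ∧ (∀ p : P, φ p = 1 ↔ (p : G) ∈ N) ∧
      (∀ (g : G) (p p' : P), (p' : G) = g * p * g⁻¹ → φ p' = σ g (φ p)) ∧ ∀ g ∈ N, σ g = 1 := by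
  let π := QuotientGroup.mk' N
  have : (P.map π).Normal := Subgroup.Normal.map inferInstance π (QuotientGroup.mk'_surjective N)
  refine ⟨P.map π, inferInstance, inferInstance, π.subgroupMap P, MulAut.conjNormal.comp π,
    π.subgroupMap_surjective P, fun p => ⟨fun h => (QuotientGroup.eq_one_iff (p : G)).1
      (congrArg Subtype.val h), fun hp => Subtype.ext ((QuotientGroup.eq_one_iff (p : G)).2 hp)⟩,
    fun g p p' h => Subtype.ext ?_, fun g hg => ?_⟩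
  · change π p' = π g * π p * (π g)⁻¹
    rw [h, map_mul, map_mul, map_inv]
  · rw [MonoidHom.comp_apply, show π g = 1 from (QuotientGroup.eq_one_iff g).2 hg, map_one]

variable {G ι α β δ : Type} [Group G] {P : Subgroup G}

/-- the relations at level `N` -/
def gsS (P E N : Subgroup G) (c : α → G) (q : β → G) (dd : δ → G) : Set P :=
  {p | (∃ e ∈ E, ∃ i, (p : G) = e * c i * e⁻¹) ∨ (∃ e ∈ E, ∃ i, (p : G) = e * q i * e⁻¹) ∨
    (∃ g i, (p : G) = g * dd i * g⁻¹) ∨ (p : G) ∈ N}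

theorem gsS_mem {E N : Subgroup G} {c : α → G} {q : β → G} {dd : δ → G} {p : P} :
    p ∈ gsS P E N c q dd ↔ (∃ e ∈ E, ∃ i, (p : G) = e * c i * e⁻¹) ∨
      (∃ e ∈ E, ∃ i, (p : G) = e * q i * e⁻¹) ∨ (∃ g i, (p : G) = g * dd i * g⁻¹) ∨
      (p : G) ∈ N := Iff.rfl

theorem gsS_conj {E N : Subgroup G} (hN : N.Normal) {c : α → G} {q : β → G} {dd : δ → G} {g : G}
    (hg : g ∈ E) {s s' : P} (e0 : (s' : G) = g * s * g⁻¹) (hs : s ∈ gsS P E N c q dd) :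
    s' ∈ gsS P E N c q dd := by
  have e : ∀ u v : G, (s : G) = u * v * u⁻¹ → (s' : G) = g * u * v * (g * u)⁻¹ := fun u v h => by
    rw [e0, h]
    group
  rw [gsS_mem] at hs ⊢
  rcases hs with ⟨u, hu, i, h⟩ | ⟨u, hu, i, h⟩ | ⟨u, i, h⟩ | h
  · exact Or.inl ⟨g * u, mul_mem hg hu, i, e _ _ h⟩
  · exact Or.inr (Or.inl ⟨g * u, mul_mem hg hu, i, e _ _ h⟩)
  · exact Or.inr (Or.inr (Or.inl ⟨g * u, i, e _ _ h⟩))
  · exact Or.inr (Or.inr (Or.inr (e0 ▸ hN.conj_mem _ h g)))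

/-- the generators as a map to `P` -/
def gsX {x : ι → G} (hx : ∀ i, x i ∈ P) : FreeGroup ι →* P :=
  FreeGroup.lift fun i => ⟨x i, hx i⟩

theorem gsX_val {x : ι → G} (hx : ∀ i, x i ∈ P) (w : FreeGroup ι) :
    (gsX hx w : G) = FreeGroup.lift x w :=
  DFunLike.congr_fun (show P.subtype.comp (gsX hx) = FreeGroup.lift x from
    FreeGroup.ext_hom _ _ fun i => by simp [gsX]) w

theorem gsX_split {x : ι → G} (hx : ∀ i, x i ∈ P) {N : Subgroup G} (hN : N.Normal)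
    (gen : P ≤ Subgroup.closure (Set.range x) ⊔ N) (p : P) :
    ∃ w, ∃ n : P, (n : G) ∈ N ∧ gsX hx w * n = p := by
  obtain ⟨w, n, hn, e⟩ := gs4_split gen p.2
  refine ⟨w, (gsX hx w)⁻¹ * p, ?_, mul_inv_cancel_left _ _⟩
  rw [Subgroup.coe_mul, Subgroup.coe_inv, gsX_val, ← e, inv_mul_cancel_left]
  exact hn

theorem gs4_two [P.Normal] [Fintype ι] {H : Type} [Group H] {𝒩 : Set (Subgroup G)}
    (hdir : ∀ N ∈ 𝒩, ∀ N' ∈ 𝒩, ∃ N'' ∈ 𝒩, N'' ≤ N ⊓ N') (hnor : ∀ N ∈ 𝒩, N.Normal)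
    {x : ι → G} (hx : ∀ i, x i ∈ P)
    (genP : ∀ N ∈ 𝒩, P ≤ Subgroup.closure (Set.range x) ⊔ N)
    (hχ : ∀ i, ∃ χ : G →* ℤˣ, (∀ j, χ (x j) = if j = i then -1 else 1) ∧
      ∃ N ∈ 𝒩, ∀ h ∈ N, χ h = 1) {N : Subgroup G} (hN : N ∈ 𝒩) {φ : P →* H} {σ : G →* MulAut H}
    (hφ : Function.Surjective φ) (hφN : ∀ p : P, φ p = 1 ↔ (p : G) ∈ N)
    (hσ : ∀ (g : G) (p p' : P), (p' : G) = g * p * g⁻¹ → φ p' = σ g (φ p)) (g : G) (h : H) :
    DimS H 2 (σ g h * h⁻¹) := by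
  obtain ⟨p, rfl⟩ := hφ h
  choose χ hχ1 Nc hNc hχ2 using hχ
  obtain ⟨N', hN', hle, hle'⟩ := gs4_dir hdir hN Nc hNc
  obtain ⟨p', hp'⟩ : ∃ p' : P, (p' : G) = g * p * g⁻¹ :=
    ⟨⟨_, Subgroup.Normal.conj_mem inferInstance _ p.2 g⟩, rfl⟩
  obtain ⟨w, n, hn, e⟩ := gsX_split hx (hnor N' hN') (genP N' hN') (p' * p⁻¹)
  rw [← hσ g p p' hp', ← map_inv, ← map_mul, ← e, map_mul, (hφN n).2 (hle hn), mul_one]
  refine (dimS_two fun i => ?_).map (φ.comp (gsX hx))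
  have h3 : chi i = (χ i).comp (FreeGroup.lift x) :=
    FreeGroup.ext_hom _ _ fun j => by simp [chi, hχ1]
  have h4 := congrArg (fun z : P => χ i z) e
  simp only [Subgroup.coe_mul, Subgroup.coe_inv, map_mul, map_inv, hχ2 i n (hle' i hn), mul_one,
    hp', gsX_val] at h4
  rw [h3, MonoidHom.comp_apply, h4, mul_comm (χ i g), mul_inv_cancel_right, mul_inv_cancel]

theorem gs4_level [P.Normal] {κ ι' : Type} [Fintype ι] [Fintype κ] [Fintype α] [Fintype β]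
    [Fintype δ] [Fintype ι'] (hι : Fintype.card ι = 17) (hκ : Fintype.card κ = 9)
    (hα : Fintype.card α = 7) (hβ : Fintype.card β = 5) {x : ι → G} {γ : κ → G} {c : α → G}
    {q : β → G} {dd : δ → G} (hx : ∀ i, x i ∈ P) (hc : ∀ i, c i ∈ P) (hq : ∀ i, q i ∈ P)
    (hd : ∀ i, dd i ∈ P) {E N : Subgroup G} (hN : N.Normal) {a M : ℕ}
    (ha : (Fintype.card δ : ℝ) * ((11 / 100) ^ 2 ^ a / (1 - 99 / 100)) ≤ 3 / 100)
    {y : ι' → FreeGroup κ} {d : ι' → ℕ} (hd1 : ∀ j, 1 ≤ d j ∧ DimS (FreeGroup κ) (d j) (y j))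
    (hη : ∑ j, (11 / 100 : ℝ) ^ d j ≤ 1 / 100)
    (hE : E ≤ P ⊔ Subgroup.closure (Set.range fun j => FreeGroup.lift γ (y j)) ⊔ N)
    (genP : P ≤ Subgroup.closure (Set.range x) ⊔ N)
    (genG : ⊤ ≤ P ⊔ Subgroup.closure (Set.range γ) ⊔ N)
    (hcof : ∀ w, FreeGroup.lift x w ∈ N → DimS (FreeGroup ι) M w) {H : Type} [Group H] [Finite H]
    {φ : P →* H} {σ : G →* MulAut H}
    (hφ : Function.Surjective φ) (hφN : ∀ p : P, φ p = 1 ↔ (p : G) ∈ N)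
    (hσ : ∀ (g : G) (p p' : P), (p' : G) = g * p * g⁻¹ → φ p' = σ g (φ p))
    (hN1 : ∀ g ∈ N, σ g = 1) (h2 : ∀ g h, DimS H 2 (σ g h * h⁻¹)) :
    ∃ B : Subgroup P, M ≤ B.index ∧
      relS (gsS P E N c (fun i => q i ^ 2) fun i => dd i ^ 2 ^ a) M ≤ B := by
  have hP : ∀ g ∈ P, ∃ u, ∀ h, σ g h = u * h * u⁻¹ := fun g hg => ⟨φ ⟨g, hg⟩, fun h => by
    obtain ⟨p, rfl⟩ := hφ h
    rw [← map_inv, ← map_mul, ← map_mul]
    exact (hσ g p _ rfl).symm⟩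
  have b1 := Blk.iUnion fun i => gs4_blk σ h2 (FreeGroup.lift γ) y d hd1 hP hN1 hE le_rfl
    (DimS.one' _ (φ ⟨c i, hc i⟩)) (by norm_num) hη (by norm_num) M
  have b2 := Blk.iUnion fun i => gs4_blk σ h2 (FreeGroup.lift γ) y d hd1 hP hN1 hE
    (by norm_num) ((DimS.one' _ (φ ⟨q i, hq i⟩)).two_pow 1) (by norm_num) hη (by norm_num) M
  have b3 := Blk.iUnion fun i => gs4_blk σ h2 (FreeGroup.lift γ) FreeGroup.of (fun _ => 1)
    (fun j => ⟨le_rfl, DimS.one' _ _⟩) hP hN1 (E := ⊤) (by simpa using genG)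
    (by simpa using Nat.one_le_two_pow) ((DimS.one' _ (φ ⟨dd i, hd i⟩)).two_pow a)
    (t := 11 / 100) (η := 99 / 100) (by norm_num) (by simp [hκ]; norm_num) (by norm_num) M
  have key := gs4_index (φ.comp (gsX hx)) (fun h => by
      obtain ⟨p, rfl⟩ := hφ h
      obtain ⟨w, n, hn, e⟩ := gsX_split hx hN genP p
      exact ⟨w, by rw [← e, map_mul, (hφN n).2 hn, mul_one, MonoidHom.comp_apply]⟩)
    (fun w hw => hcof w (gsX_val hx w ▸ (hφN _).1 hw))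
    ((b1.union b2).union b3) (by norm_num) (by norm_num) (by
      simp only [Finset.sum_const, Finset.card_univ, nsmul_eq_mul, hι, hα, hβ, mul_one]
      norm_num at ha ⊢
      linarith)
  rw [← Subgroup.index_comap_of_surjective _ hφ] at key
  refine ⟨_, key, fun p hp => relS_map φ (fun s hs => ?_) le_sup_right hp⟩
  rcases gsS_mem.1 hs with ⟨u, hu, i, h⟩ | ⟨u, hu, i, h⟩ | ⟨u, i, h⟩ | h
  · refine Submodule.mem_sup_left (Ideal.subset_span (Or.inl (Or.inl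
      (Set.mem_iUnion.2 ⟨i, u, hu, ?_⟩))))
    rw [gsT_O, ← hσ u ⟨c i, hc i⟩ s h]
  · refine Submodule.mem_sup_left (Ideal.subset_span (Or.inl (Or.inr
      (Set.mem_iUnion.2 ⟨i, u, hu, ?_⟩))))
    rw [gsT_O, ← map_pow, ← hσ u (⟨q i, hq i⟩ ^ 2 ^ 1) s h]
  · refine Submodule.mem_sup_left (Ideal.subset_span (Or.inr
      (Set.mem_iUnion.2 ⟨i, u, trivial, ?_⟩)))
    rw [gsT_O, ← map_pow, ← hσ u (⟨dd i, hd i⟩ ^ 2 ^ a) s h]
  · rw [(hφN s).2 h, gsO, map_one, sub_self]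
    exact zero_mem _

end Vale.Agent.P300
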