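import Vale.Agent.P300.Core

/-! The arrangement, the Galois group, towers, charts, inertia. See notes/P300.md. -/

open scoped LinearAlgebra.Projectivization Topology Classical Pointwise
open Polynomial

namespace Vale.Agent.P300

/-- ambient data: `L` is algebraic over `ℂ(s, z)` -/
structure Amb (L : Type) [Field L] [Algebra ℂ L] where
  s : L
  z : L
  ind : AlgebraicIndependent ℂ ![s, z]
  alg : Algebra.IsAlgebraic (IntermediateField.adjoin ℂ {s, z}) L

variable {L : Type} [Field L] [Algebra ℂ L]

/-- the field `ℂ(s, z)` -/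
noncomputable def Amb.K (A : Amb L) : IntermediateField ℂ L := IntermediateField.adjoin ℂ {A.s, A.z}

/-- the Galois group -/
abbrev Amb.G (A : Amb L) : Type := L ≃ₐ[A.K] L

instance (A : Amb L) : Algebra.IsAlgebraic A.K L := A.alg

instance (A : Amb L) : CharZero A.K := algebraRat.charZero _

instance (A : Amb L) [IsAlgClosed L] : IsAlgClosure A.K L := ⟨inferInstance, inferInstance⟩

instance (A : Amb L) [IsAlgClosed L] : IsGalois A.K L := inferInstance

/-- indices of the eighth roots of unity -/
abbrev Mu : Type := ZMod 8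

/-- the eighth root of unity with index `a` -/
noncomputable def muC (a : Mu) : ℂ := (ZMod.toCircle a : Circle)

/-- a root of unity as an element of `L` -/
noncomputable def mu (L : Type) [Field L] [Algebra ℂ L] (a : Mu) : L := algebraMap ℂ L (muC a)

/-- finite sections `z = 0`, `z = a`, `z = a s` -/
inductive Sec
  | zero
  | cst (a : Mu)
  | dia (a : Mu)
  deriving Fintype, DecidableEq

/-- finite cusps `s = 0`, `s = b` -/
inductive Cusp
  | zero
  | cst (b : Mu)
  deriving Fintype, DecidableEq

/-- position of a section -/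
noncomputable def Amb.p (A : Amb L) : Sec → L
  | .zero => 0
  | .cst a => mu L a
  | .dia a => mu L a * A.s

/-- position of a cusp -/
noncomputable def Cusp.val : Cusp → ℂ
  | .zero => 0
  | .cst b => muC b

/-- lines of the arrangement -/
inductive Ln
  | inf
  | cusp (j : Cusp)
  | sec (i : Sec)
  deriving Fintype, DecidableEq

/-- linear forms -/
noncomputable def Amb.form (A : Amb L) : Ln → L
  | .inf => 1
  | .cusp j => A.s - algebraMap ℂ L j.val
  | .sec i => A.z - A.p i

/-- coordinate ring of the complement of the arrangement -/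
def Amb.R0 (A : Amb L) : Subalgebra ℂ L :=
  Algebra.adjoin ℂ ({A.s, A.z} ∪ Set.range fun l => (A.form l)⁻¹)

/-- units of the integral closure of `R0` -/
def Amb.Un (A : Amb L) (a : L) : Prop := a ≠ 0 ∧ IsIntegral A.R0 a ∧ IsIntegral A.R0 a⁻¹

/-- towers of square roots of units -/
inductive Amb.Tw (A : Amb L) : IntermediateField A.K L → Prop
  | bot : A.Tw ⊥
  | step (F : IntermediateField A.K L) (y : L) : A.Tw F → y ^ 2 ∈ F → A.Un y →
      A.Tw (F ⊔ IntermediateField.adjoin A.K {y})

/-- elements of the big field -/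
def Amb.Om (A : Amb L) (a : L) : Prop := ∃ F, A.Tw F ∧ a ∈ F

/-- an intermediate field as a field over `ℂ` -/
noncomputable abbrev Amb.rs (A : Amb L) (F : IntermediateField A.K L) : IntermediateField ℂ L :=
  F.restrictScalars ℂ

/-- a ratio of two linear forms of the arrangement -/
def Amb.Rat (A : Amb L) (u : L) : Prop := ∃ l l', u = A.form l / A.form l'

/-- a chart of the blown-up plane; flagged parameters cut out boundary divisors -/
structure Amb.Ch (A : Amb L) (u v : L) (fu fv : Bool) : Prop where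
  ind : AlgebraicIndependent ℂ ![u, v]
  gen : IntermediateField.adjoin ℂ {u, v} = A.K
  r0 : ∀ a ∈ A.R0, ∃ N : ℕ,
    a * ((if fu then u else 1) * (if fv then v else 1)) ^ N ∈ (cl u v).O
  ru : fu = true → A.Rat u
  rv : fv = true → A.Rat v

/-- `P` is a point of the full normalisation above `x` -/
abbrev Ab (x P : LP L) : Prop := NP x ⊤ P

/-- good levels -/
structure Amb.Good (A : Amb L) (F : IntermediateField A.K L) (a : ℕ) : Prop where
  tw : A.Tw F
  normal : Normal A.K F
  pos : 1 ≤ a
  roots : ∀ l y, y ^ 2 ^ a = A.form l → y ∈ F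
  rg : ∀ u v fu fv, A.Ch u v fu fv → ∀ P, Ab (cl u v) P → ∀ u' v' : L,
    u' ^ (if fu then 2 ^ a else 1) = u → v' ^ (if fv then 2 ^ a else 1) = v →
    (res (cl u v) (A.rs F) P).Rg u' v' (A.rs F)

/-- the family of fixing subgroups of good levels -/
def Amb.NN (A : Amb L) : Set (Subgroup A.G) := {N | ∃ F a, A.Good F a ∧ N = F.fixingSubgroup}

/-- the compatible primitive roots of unity -/
noncomputable def zt (L : Type) [Field L] [Algebra ℂ L] (a : ℕ) : L :=
  algebraMap ℂ L (Complex.exp (2 * Real.pi * Complex.I / (2 ^ a : ℕ)))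

/-- `e` multiplies the `2 ^ a`-th roots of `u` lying in the big field by `ζ ^ i` -/
def Amb.Acts (A : Amb L) (e : A.G) (u : L) (i : ℤ) : Prop :=
  ∀ (a : ℕ) (y : L), A.Om y → y ^ 2 ^ a = u → e y = zt L a ^ i * y

/-- `g` fixes the point `P` at level `M` -/
def Amb.IP (A : Amb L) (x : LP L) (M : IntermediateField ℂ L) (P : LP L) (g : A.G) : Prop :=
  ∀ b ∈ Bx x M, P.ev (g b) = P.ev b

/-- `g` preserves `V` at level `F` -/
def Amb.DV (A : Amb L) (V : ValuationSubring L) (F : IntermediateField A.K L) (g : A.G) : Prop :=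
  ∀ a ∈ F, g a ∈ V ↔ a ∈ V

/-- `g` acts trivially on the residues of `V` at level `F` -/
def Amb.IV (A : Amb L) (V : ValuationSubring L) (F : IntermediateField A.K L) (g : A.G) : Prop :=
  ∀ a ∈ F, a ∈ V → g a - a ∈ V.nonunits

/-- `g` acts trivially on the residues of `V` in the big field -/
def Amb.IVO (A : Amb L) (V : ValuationSubring L) (g : A.G) : Prop :=
  ∀ a, A.Om a → a ∈ V → g a - a ∈ V.nonunits

/-- algebraic over `ℂ(s)` -/
def Amb.Bs (A : Amb L) (a : L) : Prop := IsAlgebraic (Algebra.adjoin ℂ {A.s}) a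

/-- the fibre group -/
def Amb.pi (A : Amb L) : Subgroup A.G where
  carrier := {g | ∀ a, A.Bs a → A.Om a → g a = a}
  mul_mem' := fun {g h} hg hh a ha hb => by rw [AlgEquiv.mul_apply, hh a ha hb, hg a ha hb]
  one_mem' := fun _ _ _ => rfl
  inv_mem' := fun {g} hg a ha hb => by
    rw [AlgEquiv.aut_inv, AlgEquiv.symm_apply_eq, hg a ha hb]

theorem Amb.nm (A : Amb L) {F : IntermediateField A.K L} (hF : Normal A.K F) (g : A.G) {a : L}
    (ha : a ∈ F) : g a ∈ F := by
  have h := AlgEquiv.restrictNormal_commutes g F ⟨a, ha⟩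
  have e : g a = (g.restrictNormal F ⟨a, ha⟩ : F) := h.symm
  rw [e]
  exact SetLike.coe_mem _

/-- decomposition group of `V` at level `F` -/
def Amb.DVs (A : Amb L) (V : ValuationSubring L) {F : IntermediateField A.K L} (hF : Normal A.K F) :
    Subgroup A.G where
  carrier := {g | A.DV V F g}
  mul_mem' := fun {g h} hg hh a ha => by
    rw [AlgEquiv.mul_apply, hg _ (A.nm hF h ha), hh a ha]
  one_mem' := fun _ _ => Iff.rfl
  inv_mem' := fun {g} hg a ha => by
    rw [← hg _ (A.nm hF g⁻¹ ha), ← AlgEquiv.mul_apply, mul_inv_cancel, AlgEquiv.one_apply]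

/-- inertia group of `V` at level `F` -/
def Amb.IVs (A : Amb L) (V : ValuationSubring L) {F : IntermediateField A.K L} (hF : Normal A.K F) :
    Subgroup A.G where
  carrier := {g | A.DV V F g ∧ A.IV V F g}
  mul_mem' := fun {g h} hg hh => ⟨(A.DVs V hF).mul_mem hg.1 hh.1, fun a ha hv => by
    have e : (g * h) a - a = (g (h a) - h a) + (h a - a) := by rw [AlgEquiv.mul_apply]; ring
    rw [e]
    exact V.nonunits.add_mem (hg.2 _ (A.nm hF h ha) ((hh.1 a ha).2 hv)) (hh.2 a ha hv)⟩
  one_mem' := ⟨fun _ _ => Iff.rfl, fun a _ _ => by simp⟩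
  inv_mem' := fun {g} hg => ⟨(A.DVs V hF).inv_mem hg.1, fun a ha hv => by
    have h1 := hg.2 _ (A.nm hF g⁻¹ ha) (((A.DVs V hF).inv_mem hg.1 a ha).2 hv)
    rw [← AlgEquiv.mul_apply, mul_inv_cancel, AlgEquiv.one_apply] at h1
    have e : g⁻¹ a - a = -(a - g⁻¹ a) := by ring
    rw [e]
    exact V.nonunits.neg_mem h1⟩

/-- action on local points -/
noncomputable def Amb.act (A : Amb L) (g : A.G) (x : LP L) : LP L := x.map (g.restrictScalars ℂ)

/-- `g` and `h` agree on `F` -/
def Amb.Eqv (A : Amb L) (F : IntermediateField A.K L) (g h : A.G) : Prop := ∀ a ∈ F, g a = h a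

/-- a point with a pair of inertia generators -/
structure Amb.Fr (A : Amb L) (u v : L) (P : LP L) (e₁ e₂ : A.G) : Prop where
  ab : Ab (cl u v) P
  i1 : A.IP (cl u v) ⊤ P e₁
  i2 : A.IP (cl u v) ⊤ P e₂
  a11 : A.Acts e₁ u 1
  a12 : A.Acts e₁ v 0
  a21 : A.Acts e₂ u 0
  a22 : A.Acts e₂ v 1

/-- the point lies on the curve of `V` -/
def On (P : LP L) (V : ValuationSubring L) : Prop := ∀ a ∈ P.O, a ∈ V

/-- the branch `u = 0` is the section `i` (`none` is the section at infinity) -/
def Amb.HB (A : Amb L) (u v : L) (i : Option Sec) : Prop :=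
  ∀ V, Over V u v → (∀ P : ℂ[X], P ≠ 0 → VU V (aeval A.s P)) ∧
    ∀ j : Sec, match i with
      | some i => VU V (if j = i then A.form (.sec j) / u else A.form (.sec j))
      | none => VU V (A.form (.sec j) * u)

/-- reference charts on the sections: first parameter vertical (fibre `s = 1`), second horizontal -/
noncomputable def Amb.hc (A : Amb L) : Option Sec → L × L
  | none => (A.s - 1, A.z⁻¹)
  | some .zero => (A.s - 1, A.z)
  | some (.cst a) => (A.z - mu L a * A.s, (A.z - mu L a) / (A.z - mu L a * A.s))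
  | some (.dia a) => (A.z - mu L a, (A.z - mu L a * A.s) / (A.z - mu L a))

/-- nodes of the singular fibres -/
inductive Nd
  | zero
  | inf
  | fin (b a : Mu)
  deriving Fintype, DecidableEq

/-- charts at the nodes: first parameter main component, second parameter bubble -/
noncomputable def Amb.nc (A : Amb L) : Nd → L × L
  | .zero => (A.s / A.z, A.z)
  | .inf => (A.z⁻¹, A.z / A.s)
  | .fin b a => ((A.s - mu L b) / (A.z - mu L a), A.z - mu L a)

/-- main components of the singular fibres -/
noncomputable def Amb.mc (A : Amb L) : Option Cusp → L × L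
  | none => (A.s⁻¹, A.z / A.s)
  | some j => (A.form (.cusp j), A.z)

/-- the cusp of a node -/
def Nd.cusp : Nd → Option Cusp
  | .zero => some .zero
  | .inf => none
  | .fin b _ => some (.cst b)

/-- the branch `u = 0` is a section -/
def Amb.Hor (A : Amb L) (u v : L) : Prop :=
  ∃ i : Option Sec, ∀ V, Over V u v → Over V (A.hc i).2 (A.hc i).1 ∧ VU V ((A.hc i).2 / u)

/-- the branch `u = 0` is a component of a singular fibre -/
def Amb.Ver (A : Amb L) (u v : L) : Prop :=
  (∃ j : Option Cusp, ∀ V, Over V u v → Over V (A.mc j).1 (A.mc j).2 ∧ VU V ((A.mc j).1 / u)) ∨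
  ∃ n : Nd, ∀ V, Over V u v → Over V (A.nc n).2 (A.nc n).1 ∧ VU V ((A.mc n.cusp).1 / u)

/-- types of charts -/
def Amb.Typ (A : Amb L) (u v : L) (fu fv : Bool) : Prop :=
  ((fu = false ∨ A.Hor u v) ∧ (fv = false ∨ A.Ver v u)) ∨
    (fu = true ∧ fv = true ∧ ∃ n : Nd, u = (A.nc n).1 ∧ v = (A.nc n).2)

/-- multiple points of the arrangement -/
inductive Mp
  | m0
  | m1
  | m2
  | fin (b a : Mu)
  deriving Fintype, DecidableEq

/-- pencils through the multiple points -/
noncomputable def Amb.pen (A : Amb L) : Mp → Bool → L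
  | .m0 => fun e => if e then A.s else A.z
  | .m1 => fun e => if e then 1 else A.z
  | .m2 => fun e => if e then 1 else A.s
  | .fin b a => fun e => if e then A.s - mu L b else A.z - mu L a

theorem Amb.pen_ne (A : Amb L) (m : Mp) : A.pen m true ≠ 0 := by
  have h := A.ind.transcendental 0
  have hs : ∀ c : ℂ, A.s - algebraMap ℂ L c ≠ 0 := fun c e =>
    h (by rw [sub_eq_zero] at e; simp only [Matrix.cons_val_zero, e]; exact isAlgebraic_algebraMap c)
  cases m with
  | m0 => simpa [Amb.pen] using hs 0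
  | m1 => simp [Amb.pen]
  | m2 => simp [Amb.pen]
  | fin b a => simpa [Amb.pen, mu] using hs _

/-- the plane blown up at the multiple points -/
noncomputable def Amb.X (A : Amb L) : Model L where
  ι := Fin 3 × (Mp → Bool)
  f := fun p => ![1, A.s, A.z] p.1 * ∏ m, A.pen m (p.2 m)
  ne := ⟨(0, fun _ => true), by
    simpa using Finset.prod_ne_zero_iff.2 fun m _ => A.pen_ne m⟩

/-- coordinate on the bubbles of the fibre `s = 1` -/
noncomputable def Amb.yb (A : Amb L) (a : Mu) : L := (A.z - mu L a * A.s) / (A.z - mu L a)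

/-- fixed field of a subgroup, over `ℂ` -/
noncomputable abbrev Amb.fx (A : Amb L) (H : Subgroup A.G) : IntermediateField ℂ L :=
  A.rs (IntermediateField.fixedField H)

/-- Kummer condition: inertia element of the section `i` -/
def Amb.Kum (A : Amb L) (e : A.G) (i : Sec) : Prop :=
  e ∈ A.pi ∧ ∀ j, A.Acts e (A.form (.sec j)) (if j = i then 1 else 0)

end Vale.Agent.P300
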