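import Vale.Agent.P300.Rg3
import Vale.Agent.P300.Pi

/-! Existence of inertia elements and the calculus of `Acts`. `exists_fr`: for each `a` the character
pair of roots `u', v'` of order `2 ^ a` (`exists_char`) maps `G` onto `μ × μ` (a proper subgroup is
killed by a quadratic character, so `√(u ^ i v ^ j) ∈ K` against `not_sq'`; or use the automorphism of
`ℂ(u', v')`); correct by `tr_lp` and `roots_agree`; compactness of `G` and `isClopen_eval`.
`ram`: take `τ` with `τ w = -w`, `ram_agree`, `tr_lp`. -/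

open scoped LinearAlgebra.Projectivization Topology Classical Pointwise
open Polynomial

set_option linter.unusedSectionVars false

namespace Vale.Agent.P300

variable {L : Type} [Field L] [Algebra ℂ L] [IsAlgClosed L] (A : Amb L)

theorem ine1_zt_ne (a : ℕ) : zt L a ≠ 0 := (zt_prim a).ne_zero (by positivity)

theorem Amb.ine1_zt (g : A.G) (a : ℕ) (i : ℤ) : g (zt L a ^ i) = zt L a ^ i := by
  rw [map_zpow₀, zt, A.fixC]

theorem Amb.ine1_flip (E : IntermediateField A.K L) {w : L} (hw : w ∉ E) (h2 : w ^ 2 ∈ E) :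
    ∃ τ ∈ E.fixingSubgroup, τ w = -w := by
  rw [← InfiniteGalois.fixedField_fixingSubgroup E, IntermediateField.mem_fixedField_iff] at hw
  push Not at hw
  obtain ⟨τ, hτ, h⟩ := hw
  refine ⟨τ, hτ, (sq_eq_sq_iff_eq_or_eq_neg.1 ?_).resolve_left h⟩
  rw [← map_pow]
  exact (IntermediateField.mem_fixingSubgroup_iff E τ).1 hτ _ h2

theorem Amb.ine1_mem (E : IntermediateField A.K L) {s : Set L} {y : L} (hy : y ∈ s) :
    y ∈ E ⊔ IntermediateField.adjoin A.K s :=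
  (le_sup_right : IntermediateField.adjoin A.K s ≤ _) (IntermediateField.subset_adjoin _ _ hy)

theorem Amb.ine1_rs (s : Set L) : A.K ⊔ IntermediateField.adjoin ℂ s =
    A.rs (⊥ ⊔ IntermediateField.adjoin A.K s) := by
  rw [A.rs_sup, A.rs_bot]

theorem Amb.ine1_root {x P : LP L} (hP : Ab x P) (E : IntermediateField A.K L)
    (hx : ∀ a ∈ x.O, a ∈ A.rs E) {u v : L} (h : (res x (A.rs E) P).Rg u v (A.rs E)) (a : ℕ) :
    ∀ (y : L) (c : ℂ), y ^ 2 ^ a = u → c ^ 2 ^ a = 1 →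
      ∃ g ∈ E.fixingSubgroup, g y = algebraMap ℂ L c * y := by
  induction a with
  | zero =>
    intro y c _ hc
    rw [pow_zero, pow_one] at hc
    exact ⟨1, one_mem _, by rw [hc, map_one, one_mul, AlgEquiv.one_apply]⟩
  | succ a ih =>
    intro y c hy hc
    have hy' : (y ^ 2) ^ 2 ^ a = u := by rw [← pow_mul, ← pow_succ', hy]
    obtain ⟨g, hg, h1⟩ := ih (y ^ 2) (c ^ 2) hy' (by rw [← pow_mul, ← pow_succ', hc])
    rw [map_pow, map_pow, ← mul_pow] at h1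
    rcases sq_eq_sq_iff_eq_or_eq_neg.1 h1 with h2 | h2
    · exact ⟨g, hg, h2⟩
    · have h3 := step_rams hP hx h hy'
      rw [← A.rs_sup] at h3
      obtain ⟨τ, hτ, h4⟩ := A.ine1_flip (E ⊔ IntermediateField.adjoin A.K {y ^ 2}) (w := y)
        (fun h5 => Nat.not_even_one (h3.not_sq' (ε := 1) (i := 1) (j := 0)
          ⟨one_mem _, by rw [HomOn.one (LP.hom _)]; exact one_ne_zero⟩ h5 (by ring)).1)
        (A.ine1_mem E rfl)
      refine ⟨g * τ, mul_mem hg (IntermediateField.fixingSubgroup_le le_sup_left hτ), ?_⟩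
      rw [AlgEquiv.mul_apply, h4, map_neg, h2, neg_neg]

theorem Amb.ine1_fix {x P : LP L} (hx : ∀ a ∈ x.O, a ∈ A.K) (hP : Ab x P)
    (E : IntermediateField A.K L) (g : A.G)
    (e : ∀ b ∈ Bx x (A.rs E), P.ev b = (A.act g⁻¹ P).ev b) :
    ∃ g', A.IP x ⊤ P g' ∧ ∀ a ∈ E, g' a = g a := by
  obtain ⟨n, hn, h⟩ := A.tr_lp E hx hP (A.ab_act hx hP g⁻¹) e
  refine ⟨g * n, (A.ip_iff hx hP _).2 ?_, fun a ha => ?_⟩
  · rw [← A.act_act, h, A.act_act, mul_inv_cancel, A.act_one]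
  · rw [AlgEquiv.mul_apply, (IntermediateField.mem_fixingSubgroup_iff E n).1 hn a ha]

theorem Amb.ine1_all {g : A.G} {n : ℕ} (hn : 1 ≤ n) {u y y' ζ : L} (hu : u ≠ 0) (hy : y ^ n = u)
    (hy' : y' ^ n = u) (h : g y = ζ * y) : g y' = ζ * y' := by
  have h0 : y ≠ 0 := fun h1 => hu (by rw [← hy, h1, zero_pow (by omega)])
  obtain ⟨c, -, hc⟩ := root_mem (ζ := y' / y) hn (by rw [div_pow, hy, hy', div_self hu])
  rw [div_eq_iff h0] at hc
  rw [hc, map_mul, A.fixC, h]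
  ring

theorem Amb.ine1_level {u v : L} {x P : LP L} (h : x.Rg u v A.K) (hP : Ab x P) (a : ℕ) :
    ∃ e, A.IP x ⊤ P e ∧ (∀ y, y ^ 2 ^ a = u → e y = zt L a * y) ∧
      ∀ y, y ^ 2 ^ a = v → e y = y := by
  obtain ⟨u', hu⟩ := IsAlgClosed.exists_pow_nat_eq u (n := 2 ^ a) (by positivity)
  obtain ⟨v', hv⟩ := IsAlgClosed.exists_pow_nat_eq v (n := 2 ^ a) (by positivity)
  have h1 : (res x A.K P).Rg v u A.K := by
    rw [h.res_self hP]
    exact h.swap
  have h2 := (step_rams hP h.sub h1 hv).swap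
  rw [A.ine1_rs] at h2
  obtain ⟨c, hc, hc'⟩ := root_mem (ζ := zt L a) Nat.one_le_two_pow (zt_prim a).pow_eq_one
  obtain ⟨g, hg, h3⟩ := A.ine1_root hP (⊥ ⊔ IntermediateField.adjoin A.K {v'})
    (fun b hb => IntermediateField.algebraMap_mem (⊥ ⊔ IntermediateField.adjoin A.K {v'})
      (⟨b, h.sub b hb⟩ : A.K)) h2 a u' c hu hc
  have h4 := roots_agree hP (A.ab_act h.sub hP g⁻¹) h hu hv
  rw [A.ine1_rs] at h4
  obtain ⟨e, he, h5⟩ := A.ine1_fix h.sub hP _ g h4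
  refine ⟨e, he, fun y hy => A.ine1_all Nat.one_le_two_pow h.ne hu hy ?_, fun y hy => ?_⟩
  · rw [h5 u' (A.ine1_mem _ (by simp)), h3, hc']
  · refine (A.ine1_all Nat.one_le_two_pow h.swap.ne hv hy ?_).trans (one_mul y)
    rw [h5 v' (A.ine1_mem _ (by simp)), one_mul]
    exact (IntermediateField.mem_fixingSubgroup_iff _ g).1 hg v' (A.ine1_mem _ rfl)

theorem Amb.ine1_one {u v : L} {x P : LP L} (h : x.Rg u v A.K) (hP : Ab x P) :
    ∃ e, A.IP x ⊤ P e ∧ A.Acts e u 1 ∧ A.Acts e v 0 := by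
  let t : ℕ → Set A.G := fun a => {e | A.IP x ⊤ P e ∧ (∀ y, y ^ 2 ^ a = u → e y = zt L a * y) ∧
    ∀ y, y ^ 2 ^ a = v → e y = y}
  have hc : ∀ a, IsClosed (t a) := fun a => by
    simp only [t, Amb.IP, Set.ofPred_and, Set.ofPred_forall]
    refine (isClosed_iInter fun b => isClosed_iInter fun _ => ?_).inter
      ((isClosed_iInter fun y => isClosed_iInter fun _ => ?_).inter
        (isClosed_iInter fun y => isClosed_iInter fun _ => ?_))
    · exact (A.isClopen_eval b fun z => P.ev z = P.ev b).isClosed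
    · exact (A.isClopen_eval y fun z => z = zt L a * y).isClosed
    · exact (A.isClopen_eval y fun z => z = y).isClosed
  obtain ⟨e, he⟩ := IsCompact.nonempty_iInter_of_sequence_nonempty_isCompact_isClosed t
    (fun a e he => by
      refine ⟨he.1, fun y hy => ?_, fun y hy => ?_⟩
      · obtain ⟨z, rfl⟩ := IsAlgClosed.exists_pow_nat_eq y (n := 2) (by positivity)
        rw [map_pow, he.2.1 z (by rw [pow_succ', pow_mul, hy]), mul_pow, zt_sq]
      · obtain ⟨z, rfl⟩ := IsAlgClosed.exists_pow_nat_eq y (n := 2) (by positivity)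
        rw [map_pow, he.2.2 z (by rw [pow_succ', pow_mul, hy])])
    (A.ine1_level h hP) (hc 0).isCompact hc
  rw [Set.mem_iInter] at he
  refine ⟨e, (he 0).1, fun a y _ hy => ?_, fun a y _ hy => ?_⟩
  · rw [zpow_one]
    exact (he a).2.1 y hy
  · rw [zpow_zero, one_mul]
    exact (he a).2.2 y hy

theorem Amb.ine1_val {V : ValuationSubring L} (hc : ∀ c : ℂ, algebraMap ℂ L c ∈ V) {g : A.G}
    {y : L} {n : ℕ} (hn : 1 ≤ n) (hw : VU V (y ^ n)) (h : g (y ^ n) = y ^ n)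
    (hg : y ∈ V → g y - y ∈ V.nonunits) : g y = y := by
  have h1 : V.valuation y = 1 := by
    have h2 := le_antisymm ((V.valuation_le_one_iff _).2 hw.1)
      (not_lt.1 fun h3 => hw.2 (V.mem_nonunits_iff.2 h3))
    rwa [map_pow, pow_eq_one_iff_of_nonneg zero_le (by omega)] at h2
  have h0 : y ≠ 0 := fun h2 => by
    rw [h2, map_zero] at h1
    exact zero_ne_one h1
  obtain ⟨c, -, h2⟩ := root_mem (ζ := g y / y) hn
    (by rw [div_pow, ← map_pow, h, div_self (pow_ne_zero _ h0)])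
  rw [div_eq_iff h0] at h2
  have h3 := hg ((V.valuation_le_one_iff _).1 h1.le)
  by_contra h4
  have h5 : c - 1 ≠ 0 := fun h6 => h4 (by rw [h2, sub_eq_zero.1 h6, map_one, one_mul])
  have h6 : y = algebraMap ℂ L (c - 1)⁻¹ * (g y - y) := by
    rw [h2, ← sub_one_mul, ← mul_assoc, ← map_one (algebraMap ℂ L), ← map_sub, ← map_mul,
      inv_mul_cancel₀ h5, map_one, one_mul]
  have h7 := mul_lt_mul_of_le_of_lt_of_nonneg_of_pos ((V.valuation_le_one_iff _).2 (hc (c - 1)⁻¹))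
    (V.mem_nonunits_iff.1 h3) zero_le zero_lt_one
  rw [← map_mul, ← h6, h1, mul_one] at h7
  exact lt_irrefl _ h7

theorem Amb.exists_fr {u v : L} (hi : AlgebraicIndependent ℂ ![u, v])
    (hg : IntermediateField.adjoin ℂ {u, v} = A.K) {P : LP L} (hP : Ab (cl u v) P) :
    ∃ e₁ e₂, A.Fr u v P e₁ e₂ := by
  have h := cl_rg hi
  rw [hg] at h
  obtain ⟨e₁, h1, h2, h3⟩ := A.ine1_one h hP
  obtain ⟨e₂, h4, h5, h6⟩ := A.ine1_one h.swap hP
  exact ⟨e₁, e₂, hP, h1, h4, h2, h3, h6, h5⟩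

theorem Amb.ram {u v : L} (hi : AlgebraicIndependent ℂ ![u, v])
    (hg : IntermediateField.adjoin ℂ {u, v} = A.K) {P : LP L} (hP : Ab (cl u v) P) {w ε : L}
    (hε : (cl u v).U ε) (hw : w ^ 2 = ε * u) : ∃ g, A.IP (cl u v) ⊤ P g ∧ g w = -w := by
  have h := cl_rg hi
  rw [hg] at h
  obtain ⟨τ, -, h1⟩ := A.ine1_flip ⊥ (w := w)
    (fun h2 => by
      have h3 : w ∈ A.rs ⊥ := h2
      rw [A.rs_bot] at h3
      exact Nat.not_even_one (h.not_sq' hε (i := 1) (j := 0) h3 (by rw [hw]; ring)).1)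
    (by
      rw [hw]
      exact algebraMap_mem _ (⟨ε * u, h.sub _ (mul_mem hε.1 h.gen.1.1)⟩ : A.K))
  have h2 := ram_agree hP (A.ab_act h.sub hP τ⁻¹) h.sub (u := u) (v := v) (ε := ε)
    (by rwa [h.res_self hP]) (by rwa [h.res_self hP]) hw
    fun b hb => by rw [A.ev_act, inv_inv, A.fixK τ hb.2]
  rw [A.ine1_rs] at h2
  obtain ⟨g, h3, h4⟩ := A.ine1_fix h.sub hP _ τ h2
  exact ⟨g, h3, by rw [h4 w (A.ine1_mem _ rfl), h1]⟩

theorem Amb.Fr.swap {u v : L} (hi : AlgebraicIndependent ℂ ![u, v]) {P : LP L} {e₁ e₂ : A.G}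
    (h : A.Fr u v P e₁ e₂) : A.Fr v u P e₂ e₁ := by
  refine ⟨?_, ?_, ?_, h.a22, h.a21, h.a12, h.a11⟩
  · rw [← cl_swap hi]
    exact h.ab
  · rw [← cl_swap hi]
    exact h.i2
  · rw [← cl_swap hi]
    exact h.i1

theorem Amb.Acts.conj {e : A.G} {u : L} (hu : u ∈ A.K) {i : ℤ} (h : A.Acts e u i) (g : A.G) :
    A.Acts (g * e * g⁻¹) u i := fun a y ho hy => by
  rw [AlgEquiv.mul_apply, AlgEquiv.mul_apply, h a _ (ho.map A g⁻¹)
    (by rw [← map_pow, hy, A.fixK _ hu]), map_mul, A.ine1_zt, ← AlgEquiv.mul_apply, mul_inv_cancel,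
    AlgEquiv.one_apply]

theorem Amb.Fr.act {u v : L} {fu fv : Bool} (hc : A.Ch u v fu fv) {P : LP L} {e₁ e₂ : A.G}
    (h : A.Fr u v P e₁ e₂) (g : A.G) : A.Fr u v (A.act g P) (g * e₁ * g⁻¹) (g * e₂ * g⁻¹) := by
  have hu : u ∈ A.K := (hc.rg A).sub u (hc.rg A).gen.1.1
  have hv : v ∈ A.K := (hc.rg A).sub v (hc.rg A).gen.2.1.1
  have key : ∀ e, A.IP (cl u v) ⊤ P e → A.IP (cl u v) ⊤ (A.act g P) (g * e * g⁻¹) :=
    fun e he b hb => by
      rw [A.ev_act, A.ev_act, ← AlgEquiv.mul_apply, ← mul_assoc, ← mul_assoc, inv_mul_cancel,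
        one_mul, AlgEquiv.mul_apply]
      exact he _ (A.Bx_map (hc.sub A) g⁻¹ hb)
  exact ⟨A.ab_act (hc.sub A) h.ab g, key _ h.i1, key _ h.i2, h.a11.conj A hu g, h.a12.conj A hv g,
    h.a21.conj A hu g, h.a22.conj A hv g⟩

theorem Amb.Acts.mul {e e' : A.G} {u : L} {i j : ℤ} (h : A.Acts e u i) (h' : A.Acts e' u j) :
    A.Acts (e * e') u (i + j) := fun a y ho hy => by
  rw [AlgEquiv.mul_apply, h' a y ho hy, map_mul, A.ine1_zt, h a y ho hy,
    zpow_add₀ (ine1_zt_ne a)]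
  ring

theorem Amb.Acts.inv {e : A.G} {u : L} {i : ℤ} (h : A.Acts e u i) : A.Acts e⁻¹ u (-i) :=
  fun a y ho hy => by
  rw [AlgEquiv.aut_inv, AlgEquiv.symm_apply_eq, map_mul, A.ine1_zt, h a y ho hy, ← mul_assoc,
    ← zpow_add₀ (ine1_zt_ne a), neg_add_cancel, zpow_zero, one_mul]

theorem Amb.Acts.pow {e : A.G} {u : L} {i : ℤ} (h : A.Acts e u i) (n : ℕ) :
    A.Acts (e ^ n) u (n * i) := by
  induction n with
  | zero =>
    intro a y _ _
    simp
  | succ n ih =>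
    have h1 := ih.mul A h
    rw [← pow_succ] at h1
    push_cast
    rwa [add_one_mul]

theorem Amb.Acts.mul_right {e : A.G} {u u' : L} {i j : ℤ} (h : A.Acts e u i) (h' : A.Acts e u' j)
    (hu : A.Un u) (ho : A.Om u) : A.Acts e (u * u') (i + j) := fun a y hy hy' => by
  obtain ⟨z, hz⟩ := IsAlgClosed.exists_pow_nat_eq u (n := 2 ^ a) (by positivity)
  have h0 : z ≠ 0 := fun h1 => hu.1 (by rw [← hz, h1, zero_pow (by positivity)])
  have h1 : A.Om z := Amb.Om.root A (a := a) (by rwa [hz]) (by rwa [hz])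
  have h2 := h' a (y / z) (A.OmF.div_mem hy h1) (by rw [div_pow, hy', hz, mul_div_cancel_left₀ _ hu.1])
  have h3 : y = z * (y / z) := by rw [mul_div_cancel₀ _ h0]
  rw [h3, map_mul, h a z h1 hz, h2, zpow_add₀ (ine1_zt_ne a)]
  ring

theorem Amb.Acts.inv_right {e : A.G} {u : L} {i : ℤ} (h : A.Acts e u i) : A.Acts e u⁻¹ (-i) :=
  fun a y ho hy => by
  have h1 := h a y⁻¹ (A.OmF.inv_mem ho) (by rw [inv_pow, hy, inv_inv])
  rw [map_inv₀, inv_eq_iff_eq_inv, mul_inv, inv_inv, ← zpow_neg] at h1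
  exact h1

theorem Amb.acts_const (e : A.G) (c : ℂ) : A.Acts e (algebraMap ℂ L c) 0 := fun a y _ hy => by
  rw [zpow_zero, one_mul]
  by_cases hc : c = 0
  · rw [hc, map_zero, pow_eq_zero_iff (by positivity)] at hy
    rw [hy, map_zero]
  · obtain ⟨z, hz⟩ := IsAlgClosed.exists_pow_nat_eq c (n := 2 ^ a) (by positivity)
    have h1 := A.ine1_all (g := e) (y := algebraMap ℂ L z) (ζ := 1) Nat.one_le_two_pow
      ((_root_.map_ne_zero _).2 hc) (by rw [← map_pow, hz]) hy (by rw [A.fixC, one_mul])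
    rwa [one_mul] at h1

theorem Amb.acts_unit {V : ValuationSubring L} (hc : ∀ c : ℂ, algebraMap ℂ L c ∈ V) {g : A.G}
    (hg : A.IVO V g) {w : L} (hw : VU V w) (h : g w = w) : A.Acts g w 0 := fun a y ho hy => by
  rw [zpow_zero, one_mul]
  exact A.ine1_val hc Nat.one_le_two_pow (by rwa [hy]) (by rwa [hy]) (hg y ho)

theorem Amb.acts_of_ratio {V : ValuationSubring L} (hc : ∀ c : ℂ, algebraMap ℂ L c ∈ V) {g : A.G}
    (hg : A.IVO V g) {u w : L} (hu : A.Un u) (huK : u ∈ A.K) (hwK : w ∈ A.K) (hw : VU V (w / u))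
    {i : ℤ} (h : A.Acts g u i) : A.Acts g w i := by
  have h1 := h.mul_right A (A.acts_unit hc hg hw (A.fixK g (A.K.div_mem hwK huK))) hu (A.om_K huK)
  rwa [add_zero, mul_div_cancel₀ _ hu.1] at h1

/-- level version: a root of a unit of `V` fixed by `g` is fixed -/
theorem Amb.iv_root {V : ValuationSubring L} (hc : ∀ c : ℂ, algebraMap ℂ L c ∈ V)
    {F : IntermediateField A.K L} {g : A.G} (hg : A.IV V F g) {y : L} (hy : y ∈ F) {n : ℕ}
    (hn : 1 ≤ n) (hw : VU V (y ^ n)) (h : g (y ^ n) = y ^ n) : g y = y :=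
  A.ine1_val hc hn hw h (hg y hy)

theorem Amb.IVO.conj {V : ValuationSubring L} {e : A.G} (h : A.IVO V e) (g : A.G) :
    A.IVO (g • V) (g * e * g⁻¹) := fun a ho ha => by
  have h1 := h _ (ho.map A g⁻¹) (ValuationSubring.mem_pointwise_smul_iff_inv_smul_mem.1 ha)
  have h2 : g⁻¹ ((g * e * g⁻¹) a - a) = e (g⁻¹ a) - g⁻¹ a := by
    rw [map_sub, ← AlgEquiv.mul_apply, ← mul_assoc, ← mul_assoc, inv_mul_cancel, one_mul,
      AlgEquiv.mul_apply]
  rw [← h2, ValuationSubring.mem_nonunits_iff_or, map_eq_zero, ← map_inv₀] at h1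
  rw [ValuationSubring.mem_nonunits_iff_or, ValuationSubring.mem_pointwise_smul_iff_inv_smul_mem]
  exact h1

end Vale.Agent.P300
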