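import Vale.Agent.P300.Rg3

/-! Valuation rings over a divisor. `exists_over`: a valuation subring dominating the localisation of
`ℂ[u, v]` at `(u)` (`LocalSubring.exists_le_valuationSubring`, or `Ideal.image_subset_nonunits_valuationSubring`).
`exists_on`: `Q = V.nonunits ∩ Bx (cl u v) ⊤`; note `(cl u v).O ⊆ V` and `Q ∩ (cl u v).O = (u)` lies
in the maximal ideal; `hom_ext_int`, `np_mk`. `exists_over_on`: `tr_lp0`. -/

open scoped LinearAlgebra.Projectivization Topology Classical Pointwise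
open Polynomial

set_option linter.unusedSectionVars false

namespace Vale.Agent.P300

variable {L : Type} [Field L] [Algebra ℂ L] [IsAlgClosed L] (A : Amb L)

theorem vu_iff {V : ValuationSubring L} {a : L} : VU V a ↔ V.valuation a = 1 := by
  rw [VU, ← V.valuation_le_one_iff, V.mem_nonunits_iff, not_lt]
  exact le_antisymm_iff.symm

theorem val_nu_mul {V : ValuationSubring L} {a b : L} (ha : a ∈ V) (hb : b ∈ V.nonunits) :
    a * b ∈ V.nonunits := by
  rw [V.mem_nonunits_iff, map_mul]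
  exact mul_lt_one_of_nonneg_of_lt_one_right ((V.valuation_le_one_iff a).2 ha) zero_le hb

theorem val_vu_of_inv {V : ValuationSubring L} {a : L} (h0 : a ≠ 0) (ha : a ∈ V) (hi : a⁻¹ ∈ V) :
    VU V a := ⟨ha, fun h => (V.mem_nonunits_iff_or.1 h).elim h0 fun h' => h' hi⟩

/-- a valuation ring containing the constants, as a subalgebra -/
def valAlg (V : ValuationSubring L) (hc : ∀ c : ℂ, algebraMap ℂ L c ∈ V) : Subalgebra ℂ L :=
  { V.toSubring with algebraMap_mem' := hc }

theorem val_aeval {V : ValuationSubring L} (hc : ∀ c : ℂ, algebraMap ℂ L c ∈ V) {v : L}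
    (hv : v ∈ V) (P : ℂ[X]) : aeval v P ∈ V :=
  (Algebra.adjoin_le (S := valAlg V hc) (Set.singleton_subset_iff.2 hv))
    (aeval_mem_adjoin_singleton ℂ v)

theorem val_int {V : ValuationSubring L} {R : Subalgebra ℂ L} (h : ∀ a ∈ R, a ∈ V) {b : L}
    (hb : IsIntegral R b) : b ∈ V := by
  obtain ⟨p, hp, e⟩ := hb
  let φ : R →+* V := R.val.toRingHom.codRestrict V fun a => h a a.2
  have h1 : IsIntegral V b := ⟨p.map φ, hp.map _, by rw [eval₂_map]; exact e⟩
  obtain ⟨y, rfl⟩ := IsIntegrallyClosed.algebraMap_eq_of_integral h1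
  exact y.2

theorem exists_over {u v : L} (hi : AlgebraicIndependent ℂ ![u, v]) : ∃ V, Over V u v := by
  have h1 : Transcendental (IntermediateField.adjoin ℂ {v}) u := by
    have := hi.transcendental_adjoin (s := {1}) (i := 0) (by simp)
    rw [Set.image_singleton] at this
    exact IntermediateField.transcendental_adjoin_iff.2 this
  have h2 : Transcendental ℂ v := hi.transcendental 1
  set K := IntermediateField.adjoin ℂ {v} with hK
  set R : Subalgebra K L := Algebra.adjoin K {u} with hR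
  have hu : u ∈ R.toSubring := Algebra.self_mem_adjoin_singleton K u
  have hI : Ideal.span {(⟨u, hu⟩ : R.toSubring)} ≠ ⊤ := by
    rw [Ne, Ideal.span_singleton_eq_top, isUnit_iff_exists_inv]
    rintro ⟨⟨b, hb⟩, e⟩
    have e' : u * b = 1 := congrArg Subtype.val e
    have hb' : b ∈ Algebra.adjoin K {u} := hb
    rw [Algebra.adjoin_singleton_eq_range_aeval] at hb'
    obtain ⟨P, rfl⟩ := hb'
    refine h1 ⟨X * P - 1, fun h => ?_, ?_⟩
    · have := congrArg (eval 0) h
      simp at this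
    · rw [map_sub, map_mul, aeval_X, map_one, sub_eq_zero]
      exact e'
  obtain ⟨V, hV, hV'⟩ := Ideal.image_subset_nonunits_valuationSubring _ hI
  have hKV : ∀ a ∈ K, a ∈ V := fun a ha => hV (R.algebraMap_mem ⟨a, ha⟩)
  have hv : v ∈ K := IntermediateField.mem_adjoin_simple_self ℂ v
  refine ⟨V, fun c => hKV _ (K.algebraMap_mem c), hV' ⟨_, Ideal.subset_span rfl, rfl⟩, hKV v hv,
    fun P hP => ?_⟩
  have h3 : aeval v P ∈ K :=
    IntermediateField.algebra_adjoin_le_adjoin ℂ _ (aeval_mem_adjoin_singleton ℂ v)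
  exact (val_vu_of_inv (fun h => h2 ⟨P, hP, h⟩) (hKV _ h3) (hKV _ (inv_mem h3))).2

theorem VU.mul {V : ValuationSubring L} {a b : L} (ha : VU V a) (hb : VU V b) : VU V (a * b) := by
  rw [vu_iff] at ha hb ⊢
  rw [map_mul, ha, hb, mul_one]

theorem VU.inv {V : ValuationSubring L} {a : L} (ha : VU V a) : VU V a⁻¹ := by
  rw [vu_iff] at ha ⊢
  rw [map_inv₀, ha, inv_one]

theorem VU.add {V : ValuationSubring L} {a b : L} (ha : VU V a) (hb : b ∈ V.nonunits) :
    VU V (a + b) := by
  refine ⟨add_mem ha.1 (V.nonunits_subset hb), fun h => ha.2 ?_⟩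
  have := sub_mem h hb
  rwa [add_sub_cancel_right] at this

theorem VU.const {V : ValuationSubring L} (hc : ∀ c : ℂ, algebraMap ℂ L c ∈ V) {c : ℂ} (h : c ≠ 0) :
    VU V (algebraMap ℂ L c) :=
  val_vu_of_inv ((_root_.map_ne_zero _).2 h) (hc c) (by rw [← map_inv₀]; exact hc _)

theorem val_div {V : ValuationSubring L} {a b c : L} (hb : b ∈ V) (hc : VU V c) (e : a * c = b) :
    a ∈ V := by
  have h0 : c ≠ 0 := by
    rintro rfl
    exact hc.2 (zero_mem _)
  rw [← eq_div_iff h0] at e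
  rw [e, div_eq_mul_inv]
  exact mul_mem hb hc.inv.1

theorem val_mv {V : ValuationSubring L} {u v : L} (h : Over V u v) (Q : MvPolynomial (Fin 2) ℂ) :
    MvPolynomial.aeval ![u, v] Q - aeval v (MvPolynomial.aeval ![(0 : ℂ[X]), X] Q) ∈ V.nonunits := by
  induction Q using MvPolynomial.induction_on with
  | C a => simp
  | add p q hp hq =>
    rw [map_add, map_add, map_add, add_sub_add_comm]
    exact add_mem hp hq
  | mul_X p i hp =>
    have h1 := val_aeval h.alg h.hv (MvPolynomial.aeval ![(0 : ℂ[X]), X] p)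
    rw [map_mul, map_mul, map_mul, MvPolynomial.aeval_X, MvPolynomial.aeval_X]
    generalize MvPolynomial.aeval ![u, v] p = a at hp
    generalize aeval v (MvPolynomial.aeval ![(0 : ℂ[X]), X] p) = b at hp h1
    have ha : a ∈ V := by
      have := add_mem (V.nonunits_subset hp) h1
      rwa [sub_add_cancel] at this
    fin_cases i
    · simpa using val_nu_mul ha h.hu
    · have := val_nu_mul h.hv hp
      rw [mul_comm, sub_mul] at this
      simpa using this

theorem val_ev0 (Q : MvPolynomial (Fin 2) ℂ) :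
    eval 0 (MvPolynomial.aeval ![(0 : ℂ[X]), X] Q) = MvPolynomial.eval 0 Q := by
  induction Q using MvPolynomial.induction_on with
  | C a => simp
  | add p q hp hq => rw [map_add, map_add, eval_add, hp, hq]
  | mul_X p i hp =>
    rw [map_mul, map_mul, eval_mul, hp]
    fin_cases i <;> simp

theorem Over.cl_sub {V : ValuationSubring L} {u v : L} (h : Over V u v)
    (hi : AlgebraicIndependent ℂ ![u, v]) : ∀ a ∈ (cl u v).O, a ∈ V := by
  intro a ha
  obtain ⟨P, Q, hQ, e⟩ := (mem_pv (valid_of_ind hi 0)).1 ha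
  refine val_div ?_ ?_ e
  · have := add_mem (V.nonunits_subset (val_mv h P)) (val_aeval h.alg h.hv
      (MvPolynomial.aeval ![(0 : ℂ[X]), X] P))
    rwa [sub_add_cancel] at this
  · have h1 : VU V (aeval v (MvPolynomial.aeval ![(0 : ℂ[X]), X] Q)) :=
      ⟨val_aeval h.alg h.hv _, h.tr _ fun h0 => hQ (by rw [← val_ev0, h0, eval_zero])⟩
    have := h1.add (val_mv h Q)
    rwa [add_sub_cancel] at this

theorem val_ev {V : ValuationSubring L} {P : LP L} (h : ∀ a ∈ P.O, a ∈ V) {a : L} (ha : a ∈ P.O)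
    (hn : a ∈ V.nonunits) : P.ev a = 0 := by
  by_contra h0
  exact (val_vu_of_inv (P.hom.ne h0) (h a ha) (h _ (P.inv_mem a ha h0))).2 hn

theorem exists_on {V : ValuationSubring L} {u v : L} (h : Over V u v)
    (hi : AlgebraicIndependent ℂ ![u, v]) : ∃ P, Ab (cl u v) P ∧ On P V := by
  have hO := h.cl_sub hi
  have hB : ∀ b ∈ Bx (cl u v) ⊤, b ∈ V := fun b hb => val_int hO hb.1
  let φ : Bx (cl u v) ⊤ →+* V := (Bx (cl u v) ⊤).val.toRingHom.codRestrict V fun a => hB a a.2
  have hQ : ∀ a : Bx (cl u v) ⊤,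
      a ∈ (IsLocalRing.maximalIdeal V).comap φ ↔ (a : L) ∈ V.nonunits := fun a =>
    (ValuationSubring.coe_mem_nonunits_iff (a := φ a)).symm
  obtain ⟨ψ, h1, h2, h3⟩ := hom_ext_int (B := Bx (cl u v) ⊤) (cl u v).hom
    (fun a ha => ⟨isIntegral_algebraMap (x := (⟨a, ha⟩ : (cl u v).O)), trivial⟩)
    (fun b hb => hb.1) ((IsLocalRing.maximalIdeal V).comap φ)
    fun a ha ha' => val_ev hO ha' ((hQ a).1 ha)
  refine ⟨_, np_mk (M := ⊤) (fun _ _ => trivial) h1 h2, fun a ha => ?_⟩
  obtain ⟨b, hb, c, hc, h0, e⟩ := (mem_mkLP h1).1 ha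
  exact val_div (hB b hb) ⟨hB c hc, fun hn => h0 (h3 ⟨c, hc⟩ ((hQ _).2 hn))⟩ e

theorem Amb.mem_smul {g : A.G} {V : ValuationSubring L} {a : L} : a ∈ g • V ↔ g⁻¹ a ∈ V :=
  ValuationSubring.mem_pointwise_smul_iff_inv_smul_mem

theorem Amb.mem_smul_nonunits {g : A.G} {V : ValuationSubring L} {a : L} :
    a ∈ (g • V).nonunits ↔ g⁻¹ a ∈ V.nonunits := by
  rw [ValuationSubring.mem_nonunits_iff_or, ValuationSubring.mem_nonunits_iff_or, A.mem_smul,
    map_inv₀, map_eq_zero]

theorem Amb.over_smul {V : ValuationSubring L} {u v : L} (h : Over V u v) (hu : u ∈ A.K)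
    (hv : v ∈ A.K) (g : A.G) : Over (g • V) u v := by
  refine ⟨fun c => ?_, ?_, ?_, fun P hP => ?_⟩
  · rw [A.mem_smul, A.fixC]
    exact h.alg c
  · rw [A.mem_smul_nonunits, A.fixK _ hu]
    exact h.hu
  · rw [A.mem_smul, A.fixK _ hv]
    exact h.hv
  · have h1 : aeval v P ∈ A.K :=
      (Algebra.adjoin_le (S := A.K.toSubalgebra) (Set.singleton_subset_iff.2 hv))
        (aeval_mem_adjoin_singleton ℂ v)
    rw [A.mem_smul_nonunits, A.fixK _ h1]
    exact h.tr P hP

theorem Amb.on_smul {V : ValuationSubring L} {P : LP L} (h : On P V) (g : A.G) :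
    On (A.act g P) (g • V) := fun _ ha => A.mem_smul.2 (h _ (A.mem_act.1 ha))

theorem Amb.exists_over_on {u v : L} (hi : AlgebraicIndependent ℂ ![u, v])
    (hg : IntermediateField.adjoin ℂ {u, v} = A.K) {P : LP L} (hP : Ab (cl u v) P) :
    ∃ V, Over V u v ∧ On P V := by
  obtain ⟨V, hV⟩ := exists_over hi
  obtain ⟨P₀, h1, h2⟩ := exists_on hV hi
  have hr := cl_rg hi
  rw [hg] at hr
  obtain ⟨g, rfl⟩ := A.tr_lp0 hr.sub hr.normal h1 hP
  exact ⟨g • V, A.over_smul hV (hr.sub u hr.gen.1.1) (hr.sub v hr.gen.2.1.1) g, A.on_smul h2 g⟩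

theorem Over.not_mem {V : ValuationSubring L} {u v : L} (h : Over V u v) {v' : L} {n : ℕ}
    (hn : 1 ≤ n) (e : v' ^ n = v) : v' ∉ V.nonunits := by
  intro h'
  refine h.tr X X_ne_zero ?_
  rw [aeval_X, ← e, V.mem_nonunits_iff, map_pow]
  exact pow_lt_one₀ zero_le h' (by omega)

theorem Over.mem {V : ValuationSubring L} {u v : L} (h : Over V u v) {u' : L} {n : ℕ}
    (e : u' ^ n = u) (hn : 1 ≤ n) : u' ∈ V.nonunits := by
  have h1 := h.hu
  rw [← e, V.mem_nonunits_iff, map_pow] at h1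
  exact (pow_lt_one_iff_of_nonneg zero_le (by omega)).1 h1

theorem val_tr {V : ValuationSubring L} (hc : ∀ c : ℂ, algebraMap ℂ L c ∈ V) {t : L}
    (h : ∀ c : ℂ, VU V (t - algebraMap ℂ L c)) {P : ℂ[X]} (hP : P ≠ 0) : VU V (aeval t P) := by
  rw [(IsAlgClosed.splits P).eq_prod_roots, map_mul, aeval_C]
  refine (VU.const hc (leadingCoeff_ne_zero.2 hP)).mul ?_
  induction P.roots using Multiset.induction_on with
  | empty => simpa using VU.const hc one_ne_zero
  | cons a s ih =>
    rw [Multiset.map_cons, Multiset.prod_cons, map_mul, map_sub, aeval_X, aeval_C]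
    exact (h a).mul ih

theorem val_lin {V : ValuationSubring L} {u v : L} (h : Over V u v) {c d : ℂ}
    (hcd : ¬ (c = 0 ∧ d = 0)) : VU V (algebraMap ℂ L c * v + algebraMap ℂ L d) := by
  have h1 : C c * X + C d ≠ 0 := fun e => hcd ⟨by simpa using congrArg (coeff · 1) e,
    by simpa using congrArg (coeff · 0) e⟩
  have h2 : VU V (aeval v (C c * X + C d)) := ⟨val_aeval h.alg h.hv _, h.tr _ h1⟩
  simpa using h2

/-- change of parameters: a Moebius change of the residue coordinate -/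
theorem Over.change {V : ValuationSubring L} {u v u' v' : L} (h : Over V u v)
    (hu : u' ∈ V.nonunits) {a b c d : ℂ} (hd : a * d - b * c ≠ 0)
    (hv : (algebraMap ℂ L c * v + algebraMap ℂ L d) * v' - (algebraMap ℂ L a * v + algebraMap ℂ L b)
      ∈ V.nonunits) : Over V u' v' := by
  have hw : VU V (algebraMap ℂ L c * v + algebraMap ℂ L d) :=
    val_lin h fun e => hd (by rw [e.1, e.2]; ring)
  have key : ∀ m : ℂ, VU V (v' - algebraMap ℂ L m) := by
    intro m
    have h1 : VU V (algebraMap ℂ L (a - m * c) * v + algebraMap ℂ L (b - m * d)) :=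
      val_lin h fun e => hd (by rw [sub_eq_zero.1 e.1, sub_eq_zero.1 e.2]; ring)
    have h2 := h1.add hv
    have e : algebraMap ℂ L (a - m * c) * v + algebraMap ℂ L (b - m * d) +
        ((algebraMap ℂ L c * v + algebraMap ℂ L d) * v' -
          (algebraMap ℂ L a * v + algebraMap ℂ L b)) =
        (algebraMap ℂ L c * v + algebraMap ℂ L d) * (v' - algebraMap ℂ L m) := by
      simp only [map_sub, map_mul]
      ring
    rw [e, vu_iff, map_mul, vu_iff.1 hw, one_mul] at h2
    exact vu_iff.2 h2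
  refine ⟨h.alg, hu, ?_, fun P hP => (val_tr h.alg key hP).2⟩
  simpa using (key 0).1

/-- the value at a point on `V` kills the nonunits -/
theorem On.ev {V : ValuationSubring L} {P : LP L} (h : On P V) {a : L} (ha : a ∈ P.O)
    (hn : a ∈ V.nonunits) : P.ev a = 0 := val_ev h ha hn

end Vale.Agent.P300
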