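import Vale.Agent.P300.Ine1
import Vale.Agent.P300.Val

/-! Inertia at good levels. Fix roots `u', v'` (they exist, `IsAlgClosed.exists_pow_nat_eq`, and lie in
`F` by `rat_root`; an unflagged parameter is its own root and is fixed by `G`). `IP.res` and
`Rg.rigid` give `ip_triv`. Any `g` multiplies `u'` by a power of `zt a`. `Rg.val` describes `V ∩ F`;
`rigid_mod` gives the inertia statements; for `fr_ivo` put the given element in a good level. -/

open scoped LinearAlgebra.Projectivization Topology Classical Pointwise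
open Polynomial

set_option linter.unusedSectionVars false

namespace Vale.Agent.P300

variable {L : Type} [Field L] [Algebra ℂ L] [IsAlgClosed L] (A : Amb L)

theorem ine2_exp (fu : Bool) (a : ℕ) : (if fu then 2 ^ a else 1) = 2 ^ (if fu then a else 0) := by
  cases fu <;> simp

theorem ine2_root (u : L) (fu : Bool) (a : ℕ) : ∃ u' : L, u' ^ (if fu then 2 ^ a else 1) = u :=
  IsAlgClosed.exists_pow_nat_eq u (by rw [ine2_exp]; positivity)

theorem ine2_pos (fu : Bool) (a : ℕ) : 1 ≤ (if fu then 2 ^ a else 1) := by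
  rw [ine2_exp]
  exact Nat.one_le_two_pow

theorem Amb.ine2_K {u v : L} {fu fv : Bool} (hc : A.Ch u v fu fv) : u ∈ A.K ∧ v ∈ A.K := by
  rw [← hc.gen]
  exact ⟨IntermediateField.subset_adjoin _ _ (by simp), IntermediateField.subset_adjoin _ _ (by simp)⟩

theorem Amb.ine2_KF (F : IntermediateField A.K L) {a : L} (ha : a ∈ A.K) : a ∈ A.rs F :=
  F.algebraMap_mem ⟨a, ha⟩

theorem Amb.ine2_zt (g : A.G) (a : ℕ) (i : ℤ) : g (zt L a ^ i) = zt L a ^ i := by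
  rw [map_zpow₀, zt, A.fixC]

theorem ine2_zt_ne (a : ℕ) (i : ℤ) : zt L a ^ i ≠ 0 :=
  zpow_ne_zero _ ((zt_prim a).ne_zero (by positivity))

theorem ine2_zt_alg (a : ℕ) (i : ℤ) : ∃ c : ℂ, zt L a ^ i = algebraMap ℂ L c :=
  ⟨_, by rw [zt, ← map_zpow₀]⟩

/-- any automorphism multiplies a root by a power of `zt` -/
theorem Amb.ine2_any (g : A.G) {u u' : L} (hu : u ∈ A.K) {b : ℕ} (h : u' ^ 2 ^ b = u)
    (h0 : u' ≠ 0) : ∃ i : ℕ, g u' = zt L b ^ (i : ℤ) * u' := by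
  have e : (g u' / u') ^ 2 ^ b = 1 := by
    rw [div_pow, ← map_pow, h, A.fixK g hu, div_self]
    rw [← h]
    exact pow_ne_zero _ h0
  have : NeZero (2 ^ b) := ⟨by positivity⟩
  obtain ⟨i, -, hi⟩ := (zt_prim (L := L) b).eq_pow_of_pow_eq_one e
  exact ⟨i, by rw [zpow_natCast, hi, div_mul_cancel₀ _ h0]⟩

theorem Amb.ine2_cancel {g h : A.G} {y : L} (e : g y = h y) {b : ℕ} {i : ℤ}
    (hh : h y = zt L b ^ i * y) : (g * h⁻¹) y = y := by
  have h1 : zt L b ^ i * h⁻¹ y = y := by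
    rw [← A.ine2_zt h⁻¹ b i, ← map_mul, ← hh, ← AlgEquiv.mul_apply, inv_mul_cancel,
      AlgEquiv.one_apply]
  have h2 : zt L b ^ i * (g * h⁻¹) y = zt L b ^ i * y := by
    rw [AlgEquiv.mul_apply, ← hh, ← e]
    conv_rhs => rw [← h1, map_mul, A.ine2_zt]
  exact mul_left_cancel₀ (ine2_zt_ne b i) h2

theorem Amb.ine2_acts {F : IntermediateField A.K L} (hF : A.Tw F) {e : A.G} {u u' : L} {i : ℤ}
    (h : A.Acts e u i) {fu : Bool} {a : ℕ} (hu : u' ^ (if fu then 2 ^ a else 1) = u)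
    (hm : u' ∈ A.rs F) : e u' = zt L (if fu then a else 0) ^ i * u' :=
  h _ u' ⟨F, hF, hm⟩ (by rw [← ine2_exp]; exact hu)

theorem ine2_mem {x : LP L} {u v : L} {F : IntermediateField ℂ L} (h : x.Rg u v F) :
    u ∈ F ∧ v ∈ F := ⟨h.sub _ h.gen.1.1, h.sub _ h.gen.2.1.1⟩

theorem Amb.ine2_pow {x P : LP L} (hx : ∀ a ∈ x.O, a ∈ A.K) (F : IntermediateField A.K L)
    {g : A.G} (hg : A.IP x ⊤ P g) (n : ℕ) : A.IP x (A.rs F) P (g ^ n) := by
  have := Amb.IP.top_zpow A hx hg n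
  rw [zpow_natCast] at this
  exact Amb.IP.mono A le_top this

theorem ine2_nu {V : ValuationSubring L} {a b : L} (ha : a ∈ V) (hb : b ∈ V.nonunits) :
    a * b ∈ V.nonunits := by
  rw [ValuationSubring.mem_nonunits_iff] at hb ⊢
  rw [map_mul]
  exact lt_of_le_of_lt (mul_le_of_le_one_left' ((V.valuation_le_one_iff a).2 ha)) hb

theorem Amb.ine2_sub {x P : LP L} (hx : ∀ a ∈ x.O, a ∈ A.K) (hP : Ab x P)
    (F : IntermediateField A.K L) {V : ValuationSubring L} (ho : On P V) :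
    ∀ b ∈ (res x (A.rs F) P).O, b ∈ V := fun b hb =>
  ho b ((res_np hP le_top fun c hc => A.ine2_KF F (hx c hc)).2 b hb).1

theorem Amb.ip_triv {F : IntermediateField A.K L} {a : ℕ} (hF : A.Good F a) {u v : L} {fu fv : Bool}
    (hc : A.Ch u v fu fv) {P : LP L} (hP : Ab (cl u v) P) {g : A.G} (hg : A.IP (cl u v) (A.rs F) P g)
    {u' v' : L} (hu : u' ^ (if fu then 2 ^ a else 1) = u) (hv : v' ^ (if fv then 2 ^ a else 1) = v)
    (gu : g u' = u') (gv : g v' = v') : g ∈ F.fixingSubgroup := by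
  have hr := hF.rg u v fu fv hc P hP u' v' hu hv
  rw [IntermediateField.mem_fixingSubgroup_iff]
  intro b hb
  exact hr.rigid (g.restrictScalars ℂ : L →ₐ[ℂ] L)
    (fun c hc' => (Amb.IP.res A (hc.sub A) hP hF.normal hg c hc').1) gu gv b hb

theorem Amb.ip_int {F : IntermediateField A.K L} {a : ℕ} (hF : A.Good F a) {u v : L}
    (hc : A.Ch u v false false) {P : LP L} (hP : Ab (cl u v) P) {g : A.G}
    (hg : A.IP (cl u v) (A.rs F) P g) : g ∈ F.fixingSubgroup :=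
  A.ip_triv hF hc hP hg (u' := u) (v' := v) (by simp) (by simp) (A.fixK g (A.ine2_K hc).1)
    (A.fixK g (A.ine2_K hc).2)

theorem Amb.Fr.unfl {F : IntermediateField A.K L} {a : ℕ} (hF : A.Good F a) {u v : L} {fv : Bool}
    (hc : A.Ch u v false fv) {P : LP L} {e₁ e₂ : A.G} (h : A.Fr u v P e₁ e₂) :
    e₁ ∈ F.fixingSubgroup := by
  obtain ⟨v', hv⟩ := ine2_root v fv a
  have hu : u ^ (if false then 2 ^ a else 1) = u := by simp
  have hr := hF.rg u v false fv hc P h.ab u v' hu hv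
  refine A.ip_triv hF hc h.ab (Amb.IP.mono A le_top h.i1) hu hv (A.fixK e₁ (A.ine2_K hc).1) ?_
  rw [A.ine2_acts hF.tw h.a12 hv (ine2_mem hr).2, zpow_zero, one_mul]

theorem Amb.ip_gen {F : IntermediateField A.K L} {a : ℕ} (hF : A.Good F a) {u v : L} {fu fv : Bool}
    (hc : A.Ch u v fu fv) {P : LP L} {e₁ e₂ : A.G} (h : A.Fr u v P e₁ e₂) {g : A.G}
    (hg : A.IP (cl u v) (A.rs F) P g) : ∃ i j : ℕ, g * (e₁ ^ i * e₂ ^ j)⁻¹ ∈ F.fixingSubgroup := by
  obtain ⟨u', hu⟩ := ine2_root u fu a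
  obtain ⟨v', hv⟩ := ine2_root v fv a
  have hr := hF.rg u v fu fv hc P h.ab u' v' hu hv
  obtain ⟨i, hi⟩ := A.ine2_any g (A.ine2_K hc).1 ((ine2_exp fu a) ▸ hu) hr.ne
  obtain ⟨j, hj⟩ := A.ine2_any g (A.ine2_K hc).2 ((ine2_exp fv a) ▸ hv) hr.swap.ne
  have e1 := A.ine2_acts hF.tw (Amb.Acts.mul A (Amb.Acts.pow A h.a11 i) (Amb.Acts.pow A h.a21 j))
    hu (ine2_mem hr).1
  have e2 := A.ine2_acts hF.tw (Amb.Acts.mul A (Amb.Acts.pow A h.a12 i) (Amb.Acts.pow A h.a22 j))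
    hv (ine2_mem hr).2
  refine ⟨i, j, A.ip_triv hF hc h.ab (Amb.IP.mul A (hc.sub A) hF.normal hg
    (Amb.IP.inv A (hc.sub A) hF.normal (Amb.IP.mul A (hc.sub A) hF.normal
      (A.ine2_pow (hc.sub A) F h.i1 i) (A.ine2_pow (hc.sub A) F h.i2 j)))) hu hv
    (A.ine2_cancel ?_ e1) (A.ine2_cancel ?_ e2)⟩
  · rw [hi, e1]
    simp
  · rw [hj, e2]
    simp

theorem Amb.ip_comm {F : IntermediateField A.K L} {a : ℕ} (hF : A.Good F a) {u v : L} {fu fv : Bool}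
    (hc : A.Ch u v fu fv) {P : LP L} (hP : Ab (cl u v) P) {g h : A.G}
    (hg : A.IP (cl u v) (A.rs F) P g) (hh : A.IP (cl u v) (A.rs F) P h) :
    g * h * g⁻¹ * h⁻¹ ∈ F.fixingSubgroup := by
  obtain ⟨u', hu⟩ := ine2_root u fu a
  obtain ⟨v', hv⟩ := ine2_root v fv a
  have hr := hF.rg u v fu fv hc P hP u' v' hu hv
  have key : ∀ {w w' : L} {b : ℕ}, w ∈ A.K → w' ^ 2 ^ b = w → w' ≠ 0 →
      (g * h * g⁻¹ * h⁻¹) w' = w' := by
    intro w w' b hw e h0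
    obtain ⟨i, hi⟩ := A.ine2_any g hw e h0
    obtain ⟨j, hj⟩ := A.ine2_any h hw e h0
    have e1 : g * h * g⁻¹ * h⁻¹ = g * h * (h * g)⁻¹ := by group
    have e2 : (h * g) w' = zt L b ^ ((i : ℤ) + j) * w' := by
      rw [AlgEquiv.mul_apply, hi, map_mul, A.ine2_zt, hj,
        zpow_add₀ ((zt_prim b).ne_zero (by positivity)), mul_assoc]
    rw [e1]
    refine A.ine2_cancel ?_ e2
    rw [e2, AlgEquiv.mul_apply, hj, map_mul, A.ine2_zt, hi,
      zpow_add₀ ((zt_prim b).ne_zero (by positivity))]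
    ring
  exact A.ip_triv hF hc hP (Amb.IP.mul A (hc.sub A) hF.normal (Amb.IP.mul A (hc.sub A) hF.normal
    (Amb.IP.mul A (hc.sub A) hF.normal hg hh) (Amb.IP.inv A (hc.sub A) hF.normal hg))
    (Amb.IP.inv A (hc.sub A) hF.normal hh)) hu hv
    (key (A.ine2_K hc).1 ((ine2_exp fu a) ▸ hu) hr.ne)
    (key (A.ine2_K hc).2 ((ine2_exp fv a) ▸ hv) hr.swap.ne)

theorem Amb.fr_unique {F : IntermediateField A.K L} {a : ℕ} (hF : A.Good F a) {u v : L}
    {fu fv : Bool} (hc : A.Ch u v fu fv) {P : LP L} {e₁ e₂ e₁' e₂' : A.G} (h : A.Fr u v P e₁ e₂)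
    (h' : A.Fr u v P e₁' e₂') :
    e₁ * e₁'⁻¹ ∈ F.fixingSubgroup ∧ e₂ * e₂'⁻¹ ∈ F.fixingSubgroup := by
  obtain ⟨u', hu⟩ := ine2_root u fu a
  obtain ⟨v', hv⟩ := ine2_root v fv a
  have hr := hF.rg u v fu fv hc P h.ab u' v' hu hv
  have key : ∀ {e e' : A.G} {i j : ℤ}, A.IP (cl u v) ⊤ P e → A.IP (cl u v) ⊤ P e' →
      A.Acts e u i → A.Acts e' u i → A.Acts e v j → A.Acts e' v j →
      e * e'⁻¹ ∈ F.fixingSubgroup := by
    intro e e' i j p p' q q' r r'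
    have a1 := A.ine2_acts hF.tw q hu (ine2_mem hr).1
    have a2 := A.ine2_acts hF.tw q' hu (ine2_mem hr).1
    have a3 := A.ine2_acts hF.tw r hv (ine2_mem hr).2
    have a4 := A.ine2_acts hF.tw r' hv (ine2_mem hr).2
    exact A.ip_triv hF hc h.ab (Amb.IP.mul A (hc.sub A) hF.normal (Amb.IP.mono A le_top p)
      (Amb.IP.inv A (hc.sub A) hF.normal (Amb.IP.mono A le_top p'))) hu hv
      (A.ine2_cancel (a1.trans a2.symm) a2) (A.ine2_cancel (a3.trans a4.symm) a4)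
  exact ⟨key h.i1 h'.i1 h.a11 h'.a11 h.a12 h'.a12, key h.i2 h'.i2 h.a21 h'.a21 h.a22 h'.a22⟩

theorem Amb.fr_ivo {u v : L} {fu fv : Bool} (hc : A.Ch u v fu fv) {P : LP L} {e₁ e₂ : A.G}
    (h : A.Fr u v P e₁ e₂) {V : ValuationSubring L} (hV : Over V u v) (ho : On P V) :
    A.IVO V e₁ := by
  rintro t ⟨F₀, hF₀, ht⟩ htV
  obtain ⟨F, a, hF, hle, -⟩ := A.good_exists hF₀ 0
  obtain ⟨u', hu⟩ := ine2_root u fu a
  obtain ⟨v', hv⟩ := ine2_root v fv a
  have hr := hF.rg u v fu fv hc P h.ab u' v' hu hv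
  have hS := A.ine2_sub (hc.sub A) h.ab F ho
  obtain ⟨k1, k2, -⟩ := hr.val hS (hV.mem hu (ine2_pos fu a)) (hV.not_mem (ine2_pos fv a) hv)
  obtain ⟨b, hb, c, hc', hcu, e⟩ := (k2 t (hle ht)).1 htV
  have hres := Amb.IP.res A (hc.sub A) h.ab hF.normal (Amb.IP.mono A le_top h.i1)
  have a1 := A.ine2_acts hF.tw h.a11 hu (ine2_mem hr).1
  have a2 := A.ine2_acts hF.tw h.a12 hv (ine2_mem hr).2
  rw [zpow_zero, one_mul] at a2
  obtain ⟨z, hz⟩ := ine2_zt_alg (L := L) (if fu then a else 0) 1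
  have hm := hr.rigid_mod (e₁.restrictScalars ℂ : L →ₐ[ℂ] L) (fun c hc' => (hres c hc').1)
    ⟨algebraMap ℂ L z, Subalgebra.algebraMap_mem _ z, by
      rw [← hz, mul_comm]
      exact a1⟩ a2
  have nb : e₁ b - b ∈ V.nonunits :=
    (k1 _ (Subalgebra.sub_mem _ (hres b hb).1 hb)).2 (hm b hb)
  have nc : e₁ c - c ∈ V.nonunits :=
    (k1 _ (Subalgebra.sub_mem _ (hres c hc').1 hc')).2 (hm c hc')
  have uc : VU V c := ⟨hS c hc', fun hn => hcu ((k1 c hc').1 hn)⟩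
  have uc' : VU V (e₁ c) := by
    have := uc.add nc
    rwa [add_sub_cancel] at this
  have c0 : e₁ c ≠ 0 := fun e0 => uc'.2 (e0 ▸ V.nonunits.zero_mem)
  have e' : e₁ t * e₁ c = e₁ b := by rw [← map_mul, e]
  have e2 : e₁ t - t = (e₁ c)⁻¹ * ((e₁ b - b) - t * (e₁ c - c)) := by
    rw [← e', ← e]
    field_simp
    ring
  rw [e2]
  exact ine2_nu uc'.inv.1 (V.nonunits.sub_mem nb (ine2_nu htV nc))

theorem Amb.ip_dv {F : IntermediateField A.K L} {a : ℕ} (hF : A.Good F a) {u v : L} {fu fv : Bool}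
    (hc : A.Ch u v fu fv) {P : LP L} (hP : Ab (cl u v) P) {V : ValuationSubring L} (hV : Over V u v)
    (ho : On P V) {g : A.G} (hg : A.IP (cl u v) (A.rs F) P g) : A.DV V F g := by
  obtain ⟨u', hu⟩ := ine2_root u fu a
  obtain ⟨v', hv⟩ := ine2_root v fv a
  have hr := hF.rg u v fu fv hc P hP u' v' hu hv
  have hS := A.ine2_sub (hc.sub A) hP F ho
  obtain ⟨-, k2, -⟩ := hr.val hS (hV.mem hu (ine2_pos fu a)) (hV.not_mem (ine2_pos fv a) hv)
  have key : ∀ {g : A.G}, A.IP (cl u v) (A.rs F) P g → ∀ t ∈ F, t ∈ V → g t ∈ V := by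
    intro g hg t ht htV
    obtain ⟨b, hb, c, hc', hcu, e⟩ := (k2 t ht).1 htV
    have hres := Amb.IP.res A (hc.sub A) hP hF.normal hg
    have hres' := Amb.IP.res A (hc.sub A) hP hF.normal (Amb.IP.inv A (hc.sub A) hF.normal hg)
    refine (k2 _ (A.nm hF.normal g ht)).2 ⟨g b, (hres b hb).1, g c, (hres c hc').1, ?_, ?_⟩
    · rintro ⟨d, hd, e1⟩
      obtain ⟨i, hi⟩ := A.ine2_any g⁻¹ (A.ine2_K hc).1 ((ine2_exp fu a) ▸ hu) hr.ne
      obtain ⟨z, hz⟩ := ine2_zt_alg (L := L) (if fu then a else 0) i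
      refine hcu ⟨algebraMap ℂ L z * g⁻¹ d,
        Subalgebra.mul_mem _ (Subalgebra.algebraMap_mem _ z) (hres' d hd).1, ?_⟩
      have e2 : c = g⁻¹ (g c) := by
        rw [← AlgEquiv.mul_apply, inv_mul_cancel, AlgEquiv.one_apply]
      rw [e2, e1, map_mul, hi, hz]
      ring
    · rw [← map_mul, e]
  intro t ht
  refine ⟨fun h => ?_, key hg t ht⟩
  have := key (Amb.IP.inv A (hc.sub A) hF.normal hg) _ (A.nm hF.normal g ht) h
  rwa [← AlgEquiv.mul_apply, inv_mul_cancel, AlgEquiv.one_apply] at this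

theorem Amb.iv_ip {F : IntermediateField A.K L} {u v : L} {P : LP L} (hP : Ab (cl u v) P)
    (hn : Normal A.K F) (hK : ∀ a ∈ (cl u v).O, a ∈ A.K)
    {V : ValuationSubring L} (ho : On P V) {g : A.G} (hg : A.IV V F g) :
    A.IP (cl u v) (A.rs F) P g := by
  intro b hb
  have b1 : b ∈ P.O := hP.int b (Ext_Bx_mono _ le_top hb)
  have b2 : g b ∈ P.O := hP.int _ (Ext_Bx_mono _ le_top (A.Bx_map' hK hn g hb))
  have h0 := ho.ev (P.O.sub_mem b2 b1) (hg b hb.2 (ho b b1))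
  rw [P.hom.sub b2 b1] at h0
  exact sub_eq_zero.1 h0

theorem Amb.iv_gen {F : IntermediateField A.K L} {a : ℕ} (hF : A.Good F a) {u v : L} {fu fv : Bool}
    (hc : A.Ch u v fu fv) {P : LP L} {e₁ e₂ : A.G} (h : A.Fr u v P e₁ e₂) {V : ValuationSubring L}
    (hV : Over V u v) (ho : On P V) {g : A.G} (hg : A.IV V F g) :
    ∃ i : ℕ, g * (e₁ ^ i)⁻¹ ∈ F.fixingSubgroup := by
  obtain ⟨u', hu⟩ := ine2_root u fu a
  obtain ⟨v', hv⟩ := ine2_root v fv a
  have hr := hF.rg u v fu fv hc P h.ab u' v' hu hv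
  have hip := A.iv_ip h.ab hF.normal (hc.sub A) ho hg
  have gv : g v' = v' := by
    refine A.iv_root hV.alg hg (ine2_mem hr).2 (ine2_pos fv a) ?_ ?_
    · rw [hv]
      exact ⟨hV.hv, hV.not_mem le_rfl (pow_one v)⟩
    · rw [hv]
      exact A.fixK g (A.ine2_K hc).2
  obtain ⟨i, hi⟩ := A.ine2_any g (A.ine2_K hc).1 ((ine2_exp fu a) ▸ hu) hr.ne
  have e1 := A.ine2_acts hF.tw (Amb.Acts.pow A h.a11 i) hu (ine2_mem hr).1
  have e2 := A.ine2_acts hF.tw (Amb.Acts.pow A h.a12 i) hv (ine2_mem hr).2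
  refine ⟨i, A.ip_triv hF hc h.ab (Amb.IP.mul A (hc.sub A) hF.normal hip
    (Amb.IP.inv A (hc.sub A) hF.normal (A.ine2_pow (hc.sub A) F h.i1 i))) hu hv
    (A.ine2_cancel ?_ e1) (A.ine2_cancel ?_ e2)⟩
  · rw [hi, e1]
    simp
  · rw [gv, e2]
    simp

/-- the point restricted to a good level meets the curve of `V` at a point of the `t`-line -/
theorem Amb.res_val {F : IntermediateField A.K L} {a : ℕ} (hF : A.Good F a) {u v : L} {fu fv : Bool}
    (hc : A.Ch u v fu fv) {P : LP L} (hP : Ab (cl u v) P) {V : ValuationSubring L} (hV : Over V u v)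
    (ho : ∀ b ∈ (res (cl u v) (A.rs F) P).O, b ∈ V) {t : L} (ht : t ∈ F) (htV : t ∈ V) :
    ∃ s ∈ (res (cl u v) (A.rs F) P).O, t - s ∈ V.nonunits ∨ t⁻¹ - s ∈ V.nonunits := by
  obtain ⟨u', hu⟩ := ine2_root u fu a
  obtain ⟨v', hv⟩ := ine2_root v fv a
  have hr := hF.rg u v fu fv hc P hP u' v' hu hv
  exact (hr.val ho (hV.mem hu (ine2_pos fu a)) (hV.not_mem (ine2_pos fv a) hv)).2.2 t ht htV

/-- an element of the decomposition group keeps points on the curve at level `F` -/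
theorem Amb.res_act {F : IntermediateField A.K L} (hn : Normal A.K F) {x P : LP L}
    (hK : ∀ a ∈ x.O, a ∈ A.K) (hP : Ab x P) {V : ValuationSubring L} (ho : On P V) {g : A.G}
    (hg : A.DV V F g) (h : A.G) : ∀ b ∈ (res x (A.rs F) (A.act (h * g) P)).O, b ∈ h • V := by
  intro b hb
  have h1 := res_np (A.ab_act hK hP (h * g)) le_top fun c hc => A.ine2_KF F (hK c hc)
  have h2 : (h * g)⁻¹ b ∈ V := ho _ (A.mem_act.1 (h1.2 b hb).1)
  have h3 := (hg _ (A.nm hn (h * g)⁻¹ (h1.1.sub b hb))).2 h2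
  rw [← AlgEquiv.mul_apply, mul_inv_rev, mul_inv_cancel_left] at h3
  exact A.mem_smul.2 h3

end Vale.Agent.P300
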