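import Vale.Agent.P300.Core

/-! Basic API for local points. All proofs are short (`hom.add`, `hom.mul`, induction,
`mem_mkLP`, `ev_mkLP`, `IsLocalization.isNoetherianRing` or ideals contract to `R`,
`Ideal.iInf_pow_eq_bot_of_isLocalRing`). -/

open scoped LinearAlgebra.Projectivization Topology Classical
open Polynomial

namespace Vale.Agent.P300

variable {L : Type} [Field L] [Algebra ℂ L]

theorem LP.ext' {x y : LP L} (h : x.Le y) (h' : y.Le x) : x = y := by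
  obtain ⟨O, ev, _, _, o⟩ := x
  obtain ⟨O', ev', _, _, o'⟩ := y
  obtain rfl : O = O' := le_antisymm (fun a ha => (h a ha).1) fun a ha => (h' a ha).1
  obtain rfl : ev = ev' := funext fun a => by
    by_cases ha : a ∈ O
    · exact (h a ha).2.symm
    · exact (o a ha).trans (o' a ha).symm
  rfl

theorem LP.Le.refl (x : LP L) : x.Le x := fun _ h => ⟨h, rfl⟩

theorem LP.Le.trans {x y w : LP L} (h : x.Le y) (h' : y.Le w) : x.Le w :=
  fun a ha => ⟨(h' a (h a ha).1).1, (h' a (h a ha).1).2.trans (h a ha).2⟩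

/-- evaluation as an algebra homomorphism -/
def LP.evH (x : LP L) : x.O →ₐ[ℂ] ℂ where
  toFun := fun a => x.ev a
  map_one' := x.hom.one
  map_mul' := fun a b => x.hom.mul _ a.2 _ b.2
  map_zero' := x.hom.zero
  map_add' := fun a b => x.hom.add _ a.2 _ b.2
  commutes' := fun c => x.hom.alg c

/-- the algebra homomorphism on `R` -/
def HomOn.toH {R : Subalgebra ℂ L} {φ : L → ℂ} (h : HomOn R φ) : R →ₐ[ℂ] ℂ where
  toFun := fun a => φ a
  map_one' := h.one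
  map_mul' := fun a b => h.mul _ a.2 _ b.2
  map_zero' := h.zero
  map_add' := fun a b => h.add _ a.2 _ b.2
  commutes' := fun c => h.alg c

theorem HomOn.neg {R : Subalgebra ℂ L} {φ : L → ℂ} (h : HomOn R φ) {a : L} (ha : a ∈ R) :
    φ (-a) = -φ a := map_neg h.toH ⟨a, ha⟩

theorem HomOn.sub {R : Subalgebra ℂ L} {φ : L → ℂ} (h : HomOn R φ) {a b : L} (ha : a ∈ R)
    (hb : b ∈ R) : φ (a - b) = φ a - φ b := map_sub h.toH ⟨a, ha⟩ ⟨b, hb⟩

theorem HomOn.pow {R : Subalgebra ℂ L} {φ : L → ℂ} (h : HomOn R φ) {a : L} (ha : a ∈ R) (n : ℕ) :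
    φ (a ^ n) = φ a ^ n := map_pow h.toH ⟨a, ha⟩ n

theorem HomOn.smul {R : Subalgebra ℂ L} {φ : L → ℂ} (h : HomOn R φ) (c : ℂ) {a : L} (ha : a ∈ R) :
    φ (c • a) = c * φ a := map_smul h.toH c ⟨a, ha⟩

theorem HomOn.sum {R : Subalgebra ℂ L} {φ : L → ℂ} (h : HomOn R φ) {ι : Type} (s : Finset ι)
    {f : ι → L} (hf : ∀ i ∈ s, f i ∈ R) : φ (∑ i ∈ s, f i) = ∑ i ∈ s, φ (f i) := by
  induction s using Finset.induction_on with
  | empty => simpa using h.zero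
  | insert i s hi ih =>
    have h1 : ∀ j ∈ s, f j ∈ R := fun j hj => hf j (Finset.mem_insert_of_mem hj)
    rw [Finset.sum_insert hi, Finset.sum_insert hi,
      h.add _ (hf i (Finset.mem_insert_self _ _)) _ (R.sum_mem h1), ih h1]

theorem HomOn.prod {R : Subalgebra ℂ L} {φ : L → ℂ} (h : HomOn R φ) {ι : Type} (s : Finset ι)
    {f : ι → L} (hf : ∀ i ∈ s, f i ∈ R) : φ (∏ i ∈ s, f i) = ∏ i ∈ s, φ (f i) := by
  induction s using Finset.induction_on with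
  | empty => simpa using h.one
  | insert i s hi ih =>
    have h1 : ∀ j ∈ s, f j ∈ R := fun j hj => hf j (Finset.mem_insert_of_mem hj)
    rw [Finset.prod_insert hi, Finset.prod_insert hi,
      h.mul _ (hf i (Finset.mem_insert_self _ _)) _ (R.prod_mem h1), ih h1]

theorem HomOn.mvaeval {R : Subalgebra ℂ L} {φ : L → ℂ} (h : HomOn R φ) {ι : Type} {g : ι → L}
    (hg : ∀ i, g i ∈ R) (P : MvPolynomial ι ℂ) :
    MvPolynomial.aeval g P ∈ R ∧ φ (MvPolynomial.aeval g P) = MvPolynomial.eval (fun i => φ (g i)) P := by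
  induction P using MvPolynomial.induction_on with
  | C a =>
    rw [MvPolynomial.aeval_C, MvPolynomial.eval_C]
    exact ⟨R.algebraMap_mem a, h.alg a⟩
  | add p q hp hq =>
    rw [map_add, map_add, h.add _ hp.1 _ hq.1, hp.2, hq.2]
    exact ⟨R.add_mem hp.1 hq.1, rfl⟩
  | mul_X p i hp =>
    rw [map_mul, map_mul, MvPolynomial.aeval_X, MvPolynomial.eval_X, h.mul _ hp.1 _ (hg i), hp.2]
    exact ⟨R.mul_mem hp.1 (hg i), rfl⟩

theorem HomOn.aeval {R : Subalgebra ℂ L} {φ : L → ℂ} (h : HomOn R φ) {a : L} (ha : a ∈ R)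
    (P : ℂ[X]) : aeval a P ∈ R ∧ φ (aeval a P) = P.eval (φ a) := by
  induction P using Polynomial.induction_on' with
  | add p q hp hq =>
    rw [map_add, eval_add, h.add _ hp.1 _ hq.1, hp.2, hq.2]
    exact ⟨R.add_mem hp.1 hq.1, rfl⟩
  | monomial n c =>
    rw [aeval_monomial, eval_monomial, h.mul _ (R.algebraMap_mem c) _ (R.pow_mem ha n), h.alg,
      h.pow ha]
    exact ⟨R.mul_mem (R.algebraMap_mem c) (R.pow_mem ha n), rfl⟩

theorem HomOn.mono {R R' : Subalgebra ℂ L} {φ : L → ℂ} (h : HomOn R φ) (h' : R' ≤ R) :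
    HomOn R' φ :=
  ⟨fun a ha b hb => h.add a (h' ha) b (h' hb), fun a ha b hb => h.mul a (h' ha) b (h' hb), h.alg⟩

theorem LP.ev_inv (x : LP L) {a : L} (ha : x.U a) : x.U a⁻¹ ∧ x.ev a⁻¹ = (x.ev a)⁻¹ := by
  have h1 := x.inv_mem a ha.1 ha.2
  have h2 := x.hom.mul _ h1 _ ha.1
  rw [inv_mul_cancel₀ (x.hom.ne ha.2), x.hom.one] at h2
  have h3 := eq_inv_of_mul_eq_one_left h2.symm
  exact ⟨⟨h1, h3 ▸ inv_ne_zero ha.2⟩, h3⟩

theorem LP.ev_div (x : LP L) {a b : L} (ha : a ∈ x.O) (hb : x.U b) :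
    a / b ∈ x.O ∧ x.ev (a / b) = x.ev a / x.ev b := by
  obtain ⟨h1, h2⟩ := x.ev_inv hb
  rw [div_eq_mul_inv, div_eq_mul_inv, x.hom.mul _ ha _ h1.1, h2]
  exact ⟨x.O.mul_mem ha h1.1, rfl⟩

theorem LP.U.ne {x : LP L} {a : L} (h : x.U a) : a ≠ 0 := x.hom.ne h.2

theorem LP.U_of_inv (x : LP L) {a : L} (ha : a ∈ x.O) (ha' : a⁻¹ ∈ x.O) (h0 : a ≠ 0) : x.U a := by
  have h2 := x.hom.mul _ ha _ ha'
  rw [mul_inv_cancel₀ h0, x.hom.one] at h2
  exact ⟨ha, left_ne_zero_of_mul_eq_one h2.symm⟩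

theorem LP.U.mul {x : LP L} {a b : L} (ha : x.U a) (hb : x.U b) : x.U (a * b) :=
  ⟨x.O.mul_mem ha.1 hb.1, by rw [x.hom.mul _ ha.1 _ hb.1]; exact mul_ne_zero ha.2 hb.2⟩

theorem LP.U.zpow {x : LP L} {a : L} (ha : x.U a) (n : ℤ) : x.U (a ^ n) := by
  have h1 : ∀ m : ℕ, x.U (a ^ m) := fun m =>
    ⟨x.O.pow_mem ha.1 m, by rw [x.hom.pow ha.1]; exact pow_ne_zero _ ha.2⟩
  obtain ⟨m, rfl | rfl⟩ := n.eq_nat_or_neg
  · rw [zpow_natCast]
    exact h1 m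
  · rw [zpow_neg, zpow_natCast]
    exact (x.ev_inv (h1 m)).1

theorem LP.m_sub_ev (x : LP L) {a : L} (ha : a ∈ x.O) : x.m (a - algebraMap ℂ L (x.ev a)) :=
  ⟨x.O.sub_mem ha (x.O.algebraMap_mem _), by
    rw [x.hom.sub ha (x.O.algebraMap_mem _), x.hom.alg, sub_self]⟩

theorem LP.m.mul_left {x : LP L} {a b : L} (ha : a ∈ x.O) (hb : x.m b) : x.m (a * b) :=
  ⟨x.O.mul_mem ha hb.1, by rw [x.hom.mul _ ha _ hb.1, hb.2, mul_zero]⟩

theorem LP.m.add {x : LP L} {a b : L} (ha : x.m a) (hb : x.m b) : x.m (a + b) :=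
  ⟨x.O.add_mem ha.1 hb.1, by rw [x.hom.add _ ha.1 _ hb.1, ha.2, hb.2, add_zero]⟩

theorem LP.isUnit_LPB (x : LP L) (a : x.O) : IsUnit a ↔ x.ev a ≠ 0 :=
  ⟨fun h => (h.map x.evH).ne_zero, fun h => IsUnit.of_mul_eq_one (⟨_, x.inv_mem _ a.2 h⟩ : x.O)
    (Subtype.ext (mul_inv_cancel₀ (x.hom.ne h)))⟩

instance (x : LP L) : IsLocalRing x.O :=
  IsLocalRing.of_isUnit_or_isUnit_one_sub_self fun a => by
    rw [x.isUnit_LPB, x.isUnit_LPB]
    by_cases h : x.ev a = 0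
    · refine Or.inr ?_
      have h1 : x.ev ((1 - a : x.O) : L) = x.ev 1 - x.ev a := x.hom.sub x.O.one_mem a.2
      rw [h1, h, x.hom.one, sub_zero]
      exact one_ne_zero
    · exact Or.inl h

theorem LP.mem_max (x : LP L) (a : x.O) : a ∈ IsLocalRing.maximalIdeal x.O ↔ x.ev a = 0 := by
  rw [IsLocalRing.mem_maximalIdeal, mem_nonunits_iff, x.isUnit_LPB, not_not]

theorem LP.isUnit_iff (x : LP L) (a : x.O) : IsUnit a ↔ x.ev a ≠ 0 := x.isUnit_LPB a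

/-- if the rings are nested and the maximal ideals too, then domination holds -/
theorem LP.le_of_m {x y : LP L} (h : ∀ a ∈ x.O, a ∈ y.O) (h' : ∀ a, x.m a → y.ev a = 0) :
    x.Le y := fun a ha => ⟨h a ha, by
  have h1 := h' _ (x.m_sub_ev ha)
  rwa [y.hom.sub (h a ha) (y.O.algebraMap_mem _), y.hom.alg, sub_eq_zero] at h1⟩

/-- points with the same ring are equal -/
theorem LP.eq_of_O {x y : LP L} (h : x.O = y.O) : x = y := by
  have key : ∀ {x y : LP L}, x.O = y.O → x.Le y := fun {x y} h =>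
    LP.le_of_m (fun a ha => h ▸ ha) fun a ha => not_not.1 fun h1 =>
      (x.U_of_inv ha.1 (h ▸ y.inv_mem a (h ▸ ha.1) h1) (y.hom.ne h1)).2 ha.2
  exact LP.ext' (key h) (key h.symm)

theorem LP.Fr.mono {x y : LP L} (h : x.Le y) {a : L} (ha : x.Fr a) : y.Fr a := by
  obtain ⟨b, hb, c, hc, h1⟩ := ha
  exact ⟨b, (h b hb).1, c, (h c hc).1, h1⟩

/-- Krull intersection -/
theorem LP.krull (x : LP L) (hx : IsNoetherianRing x.O) {a : x.O}
    (h : ∀ n : ℕ, a ∈ IsLocalRing.maximalIdeal x.O ^ n) : a = 0 := by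
  rw [← Ideal.mem_bot, ← Ideal.iInf_pow_eq_bot_of_isLocalRing _
    (IsLocalRing.maximalIdeal.isMaximal x.O).ne_top]
  exact Ideal.mem_iInf.2 h

/-- Krull intersection modulo an ideal -/
theorem LP.krull_mod (x : LP L) (hx : IsNoetherianRing x.O) (I : Ideal x.O) {a : x.O}
    (h : ∀ n : ℕ, a ∈ I ⊔ IsLocalRing.maximalIdeal x.O ^ n) : a ∈ I := by
  rw [← Submodule.Quotient.mk_eq_zero, ← Submodule.mem_bot x.O,
    ← Ideal.iInf_pow_smul_eq_bot_of_isLocalRing _ (IsLocalRing.maximalIdeal.isMaximal x.O).ne_top]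
  refine (Submodule.mem_iInf _).2 fun n => ?_
  obtain ⟨i, hi, b, hb, rfl⟩ := Submodule.mem_sup.1 (h n)
  rw [Submodule.Quotient.mk_add, (Submodule.Quotient.mk_eq_zero _).2 hi, zero_add, ← mul_one b,
    ← smul_eq_mul, Submodule.Quotient.mk_smul]
  exact Submodule.smul_mem_smul hb Submodule.mem_top

theorem mkLP_base {R : Subalgebra ℂ L} {φ : L → ℂ} (h : HomOn R φ) {a : L} (ha : a ∈ R) :
    a ∈ (mkLP R φ).O ∧ (mkLP R φ).ev a = φ a := by
  have h1 : φ 1 ≠ 0 := by rw [h.one]; exact one_ne_zero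
  exact ⟨(mem_mkLP h).2 ⟨a, ha, 1, R.one_mem, h1, mul_one a⟩,
    by rw [ev_mkLP h ha R.one_mem h1 (mul_one a), h.one, div_one]⟩

theorem mkLP_le {R : Subalgebra ℂ L} {φ : L → ℂ} (h : HomOn R φ) {y : LP L}
    (hy : ∀ a ∈ R, a ∈ y.O ∧ y.ev a = φ a) : (mkLP R φ).Le y := fun a ha => by
  obtain ⟨b, hb, c, hc, h1, h2⟩ := (mem_mkLP h).1 ha
  rw [ev_mkLP h hb hc h1 h2, eq_div_of_mul_eq (h.ne h1) h2, ← (hy b hb).2, ← (hy c hc).2]
  exact y.ev_div (hy b hb).1 ⟨(hy c hc).1, (hy c hc).2 ▸ h1⟩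

theorem mkLP_noeth {R : Subalgebra ℂ L} {φ : L → ℂ} (h : HomOn R φ) (hR : IsNoetherianRing R) :
    IsNoetherianRing (mkLP R φ).O := by
  have hle : R ≤ (mkLP R φ).O := fun a ha => (mkLP_base h ha).1
  let _ : Algebra R (mkLP R φ).O := (Subalgebra.inclusion hle).toRingHom.toAlgebra
  let N : Submonoid R := (nonZeroDivisors ℂ).comap h.toH
  have : IsLocalization N (mkLP R φ).O := by
    refine (isLocalization_iff _ _).2 ⟨fun c => ?_, fun a => ?_, fun {a b} e => ⟨1, ?_⟩⟩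
    · refine (LP.isUnit_iff _ _).2 ?_
      change (mkLP R φ).ev c.1.1 ≠ 0
      rw [(mkLP_base h c.1.2).2]
      exact nonZeroDivisors.ne_zero c.2
    · obtain ⟨b, hb, c, hc, h1, h2⟩ := (mem_mkLP h).1 a.2
      exact ⟨(⟨b, hb⟩, ⟨⟨c, hc⟩, mem_nonZeroDivisors_of_ne_zero h1⟩), Subtype.ext h2⟩
    · rw [Subalgebra.inclusion_injective hle e]
  exact IsLocalization.isNoetherianRing N _ hR

theorem mkLP_sub {R : Subalgebra ℂ L} {φ : L → ℂ} (h : HomOn R φ) {M : IntermediateField ℂ L}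
    (hR : ∀ a ∈ R, a ∈ M) : ∀ a ∈ (mkLP R φ).O, a ∈ M := fun a ha => by
  obtain ⟨b, hb, c, hc, h1, h2⟩ := (mem_mkLP h).1 ha
  rw [eq_div_of_mul_eq (h.ne h1) h2]
  exact M.div_mem (hR b hb) (hR c hc)

/-- the point `c` satisfies all relations of `g` -/
def Valid {ι : Type} (g : ι → L) (c : ι → ℂ) : Prop :=
  ∀ P : MvPolynomial ι ℂ, MvPolynomial.aeval g P = 0 → MvPolynomial.eval c P = 0

/-- the evaluation map used in `pv` -/
noncomputable def pvF_LPB {ι : Type} (g : ι → L) (c : ι → ℂ) (a : L) : ℂ :=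
  if h : ∃ P : MvPolynomial ι ℂ, MvPolynomial.aeval g P = a then MvPolynomial.eval c h.choose
  else 0

theorem pv_eq_LPB {ι : Type} (g : ι → L) (c : ι → ℂ) :
    pv g c = mkLP (Algebra.adjoin ℂ (Set.range g)) (pvF_LPB g c) := rfl

theorem pvF_eq_LPB {ι : Type} {g : ι → L} {c : ι → ℂ} (h : Valid g c) (P : MvPolynomial ι ℂ) :
    pvF_LPB g c (MvPolynomial.aeval g P) = MvPolynomial.eval c P := by
  have e : ∃ Q : MvPolynomial ι ℂ, MvPolynomial.aeval g Q = MvPolynomial.aeval g P := ⟨P, rfl⟩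
  rw [pvF_LPB, dif_pos e, ← sub_eq_zero, ← map_sub]
  exact h _ (by rw [map_sub, e.choose_spec, sub_self])

theorem mem_adj_LPB {ι : Type} {g : ι → L} {a : L} :
    a ∈ Algebra.adjoin ℂ (Set.range g) ↔ ∃ P : MvPolynomial ι ℂ, MvPolynomial.aeval g P = a := by
  rw [Algebra.adjoin_range_eq_range_aeval]
  rfl

theorem pvF_hom_LPB {ι : Type} {g : ι → L} {c : ι → ℂ} (h : Valid g c) :
    HomOn (Algebra.adjoin ℂ (Set.range g)) (pvF_LPB g c) := by
  refine ⟨fun a ha b hb => ?_, fun a ha b hb => ?_, fun a => ?_⟩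
  · obtain ⟨P, rfl⟩ := mem_adj_LPB.1 ha
    obtain ⟨Q, rfl⟩ := mem_adj_LPB.1 hb
    rw [← map_add, pvF_eq_LPB h, pvF_eq_LPB h, pvF_eq_LPB h, map_add]
  · obtain ⟨P, rfl⟩ := mem_adj_LPB.1 ha
    obtain ⟨Q, rfl⟩ := mem_adj_LPB.1 hb
    rw [← map_mul, pvF_eq_LPB h, pvF_eq_LPB h, pvF_eq_LPB h, map_mul]
  · rw [← MvPolynomial.aeval_C g, pvF_eq_LPB h, MvPolynomial.eval_C]

theorem pv_aeval {ι : Type} {g : ι → L} {c : ι → ℂ} (h : Valid g c) (P : MvPolynomial ι ℂ) :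
    MvPolynomial.aeval g P ∈ (pv g c).O ∧
      (pv g c).ev (MvPolynomial.aeval g P) = MvPolynomial.eval c P := by
  rw [← pvF_eq_LPB h]
  exact mkLP_base (pvF_hom_LPB h) (mem_adj_LPB.2 ⟨P, rfl⟩)

theorem mem_pv {ι : Type} {g : ι → L} {c : ι → ℂ} (h : Valid g c) {a : L} :
    a ∈ (pv g c).O ↔ ∃ P Q : MvPolynomial ι ℂ, MvPolynomial.eval c Q ≠ 0 ∧
      a * MvPolynomial.aeval g Q = MvPolynomial.aeval g P := by
  rw [pv_eq_LPB, mem_mkLP (pvF_hom_LPB h)]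
  constructor
  · rintro ⟨b, hb, d, hd, h1, h2⟩
    obtain ⟨P, rfl⟩ := mem_adj_LPB.1 hb
    obtain ⟨Q, rfl⟩ := mem_adj_LPB.1 hd
    exact ⟨P, Q, pvF_eq_LPB h Q ▸ h1, h2⟩
  · rintro ⟨P, Q, h1, h2⟩
    exact ⟨_, mem_adj_LPB.2 ⟨P, rfl⟩, _, mem_adj_LPB.2 ⟨Q, rfl⟩, (pvF_eq_LPB h Q).symm ▸ h1, h2⟩

theorem pv_gen {ι : Type} {g : ι → L} {c : ι → ℂ} (h : Valid g c) (i : ι) :
    g i ∈ (pv g c).O ∧ (pv g c).ev (g i) = c i := by
  have h1 := pv_aeval h (MvPolynomial.X i)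
  rwa [MvPolynomial.aeval_X, MvPolynomial.eval_X] at h1

theorem pv_le {ι : Type} {g : ι → L} {c : ι → ℂ} {y : LP L}
    (hy : ∀ i, g i ∈ y.O ∧ y.ev (g i) = c i) : Valid g c ∧ (pv g c).Le y := by
  have h1 := y.hom.mvaeval fun i => (hy i).1
  simp only [fun i => (hy i).2] at h1
  have h : Valid g c := fun P hP => by rw [← (h1 P).2, hP, y.hom.zero]
  refine ⟨h, mkLP_le (pvF_hom_LPB h) fun a ha => ?_⟩
  obtain ⟨P, rfl⟩ := mem_adj_LPB.1 ha
  rw [pvF_eq_LPB h]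
  exact h1 P

theorem pv_noeth {ι : Type} [Finite ι] {g : ι → L} {c : ι → ℂ} (h : Valid g c) :
    IsNoetherianRing (pv g c).O := by
  refine mkLP_noeth (pvF_hom_LPB h) ?_
  rw [Algebra.adjoin_range_eq_range_aeval]
  infer_instance

theorem pv_sub {ι : Type} {g : ι → L} {c : ι → ℂ} (h : Valid g c) {M : IntermediateField ℂ L}
    (hg : ∀ i, g i ∈ M) : ∀ a ∈ (pv g c).O, a ∈ M :=
  mkLP_sub (pvF_hom_LPB h) (Algebra.adjoin_le (S := M.toSubalgebra) (Set.range_subset_iff.2 hg))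

theorem taylor_LPB {ι : Type} [Fintype ι] {g : ι → L} (c : ι → ℂ) {R : Subalgebra ℂ L}
    (hg : ∀ i, g i ∈ R) (P : MvPolynomial ι ℂ) : ∃ α : ι → L, (∀ i, α i ∈ R) ∧
      MvPolynomial.aeval g P - algebraMap ℂ L (MvPolynomial.eval c P) =
        ∑ i, α i * (g i - algebraMap ℂ L (c i)) := by
  induction P using MvPolynomial.induction_on with
  | C a => exact ⟨0, fun _ => R.zero_mem, by simp⟩
  | add p q hp hq =>
    obtain ⟨α, h1, h2⟩ := hp
    obtain ⟨β, h3, h4⟩ := hq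
    refine ⟨α + β, fun i => R.add_mem (h1 i) (h3 i), ?_⟩
    simp only [map_add, Pi.add_apply, add_mul, Finset.sum_add_distrib, ← h2, ← h4]
    ring
  | mul_X p i hp =>
    obtain ⟨α, h1, h2⟩ := hp
    refine ⟨fun j => g i * α j + if j = i then algebraMap ℂ L (MvPolynomial.eval c p) else 0,
      fun j => R.add_mem (R.mul_mem (hg i) (h1 j)) ?_, ?_⟩
    · split_ifs
      exacts [R.algebraMap_mem _, R.zero_mem]
    · simp only [add_mul, Finset.sum_add_distrib, mul_assoc, ← Finset.mul_sum, ← h2, ite_mul,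
        zero_mul, Finset.sum_ite_eq', Finset.mem_univ, if_true, map_mul, MvPolynomial.aeval_X,
        MvPolynomial.eval_X]
      ring

/-- the maximal ideal is generated by the `g i - c i` -/
theorem pv_m {ι : Type} [Fintype ι] {g : ι → L} {c : ι → ℂ} (h : Valid g c) {a : L}
    (ha : (pv g c).m a) :
    ∃ α : ι → L, (∀ i, α i ∈ (pv g c).O) ∧ a = ∑ i, α i * (g i - algebraMap ℂ L (c i)) := by
  obtain ⟨P, Q, h1, h2⟩ := (mem_pv h).1 ha.1
  have hQ : (pv g c).U (MvPolynomial.aeval g Q) := ⟨(pv_aeval h Q).1, (pv_aeval h Q).2.symm ▸ h1⟩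
  have h3 : MvPolynomial.eval c P = 0 := by
    rw [← (pv_aeval h P).2, ← h2, (pv g c).hom.mul _ ha.1 _ hQ.1, ha.2, zero_mul]
  obtain ⟨α, h4, h5⟩ := taylor_LPB c (fun i => (pv_gen h i).1) P
  rw [h3, map_zero, sub_zero] at h5
  refine ⟨fun i => α i / MvPolynomial.aeval g Q, fun i => ((pv g c).ev_div (h4 i) hQ).1, ?_⟩
  rw [eq_div_of_mul_eq hQ.ne h2, h5, Finset.sum_div]
  exact Finset.sum_congr rfl fun i _ => by ring

theorem valid_of_ind {ι : Type} {g : ι → L} (h : AlgebraicIndependent ℂ g) (c : ι → ℂ) :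
    Valid g c := fun P hP => by
  rw [algebraicIndependent_iff.1 h P hP, map_zero]

theorem ind_swap {u v : L} (h : AlgebraicIndependent ℂ ![u, v]) : AlgebraicIndependent ℂ ![v, u] := by
  have h1 := h.comp _ (Equiv.swap (0 : Fin 2) 1).injective
  have e : ![u, v] ∘ Equiv.swap (0 : Fin 2) 1 = ![v, u] := by
    funext i
    fin_cases i <;> rfl
  rwa [e] at h1

theorem cl_le_LPB {u v : L} {y : LP L} (hu : y.m u) (hv : y.m v) : (cl u v).Le y :=
  (pv_le (g := ![u, v]) (c := 0) fun i => by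
    fin_cases i
    exacts [hu, hv]).2

theorem cl_m_LPB {u v : L} (h : AlgebraicIndependent ℂ ![u, v]) : (cl u v).m u ∧ (cl u v).m v :=
  ⟨pv_gen (valid_of_ind h 0) 0, pv_gen (valid_of_ind h 0) 1⟩

theorem cl_swap {u v : L} (h : AlgebraicIndependent ℂ ![u, v]) : cl u v = cl v u :=
  LP.ext' (cl_le_LPB (cl_m_LPB (ind_swap h)).2 (cl_m_LPB (ind_swap h)).1)
    (cl_le_LPB (cl_m_LPB h).2 (cl_m_LPB h).1)

theorem cl_le {u v : L} (h : AlgebraicIndependent ℂ ![u, v]) {y : LP L} (hu : y.m u) (hv : y.m v) :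
    (cl u v).Le y := by
  have _ := h
  exact cl_le_LPB hu hv

theorem cl_gen {u v : L} (h : AlgebraicIndependent ℂ ![u, v]) : (cl u v).Gen2 u v := by
  refine ⟨(cl_m_LPB h).1, (cl_m_LPB h).2, fun a ha => ?_⟩
  obtain ⟨α, h1, h2⟩ := pv_m (valid_of_ind h 0) ha
  exact ⟨α 0, h1 0, α 1, h1 1, by simpa using h2⟩

theorem LP.mem_map {g : L ≃ₐ[ℂ] L} {x : LP L} {a : L} : a ∈ (x.map g).O ↔ g.symm a ∈ x.O := Iff.rfl

theorem LP.ev_map {g : L ≃ₐ[ℂ] L} {x : LP L} {a : L} : (x.map g).ev a = x.ev (g.symm a) := rfl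

theorem LP.map_map (g h : L ≃ₐ[ℂ] L) (x : LP L) : (x.map h).map g = x.map (g * h) :=
  LP.ext' (fun _ ha => ⟨ha, rfl⟩) fun _ ha => ⟨ha, rfl⟩

theorem LP.map_one (x : LP L) : x.map 1 = x :=
  LP.ext' (fun _ ha => ⟨ha, rfl⟩) fun _ ha => ⟨ha, rfl⟩

theorem LP.Le.map {x y : LP L} (h : x.Le y) (g : L ≃ₐ[ℂ] L) : (x.map g).Le (y.map g) :=
  fun _ ha => h _ ha

theorem LP.map_eq_self {x : LP L} {g : L ≃ₐ[ℂ] L} (h : ∀ a ∈ x.O, g a = a) : x.map g = x := by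
  refine LP.ext' (fun a ha => ?_) fun a ha => ?_
  · have h1 := h _ (LP.mem_map.1 ha)
    rw [AlgEquiv.apply_symm_apply] at h1
    rw [LP.mem_map, ← h1] at ha
    rw [LP.ev_map, ← h1]
    exact ⟨ha, rfl⟩
  · have h1 : g.symm a = a := by rw [AlgEquiv.symm_apply_eq, h a ha]
    rw [LP.mem_map, LP.ev_map, h1]
    exact ⟨ha, rfl⟩

end Vale.Agent.P300
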