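import Vale.Agent.P300.AT
import Vale.Agent.P300.Ine2

/-! Arithmetic of the local lattices. By `ip_gen` the stabiliser in `H` acts on `u' ^ i v' ^ l` through
pairs `(p, q)` with `e₁ ^ p e₂ ^ q ∈ H`, by `ζ ^ (p i + q l)` (`ζ = zt a` of order `n = 2 ^ a`; unflagged
parameters are fixed). Product case: `k₁` = least positive `i` with `u' ^ i` invariant, `k₂` likewise,
`j = 1`; an invariant monomial has both factors invariant. Node case: let `k ∣ n` generate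
`{p | e₁ ^ p ∈ H}` and `m ∣ n` generate `{p | (e₁ e₂⁻¹) ^ p ∈ H}` (modulo `N` the `e i` commute and have
order dividing `n`), `m ∣ k`; `k₁ = k₂ = n / k`, `j = k / m`. -/

open scoped LinearAlgebra.Projectivization Topology Classical Pointwise
open Polynomial

set_option linter.unusedSectionVars false

namespace Vale.Agent.P300

variable {L : Type} [Field L] [Algebra ℂ L] [IsAlgClosed L] (A : Amb L)

theorem lam_ar_prod (Λ : ℕ → ℕ → Prop) {x y : L} {n : ℕ} (hn : 1 ≤ n) (hx : x ^ n = 1)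
    (hy : y ^ n = 1) (hcl : ∀ p q, Λ p q → Λ p 0 ∧ Λ 0 q) :
    ∃ k₁ k₂, 1 ≤ k₁ ∧ 1 ≤ k₂ ∧ (∀ p q, Λ p q → x ^ (p * k₁) = 1 ∧ y ^ (q * k₂) = 1) ∧
      ∀ i l, (∀ p q, Λ p q → x ^ (p * i) * y ^ (q * l) = 1) →
        (i = 0 ∧ l = 0) ∨ k₁ ≤ i ∨ k₂ ≤ l := by
  have h1 : ∃ i, 1 ≤ i ∧ ∀ p q, Λ p q → x ^ (p * i) = 1 :=
    ⟨n, hn, fun p _ _ => by rw [mul_comm, pow_mul, hx, one_pow]⟩
  have h2 : ∃ i, 1 ≤ i ∧ ∀ p q, Λ p q → y ^ (q * i) = 1 :=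
    ⟨n, hn, fun _ q _ => by rw [mul_comm, pow_mul, hy, one_pow]⟩
  refine ⟨Nat.find h1, Nat.find h2, (Nat.find_spec h1).1, (Nat.find_spec h2).1,
    fun p q h => ⟨(Nat.find_spec h1).2 p q h, (Nat.find_spec h2).2 p q h⟩, fun i l h => ?_⟩
  rcases Nat.eq_zero_or_pos i with hi | hi
  · rcases Nat.eq_zero_or_pos l with hl | hl
    · exact Or.inl ⟨hi, hl⟩
    · exact Or.inr (Or.inr (Nat.find_min' h2 ⟨hl, fun p q hpq => by
        simpa using h 0 q (hcl p q hpq).2⟩))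
  · exact Or.inr (Or.inl (Nat.find_min' h1 ⟨hi, fun p q hpq => by
      simpa using h p 0 (hcl p q hpq).1⟩))

theorem lam_ar_node (Λ : ℕ → ℕ → Prop) {x : L} {n : ℕ} (hn : 1 ≤ n) (hx : x ^ n = 1)
    (hcl : ∀ p q, Λ p q → Λ (p + q) 0 ∧ Λ 0 (p + q)) :
    ∃ k j, 1 ≤ k ∧ 1 ≤ j ∧ (∀ p q, Λ p q → x ^ (p * (j * k)) = 1 ∧ x ^ (q * (j * k)) = 1 ∧
        x ^ (p * k) * x ^ (q * k) = 1) ∧
      ∀ i l, (∀ p q, Λ p q → x ^ (p * i) * x ^ (q * l) = 1) →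
        (i = 0 ∧ l = 0) ∨ j * k ≤ i ∨ j * k ≤ l ∨ (k ≤ i ∧ k ≤ l) := by
  have h1 : ∃ i, 1 ≤ i ∧ ∀ p q, Λ p q → x ^ ((p + q) * i) = 1 :=
    ⟨n, hn, fun p _ _ => by rw [mul_comm, pow_mul, hx, one_pow]⟩
  have h2 : ∃ i, 1 ≤ i ∧ ∀ p q, Λ p q → x ^ (p * i) = 1 :=
    ⟨n, hn, fun p _ _ => by rw [mul_comm, pow_mul, hx, one_pow]⟩
  obtain ⟨k1, k2⟩ := Nat.find_spec h1
  obtain ⟨m1, m2⟩ := Nat.find_spec h2
  have k3 := @Nat.find_min' _ _ h1
  have m3 := @Nat.find_min' _ _ h2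
  generalize Nat.find h1 = k at k1 k2 k3
  generalize Nat.find h2 = m at m1 m2 m3
  have h3 : ∀ p q, Λ p q → x ^ ((p + q) * m) = 1 := fun p q h => m2 _ _ (hcl p q h).1
  have h4 : m % k = 0 := by
    by_contra hne
    refine (Nat.mod_lt m k1).not_ge (k3 ⟨Nat.pos_of_ne_zero hne, fun p q h => ?_⟩)
    have a1 := h3 p q h
    have e : (p + q) * m = (p + q) * k * (m / k) + (p + q) * (m % k) := by
      rw [mul_assoc, ← mul_add, Nat.div_add_mod]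
    rwa [e, pow_add, pow_mul, k2 p q h, one_pow, one_mul] at a1
  obtain ⟨j, rfl⟩ := Nat.dvd_of_mod_eq_zero h4
  rw [mul_comm k j] at m1 m2 m3 h3
  refine ⟨k, j, k1, Nat.pos_of_mul_pos_right m1, fun p q h => ⟨m2 p q h, ?_, ?_⟩, fun i l h => ?_⟩
  · have a1 := h3 p q h
    rwa [add_mul, pow_add, m2 p q h, one_mul] at a1
  · rw [← pow_add, ← add_mul, k2 p q h]
  have a1 : ∀ p q, Λ p q → x ^ ((p + q) * i) = 1 := fun p q hpq => by
    simpa using h _ _ (hcl p q hpq).1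
  have a2 : ∀ p q, Λ p q → x ^ ((p + q) * l) = 1 := fun p q hpq => by
    simpa using h _ _ (hcl p q hpq).2
  rcases Nat.eq_zero_or_pos i with rfl | hi
  · rcases Nat.eq_zero_or_pos l with hl | hl
    · exact Or.inl ⟨rfl, hl⟩
    · refine Or.inr (Or.inr (Or.inl (m3 ⟨hl, fun p q hpq => ?_⟩)))
      have b1 := a2 p q hpq
      have b2 : x ^ (q * l) = 1 := by simpa using h p q hpq
      rwa [add_mul, pow_add, b2, mul_one] at b1
  · rcases Nat.eq_zero_or_pos l with rfl | hl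
    · exact Or.inr (Or.inl (m3 ⟨hi, fun p q hpq => by simpa using h p q hpq⟩))
    · exact Or.inr (Or.inr (Or.inr ⟨k3 ⟨hi, a1⟩, k3 ⟨hl, a2⟩⟩))

theorem lam_zt (fu : Bool) (a : ℕ) : zt L (if fu then a else 0) ^ 2 ^ a = 1 := by
  cases fu
  · have h := (zt_prim (L := L) 0).pow_eq_one
    rw [pow_zero, pow_one] at h
    simp [h]
  · exact (zt_prim a).pow_eq_one

theorem lam_mem {x : LP L} {u u' : L} {fu : Bool} {a : ℕ} (hu : u ∈ x.O)
    (h : u' ^ (if fu then 2 ^ a else 1) = u) : u' ^ 2 ^ a ∈ x.O := by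
  cases fu
  · have e : u' = u := by simpa using h
    exact e ▸ pow_mem hu _
  · have e : u' ^ 2 ^ a = u := h
    exact e ▸ hu

theorem Amb.lam_main {F : IntermediateField A.K L} {a : ℕ} (hF : A.Good F a) {u v : L}
    {fu fv : Bool} (hc : A.Ch u v fu fv) {P : LP L} {e₁ e₂ : A.G} (h : A.Fr u v P e₁ e₂)
    {H : Subgroup A.G} (hN : F.fixingSubgroup ≤ H) {k₁ k₂ j : ℕ} (hk₁ : 1 ≤ k₁) (hk₂ : 1 ≤ k₂)
    (hj : 1 ≤ j)
    (h1 : ∀ p q : ℕ, e₁ ^ p * e₂ ^ q ∈ H → zt L (if fu then a else 0) ^ (p * (j * k₁)) = 1 ∧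
      zt L (if fv then a else 0) ^ (q * (j * k₂)) = 1 ∧
      zt L (if fu then a else 0) ^ (p * k₁) * zt L (if fv then a else 0) ^ (q * k₂) = 1)
    (h2 : ∀ i l : ℕ, (∀ p q : ℕ, e₁ ^ p * e₂ ^ q ∈ H →
      zt L (if fu then a else 0) ^ (p * i) * zt L (if fv then a else 0) ^ (q * l) = 1) →
      (i = 0 ∧ l = 0) ∨ j * k₁ ≤ i ∨ j * k₂ ≤ l ∨ (k₁ ≤ i ∧ k₂ ≤ l)) :
    (res (cl u v) (A.fx H) P).AT j := by
  obtain ⟨u', hu⟩ := ine2_root u fu a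
  obtain ⟨v', hv⟩ := ine2_root v fv a
  have hr := hF.rg u v fu fv hc P h.ab u' v' hu hv
  have e1 : ∀ p q : ℕ, (e₁ ^ p * e₂ ^ q) u' = zt L (if fu then a else 0) ^ p * u' := fun p q => by
    simpa using A.ine2_acts hF.tw
      (Amb.Acts.mul A (Amb.Acts.pow A h.a11 p) (Amb.Acts.pow A h.a21 q)) hu (ine2_mem hr).1
  have e2 : ∀ p q : ℕ, (e₁ ^ p * e₂ ^ q) v' = zt L (if fv then a else 0) ^ q * v' := fun p q => by
    simpa using A.ine2_acts hF.tw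
      (Amb.Acts.mul A (Amb.Acts.pow A h.a12 p) (Amb.Acts.pow A h.a22 q)) hv (ine2_mem hr).2
  generalize zt L (if fu then a else 0) = x at h1 h2 e1
  generalize zt L (if fv then a else 0) = y at h1 h2 e2
  refine A.at_mono (hc.sub A) h.ab hF.tw hF.normal hr (n := 2 ^ a) Nat.one_le_two_pow
    (lam_mem (hc.rg A).gen.1.1 hu) (lam_mem (hc.rg A).gen.2.1.1 hv) hN hk₁ hk₂ hj
    (fun g hg hi => ?_) fun i l hI => h2 i l fun p q hpq => ?_
  · obtain ⟨p, q, hn⟩ := A.ip_gen hF hc h hi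
    have hw : e₁ ^ p * e₂ ^ q ∈ H := by
      have := H.mul_mem (H.inv_mem (hN hn)) hg
      rwa [mul_inv_rev, inv_inv, inv_mul_cancel_right] at this
    have key : ∀ b ∈ F, g b = (e₁ ^ p * e₂ ^ q) b := fun b hb => by
      have := (IntermediateField.mem_fixingSubgroup_iff _ _).1 hn _
        (A.nm hF.normal (e₁ ^ p * e₂ ^ q) hb)
      rwa [← AlgEquiv.mul_apply, inv_mul_cancel_right] at this
    have gu := (key u' (ine2_mem hr).1).trans (e1 p q)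
    have gv := (key v' (ine2_mem hr).2).trans (e2 p q)
    obtain ⟨a1, a2, a3⟩ := h1 p q hw
    refine ⟨?_, ?_, ?_⟩
    · rw [map_pow, gu, mul_pow, ← pow_mul, a1, one_mul]
    · rw [map_pow, gv, mul_pow, ← pow_mul, a2, one_mul]
    · rw [map_mul, map_pow, map_pow, gu, gv, mul_pow, mul_pow, ← pow_mul, ← pow_mul,
        mul_mul_mul_comm, a3, one_mul]
  · have a1 := hI _ hpq (Amb.IP.mul A (hc.sub A) hF.normal (A.ine2_pow (hc.sub A) F h.i1 p)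
      (A.ine2_pow (hc.sub A) F h.i2 q))
    rw [map_mul, map_pow, map_pow, e1, e2, mul_pow, mul_pow, ← pow_mul, ← pow_mul,
      mul_mul_mul_comm] at a1
    exact (mul_eq_right₀ (mul_ne_zero (pow_ne_zero _ hr.ne) (pow_ne_zero _ hr.swap.ne))).1 a1

theorem Amb.lam_prod {F : IntermediateField A.K L} {a : ℕ} (hF : A.Good F a) {u v : L} {fu fv : Bool}
    (hc : A.Ch u v fu fv) {P : LP L} {e₁ e₂ : A.G} (h : A.Fr u v P e₁ e₂) {H : Subgroup A.G}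
    (hN : F.fixingSubgroup ≤ H) (hcl : ∀ i j : ℕ, e₁ ^ i * e₂ ^ j ∈ H → e₂ ^ j ∈ H) :
    ∃ b c, (res (cl u v) (A.fx H) P).Gen2 b c := by
  obtain ⟨k₁, k₂, a1, a2, a3, a4⟩ := lam_ar_prod (fun p q => e₁ ^ p * e₂ ^ q ∈ H)
    Nat.one_le_two_pow (lam_zt (L := L) fu a) (lam_zt (L := L) fv a) fun p q hpq => by
      have b1 := hcl p q hpq
      have b2 := H.mul_mem hpq (H.inv_mem b1)
      rw [mul_inv_cancel_right] at b2
      simpa using ⟨b2, b1⟩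
  obtain ⟨b, c, w, ⟨hb, hc', -, hw⟩, e⟩ := A.lam_main hF hc h hN a1 a2 (le_refl 1)
    (fun p q hpq => by
      obtain ⟨b1, b2⟩ := a3 p q hpq
      rw [one_mul, one_mul, b1, b2, one_mul]
      exact ⟨rfl, rfl, rfl⟩)
    fun i l hI => by
      rw [one_mul, one_mul]
      rcases a4 i l hI with b | b | b
      exacts [Or.inl b, Or.inr (Or.inl b), Or.inr (Or.inr (Or.inl b))]
  refine ⟨b, c, hb, hc', fun z hz => ?_⟩
  obtain ⟨α, hα, β, hβ, γ, hγ, rfl⟩ := hw z hz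
  refine ⟨α + γ * c, add_mem hα (mul_mem hγ hc'.1), β, hβ, ?_⟩
  rw [pow_one] at e
  rw [← e]
  ring

theorem Amb.lam_node {F : IntermediateField A.K L} {a : ℕ} (hF : A.Good F a) {u v : L}
    (hc : A.Ch u v true true) {P : LP L} {e₁ e₂ : A.G} (h : A.Fr u v P e₁ e₂) {H : Subgroup A.G}
    (hN : F.fixingSubgroup ≤ H)
    (hcl : ∀ i j : ℕ, e₁ ^ i * e₂ ^ j ∈ H → e₁ ^ (i + j) ∈ H ∧ e₂ ^ (i + j) ∈ H) :
    ∃ j, 1 ≤ j ∧ (res (cl u v) (A.fx H) P).AT j := by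
  obtain ⟨k, j, a1, a2, a3, a4⟩ := lam_ar_node (fun p q => e₁ ^ p * e₂ ^ q ∈ H)
    Nat.one_le_two_pow (lam_zt (L := L) true a) fun p q hpq => by simpa using hcl p q hpq
  exact ⟨j, a2, A.lam_main hF hc h hN a1 a1 a2 a3 a4⟩

end Vale.Agent.P300
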