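import Vale.Agent.P300.Top

/-! A smooth projective variety is locally contractible. In the affine chart `w j = 1` it is the
zero set of `c` polynomials with independent differentials (Euler: the differentials kill `v`, so
they stay independent on the hyperplane); the implicit function theorem
(`HasStrictFDerivAt.implicitFunction`, `implicitToOpenPartialHomeomorph`) gives an open partial
homeomorphism onto an open subset of the kernel; take preimages of small balls. -/

open scoped LinearAlgebra.Projectivization Topology Classical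
open Polynomial

namespace Vale.Agent.P300

variable {L : Type} [Field L] [Algebra ℂ L]

/-- the differential with given coefficients -/
noncomputable def locscD {ι : Type} [Fintype ι] (a : ι → ℂ) : (ι → ℂ) →L[ℂ] ℂ :=
  ∑ k, a k • ContinuousLinearMap.proj k

theorem locscD_apply {ι : Type} [Fintype ι] (a w : ι → ℂ) : locscD a w = ∑ k, a k * w k := by
  simp [locscD]

theorem locsc_deriv {ι : Type} [Fintype ι] (P : MvPolynomial ι ℂ) (v : ι → ℂ) :
    HasStrictFDerivAt (fun w : ι → ℂ => MvPolynomial.eval w P)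
      (locscD fun k => MvPolynomial.eval v (MvPolynomial.pderiv k P)) v := by
  induction P using MvPolynomial.induction_on with
  | C a =>
    simp only [MvPolynomial.eval_C]
    refine (hasStrictFDerivAt_const (𝕜 := ℂ) a v).congr_fderiv
      (ContinuousLinearMap.ext fun w => ?_)
    simp [locscD_apply]
  | add p q hp hq =>
    simp only [map_add]
    refine (hp.add hq).congr_fderiv (ContinuousLinearMap.ext fun w => ?_)
    simp [locscD_apply, add_mul, Finset.sum_add_distrib]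
  | mul_X p i hp =>
    simp only [map_mul, MvPolynomial.eval_X]
    refine (hp.mul (hasStrictFDerivAt_apply (𝕜 := ℂ) i v)).congr_fderiv
      (ContinuousLinearMap.ext fun w => Eq.symm ?_)
    simp only [locscD_apply, MvPolynomial.pderiv_mul, map_add, map_mul, MvPolynomial.eval_X,
      ContinuousLinearMap.add_apply, ContinuousLinearMap.smul_apply, smul_eq_mul,
      ContinuousLinearMap.proj_apply, add_mul, Finset.sum_add_distrib, MvPolynomial.pderiv_X]
    rw [add_comm, Finset.mul_sum]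
    congr 1
    · rw [Finset.sum_eq_single i]
      · simp
      · intro k _ hk
        simp [hk.symm]
      · simp
    · exact Finset.sum_congr rfl fun k _ => by ring

theorem locsc_surj {ι : Type} [Fintype ι] {c : ℕ} (A : Fin c → ι → ℂ)
    (hA : LinearIndependent ℂ A) (a : Fin c → ℂ) : ∃ w : ι → ℂ, ∀ i, ∑ k, A i k * w k = a i := by
  have h1 : (Matrix.of A).rank = Fintype.card (Fin c) :=
    LinearIndependent.rank_matrix (M := Matrix.of A) hA
  have h2 : LinearMap.range (Matrix.of A).mulVecLin = ⊤ := by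
    apply Submodule.eq_top_of_finrank_eq
    rw [Module.finrank_fintype_fun_eq_card]
    exact h1
  obtain ⟨w, hw⟩ := LinearMap.range_eq_top.1 h2 a
  exact ⟨w, fun i => congrFun hw i⟩

/-- local structure of the affine slice -/
theorem locsc_chart {ι : Type} [Fintype ι] {c : ℕ} (F : Fin c → MvPolynomial ι ℂ) (v : ι → ℂ)
    (j : ι) (hj : v j = 1) (hF : ∀ i, ∃ d, (F i).IsHomogeneous d)
    (h0 : ∀ i, MvPolynomial.eval v (F i) = 0)
    (hl : LinearIndependent ℂ fun i => fun k => MvPolynomial.eval v (MvPolynomial.pderiv k (F i))) :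
    ∃ (K : Submodule ℂ (ι → ℂ)) (e : OpenPartialHomeomorph (ι → ℂ) (((Fin c → ℂ) × ℂ) × K)),
      v ∈ e.source ∧ e v = ((0, 1), 0) ∧
        ∀ w, (e w).1 = (fun i => MvPolynomial.eval w (F i), w j) := by
  have hd : HasStrictFDerivAt (fun w : ι → ℂ => ((fun i => MvPolynomial.eval w (F i), w j) :
      (Fin c → ℂ) × ℂ))
      ((ContinuousLinearMap.pi fun i =>
        locscD fun k => MvPolynomial.eval v (MvPolynomial.pderiv k (F i))).prod
        (ContinuousLinearMap.proj j)) v :=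
    (hasStrictFDerivAt_pi.2 fun i => locsc_deriv (F i) v).prodMk
      (hasStrictFDerivAt_apply (𝕜 := ℂ) j v)
  have hE : ∀ i, ∑ k, MvPolynomial.eval v (MvPolynomial.pderiv k (F i)) * v k = 0 := by
    intro i
    obtain ⟨d, hd⟩ := hF i
    have h := congrArg (MvPolynomial.eval v) hd.sum_X_mul_pderiv
    simp only [map_sum, map_mul, MvPolynomial.eval_X, nsmul_eq_mul, h0 i, mul_zero] at h
    rw [← h]
    exact Finset.sum_congr rfl fun k _ => mul_comm _ _
  have hs : ((ContinuousLinearMap.pi fun i =>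
        locscD fun k => MvPolynomial.eval v (MvPolynomial.pderiv k (F i))).prod
        (ContinuousLinearMap.proj j) : (ι → ℂ) →L[ℂ] (Fin c → ℂ) × ℂ).range = ⊤ := by
    refine LinearMap.range_eq_top.2 ?_
    rintro ⟨a, b⟩
    obtain ⟨w, hw⟩ := locsc_surj _ hl a
    refine ⟨w + (b - w j) • v, ?_⟩
    ext i
    · simp only [ContinuousLinearMap.coe_coe, ContinuousLinearMap.prod_apply,
        ContinuousLinearMap.pi_apply, map_add, map_smul, locscD_apply, Prod.fst_add, Prod.smul_fst,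
        Pi.add_apply, Pi.smul_apply, hw i, hE i, smul_zero, add_zero]
    · simp [hj]
  refine ⟨_, hd.implicitToOpenPartialHomeomorph _ _ hs,
    hd.mem_implicitToOpenPartialHomeomorph_source hs, ?_, fun w => rfl⟩
  rw [hd.implicitToOpenPartialHomeomorph_self hs, hj]
  congr 2
  ext i
  exact h0 i

theorem locsc_ne {ι : Type} {j : ι} {ξ : ℙ ℂ (ι → ℂ)} (h : ξ.rep j ≠ 0) :
    (fun i => ξ.rep i / ξ.rep j) ≠ 0 := fun e => by
  have := congrFun e j
  simp [h] at this

theorem locsc_mk {ι : Type} {j : ι} {ξ : ℙ ℂ (ι → ℂ)} (h : ξ.rep j ≠ 0) :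
    Projectivization.mk ℂ (fun i => ξ.rep i / ξ.rep j) (locsc_ne h) = ξ := by
  conv_rhs => rw [← ξ.mk_rep]
  rw [Projectivization.mk_eq_mk_iff']
  refine ⟨(ξ.rep j)⁻¹, ?_⟩
  ext i
  simp [div_eq_inv_mul]

theorem locsc_rep {ι : Type} {j : ι} {w : ι → ℂ} (hw : w ≠ 0) (h : w j = 1) :
    (Projectivization.mk ℂ w hw).rep j ≠ 0 ∧
      (fun i => (Projectivization.mk ℂ w hw).rep i / (Projectivization.mk ℂ w hw).rep j) = w := by
  obtain ⟨a, ha⟩ := Projectivization.exists_smul_eq_mk_rep ℂ w hw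
  rw [← ha]
  have h1 : ∀ i, (a • w) i = (a : ℂ) * w i := fun i => rfl
  refine ⟨by rw [h1, h, mul_one]; exact a.ne_zero, ?_⟩
  ext i
  rw [h1, h1, h, mul_one, mul_div_cancel_left₀ _ a.ne_zero]

theorem IsSmoothProj.contractible {ι : Type} [Fintype ι] {X : Set (ℙ ℂ (ι → ℂ))}
    (h : IsSmoothProj X) (x : X) (U : Set X) (hU : U ∈ 𝓝 x) :
    ∃ V : Set X, IsOpen V ∧ x ∈ V ∧ V ⊆ U ∧ ContractibleSpace V := by
  obtain ⟨j, hj⟩ : ∃ j, x.1.rep j ≠ 0 := ⟨_, nz_spec x.1⟩
  obtain ⟨ch, hch⟩ : ∃ ch : ℙ ℂ (ι → ℂ) → ι → ℂ, ch = fun ξ i => ξ.rep i / ξ.rep j := ⟨_, rfl⟩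
  have hc0 : ∀ ξ : ℙ ℂ (ι → ℂ), ξ.rep j ≠ 0 → ch ξ ≠ 0 := fun ξ hξ => by
    rw [hch]; exact locsc_ne hξ
  have hc1 : ∀ ξ : ℙ ℂ (ι → ℂ), ξ.rep j ≠ 0 → ch ξ j = 1 := fun ξ hξ => by
    rw [hch]; exact div_self hξ
  have hcm : ∀ (ξ : ℙ ℂ (ι → ℂ)) (hξ : ξ.rep j ≠ 0), Projectivization.mk ℂ (ch ξ) (hc0 ξ hξ) = ξ :=
    fun ξ hξ => by subst hch; exact locsc_mk hξ
  have hcc : ContinuousOn ch {ξ | ξ.rep j ≠ 0} := by
    rw [hch]; exact continuousOn_pi.2 fun i => continuousOn_chart i j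
  have hcr : ∀ (w : ι → ℂ) (hw : w ≠ 0), w j = 1 → (Projectivization.mk ℂ w hw).rep j ≠ 0 ∧
      ch (Projectivization.mk ℂ w hw) = w := fun w hw h1 => by
    rw [hch]; exact locsc_rep hw h1
  have hxX : Projectivization.mk ℂ (ch x.1) (hc0 _ hj) ∈ X := by rw [hcm _ hj]; exact x.2
  obtain ⟨c, F, hF, hl, hev⟩ := h (ch x.1) (hc0 _ hj) hxX
  have h0 : ∀ i, MvPolynomial.eval (ch x.1) (F i) = 0 := (hev.self_of_nhds (hc0 _ hj)).1 hxX
  obtain ⟨K, e, hes, hev0, he1⟩ := locsc_chart F (ch x.1) j (hc1 _ hj) hF h0 hl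
  obtain ⟨U', hU', hUU⟩ := (mem_nhds_subtype X x U).1 hU
  have hU2 : ∀ᶠ w in 𝓝 (ch x.1), ∀ hw : w ≠ 0, Projectivization.mk ℂ w hw ∈ U' := by
    have hcont : Continuous fun w : {w : ι → ℂ // w ≠ 0} => Projectivization.mk ℂ w.1 w.2 :=
      (isOpenQuotientMap_mk ι).continuous
    have h1 : ∀ᶠ w : {w : ι → ℂ // w ≠ 0} in 𝓝 ⟨ch x.1, hc0 _ hj⟩,
        Projectivization.mk ℂ w.1 w.2 ∈ U' := by
      refine hcont.continuousAt.eventually_mem ?_
      simp only
      rw [hcm _ hj]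
      exact hU'
    have h2 := (isOpen_ne.isOpenMap_subtype_val.image_mem_nhds h1 :)
    filter_upwards [h2] with w hw
    obtain ⟨w', h3, rfl⟩ := hw
    exact fun _ => h3
  obtain ⟨W, hW, hWo, hxW⟩ := mem_nhds_iff.1
    (hev.and (hU2.and (e.open_source.mem_nhds hes)))
  have hWs : W ⊆ e.source := fun w hw => (hW hw).2.2
  have het : (((0, 1), 0) : ((Fin c → ℂ) × ℂ) × K) ∈ e.target := hev0 ▸ e.map_source hes
  have hk : ∀ᶠ k : K in 𝓝 0, (((0, 1), k) : ((Fin c → ℂ) × ℂ) × K) ∈ e.target ∧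
      e.symm ((0, 1), k) ∈ W := by
    have hc : ContinuousAt (fun k : K => (((0, 1), k) : ((Fin c → ℂ) × ℂ) × K)) 0 := by fun_prop
    refine (hc.eventually_mem (e.open_target.mem_nhds het)).and ?_
    have h2 : ContinuousAt (fun k : K => e.symm ((0, 1), k)) 0 :=
      ContinuousAt.comp (f := fun k : K => (((0, 1), k) : ((Fin c → ℂ) × ℂ) × K))
        (e.continuousAt_symm het) hc
    refine h2.eventually_mem ?_
    rw [← hev0, e.left_inv hes]
    exact hWo.mem_nhds hxW
  obtain ⟨r, hr, hball⟩ := Metric.eventually_nhds_iff_ball.1 hk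
  have hb1 : ∀ k ∈ Metric.ball (0 : K) r, (∀ i, MvPolynomial.eval (e.symm ((0, 1), k)) (F i) = 0) ∧
      e.symm ((0, 1), k) j = 1 := by
    intro k hk
    have h1 := he1 (e.symm ((0, 1), k))
    rw [e.right_inv (hball k hk).1] at h1
    exact ⟨fun i => (congrFun (congrArg Prod.fst h1) i).symm, (congrArg Prod.snd h1).symm⟩
  have hb0 : ∀ k : Metric.ball (0 : K) r, e.symm ((0, 1), k.1) ≠ 0 := fun k e0 => by
    have := (hb1 k.1 k.2).2
    rw [e0] at this
    exact zero_ne_one this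
  have hbX : ∀ k : Metric.ball (0 : K) r, Projectivization.mk ℂ _ (hb0 k) ∈ X := fun k =>
    ((hW (hball k.1 k.2).2).1 (hb0 k)).2 (hb1 k.1 k.2).1
  obtain ⟨A, hA⟩ : ∃ A : Set (ℙ ℂ (ι → ℂ)), A = {ξ | ξ.rep j ≠ 0} ∩
      ch ⁻¹' (W ∩ e ⁻¹' (Prod.snd ⁻¹' Metric.ball 0 r)) := ⟨_, rfl⟩
  have hAo : IsOpen A := by
    rw [hA]
    exact hcc.isOpen_inter_preimage (isOpen_chart j)
      ((e.continuousOn.mono hWs).isOpen_inter_preimage hWo
        (Metric.isOpen_ball.preimage continuous_snd))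
  have hAm : ∀ ξ, ξ ∈ A ↔ ξ.rep j ≠ 0 ∧ ch ξ ∈ W ∧ (e (ch ξ)).2 ∈ Metric.ball (0 : K) r :=
    fun ξ => by rw [hA]; rfl
  have hAe : ∀ ξ ∈ A, ξ ∈ X → e (ch ξ) = ((0, 1), (e (ch ξ)).2) := by
    intro ξ hξ hX
    obtain ⟨a1, a2, -⟩ := (hAm ξ).1 hξ
    refine Prod.ext ?_ rfl
    rw [he1, hc1 ξ a1]
    congr 1
    ext i
    exact ((hW a2).1 (hc0 ξ a1)).1 (by rw [hcm ξ a1]; exact hX) i
  have hbA : ∀ k : Metric.ball (0 : K) r, Projectivization.mk ℂ _ (hb0 k) ∈ A := fun k => by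
    obtain ⟨a1, a2⟩ := hcr _ (hb0 k) (hb1 k.1 k.2).2
    refine (hAm _).2 ⟨a1, ?_, ?_⟩
    · rw [a2]; exact (hball k.1 k.2).2
    · rw [a2, e.right_inv (hball k.1 k.2).1]; exact k.2
  refine ⟨Subtype.val ⁻¹' A, hAo.preimage continuous_subtype_val, ?_, ?_, ?_⟩
  · refine (hAm _).2 ⟨hj, hxW, ?_⟩
    rw [hev0]
    exact Metric.mem_ball_self hr
  · intro ξ hξ
    obtain ⟨a1, a2, -⟩ := (hAm ξ.1).1 hξ
    apply hUU
    have := (hW a2).2.1 (hc0 _ a1)
    rwa [hcm _ a1] at this
  · have := Metric.contractibleSpace_ball (x := (0 : K)) hr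
    let φ : (Subtype.val ⁻¹' A : Set X) ≃ₜ Metric.ball (0 : K) r :=
      { toFun := fun ξ => ⟨(e (ch ξ.1.1)).2, ((hAm _).1 ξ.2).2.2⟩
        invFun := fun k => ⟨⟨Projectivization.mk ℂ _ (hb0 k), hbX k⟩, hbA k⟩
        left_inv := fun ξ => by
          obtain ⟨a1, a2, -⟩ := (hAm ξ.1.1).1 ξ.2
          refine Subtype.ext (Subtype.ext ?_)
          have h1 : e.symm ((0, 1), (e (ch ξ.1.1)).2) = ch ξ.1.1 := by
            rw [← hAe _ ξ.2 ξ.1.2, e.left_inv (hWs a2)]
          simp only [h1]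
          exact hcm _ a1
        right_inv := fun k => by
          refine Subtype.ext ?_
          simp only
          rw [(hcr _ (hb0 k) (hb1 k.1 k.2).2).2, e.right_inv (hball k.1 k.2).1]
        continuous_toFun := by
          refine Continuous.subtype_mk (continuous_snd.comp ?_) _
          refine e.continuousOn.comp_continuous (hcc.comp_continuous
            (continuous_subtype_val.comp continuous_subtype_val)
            fun ξ => ((hAm _).1 ξ.2).1) fun ξ => hWs ((hAm _).1 ξ.2).2.1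
        continuous_invFun := by
          refine Continuous.subtype_mk (Continuous.subtype_mk (continuous_mk ?_ hb0) _) _
          exact e.continuousOn_symm.comp_continuous (by fun_prop) fun k => (hball k.1 k.2).1 }
    exact φ.contractibleSpace

end Vale.Agent.P300
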