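import Vale.Agent.P300.Cfg
import Vale.Agent.P300.GS4
import Vale.Agent.P300.Cof
import Vale.Agent.P300.Ine3
import Vale.Agent.P300.Frat1
import Vale.Agent.P300.Frat2

/-! Existence of the data. `exists_amb`: algebraic closure of `FractionRing (MvPolynomial (Fin 2) ℂ)`.
`exists_cfg`: `V0` by `exists_over` (`A.ind` via `ch_hc (some zero)`); `Pn (fin 0 a)` on `V0` (`over_main`,
`exists_on`), `V a` by `exists_over_on` on the swapped chart (`Ch.swap`, `cl_swap`), then the points `Ph`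
(`over_main`, `over_bub`; `hc (some (dia a)) = (z - mu a, yb a)` by `rfl`), other `Pn` by `exists_ab`;
`exists_fr`. `exists_pack`: `gs_pack` with `P = pi`, `𝒩 = NN`, `x i = C.x (some i)`, `γ zero = n1 zero`,
`γ (cst b) = n1 (fin b 0)` (`node_cusp`, `gen_G`), `α = {b : Mu // b ≠ 0}`, `β = Fin 5`,
`δ = Option Sec ⊕ Nd`; `gen_pi`, `cof` (`hb_inert`), `sec_sign`. -/

open scoped LinearAlgebra.Projectivization Topology Classical Pointwise
open Polynomial

set_option linter.unusedSectionVars false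

namespace Vale.Agent.P300

theorem exists_amb :
    ∃ (L : Type) (_ : Field L) (_ : Algebra ℂ L) (_ : IsAlgClosed L), Nonempty (Amb L) := by
  let R := MvPolynomial (Fin 2) ℂ
  let L := AlgebraicClosure (FractionRing R)
  have h1 : Algebra.IsAlgebraic R (FractionRing R) := IsLocalization.isAlgebraic _ (nonZeroDivisors R)
  have h2 : Algebra.IsAlgebraic R L := Algebra.IsAlgebraic.trans R (FractionRing R) L
  have h0 : FaithfulSMul R L := (faithfulSMul_iff_algebraMap_injective R L).2 (by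
    rw [IsScalarTower.algebraMap_eq R (FractionRing R) L]
    exact (algebraMap (FractionRing R) L).injective.comp (IsFractionRing.injective R _))
  have h3 := (IsTranscendenceBasis.mvPolynomial (Fin 2) ℂ).algebraMap_comp (A := L)
  have e : (algebraMap R L) ∘ MvPolynomial.X =
      ![algebraMap R L (MvPolynomial.X 0), algebraMap R L (MvPolynomial.X 1)] := by
    funext i
    fin_cases i <;> rfl
  rw [e] at h3
  have h4 := h3.isAlgebraic_field
  rw [Matrix.range_cons_cons_empty] at h4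
  exact ⟨L, inferInstance, inferInstance, inferInstance, ⟨⟨_, _, h3.1, h4⟩⟩⟩

variable {L : Type} [Field L] [Algebra ℂ L] [IsAlgClosed L] {A : Amb L}

theorem Amb.exists_cfg (A : Amb L) : Nonempty A.Cfg := by
  obtain ⟨V0, hV0⟩ : ∃ V, Over V (A.s - 1) A.z := exists_over (A.ch_hc (some .zero)).ind
  obtain ⟨k1, k2, -⟩ := A.over_main hV0
  have h1 : ∀ n : Nd, ∃ P, Ab (cl (A.nc n).1 (A.nc n).2) P ∧ ∀ a, n = .fin 0 a → On P V0 := by
    intro n
    by_cases h : ∃ a, n = .fin 0 a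
    · obtain ⟨a, rfl⟩ := h
      obtain ⟨P, h1, h2⟩ := exists_on (k2 a) (A.ch_nc _).ind
      exact ⟨P, h1, fun _ _ => h2⟩
    · obtain ⟨P, h1⟩ := exists_ab (cl (A.nc n).1 (A.nc n).2)
      exact ⟨P, h1, fun a e => absurd ⟨a, e⟩ h⟩
  choose Pn hPn on0 using h1
  have h2 : ∀ a, ∃ V, Over V (A.nc (.fin 0 a)).2 (A.nc (.fin 0 a)).1 ∧ On (Pn (.fin 0 a)) V := by
    intro a
    have hc := A.ch_nc (.fin 0 a)
    exact A.exists_over_on (hc.swap A).ind (hc.swap A).gen (by
      rw [← cl_swap hc.ind]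
      exact hPn _)
  choose V hV on1 using h2
  have h3 : ∀ i : Option Sec, ∃ P, Ab (cl (A.hc i).1 (A.hc i).2) P ∧
      On P (match i with
        | none => V0
        | some .zero => V0
        | some (.cst a) => V a
        | some (.dia a) => V a) := by
    rintro (_ | _ | a | a)
    · exact exists_on k1 (A.ch_hc _).ind
    · exact exists_on hV0 (A.ch_hc _).ind
    · exact exists_on (A.over_bub a (hV a)).2.1 (A.ch_hc _).ind
    · exact exists_on (A.over_bub a (hV a)).1 (A.ch_hc _).ind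
  choose Ph hPh onh using h3
  choose y x frh using fun i => A.exists_fr (A.ch_hc i).ind (A.ch_hc i).gen (hPh i)
  choose n1 n2 frn using fun n => A.exists_fr (A.ch_nc n).ind (A.ch_nc n).gen (hPn n)
  exact ⟨⟨V0, V, Ph, y, x, Pn, n1, n2, hV0, hV, frh, frn, onh none, onh (some .zero),
    fun a => onh (some (.cst a)), fun a => onh (some (.dia a)), fun a => on0 _ a rfl, on1⟩⟩

theorem Amb.Cfg.kum (C : A.Cfg) (i : Sec) : A.Kum (C.x (some i)) i :=
  A.hb_kum (A.ch_hc _) (A.hb_hc _) (C.frh _)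

theorem Amb.Cfg.x_pi (C : A.Cfg) (i : Option Sec) : C.x i ∈ A.pi :=
  A.hb_pi (A.ch_hc _) (A.hb_hc _) (C.frh _)

theorem Amb.Cfg.c_pi (C : A.Cfg) (n : Nd) : C.c n ∈ A.pi := A.node_pi n (C.frn n)

theorem Amb.Cfg.exists_pack (C : A.Cfg) : Nonempty C.Pack := by
  let nd : Cusp → Nd := fun j => match j with
    | .zero => .zero
    | .cst b => .fin b 0
  have hnd : ∀ j, (nd j).cusp = some j := fun j => by cases j <;> rfl
  let q : Fin 5 → A.G := ![C.x (some .zero), C.x none, C.c (.fin 0 0), C.x (some (.cst 0)),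
    C.x (some (.dia 0))]
  have hq : ∀ i, q i ∈ A.pi := fun i => by
    fin_cases i
    exacts [C.x_pi _, C.x_pi _, C.c_pi _, C.x_pi _, C.x_pi _]
  obtain ⟨a, E, B, -, h1, h2, h3, h4, h5⟩ := gs_pack A.pi A.NN A.NN_ne A.NN_dir
    (by rintro _ ⟨F, a, hF, rfl⟩; exact (hF.tw.fix A hF.normal).1)
    (by rintro _ ⟨F, a, hF, rfl⟩; exact (hF.tw.fix A hF.normal).2.1)
    (ι := Sec) (κ := Cusp) (α := {b : Mu // b ≠ 0}) (β := Fin 5) (δ := Option Sec ⊕ Nd)
    card_Sec card_Cusp (by simp) (by simp) (fun i => C.x (some i)) (fun j => C.n1 (nd j))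
    (fun b => C.c (.fin 0 b.1)) q (Sum.elim C.x C.c) (fun _ => C.x_pi _) (fun _ => C.c_pi _) hq
    (by rintro (i | n); exacts [C.x_pi i, C.c_pi n])
    (by rintro _ ⟨F, a, hF, rfl⟩; exact A.gen_pi C.kum hF)
    (by rintro _ ⟨F, a, hF, rfl⟩; exact A.gen_G (fun j => A.node_cusp (hnd j) (C.frn _)) hF)
    (A.cof C.kum fun i => A.hb_inert (A.ch_hc _) (A.hb_hc _) (C.frh _))
    (fun i => by
      obtain ⟨χ, k1, k2⟩ := A.sec_sign i
      exact ⟨χ, fun j => by convert k2 _ j (C.kum j), k1⟩)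
  exact ⟨⟨a, E, B, h1, h2, h3, h4, fun M => (h5 M).1, fun M => (h5 M).2.1, fun M => (h5 M).2.2.1,
    fun M b hb => (h5 M).2.2.2.1 ⟨b, hb⟩, fun M => (h5 M).2.2.2.2.1 0, fun M => (h5 M).2.2.2.2.1 1,
    fun M => (h5 M).2.2.2.2.1 2, fun M => (h5 M).2.2.2.2.1 3, fun M => (h5 M).2.2.2.2.1 4,
    fun M i => (h5 M).2.2.2.2.2.1 (.inl i), fun M n => (h5 M).2.2.2.2.2.1 (.inr n),
    fun M => (h5 M).2.2.2.2.2.2⟩⟩

end Vale.Agent.P300
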