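import Vale.Agent.P300.M1

/-! Group theory of the subgroups `H M`. `lv`: `NN_dir`, `good_exists` (`Tw.fix`: fixing subgroups of good levels
are normal of finite index; a commutator of `n ∈ N` and `h ∈ pi` lies in `pi ⊓ N`). `H_idx`: `cen_index`
(`gen_pi`: write `p = w n`, `n ∈ pi ⊓ N`), `Subgroup.inf_relIndex_right`, monotonicity of finite indices.
`stab`: only the class of `g` in `E \ G` and `r % n` matter, a finite set of cases. -/

open scoped LinearAlgebra.Projectivization Topology Classical Pointwise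
open Polynomial

set_option linter.unusedSectionVars false

namespace Vale.Agent.P300

theorem stab {G : Type} [Group G] (E : Subgroup G) [E.FiniteIndex] (H : ℕ → Subgroup G)
    (anti : Antitone H) (nor : ∀ M, ∀ g ∈ E, ∀ h ∈ H M, g * h * g⁻¹ ∈ H M) {δ : Type} [Finite δ]
    (d : δ → G) {n : ℕ} (hn : 1 ≤ n) (hd : ∀ M i g, g * d i ^ n * g⁻¹ ∈ H M) :
    ∃ M₀, ∀ M i g (r : ℕ), g * d i ^ r * g⁻¹ ∈ H M₀ → g * d i ^ r * g⁻¹ ∈ H M := by
  have h1 : ∀ z : G, ∃ m, z ∈ H m → ∀ M, z ∈ H M := fun z => by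
    by_cases h : ∀ M, z ∈ H M
    · exact ⟨0, fun _ => h⟩
    · obtain ⟨m, hm⟩ := not_forall.1 h
      exact ⟨m, fun k => (hm k).elim⟩
  choose m hm using h1
  obtain ⟨M₀, hM₀⟩ := Finite.bddAbove_range fun t : δ × (G ⧸ E) × Fin n =>
    m (t.2.1.out⁻¹ * d t.1 ^ (t.2.2 : ℕ) * t.2.1.out)
  refine ⟨M₀, fun M i g r h => ?_⟩
  obtain ⟨u, hu⟩ := QuotientGroup.mk_out_eq_mul E g⁻¹
  have h2 : ∀ M, g * d i ^ r * g⁻¹ ∈ H M ↔
      (g⁻¹ * u)⁻¹ * d i ^ (r % n) * (g⁻¹ * u) ∈ H M := fun M => by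
    have e : g * d i ^ r * g⁻¹ = (g * d i ^ n * g⁻¹) ^ (r / n) * (g * d i ^ (r % n) * g⁻¹) := by
      rw [conj_pow, ← pow_mul]
      conv_lhs => rw [← Nat.div_add_mod r n, pow_add]
      group
    rw [e, Subgroup.mul_mem_cancel_left _ (pow_mem (hd M i g) _)]
    refine ⟨fun k => ?_, fun k => ?_⟩
    · convert nor M _ (inv_mem u.2) _ k using 1
      group
    · convert nor M _ u.2 _ k using 1
      group
  have h3 := hM₀ ⟨(i, (g⁻¹ : G), ⟨r % n, Nat.mod_lt r hn⟩), rfl⟩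
  simp only [hu] at h3
  exact (h2 M).2 (hm _ (anti h3 ((h2 M₀).1 h)) M)

theorem exists_cosets {G : Type} [Group G] (P H H' : Subgroup G) (hf : H.relIndex P ≠ 0) (n : ℕ)
    (h : n * H.relIndex P ≤ H'.relIndex P) (hle : H' ≤ H) :
    ∃ g : Fin n → G, (∀ k, g k ∈ P ∧ g k ∈ H) ∧ ∀ k l, (g k)⁻¹ * g l ∈ H' → k = l := by
  rcases Nat.eq_zero_or_pos n with rfl | hn
  · exact ⟨Fin.elim0, fun k => k.elim0, fun k => k.elim0⟩
  have h1 := Subgroup.relIndex_mul_relIndex (H' ⊓ P) (H ⊓ P) P (inf_le_inf_right P hle)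
    inf_le_right
  rw [Subgroup.inf_relIndex_right, Subgroup.inf_relIndex_right] at h1
  have h2 : n ≤ (H' ⊓ P).relIndex (H ⊓ P) :=
    Nat.le_of_mul_le_mul_right (h.trans h1.ge) (Nat.pos_of_ne_zero hf)
  have : Finite (↥(H ⊓ P) ⧸ (H' ⊓ P).subgroupOf (H ⊓ P)) :=
    Nat.finite_of_card_ne_zero (hn.trans_le h2).ne'
  let f : Fin n → ↥(H ⊓ P) ⧸ (H' ⊓ P).subgroupOf (H ⊓ P) := fun k =>
    (Finite.equivFin _).symm (Fin.castLE h2 k)
  refine ⟨fun k => (f k).out, fun k => ⟨(f k).out.2.2, (f k).out.2.1⟩, fun k l hkl => ?_⟩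
  have h3 : f k = f l := by
    rw [← (f k).out_eq', ← (f l).out_eq']
    exact QuotientGroup.eq.2 ⟨hkl, ((f k).out⁻¹ * (f l).out).2.2⟩
  exact Fin.castLE_injective h2 ((Finite.equivFin _).symm.injective h3)

variable {L : Type} [Field L] [Algebra ℂ L] [IsAlgClosed L] {A : Amb L} {C : A.Cfg} (D : C.Pack)

theorem Amb.Cfg.Pack.H_le (M : ℕ) : D.H M ≤ D.E := inf_le_left

theorem Amb.Cfg.Pack.H_nor (M : ℕ) : ∀ g ∈ D.E, ∀ h ∈ D.H M, g * h * g⁻¹ ∈ D.H M := by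
  intro g hg h hh
  refine ⟨D.E.mul_mem (D.E.mul_mem hg hh.1) (D.E.inv_mem hg), mem_cenS.2 fun p hp => ?_⟩
  convert D.nor M g hg _ (mem_cenS.1 hh.2 _ (Subgroup.Normal.conj_mem inferInstance p hp g⁻¹))
    using 1
  group

theorem Amb.Cfg.Pack.H_anti : Antitone D.H := fun _ _ h _ hg =>
  ⟨hg.1, mem_cenS.2 fun p hp => D.anti h (mem_cenS.1 hg.2 p hp)⟩

theorem Amb.Cfg.Pack.B_le (M : ℕ) : D.B M ≤ D.H M := fun b hb =>
  ⟨D.piE (D.le M hb), mem_cenS.2 fun p hp => by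
    convert mul_mem hb (D.nor M p (D.piE hp) _ (inv_mem hb)) using 1
    group⟩

theorem Amb.Cfg.Pack.lv (M : ℕ) : ∃ F b, D.Lv M F b := by
  obtain ⟨N₁, h1, h2⟩ := D.opE
  obtain ⟨N₂, h3, h4⟩ := D.opB M
  obtain ⟨_, ⟨F₀, a, h5, rfl⟩, h6⟩ := A.NN_dir N₁ h1 N₂ h3
  obtain ⟨F, b, h7, h8, h9⟩ := A.good_exists h5.tw D.a
  have h10 := (IntermediateField.fixingSubgroup_le h8).trans h6
  have h11 : A.pi ⊓ F.fixingSubgroup ≤ D.B M :=
    (inf_le_inf_left _ (h10.trans inf_le_right)).trans h4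
  have hN := (h7.tw.fix A h7.normal).1
  refine ⟨F, b, h7, h9, fun n hn => ⟨h2 (h10 hn).1, mem_cenS.2 fun p hp => h11 ⟨A.pi.mul_mem
    (Subgroup.Normal.conj_mem inferInstance p hp n) (A.pi.inv_mem hp), ?_⟩⟩, h11⟩
  have e : n * p * n⁻¹ * p⁻¹ = n * (p * n⁻¹ * p⁻¹) := by group
  rw [e]
  exact F.fixingSubgroup.mul_mem hn (hN.conj_mem _ (inv_mem hn) p)

theorem Amb.Cfg.Pack.Lv.mono {D : C.Pack} {M M' : ℕ} {F : IntermediateField A.K L} {b : ℕ}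
    (h : D.Lv M F b) (hM : M' ≤ M) : D.Lv M' F b :=
  ⟨h.good, h.le, h.hH.trans (D.H_anti hM), h.hB.trans (D.anti hM)⟩

theorem Amb.Cfg.Pack.H_fin (M : ℕ) : (D.H M).relIndex A.pi ≠ 0 := by
  obtain ⟨F, b, h⟩ := D.lv M
  have := (h.good.tw.fix A h.good.normal).2.1
  have := Subgroup.finiteIndex_of_le h.hH
  exact Subgroup.FiniteIndex.index_ne_zero

theorem Amb.Cfg.Pack.H_idx (M₀ n : ℕ) : ∃ M, M₀ ≤ M ∧ n ≤ (D.H M).relIndex A.pi := by
  obtain ⟨M, hM⟩ := cen_index A.pi D.B (fun i => C.x (some i)) (fun i => C.x_pi _)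
    (e := 2 ^ D.a) Nat.one_le_two_pow D.le (fun M g hg => D.nor M g (D.piE hg)) (fun M p hp => by
      obtain ⟨F, b, h⟩ := D.lv M
      have := (h.good.tw.fix A h.good.normal).1
      obtain ⟨w, hw, n, hn, rfl⟩ := Subgroup.mem_sup_of_normal_right.1 (A.gen_pi C.kum h.good hp)
      have h1 : w ∈ A.pi := (Subgroup.closure_le _).2 (Set.range_subset_iff.2 fun i => C.x_pi _) hw
      exact Subgroup.mul_mem_sup hw (h.hB ⟨(Subgroup.mul_mem_cancel_left _ h1).1 hp, hn⟩))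
    (fun M i => by simpa using D.dx M (some i) 1) (fun M e => by
      obtain ⟨F, b, h⟩ := D.lv M
      have := (h.good.tw.fix A h.good.normal).2.1
      have h1 := Subgroup.relIndex_eq_zero_of_le_left h.hB e
      rw [Subgroup.inf_relIndex_left] at h1
      exact Subgroup.FiniteIndex.index_ne_zero h1) D.idx n
  exact ⟨max M₀ M, le_max_left _ _, hM.trans (Subgroup.relIndex_le_of_le_left
    ((D.H_anti (le_max_right _ _)).trans inf_le_right) (D.H_fin _))⟩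

theorem Amb.Cfg.Pack.H_stab : ∃ M₀, ∀ M g (r : ℕ),
    (∀ i, g * C.x i ^ r * g⁻¹ ∈ D.H M₀ → g * C.x i ^ r * g⁻¹ ∈ D.H M) ∧
      ∀ n, g * C.c n ^ r * g⁻¹ ∈ D.H M₀ → g * C.c n ^ r * g⁻¹ ∈ D.H M := by
  obtain ⟨F, b, h⟩ := D.lv 0
  have := (h.good.tw.fix A h.good.normal).2.1
  have := Subgroup.finiteIndex_of_le (h.hH.trans (D.H_le 0))
  obtain ⟨M₀, h1⟩ := stab D.E D.H D.H_anti D.H_nor (Sum.elim C.x C.c) (n := 2 ^ D.a)
    Nat.one_le_two_pow fun M i g => by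
      rcases i with i | i
      · exact D.B_le M (D.dx M i g)
      · exact D.B_le M (D.dc M i g)
  exact ⟨M₀, fun M g r => ⟨fun i => h1 M (.inl i) g r, fun i => h1 M (.inr i) g r⟩⟩

end Vale.Agent.P300
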