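import Vale.Agent.P300.Ine3
import Vale.Agent.P300.Frat1

/-! Vertical inertia acts trivially on the fibre group modulo `B`. For each section `i` use `fib_str`.
Crossing on the component itself: a point on `V` above it (`exists_on`, `exists_fr`), `x i = e₂`
(`hb_kum`) commutes with `e` modulo `N` (`iv_ip`, `ip_comm`). Crossing on a bubble: a point on `V` above
the node (`over_nc`), `e ≡ e₁ ^ k` (`iv_gen`), `e₁ = c e₂` with `c = e₁ e₂⁻¹` commuting with `e₂`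
modulo `N`; `V'` over the other branch through the point; `e₂ ∈ IV V'` commutes with the `x i` of a point
on `V'`; so `e ^ n x i e ^ (-n) ≡ c ^ (k n) x i c ^ (-k n)`. Conclude with `gen_pi`, `mem_cenS_of_gen`
(`N ≤ cenS`). Bubble: `e ≡ e₂ ^ k`, `e₂ = c⁻¹ e₁`, `e₁ ^ n ∈ cenS` by the main case, `B ≤ cenS`. -/

open scoped LinearAlgebra.Projectivization Topology Classical Pointwise
open Polynomial

set_option linter.unusedSectionVars false

namespace Vale.Agent.P300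

variable {L : Type} [Field L] [Algebra ℂ L] [IsAlgClosed L] (A : Amb L)

theorem grp_eq_VT {G : Type} [Group G] {P B N : Subgroup G} [N.Normal] (hB : B ≤ P)
    (hN : P ⊓ N ≤ B) {y z : G} (hy : y ∈ P) (hz : z ∈ B)
    (e : QuotientGroup.mk' N z = QuotientGroup.mk' N y) : y ∈ B := by
  have h := hN ⟨P.mul_mem (P.inv_mem (hB hz)) hy, QuotientGroup.eq.1 e⟩
  simpa using B.mul_mem hz h

theorem grp_comm_VT {G : Type} [Group G] {N : Subgroup G} [N.Normal] {g h : G}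
    (e : g * h * g⁻¹ * h⁻¹ ∈ N) : Commute (QuotientGroup.mk' N g) (QuotientGroup.mk' N h) := by
  have h1 := (QuotientGroup.eq_one_iff _).2 e
  rw [← QuotientGroup.mk'_apply, map_mul, map_mul, map_mul, map_inv, map_inv, mul_inv_eq_one,
    mul_inv_eq_iff_eq_mul] at h1
  exact h1

theorem grp_mk_VT {G : Type} [Group G] {N : Subgroup G} [N.Normal] {g h : G} (e : g * h⁻¹ ∈ N) :
    QuotientGroup.mk' N g = QuotientGroup.mk' N h := by
  have h1 := (QuotientGroup.eq_one_iff _).2 e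
  rwa [← QuotientGroup.mk'_apply, map_mul, map_inv, mul_inv_eq_one] at h1

theorem grp_main_VT {Q : Type} [Group Q] {a b x : Q} (hab : Commute a b) (hbx : Commute b x)
    (m : ℕ) : (a * b⁻¹) ^ m * x * ((a * b⁻¹) ^ m)⁻¹ * x⁻¹ = a ^ m * x * (a ^ m)⁻¹ * x⁻¹ := by
  have h := ((hbx.inv_left).pow_left m).eq
  rw [hab.inv_right.mul_pow, mul_assoc (a ^ m), h]
  group

theorem Amb.pt_VT {F : IntermediateField A.K L} {a : ℕ} (hF : A.Good F a)
    [F.fixingSubgroup.Normal] {u v : L} (hc : A.Ch u v true true) {i : Sec}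
    (hb : A.HB v u (some i)) {V : ValuationSubring L} (hV : Over V u v) {e : A.G}
    (he : A.IV V F e) : ∃ x, A.Kum x i ∧
      Commute (QuotientGroup.mk' F.fixingSubgroup e) (QuotientGroup.mk' F.fixingSubgroup x) := by
  obtain ⟨P, hP, ho⟩ := exists_on hV hc.ind
  obtain ⟨e₁, e₂, h⟩ := A.exists_fr hc.ind hc.gen hP
  exact ⟨e₂, A.hb_kum hc hb h, grp_comm_VT (A.ip_comm hF hc hP
    (A.iv_ip hP hF.normal (hc.sub A) ho he) (Amb.IP.mono A le_top h.i2))⟩

theorem Amb.vt_main {F : IntermediateField A.K L} {a : ℕ} (hF : A.Good F a) {B : Subgroup A.G}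
    (hB : B ≤ A.pi) (hn : ∀ g ∈ A.pi, ∀ h ∈ B, g * h * g⁻¹ ∈ B) (hN : A.pi ⊓ F.fixingSubgroup ≤ B)
    {n : ℕ} (hd : ∀ m P e₁ e₂, A.Fr (A.nc m).1 (A.nc m).2 P e₁ e₂ → (e₁ * e₂⁻¹) ^ n ∈ B)
    {j : Option Cusp} {V : ValuationSubring L} (hV : Over V (A.mc j).1 (A.mc j).2) {e : A.G}
    (he : A.IV V F e) : e ^ n ∈ cenS A.pi B := by
  have := (Amb.Tw.fix A hF.tw hF.normal).1
  have key : ∀ i : Sec, ∃ x, A.Kum x i ∧ e ^ n * x * (e ^ n)⁻¹ * x⁻¹ ∈ B := by
    intro i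
    have hp : ∀ x ∈ A.pi, e ^ n * x * (e ^ n)⁻¹ * x⁻¹ ∈ A.pi := fun x hx =>
      A.pi.mul_mem (A.pi_normal.conj_mem x hx _) (A.pi.inv_mem hx)
    obtain ⟨u, v, hc, hb, h | ⟨m, rfl, h⟩⟩ := A.fib_str j i
    · obtain ⟨x, hx, hcm⟩ := A.pt_VT hF hc hb (h V hV) he
      refine ⟨x, hx, grp_eq_VT hB hN (hp x hx.1) B.one_mem ?_⟩
      simp only [map_one, map_mul, map_inv, map_pow]
      rw [(hcm.pow_left n).eq]
      group
    · have hm := A.ch_nc m
      have hV1 := (A.over_nc m V).1 hV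
      obtain ⟨P, hP, ho⟩ := exists_on hV1 hm.ind
      obtain ⟨e₁, e₂, hf⟩ := A.exists_fr hm.ind hm.gen hP
      obtain ⟨k, hk⟩ := A.iv_gen hF hm hf hV1 ho he
      have hs := hf.swap A hm.ind
      obtain ⟨V', hV', ho'⟩ := A.exists_over_on (hm.swap A).ind (hm.swap A).gen hs.ab
      obtain ⟨x, hx, hcm⟩ := A.pt_VT hF hc hb (h V' hV')
        ((A.fr_ivo (hm.swap A) hs hV' ho').iv A hF.tw)
      have h12 := grp_comm_VT (A.ip_comm hF hm hP (Amb.IP.mono A le_top hf.i1)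
        (Amb.IP.mono A le_top hf.i2))
      have hd' := B.pow_mem (hd m P e₁ e₂ hf) k
      have hz : ((e₁ * e₂⁻¹) ^ n) ^ k * x * (((e₁ * e₂⁻¹) ^ n) ^ k)⁻¹ * x⁻¹ ∈ B := by
        have h1 := B.mul_mem hd' (hn x hx.1 _ (B.inv_mem hd'))
        simpa only [mul_assoc] using h1
      refine ⟨x, hx, grp_eq_VT hB hN (hp x hx.1) hz ?_⟩
      simp only [map_mul, map_inv, map_pow]
      rw [grp_mk_VT hk, map_pow, ← pow_mul, ← pow_mul, mul_comm k n]
      exact grp_main_VT h12 hcm _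
  choose x hx hx' using key
  exact mem_cenS_of_gen hB hn hN (fun i => (hx i).1) (A.gen_pi hx hF) hx'

theorem Amb.vt {F : IntermediateField A.K L} {a : ℕ} (hF : A.Good F a) {B : Subgroup A.G}
    (hB : B ≤ A.pi) (hn : ∀ g ∈ A.pi, ∀ h ∈ B, g * h * g⁻¹ ∈ B) (hN : A.pi ⊓ F.fixingSubgroup ≤ B)
    {n : ℕ} (hd : ∀ m P e₁ e₂, A.Fr (A.nc m).1 (A.nc m).2 P e₁ e₂ → (e₁ * e₂⁻¹) ^ n ∈ B)
    {u v : L} {fu fv : Bool} (hc : A.Ch u v fu fv) (hv : A.Ver u v) {P : LP L} {e₁ e₂ : A.G}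
    (h : A.Fr u v P e₁ e₂) : e₁ ^ n ∈ cenS A.pi B := by
  have hNn := (Amb.Tw.fix A hF.tw hF.normal).1
  obtain ⟨V, hV, ho⟩ := A.exists_over_on hc.ind hc.gen h.ab
  have he := (A.fr_ivo hc h hV ho).iv A hF.tw
  rcases hv with ⟨j, hj⟩ | ⟨m, hm'⟩
  · exact A.vt_main hF hB hn hN hd (hj V hV).1 he
  · have hm := A.ch_nc m
    have hs := hm.swap A
    have hV1 := (hm' V hV).1
    obtain ⟨P', hP, ho'⟩ := exists_on hV1 hs.ind
    obtain ⟨f₂, f₁, hf⟩ := A.exists_fr hs.ind hs.gen hP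
    obtain ⟨k, hk⟩ := A.iv_gen hF hs hf hV1 ho' he
    have hf' := hf.swap A hs.ind
    obtain ⟨V', hV', ho''⟩ := A.exists_over_on hm.ind hm.gen hf'.ab
    have h1 := A.vt_main hF hB hn hN hd ((A.over_nc m V').2 hV')
      ((A.fr_ivo hm hf' hV' ho'').iv A hF.tw)
    have h12 := grp_comm_VT (A.ip_comm hF hm hf'.ab (Amb.IP.mono A le_top hf'.i1)
      (Amb.IP.mono A le_top hf'.i2))
    have hBc : B ≤ cenS A.pi B := fun b hb g hg => by
      simpa only [mul_assoc] using B.mul_mem hb (hn g hg _ (B.inv_mem hb))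
    have hNc : F.fixingSubgroup ≤ cenS A.pi B := fun b hb g hg => hN
      (Subgroup.mem_inf.2 ⟨A.pi.mul_mem (A.pi_normal.conj_mem g hg _) (A.pi.inv_mem hg), by
        simpa only [mul_assoc] using
          F.fixingSubgroup.mul_mem hb (hNn.conj_mem _ (F.fixingSubgroup.inv_mem hb) g)⟩)
    have h2 := (cenS A.pi B).pow_mem
      ((cenS A.pi B).mul_mem ((cenS A.pi B).inv_mem (hBc (hd m P' f₁ f₂ hf'))) h1) k
    refine grp_eq_VT (P := ⊤) (N := F.fixingSubgroup) le_top (inf_le_right.trans hNc)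
      (Subgroup.mem_top _) h2 ?_
    simp only [map_mul, map_inv, map_pow]
    rw [grp_mk_VT hk, map_pow, h12.inv_right.mul_pow, ← pow_mul, mul_comm k n, pow_mul]
    congr 1
    group

end Vale.Agent.P300
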