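import Vale.Agent.P300.X3C

/-! Classification of the points of the blown-up plane. `X.Reg x` iff `(1, s, z)` and all pencils are
regular at `x`. Let `y = X.loc ξ`; find `u, v ∈ y.m` from the list below, then `cl u v ≤ y`
(`cl_le`), `X` is regular at `cl u v`, so the centre there is `ξ` and `y = cl u v` (`loc_of`).
Cases by the centre `[1 : s₀ : z₀]` in the plane. Not a multiple point: at most one vertical line
(`s = s₀` cusp, or the line at infinity) and at most one section pass through it; parameters are the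
forms (divided by `1` or `s`), order (section or free, vertical or free). Point `[0 : 0 : 1]`: the
exceptional curve is the section at infinity, `(1 / z, s - s₀)` or `(s / z, 1 / s)`. Other multiple
points: exceptional curves are bubbles; the direction of the vertical line is the node, the
direction of a section is a crossing point, otherwise only the bubble parameter is flagged. -/

open scoped LinearAlgebra.Projectivization Topology Classical Pointwise
open Polynomial

set_option linter.unusedSectionVars false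

namespace Vale.Agent.P300

variable {L : Type} [Field L] [Algebra ℂ L] [IsAlgClosed L] (A : Amb L)

theorem Amb.X_reg (x : LP L) : A.X.Reg x ↔
    (∃ j : Fin 3, ![1, A.s, A.z] j ≠ 0 ∧ ∀ i, ![1, A.s, A.z] i / ![1, A.s, A.z] j ∈ x.O) ∧
      ∀ m, A.pen m true / A.pen m false ∈ x.O ∨ A.pen m false / A.pen m true ∈ x.O := A.x3_reg x

theorem Amb.X_in : A.X.In A.K := by
  have h : ∀ p, A.X.f p ∈ A.K := by
    rintro ⟨i, e⟩
    rw [A.x3_f]
    refine mul_mem ?_ (prod_mem fun m _ => A.x3_penK m _)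
    fin_cases i
    exacts [one_mem _, A.pi_sK, A.pi_zK]
  exact fun i j => div_mem (h i) (h j)

theorem Amb.X_gen :
    A.K ≤ IntermediateField.adjoin ℂ (Set.range fun p : A.X.ι × A.X.ι => A.X.f p.1 / A.X.f p.2) :=
  by
  refine IntermediateField.adjoin_le_iff.2 ?_
  rintro _ (rfl | rfl)
  · refine IntermediateField.subset_adjoin ℂ _ ⟨((1, fun _ => true), (0, fun _ => true)), ?_⟩
    simp only [A.x3_f]
    rw [mul_div_mul_right _ _ (A.x3_prod _)]
    simp
  · refine IntermediateField.subset_adjoin ℂ _ ⟨((2, fun _ => true), (0, fun _ => true)), ?_⟩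
    simp only [A.x3_f]
    rw [mul_div_mul_right _ _ (A.x3_prod _)]
    simp

theorem Amb.X_tr2 : A.X.Tr2 := by
  have key : ∀ ξ ∈ A.X.Pt, ∀ i : Fin 3, (A.X.loc ξ).Fr (![1, A.s, A.z] i) := fun ξ hξ i => by
    have h := (A.X.ctr_loc hξ).ratio (nz_spec ξ)
    refine ⟨_, (h (i, fun _ => true)).1, _, (h (0, fun _ => true)).1,
      div_ne_zero ?_ (A.X.f_ne hξ (nz_spec ξ)), ?_⟩
    · rw [A.x3_f]
      simpa using A.x3_prod fun _ => true
    · rw [A.x3_f, A.x3_f, ← mul_div_assoc]
      simp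
  exact ⟨A.s, A.z, A.ind, fun ξ hξ => ⟨key ξ hξ 1, key ξ hξ 2⟩⟩

theorem Amb.loc_of {u v : L} (hi : AlgebraicIndependent ℂ ![u, v]) (hr : A.X.Reg (cl u v))
    {ξ : ℙ ℂ (A.X.ι → ℂ)} (hξ : ξ ∈ A.X.Pt) (hu : (A.X.loc ξ).m u) (hv : (A.X.loc ξ).m v) :
    A.X.loc ξ = cl u v := A.x3_loc hi hr hξ hu hv

theorem Amb.classify {ξ : ℙ ℂ (A.X.ι → ℂ)} (hξ : ξ ∈ A.X.Pt) :
    ∃ u v fu fv, A.Ch u v fu fv ∧ A.Typ u v fu fv ∧ A.X.loc ξ = cl u v := A.x3_cls hξ

theorem Amb.loc_nc (n : Nd) : ∃ ξ ∈ A.X.Pt, A.X.loc ξ = cl (A.nc n).1 (A.nc n).2 :=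
  have hi := (A.ch_nc n).ind
  have h := cl_gen hi
  A.x3_ex hi (A.x3_nc n h.1 h.2.1) fun _ hy hr => A.x3_ncd n hy hr h.1 h.2.1

theorem Amb.loc_hc (i : Option Sec) : ∃ ξ ∈ A.X.Pt, A.X.loc ξ = cl (A.hc i).1 (A.hc i).2 :=
  have hi := (A.ch_hc i).ind
  have h := cl_gen hi
  A.x3_ex hi (A.x3_hc i h.1 h.2.1) fun _ hy hr => A.x3_hcn i hy hr h.1 h.2.1

end Vale.Agent.P300
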