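import Vale.Agent.P300.M2
import Vale.Agent.P300.VT
import Vale.Agent.P300.X3

/-! Local stabilisers. Work modulo `N = F.fixingSubgroup` for a level `D.Lv M F b` (normal, `Tw.fix`).
`node_conj`: `tr_lp0` (`Ch.sub`, `Ch.rg`), `Fr.act`, `fr_unique`. `hor_conj`: `V` through `P`
(`exists_over_on`, `fr_ivo`), a point on `V` above the swapped reference chart (`exists_on`), it is a translate
of `Ph i`; `iv_gen`. `ver`: `ver_acts`, `ver_char`, `chr` give `2 ^ a ∣ j`; `vt` with `deep`.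
Nodes: modulo `N`, `e₁ ^ i e₂ ^ j ≡ c ^ i e₂ ^ (i + j)` with `c = e₁ e₂⁻¹ ∈ pi ≤ E` (`ip_comm`), `ver_nc`.
`free`: `H_stab`, `classify`, `exists_fr`, `ip_gen` at a level `Lv (max M M₀)`. -/

open scoped LinearAlgebra.Projectivization Topology Classical Pointwise
open Polynomial

set_option linter.unusedSectionVars false

namespace Vale.Agent.P300

variable {L : Type} [Field L] [Algebra ℂ L] [IsAlgClosed L] {A : Amb L} {C : A.Cfg} (D : C.Pack)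

theorem m3_mem {G : Type} [Group G] {N : Subgroup G} [N.Normal] {g h : G}
    (e : QuotientGroup.mk' N g = QuotientGroup.mk' N h) : g * h⁻¹ ∈ N := by
  refine (QuotientGroup.eq_one_iff _).1 ?_
  rw [← QuotientGroup.mk'_apply, map_mul, map_inv, e, mul_inv_cancel]

theorem m3_iff {G : Type} [Group G] {N S : Subgroup G} (hN : N ≤ S) {g h : G} (e : g * h⁻¹ ∈ N) :
    g ∈ S ↔ h ∈ S := by
  rw [← S.mul_mem_cancel_left (hN e) (y := h), inv_mul_cancel_right]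

theorem m3_node {G : Type} [Group G] {N : Subgroup G} [N.Normal] {a b : G}
    (h : a * b * a⁻¹ * b⁻¹ ∈ N) (i j : ℕ) :
    a ^ i * b ^ j * ((a * b⁻¹) ^ i * b ^ (i + j))⁻¹ ∈ N ∧
      a ^ (i + j) * ((a * b⁻¹) ^ j * (a ^ i * b ^ j))⁻¹ ∈ N := by
  have hc := grp_comm_VT h
  refine ⟨m3_mem ?_, m3_mem ?_⟩
  · simp only [map_mul, map_inv, map_pow]
    rw [hc.inv_right.mul_pow, inv_pow, pow_add, mul_assoc, inv_mul_cancel_left]
  · simp only [map_mul, map_inv, map_pow]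
    rw [hc.inv_right.mul_pow, inv_pow, (hc.pow_pow i j).eq, mul_assoc, inv_mul_cancel_left,
      ← pow_add, add_comm]

theorem Amb.Cfg.node_conj (C : A.Cfg) {n : Nd} {P : LP L} {e₁ e₂ : A.G}
    (h : A.Fr (A.nc n).1 (A.nc n).2 P e₁ e₂) : ∃ g, ∀ F b, A.Good F b → ∀ r : ℕ,
      (e₁ * e₂⁻¹) ^ r * (g * C.c n ^ r * g⁻¹)⁻¹ ∈ F.fixingSubgroup := by
  have hc := A.ch_nc n
  obtain ⟨g, hg⟩ := A.tr_lp0 (hc.sub A) (hc.rg A).normal (C.frn n).ab h.ab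
  have h' := (C.frn n).act A hc g
  rw [hg] at h'
  refine ⟨g, fun F b hF r => ?_⟩
  have := (Amb.Tw.fix A hF.tw hF.normal).1
  obtain ⟨h1, h2⟩ := A.fr_unique hF hc h h'
  refine m3_mem ?_
  have e : g * C.c n ^ r * g⁻¹ = (g * C.n1 n * g⁻¹ * (g * C.n2 n * g⁻¹)⁻¹) ^ r := by
    rw [← conj_pow, Amb.Cfg.c]
    refine congrArg (· ^ r) ?_
    group
  rw [e, map_pow, map_pow, map_mul, map_inv, grp_mk_VT h1, grp_mk_VT h2, ← map_inv, ← map_mul]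

theorem Amb.Cfg.hor_conj (C : A.Cfg) {u v : L} {fu fv : Bool} (hc : A.Ch u v fu fv)
    (hu : A.Hor u v) {P : LP L} {e₁ e₂ : A.G} (h : A.Fr u v P e₁ e₂) :
    ∃ i g, ∀ F b, A.Good F b → ∃ k : ℕ, ∀ r : ℕ,
      e₁ ^ r * (g * C.x i ^ (k * r) * g⁻¹)⁻¹ ∈ F.fixingSubgroup := by
  obtain ⟨i, hi⟩ := hu
  obtain ⟨V, hV, ho⟩ := A.exists_over_on hc.ind hc.gen h.ab
  have he := A.fr_ivo hc h hV ho
  have hV1 := (hi V hV).1
  have hm := A.ch_hc i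
  have hs := hm.swap A
  obtain ⟨P', hP', ho'⟩ := exists_on hV1 hs.ind
  have hf := (C.frh i).swap A hm.ind
  obtain ⟨g, hg⟩ := A.tr_lp0 (hs.sub A) (hs.rg A).normal hf.ab hP'
  have h' := hf.act A hs g
  rw [hg] at h'
  refine ⟨i, g, fun F b hF => ?_⟩
  have := (Amb.Tw.fix A hF.tw hF.normal).1
  obtain ⟨k, hk⟩ := A.iv_gen hF hs h' hV1 ho' (he.iv A hF.tw)
  refine ⟨k, fun r => m3_mem ?_⟩
  rw [← conj_pow, pow_mul, map_pow, map_pow, grp_mk_VT hk]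

theorem Amb.Cfg.Pack.deep (M : ℕ) (n : Nd) (P : LP L) (e₁ e₂ : A.G)
    (h : A.Fr (A.nc n).1 (A.nc n).2 P e₁ e₂) : (e₁ * e₂⁻¹) ^ 2 ^ D.a ∈ D.B M := by
  obtain ⟨g, hg⟩ := C.node_conj h
  obtain ⟨F, b, hL⟩ := D.lv M
  have := (Amb.Tw.fix A hL.good.tw hL.good.normal).1
  exact grp_eq_VT (D.le M) hL.hB (A.pi.pow_mem (A.node_pi n h) _) (D.dc M n g)
    (grp_mk_VT (hg F b hL.good _)).symm

theorem Amb.Cfg.Pack.ver (M : ℕ) {u v : L} {fv : Bool} (hc : A.Ch u v true fv) (hv : A.Ver u v)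
    {P : LP L} {e₁ e₂ : A.G} (h : A.Fr u v P e₁ e₂) {j : ℕ} (hj : e₁ ^ j ∈ D.E) :
    e₁ ^ j ∈ D.H M := by
  obtain ⟨F, b, hL⟩ := D.lv M
  obtain ⟨k, hk⟩ := A.ver_acts hc hv h
  obtain ⟨ψ, h1, h2, h3, h4⟩ := A.ver_char k D.a
  have h5 := h4 _ _ (hk.pow A j) (D.chr ψ h1 h2 h3 _ hj)
  rw [mul_one, Int.natCast_dvd_natCast] at h5
  obtain ⟨m, rfl⟩ := h5
  refine Subgroup.mem_inf.2 ⟨hj, ?_⟩
  rw [pow_mul]
  exact Subgroup.pow_mem _ (A.vt hL.good (D.le M) (fun g hg => D.nor M g (D.piE hg)) hL.hB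
    (D.deep M) hc hv h) m

theorem Amb.Cfg.Pack.prod_cl (M : ℕ) {u v : L} {fu fv : Bool} (hc : A.Ch u v fu fv)
    (hu : fu = false ∨ A.Hor u v) (hv : fv = false ∨ A.Ver v u) {P : LP L} {e₁ e₂ : A.G}
    (h : A.Fr u v P e₁ e₂) {i j : ℕ} (hj : e₁ ^ i * e₂ ^ j ∈ D.E) : e₂ ^ j ∈ D.H M := by
  obtain ⟨F, b, hL⟩ := D.lv M
  have hE : F.fixingSubgroup ≤ D.E := hL.hH.trans (D.H_le M)
  have h1 : e₁ ^ i ∈ D.E := by
    rcases hu with rfl | hu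
    · exact D.E.pow_mem (hE (h.unfl A hL.good hc)) i
    · obtain ⟨k, g, hg⟩ := C.hor_conj hc hu h
      obtain ⟨m, hm⟩ := hg F b hL.good
      exact (m3_iff hE (hm i)).2 (D.piE (A.pi_normal.conj_mem _ (A.pi.pow_mem (C.x_pi k) _) g))
  have h2 : e₂ ^ j ∈ D.E := (D.E.mul_mem_cancel_left h1).1 hj
  cases fv with
  | false => exact (D.H M).pow_mem (hL.hH ((h.swap A hc.ind).unfl A hL.good (hc.swap A))) j
  | true => exact D.ver M (hc.swap A) (hv.resolve_left (by simp)) (h.swap A hc.ind) h2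

theorem Amb.Cfg.Pack.node_cl (M : ℕ) {n : Nd} {P : LP L} {e₁ e₂ : A.G}
    (h : A.Fr (A.nc n).1 (A.nc n).2 P e₁ e₂) {i j : ℕ} (hj : e₁ ^ i * e₂ ^ j ∈ D.E) :
    e₁ ^ (i + j) ∈ D.H M ∧ e₂ ^ (i + j) ∈ D.H M := by
  obtain ⟨F, b, hL⟩ := D.lv M
  have := (Amb.Tw.fix A hL.good.tw hL.good.normal).1
  have hE : F.fixingSubgroup ≤ D.E := hL.hH.trans (D.H_le M)
  have hc := A.ch_nc n
  have hp : e₁ * e₂⁻¹ ∈ D.E := D.piE (A.node_pi n h)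
  obtain ⟨h1, h2⟩ := m3_node (A.ip_comm hL.good hc h.ab (Amb.IP.mono A le_top h.i1)
    (Amb.IP.mono A le_top h.i2)) i j
  exact ⟨D.ver M hc (A.ver_nc n).1 h ((m3_iff hE h2).2 (D.E.mul_mem (D.E.pow_mem hp j) hj)),
    D.ver M (hc.swap A) (A.ver_nc n).2 (h.swap A hc.ind)
      ((D.E.mul_mem_cancel_left (D.E.pow_mem hp i)).1 ((m3_iff hE h1).1 hj))⟩

theorem Amb.Cfg.Pack.free : ∃ M₀, D.Free M₀ := by
  obtain ⟨M₀, hM⟩ := D.H_stab
  refine ⟨M₀, fun M ξ hξ P hP g hg hI => ?_⟩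
  obtain ⟨u, v, fu, fv, hc, ht, e⟩ := A.classify hξ
  rw [e] at hP hI
  obtain ⟨e₁, e₂, h⟩ := A.exists_fr hc.ind hc.gen hP
  obtain ⟨F, b, hL⟩ := D.lv (max M M₀)
  have hN := (hL.mono (le_max_left _ _)).hH
  have hN₀ := (hL.mono (le_max_right _ _)).hH
  have := (Amb.Tw.fix A hL.good.tw hL.good.normal).1
  obtain ⟨i, j, hij⟩ := A.ip_gen hL.good hc h (Amb.IP.mono A le_top hI)
  have h0 := (m3_iff hN₀ hij).1 hg
  have hE := D.H_le M₀ h0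
  refine (m3_iff hN hij).2 ?_
  rcases ht with ⟨hu, hv⟩ | ⟨-, -, n, rfl, rfl⟩
  · refine (D.H M).mul_mem ?_ (D.prod_cl M hc hu hv h hE)
    have h1 := ((D.H M₀).mul_mem_cancel_right (D.prod_cl M₀ hc hu hv h hE)).1 h0
    rcases hu with rfl | hu
    · exact (D.H M).pow_mem (hN (h.unfl A hL.good hc)) i
    · obtain ⟨k, f, hf⟩ := C.hor_conj hc hu h
      obtain ⟨m, hm⟩ := hf F b hL.good
      exact (m3_iff hN (hm i)).2 ((hM M f _).1 k ((m3_iff hN₀ (hm i)).1 h1))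
  · obtain ⟨h1, -⟩ := m3_node (A.ip_comm hL.good hc h.ab (Amb.IP.mono A le_top h.i1)
      (Amb.IP.mono A le_top h.i2)) i j
    have h2 := ((D.H M₀).mul_mem_cancel_right (D.node_cl M₀ h hE).2).1 ((m3_iff hN₀ h1).1 h0)
    obtain ⟨f, hf⟩ := C.node_conj h
    have hm := hf F b hL.good i
    exact (m3_iff hN h1).2 ((D.H M).mul_mem
      ((m3_iff hN hm).2 ((hM M f _).2 n ((m3_iff hN₀ hm).1 h2))) (D.node_cl M h hE).2)

end Vale.Agent.P300
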