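import Vale.Agent.P300.SmoothA

/-! Smoothness from two generators of the maximal ideal.
`quasi`: `u ≠ 0`, `u ∤ v ^ n`, so `u` is prime (Krull in `O / u`, whose maximal ideal is `(v)`);
induction on `n`: if `∑ c i u ^ i v ^ (n - i) = 0` then all `c i ∈ m`.
`smooth_pt`: chart `j`, `O' = ℂ[X]` localised at the point, `O' → O` onto with kernel `𝔭`. The
`g i - c i` generate `m`, so two of their images (or two linear combinations) `a, b` generate `m`
(Nakayama, `m / m²` has dimension two); for every other coordinate pick `F i ∈ 𝔭` (polynomial) with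
linear part `X i - α a - β b` up to a unit. Modulo `F` the maximal ideal of `O'` is `(a, b)`, so
by `quasi` and Krull `𝔭 = (F)` in `O'`: there is a polynomial `Q`, `Q(ξ) ≠ 0`, with
`Q 𝔭 ⊆ (F)` (finitely many generators). Homogenise. -/

open scoped LinearAlgebra.Projectivization Topology Classical
open Polynomial

namespace Vale.Agent.P300

variable {L : Type} [Field L] [Algebra ℂ L]

theorem LP.quasi {x : LP L} (hx : IsNoetherianRing x.O) (hd : x.Dim2) {u v : L} (h : x.Gen2 u v)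
    (n : ℕ) (c : ℕ → L) (hc : ∀ i, c i ∈ x.O)
    (h0 : ∑ i ∈ Finset.range (n + 1), c i * u ^ i * v ^ (n - i) = 0) :
    ∀ i ≤ n, x.ev (c i) = 0 := by
  induction n generalizing c with
  | zero =>
    intro i hi
    obtain rfl : i = 0 := by omega
    have : c 0 = 0 := by simpa using h0
    rw [this, x.hom.zero]
  | succ n ih =>
    have hu := h.1.1
    have hv := h.2.1.1
    have e1 : ∑ i ∈ Finset.range (n + 1), c (i + 1) * u ^ (i + 1) * v ^ (n + 1 - (i + 1)) =
        u * ∑ i ∈ Finset.range (n + 1), c (i + 1) * u ^ i * v ^ (n - i) := by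
      rw [Finset.mul_sum]
      refine Finset.sum_congr rfl fun i _ => ?_
      rw [Nat.add_sub_add_right]
      ring
    rw [Finset.sum_range_succ', e1, pow_zero, mul_one, Nat.sub_zero] at h0
    have hs : ∑ i ∈ Finset.range (n + 1), c (i + 1) * u ^ i * v ^ (n - i) ∈ x.O :=
      x.O.sum_mem fun i _ => x.O.mul_mem (x.O.mul_mem (hc _) (x.O.pow_mem hu _)) (x.O.pow_mem hv _)
    obtain ⟨z, hz, e⟩ := h.dvd_of' hx hd (hc 0) (n := n + 1)
      ⟨_, x.O.neg_mem hs, by linear_combination h0⟩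
    have h1 := ih (fun i => c (i + 1) + if i = 0 then z * v else 0)
      (fun i => x.O.add_mem (hc _) (by split_ifs; exacts [x.O.mul_mem hz hv, x.O.zero_mem])) (by
        simp only [add_mul, Finset.sum_add_distrib, ite_mul, zero_mul, Finset.sum_ite_eq',
          Finset.mem_range, Nat.zero_lt_succ, if_true, pow_zero, Nat.sub_zero]
        refine mul_left_cancel₀ (h.ne' hd) ?_
        rw [e] at h0
        linear_combination h0)
    intro i hi
    rcases i with _ | i
    · rw [e, x.hom.mul _ hu _ hz, h.1.2, zero_mul]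
    · have h2 := h1 i (by omega)
      by_cases hi0 : i = 0
      · simp only [hi0, if_true] at h2 ⊢
        rwa [x.hom.add _ (hc _) _ (x.O.mul_mem hz hv), x.hom.mul _ hz _ hv, h.2.1.2, mul_zero,
          add_zero] at h2
      · simpa only [hi0, if_false, add_zero] using h2

theorem pv_gen2 {ι : Type} [Fintype ι] {g : ι → L} {c : ι → ℂ} (hV : Valid g c)
    (hd : (pv g c).Dim2) {u v : L} (h : (pv g c).Gen2 u v) :
    ∃ p q, (pv g c).Gen2 (g p - algebraMap ℂ L (c p)) (g q - algebraMap ℂ L (c q)) := by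
  have hy : ∀ i, (pv g c).m (g i - algebraMap ℂ L (c i)) := fun i => by
    have := (pv g c).m_sub_ev (pv_gen hV i).1
    rwa [(pv_gen hV i).2] at this
  choose α hα β hβ e using fun i => h.2.2 _ (hy i)
  obtain ⟨a, ha, ea⟩ := pv_m hV h.1
  obtain ⟨b, hb, eb⟩ := pv_m hV h.2.1
  generalize pv g c = x at *
  have hs : ∀ a α : ι → L, (∀ i, a i ∈ x.O) → (∀ i, α i ∈ x.O) → ∑ i, a i * α i ∈ x.O ∧
      x.ev (∑ i, a i * α i) = ∑ i, x.ev (a i) * x.ev (α i) := by
    intro a α ha hα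
    refine ⟨x.O.sum_mem fun i _ => x.O.mul_mem (ha i) (hα i), ?_⟩
    rw [x.hom.sum _ fun i _ => x.O.mul_mem (ha i) (hα i)]
    exact Finset.sum_congr rfl fun i _ => x.hom.mul _ (ha i) _ (hα i)
  have hc : ∀ a : ι → L, ∑ i, a i * (g i - algebraMap ℂ L (c i)) =
      (∑ i, a i * α i) * u + (∑ i, a i * β i) * v := by
    intro a
    rw [Finset.sum_mul, Finset.sum_mul, ← Finset.sum_add_distrib]
    exact Finset.sum_congr rfl fun i _ => by rw [e i]; ring
  rw [hc] at ea eb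
  have k1 : x.ev (∑ i, a i * β i) = 0 := h.ev_zero' hd (a := ∑ i, a i * α i - 1) (k := 1)
    (x.O.sub_mem (hs a α ha hα).1 x.O.one_mem) (hs a β ha hβ).1 (by linear_combination -ea)
  have k2 : x.ev (∑ i, a i * α i - 1) = 0 := h.swap'.ev_zero' hd (a := ∑ i, a i * β i) (k := 1)
    (hs a β ha hβ).1 (x.O.sub_mem (hs a α ha hα).1 x.O.one_mem) (by linear_combination -ea)
  have k3 : x.ev (∑ i, b i * β i - 1) = 0 := h.ev_zero' hd (a := ∑ i, b i * α i) (k := 1)
    (hs b α hb hα).1 (x.O.sub_mem (hs b β hb hβ).1 x.O.one_mem) (by linear_combination -eb)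
  rw [x.hom.sub (hs a α ha hα).1 x.O.one_mem, (hs a α ha hα).2, x.hom.one, sub_eq_zero] at k2
  rw [x.hom.sub (hs b β hb hβ).1 x.O.one_mem, (hs b β hb hβ).2, x.hom.one, sub_eq_zero] at k3
  rw [(hs a β ha hβ).2] at k1
  have hD : ∃ p q, x.ev (α p) * x.ev (β q) - x.ev (α q) * x.ev (β p) ≠ 0 := by
    by_contra hn
    push Not at hn
    have e1 : (∑ i, x.ev (a i) * x.ev (α i)) * ∑ i, x.ev (b i) * x.ev (β i) =
        (∑ i, x.ev (a i) * x.ev (β i)) * ∑ i, x.ev (b i) * x.ev (α i) := by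
      rw [Finset.sum_mul_sum, Finset.sum_mul_sum]
      refine Finset.sum_congr rfl fun p _ => Finset.sum_congr rfl fun q _ => ?_
      linear_combination x.ev (a p) * x.ev (b q) * hn p q
    rw [k1, k2, k3] at e1
    simp at e1
  obtain ⟨p, q, hpq⟩ := hD
  have hU : x.U (α p * β q - α q * β p) := by
    refine ⟨x.O.sub_mem (x.O.mul_mem (hα p) (hβ q)) (x.O.mul_mem (hα q) (hβ p)), ?_⟩
    rwa [x.hom.sub (x.O.mul_mem (hα p) (hβ q)) (x.O.mul_mem (hα q) (hβ p)),
      x.hom.mul _ (hα p) _ (hβ q), x.hom.mul _ (hα q) _ (hβ p)]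
  have hI := x.inv_mem _ hU.1 hU.2
  have hne := hU.ne
  refine ⟨p, q, hy p, hy q, fun z hz => ?_⟩
  obtain ⟨s, hs', t, ht, rfl⟩ := h.2.2 z hz
  refine ⟨(s * β q - t * α q) * (α p * β q - α q * β p)⁻¹,
    x.O.mul_mem (x.O.sub_mem (x.O.mul_mem hs' (hβ q)) (x.O.mul_mem ht (hα q))) hI,
    (t * α p - s * β p) * (α p * β q - α q * β p)⁻¹,
    x.O.mul_mem (x.O.sub_mem (x.O.mul_mem ht (hα p)) (x.O.mul_mem hs' (hβ p))) hI, ?_⟩
  rw [e p, e q]
  linear_combination -(s * u + t * v) * mul_inv_cancel₀ hne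

/-- linear forms vanishing at the point `c` of the chart `j` -/
noncomputable def lf {ι : Type} (c : ι → ℂ) (j i : ι) : MvPolynomial ι ℂ :=
  MvPolynomial.X i - MvPolynomial.C (c i) * MvPolynomial.X j

theorem lf_hom {ι : Type} (c : ι → ℂ) (j i : ι) : (lf c j i).IsHomogeneous 1 :=
  (MvPolynomial.isHomogeneous_X ℂ i).sub (MvPolynomial.isHomogeneous_C_mul_X _ _)

theorem aeval_lf {ι : Type} {g : ι → L} (c : ι → ℂ) {j : ι} (hg : g j = 1) (i : ι) :
    MvPolynomial.aeval g (lf c j i) = g i - algebraMap ℂ L (c i) := by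
  simp [lf, hg]

theorem pv_rel {ι : Type} {g : ι → L} {c : ι → ℂ} (hV : Valid g c) {j p q : ι} (hg : g j = 1)
    (hc : c j = 1)
    (h : (pv g c).Gen2 (g p - algebraMap ℂ L (c p)) (g q - algebraMap ℂ L (c q))) (i : ι) :
    ∃ (D : ℕ) (Q P R : MvPolynomial ι ℂ), Q.IsHomogeneous D ∧ P.IsHomogeneous D ∧
      R.IsHomogeneous D ∧ MvPolynomial.eval c Q ≠ 0 ∧
      MvPolynomial.aeval g (Q * lf c j i - P * lf c j p - R * lf c j q) = 0 := by
  have hy := (pv g c).m_sub_ev (pv_gen hV i).1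
  rw [(pv_gen hV i).2] at hy
  obtain ⟨α, hα, β, hβ, e⟩ := h.2.2 _ hy
  obtain ⟨P1, Q1, h1, e1⟩ := (mem_pv hV).1 hα
  obtain ⟨P2, Q2, h2, e2⟩ := (mem_pv hV).1 hβ
  obtain ⟨a, ha⟩ := homog j (Q1 * Q2)
  obtain ⟨b, hb⟩ := homog j (P1 * Q2)
  obtain ⟨d, hd⟩ := homog j (P2 * Q1)
  obtain ⟨Q, k1, Q', l1⟩ := ha (a + b + d) (by omega)
  obtain ⟨P, k2, P', l2⟩ := hb (a + b + d) (by omega)
  obtain ⟨R, k3, R', l3⟩ := hd (a + b + d) (by omega)
  rw [sub_eq_iff_eq_add] at l1 l2 l3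
  refine ⟨_, Q, P, R, k1, k2, k3, ?_, ?_⟩
  · rw [l1]
    simpa [hc] using And.intro h1 h2
  · simp only [map_sub, map_mul, aeval_lf c hg]
    rw [l1, l2, l3]
    simp only [map_add, map_mul, map_sub, MvPolynomial.aeval_X, hg, map_one, sub_self, zero_mul,
      zero_add]
    rw [e, ← e1, ← e2]
    ring

theorem pv_cut {ι : Type} [Fintype ι] {g : ι → L} {c : ι → ℂ} (hV : Valid g c)
    (hd : (pv g c).Dim2) {j p q : ι} (hg : g j = 1) (hc : c j = 1)
    (h : (pv g c).Gen2 (g p - algebraMap ℂ L (c p)) (g q - algebraMap ℂ L (c q)))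
    (Q P R : ι → MvPolynomial ι ℂ) (hQ : ∀ i, MvPolynomial.eval c (Q i) ≠ 0)
    (hF : ∀ i, MvPolynomial.aeval g (Q i * lf c j i - P i * lf c j p - R i * lf c j q) = 0) :
    ∃ r : MvPolynomial ι ℂ, MvPolynomial.eval c r = 1 ∧ ∀ G, MvPolynomial.aeval g G = 0 →
      ∀ w : ι → ℂ, w j = 1 → (∀ i, i ≠ p → i ≠ q → i ≠ j →
        MvPolynomial.eval w (Q i * lf c j i - P i * lf c j p - R i * lf c j q) = 0) →
      MvPolynomial.eval w r * MvPolynomial.eval w G = 0 := by
  obtain ⟨I, hI⟩ : ∃ I : Ideal (MvPolynomial ι ℂ), I = Ideal.span (insert (MvPolynomial.X j - 1)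
    {F | ∃ i, i ≠ p ∧ i ≠ q ∧ i ≠ j ∧ F = Q i * lf c j i - P i * lf c j p - R i * lf c j q}) :=
    ⟨_, rfl⟩
  have hI1 : MvPolynomial.X j - 1 ∈ I := hI ▸ Ideal.subset_span (Set.mem_insert _ _)
  have hI2 : ∀ i, i ≠ p → i ≠ q → i ≠ j →
      Q i * lf c j i - P i * lf c j p - R i * lf c j q ∈ I := fun i h1 h2 h3 =>
    hI ▸ Ideal.subset_span (Set.mem_insert_of_mem _ ⟨i, h1, h2, h3, rfl⟩)
  have hl : ∀ i, lf c j i ∈ RingHom.ker (MvPolynomial.eval c) := fun i => by
    simp [RingHom.mem_ker, lf, hc]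
  have hS : MvPolynomial.eval c (∏ i, Q i) ≠ 0 := by
    rw [map_prod]
    exact Finset.prod_ne_zero_iff.2 fun i _ => hQ i
  have hK : ∀ G : MvPolynomial ι ℂ, (∏ i, Q i) * (G - MvPolynomial.C (MvPolynomial.eval c G)) ∈
      (I ⊔ Ideal.span {lf c j p}) ⊔ Ideal.span {lf c j q} := by
    obtain ⟨K, hK⟩ : ∃ K, K = (I ⊔ Ideal.span {lf c j p}) ⊔ Ideal.span {lf c j q} := ⟨_, rfl⟩
    have m1 : ∀ a ∈ I, a ∈ K := fun a ha => hK ▸ Ideal.mem_sup_left (Ideal.mem_sup_left ha)
    have m2 : lf c j p ∈ K :=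
      hK ▸ Ideal.mem_sup_left (Ideal.mem_sup_right (Ideal.mem_span_singleton_self _))
    have m3 : lf c j q ∈ K := hK ▸ Ideal.mem_sup_right (Ideal.mem_span_singleton_self _)
    have m4 : ∀ i, (∏ i, Q i) * lf c j i ∈ K := by
      intro i
      by_cases h1 : i = p
      · exact h1 ▸ K.mul_mem_left _ m2
      by_cases h2 : i = q
      · exact h2 ▸ K.mul_mem_left _ m3
      by_cases h3 : i = j
      · have : lf c j i = 0 := by simp [lf, h3, hc]
        rw [this, mul_zero]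
        exact K.zero_mem
      rw [← Finset.prod_erase_mul _ _ (Finset.mem_univ i), mul_assoc]
      refine K.mul_mem_left _ ?_
      have e : Q i * lf c j i = (Q i * lf c j i - P i * lf c j p - R i * lf c j q) +
          P i * lf c j p + R i * lf c j q := by ring
      rw [e]
      exact add_mem (add_mem (m1 _ (hI2 i h1 h2 h3)) (K.mul_mem_left _ m2)) (K.mul_mem_left _ m3)
    rw [← hK]
    intro G
    induction G using MvPolynomial.induction_on with
    | C a => simp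
    | add a b ha hb =>
      rw [map_add, map_add, add_sub_add_comm, mul_add]
      exact add_mem ha hb
    | mul_X a i ha =>
      have e : (∏ i, Q i) * (a * MvPolynomial.X i -
          MvPolynomial.C (MvPolynomial.eval c (a * MvPolynomial.X i))) =
          MvPolynomial.X i * ((∏ i, Q i) * (a - MvPolynomial.C (MvPolynomial.eval c a))) +
          MvPolynomial.C (MvPolynomial.eval c a) * ((∏ i, Q i) * lf c j i) +
          MvPolynomial.C (MvPolynomial.eval c a) * (∏ i, Q i) * MvPolynomial.C (c i) *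
            (MvPolynomial.X j - 1) := by
        simp only [map_mul, MvPolynomial.eval_X, lf]
        ring
      rw [e]
      exact add_mem (add_mem (K.mul_mem_left _ ha) (K.mul_mem_left _ (m4 i)))
        (K.mul_mem_left _ (m1 _ hI1))
  refine (core_nak (RingHom.ker (MvPolynomial.aeval g : _ →ₐ[ℂ] L))
    (RingHom.ker (MvPolynomial.eval c)) I (lf c j p) (lf c j q) (∏ i, Q i)
    ((∏ i, Q i) - MvPolynomial.C (MvPolynomial.eval c (∏ i, Q i))) ?_ (hl p) (hl q)
    (by rw [RingHom.mem_ker, map_sub, MvPolynomial.eval_C, sub_self]) ?_ ?_ ?_ ?_).elim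
    fun r ⟨hr1, hr2⟩ => ?_
  · rw [hI, Ideal.span_le]
    rintro _ (rfl | ⟨i, -, -, -, rfl⟩)
    · simp [hg]
    · exact hF i
  · refine ⟨MvPolynomial.C (MvPolynomial.eval c (∏ i, Q i))⁻¹,
      -MvPolynomial.C (MvPolynomial.eval c (∏ i, Q i))⁻¹, ?_⟩
    rw [neg_mul, mul_sub, ← sub_eq_add_neg, sub_sub_cancel, ← map_mul, inv_mul_cancel₀ hS, map_one]
  · intro y hy
    have h1 := hK y
    rw [RingHom.mem_ker.1 hy, map_zero, sub_zero] at h1
    obtain ⟨κ, hκ, z, hz, e⟩ := Submodule.mem_sup.1 h1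
    obtain ⟨b, rfl⟩ := Ideal.mem_span_singleton'.1 hz
    exact ⟨b, by rwa [← e, add_sub_cancel_right]⟩
  · intro G hG
    rw [RingHom.mem_ker, map_mul, aeval_lf c hg] at hG
    exact (mul_eq_zero.1 hG).resolve_right (h.ne' hd)
  · intro k a b hab
    rw [RingHom.mem_ker, map_add, map_mul, map_mul, map_pow, aeval_lf c hg, aeval_lf c hg] at hab
    rw [RingHom.mem_ker, ← (pv_aeval hV b).2]
    exact h.ev_zero' hd (pv_aeval hV a).1 (pv_aeval hV b).1 hab
  · refine ⟨r, ?_, fun G hG w hw hw' => ?_⟩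
    · rwa [RingHom.mem_ker, map_sub, map_one, sub_eq_zero] at hr1
    · have : I ≤ RingHom.ker (MvPolynomial.eval w) := by
        rw [hI, Ideal.span_le]
        rintro _ (rfl | ⟨i, h1, h2, h3, rfl⟩)
        · simp [hw]
        · exact hw' i h1 h2 h3
      rw [← map_mul]
      exact this (hr2 G hG)

theorem Model.smooth (T : Model L)
    (h : ∀ ξ ∈ T.Pt, (T.loc ξ).Dim2 ∧ ∃ u v, (T.loc ξ).Gen2 u v) : IsSmoothProj T.Pt := by
  intro v hv hm
  obtain ⟨j, hj⟩ := Function.ne_iff.1 hv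
  replace hj : v j ≠ 0 := hj
  obtain ⟨a, ha⟩ := Projectivization.exists_smul_eq_mk_rep ℂ v hv
  have ha' : ∀ i, (Projectivization.mk ℂ v hv).rep i = a * v i := fun i => by
    rw [← ha]; rfl
  have hj' : (Projectivization.mk ℂ v hv).rep j ≠ 0 := by
    rw [ha']; exact mul_ne_zero a.ne_zero hj
  have hc : (fun i => (Projectivization.mk ℂ v hv).rep i / (Projectivization.mk ℂ v hv).rep j) =
      fun i => (v j)⁻¹ * v i := by
    funext i
    rw [ha', ha', mul_div_mul_left _ _ a.ne_zero, div_eq_inv_mul]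
  have hf := T.f_ne hm hj'
  have hV := T.valid hm hj'
  obtain ⟨hd, u₁, u₂, hG⟩ := h _ hm
  rw [T.loc_eq hm hj'] at hd hG
  simp only [div_eq_inv_mul (T.f _)] at hV hd hG
  rw [hc] at hV hd hG
  obtain ⟨c, hc'⟩ : ∃ c : T.ι → ℂ, c = fun i => (v j)⁻¹ * v i := ⟨_, rfl⟩
  obtain ⟨g, hg'⟩ : ∃ g : T.ι → L, g = fun i => (T.f j)⁻¹ * T.f i := ⟨_, rfl⟩
  rw [← hc', ← hg'] at hV hd hG
  have hcj : c j = 1 := by rw [hc']; exact inv_mul_cancel₀ hj
  have hgj : g j = 1 := by rw [hg']; exact inv_mul_cancel₀ hf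
  obtain ⟨p, q, hpq⟩ := pv_gen2 hV hd hG
  choose D Q P R hQ hP hR hQ0 hF using pv_rel hV hgj hcj hpq
  obtain ⟨r, hr1, hr2⟩ := pv_cut hV hd hgj hcj hpq Q P R hQ0 hF
  have hH : ∀ i, (Q i * lf c j i - P i * lf c j p - R i * lf c j q).IsHomogeneous (D i + 1) :=
    fun i => (((hQ i).mul (lf_hom c j i)).sub ((hP i).mul (lf_hom c j p))).sub
      ((hR i).mul (lf_hom c j q))
  have hg0 : ∀ (F : MvPolynomial T.ι ℂ) (d : ℕ), F.IsHomogeneous d →
      (MvPolynomial.aeval g F = 0 ↔ MvPolynomial.aeval T.f F = 0) := by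
    intro F d hF
    rw [hg', hom_scale hF, mul_eq_zero, or_iff_right (pow_ne_zero _ (inv_ne_zero hf))]
  obtain ⟨e⟩ : Nonempty ({i // i ≠ p ∧ i ≠ q ∧ i ≠ j} ≃ Fin _) := ⟨Fintype.equivFin _⟩
  refine ⟨_, fun k => Q (e.symm k) * lf c j (e.symm k) - P (e.symm k) * lf c j p -
    R (e.symm k) * lf c j q, fun k => ⟨_, hH _⟩, ?_, ?_⟩
  · have hl : ∀ i, MvPolynomial.eval v (lf c j i) = 0 := fun i => by
      simp only [lf, hc', map_sub, map_mul, MvPolynomial.eval_X, MvPolynomial.eval_C]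
      rw [mul_right_comm, inv_mul_cancel₀ hj, one_mul, sub_self]
    have hl' : ∀ i k, k ≠ j → MvPolynomial.eval v (MvPolynomial.pderiv k (lf c j i)) =
        if i = k then 1 else 0 := fun i k hk => by
      simp only [lf, map_sub, MvPolynomial.pderiv_C_mul, MvPolynomial.pderiv_X_of_ne hk.symm,
        mul_zero, sub_zero]
      split_ifs with hi
      · rw [hi, MvPolynomial.pderiv_X_self, map_one]
      · rw [MvPolynomial.pderiv_X_of_ne hi, map_zero]
    have hQv : ∀ i, MvPolynomial.eval v (Q i) ≠ 0 := fun i h0 => by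
      apply hQ0 i
      rw [hc', hom_scale' (hQ i), h0, mul_zero]
    rw [Fintype.linearIndependent_iff]
    intro s hs k
    have h1 := congrFun hs (e.symm k)
    obtain ⟨k1, k2, k3⟩ := (e.symm k).2
    simp only [Finset.sum_apply, Pi.smul_apply, smul_eq_mul, Pi.zero_apply, map_sub,
      MvPolynomial.pderiv_mul, map_add, map_mul, hl, hl' _ _ k3, mul_zero, zero_add, k1.symm,
      k2.symm, if_false, sub_zero, Subtype.val_inj, e.symm.injective.eq_iff, mul_ite, mul_one,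
      Finset.sum_ite_eq', Finset.mem_univ, if_true] at h1
    exact (mul_eq_zero.1 h1).resolve_right (hQv _)
  · have h1 : ∀ᶠ w in 𝓝 v, w j ≠ 0 := (continuous_apply j).continuousAt.eventually_ne hj
    have h2 : ContinuousAt (fun w : T.ι → ℂ => MvPolynomial.eval (fun i => (w j)⁻¹ * w i) r) v := by
      refine (MvPolynomial.continuous_eval r).continuousAt.comp ?_
      exact continuousAt_pi.2 fun i =>
        ((continuous_apply j).continuousAt.inv₀ hj).mul (continuous_apply i).continuousAt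
    have h3 := h2.eventually_ne (y := 0) (by simp only [← hc', hr1]; exact one_ne_zero)
    filter_upwards [h1, h3] with w hw hw' hw0
    rw [T.mk_mem]
    refine ⟨fun hX k => hX _ _ (hH _) ((hg0 _ _ (hH _)).1 (hF _)), fun hX F d hFd hF0 => ?_⟩
    have h4 := hr2 F ((hg0 F d hFd).2 hF0) (fun i => (w j)⁻¹ * w i) (inv_mul_cancel₀ hw)
      fun i k1 k2 k3 => by
        have := hX (e ⟨i, k1, k2, k3⟩)
        simp only [Equiv.symm_apply_apply] at this
        rw [hom_scale' (hH i), this, mul_zero]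
    have h5 := (mul_eq_zero.1 h4).resolve_left hw'
    rw [hom_scale' hFd] at h5
    exact (mul_eq_zero.1 h5).resolve_left (pow_ne_zero _ (inv_ne_zero hw))

end Vale.Agent.P300
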