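import Vale.Agent.P300.M3
import Vale.Agent.P300.Lam
import Vale.Agent.P300.Conn
import Vale.Agent.P300.Blow3
import Vale.Agent.P300.Smooth
import Vale.Agent.P300.Dim

/-! The surface. `norm`: `exists_norm`, `X_in`, `X_gen`, `fx_span`. `surf`: `Z` = points over the nodes
(`loc_nc`, `fibre_finite`; points of `X` with the same local ring agree: `ctr_loc`, `Ctr.unique`). For `η ∈ S.Pt`:
`IsNorm.exists_ab`, `IsNorm.ctr` give `S.loc η = res (X.loc ξ) (fx H) P`; `classify`, `exists_fr`,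
`lam_prod` with `prod_cl`, `lam_node` with `node_cl`. Then `resolve`, `Tr2.dom`, `Tr2.dim2`, `Model.smooth`,
`norm_conn`, `FibConn.isConnected`. -/

open scoped LinearAlgebra.Projectivization Topology Classical Pointwise
open Polynomial

set_option linter.unusedSectionVars false

namespace Vale.Agent.P300

variable {L : Type} [Field L] [Algebra ℂ L] [IsAlgClosed L] {A : Amb L} {C : A.Cfg} (D : C.Pack)

theorem Amb.Cfg.Pack.norm (M : ℕ) : ∃ S, IsNorm A.X (A.fx (D.H M)) S := by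
  obtain ⟨F, b, hL⟩ := D.lv M
  have := hL.good.tw.finite A
  obtain ⟨h1, h2⟩ := A.fx_span (D.H M) hL.hH
  exact A.X.exists_norm h1 A.X_in A.X_gen h2

theorem Amb.Cfg.Pack.m4_loc (M : ℕ) {S : Model L} (hS : IsNorm A.X (A.fx (D.H M)) S)
    {η : ℙ ℂ (S.ι → ℂ)} (hη : η ∈ S.Pt) {u v : L} {fu fv : Bool} (hc : A.Ch u v fu fv)
    (e : A.X.loc (S.dm A.X η) = cl u v) :
    ∃ P e₁ e₂, A.Fr u v P e₁ e₂ ∧ S.loc η = res (cl u v) (A.fx (D.H M)) P := by
  obtain ⟨P, hP, hct⟩ := hS.exists_ab hη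
  obtain ⟨η', h1, -, h3⟩ := hS.ctr (hS.dom.mem hη) hP
  rw [h1.unique hct, e] at h3
  rw [e] at hP
  obtain ⟨e₁, e₂, hf⟩ := A.exists_fr hc.ind hc.gen hP
  exact ⟨P, e₁, e₂, hf, h3⟩

theorem Amb.Cfg.Pack.surf (M : ℕ) {S : Model L} (hS : IsNorm A.X (A.fx (D.H M)) S) :
    ∃ (n : ℕ) (f : Fin n → L) (hf : ∃ i, f i ≠ 0), (finModel f hf).Dom S ∧
      (finModel f hf).In (A.fx (D.H M)) ∧ (finModel f hf).FibConn S ∧
      IsSmoothProj (finModel f hf).Pt ∧ IsConnected (finModel f hf).Pt := by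
  obtain ⟨F, b, hL⟩ := D.lv M
  have hT : S.Tr2 := Model.Tr2.dom hS.dom A.X_tr2
  choose ξ hξ eξ using A.loc_nc
  have hZ : (⋃ n : Nd, {η | η ∈ S.Pt ∧ S.dm A.X η = ξ n}).Finite :=
    Set.finite_iUnion fun n =>
      A.fibre_finite A.X_in hL.good.tw hL.hH hS (hξ n) (A.conn_loc (hξ n)).2
  refine (S.resolve hS.inn hT _ hZ (fun η hη hn => ?_) fun η _ hn => ?_).elim
    fun n ⟨f, hf, h1, h2, h3, h4⟩ => ⟨n, f, hf, h1, h2, h3,
      Model.smooth _ fun ζ hζ => ⟨(Model.Tr2.dom h1 hT).dim2 hζ, h4 ζ hζ⟩,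
      h3.isConnected h1 (A.norm_conn hL.good hL.hH hS)⟩
  · obtain ⟨u, v, fu, fv, hc, ht, e⟩ := A.classify (hS.dom.mem hη)
    rcases ht with ⟨hu, hv⟩ | ⟨-, -, n, rfl, rfl⟩
    · obtain ⟨P, e₁, e₂, hfr, e'⟩ := D.m4_loc M hS hη hc e
      rw [e']
      exact A.lam_prod hL.good hc hfr hL.hH fun i j h =>
        D.prod_cl M hc hu hv hfr (D.H_le M h)
    · refine hn.elim (Set.mem_iUnion.2 ⟨n, hη, ?_⟩)
      have h5 := A.X.ctr_loc (hS.dom.mem hη)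
      rw [e, ← eξ] at h5
      exact h5.unique (A.X.ctr_loc (hξ n))
  · obtain ⟨n, hη, e⟩ := Set.mem_iUnion.1 hn
    obtain ⟨P, e₁, e₂, hfr, e'⟩ := D.m4_loc M hS hη (A.ch_nc n) (by rw [e, eξ])
    rw [e']
    exact A.lam_node hL.good (A.ch_nc n) hfr hL.hH fun i j h => D.node_cl M hfr (D.H_le M h)

end Vale.Agent.P300
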