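import Vale.Agent.P300.Frat4

/-! Rationality of the residue fields at the special fibre. Let `B = DVs`, `S` = the `g ∈ B` acting
trivially on the residues of `V ∩ fx H` and fixing the chosen roots. `S` contains `IVs`
(`iv_root`) and the elements of `H ∩ B` fixing the roots; it is normal in `B` (`gen_D`: `B` is
generated by elements of `E`, which preserve `fx H`, and `IVs`). `rat222`: `w₁ ^ 2 = y`,
`w₂ ^ 2 = y - 1`, `t = w₁ + w₂`, `t⁻¹ = w₁ - w₂`, `4 t ^ 2 y = (t ^ 2 + 1) ^ 2`; if `g t ≡ t` then both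
signs are trivial; `g222`, `fix_t`. `ratcyc`: `t ^ 2 ^ a = y`, `exists_char`, `gcyc`. -/

open scoped LinearAlgebra.Projectivization Topology Classical Pointwise
open Polynomial

set_option linter.unusedSectionVars false

namespace Vale.Agent.P300

variable {L : Type} [Field L] [Algebra ℂ L] [IsAlgClosed L] (A : Amb L)

theorem rat_ne {V : ValuationSubring L} {a : L} (h : VU V a) : a ≠ 0 := by
  rintro rfl
  exact h.2 V.nonunits.zero_mem

theorem rat_root {V : ValuationSubring L} {a : L} {n : ℕ} (hn : n ≠ 0) (h : VU V (a ^ n)) :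
    VU V a := by
  rw [vu_iff] at h ⊢
  rwa [map_pow, pow_eq_one_iff_of_nonneg zero_le hn] at h

theorem rat_lin {V : ValuationSubring L} {τ y : L} (hV : Over V τ y) (c : ℂ) :
    VU V (y - algebraMap ℂ L c) :=
  ⟨sub_mem hV.hv (hV.alg c), by simpa using hV.tr (X - C c) (X_sub_C_ne_zero c)⟩

theorem rat_sign [CharZero L] {χ χ' : ℤˣ} {w : L} (hw : w ≠ 0)
    (h : ((χ : ℤ) : L) * w = ((χ' : ℤ) : L) * w) : χ = χ' :=
  Units.ext (Int.cast_injective (mul_right_cancel₀ hw h))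

theorem Amb.rat_nu {V : ValuationSubring L} {F : IntermediateField A.K L} {g : A.G}
    (hg : A.DV V F g) {b : L} (hb : b ∈ F) (h : b ∈ V.nonunits) : g b ∈ V.nonunits := by
  rw [V.mem_nonunits_iff_or] at h ⊢
  rwa [← map_inv₀, hg _ (F.inv_mem hb), map_eq_zero]

theorem Amb.rat_core {V : ValuationSubring L} (hc : ∀ c : ℂ, algebraMap ℂ L c ∈ V)
    {F : IntermediateField A.K L} (hF : Normal A.K F) {Y : Finset ℂ} {e : ℂ → A.G}
    (gen : A.DVs V hF ≤ Subgroup.closure (e '' Y) ⊔ A.IVs V hF) (he : ∀ c ∈ Y, e c ∈ A.DVs V hF)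
    {H E : Subgroup A.G} (hN : F.fixingSubgroup ≤ H) (hn : ∀ g ∈ E, ∀ h ∈ H, g * h * g⁻¹ ∈ H)
    (hE : ∀ c ∈ Y, e c ∈ E) (tw : A.Tw F) (W : Set L)
    (hW : ∀ w ∈ W, w ∈ F ∧ ∃ n, 1 ≤ n ∧ w ^ n ∈ A.K ∧ VU V (w ^ n)) :
    ∃ S : Subgroup A.G, S ≤ A.DVs V hF ∧ (∀ g ∈ A.DVs V hF, ∀ h ∈ S, g * h * g⁻¹ ∈ S) ∧
      A.DVs V hF ≤ Subgroup.closure (e '' Y) ⊔ S ∧
      (∀ g ∈ A.DVs V hF, g ∈ H → (∀ w ∈ W, g w = w) → g ∈ S) ∧
      ∀ g ∈ S, (∀ w ∈ W, g w = w) ∧ ∀ a ∈ A.fx H, a ∈ V → g a - a ∈ V.nonunits := by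
  have := tw.finite A
  have hM : ∀ a ∈ A.fx H, a ∈ F := fun a ha => (A.fix_fix H hN).2 ha
  let S : Subgroup A.G :=
    { carrier := {g | g ∈ A.DVs V hF ∧ (∀ w ∈ W, g w = w) ∧
        ∀ a ∈ A.fx H, a ∈ V → g a - a ∈ V.nonunits}
      mul_mem' := fun {g h} hg hh => ⟨mul_mem hg.1 hh.1,
        fun w hw => by rw [AlgEquiv.mul_apply, hh.2.1 w hw, hg.2.1 w hw], fun a ha hv => by
          have := V.nonunits.add_mem (A.rat_nu hg.1 (sub_mem (A.nm hF h (hM a ha)) (hM a ha))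
            (hh.2.2 a ha hv)) (hg.2.2 a ha hv)
          rwa [map_sub, sub_add_sub_cancel] at this⟩
      one_mem' := ⟨one_mem _, fun _ _ => rfl, fun a _ _ => by simp⟩
      inv_mem' := fun {g} hg => ⟨inv_mem hg.1,
        fun w hw => by rw [AlgEquiv.aut_inv, AlgEquiv.symm_apply_eq, hg.2.1 w hw], fun a ha hv => by
          have := V.nonunits.neg_mem (A.rat_nu (inv_mem hg.1 :)
            (sub_mem (A.nm hF g (hM a ha)) (hM a ha)) (hg.2.2 a ha hv))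
          rwa [map_sub, ← AlgEquiv.mul_apply, inv_mul_cancel, AlgEquiv.one_apply, neg_sub] at this⟩ }
  have h1 : A.IVs V hF ≤ S := fun g hg => ⟨hg.1, fun w hw => by
    obtain ⟨h1, n, h2, h3, h4⟩ := hW w hw
    exact A.iv_root hc hg.2 h1 h2 h4 (A.fixK g h3), fun a ha hv => hg.2 a (hM a ha) hv⟩
  have h2 : ∀ g ∈ E, g ∈ A.DVs V hF → ∀ h ∈ S, g * h * g⁻¹ ∈ S := by
    intro g g1 g2 h hh
    refine ⟨mul_mem (mul_mem g2 hh.1) (inv_mem g2), fun w hw => ?_, fun a ha hv => ?_⟩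
    · obtain ⟨-, n, h2, h3, h4⟩ := hW w hw
      obtain ⟨ψ, -, c1⟩ := A.exists_char (rat_ne (rat_root (by omega) h4)) h2 h3
      rw [AlgEquiv.mul_apply, AlgEquiv.mul_apply, c1 g⁻¹, map_mul, A.fixC, hh.2.1 w hw, ← c1 g⁻¹,
        ← AlgEquiv.mul_apply, mul_inv_cancel, AlgEquiv.one_apply]
    · have a1 : g⁻¹ a ∈ A.fx H := (IntermediateField.mem_fixedField_iff _ _).2 fun k hk => by
        have := (IntermediateField.mem_fixedField_iff _ _).1 ha _ (hn g g1 k hk)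
        rw [AlgEquiv.mul_apply, AlgEquiv.mul_apply] at this
        exact g.injective (this.trans (g.apply_symm_apply a).symm)
      have := A.rat_nu g2 (sub_mem (A.nm hF h (hM _ a1)) (hM _ a1))
        (hh.2.2 _ a1 (((A.DVs V hF).inv_mem g2 a (hM a ha)).2 hv))
      rwa [map_sub, ← AlgEquiv.mul_apply g g⁻¹, mul_inv_cancel, AlgEquiv.one_apply] at this
  have h3 : A.DVs V hF ≤ Subgroup.normalizer S := by
    refine gen.trans (sup_le ?_ (h1.trans Subgroup.le_normalizer))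
    rw [Subgroup.closure_le]
    rintro _ ⟨c, hc, rfl⟩
    refine Subgroup.mem_normalizer_iff.2 fun h => ⟨h2 _ (hE c hc) (he c hc) h, fun hh => ?_⟩
    simpa [mul_assoc] using h2 _ (inv_mem (hE c hc)) (inv_mem (he c hc)) _ hh
  refine ⟨S, fun g hg => hg.1, fun g hg h => (Subgroup.mem_normalizer_iff.1 (h3 hg) h).1,
    gen.trans (sup_le_sup_left h1 _), fun g g1 g2 g3 => ⟨g1, g3, fun a ha _ => ?_⟩,
    fun g hg => hg.2⟩
  rw [(IntermediateField.mem_fixedField_iff _ _).1 ha g g2, sub_self]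
  exact V.nonunits.zero_mem

theorem Amb.rat222 {V : ValuationSubring L} {τ y : L} (hV : Over V τ y)
    (hi : AlgebraicIndependent ℂ ![τ, y]) (hg : IntermediateField.adjoin ℂ {τ, y} = A.K)
    {F : IntermediateField A.K L} {a : ℕ} (hF : A.Good F a) (Y : Finset ℂ) (e : ℂ → A.G)
    (he : ∀ c ∈ Y, e c ∈ A.DVs V hF.normal)
    (hr : ∀ c ∈ Y, ∀ w, w ^ 2 = y - algebraMap ℂ L c → w ∈ F)
    (ha : ∀ c ∈ Y, ∀ c' ∈ Y, A.Acts (e c) (y - algebraMap ℂ L c') (if c' = c then 1 else 0))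
    (hu : ∀ c, c ∉ Y → ∃ u fu, A.Ch u (y - algebraMap ℂ L c) fu false ∧
      Over V u (y - algebraMap ℂ L c))
    {H E : Subgroup A.G} (hN : F.fixingSubgroup ≤ H) (hn : ∀ g ∈ E, ∀ h ∈ H, g * h * g⁻¹ ∈ H)
    (hE : ∀ c ∈ Y, e c ∈ E) (h0 : (0 : ℂ) ∈ Y) (h1 : (1 : ℂ) ∈ Y) (s0 : e 0 ^ 2 ∈ H)
    (s1 : e 1 ^ 2 ∈ H) (so : ∀ c ∈ Y, c ≠ 0 → c ≠ 1 → e c ∈ H) {d : A.G}
    (hd : d ∈ A.DVs V hF.normal) (sd : d ^ 2 ∈ H) (d0 : A.Acts d y (-1))
    (d1 : A.Acts d (y - 1) (-1)) : ∃ t ∈ F, RatOn V (A.fx H) t := by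
  have : CharZero L := charZero_of_injective_algebraMap (algebraMap ℂ L).injective
  have yK : y ∈ A.K := hg ▸ IntermediateField.subset_adjoin ℂ _ (by simp)
  obtain ⟨w₁, q1⟩ := IsAlgClosed.exists_pow_nat_eq y two_pos
  obtain ⟨w₂, q2⟩ := IsAlgClosed.exists_pow_nat_eq (y - 1) two_pos
  have q1' : w₁ ^ 2 ^ 1 = y - algebraMap ℂ L 0 := by simpa using q1
  have q2' : w₂ ^ 2 ^ 1 = y - algebraMap ℂ L 1 := by simpa using q2
  have f1 := hr 0 h0 w₁ q1'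
  have f2 := hr 1 h1 w₂ q2'
  have u1 : VU V (w₁ ^ 2) := (show w₁ ^ 2 = _ from q1') ▸ rat_lin hV 0
  have u2 : VU V (w₂ ^ 2) := (show w₂ ^ 2 = _ from q2') ▸ rat_lin hV 1
  have k1 : w₁ ^ 2 ∈ A.K := q1 ▸ yK
  have k2 : w₂ ^ 2 ∈ A.K := q2 ▸ sub_mem yK (one_mem _)
  obtain ⟨S, p1, p2, p3, p4, p5⟩ := A.rat_core hV.alg hF.normal (A.gen_D hV hi hg hF Y e he hr ha hu)
    he hN hn hE hF.tw {w₁, w₂} (by
      rintro _ (rfl | rfl)
      exacts [⟨f1, 2, one_le_two, k1, u1⟩, ⟨f2, 2, one_le_two, k2, u2⟩])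
  have v1 := rat_root two_ne_zero u1
  have v2 := rat_root two_ne_zero u2
  obtain ⟨χ₁, c1⟩ := A.exists_sign (rat_ne v1) k1
  obtain ⟨χ₂, c2⟩ := A.exists_sign (rat_ne v2) k2
  have o1 : A.Om w₁ := ⟨F, hF.tw, f1⟩
  have o2 : A.Om w₂ := ⟨F, hF.tw, f2⟩
  have mem : ∀ g ∈ A.DVs V hF.normal, g ∈ H → χ₁ g = 1 → χ₂ g = 1 → g ∈ S := by
    intro g g1 g2 g3 g4
    refine p4 g g1 g2 ?_
    rintro _ (rfl | rfl)
    · simp [c1, g3]
    · simp [c2, g4]
  have x1 : ∀ c ∈ Y, χ₁ (e c) = if 0 = c then -1 else 1 := fun c hc => by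
    have := ha c hc 0 h0 1 w₁ o1 q1'
    rw [c1, zt_one] at this
    split_ifs at this ⊢ <;> exact rat_sign (rat_ne v1) (by simpa using this)
  have x2 : ∀ c ∈ Y, χ₂ (e c) = if 1 = c then -1 else 1 := fun c hc => by
    have := ha c hc 1 h1 1 w₂ o2 q2'
    rw [c2, zt_one] at this
    split_ifs at this ⊢ <;> exact rat_sign (rat_ne v2) (by simpa using this)
  have sq : ∀ g ∈ A.DVs V hF.normal, g ^ 2 ∈ H → g ^ 2 ∈ S := fun g g1 g2 =>
    mem _ (pow_mem g1 2) g2 (by rw [map_pow, Int.units_sq]) (by rw [map_pow, Int.units_sq])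
  have e1 : (w₁ + w₂) * (w₁ - w₂) = 1 := by linear_combination q1 - q2
  have vt : VU V (w₁ + w₂) := val_vu_of_inv (left_ne_zero_of_mul_eq_one e1) (add_mem v1.1 v2.1)
    (eq_inv_of_mul_eq_one_right e1 ▸ sub_mem v1.1 v2.1)
  have two : ∀ {w : L}, VU V w → VU V (-2 * w) := fun hw => by
    simpa [map_ofNat] using (VU.const hV.alg (c := -2) (by norm_num)).mul hw
  refine ⟨w₁ + w₂, add_mem f1 f2, A.fix_t hV hi hg hF.tw hF.normal (add_mem f1 f2) vt.1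
    (P₀ := (Polynomial.X ^ 2 + 1) ^ 2) (Q₀ := (C (-2) * Polynomial.X) ^ 2) ?_ ?_
    (fun b hb => (have := hF.tw.finite A; (A.fix_fix H hN).2 hb)) fun g g1 g2 => (p5 g ?_).2⟩
  · simpa [pow_two, map_ofNat] using ((two vt).mul (two vt)).2
  · simp only [map_pow, map_mul, map_add, aeval_X, map_one, map_neg, map_ofNat]
    rw [← e1, ← q1]
    ring
  have g3 : χ₁ g = 1 ∧ χ₂ g = 1 := by
    rw [map_add, c1, c2] at g2
    rcases Int.units_eq_one_or (χ₁ g) with a1 | a1 <;>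
      rcases Int.units_eq_one_or (χ₂ g) with a2 | a2 <;> rw [a1, a2] at g2
    · exact ⟨a1, a2⟩
    · exact absurd (by convert g2 using 1; simp; ring) (two v2).2
    · exact absurd (by convert g2 using 1; simp; ring) (two v1).2
    · exact absurd (by convert g2 using 1; simp; ring) (two vt).2
  obtain ⟨k, hk⟩ := (hF.tw.fix A hF.normal).2.2
  refine g222 _ S p1 p2 ⟨k, fun g g1 => p4 _ (pow_mem g1 _) (hN (hk g)) ?_⟩ (a := ⟨e 0, he 0 h0⟩)
    (b := ⟨e 1, he 1 h1⟩) (c := ⟨d, hd⟩) (p3.trans (sup_le ?_ le_sup_right))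
    (χ₁.comp (Subgroup.subtype _)) (χ₂.comp (Subgroup.subtype _)) (fun g hg => ⟨?_, ?_⟩)
    ⟨by simpa using x1 0 h0, by simpa using x2 0 h0⟩ ⟨by simpa using x1 1 h1, by simpa using x2 1 h1⟩
    ⟨?_, ?_⟩ (sq _ (he 0 h0) s0) (sq _ (he 1 h1) s1) (sq _ hd sd) ⟨g, g1⟩ g3.1 g3.2
  · rintro _ (rfl | rfl)
    exacts [hk g ⟨_, f1⟩, hk g ⟨_, f2⟩]
  · rw [Subgroup.closure_le]
    rintro _ ⟨c, hc, rfl⟩
    by_cases a0 : c = 0
    · exact Subgroup.mem_sup_left (Subgroup.subset_closure (Or.inl (by rw [a0])))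
    by_cases a1 : c = 1
    · exact Subgroup.mem_sup_left (Subgroup.subset_closure (Or.inr (by rw [a1]; rfl)))
    exact Subgroup.mem_sup_right (mem _ (he c hc) (so c hc a0 a1)
      (by rw [x1 c hc, if_neg (Ne.symm a0)]) (by rw [x2 c hc, if_neg (Ne.symm a1)]))
  · exact rat_sign (rat_ne v1) (by simpa [c1] using (p5 g hg).1 w₁ (by simp))
  · exact rat_sign (rat_ne v2) (by simpa [c2] using (p5 g hg).1 w₂ (by simp))
  · have := d0 1 w₁ o1 q1
    rw [c1, zt_one] at this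
    exact rat_sign (rat_ne v1) (by simpa using this)
  · have := d1 1 w₂ o2 q2
    rw [c2, zt_one] at this
    exact rat_sign (rat_ne v2) (by simpa using this)

theorem Amb.ratcyc {V : ValuationSubring L} {τ y : L} (hV : Over V τ y)
    (hi : AlgebraicIndependent ℂ ![τ, y]) (hg : IntermediateField.adjoin ℂ {τ, y} = A.K)
    {F : IntermediateField A.K L} {a : ℕ} (hF : A.Good F a) (e : ℂ → A.G)
    (he : ∀ c ∈ ({0, 1} : Finset ℂ), e c ∈ A.DVs V hF.normal)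
    (hr : ∀ c ∈ ({0, 1} : Finset ℂ), ∀ w, w ^ 2 = y - algebraMap ℂ L c → w ∈ F)
    (ha : ∀ c ∈ ({0, 1} : Finset ℂ), ∀ c' ∈ ({0, 1} : Finset ℂ),
      A.Acts (e c) (y - algebraMap ℂ L c') (if c' = c then 1 else 0))
    (hu : ∀ c, c ∉ ({0, 1} : Finset ℂ) → ∃ u fu, A.Ch u (y - algebraMap ℂ L c) fu false ∧
      Over V u (y - algebraMap ℂ L c))
    {H E : Subgroup A.G} (hN : F.fixingSubgroup ≤ H) (hn : ∀ g ∈ E, ∀ h ∈ H, g * h * g⁻¹ ∈ H)
    (hE : ∀ c ∈ ({0, 1} : Finset ℂ), e c ∈ E) (hy : ∀ w, w ^ 2 ^ a = y → w ∈ F)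
    (s0 : e 0 ^ 2 ^ a ∈ H) (s1 : e 1 ∈ H) : ∃ t ∈ F, RatOn V (A.fx H) t := by
  have yK : y ∈ A.K := hg ▸ IntermediateField.subset_adjoin ℂ _ (by simp)
  obtain ⟨t, q⟩ := IsAlgClosed.exists_pow_nat_eq y (Nat.two_pow_pos a)
  have q' : t ^ 2 ^ a = y - algebraMap ℂ L 0 := by simpa using q
  have f := hy t q
  have u : VU V (t ^ 2 ^ a) := q' ▸ rat_lin hV 0
  have k : t ^ 2 ^ a ∈ A.K := q ▸ yK
  obtain ⟨S, p1, p2, p3, p4, p5⟩ := A.rat_core hV.alg hF.normal (A.gen_D hV hi hg hF _ e he hr ha hu)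
    he hN hn hE hF.tw {t} (by
      rintro _ rfl
      exact ⟨f, _, Nat.one_le_two_pow, k, u⟩)
  have v := rat_root (Nat.two_pow_pos a).ne' u
  obtain ⟨ψ, c0, c1⟩ := A.exists_char (rat_ne v) Nat.one_le_two_pow k
  have o : A.Om t := ⟨F, hF.tw, f⟩
  have one : ∀ g, ψ g = 1 ↔ g t = t := fun g => by
    rw [c1, mul_left_eq_self₀, or_iff_left (rat_ne v), map_eq_one_iff _ (algebraMap ℂ L).injective,
      Units.val_eq_one]
  refine ⟨t, f, A.fix_t hV hi hg hF.tw hF.normal f v.1 (P₀ := Polynomial.X ^ 2 ^ a) (Q₀ := 1) ?_ ?_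
    (fun b hb => (have := hF.tw.finite A; (A.fix_fix H hN).2 hb)) fun g g1 g2 => (p5 g ?_).2⟩
  · simpa using (VU.const hV.alg one_ne_zero).2
  · simp [q]
  refine gcyc _ S p1 p2 (a := ⟨e 0, he 0 (by simp)⟩) (p3.trans (sup_le ?_ le_sup_right))
    (ψ.comp (Subgroup.subtype _)) (fun g hg => (one _).2 ((p5 g hg).1 t rfl)) (n := 2 ^ a) ?_
    (p4 _ (pow_mem (he 0 (by simp)) _) s0 ?_) ⟨g, g1⟩ ?_
  · rw [Subgroup.closure_le]
    rintro _ ⟨c, hc, rfl⟩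
    rcases Finset.mem_insert.1 hc with rfl | hc'
    · exact Subgroup.mem_sup_left (Subgroup.subset_closure rfl)
    rw [Finset.mem_singleton.1 hc']
    refine Subgroup.mem_sup_right (p4 _ (he 1 (by simp)) s1 ?_)
    rintro _ rfl
    simpa using ha 1 (by simp) 0 (by simp) a _ o q'
  · have := ha 0 (by simp) 0 (by simp) a t o q'
    rw [c1, if_pos rfl, zpow_one, mul_left_inj' (rat_ne v)] at this
    refine IsPrimitiveRoot.coe_units_iff.1 (IsPrimitiveRoot.of_map_of_injective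
      (f := algebraMap ℂ L) ?_ (algebraMap ℂ L).injective)
    exact this ▸ zt_prim (L := L) a
  · rintro _ rfl
    exact (one _).1 (by rw [map_pow, c0])
  · by_contra hne
    have h1 : (ψ g : ℂ) - 1 ≠ 0 := sub_ne_zero.2 fun h => hne (Units.val_eq_one.1 h)
    refine ((VU.const hV.alg h1).mul v).2 ?_
    rwa [map_sub, map_one, sub_mul, one_mul, ← c1]

end Vale.Agent.P300
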