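import Vale.Agent.P300.M2
import Vale.Agent.P300.Rat

/-! The components of the special fibre are covered by rational curves. `acts_U`: a root `y` of `w` is integral
over `x.O`, `e y = ζ y` and `P.ev y ≠ 0`. `rat0`: `rat222` with `τ = s - 1`, `y = z`, `Y = {0} ∪ range muC`,
`e 0 = x zero`, `e (muC a) = (c (fin 0 a))⁻¹` (at the node `z = v + mu a`, so `z - c'` is a unit for `c' ≠ muC a`),
`d = x none` (`kum`, `hb_inf`, `ip_dv`, `over_main`, `ch_main`, `rat_root`). `rat1`: `τ = z - mu a`,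
`y = yb a`, `Y = {0, 1}`, `e 0 = x (dia a)` (`hc (dia a) = (z - mu a, yb a)`), `e 1 = c (fin 0 a)` (`yb_sub`;
`ip_dv` on the swapped chart), `over_bub`, `ch_bub`. For `a = 0` use `rat222` with `d = x (cst 0)`
(second parameter `(yb a)⁻¹`, `yb a - 1 = yb a * (1 - (yb a)⁻¹)`), else `ratcyc` (`dx` with `g = 1`, `Lv.le`). -/

open scoped LinearAlgebra.Projectivization Topology Classical Pointwise
open Polynomial

set_option linter.unusedSectionVars false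

namespace Vale.Agent.P300

variable {L : Type} [Field L] [Algebra ℂ L] [IsAlgClosed L] {A : Amb L} {C : A.Cfg} (D : C.Pack)

theorem Amb.acts_U {x P : LP L} (hx : ∀ a ∈ x.O, a ∈ A.K) (hP : Ab x P) {e : A.G}
    (he : A.IP x ⊤ P e) {w : L} (hw : x.U w) : A.Acts e w 0 := fun a y _ hy => by
  have hn : 0 < 2 ^ a := by positivity
  have h0 : y ≠ 0 := fun h1 => hw.ne (by rw [← hy, h1, zero_pow hn.ne'])
  obtain ⟨c, -, hc⟩ := root_mem (ζ := e y / y) hn (by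
    rw [div_pow, ← map_pow, hy, A.fixK e (hx w hw.1), div_self hw.ne])
  have hb : y ∈ Bx x ⊤ := mem_Bx.2 ⟨Rg2_int_pow hn (hy ▸ hw.1), trivial⟩
  have h1 := he y hb
  have h2 := hP.int y hb
  rw [(div_eq_iff h0).1 hc, P.hom.mul _ (P.O.algebraMap_mem c) _ h2, P.hom.alg] at h1
  have h3 : P.ev y ≠ 0 := fun h => hw.2 (by
    rw [← (hP.le w hw.1).2, ← hy, P.hom.pow h2, h, zero_pow hn.ne'])
  rw [(div_eq_iff h0).1 hc, (mul_eq_right₀ h3).1 h1, map_one, zpow_zero]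

theorem Amb.rat_smul {V : ValuationSubring L} {H : Subgroup A.G} {t : L} (h : RatOn V (A.fx H) t)
    {g : A.G} (hg : ∀ k ∈ H, g * k * g⁻¹ ∈ H) : RatOn (g • V) (A.fx H) (g t) := by
  have e : ∀ P : ℂ[X], g⁻¹ (aeval (g t) P) = aeval t P := fun P => by
    have h1 := aeval_algHom_apply (g.restrictScalars ℂ) t P
    rw [show aeval (g t) P = g (aeval t P) from h1, A.tr_cancel']
  refine ⟨fun c => A.mem_smul.2 (by rw [A.fixC]; exact h.alg c),
    A.mem_smul.2 (by rw [A.tr_cancel']; exact h.ht), fun P hP k => h.tr P hP ?_, fun a ha hv => ?_⟩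
  · rwa [A.mem_smul_nonunits, e] at k
  · obtain ⟨P, Q, hQ, k⟩ := h.rat (g⁻¹ a) (fun k => by
      have h1 : g (k.1 (g⁻¹ a)) = a := ha ⟨_, hg k k.2⟩
      change k.1 (g⁻¹ a) = g⁻¹ a
      rw [← A.tr_cancel' g (k.1 (g⁻¹ a)), h1]) (A.mem_smul.1 hv)
    refine ⟨P, Q, hQ, A.mem_smul_nonunits.2 ?_⟩
    rwa [map_sub, map_mul, e, e]

theorem Amb.m5_dv {F : IntermediateField A.K L} {b : ℕ} (hF : A.Good F b) {u v : L} {fu fv : Bool}
    (hc : A.Ch u v fu fv) {P : LP L} {e₁ e₂ : A.G} (h : A.Fr u v P e₁ e₂)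
    {V : ValuationSubring L} (hV : Over V u v) (ho : On P V) :
    e₁ ∈ A.DVs V hF.normal ∧ e₂ ∈ A.DVs V hF.normal :=
  ⟨A.ip_dv hF hc h.ab hV ho (h.i1.mono A le_top), A.ip_dv hF hc h.ab hV ho (h.i2.mono A le_top)⟩

theorem Amb.m5_U {u v : L} {fu fv : Bool} (hc : A.Ch u v fu fv) {P : LP L} {e₁ e₂ : A.G}
    (h : A.Fr u v P e₁ e₂) {w : L} (hw : (cl u v).U w) :
    A.Acts e₂ w 0 ∧ A.Acts (e₁ * e₂⁻¹) w 0 := by
  have h2 := Amb.acts_U (hc.sub A) h.ab h.i2 hw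
  exact ⟨h2, by simpa using (Amb.acts_U (hc.sub A) h.ab h.i1 hw).mul A (h2.inv A)⟩

theorem Amb.Cfg.Pack.rat0 {M : ℕ} {F : IntermediateField A.K L} {b : ℕ} (h : D.Lv M F b) :
    ∃ t ∈ F, RatOn C.V0 (A.fx (D.H M)) t := by
  have hc := A.ch_hc (some .zero)
  have hm := A.over_main C.hV0
  obtain ⟨e, e0, e1⟩ : ∃ e : ℂ → A.G, e 0 = C.x (some .zero) ∧
      ∀ a, e (muC a) = (C.c (.fin 0 a))⁻¹ :=
    ⟨fun c => if c = 0 then C.x (some .zero) else (C.c (.fin 0 (Function.invFun muC c)))⁻¹,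
      if_pos rfl, fun a => by
        simp only [if_neg (muC_ne a), Function.leftInverse_invFun muC_inj a]⟩
  have hY : ∀ c, c ∈ insert 0 (Finset.univ.image muC) ↔ c = 0 ∨ ∃ a, muC a = c := fun c => by simp
  have z0 : A.z - algebraMap ℂ L 0 = A.form (.sec .zero) := by rw [map_zero]; rfl
  refine A.rat222 C.hV0 hc.ind hc.gen h.good (insert 0 (Finset.univ.image muC)) e
    (fun c k => ?_) (fun c k w hw => ?_) (fun c k c' k' => ?_)
    (fun c k => ⟨A.s - 1, true, A.ch_main (fun e => k ((hY c).2 (Or.inl e)))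
      fun a e => k ((hY c).2 (Or.inr ⟨a, e.symm⟩)), hm.2.2 c⟩) h.hH (D.H_nor M) (fun c k => ?_)
    ((hY 0).2 (Or.inl rfl)) ((hY 1).2 (Or.inr ⟨0, muC_zero⟩)) (e0 ▸ D.B_le M (D.q0 M)) ?_
    (fun c k k0 k1 => ?_)
    (Amb.m5_dv h.good (A.ch_hc none) (C.frh none) hm.1 C.on_inf).2 (D.B_le M (D.qi M)) ?_ ?_
  · rcases (hY c).1 k with rfl | ⟨a, rfl⟩
    · exact e0 ▸ (Amb.m5_dv h.good hc (C.frh _) C.hV0 C.on_zero).2
    · have h1 := Amb.m5_dv h.good (A.ch_nc _) (C.frn (.fin 0 a)) (hm.2.1 a) (C.on_n0 a)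
      exact e1 a ▸ inv_mem (mul_mem h1.1 (inv_mem h1.2))
  · rcases (hY c).1 k with rfl | ⟨a, rfl⟩
    · exact h.good.rat_root A (A.x1_rat (.sec .zero)) (c := 1) h.good.pos
        (by rw [pow_one, hw, z0, map_one, one_mul])
    · exact h.good.rat_root A (A.x1_rat (.sec (.cst a))) (c := 1) h.good.pos
        (by rw [pow_one, hw, map_one, one_mul]; rfl)
  · rcases (hY c).1 k with rfl | ⟨a, rfl⟩
    · rw [e0]
      rcases (hY c').1 k' with rfl | ⟨a, rfl⟩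
      · rw [z0, if_pos rfl]
        exact (C.kum .zero).2 .zero
      · rw [if_neg (muC_ne a)]
        exact (C.kum .zero).2 (.cst a)
    · rw [e1]
      split_ifs with h1
      · rw [h1]
        exact ((C.frn (.fin 0 a)).a12.mul A ((C.frn (.fin 0 a)).a22.inv A)).inv A
      · have h2 := x1_U (sub_ne_zero.2 (Ne.symm h1)) (cl_m_LPB (A.ch_nc (.fin 0 a)).ind).2
        have h3 := ((Amb.m5_U (A.ch_nc _) (C.frn (.fin 0 a)) h2).2).inv A
        have e : algebraMap ℂ L (muC a - c') + (A.nc (.fin 0 a)).2 = A.z - algebraMap ℂ L c' := by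
          simp [Amb.nc, mu]
        exact e ▸ h3
  · rcases (hY c).1 k with rfl | ⟨a, rfl⟩
    · exact e0 ▸ D.piE (C.x_pi _)
    · exact e1 a ▸ inv_mem (D.piE (C.c_pi _))
  · rw [← muC_zero, e1, inv_pow]
    exact inv_mem (D.B_le M (D.qc M))
  · obtain ⟨a, rfl⟩ := ((hY c).1 k).resolve_left k0
    exact e1 a ▸ inv_mem (D.B_le M (D.kc M a fun e => k1 (by rw [e, muC_zero])))
  · exact A.x1_z ▸ A.hb_inf (A.ch_hc none) (A.hb_hc none) (C.frh none) .zero
  · exact mu_zero (L := L) ▸ A.hb_inf (A.ch_hc none) (A.hb_hc none) (C.frh none) (.cst 0)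

theorem Amb.Cfg.Pack.rat1 {M : ℕ} {F : IntermediateField A.K L} {b : ℕ} (h : D.Lv M F b) (a : Mu) :
    ∃ t ∈ F, RatOn (C.V a) (A.fx (D.H M)) t := by
  have hc : A.Ch (A.z - mu L a) (A.yb a) true true := A.ch_hc (some (.dia a))
  have hf : A.Fr (A.z - mu L a) (A.yb a) _ _ _ := C.frh (some (.dia a))
  have hn := A.ch_nc (.fin 0 a)
  have hg := C.frn (.fin 0 a)
  have hm := A.over_bub a (C.hV a)
  obtain ⟨e, e0, e1⟩ : ∃ e : ℂ → A.G, e 0 = C.x (some (.dia a)) ∧ e 1 = C.c (.fin 0 a) :=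
    ⟨fun c => if c = 0 then C.x (some (.dia a)) else C.c (.fin 0 a), if_pos rfl,
      if_neg one_ne_zero⟩
  have hY : ∀ c : ℂ, c ∈ ({0, 1} : Finset ℂ) ↔ c = 0 ∨ c = 1 := fun c => by simp
  have hmu : -muC a ≠ 0 := neg_ne_zero.2 (muC_ne a)
  have he : ∀ c ∈ ({0, 1} : Finset ℂ), e c ∈ A.DVs (C.V a) h.good.normal := fun c k => by
    rcases (hY c).1 k with rfl | rfl
    · exact e0 ▸ (Amb.m5_dv h.good hc hf hm.1 (C.on_dia a)).2
    · have h1 := Amb.m5_dv h.good (hn.swap A) (hg.swap A hn.ind) (C.hV a) (C.on_n1 a)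
      exact e1 ▸ mul_mem h1.2 (inv_mem h1.1)
  have hr : ∀ c ∈ ({0, 1} : Finset ℂ), ∀ w, w ^ 2 = A.yb a - algebraMap ℂ L c → w ∈ F :=
    fun c k w hw => by
    rcases (hY c).1 k with rfl | rfl
    · exact h.good.rat_root A (A.yb_rat a) (c := 1) h.good.pos
        (by rw [pow_one, hw, map_zero, sub_zero, map_one, one_mul])
    · exact h.good.rat_root A (hn.ru rfl) (c := -muC a) h.good.pos
        (by rw [pow_one, hw, map_one, A.yb_sub])
  have ha : ∀ c ∈ ({0, 1} : Finset ℂ), ∀ c' ∈ ({0, 1} : Finset ℂ),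
      A.Acts (e c) (A.yb a - algebraMap ℂ L c') (if c' = c then 1 else 0) := fun c k c' k' => by
    rcases (hY c).1 k with rfl | rfl <;> rcases (hY c').1 k' with rfl | rfl
    · simpa [e0] using hf.a22
    · have h2 := (Amb.m5_U hc hf (x1_U (neg_ne_zero.2 one_ne_zero) (cl_m_LPB hc.ind).2)).1
      rw [e0, if_neg one_ne_zero]
      convert h2 using 1
      rw [map_neg, neg_add_eq_sub]
    · have h2 := (Amb.m5_U hn hg (x1_U one_ne_zero (x1_cm (-muC a) (cl_m_LPB hn.ind).1))).2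
      rw [← A.yb_sub, map_one, add_sub_cancel] at h2
      rw [e1, if_neg zero_ne_one, map_zero, sub_zero]
      exact h2
    · have h2 := (A.acts_const _ (-muC a)).mul_right A (hg.a11.mul A (hg.a21.inv A))
        (A.un_const hmu) (A.om_K (A.K.algebraMap_mem _))
      rw [e1, if_pos rfl, map_one, A.yb_sub]
      exact h2
  have hu : ∀ c, c ∉ ({0, 1} : Finset ℂ) → ∃ u fu, A.Ch u (A.yb a - algebraMap ℂ L c) fu false ∧
      Over (C.V a) u (A.yb a - algebraMap ℂ L c) := fun c k =>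
    ⟨_, true, A.ch_bub a (fun e => k ((hY c).2 (Or.inl e))) fun e => k ((hY c).2 (Or.inr e)),
      hm.2.2 c⟩
  have hE : ∀ c ∈ ({0, 1} : Finset ℂ), e c ∈ D.E := fun c k => by
    rcases (hY c).1 k with rfl | rfl
    · exact e0 ▸ D.piE (C.x_pi _)
    · exact e1 ▸ D.piE (C.c_pi _)
  by_cases h0 : a = 0
  · subst h0
    have hd := C.frh (some (.cst 0))
    have hc' := A.ch_hc (some (.cst 0))
    have ev : (A.hc (some (.cst 0))).2⁻¹ = A.yb 0 := inv_div _ _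
    have d0 : A.Acts (C.x (some (.cst 0))) (A.yb 0) (-1) := ev ▸ hd.a22.inv_right A
    refine A.rat222 hm.1 hc.ind hc.gen h.good _ e he hr ha hu h.hH (D.H_nor M) hE
      ((hY 0).2 (Or.inl rfl)) ((hY 1).2 (Or.inr rfl)) (e0 ▸ D.B_le M (D.q2 M))
      (e1 ▸ D.B_le M (D.qc M)) (fun c k k0 k1 => (k1 (((hY c).1 k).resolve_left k0)).elim)
      (Amb.m5_dv h.good hc' hd hm.2.1 (C.on_cst 0)).2 (D.B_le M (D.q1 M)) d0 ?_
    have h1 := (A.yb_rat 0).un A
    have h2 := d0.mul_right A (Amb.m5_U hc' hd (x1_U1 1 (cl_m_LPB hc'.ind).2)).1 h1.1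
      (A.om_K h1.2)
    rw [add_zero] at h2
    convert h2 using 1
    rw [map_one, one_mul, mul_sub, mul_one, ← inv_inv (A.hc (some (.cst 0))).2, ev,
      mul_inv_cancel₀ h1.1.1]
  · refine A.ratcyc hm.1 hc.ind hc.gen h.good e he hr ha hu h.hH (D.H_nor M) hE
      (fun w hw => h.good.rat_root A (A.yb_rat a) (c := 1) le_rfl (by rw [hw, map_one, one_mul]))
      ?_ (e1 ▸ D.B_le M (D.kc M a h0))
    obtain ⟨k, rfl⟩ := Nat.exists_eq_add_of_le h.le
    rw [e0, pow_add, pow_mul]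
    exact pow_mem (D.B_le M (by simpa using D.dx M (some (.dia a)) 1)) _

end Vale.Agent.P300
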