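import Vale.Agent.P300.Mod

/-! Normalisation of a model in a finite extension. For `j` with `f j ≠ 0` let `A j = ℂ[f i / f j]`
and `B j` its integral closure in `M`, a finite `A j`-module (Noether normalisation
`exists_finite_inj_algHom_of_fg`, then `IsIntegralClosure.finite` over the polynomial ring; every
element of `M₀` is a fraction of `A j`), generated by `g j l`. For large `n` all
`(f j / f k) ^ n g j l` are integral over `A k`. Join `T` with the tuple `f j ^ n`,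
`f j ^ n g j l`. At a point above the chart `k` the entry `f k ^ n` is nonzero (if `b` is integral
over `A k` and `b⁻¹` is in the local ring then `b⁻¹` is a unit), so the chart ring is `B k`. -/

open scoped LinearAlgebra.Projectivization Topology Classical nonZeroDivisors
open Polynomial

namespace Vale.Agent.P300

variable {L : Type} [Field L] [Algebra ℂ L]

theorem norm_abs (A R K F : Type) [CommRing A] [IsDomain A] [IsIntegrallyClosed A]
    [IsNoetherianRing A] [CharZero A] [CommRing R] [IsDomain R] [Field K] [Field F] [Algebra A R]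
    [Algebra R K] [Algebra A K] [IsScalarTower A R K] [IsFractionRing R K] [Module.Finite A R]
    [FaithfulSMul A R] [Algebra K F] [Algebra A F] [IsScalarTower A K F] [FiniteDimensional K F] :
    Module.Finite A (integralClosure A F) := by
  have : FaithfulSMul A K := FaithfulSMul.trans A R K
  letI := FractionRing.liftAlgebra A K
  have := FractionRing.isScalarTower_liftAlgebra A K
  letI : Algebra (FractionRing A) F :=
    ((algebraMap K F).comp (algebraMap (FractionRing A) K)).toAlgebra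
  have : IsScalarTower (FractionRing A) K F := IsScalarTower.of_algebraMap_eq fun _ => rfl
  have : IsScalarTower A (FractionRing A) F := IsScalarTower.of_algebraMap_eq fun x => by
    rw [IsScalarTower.algebraMap_apply (FractionRing A) K F,
      ← IsScalarTower.algebraMap_apply A (FractionRing A) K, ← IsScalarTower.algebraMap_apply A K F]
  have : FiniteDimensional (FractionRing A) K := .of_isLocalization A R A⁰
  have : FiniteDimensional (FractionRing A) F := Module.Finite.trans K F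
  exact IsIntegralClosure.finite A (FractionRing A) F (integralClosure A F)

theorem finite_closure (R : Subalgebra ℂ L) (hR : R.FG) {M₀ M : IntermediateField ℂ L}
    (hle : M₀ ≤ M) (hRM : ∀ a ∈ R, a ∈ M₀)
    (hfr : ∀ a ∈ M₀, ∃ b ∈ R, ∃ c ∈ R, c ≠ 0 ∧ a * c = b)
    (hfin : ∃ s : Finset L, ∀ a ∈ M, a ∈ Submodule.span M₀ (s : Set L)) :
    ∃ s : Finset L, (∀ a ∈ s, a ∈ M ∧ IsIntegral R a) ∧
      ∀ a ∈ M, IsIntegral R a → a ∈ Submodule.span R (s : Set L) := by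
  have : Algebra.FiniteType ℂ R := (Subalgebra.fg_iff_finiteType R).1 hR
  obtain ⟨d, g, hg, hgf⟩ := exists_finite_inj_algHom_of_fg ℂ R
  obtain ⟨s₀, hs₀⟩ := hfin
  let A := MvPolynomial (Fin d) ℂ
  let F : IntermediateField M₀ L := IntermediateField.extendScalars hle
  letI : Algebra A R := g.toRingHom.toAlgebra
  letI : Algebra R M₀ := (Subalgebra.inclusion (S := R) (T := M₀.toSubalgebra) hRM).toRingHom.toAlgebra
  letI : Algebra A M₀ := ((algebraMap R M₀).comp (algebraMap A R)).toAlgebra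
  letI : Algebra A L := ((algebraMap R L).comp (algebraMap A R)).toAlgebra
  have : IsScalarTower A R M₀ := IsScalarTower.of_algebraMap_eq fun _ => rfl
  have : IsScalarTower A R L := IsScalarTower.of_algebraMap_eq fun _ => rfl
  have : IsScalarTower A M₀ L := IsScalarTower.of_algebraMap_eq fun _ => rfl
  have : IsScalarTower A M₀ F := IsScalarTower.of_algebraMap_eq fun _ => rfl
  have : IsScalarTower A F L := IsScalarTower.of_algebraMap_eq fun _ => rfl
  have : Module.Finite A R := hgf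
  have : FaithfulSMul A R := (faithfulSMul_iff_algebraMap_injective A R).2 hg
  have : FaithfulSMul R M₀ := (faithfulSMul_iff_algebraMap_injective R M₀).2
    (Subalgebra.inclusion_injective (S := R) (T := M₀.toSubalgebra) hRM)
  have : IsFractionRing R M₀ := IsFractionRing.of_field R M₀ fun z => by
    obtain ⟨b, hb, c, hc, h0, e⟩ := hfr z z.2
    refine ⟨⟨b, hb⟩, ⟨c, hc⟩, Subtype.ext ?_⟩
    change (z : L) = b / c
    rw [eq_div_iff h0, e]
  have : FiniteDimensional M₀ F :=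
    Submodule.finiteDimensional_of_le (S₁ := F.toSubalgebra.toSubmodule)
      (S₂ := Submodule.span M₀ (s₀ : Set L)) hs₀
  obtain ⟨u, hu⟩ := (norm_abs A R M₀ F).fg_top
  let φ : integralClosure A F →ₗ[A] L :=
    (IsScalarTower.toAlgHom A F L).toLinearMap ∘ₗ (integralClosure A F).val.toLinearMap
  refine ⟨u.image φ, fun a ha => ?_, fun a ha hi => ?_⟩
  · obtain ⟨x, -, rfl⟩ := Finset.mem_image.1 ha
    have h1 : IsIntegral A (algebraMap F L x.1) := x.2.algebraMap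
    exact ⟨x.1.2, h1.tower_top⟩
  · have h1 : IsIntegral A (algebraMap F L ⟨a, ha⟩) := isIntegral_trans (A := R) a hi
    have h2 : IsIntegral A (⟨a, ha⟩ : F) :=
      (isIntegral_algebraMap_iff (algebraMap F L).injective).1 h1
    have h3 : φ ⟨⟨a, ha⟩, h2⟩ ∈ (⊤ : Submodule A (integralClosure A F)).map φ :=
      Submodule.mem_map_of_mem trivial
    rw [← hu, Submodule.map_span, ← Finset.coe_image] at h3
    exact Submodule.span_subset_span A R _ h3

theorem norm_int_mono {R R' : Subalgebra ℂ L} (h : R ≤ R') {b : L} (hb : IsIntegral R b) :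
    IsIntegral R' b := by
  obtain ⟨p, hp, e⟩ := hb
  refine ⟨p.map (Subalgebra.inclusion h).toRingHom, hp.map _, ?_⟩
  rw [eval₂_map]
  exact e

/-- clearing denominators in an integral equation -/
theorem norm_clear {R R' : Subalgebra ℂ L} (D : Submonoid L) (hD : ∀ d ∈ D, d ∈ R)
    (h : ∀ a ∈ R', ∃ d ∈ D, d * a ∈ R) {b : L} (hb : IsIntegral R' b) :
    ∃ d ∈ D, IsIntegral R (d * b) := by
  obtain ⟨p, hp, e⟩ := hb
  set q : L[X] := p.map (algebraMap R' L) with hq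
  have hqm : q.Monic := hp.map _
  have hc : ∀ i, q.coeff i ∈ R' := fun i => by
    rw [hq, coeff_map]
    exact (p.coeff i).2
  choose d hd hd' using fun i => h _ (hc i)
  set c : L := ∏ i ∈ Finset.range q.natDegree, d i with hcd
  have hcD : c ∈ D := D.prod_mem fun i _ => hd i
  have hl : q.scaleRoots c ∈ lifts (algebraMap R L) := by
    rw [lifts_iff_coeff_lifts]
    intro i
    have : (q.scaleRoots c).coeff i ∈ R := by
      rw [coeff_scaleRoots]
      rcases lt_trichotomy i q.natDegree with hi | hi | hi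
      · obtain ⟨k, hk⟩ := Nat.exists_eq_succ_of_ne_zero (Nat.sub_ne_zero_of_lt hi)
        have e1 : q.coeff i * c ∈ R := by
          rw [hcd, ← Finset.mul_prod_erase _ _ (Finset.mem_range.2 hi), ← mul_assoc,
            mul_comm (q.coeff i)]
          exact R.mul_mem (hd' i) (R.prod_mem fun j _ => hD _ (hd j))
        rw [hk, pow_succ', ← mul_assoc]
        exact R.mul_mem e1 (R.pow_mem (hD c hcD) k)
      · rw [hi, hqm.coeff_natDegree, Nat.sub_self, pow_zero, mul_one]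
        exact R.one_mem
      · rw [coeff_eq_zero_of_natDegree_lt hi, zero_mul]
        exact R.zero_mem
    exact ⟨⟨_, this⟩, rfl⟩
  obtain ⟨r, hr, -, hrm⟩ :=
    lifts_and_natDegree_eq_and_monic hl ((monic_scaleRoots_iff c).2 hqm)
  refine ⟨c, hcD, r, hrm, ?_⟩
  rw [eval₂_eq_eval_map, hr, scaleRoots_eval_mul, hq, ← eval₂_eq_eval_map, e, mul_zero]

theorem norm_inv (y : LP L) {b : L} (hb : IsIntegral y.O b) (h0 : b ≠ 0) (hi : b⁻¹ ∈ y.O) :
    b ∈ y.O := by
  obtain ⟨P, hP⟩ := exists_ab y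
  have h1 : b ∈ P.O := hP.int b ⟨hb, trivial⟩
  have h2 := hP.le _ hi
  have h3 := P.U_of_inv h2.1 (by rwa [inv_inv]) (inv_ne_zero h0)
  have h4 := y.inv_mem _ hi (by rw [← h2.2]; exact h3.2)
  rwa [inv_inv] at h4

/-- coordinate ring of the chart `j` -/
def Model.nA (T : Model L) (j : T.ι) : Subalgebra ℂ L :=
  Algebra.adjoin ℂ (Set.range fun i => T.f i / T.f j)

theorem Model.nA_mem (T : Model L) (i j : T.ι) : T.f i / T.f j ∈ T.nA j :=
  Algebra.subset_adjoin ⟨i, rfl⟩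

theorem Model.nA_gens (T : Model L) {M₀ M : IntermediateField ℂ L} (hle : M₀ ≤ M) (hT : T.In M₀)
    (hgen : M₀ ≤ IntermediateField.adjoin ℂ (Set.range fun p : T.ι × T.ι => T.f p.1 / T.f p.2))
    (hfin : ∃ s : Finset L, ∀ a ∈ M, a ∈ Submodule.span M₀ (s : Set L)) (j : T.ι) :
    ∃ s : Finset L, (∀ a ∈ s, a ∈ M ∧ IsIntegral (T.nA j) a) ∧
      (T.f j ≠ 0 → ∀ a ∈ M, IsIntegral (T.nA j) a → a ∈ Submodule.span (T.nA j) (s : Set L)) := by
  by_cases hj : T.f j = 0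
  · exact ⟨∅, fun a ha => absurd ha (Finset.notMem_empty a), fun h => absurd hj h⟩
  have h1 : (T.nA j).FG := Subalgebra.fg_def.2 ⟨_, Set.finite_range _, rfl⟩
  have h2 : ∀ a ∈ T.nA j, a ∈ M₀ := fun a ha =>
    (Algebra.adjoin_le (S := M₀.toSubalgebra) (by rintro _ ⟨i, rfl⟩; exact hT i j)) ha
  have h3 : M₀ ≤ IntermediateField.adjoin ℂ (Set.range fun i => T.f i / T.f j) := by
    refine hgen.trans (IntermediateField.adjoin_le_iff.2 ?_)
    rintro _ ⟨p, rfl⟩
    change T.f p.1 / T.f p.2 ∈ _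
    rw [← div_div_div_cancel_right₀ hj]
    exact div_mem (IntermediateField.subset_adjoin _ _ ⟨p.1, rfl⟩)
      (IntermediateField.subset_adjoin _ _ ⟨p.2, rfl⟩)
  obtain ⟨s, hs, hs'⟩ := finite_closure (T.nA j) h1 hle h2 (fun a ha => by
    obtain ⟨b, hb, c, hc, e⟩ := IntermediateField.mem_adjoin_iff_div.1 (h3 ha)
    by_cases h0 : c = 0
    · exact ⟨0, zero_mem _, 1, one_mem _, one_ne_zero, by rw [e, h0, div_zero, zero_mul]⟩
    · exact ⟨b, hb, c, hc, h0, by rw [e, div_mul_cancel₀ _ h0]⟩) hfin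
  exact ⟨s, hs, fun _ => hs'⟩

theorem Model.nA_change (T : Model L) (j k : T.ι) {g : L}
    (hg : IsIntegral (T.nA j) g) :
    ∀ᶠ n in Filter.atTop, IsIntegral (T.nA k) ((T.f j / T.f k) ^ n * g) := by
  have ht := T.nA_mem j k
  have key : ∃ m : ℕ, IsIntegral (T.nA k) ((T.f j / T.f k) ^ m * g) := by
    by_cases h0 : T.f j / T.f k = 0
    · exact ⟨1, by rw [h0, pow_one, zero_mul]; exact isIntegral_zero⟩
    have hj : T.f j ≠ 0 := fun h => h0 (by rw [h, zero_div])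
    have hk : T.f k ≠ 0 := fun h => h0 (by rw [h, div_zero])
    suffices h : ∀ a ∈ T.nA j, ∃ d ∈ Submonoid.powers (T.f j / T.f k), d * a ∈ T.nA k by
      obtain ⟨_, ⟨m, rfl⟩, h⟩ := norm_clear (R := T.nA k) (Submonoid.powers (T.f j / T.f k))
        (by rintro _ ⟨m, rfl⟩; exact pow_mem ht m) h hg
      exact ⟨m, h⟩
    intro a ha
    induction ha using Algebra.adjoin_induction with
    | mem x hx =>
      obtain ⟨i, rfl⟩ := hx
      refine ⟨_, Submonoid.mem_powers _, ?_⟩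
      rw [show T.f j / T.f k * (T.f i / T.f j) = T.f i / T.f k by field_simp]
      exact T.nA_mem i k
    | algebraMap r => exact ⟨1, one_mem _, by rw [one_mul]; exact algebraMap_mem _ r⟩
    | add x y _ _ hx hy =>
      obtain ⟨_, ⟨a, rfl⟩, ha⟩ := hx
      obtain ⟨_, ⟨b, rfl⟩, hb⟩ := hy
      refine ⟨_, ⟨a + b, rfl⟩, ?_⟩
      have e : (T.f j / T.f k) ^ (a + b) * (x + y) = (T.f j / T.f k) ^ b * ((T.f j / T.f k) ^ a * x)
          + (T.f j / T.f k) ^ a * ((T.f j / T.f k) ^ b * y) := by ring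
      change (T.f j / T.f k) ^ (a + b) * (x + y) ∈ _
      rw [e]
      exact add_mem (mul_mem (pow_mem ht b) ha) (mul_mem (pow_mem ht a) hb)
    | mul x y _ _ hx hy =>
      obtain ⟨c, hc, ha⟩ := hx
      obtain ⟨d, hd, hb⟩ := hy
      refine ⟨c * d, mul_mem hc hd, ?_⟩
      rw [mul_mul_mul_comm]
      exact mul_mem ha hb
  obtain ⟨m, hm⟩ := key
  filter_upwards [Filter.eventually_ge_atTop m] with n hn
  obtain ⟨r, rfl⟩ := Nat.exists_eq_add_of_le' hn
  rw [pow_add, mul_assoc]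
  exact IsIntegral.mul (isIntegral_algebraMap (x := (⟨_, pow_mem ht r⟩ : T.nA k))) hm

theorem Model.nA_le (T : Model L) {ξ : ℙ ℂ (T.ι → ℂ)} (hξ : ξ ∈ T.Pt) {k : T.ι}
    (hk : ξ.rep k ≠ 0) : T.nA k ≤ (T.loc ξ).O :=
  Algebra.adjoin_le (by rintro _ ⟨i, rfl⟩; exact ((T.ctr_loc hξ).ratio hk i).1)

theorem Model.nA_loc (T : Model L) {ξ : ℙ ℂ (T.ι → ℂ)} (hξ : ξ ∈ T.Pt) {k : T.ι}
    (hk : ξ.rep k ≠ 0) {b : L} (hb : IsIntegral (T.loc ξ).O b) :
    ∃ d ∈ T.nA k, (T.loc ξ).ev d ≠ 0 ∧ IsIntegral (T.nA k) (d * b) := by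
  have hle := T.nA_le hξ hk
  let D : Submonoid L :=
    { carrier := {d | d ∈ T.nA k ∧ (T.loc ξ).ev d ≠ 0}
      mul_mem' := fun {a b} ha hb => ⟨mul_mem ha.1 hb.1, by
        rw [(T.loc ξ).hom.mul a (hle ha.1) b (hle hb.1)]
        exact mul_ne_zero ha.2 hb.2⟩
      one_mem' := ⟨one_mem _, by rw [(T.loc ξ).hom.one]; exact one_ne_zero⟩ }
  suffices h : ∀ a ∈ (T.loc ξ).O, ∃ d ∈ D, d * a ∈ T.nA k by
    obtain ⟨d, hd, h⟩ := norm_clear (R := T.nA k) D (fun d hd => hd.1) h hb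
    exact ⟨d, hd.1, hd.2, h⟩
  intro a ha
  have hv := T.valid hξ hk
  have hm : ∀ P : MvPolynomial T.ι ℂ, MvPolynomial.aeval (fun i => T.f i / T.f k) P ∈ T.nA k :=
    fun P => by
      rw [Model.nA, Algebra.adjoin_range_eq_range_aeval]
      exact ⟨P, rfl⟩
  rw [T.loc_eq hξ hk] at ha
  obtain ⟨P, Q, hQ, e⟩ := (mem_pv hv).1 ha
  refine ⟨_, ⟨hm Q, ?_⟩, by rw [mul_comm, e]; exact hm P⟩
  rw [T.loc_eq hξ hk, (pv_aeval hv Q).2]
  exact hQ

/-- the auxiliary tuple -/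
noncomputable def Model.nU (T : Model L) (s : T.ι → Finset L) (n : ℕ) : Model L where
  ι := Σ j : T.ι, {g // g ∈ insert 1 (s j)}
  f := fun p => T.f p.1 ^ n * p.2.1
  ne := ⟨⟨T.ne.choose, 1, Finset.mem_insert_self _ _⟩, by
    simpa using pow_ne_zero n T.ne.choose_spec⟩

theorem norm_np {T S : Model L} {M : IntermediateField ℂ L} (hd : S.Dom T) (hT : T.In M)
    (hr : ∀ ξ ∈ T.Pt, ∀ y : LP L, (T.loc ξ).Le y → (∀ b ∈ Bx (T.loc ξ) M, b ∈ y.O) → S.Reg y)
    {η : ℙ ℂ (S.ι → ℂ)} (hη : η ∈ S.Pt) (hi : ∀ b ∈ Bx (T.loc (S.dm T η)) M, b ∈ (S.loc η).O) :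
    NP (T.loc (S.dm T η)) M (S.loc η) := by
  have hξ := hd.mem hη
  have hh : HomOn (Bx (T.loc (S.dm T η)) M) (S.loc η).ev := (S.loc η).hom.mono hi
  have h1 := np_mk (T.loc_sub hT hξ) hh fun a ha => (hd.loc_le hη a ha).2
  obtain ⟨η', hη'⟩ := (hr _ hξ _ h1.le h1.int).ctr
  have h2 : (mkLP (Bx (T.loc (S.dm T η)) M) (S.loc η).ev).Le (S.loc η) :=
    mkLP_le hh fun a ha => ⟨hi a ha, rfl⟩
  have h3 : η' = η := (hη'.mono h2).unique (S.ctr_loc hη)
  rw [h3] at hη'
  rw [LP.ext' hη'.loc_le h2]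
  exact h1

theorem Model.exists_norm (T : Model L) {M₀ M : IntermediateField ℂ L} (hle : M₀ ≤ M) (hT : T.In M₀)
    (hgen : M₀ ≤ IntermediateField.adjoin ℂ (Set.range fun p : T.ι × T.ι => T.f p.1 / T.f p.2))
    (hfin : ∃ s : Finset L, ∀ a ∈ M, a ∈ Submodule.span M₀ (s : Set L)) :
    ∃ S, IsNorm T M S := by
  choose s hs hs' using T.nA_gens hle hT hgen hfin
  have hTM := hT.mono hle
  have hs1 : ∀ j, ∀ g ∈ insert 1 (s j), g ∈ M ∧ IsIntegral (T.nA j) g := fun j g hg => by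
    rcases Finset.mem_insert.1 hg with rfl | hg
    · exact ⟨one_mem _, isIntegral_one⟩
    · exact hs j g hg
  obtain ⟨n, hn⟩ := (Filter.eventually_all.2 fun k : T.ι => Filter.eventually_all.2
    fun p : (Σ j : T.ι, {g // g ∈ insert 1 (s j)}) =>
      T.nA_change p.1 k (hs1 p.1 p.2.1 p.2.2).2).exists
  have hq : ∀ (k : T.ι) (p : (T.nU s n).ι),
      (T.nU s n).f p / (T.nU s n).f ⟨k, 1, Finset.mem_insert_self _ _⟩ =
        (T.f p.1 / T.f k) ^ n * p.2.1 := fun k p => by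
    change T.f p.1 ^ n * p.2.1 / (T.f k ^ n * 1) = _
    rw [mul_one, div_pow, div_mul_eq_mul_div]
  have hU : (T.nU s n).In M := fun p q => by
    change T.f p.1 ^ n * p.2.1 / (T.f q.1 ^ n * q.2.1) ∈ M
    rw [mul_div_mul_comm, ← div_pow]
    exact mul_mem (pow_mem (hTM _ _) n) (div_mem (hs1 _ _ p.2.2).1 (hs1 _ _ q.2.2).1)
  have hne : ∀ k, T.f k ≠ 0 → (T.nU s n).f ⟨k, 1, Finset.mem_insert_self _ _⟩ ≠ 0 :=
    fun k hk => mul_ne_zero (pow_ne_zero n hk) one_ne_zero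
  have hr : ∀ ξ ∈ T.Pt, ∀ y : LP L, (T.loc ξ).Le y → (∀ b ∈ Bx (T.loc ξ) M, b ∈ y.O) →
      (T.seg (T.nU s n)).Reg y := by
    intro ξ hξ y h1 h2
    refine (T.reg_seg _ y).2 ⟨(T.ctr_loc hξ).reg.mono h1, ((T.nU s n).reg_iff y).2
      ⟨_, hne _ (T.f_ne hξ (nz_spec ξ)), fun p => h2 _ ⟨?_, hU _ _⟩⟩⟩
    have := norm_int_mono (T.nA_le hξ (nz_spec ξ)) (hn (nz ξ) p)
    rw [← hq] at this
    exact this
  refine ⟨T.seg (T.nU s n), T.seg_dom_left _, hTM.seg hU,
    fun η hη => norm_np (T.seg_dom_left _) hTM hr hη ?_, hr⟩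
  have hξ := (T.seg_dom_left (T.nU s n)).mem hη
  have hl := (T.seg_dom_left (T.nU s n)).loc_le hη
  obtain ⟨p, hp, hp'⟩ := ((T.nU s n).reg_iff _).1
    ((T.reg_seg _ _).1 ((T.seg (T.nU s n)).ctr_loc hη).reg).2
  generalize (T.seg (T.nU s n)).loc η = y at hl hp' ⊢
  generalize (T.seg (T.nU s n)).dm T η = ξ at hξ hl ⊢
  have hk := T.f_ne hξ (nz_spec ξ)
  have hA : T.nA (nz ξ) ≤ y.O := fun a ha => (hl a (T.nA_le hξ (nz_spec ξ) ha)).1
  have hb : (T.nU s n).f p / (T.nU s n).f ⟨nz ξ, 1, Finset.mem_insert_self _ _⟩ ∈ y.O := by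
    refine norm_inv y ?_ (div_ne_zero hp (hne _ hk)) (by rw [inv_div]; exact hp' _)
    rw [hq]
    exact norm_int_mono hA (hn _ p)
  have hg : ∀ g ∈ s (nz ξ), g ∈ y.O := fun g hg => by
    have h1 := mul_mem (hp' ⟨nz ξ, g, Finset.mem_insert_of_mem hg⟩) hb
    have h2 := hq (nz ξ) ⟨nz ξ, g, Finset.mem_insert_of_mem hg⟩
    rw [div_mul_div_cancel₀ hp, h2, div_self hk, one_pow, one_mul] at h1
    exact h1
  intro b hb'
  obtain ⟨d, hd, hd0, hdb⟩ := T.nA_loc hξ (nz_spec ξ) hb'.1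
  have hdl := T.nA_le hξ (nz_spec ξ) hd
  have h1 := hs' _ hk _ (mul_mem (T.loc_sub hTM hξ d hdl) hb'.2) hdb
  have h2 : d * b ∈ y.O := by
    generalize d * b = c at h1
    induction h1 using Submodule.span_induction with
    | mem x hx => exact hg x hx
    | zero => exact zero_mem _
    | add x y _ _ hx hy => exact add_mem hx hy
    | smul a x _ hx => exact mul_mem (hA a.2) hx
  have h3 : y.U d := ⟨(hl d hdl).1, by rw [(hl d hdl).2]; exact hd0⟩
  have h4 := (y.ev_div h2 h3).1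
  rwa [mul_div_cancel_left₀ _ h3.ne] at h4

theorem IsNorm.ctr {T S : Model L} {M : IntermediateField ℂ L} (h : IsNorm T M S)
    {ξ : ℙ ℂ (T.ι → ℂ)} (hξ : ξ ∈ T.Pt) {P : LP L} (hP : NP (T.loc ξ) ⊤ P) :
    ∃ η, S.Ctr P η ∧ S.dm T η = ξ ∧ S.loc η = res (T.loc ξ) M P := by
  obtain ⟨η, hη⟩ := (h.reg ξ hξ P hP.le fun b hb => hP.int b ⟨hb.1, trivial⟩).ctr
  have e : S.dm T η = ξ := (h.dom.ctr hη).unique ((T.ctr_loc hξ).mono hP.le)
  refine ⟨η, hη, e, ?_⟩
  have h1 := h.np η hη.mem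
  rw [e] at h1
  exact h1.eq_res hη.loc_le

theorem IsNorm.exists_ab {T S : Model L} {M : IntermediateField ℂ L} (h : IsNorm T M S)
    {η : ℙ ℂ (S.ι → ℂ)} (hη : η ∈ S.Pt) : ∃ P, NP (T.loc (S.dm T η)) ⊤ P ∧ S.Ctr P η := by
  obtain ⟨P, h1, h2⟩ := (h.np η hη).exists_ab
  exact ⟨P, h1, (S.ctr_loc hη).mono h2⟩

theorem IsNorm.dom_of_le {T S S' : Model L} {M M' : IntermediateField ℂ L} (h : IsNorm T M S)
    (h' : IsNorm T M' S') (hM : M ≤ M') : S'.Dom S := fun η hη =>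
  h.reg _ (h'.dom.mem hη) _ (h'.np η hη).le fun b hb => (h'.np η hη).int b ⟨hb.1, hM hb.2⟩

theorem IsNorm.ctr_eq_iff {T S : Model L} {M : IntermediateField ℂ L} (h : IsNorm T M S)
    {ξ : ℙ ℂ (T.ι → ℂ)} (hξ : ξ ∈ T.Pt) {P P' : LP L} (hP : NP (T.loc ξ) ⊤ P)
    (hP' : NP (T.loc ξ) ⊤ P') {η η' : ℙ ℂ (S.ι → ℂ)} (hη : S.Ctr P η) (hη' : S.Ctr P' η') :
    η = η' ↔ ∀ b ∈ Bx (T.loc ξ) M, P.ev b = P'.ev b := by
  have e : S.dm T η = ξ := (h.dom.ctr hη).unique ((T.ctr_loc hξ).mono hP.le)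
  have e' : S.dm T η' = ξ := (h.dom.ctr hη').unique ((T.ctr_loc hξ).mono hP'.le)
  have h1 := h.np η hη.mem
  have h2 := h.np η' hη'.mem
  rw [e] at h1
  rw [e'] at h2
  constructor
  · rintro rfl b hb
    rw [(hη.loc_le b (h1.int b hb)).2, (hη'.loc_le b (h1.int b hb)).2]
  · intro hb
    have h3 : S.loc η = S.loc η' := h1.ext h2 fun b hb' => by
      rw [← (hη.loc_le b (h1.int b hb')).2, ← (hη'.loc_le b (h2.int b hb')).2, hb b hb']
    have h4 := S.ctr_loc hη.mem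
    rw [h3] at h4
    exact h4.unique (S.ctr_loc hη'.mem)

end Vale.Agent.P300
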