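import Vale.Agent.P300.Mod

/-! Topology of projective space and of models. `ℙ` is the quotient of `{v // v ≠ 0}` by an open
quotient map; compact as the image of the unit sphere; Hausdorff since the relation (all `2 × 2`
minors vanish) is closed. `dm` is continuous: near `ξ₀` it is given by `[P i (ξ)]` with
homogeneous `P i` of equal degree (write `g i / g j = P i / Q` in the local ring at `ξ₀`, the same
formula holds at all `ξ` with `Q ξ ≠ 0`). `Curve.rev`: `Polynomial.reflect` with the maximal degree. -/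

open scoped LinearAlgebra.Projectivization Topology Classical
open Polynomial

namespace Vale.Agent.P300

variable {L : Type} [Field L] [Algebra ℂ L]

theorem top_quot (ι : Type) :
    Topology.IsQuotientMap fun v : {v : ι → ℂ // v ≠ 0} => Projectivization.mk ℂ v.1 v.2 :=
  isQuotientMap_quotient_mk' (s := projectivizationSetoid ℂ (ι → ℂ))

theorem continuous_mk {ι Y : Type} [TopologicalSpace Y] {φ : Y → ι → ℂ} (h : Continuous φ)
    (h0 : ∀ y, φ y ≠ 0) : Continuous fun y => Projectivization.mk ℂ (φ y) (h0 y) :=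
  (top_quot ι).continuous.comp (h.subtype_mk h0)

theorem isOpenQuotientMap_mk (ι : Type) :
    IsOpenQuotientMap fun v : {v : ι → ℂ // v ≠ 0} => Projectivization.mk ℂ v.1 v.2 := by
  refine ⟨(top_quot ι).surjective, (top_quot ι).continuous, fun U hU => ?_⟩
  rw [← (top_quot ι).isOpen_preimage, isOpen_iff_mem_nhds]
  rintro v ⟨w, hw, e⟩
  obtain ⟨a, ha⟩ := (Projectivization.mk_eq_mk_iff ℂ _ _ w.2 v.2).1 e
  let m : {v : ι → ℂ // v ≠ 0} → {v : ι → ℂ // v ≠ 0} :=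
    fun u => ⟨(a : ℂ) • u.1, smul_ne_zero a.ne_zero u.2⟩
  have hm : Continuous m := (continuous_subtype_val.const_smul (a : ℂ)).subtype_mk _
  have hv : m v = w := Subtype.ext ha
  have h1 : m ⁻¹' U ∈ 𝓝 v := hm.continuousAt.preimage_mem_nhds (hU.mem_nhds (hv ▸ hw))
  filter_upwards [h1] with u hu
  exact ⟨m u, hu, (Projectivization.mk_eq_mk_iff ℂ _ _ (m u).2 u.2).2 ⟨a, rfl⟩⟩

theorem top_mk_eq {ι : Type} (v w : ι → ℂ) (hv : v ≠ 0) (hw : w ≠ 0) :
    Projectivization.mk ℂ v hv = Projectivization.mk ℂ w hw ↔ ∀ i j, v i * w j = v j * w i := by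
  rw [Projectivization.mk_eq_mk_iff']
  constructor
  · rintro ⟨a, rfl⟩ i j
    simp only [Pi.smul_apply, smul_eq_mul]
    ring
  · intro h
    obtain ⟨j, hj⟩ := Function.ne_iff.1 hw
    have hj' : w j ≠ 0 := hj
    refine ⟨v j / w j, funext fun i => ?_⟩
    simp only [Pi.smul_apply, smul_eq_mul]
    rw [div_mul_eq_mul_div, ← h i j, mul_div_cancel_right₀ _ hj']

theorem top_coord {ι : Type} (i : ι) : Continuous fun v : {v : ι → ℂ // v ≠ 0} => v.1 i :=
  (continuous_apply i).comp continuous_subtype_val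

instance projT2 (ι : Type) [Fintype ι] : T2Space (ℙ ℂ (ι → ℂ)) := by
  rw [t2Space_iff_of_isOpenQuotientMap (isOpenQuotientMap_mk ι)]
  simp only [top_mk_eq, Set.ofPred_forall]
  exact isClosed_iInter fun i => isClosed_iInter fun j => isClosed_eq
    (((top_coord i).comp continuous_fst).mul ((top_coord j).comp continuous_snd))
    (((top_coord j).comp continuous_fst).mul ((top_coord i).comp continuous_snd))

instance projCompact (ι : Type) [Fintype ι] : CompactSpace (ℙ ℂ (ι → ℂ)) := by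
  have h0 : ∀ y : Metric.sphere (0 : ι → ℂ) 1, y.1 ≠ 0 := fun y =>
    ne_zero_of_mem_sphere one_ne_zero y
  have hs : Function.Surjective
      fun y : Metric.sphere (0 : ι → ℂ) 1 => Projectivization.mk ℂ y.1 (h0 y) := by
    intro ξ
    induction ξ using Projectivization.ind with
    | h v hv =>
      have hn : ‖v‖ ≠ 0 := norm_ne_zero_iff.2 hv
      refine ⟨⟨((‖v‖⁻¹ : ℝ) : ℂ) • v, ?_⟩, ?_⟩
      · simp [norm_smul, hn]
      · exact (Projectivization.mk_eq_mk_iff' ℂ _ _ _ _).2 ⟨_, rfl⟩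
  exact hs.compactSpace (continuous_mk continuous_subtype_val h0)

theorem top_rep_ne {ι : Type} (v : ι → ℂ) (hv : v ≠ 0) (j : ι) :
    (Projectivization.mk ℂ v hv).rep j ≠ 0 ↔ v j ≠ 0 := by
  obtain ⟨a, ha⟩ := Projectivization.exists_smul_eq_mk_rep ℂ v hv
  rw [← ha]
  simp [Units.smul_def]

theorem top_rep_div {ι : Type} (v : ι → ℂ) (hv : v ≠ 0) (i j : ι) :
    (Projectivization.mk ℂ v hv).rep i / (Projectivization.mk ℂ v hv).rep j = v i / v j := by
  obtain ⟨a, ha⟩ := Projectivization.exists_smul_eq_mk_rep ℂ v hv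
  rw [← ha]
  simp only [Units.smul_def, Pi.smul_apply, smul_eq_mul]
  exact mul_div_mul_left _ _ a.ne_zero

theorem isOpen_chart {ι : Type} (j : ι) : IsOpen {ξ : ℙ ℂ (ι → ℂ) | ξ.rep j ≠ 0} := by
  rw [← (top_quot ι).isOpen_preimage]
  simp only [Set.preimage_ofPred_eq, top_rep_ne]
  exact isOpen_ne_fun (top_coord j) continuous_const

theorem continuousOn_chart {ι : Type} (i j : ι) :
    ContinuousOn (fun ξ : ℙ ℂ (ι → ℂ) => ξ.rep i / ξ.rep j) {ξ | ξ.rep j ≠ 0} := by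
  intro ξ hξ
  induction ξ using Projectivization.ind with
  | h v hv =>
    apply ContinuousAt.continuousWithinAt
    rw [← (isOpenQuotientMap_mk ι).continuousAt_comp_iff (x := ⟨v, hv⟩)]
    have h1 : v j ≠ 0 := (top_rep_ne v hv j).1 hξ
    have h2 : ContinuousAt (fun u : {v : ι → ℂ // v ≠ 0} => u.1 i / u.1 j) ⟨v, hv⟩ :=
      ContinuousAt.div (top_coord i).continuousAt (top_coord j).continuousAt h1
    exact h2.congr (Filter.Eventually.of_forall fun u => (top_rep_div u.1 u.2 i j).symm)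

theorem IsProjAlg.isClosed {ι : Type} [Fintype ι] {X : Set (ℙ ℂ (ι → ℂ))} (h : IsProjAlg X) :
    IsClosed X := by
  obtain ⟨S, -, hS⟩ := h
  rw [← (top_quot ι).isClosed_preimage]
  have e : (fun v : {v : ι → ℂ // v ≠ 0} => Projectivization.mk ℂ v.1 v.2) ⁻¹' X =
      ⋂ F ∈ S, {v | MvPolynomial.eval v.1 F = 0} := by
    ext v
    simp [hS v.1 v.2]
  rw [e]
  exact isClosed_biInter fun F _ =>
    isClosed_eq ((MvPolynomial.continuous_eval F).comp continuous_subtype_val) continuous_const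

theorem Model.isClosed (T : Model L) : IsClosed T.Pt := T.isProjAlg.isClosed

instance (T : Model L) : CompactSpace T.Pt := isCompact_iff_compactSpace.1 T.isClosed.isCompact

theorem top_tendsto {ι Y : Type} {l : Filter Y} {φ : Y → ι → ℂ} {f : Y → ℙ ℂ (ι → ℂ)}
    {v : ι → ℂ} (hv : v ≠ 0) (hφ : Filter.Tendsto φ l (𝓝 v))
    (hf : ∀ᶠ y in l, ∀ h : φ y ≠ 0, f y = Projectivization.mk ℂ (φ y) h) :
    Filter.Tendsto f l (𝓝 (Projectivization.mk ℂ v hv)) := by
  have h0 : ∀ᶠ y in l, φ y ≠ 0 := hφ.eventually_ne hv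
  let ψ : Y → {v : ι → ℂ // v ≠ 0} := fun y => if h : φ y ≠ 0 then ⟨φ y, h⟩ else ⟨v, hv⟩
  have hψ : Filter.Tendsto ψ l (𝓝 ⟨v, hv⟩) := by
    rw [tendsto_subtype_rng]
    refine hφ.congr' ?_
    filter_upwards [h0] with y hy
    simp [ψ, hy]
  refine (((top_quot ι).continuous.tendsto ⟨v, hv⟩).comp hψ).congr' ?_
  filter_upwards [h0, hf] with y hy hy'
  simp [ψ, hy, hy' hy]

theorem top_ev {ι : Type} {g : ι → L} {c : ι → ℂ} (h : Valid g c) {a : L}
    {P Q : MvPolynomial ι ℂ} (hQ : MvPolynomial.eval c Q ≠ 0)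
    (e : a * MvPolynomial.aeval g Q = MvPolynomial.aeval g P) :
    a ∈ (pv g c).O ∧ (pv g c).ev a = MvPolynomial.eval c P / MvPolynomial.eval c Q := by
  have ha : a ∈ (pv g c).O := (mem_pv h).2 ⟨P, Q, hQ, e⟩
  refine ⟨ha, ?_⟩
  rw [eq_div_iff hQ, ← (pv_aeval h P).2, ← e, (pv g c).hom.mul _ ha _ (pv_aeval h Q).1,
    (pv_aeval h Q).2]

theorem Model.Dom.continuousOn {T S : Model L} (h : T.Dom S) : ContinuousOn (T.dm S) T.Pt := by
  intro ξ₀ hξ₀
  obtain ⟨l, hl, hl0⟩ := h ξ₀ hξ₀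
  have hj := nz_spec ξ₀
  set j := nz ξ₀ with hjd
  set g : T.ι → L := fun i => T.f i / T.f j with hg
  set c : ℙ ℂ (T.ι → ℂ) → T.ι → ℂ := fun ξ i => ξ.rep i / ξ.rep j with hc
  have hloc : ∀ ξ ∈ T.Pt, ξ.rep j ≠ 0 → T.loc ξ = pv g (c ξ) := fun ξ h1 h2 => T.loc_eq h1 h2
  have hval : ∀ ξ ∈ T.Pt, ξ.rep j ≠ 0 → Valid g (c ξ) := fun ξ h1 h2 => T.valid h1 h2
  rw [hloc ξ₀ hξ₀ hj] at hl hl0
  choose P Q hQ hPQ using fun i => (mem_pv (hval ξ₀ hξ₀ hj)).1 (hl i)
  have hcc : ContinuousAt c ξ₀ := continuousAt_pi.2 fun i =>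
    (continuousOn_chart i j).continuousAt ((isOpen_chart j).mem_nhds hj)
  have hev : ∀ F : MvPolynomial T.ι ℂ, ContinuousAt (fun ξ => MvPolynomial.eval (c ξ) F) ξ₀ :=
    fun F => (MvPolynomial.continuous_eval F).continuousAt.comp hcc
  set φ : ℙ ℂ (T.ι → ℂ) → S.ι → ℂ :=
    fun ξ i => MvPolynomial.eval (c ξ) (P i) / MvPolynomial.eval (c ξ) (Q i) with hφ
  have hφc : ContinuousAt φ ξ₀ := continuousAt_pi.2 fun i => (hev (P i)).div (hev (Q i)) (hQ i)
  have key : ∀ ξ ∈ T.Pt, ξ.rep j ≠ 0 → (∀ i, MvPolynomial.eval (c ξ) (Q i) ≠ 0) →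
      ∀ h0 : φ ξ ≠ 0, T.dm S ξ = Projectivization.mk ℂ (φ ξ) h0 := by
    intro ξ h1 h2 h3 h0
    have h4 := h.ctr (T.ctr_loc h1)
    rw [hloc ξ h1 h2] at h4
    have h5 := fun i => top_ev (hval ξ h1 h2) (h3 i) (hPQ i)
    have h6 : (fun i => (pv g (c ξ)).ev (l * S.f i)) = φ ξ := funext fun i => (h5 i).2
    have h7 := h4.eq_mk (fun i => (h5 i).1) (by rw [h6]; exact h0)
    simp only [h6] at h7
    exact h7
  have h0 : φ ξ₀ ≠ 0 := by
    obtain ⟨i, hi⟩ := hl0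
    rw [(top_ev (hval ξ₀ hξ₀ hj) (hQ i) (hPQ i)).2] at hi
    exact Function.ne_iff.2 ⟨i, hi⟩
  have h1 : ∀ᶠ ξ in 𝓝 ξ₀, ∀ i, MvPolynomial.eval (c ξ) (Q i) ≠ 0 :=
    Filter.eventually_all.2 fun i => (hev (Q i)).eventually_ne (hQ i)
  unfold ContinuousWithinAt
  rw [key ξ₀ hξ₀ hj hQ h0]
  refine top_tendsto h0 (hφc.tendsto.mono_left nhdsWithin_le_nhds) ?_
  filter_upwards [self_mem_nhdsWithin, nhdsWithin_le_nhds ((isOpen_chart j).mem_nhds hj),
    nhdsWithin_le_nhds h1] with ξ k1 k2 k3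
  exact key ξ k1 k2 k3

/-- the map between varieties -/
noncomputable def Model.Dom.mp {T S : Model L} (h : T.Dom S) (ξ : T.Pt) : S.Pt :=
  ⟨T.dm S ξ, h.mem ξ.2⟩

theorem Model.Dom.continuous {T S : Model L} (h : T.Dom S) : Continuous h.mp :=
  h.continuousOn.domRestrict.subtype_mk _

theorem Curve.continuous {ι : Type} {X : Set (ℙ ℂ (ι → ℂ))} (c : Curve X) : Continuous c.pt :=
  continuous_mk (continuous_pi fun i => (c.Φ i).continuous) c.ne

theorem top_closed {ι : Type} {X : Set (ℙ ℂ (ι → ℂ))} (hX : IsClosed X) (Φ : ι → ℂ[X]) {d : ℂ[X]}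
    (hd : d ≠ 0) (h : ∀ t : ℂ, d.eval t ≠ 0 → ∀ ht : (fun i => (Φ i).eval t) ≠ 0,
      Projectivization.mk ℂ _ ht ∈ X) (t₀ : ℂ) (ht₀ : (fun i => (Φ i).eval t₀) ≠ 0) :
    Projectivization.mk ℂ _ ht₀ ∈ X := by
  have hc : Continuous fun t : ℂ => fun i => (Φ i).eval t :=
    continuous_pi fun i => (Φ i).continuous
  have h1 : ∀ᶠ t in 𝓝[≠] t₀, d.eval t ≠ 0 :=
    nhdsNE_le_cofinite t₀ (Polynomial.finite_setOfPred_isRoot hd).compl_mem_cofinite
  have h2 : Filter.Tendsto (fun t : ℂ => fun i => (Φ i).eval t) (𝓝[≠] t₀)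
      (𝓝 fun i => (Φ i).eval t₀) := (hc.tendsto t₀).mono_left nhdsWithin_le_nhds
  let f : ℂ → ℙ ℂ (ι → ℂ) := fun t => if ht : (fun i => (Φ i).eval t) ≠ 0 then
    Projectivization.mk ℂ _ ht else Projectivization.mk ℂ _ ht₀
  have h3 : Filter.Tendsto f (𝓝[≠] t₀) (𝓝 (Projectivization.mk ℂ _ ht₀)) :=
    top_tendsto ht₀ h2 (Filter.Eventually.of_forall fun t ht => dif_pos ht)
  refine hX.mem_of_tendsto h3 ?_
  filter_upwards [h1, h2.eventually_ne ht₀] with t k1 k2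
  have e : f t = Projectivization.mk ℂ _ k2 := dif_pos k2
  rw [e]
  exact h t k1 k2

/-- dividing a nonzero polynomial tuple by the gcd -/
theorem exists_curve {ι : Type} [Fintype ι] {X : Set (ℙ ℂ (ι → ℂ))} (hX : IsClosed X)
    (Φ : ι → ℂ[X]) (h0 : Φ ≠ 0)
    (h : ∀ (t : ℂ) (ht : (fun i => (Φ i).eval t) ≠ 0), Projectivization.mk ℂ _ ht ∈ X) :
    ∃ c : Curve X, ∀ (t : ℂ) (ht : (fun i => (Φ i).eval t) ≠ 0),
      c.pt t = Projectivization.mk ℂ _ ht := by
  obtain ⟨d, hd⟩ := (IsPrincipalIdealRing.principal (Ideal.span (Set.range Φ))).principal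
  have h1 : ∀ i, ∃ q, Φ i = d * q := fun i => by
    have h2 : Φ i ∈ Ideal.span (Set.range Φ) := Ideal.subset_span ⟨i, rfl⟩
    rw [hd] at h2
    exact Ideal.mem_span_singleton.1 h2
  choose Ψ hΨ using h1
  have hd0 : d ≠ 0 := by
    rintro rfl
    exact h0 (funext fun i => by simp [hΨ i])
  have h3 : d ∈ Ideal.span (Set.range Φ) := by
    rw [hd]
    exact Submodule.mem_span_singleton_self d
  obtain ⟨a, ha⟩ := Ideal.mem_span_range_iff_exists_fun.1 h3
  have h4 : ∑ i, a i * Ψ i = 1 := by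
    apply mul_left_cancel₀ hd0
    rw [mul_one, Finset.mul_sum]
    conv_rhs => rw [← ha]
    exact Finset.sum_congr rfl fun i _ => by rw [hΨ i]; ring
  have hne : ∀ t : ℂ, (fun i => (Ψ i).eval t) ≠ 0 := fun t e => by
    have h5 := congrArg (Polynomial.eval t) h4
    have h6 : ∀ i, (Ψ i).eval t = 0 := fun i => congrFun e i
    simp [Polynomial.eval_finsetSum, h6] at h5
  have hmk : ∀ (t : ℂ) (ht : (fun i => (Φ i).eval t) ≠ 0),
      Projectivization.mk ℂ _ (hne t) = Projectivization.mk ℂ _ ht := fun t ht =>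
    ((Projectivization.mk_eq_mk_iff' ℂ _ _ _ _).2
      ⟨d.eval t, _root_.funext fun i => by simp [hΨ i]⟩).symm
  refine ⟨⟨Ψ, hne, fun t => top_closed hX Ψ hd0 (fun s hs hs' => ?_) t _⟩, hmk⟩
  have h7 : (fun i => (Φ i).eval s) ≠ 0 := by
    obtain ⟨i, hi⟩ := Function.ne_iff.1 hs'
    refine Function.ne_iff.2 ⟨i, ?_⟩
    rw [hΨ i, Polynomial.eval_mul]
    exact mul_ne_zero hs hi
  rw [hmk s h7]
  exact h s h7

theorem top_reflect (p : ℂ[X]) {N : ℕ} (hN : p.natDegree ≤ N) {t : ℂ} (ht : t ≠ 0) :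
    (p.reflect N).eval t = t ^ N * p.eval t⁻¹ := by
  let _ : Invertible t⁻¹ := invertibleOfNonzero (inv_ne_zero ht)
  have h := Polynomial.eval₂_reflect_mul_pow (RingHom.id ℂ) t⁻¹ N p hN
  rw [invOf_eq_inv, inv_inv, Polynomial.eval₂_id, Polynomial.eval₂_id] at h
  rw [← h, inv_pow, mul_comm, mul_assoc, inv_mul_cancel₀ (pow_ne_zero _ ht), mul_one]

theorem Curve.rev {ι : Type} [Fintype ι] {X : Set (ℙ ℂ (ι → ℂ))} (hX : IsClosed X) (c : Curve X) :
    ∃ c' : Curve X, ∀ t, t ≠ 0 → c'.pt t = c.pt t⁻¹ := by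
  set N := Finset.univ.sup fun i => (c.Φ i).natDegree with hN
  have hle : ∀ i, (c.Φ i).natDegree ≤ N := fun i =>
    Finset.le_sup (f := fun i => (c.Φ i).natDegree) (Finset.mem_univ i)
  have hne : ∀ t : ℂ, t ≠ 0 → (fun i => ((c.Φ i).reflect N).eval t) ≠ 0 := fun t ht => by
    obtain ⟨i, hi⟩ := Function.ne_iff.1 (c.ne t⁻¹)
    refine Function.ne_iff.2 ⟨i, ?_⟩
    rw [top_reflect _ (hle i) ht]
    exact mul_ne_zero (pow_ne_zero _ ht) hi
  have hmk : ∀ t : ℂ, t ≠ 0 → ∀ ht : (fun i => ((c.Φ i).reflect N).eval t) ≠ 0,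
      Projectivization.mk ℂ _ ht = c.pt t⁻¹ := fun t ht ht' =>
    (Projectivization.mk_eq_mk_iff' ℂ _ _ _ _).2
      ⟨t ^ N, funext fun i => by simp [top_reflect _ (hle i) ht]⟩
  obtain ⟨c', hc'⟩ := exists_curve hX (fun i => (c.Φ i).reflect N)
    (fun e => hne 1 one_ne_zero (funext fun i => by simp [congrFun e i]))
    (top_closed hX _ Polynomial.X_ne_zero fun t ht ht' => by
      rw [hmk t (by simpa using ht) ht']
      exact c.mem _)
  exact ⟨c', fun t ht => (hc' t (hne t ht)).trans (hmk t ht _)⟩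

theorem top_chain {ι Y : Type} {X : Set (ℙ ℂ (ι → ℂ))} {β : ℙ ℂ (ι → ℂ) → Y}
    {a b : ℙ ℂ (ι → ℂ)} (ha : a ∈ X) (h : Relation.ReflTransGen (CStep X β) a b) :
    ∃ s, s ⊆ {x | x ∈ X ∧ β x = β a} ∧ a ∈ s ∧ b ∈ s ∧ IsPreconnected s := by
  induction h with
  | refl => exact ⟨{a}, by simpa using ha, rfl, rfl, isPreconnected_singleton⟩
  | tail _ h2 ih =>
    obtain ⟨s, h3, h4, h5, h6⟩ := ih
    obtain ⟨c, t, t', rfl, rfl, h7⟩ := h2
    refine ⟨s ∪ Set.range c.pt, Set.union_subset h3 ?_, Or.inl h4, Or.inr ⟨t', rfl⟩,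
      h6.union _ h5 ⟨t, rfl⟩ (isPreconnected_range c.continuous)⟩
    rintro _ ⟨r, rfl⟩
    exact ⟨c.mem r, (h7 r).trans (h3 h5).2⟩

theorem isConnected_of_chain {ι Y : Type} {X : Set (ℙ ℂ (ι → ℂ))} (β : ℙ ℂ (ι → ℂ) → Y)
    (hX : X.Nonempty) (h : ∀ a ∈ X, ∀ b ∈ X, Relation.ReflTransGen (CStep X β) a b) :
    IsConnected X := by
  refine ⟨hX, isPreconnected_of_forall_pair fun a ha b hb => ?_⟩
  obtain ⟨s, h1, h2⟩ := top_chain ha (h a ha b hb)
  exact ⟨s, fun x hx => (h1 hx).1, h2⟩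

theorem Model.FibConn.isConnected {T S : Model L} (hd : T.Dom S) (h : T.FibConn S)
    (hS : IsConnected S.Pt) : IsConnected T.Pt := by
  have hsurj : Function.Surjective hd.mp := fun η => by
    obtain ⟨ξ, h1, h2⟩ := hd.surj η.2
    exact ⟨⟨ξ, h1⟩, Subtype.ext h2⟩
  have hq := hd.continuous.isClosedMap.isQuotientMap hd.continuous hsurj
  have hf : ∀ η : S.Pt, IsConnected (hd.mp ⁻¹' {η}) := fun η => by
    refine ⟨hsurj η, ?_⟩
    rw [← Topology.IsInducing.subtypeVal.isPreconnected_image]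
    refine isPreconnected_of_forall_pair ?_
    rintro _ ⟨a, ha, rfl⟩ _ ⟨b, hb, rfl⟩
    have ha' : T.dm S a = η := congrArg Subtype.val ha
    have hb' : T.dm S b = η := congrArg Subtype.val hb
    obtain ⟨s, h1, h2⟩ := top_chain a.2 (h a a.2 b b.2 (ha'.trans hb'.symm))
    exact ⟨s, fun x hx => ⟨⟨x, (h1 hx).1⟩, Subtype.ext ((h1 hx).2.trans ha'), rfl⟩, h2⟩
  have hS' := isConnected_iff_connectedSpace.1 hS
  have h2 := hq.isCoinducing.isConnected_preimage_of_isClosed hf isClosed_univ isConnected_univ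
  rw [Set.preimage_univ] at h2
  exact isConnected_iff_connectedSpace.2 (connectedSpace_iff_univ.2 h2)

theorem Model.Dom.isConnected {T S : Model L} (hd : T.Dom S) (hT : IsConnected T.Pt) :
    IsConnected S.Pt := by
  have e : T.dm S '' T.Pt = S.Pt := by
    apply Set.Subset.antisymm
    · rintro _ ⟨ξ, h1, rfl⟩
      exact hd.mem h1
    · intro η hη
      exact hd.surj hη
  rw [← e]
  exact hT.image _ hd.continuousOn

end Vale.Agent.P300
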