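import Vale.Agent.P300.Tw
import Vale.Agent.P300.Norm
import Vale.Agent.P300.Top

/-! Group actions on normalisations. For `g` preserving `M'` and `η ∈ S'.Pt` the point
`act g (S'.loc η)` is `NP` above the same point of `T` (`NP.map`), so `S'` is regular there; `ρ g η` is
its centre. Continuity: `ρ g` is `dm` from the model with tuple `g⁻¹ f`, which has the same `Pt`, and
`loc` of that model is `act g⁻¹ (loc)`. Fibres are orbits by `tr_lp`, `ctr_eq_iff`, `fix_fix`.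
`quot_cov`: the finite group `H / H'` acts freely on a compact Hausdorff space
(`IsQuotientCoveringMap`, `isQuotientCoveringMap_of_properlyDiscontinuousSMul`, or directly). -/

open scoped LinearAlgebra.Projectivization Topology Classical Pointwise
open Polynomial

set_option linter.unusedSectionVars false

namespace Vale.Agent.P300

variable {L : Type} [Field L] [Algebra ℂ L] [IsAlgClosed L] (A : Amb L)

theorem quot_top {G X Y : Type} [Group G] [TopologicalSpace X] [TopologicalSpace Y]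
    [CompactSpace X] [T2Space X] [T2Space Y] (φ : G →* Equiv.Perm X) (N : Subgroup G)
    [N.FiniteIndex] (hc : ∀ g, Continuous (φ g)) (hN : ∀ g ∈ N, φ g = 1)
    (hf : ∀ g x, φ g x = x → g ∈ N) {p : X → Y} (hp : Continuous p) (hs : Function.Surjective p)
    (ho : ∀ x y, p x = p y ↔ ∃ g, φ g y = x) : IsCoveringMap p := by
  have h1 : φ.ker.FiniteIndex := Subgroup.finiteIndex_of_le (H := N) fun g hg => hN g hg
  have h2 : Finite φ.range :=
    Finite.of_equiv _ (QuotientGroup.quotientKerEquivRange φ).toEquiv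
  have h3 : ContinuousConstSMul φ.range X := ⟨by
    rintro ⟨_, g, rfl⟩
    exact hc g⟩
  have h4 : IsCancelSMul φ.range X := isCancelSMul_iff_eq_one_of_smul_eq.2 (by
    rintro ⟨_, g, rfl⟩ x e
    exact Subtype.ext (hN g (hf g x e)))
  refine ((hp.isClosedMap.isQuotientMap hp hs).isQuotientCoveringMap_of_properlyDiscontinuousSMul
    (G := φ.range) fun {x y} => (ho x y).trans ?_).isCoveringMap
  exact ⟨fun ⟨g, e⟩ => ⟨⟨_, g, rfl⟩, e⟩, fun ⟨⟨_, g, rfl⟩, e⟩ => ⟨g, e⟩⟩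

theorem Amb.quot_le {x y : LP L} (h : x.Le y) (g : A.G) : (A.act g x).Le (A.act g y) :=
  fun _ ha => h _ ha

/-- the model transported by `g` -/
noncomputable def Amb.quotM (g : A.G) (S : Model L) : Model L where
  ι := S.ι
  f := fun i => g (S.f i)
  ne := ⟨S.ne.choose, (map_ne_zero g).2 S.ne.choose_spec⟩

theorem Amb.quot_ctr (g : A.G) (S : Model L) (x : LP L) (ξ : ℙ ℂ (S.ι → ℂ)) :
    (A.quotM g S).Ctr (A.act g x) ξ ↔ S.Ctr x ξ := by
  constructor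
  · rintro ⟨l, hl, e⟩
    have k : ∀ i, g⁻¹ (l * (A.quotM g S).f i) = g⁻¹ l * S.f i := fun i => by
      rw [map_mul]
      exact congrArg _ (A.tr_cancel' g _)
    exact ⟨g⁻¹ l, fun i => k i ▸ A.mem_act.1 (hl i), fun i => by rw [← k i]; exact e i⟩
  · rintro ⟨l, hl, e⟩
    have k : ∀ i, g⁻¹ (g l * (A.quotM g S).f i) = l * S.f i := fun i => by
      rw [map_mul, A.tr_cancel']
      exact congrArg _ (A.tr_cancel' g _)
    exact ⟨g l, fun i => A.mem_act.2 (by rw [k i]; exact hl i), fun i => by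
      rw [A.ev_act, k i]; exact e i⟩

theorem Amb.quot_loc (g : A.G) (S : Model L) {ξ : ℙ ℂ (S.ι → ℂ)} (h : ξ ∈ (A.quotM g S).Pt) :
    ξ ∈ S.Pt ∧ (A.act g (S.loc ξ)).Le ((A.quotM g S).loc ξ) := by
  have e : A.act g (A.act g⁻¹ ((A.quotM g S).loc ξ)) = (A.quotM g S).loc ξ := by
    rw [A.act_act, mul_inv_cancel, A.act_one]
  have h1 := (A.quotM g S).ctr_loc h
  rw [← e] at h1
  have h2 := (A.quot_ctr g S _ ξ).1 h1
  have h3 := A.quot_le h2.loc_le g
  rw [e] at h3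
  exact ⟨h2.mem, h3⟩

theorem Amb.quot_fx {H : Subgroup A.G} {a : L} : a ∈ A.fx H ↔ ∀ h ∈ H, h a = a :=
  IntermediateField.mem_fixedField_iff H a

theorem Amb.quot_reg {T S : Model L} (hT : T.In A.K) {H' : Subgroup A.G}
    (hS : IsNorm T (A.fx H') S) {g : A.G} (hg : ∀ h ∈ H', g * h * g⁻¹ ∈ H' ∧ g⁻¹ * h * g ∈ H')
    {η : ℙ ℂ (S.ι → ℂ)} (hη : η ∈ S.Pt) : S.Reg (A.act g (S.loc η)) := by
  have hξ := hS.dom.mem hη
  have h1 := (hS.np η hη).map (g.restrictScalars ℂ)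
    (fun a ha => A.fixK g (T.loc_sub hT hξ a ha)) fun a => by
      change g a ∈ A.fx H' ↔ _
      rw [A.quot_fx, A.quot_fx]
      refine ⟨fun k h hh => ?_, fun k h hh => ?_⟩
      · have := k _ (hg h hh).1
        rw [AlgEquiv.mul_apply, AlgEquiv.mul_apply, A.tr_cancel'] at this
        exact g.injective this
      · have := k _ (hg h hh).2
        rw [AlgEquiv.mul_apply, AlgEquiv.mul_apply] at this
        rw [← A.tr_cancel g (h (g a)), this]
  exact hS.reg _ hξ _ h1.le h1.int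

theorem Amb.quot_index {H : Subgroup A.G} {F : IntermediateField A.K L} (hF : A.Tw F)
    (hN : F.fixingSubgroup ≤ H) : H.FiniteIndex := by
  have := hF.finite A
  have : F.fixingSubgroup.FiniteIndex := ⟨by
    rw [← IntermediateField.finrank_eq_fixingSubgroup_index]
    exact Module.finrank_pos.ne'⟩
  exact Subgroup.finiteIndex_of_le hN

theorem Amb.exists_action {T S : Model L} (hT : T.In A.K) {H' : Subgroup A.G}
    (hS : IsNorm T (A.fx H') S) : ∃ ρ : A.G → S.Pt → S.Pt,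
      ∀ g, (∀ h ∈ H', g * h * g⁻¹ ∈ H' ∧ g⁻¹ * h * g ∈ H') → Continuous (ρ g) ∧
        ∀ (P : LP L) (η : S.Pt), S.Ctr P η → S.Ctr (A.act g P) (ρ g η) := by
  have hd : ∀ g, (∀ h ∈ H', g * h * g⁻¹ ∈ H' ∧ g⁻¹ * h * g ∈ H') → (A.quotM g S).Dom S :=
    fun g hg ξ hξ => (A.quot_reg hT hS hg (A.quot_loc g S hξ).1).mono (A.quot_loc g S hξ).2
  have hm : ∀ (g : A.G) (η : S.Pt), η.1 ∈ (A.quotM g S).Pt := fun g η =>
    ((A.quot_ctr g S _ η.1).2 (S.ctr_loc η.2)).mem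
  refine ⟨fun g η => if h : (A.quotM g S).Dom S then h.mp ⟨η.1, hm g η⟩ else η,
    fun g hg => ⟨?_, fun P η hP => ?_⟩⟩
  · simp only [dif_pos (hd g hg)]
    exact (hd g hg).continuous.comp (continuous_subtype_val.subtype_mk _)
  · simp only [dif_pos (hd g hg)]
    exact (hd g hg).ctr ((A.quot_ctr g S P η.1).2 hP)

theorem Amb.ctr_act {T S : Model L} (hT : T.In A.K) {H : Subgroup A.G} (hS : IsNorm T (A.fx H) S)
    {P : LP L} {η : ℙ ℂ (S.ι → ℂ)} (hη : S.Ctr P η) {g : A.G} (hg : g ∈ H) :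
    S.Ctr (A.act g P) η := by
  have _ := hT
  refine (S.ctr_loc hη.mem).mono fun a ha => ?_
  have e : g⁻¹ a = a := A.quot_fx.1 (S.loc_sub hS.inn hη.mem a ha) _ (H.inv_mem hg)
  rw [A.mem_act, A.ev_act, e]
  exact hη.loc_le a ha

theorem Amb.ctr_same {T S : Model L} (hT : T.In A.K) {H : Subgroup A.G}
    {F : IntermediateField A.K L} (hF : A.Tw F) (hN : F.fixingSubgroup ≤ H)
    (hS : IsNorm T (A.fx H) S) {ξ : ℙ ℂ (T.ι → ℂ)} (hξ : ξ ∈ T.Pt) {P P' : LP L}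
    (hP : Ab (T.loc ξ) P) (hP' : Ab (T.loc ξ) P') {η : ℙ ℂ (S.ι → ℂ)} (hη : S.Ctr P η)
    (hη' : S.Ctr P' η) : ∃ g ∈ H, A.act g P = P' := by
  have := hF.finite A
  obtain ⟨g, hg, e⟩ := A.tr_lp (IntermediateField.fixedField H) (T.loc_sub hT hξ) hP hP'
    ((hS.ctr_eq_iff hξ hP hP' hη hη').1 rfl)
  rw [(A.fix_fix H hN).1] at hg
  exact ⟨g, hg, e⟩

theorem Amb.fibre_finite {T S : Model L} (hT : T.In A.K) {H : Subgroup A.G}
    {F : IntermediateField A.K L} (hF : A.Tw F) (hN : F.fixingSubgroup ≤ H)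
    (hS : IsNorm T (A.fx H) S) {ξ : ℙ ℂ (T.ι → ℂ)} (hξ : ξ ∈ T.Pt)
    (hn : ∀ a ∈ A.K, IsIntegral (T.loc ξ).O a → a ∈ (T.loc ξ).O) :
    {η | η ∈ S.Pt ∧ S.dm T η = ξ}.Finite := by
  have := A.quot_index hF hN
  have hx := T.loc_sub hT hξ
  obtain ⟨P₀, h₀⟩ := exists_ab (T.loc ξ)
  choose c hc using fun g : A.G => hS.ctr hξ (A.ab_act hx h₀ g⁻¹)
  refine (Set.finite_range fun q : A.G ⧸ H => c q.out).subset ?_
  rintro η ⟨h1, h2⟩
  obtain ⟨P, hP, hη⟩ := hS.exists_ab h1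
  rw [h2] at hP
  obtain ⟨g, rfl⟩ := A.tr_lp0 hx hn h₀ hP
  obtain ⟨h, hh⟩ := QuotientGroup.mk_out_eq_mul H g⁻¹
  refine ⟨(g⁻¹ : A.G), ?_⟩
  have h3 := A.ctr_act hT hS hη (H.inv_mem h.2)
  rw [A.act_act] at h3
  have h4 := (hc (g⁻¹ * h)).1
  rw [mul_inv_rev, inv_inv] at h4
  exact (congrArg c hh).trans (h4.unique h3)

theorem Amb.quot_cov {T S S' : Model L} (hT : T.In A.K) {H H' : Subgroup A.G} (hle : H' ≤ H)
    (hn : ∀ g ∈ H, ∀ h ∈ H', g * h * g⁻¹ ∈ H') {F : IntermediateField A.K L} (hF : A.Tw F)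
    (hN : F.fixingSubgroup ≤ H') (hS : IsNorm T (A.fx H) S) (hS' : IsNorm T (A.fx H') S')
    (hd : S'.Dom S)
    (free : ∀ ξ ∈ T.Pt, ∀ P, Ab (T.loc ξ) P → ∀ h ∈ H, A.IP (T.loc ξ) ⊤ P h → h ∈ H') :
    IsCoveringMap hd.mp := by
  obtain ⟨ρ, hρ⟩ := A.exists_action hT hS'
  have hρ' := fun g : H => hρ g fun h hh =>
    ⟨hn g g.2 h hh, by simpa using hn _ (H.inv_mem g.2) h hh⟩
  have hx := fun η : S'.Pt => T.loc_sub hT (hS'.dom.mem η.2)
  choose P hP hC using fun η : S'.Pt => hS'.exists_ab η.2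
  have h1 : ∀ (g : H) (η η' : S'.Pt), S'.Ctr (A.act g (P η)) η' → ρ g η = η' := fun g η η' e =>
    Subtype.ext (((hρ' g).2 _ η (hC η)).unique e)
  have h2 : ∀ (g k : H) (η : S'.Pt), ρ (g * k : H) η = ρ g (ρ k η) := fun g k η => h1 _ _ _ (by
    rw [Subgroup.coe_mul, ← A.act_act]
    exact (hρ' g).2 _ _ ((hρ' k).2 _ η (hC η)))
  have h3 : ∀ g : H, g.1 ∈ H' → ∀ η, ρ g η = η := fun g hg η =>
    h1 g η η (A.ctr_act hT hS' (hC η) hg)
  let φ : H →* Equiv.Perm S'.Pt := MonoidHom.toHomPerm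
    { toFun := fun g => ρ g
      map_one' := funext (h3 1 H'.one_mem)
      map_mul' := fun g k => funext (h2 g k) }
  have hφ : ∀ g η, φ g η = ρ g η := fun _ _ => rfl
  have := A.quot_index hF hN
  refine quot_top φ (H'.subgroupOf H) (fun g => (hρ' g).1)
    (fun g hg => Equiv.ext (h3 g hg)) (fun g η e => ?_) hd.continuous (fun η => ?_)
    fun η η' => ⟨fun e => ?_, ?_⟩
  · have k := (hρ' g).2 _ η (hC η)
    rw [← hφ, e] at k
    obtain ⟨h, hh, e'⟩ := A.ctr_same hT hF hN hS' (hS'.dom.mem η.2)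
      (A.ab_act (hx η) (hP η) g) (hP η) k (hC η)
    rw [A.act_act, ← A.ip_iff (hx η) (hP η)] at e'
    exact (H'.mul_mem_cancel_left hh).1
      (free _ (hS'.dom.mem η.2) _ (hP η) _ (H.mul_mem (hle hh) g.2) e')
  · obtain ⟨ξ, k1, k2⟩ := hd.surj η.2
    exact ⟨⟨ξ, k1⟩, Subtype.ext k2⟩
  · have e1 : S'.dm S η = S'.dm S η' := congrArg Subtype.val e
    have e2 : S'.dm T η = S'.dm T η' := by
      rw [← Model.dm_trans hd hS.dom η.2, ← Model.dm_trans hd hS.dom η'.2, e1]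
    have k := hP η
    rw [e2] at k
    obtain ⟨g, hg, e'⟩ := A.ctr_same hT hF (hN.trans hle) hS (hS'.dom.mem η'.2) (hP η') k
      (hd.ctr (hC η')) (e1 ▸ hd.ctr (hC η))
    exact ⟨⟨g, hg⟩, h1 ⟨g, hg⟩ η' η (e' ▸ hC η)⟩
  · rintro ⟨g, rfl⟩
    exact Subtype.ext ((hd.ctr ((hρ' g).2 _ η' (hC η'))).unique
      (A.ctr_act hT hS (hd.ctr (hC η')) g.2))

end Vale.Agent.P300
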