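import Vale.Agent.P300.M5
import Vale.Agent.P300.Quot
import Vale.Agent.P300.X3
import Vale.Agent.P300.Cv

/-! Chains of rational curves. -/

open scoped LinearAlgebra.Projectivization Topology Classical Pointwise
open Polynomial

set_option linter.unusedSectionVars false

namespace Vale.Agent.P300

variable {L : Type} [Field L] [Algebra ℂ L] [IsAlgClosed L] {A : Amb L} {C : A.Cfg} (D : C.Pack)

/-- the centres of `Q` and `Q'` are linked -/
def Lk {W S S' : Model L} (hWS : W.Dom S) (hS : S'.Dom S) (Q Q' : LP L) : Prop :=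
  ∀ (η η' : S'.Pt) (a a' : W.Pt), S'.Ctr Q η → S'.Ctr Q' η' → hWS.mp a = hS.mp η →
    hWS.mp a' = hS.mp η' → Relation.ReflTransGen (LStep W.Pt hWS.mp hS.mp) (a, η) (a', η')

theorem Lk.trans {W S S' : Model L} {hWS : W.Dom S} {hS : S'.Dom S} {Q Q' Q'' : LP L}
    (h : Lk hWS hS Q Q') (hr : S'.Reg Q') (h' : Lk hWS hS Q' Q'') : Lk hWS hS Q Q'' := by
  intro η η'' a a'' h1 h2 h3 h4
  obtain ⟨η', h5⟩ := hr.ctr
  obtain ⟨a', h6, h7⟩ := hWS.surj (hS.mp ⟨η', h5.mem⟩).2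
  have e : hWS.mp ⟨a', h6⟩ = hS.mp ⟨η', h5.mem⟩ := Subtype.ext h7
  exact (h η ⟨η', h5.mem⟩ a ⟨a', h6⟩ h1 h5 h3 e).trans (h' _ η'' _ a'' h5 h2 e h4)

theorem Lk.same {W S S' : Model L} {hWS : W.Dom S} {hS : S'.Dom S} (hf : W.FibConn S) {Q Q' : LP L}
    (h : ∀ η, S'.Ctr Q η → S'.Ctr Q' η) : Lk hWS hS Q Q' := by
  intro η η' a a' h1 h2 h3 h4
  obtain rfl : η = η' := Subtype.ext ((h _ h1).unique h2)
  exact cv_vert hWS hS hf h3 h4

theorem Amb.m6_ctr {H : Subgroup A.G} {F : IntermediateField A.K L} (hF : A.Tw F)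
    (hN : F.fixingSubgroup ≤ H) {S' : Model L} (hS' : IsNorm A.X (A.fx H) S') {x P : LP L}
    (hx : ∃ ξ ∈ A.X.Pt, A.X.loc ξ = x) (hP : Ab x P) :
    S'.Reg P ∧ ∀ η, S'.Ctr P η → S'.Ctr (res x (A.rs F) P) η := by
  obtain ⟨ξ, hξ, rfl⟩ := hx
  have := hF.finite
  obtain ⟨η₀, h0, -, h1⟩ := hS'.ctr hξ hP
  refine ⟨h0.reg, fun η hη => ?_⟩
  obtain rfl := hη.unique h0
  refine (S'.ctr_loc hη.mem).mono ?_
  rw [h1]
  exact res_mono hP (fun a ha => (A.fix_fix H hN).2 ha)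
    fun a ha => (A.fx_span H hN).1 (A.X.loc_sub A.X_in hξ a ha)

theorem Amb.Cfg.Pack.m6_link {M : ℕ} {F : IntermediateField A.K L} {b : ℕ} (h : D.Lv M F b)
    {W S S' : Model L} (hS' : IsNorm A.X (A.fx (D.H M)) S') (hW : W.In (A.fx (D.H M)))
    (hWS : W.Dom S) (hS : S'.Dom S) (hf : W.FibConn S) {V : ValuationSubring L}
    (hV : ∃ t ∈ F, RatOn V (A.fx (D.H M)) t) {u v u' v' : L} (hc : A.Ch u v true true)
    (hc' : A.Ch u' v' true true) (o : Over V u v) (o' : Over V u' v')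
    (hx : ∃ ξ ∈ A.X.Pt, A.X.loc ξ = cl u v) (hx' : ∃ ξ ∈ A.X.Pt, A.X.loc ξ = cl u' v')
    {P P' : LP L} (hP : Ab (cl u v) P) (hP' : Ab (cl u' v') P') (ho : On P V) (ho' : On P' V)
    {k d d' : A.G} (hk : k ∈ D.E) (hd : A.DV V F d) (hd' : A.DV V F d') :
    Lk hWS hS (A.act (k * d) P) (A.act (k * d') P') := by
  obtain ⟨t, ht, hr⟩ := hV
  have hr' := A.rat_smul hr (D.H_nor M k hk)
  have key : ∀ {u v : L} (hc : A.Ch u v true true) (o : Over V u v) {P : LP L} (hP : Ab (cl u v) P)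
      (ho : On P V) {d : A.G} (hd : A.DV V F d),
      (∀ a ∈ (res (cl u v) (A.rs F) (A.act (k * d) P)).O, a ∈ k • V) ∧
      ∃ s ∈ (res (cl u v) (A.rs F) (A.act (k * d) P)).O,
        k t - s ∈ (k • V).nonunits ∨ (k t)⁻¹ - s ∈ (k • V).nonunits := by
    intro u v hc o P hP ho d hd
    have h1 := A.res_act h.good.normal hc.sub hP ho hd k
    exact ⟨h1, A.res_val h.good hc (A.ab_act hc.sub hP _)
      (A.over_smul o (A.ine2_K hc).1 (A.ine2_K hc).2 k) h1 (A.nm h.good.normal k ht) hr'.ht⟩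
  intro η η' a a' h1 h2 h3 h4
  exact cv_link hr' hW hS'.inn hWS hS hf (key hc o hP ho hd).1 (key hc' o' hP' ho' hd').1
    (key hc o hP ho hd).2 (key hc' o' hP' ho' hd').2
    ((A.m6_ctr h.good.tw h.hH hS' hx (A.ab_act hc.sub hP _)).2 _ h1)
    ((A.m6_ctr h.good.tw h.hH hS' hx' (A.ab_act hc'.sub hP' _)).2 _ h2) h3 h4

theorem m6_grp {G : Type} [Group G] (E : Subgroup G) (R : G → G → Prop) (h1 : ∀ k, R k k)
    (h2 : ∀ k l m, R k l → R l m → R k m) : ∃ T : Subgroup G, ∀ d, d ∈ T ↔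
      d ∈ E ∧ ∀ k ∈ E, R (k * d) k ∧ R k (k * d) :=
  ⟨{ carrier := {d | d ∈ E ∧ ∀ k ∈ E, R (k * d) k ∧ R k (k * d)}
     mul_mem' := fun {d d'} hd hd' => ⟨E.mul_mem hd.1 hd'.1, fun k hk => by
       have e := hd'.2 _ (E.mul_mem hk hd.1)
       rw [← mul_assoc]
       exact ⟨h2 _ _ _ e.1 (hd.2 k hk).1, h2 _ _ _ (hd.2 k hk).2 e.2⟩⟩
     one_mem' := ⟨E.one_mem, fun k _ => by
       rw [mul_one]
       exact ⟨h1 k, h1 k⟩⟩
     inv_mem' := fun {d} hd => ⟨E.inv_mem hd.1, fun k hk => by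
       have e := hd.2 _ (E.mul_mem hk (E.inv_mem hd.1))
       rw [inv_mul_cancel_right] at e
       exact ⟨e.2, e.1⟩⟩ }, fun _ => Iff.rfl⟩

theorem Amb.dv_one (V : ValuationSubring L) (F : IntermediateField A.K L) : A.DV V F 1 :=
  fun _ _ => Iff.rfl

theorem Amb.Cfg.Pack.m6_main {M : ℕ} {F : IntermediateField A.K L} {b : ℕ} (h : D.Lv M F b)
    {W S S' : Model L} (hS' : IsNorm A.X (A.fx (D.H M)) S') (hW : W.In (A.fx (D.H M)))
    (hWS : W.Dom S) (hS : S'.Dom S) (hf : W.FibConn S) {k d d' : A.G} (hk : k ∈ D.E)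
    (hd : A.DV C.V0 F d) (hd' : A.DV C.V0 F d') :
    Lk hWS hS (A.act (k * d) (C.Ph none)) (A.act (k * d') (C.Ph none)) :=
  D.m6_link h hS' hW hWS hS hf (D.rat0 h) (A.ch_hc none) (A.ch_hc none) (A.over_main C.hV0).1
    (A.over_main C.hV0).1 (A.loc_hc none) (A.loc_hc none) (C.frh none).ab (C.frh none).ab
    C.on_inf C.on_inf hk hd hd'

theorem Amb.Cfg.Pack.m6_node {M : ℕ} {F : IntermediateField A.K L} {b : ℕ} (h : D.Lv M F b)
    {W S S' : Model L} (hS' : IsNorm A.X (A.fx (D.H M)) S') (hW : W.In (A.fx (D.H M)))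
    (hWS : W.Dom S) (hS : S'.Dom S) (hf : W.FibConn S) (a : Mu) {k : A.G} (hk : k ∈ D.E) :
    Lk hWS hS (A.act k (C.Ph none)) (A.act k (C.Pn (.fin 0 a))) ∧
      Lk hWS hS (A.act k (C.Pn (.fin 0 a))) (A.act k (C.Ph none)) := by
  have om := A.over_main C.hV0
  have e1 := D.m6_link h hS' hW hWS hS hf (D.rat0 h) (A.ch_hc none) (A.ch_nc (.fin 0 a)) om.1
    (om.2.1 a) (A.loc_hc none) (A.loc_nc (.fin 0 a)) (C.frh none).ab (C.frn (.fin 0 a)).ab C.on_inf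
    (C.on_n0 a) hk (A.dv_one _ _) (A.dv_one _ _)
  have e2 := D.m6_link h hS' hW hWS hS hf (D.rat0 h) (A.ch_nc (.fin 0 a)) (A.ch_hc none) (om.2.1 a)
    om.1 (A.loc_nc (.fin 0 a)) (A.loc_hc none) (C.frn (.fin 0 a)).ab (C.frh none).ab (C.on_n0 a)
    C.on_inf hk (A.dv_one _ _) (A.dv_one _ _)
  rw [mul_one] at e1 e2
  exact ⟨e1, e2⟩

theorem Amb.Cfg.Pack.m6_bub {M : ℕ} {F : IntermediateField A.K L} {b : ℕ} (h : D.Lv M F b)
    {W S S' : Model L} (hS' : IsNorm A.X (A.fx (D.H M)) S') (hW : W.In (A.fx (D.H M)))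
    (hWS : W.Dom S) (hS : S'.Dom S) (hf : W.FibConn S) (a : Mu) {k d d' : A.G} (hk : k ∈ D.E)
    (hE : d ∈ D.E) (hE' : d' ∈ D.E) (hd : A.DV (C.V a) F d) (hd' : A.DV (C.V a) F d') :
    Lk hWS hS (A.act (k * d) (C.Ph none)) (A.act (k * d') (C.Ph none)) := by
  have rn : ∀ k, S'.Reg (A.act k (C.Pn (.fin 0 a))) := fun k =>
    (A.m6_ctr h.good.tw h.hH hS' (A.loc_nc _) (A.ab_act (A.ch_nc _).sub (C.frn _).ab k)).1
  have hx := A.loc_nc (.fin 0 a)
  have hP := (C.frn (.fin 0 a)).ab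
  rw [cl_swap (A.ch_nc (.fin 0 a)).ind] at hx hP
  have e := D.m6_link h hS' hW hWS hS hf (D.rat1 h a) (A.ch_nc (.fin 0 a)).swap
    (A.ch_nc (.fin 0 a)).swap (C.hV a) (C.hV a) hx hx hP hP (C.on_n1 a) (C.on_n1 a) hk hd hd'
  exact ((D.m6_node h hS' hW hWS hS hf a (D.E.mul_mem hk hE)).1.trans (rn _) e).trans (rn _)
    (D.m6_node h hS' hW hWS hS hf a (D.E.mul_mem hk hE')).2

theorem Amb.Cfg.m6_dv (C : A.Cfg) {F : IntermediateField A.K L} {b : ℕ} (h : A.Good F b)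
    (i : Option Sec) {V : ValuationSubring L} (o : Over V (A.hc i).1 (A.hc i).2)
    (ho : On (C.Ph i) V) : A.DV V F (C.x i) :=
  A.ip_dv h (A.ch_hc i) (C.frh i).ab o ho fun a ha => (C.frh i).i2 a ⟨ha.1, trivial⟩

theorem Amb.Cfg.Pack.m6_gen {M : ℕ} {F : IntermediateField A.K L} {b : ℕ} (h : D.Lv M F b)
    {W S S' : Model L} (hS' : IsNorm A.X (A.fx (D.H M)) S') (hW : W.In (A.fx (D.H M)))
    (hWS : W.Dom S) (hS : S'.Dom S) (hf : W.FibConn S) (i : Sec) {k : A.G} (hk : k ∈ D.E) :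
    Lk hWS hS (A.act (k * C.x (some i)) (C.Ph none)) (A.act (k * 1) (C.Ph none)) ∧
      Lk hWS hS (A.act (k * 1) (C.Ph none)) (A.act (k * C.x (some i)) (C.Ph none)) := by
  have hE := D.piE (C.x_pi (some i))
  cases i with
  | zero =>
    have hd := C.m6_dv h.good (some .zero) C.hV0 C.on_zero
    exact ⟨D.m6_main h hS' hW hWS hS hf hk hd (A.dv_one _ _),
      D.m6_main h hS' hW hWS hS hf hk (A.dv_one _ _) hd⟩
  | cst a =>
    have hd := C.m6_dv h.good (some (.cst a)) (A.over_bub a (C.hV a)).2.1 (C.on_cst a)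
    exact ⟨D.m6_bub h hS' hW hWS hS hf a hk hE D.E.one_mem hd (A.dv_one _ _),
      D.m6_bub h hS' hW hWS hS hf a hk D.E.one_mem hE (A.dv_one _ _) hd⟩
  | dia a =>
    have hd := C.m6_dv h.good (some (.dia a)) (A.over_bub a (C.hV a)).1 (C.on_dia a)
    exact ⟨D.m6_bub h hS' hW hWS hS hf a hk hE D.E.one_mem hd (A.dv_one _ _),
      D.m6_bub h hS' hW hWS hS hf a hk D.E.one_mem hE (A.dv_one _ _) hd⟩

theorem Amb.Cfg.Pack.chain {M : ℕ} {W S S' : Model L} (hS' : IsNorm A.X (A.fx (D.H M)) S')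
    (hW : W.In (A.fx (D.H M))) (hWS : W.Dom S) (hS : S'.Dom S) (hf : W.FibConn S) {g : A.G}
    (hg : g ∈ A.pi) : Lk hWS hS (C.Ph none) (A.act g (C.Ph none)) := by
  obtain ⟨F, b, h⟩ := D.lv M
  obtain ⟨T, hT⟩ := m6_grp D.E (fun k l => Lk hWS hS (A.act k (C.Ph none)) (A.act l (C.Ph none)))
    (fun k => Lk.same hf fun _ e => e) fun k l m e e' => e.trans
      (A.m6_ctr h.good.tw h.hH hS' (A.loc_hc none)
        (A.ab_act (A.ch_hc none).sub (C.frh none).ab l)).1 e'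
  have hle : Subgroup.closure (Set.range fun i => C.x (some i)) ⊔ F.fixingSubgroup ≤ T := by
    refine sup_le ((Subgroup.closure_le _).2 ?_) fun n hn =>
      (hT n).2 ⟨D.H_le M (h.hH hn), fun k hk => ?_⟩
    · rintro _ ⟨i, rfl⟩
      refine (hT _).2 ⟨D.piE (C.x_pi (some i)), fun k hk => ?_⟩
      have e := D.m6_gen h hS' hW hWS hS hf i hk
      rwa [mul_one] at e
    · have hm := D.H_nor M k hk n (h.hH hn)
      constructor
      · refine Lk.same hf fun η e => ?_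
        have e' := A.ctr_act A.X_in hS' e ((D.H M).inv_mem hm)
        rwa [A.act_act, show (k * n * k⁻¹)⁻¹ * (k * n) = k by group] at e'
      · refine Lk.same hf fun η e => ?_
        have e' := A.ctr_act A.X_in hS' e hm
        rwa [A.act_act, inv_mul_cancel_right] at e'
  have e := (((hT g).1 (hle (A.gen_pi C.kum h.good hg))).2 1 D.E.one_mem).2
  rwa [one_mul, A.act_one] at e

end Vale.Agent.P300
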