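import Vale.Agent.P300.Core
import Vale.Agent.P173.PathInd

/-! Existence of the universal cover: the flat bundle with fibre the fundamental group, built from the
atlas of open contractible sets (`P173.Atlas`); its monodromy is right multiplication by the class of
the path, which gives path connectedness and simple connectedness of the total space. -/

open scoped Topology Classical

namespace Vale.Agent.P300

open P173

variable {X : Type} [TopologicalSpace X]

theorem univ_path {V : Set X} (hV : ContractibleSpace V) {x y : X} (hx : x ∈ V) (hy : y ∈ V) :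
    ∃ γ : Path x y, ∀ t, γ t ∈ V := by
  obtain ⟨γ⟩ := PathConnectedSpace.joined (⟨x, hx⟩ : V) ⟨y, hy⟩
  exact ⟨γ.map continuous_subtype_val, fun t => (γ t).2⟩

theorem univ_htpy {V : Set X} (hV : ContractibleSpace V) {x y : X} (γ γ' : Path x y)
    (h : ∀ t, γ t ∈ V) (h' : ∀ t, γ' t ∈ V) : γ.Homotopic γ' := by
  have hx : x ∈ V := γ.source ▸ h 0
  have hy : y ∈ V := γ.target ▸ h 1
  let l : ∀ δ : Path x y, (∀ t, δ t ∈ V) → Path (⟨x, hx⟩ : V) ⟨y, hy⟩ := fun δ hδ =>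
    ⟨⟨fun t => ⟨δ t, hδ t⟩, δ.continuous.subtype_mk _⟩, Subtype.ext δ.source, Subtype.ext δ.target⟩
  exact (SimplyConnectedSpace.paths_homotopic (l γ h) (l γ' h')).map
    ⟨Subtype.val, continuous_subtype_val⟩

theorem univ_hom [PathConnectedSpace X] : ∃ (G : Type) (_ : Group G) (m : PathHom X G),
    (∀ (x y : X) (γ γ' : Path x y), m.μ γ = m.μ γ' → γ.Homotopic γ') ∧
      ∀ (x y : X) (g : G), ∃ γ : Path x y, m.μ γ = g := by
  obtain ⟨x₀⟩ : Nonempty X := inferInstance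
  let c : ∀ x : X, Path.Homotopic.Quotient x₀ x := fun x =>
    .mk (PathConnectedSpace.somePath x₀ x)
  let f : ∀ {x y : X}, Path.Homotopic.Quotient x y → FundamentalGroup X x₀ := fun {x y} q =>
    (c x).trans (q.trans (c y).symm)
  have e : ∀ {x y : X} (q : Path.Homotopic.Quotient x y),
      (c x).symm.trans (Path.Homotopic.Quotient.trans (f q) (c y)) = q := by
    intro x y q
    simp only [f]
    rw [Path.Homotopic.Quotient.trans_assoc, Path.Homotopic.Quotient.trans_assoc,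
      Path.Homotopic.Quotient.symm_trans, Path.Homotopic.Quotient.trans_refl,
      ← Path.Homotopic.Quotient.trans_assoc, Path.Homotopic.Quotient.symm_trans,
      Path.Homotopic.Quotient.refl_trans]
  refine ⟨(FundamentalGroup X x₀)ᵐᵒᵖ, inferInstance,
    ⟨fun γ => MulOpposite.op (f (.mk γ)), fun {x y z} γ γ' => ?_, fun h => ?_⟩,
    fun x y γ γ' h => ?_, fun x y g => ?_⟩
  · rw [← MulOpposite.op_mul, FundamentalGroup.mul_def, Path.Homotopic.Quotient.mk_trans]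
    congr 1
    simp only [f]
    rw [Path.Homotopic.Quotient.trans_assoc, Path.Homotopic.Quotient.trans_assoc,
      Path.Homotopic.Quotient.trans_assoc, ← Path.Homotopic.Quotient.trans_assoc (c y).symm,
      Path.Homotopic.Quotient.symm_trans, Path.Homotopic.Quotient.refl_trans]
  · rw [Path.Homotopic.Quotient.eq.2 h]
  · have h1 : f (.mk γ) = f (.mk γ') := MulOpposite.op_injective h
    refine Path.Homotopic.Quotient.eq.1 ?_
    rw [← e (.mk γ), h1, e]
  · obtain ⟨γ, hγ⟩ := Path.Homotopic.Quotient.mk_surjective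
      ((c x).symm.trans (Path.Homotopic.Quotient.trans g.unop (c y)))
    refine ⟨γ, ?_⟩
    change MulOpposite.op (f (.mk γ)) = MulOpposite.op g.unop
    congr 1
    simp only [f]
    rw [hγ, Path.Homotopic.Quotient.trans_assoc, Path.Homotopic.Quotient.trans_assoc,
      Path.Homotopic.Quotient.trans_symm, Path.Homotopic.Quotient.trans_refl,
      ← Path.Homotopic.Quotient.trans_assoc, Path.Homotopic.Quotient.trans_symm,
      Path.Homotopic.Quotient.refl_trans]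

theorem univ_atlas {G : Type} [Group G] (m : PathHom X G)
    (h : ∀ (x : X) (U : Set X), U ∈ 𝓝 x →
      ∃ V : Set X, IsOpen V ∧ x ∈ V ∧ V ⊆ U ∧ ContractibleSpace V) :
    ∃ 𝒜 : Atlas X G X, 𝒜.Compat m := by
  choose V hV hx _ hc using fun x => h x Set.univ Filter.univ_mem
  have e : ∀ i z, ∃ g : G, ∀ γ : Path i z, (∀ t, γ t ∈ V i) → m.μ γ = g := fun i z => by
    by_cases hz : z ∈ V i
    · obtain ⟨δ, hδ⟩ := univ_path (hc i) (hx i) hz
      exact ⟨m.μ δ, fun γ hγ => m.htpy (univ_htpy (hc i) _ _ hγ hδ)⟩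
    · exact ⟨1, fun γ hγ => absurd (γ.target ▸ hγ 1) hz⟩
  choose φ hφ using e
  have key : ∀ (i : X) {x y : X} (γ : Path x y), (∀ t, γ t ∈ V i) → φ i y = φ i x * m.μ γ := by
    intro i x y γ hγ
    obtain ⟨δ, hδ⟩ := univ_path (hc i) (hx i) (show x ∈ V i from γ.source ▸ hγ 0)
    rw [← hφ i x δ hδ, ← m.trans]
    refine (hφ i y _ fun t => ?_).symm
    have ht : (δ.trans γ) t ∈ Set.range (δ.trans γ) := ⟨t, rfl⟩
    rw [Path.trans_range] at ht
    rcases ht with ⟨s, hs⟩ | ⟨s, hs⟩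
    · exact hs ▸ hδ s
    · exact hs ▸ hγ s
  refine ⟨⟨V, hV, fun z => ⟨z, hx z⟩, φ, fun i j z hi hj => ?_⟩, fun i x y γ hγ => ?_⟩
  · obtain ⟨W, w1, w2, w3, w4⟩ := h z _ (((hV i).inter (hV j)).mem_nhds ⟨hi, hj⟩)
    filter_upwards [w1.mem_nhds w2] with z' hz'
    obtain ⟨η, hη⟩ := univ_path w4 w2 hz'
    rw [key i η fun t => (w3 (hη t)).1, key j η fun t => (w3 (hη t)).2]
    group
  · change m.μ γ = (φ i x)⁻¹ * φ i y
    rw [key i γ hγ]
    group

theorem exists_univCover (X : Type) [TopologicalSpace X] [ConnectedSpace X]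
    (h : ∀ (x : X) (U : Set X), U ∈ 𝓝 x →
      ∃ V : Set X, IsOpen V ∧ x ∈ V ∧ V ⊆ U ∧ ContractibleSpace V) :
    ∃ (E : Type) (_ : TopologicalSpace E) (p : E → X), IsUnivCover p := by
  have : LocallyPathConnectedSpace X := by
    refine ⟨fun x => ⟨fun U => ⟨fun hU => ?_, fun ⟨V, hV, hVU⟩ => Filter.mem_of_superset hV.1 hVU⟩⟩⟩
    obtain ⟨V, v1, v2, v3, v4⟩ := h x U hU
    exact ⟨V, ⟨v1.mem_nhds v2, isPathConnected_iff_pathConnectedSpace.2 inferInstance⟩, v3⟩
  have : PathConnectedSpace X := PathConnectedSpace.of_locallyPathConnectedSpace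
  obtain ⟨G, _, m, inj, sur⟩ := univ_hom (X := X)
  obtain ⟨𝒜, h𝒜⟩ := univ_atlas m h
  let _ : TopologicalSpace G := ⊥
  have : DiscreteTopology G := ⟨rfl⟩
  have key : ∀ {x y : X} (γ : Path x y), ∀ g : G,
      𝒜.piCov.monodromy (.mk γ) (𝒜.piPt x g) = 𝒜.piPt y (g * m.μ γ) := by
    intro x y γ
    refine path_induction 𝒜.U 𝒜.isOpen 𝒜.cover (fun {x y} γ => ∀ g : G,
      𝒜.piCov.monodromy (.mk γ) (𝒜.piPt x g) = 𝒜.piPt y (g * m.μ γ)) ?_ ?_ ?_ γ
    · intro i x y γ hγ g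
      rw [h𝒜 i γ hγ]
      exact 𝒜.pi_monodromy_small i γ hγ g
    · intro x y z γ γ' hh hh' g
      rw [Path.Homotopic.Quotient.mk_trans, IsCoveringMap.monodromy_trans_apply, hh, hh',
        mul_assoc, m.trans]
    · intro x y γ γ' he hh g
      rw [← Path.Homotopic.Quotient.eq.2 he, hh, m.htpy he]
  have pt : ∀ e : 𝒜.piCore.TotalSpace, ∃ g : G, 𝒜.piPt (𝒜.piCore.proj e) g = ⟨e, rfl⟩ := by
    rintro ⟨x, k⟩
    refine ⟨(show G from k) * 𝒜.φ (𝒜.piCore.indexAt x) x, Subtype.ext ?_⟩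
    change (⟨x, ((show G from k) * 𝒜.φ (𝒜.piCore.indexAt x) x *
      (𝒜.φ (𝒜.piCore.indexAt x) x)⁻¹ : G)⟩ : 𝒜.piCore.TotalSpace) = ⟨x, k⟩
    rw [mul_inv_cancel_right]
  refine ⟨𝒜.piCore.TotalSpace, inferInstance, 𝒜.piCore.proj, 𝒜.piCov,
    fun x => ⟨(𝒜.piPt x 1).1, rfl⟩, simply_connected_iff_paths_homotopic'.2 ⟨⟨?_, fun e e' => ?_⟩,
      fun {e e'} γ γ' => ?_⟩⟩
  · obtain ⟨x⟩ : Nonempty X := inferInstance
    exact ⟨(𝒜.piPt x 1).1⟩
  · obtain ⟨g, hg⟩ := pt e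
    obtain ⟨g', hg'⟩ := pt e'
    obtain ⟨γ, hγ⟩ := sur (𝒜.piCore.proj e) (𝒜.piCore.proj e') (g⁻¹ * g')
    have k := key γ g
    rw [hγ, mul_inv_cancel_left, hg, hg'] at k
    obtain ⟨δ⟩ := 𝒜.piCov.liftPathQuotient (.mk γ) ⟨e, rfl⟩
    rw [k] at δ
    exact ⟨δ⟩
  · obtain ⟨g, hg⟩ := pt e
    have k : ∀ δ : Path e e', 𝒜.piPt _ (g * m.μ (δ.map 𝒜.piCov.continuous)) = ⟨e', rfl⟩ :=
      fun δ => by
        rw [← key, hg]
        exact 𝒜.piCov.monodromy_map (.mk δ)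
    have k1 := mul_left_cancel (𝒜.piPt_inj _ ((k γ).trans (k γ').symm))
    refine Path.Homotopic.Quotient.eq.1 (𝒜.piCov.injective_path_homotopic_map e e' ?_)
    exact Path.Homotopic.Quotient.eq.2 (inj _ _ _ _ k1)

end Vale.Agent.P300
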