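import Vale.Agent.P300.M4
import Vale.Agent.P300.M6
import Vale.Agent.P300.Final
import Vale.Agent.P300.LocSC
import Vale.Agent.P300.Univ

/-! Assembly. -/

open scoped LinearAlgebra.Projectivization Topology Classical Pointwise
open Polynomial

set_option linter.unusedSectionVars false

namespace Vale.Agent.P300

variable {L : Type} [Field L] [Algebra ℂ L] [IsAlgClosed L] {A : Amb L} {C : A.Cfg} (D : C.Pack)

theorem Amb.Cfg.Pack.fx_mono {M M' : ℕ} (h : M ≤ M') : A.fx (D.H M) ≤ A.fx (D.H M') :=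
  fun _ ha k => ha ⟨k.1, D.H_anti h k.2⟩

theorem Amb.Cfg.Pack.many {M₀ : ℕ} (h0 : D.Free M₀) {W S : Model L}
    (hS : IsNorm A.X (A.fx (D.H M₀)) S) (hW : W.In (A.fx (D.H M₀))) (hWS : W.Dom S)
    (hf : W.FibConn S) {w : W.Pt} (hw : S.Ctr (C.Ph none) (hWS.mp w)) (N : ℕ) :
    ∃ (S' : Model L) (hd : S'.Dom S), IsCoveringMap hd.mp ∧ ∃ (s₀ : S'.Pt) (s : Fin N → S'.Pt),
      hd.mp s₀ = hWS.mp w ∧ Function.Injective s ∧
        ∀ k, Relation.ReflTransGen (LStep W.Pt hWS.mp hd.mp) (w, s₀) (w, s k) := by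
  obtain ⟨M, hM, hi⟩ := D.H_idx M₀ (N * (D.H M₀).relIndex A.pi)
  obtain ⟨g, hg, hg'⟩ := exists_cosets A.pi (D.H M₀) (D.H M) (D.H_fin M₀) N hi (D.H_anti hM)
  obtain ⟨S', hS'⟩ := D.norm M
  obtain ⟨F, b, hF⟩ := D.lv M
  have hd := hS.dom_of_le hS' (D.fx_mono hM)
  have nor : ∀ k ∈ D.H M₀, ∀ h ∈ D.H M, k * h * k⁻¹ ∈ D.H M := fun k hk => D.H_nor M k (D.H_le _ hk)
  obtain ⟨ξ, hξ, e⟩ := A.loc_hc none
  have hP : Ab (A.X.loc ξ) (C.Ph none) := e ▸ (C.frh none).ab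
  have hx := A.X.loc_sub A.X_in hξ
  have ex : ∀ k, ∃ η : S'.Pt, S'.Ctr (A.act k (C.Ph none)) η := fun k => by
    obtain ⟨η, h1, -⟩ := hS'.ctr hξ (A.ab_act hx hP k)
    exact ⟨⟨η, h1.mem⟩, h1⟩
  choose c hc using ex
  have h1 : S'.Ctr (C.Ph none) (c 1) := by simpa only [A.act_one] using hc 1
  have dn : ∀ k ∈ D.H M₀, hWS.mp w = hd.mp (c k) := fun k hk =>
    Subtype.ext ((A.ctr_act A.X_in hS hw hk).unique (hd.ctr (hc k)))
  refine ⟨S', hd, A.quot_cov A.X_in (D.H_anti hM) nor hF.good.tw hF.hH hS hS' hd (h0 M), c 1,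
    fun k => c (g k), (dn 1 (D.H M₀).one_mem).symm, fun k l hkl => ?_, fun k =>
      D.chain hS' (hW.mono (D.fx_mono hM)) hWS hd hf (hg k).1 _ _ _ _ h1 (hc _)
        (dn 1 (D.H M₀).one_mem) (dn _ (hg k).2)⟩
  have h2 := hc (g l)
  rw [← show c (g k) = c (g l) from hkl] at h2
  obtain ⟨t, ht, h3⟩ := A.ctr_same A.X_in hF.good.tw hF.hH hS' hξ (A.ab_act hx hP (g l))
    (A.ab_act hx hP (g k)) h2 (hc (g k))
  have h4 : (g k)⁻¹ * (t * g l) ∈ D.H M := by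
    refine h0 M ξ hξ _ hP _ ((D.H M₀).mul_mem ((D.H M₀).inv_mem (hg k).2)
      ((D.H M₀).mul_mem (D.H_anti hM ht) (hg l).2)) ((A.ip_iff hx hP _).2 ?_)
    rw [← A.act_act, ← A.act_act, h3, A.act_act, inv_mul_cancel, A.act_one]
  refine hg' k l ?_
  have h5 := (D.H M).mul_mem h4 (nor _ ((D.H M₀).inv_mem (hg l).2) _ ((D.H M).inv_mem ht))
  rwa [show (g k)⁻¹ * (t * g l) * ((g l)⁻¹ * t⁻¹ * (g l)⁻¹⁻¹) = (g k)⁻¹ * g l by group] at h5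

theorem main : ∃ (n : ℕ) (X : Set (ℙ ℂ (Fin n → ℂ))), IsProjAlg X ∧ IsSmoothProj X ∧ IsConnected X ∧
    (∃ (E : Type) (_ : TopologicalSpace E) (p : E → X), IsUnivCover p) ∧
    ∀ (E : Type) [TopologicalSpace E] (p : E → X), IsUnivCover p → ¬ HolConvex p := by
  obtain ⟨L, _, _, _, ⟨A⟩⟩ := exists_amb
  obtain ⟨C⟩ := A.exists_cfg
  obtain ⟨D⟩ := C.exists_pack
  obtain ⟨M₀, h0⟩ := D.free
  obtain ⟨S, hS⟩ := D.norm M₀
  obtain ⟨n, f, hf, hWS, hW, hfc, hs, hc⟩ := D.surf M₀ hS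
  refine ⟨n, (finModel f hf).Pt, (finModel f hf).isProjAlg, hs, hc, ?_, fun E _ p hp => ?_⟩
  · exact @exists_univCover _ _ (Subtype.connectedSpace hc) hs.contractible
  · obtain ⟨ξ, hξ, e⟩ := A.loc_hc none
    obtain ⟨η, h1, -⟩ := hS.ctr hξ (P := C.Ph none) (e ▸ (C.frh none).ab)
    obtain ⟨w, hw, e'⟩ := hWS.surj h1.mem
    refine not_holConvex (finModel f hf).isClosed ⟨w, hw⟩ (fun N => ?_) hp
    obtain ⟨S', hd, h2, h3⟩ := D.many h0 hS hW hWS hfc (w := ⟨w, hw⟩) (by rw [← e'] at h1; exact h1) N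
    exact ⟨S.Pt, S'.Pt, inferInstance, inferInstance, hWS.mp, hd.mp, hWS.continuous, h2, h3⟩

end Vale.Agent.P300
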