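import Vale.Agent.P300.Ext

/-! Projective models: centres, local rings, domination, Segre joins.
For `ξ ∈ T.Pt` the index `j = nz ξ` has `f j ≠ 0` (else `X j` is a relation) and the affine
coordinates are `Valid` (homogenise a relation of `f i / f j`: sum of
`homogeneousComponent d P * X j ^ (D - d)`). -/

open scoped LinearAlgebra.Projectivization Topology Classical
open Polynomial

namespace Vale.Agent.P300

variable {L : Type} [Field L] [Algebra ℂ L]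

theorem mod_scale {ι K : Type} [CommRing K] [Algebra ℂ K] {F : MvPolynomial ι ℂ} {d : ℕ}
    (hF : F.IsHomogeneous d) (l : K) (g : ι → K) :
    MvPolynomial.aeval (fun i => l * g i) F = l ^ d * MvPolynomial.aeval g F := by
  rw [MvPolynomial.aeval_def, MvPolynomial.aeval_def, MvPolynomial.eval₂_eq, MvPolynomial.eval₂_eq,
    Finset.mul_sum]
  refine Finset.sum_congr rfl fun s hs => ?_
  simp only [mul_pow]
  rw [Finset.prod_mul_distrib, Finset.prod_pow_eq_pow_sum, ← hF.degree_eq_sum_deg_support hs]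
  ring

theorem mod_scale' {ι : Type} {F : MvPolynomial ι ℂ} {d : ℕ} (hF : F.IsHomogeneous d) (l : ℂ)
    (g : ι → ℂ) : MvPolynomial.eval (l • g) F = l ^ d * MvPolynomial.eval g F :=
  mod_scale hF l g

theorem mod_homog {ι : Type} (P : MvPolynomial ι ℂ) (j : ι) : ∃ (F : MvPolynomial ι ℂ) (D : ℕ),
    F.IsHomogeneous D ∧ ∀ (K : Type) [Field K] [Algebra ℂ K] (g : ι → K), g j ≠ 0 →
      MvPolynomial.aeval g F = g j ^ D * MvPolynomial.aeval (fun i => g i / g j) P := by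
  refine ⟨∑ d ∈ Finset.range (P.totalDegree + 1),
    MvPolynomial.homogeneousComponent d P * MvPolynomial.X j ^ (P.totalDegree - d), P.totalDegree,
    MvPolynomial.IsHomogeneous.sum _ _ _ fun d hd => ?_, fun K _ _ g hg => ?_⟩
  · have h := (MvPolynomial.homogeneousComponent_isHomogeneous d P).mul
      (MvPolynomial.isHomogeneous_X_pow (R := ℂ) j (P.totalDegree - d))
    rwa [Nat.add_sub_cancel' (Nat.lt_succ_iff.1 (Finset.mem_range.1 hd))] at h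
  · have e : g = fun i => g j * (g i / g j) := funext fun i => by field_simp
    rw [← congrArg (MvPolynomial.aeval fun i => g i / g j)
      (MvPolynomial.sum_homogeneousComponent P), map_sum, map_sum, Finset.mul_sum]
    refine Finset.sum_congr rfl fun d hd => ?_
    have h := mod_scale (MvPolynomial.homogeneousComponent_isHomogeneous d P) (g j)
      fun i => g i / g j
    rw [← e] at h
    rw [map_mul, map_pow, MvPolynomial.aeval_X, h, mul_right_comm, ← pow_add,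
      Nat.add_sub_cancel' (Nat.lt_succ_iff.1 (Finset.mem_range.1 hd))]

theorem mod_mk_mem (T : Model L) (v : T.ι → ℂ) (hv : v ≠ 0) :
    Projectivization.mk ℂ v hv ∈ T.Pt ↔ ∀ (F : MvPolynomial T.ι ℂ) (d : ℕ), F.IsHomogeneous d →
      MvPolynomial.aeval T.f F = 0 → MvPolynomial.eval v F = 0 := by
  obtain ⟨a, ha⟩ := Projectivization.exists_smul_eq_mk_rep ℂ v hv
  refine forall₄_congr fun F d hF _ => ?_
  rw [← ha, Units.smul_def, mod_scale' hF, mul_eq_zero, or_iff_right (pow_ne_zero _ a.ne_zero)]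

theorem Model.isProjAlg (T : Model L) : IsProjAlg T.Pt := by
  refine ⟨{F | (∃ d, F.IsHomogeneous d) ∧ MvPolynomial.aeval T.f F = 0}, fun F hF => hF.1,
    fun v hv => ?_⟩
  rw [mod_mk_mem]
  exact ⟨fun h F ⟨⟨d, hd⟩, hF⟩ => h F d hd hF, fun h F d hd hF => h F ⟨⟨d, hd⟩, hF⟩⟩

theorem Model.mk_mem (T : Model L) (v : T.ι → ℂ) (hv : v ≠ 0) :
    Projectivization.mk ℂ v hv ∈ T.Pt ↔ ∀ (F : MvPolynomial T.ι ℂ) (d : ℕ), F.IsHomogeneous d →
      MvPolynomial.aeval T.f F = 0 → MvPolynomial.eval v F = 0 := by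
  exact mod_mk_mem T v hv

theorem Model.f_ne (T : Model L) {ξ : ℙ ℂ (T.ι → ℂ)} (h : ξ ∈ T.Pt) {j : T.ι} (hj : ξ.rep j ≠ 0) :
    T.f j ≠ 0 := by
  intro e
  have h1 := h (MvPolynomial.X j) 1 (MvPolynomial.isHomogeneous_X ℂ j)
    (by rw [MvPolynomial.aeval_X, e])
  rw [MvPolynomial.eval_X] at h1
  exact hj h1

theorem Model.valid (T : Model L) {ξ : ℙ ℂ (T.ι → ℂ)} (h : ξ ∈ T.Pt) {j : T.ι} (hj : ξ.rep j ≠ 0) :
    Valid (fun i => T.f i / T.f j) fun i => ξ.rep i / ξ.rep j := by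
  intro P hP
  obtain ⟨F, D, hF, e⟩ := mod_homog P j
  have h1 := h F D hF (by rw [e L T.f (T.f_ne h hj), hP, mul_zero])
  have h2 : MvPolynomial.eval ξ.rep F =
      ξ.rep j ^ D * MvPolynomial.eval (fun i => ξ.rep i / ξ.rep j) P := e ℂ ξ.rep hj
  rw [h1] at h2
  exact (mul_eq_zero.1 h2.symm).resolve_left (pow_ne_zero _ hj)

theorem mod_chart (T : Model L) {ξ : ℙ ℂ (T.ι → ℂ)} (h : ξ ∈ T.Pt) {j k : T.ι}
    (hj : ξ.rep j ≠ 0) (hk : ξ.rep k ≠ 0) :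
    (pv (fun i => T.f i / T.f j) fun i => ξ.rep i / ξ.rep j).Le
      (pv (fun i => T.f i / T.f k) fun i => ξ.rep i / ξ.rep k) := by
  refine (pv_le fun i => ?_).2
  have h1 := pv_gen (T.valid h hk) i
  have h2 := pv_gen (T.valid h hk) j
  have h3 := LP.ev_div _ h1.1 ⟨h2.1, by rw [h2.2]; exact div_ne_zero hj hk⟩
  rwa [h1.2, h2.2, div_div_div_cancel_right₀ (T.f_ne h hk), div_div_div_cancel_right₀ hk] at h3

/-- the local ring computed in any chart -/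
theorem Model.loc_eq (T : Model L) {ξ : ℙ ℂ (T.ι → ℂ)} (h : ξ ∈ T.Pt) {j : T.ι}
    (hj : ξ.rep j ≠ 0) : T.loc ξ = pv (fun i => T.f i / T.f j) fun i => ξ.rep i / ξ.rep j := by
  exact LP.ext' (mod_chart T h (nz_spec ξ) hj) (mod_chart T h hj (nz_spec ξ))

theorem Model.ctr_mk (T : Model L) {x : LP L} {l : L} (hl : ∀ i, l * T.f i ∈ x.O)
    (h : (fun i => x.ev (l * T.f i)) ≠ 0) :
    T.Ctr x (Projectivization.mk ℂ (fun i => x.ev (l * T.f i)) h) := by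
  obtain ⟨a, ha⟩ := Projectivization.exists_smul_eq_mk_rep ℂ _ h
  refine ⟨(a : ℂ) • l, fun i => ?_, fun i => ?_⟩
  · rw [smul_mul_assoc]
    exact x.O.smul_mem (hl i) _
  · rw [← ha, smul_mul_assoc, x.hom.smul _ (hl i)]
    rfl

theorem Model.Ctr.eq_mk {T : Model L} {x : LP L} {ξ : ℙ ℂ (T.ι → ℂ)} (hξ : T.Ctr x ξ) {l : L}
    (hl : ∀ i, l * T.f i ∈ x.O) (h : (fun i => x.ev (l * T.f i)) ≠ 0) :
    ξ = Projectivization.mk ℂ (fun i => x.ev (l * T.f i)) h := by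
  obtain ⟨l0, h0, h1⟩ := hξ
  have hu : x.U (l0 * T.f (nz ξ)) := ⟨h0 _, by rw [← h1]; exact nz_spec ξ⟩
  have h2 := (x.ev_div (hl (nz ξ)) hu).1
  rw [mul_div_mul_right _ _ (right_ne_zero_of_mul hu.ne)] at h2
  have h3 : l0 ≠ 0 := left_ne_zero_of_mul hu.ne
  rw [← ξ.mk_rep, eq_comm, Projectivization.mk_eq_mk_iff']
  refine ⟨x.ev (l / l0), funext fun i => ?_⟩
  rw [Pi.smul_apply, smul_eq_mul, h1, ← x.hom.mul _ h2 _ (h0 i), ← mul_assoc,
    div_mul_cancel₀ _ h3]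

theorem Model.Ctr.unique {T : Model L} {x : LP L} {ξ η : ℙ ℂ (T.ι → ℂ)} (h : T.Ctr x ξ)
    (h' : T.Ctr x η) : ξ = η := by
  obtain ⟨l, hl, e⟩ := id h'
  have h0 : (fun i => x.ev (l * T.f i)) ≠ 0 := by
    rw [← funext e]
    exact η.rep_nonzero
  exact (h.eq_mk hl h0).trans (h'.eq_mk hl h0).symm

theorem Model.Ctr.mem {T : Model L} {x : LP L} {ξ : ℙ ℂ (T.ι → ℂ)} (h : T.Ctr x ξ) : ξ ∈ T.Pt := by
  obtain ⟨l, hl, e⟩ := h
  intro F d hF h0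
  have h1 := (x.hom.mvaeval hl F).2
  rw [mod_scale hF, h0, mul_zero, x.hom.zero, ← funext e] at h1
  exact h1.symm

theorem Model.Ctr.reg {T : Model L} {x : LP L} {ξ : ℙ ℂ (T.ι → ℂ)} (h : T.Ctr x ξ) : T.Reg x := by
  obtain ⟨l, hl, e⟩ := h
  exact ⟨l, hl, nz ξ, by rw [← e]; exact nz_spec ξ⟩

theorem Model.Reg.ctr {T : Model L} {x : LP L} (h : T.Reg x) : ∃ ξ, T.Ctr x ξ := by
  obtain ⟨l, hl, i, hi⟩ := h
  exact ⟨_, T.ctr_mk hl (Function.ne_iff.2 ⟨i, hi⟩)⟩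

theorem Model.Ctr.mono {T : Model L} {x y : LP L} {ξ : ℙ ℂ (T.ι → ℂ)} (h : T.Ctr x ξ)
    (hy : x.Le y) : T.Ctr y ξ := by
  obtain ⟨l, hl, e⟩ := h
  exact ⟨l, fun i => (hy _ (hl i)).1, fun i => by rw [(hy _ (hl i)).2, e]⟩

theorem Model.Reg.mono {T : Model L} {x y : LP L} (h : T.Reg x) (hy : x.Le y) : T.Reg y := by
  obtain ⟨ξ, hξ⟩ := h.ctr
  exact (hξ.mono hy).reg

theorem Model.Ctr.ratio {T : Model L} {x : LP L} {ξ : ℙ ℂ (T.ι → ℂ)} (h : T.Ctr x ξ) {j : T.ι}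
    (hj : ξ.rep j ≠ 0) (i : T.ι) :
    T.f i / T.f j ∈ x.O ∧ x.ev (T.f i / T.f j) = ξ.rep i / ξ.rep j := by
  obtain ⟨l, hl, e⟩ := h
  have hu : x.U (l * T.f j) := ⟨hl _, by rw [← e]; exact hj⟩
  have h2 := x.ev_div (hl i) hu
  rwa [mul_div_mul_left _ _ (left_ne_zero_of_mul hu.ne), ← e, ← e] at h2

theorem Model.reg_iff (T : Model L) (x : LP L) :
    T.Reg x ↔ ∃ j, T.f j ≠ 0 ∧ ∀ i, T.f i / T.f j ∈ x.O := by
  constructor
  · intro h
    obtain ⟨ξ, hξ⟩ := h.ctr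
    exact ⟨nz ξ, T.f_ne hξ.mem (nz_spec ξ), fun i => (hξ.ratio (nz_spec ξ) i).1⟩
  · rintro ⟨j, hj, h⟩
    refine ⟨(T.f j)⁻¹, fun i => by rw [inv_mul_eq_div]; exact h i, j, ?_⟩
    rw [inv_mul_cancel₀ hj, x.hom.one]
    exact one_ne_zero

theorem Model.ctr_loc (T : Model L) {ξ : ℙ ℂ (T.ι → ℂ)} (h : ξ ∈ T.Pt) : T.Ctr (T.loc ξ) ξ := by
  have g := pv_gen (T.valid h (nz_spec ξ))
  refine ⟨ξ.rep (nz ξ) • (T.f (nz ξ))⁻¹, fun i => ?_, fun i => ?_⟩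
  · rw [smul_mul_assoc, inv_mul_eq_div]
    exact (T.loc ξ).O.smul_mem (g i).1 _
  · have e : (T.loc ξ).ev (T.f i / T.f (nz ξ)) = ξ.rep i / ξ.rep (nz ξ) := (g i).2
    rw [smul_mul_assoc, inv_mul_eq_div, (T.loc ξ).hom.smul _ (g i).1, e,
      mul_div_cancel₀ _ (nz_spec ξ)]

theorem Model.Ctr.loc_le {T : Model L} {x : LP L} {ξ : ℙ ℂ (T.ι → ℂ)} (h : T.Ctr x ξ) :
    (T.loc ξ).Le x := by
  exact (pv_le (h.ratio (nz_spec ξ))).2

theorem Model.loc_noeth (T : Model L) {ξ : ℙ ℂ (T.ι → ℂ)} (h : ξ ∈ T.Pt) :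
    IsNoetherianRing (T.loc ξ).O := by
  exact pv_noeth (T.valid h (nz_spec ξ))

theorem Model.loc_sub (T : Model L) {M : IntermediateField ℂ L} (hM : T.In M)
    {ξ : ℙ ℂ (T.ι → ℂ)} (h : ξ ∈ T.Pt) : ∀ a ∈ (T.loc ξ).O, a ∈ M := by
  exact pv_sub (T.valid h (nz_spec ξ)) fun i => hM i _

theorem Model.nonempty (T : Model L) : T.Pt.Nonempty := by
  obtain ⟨y, -, hy⟩ := exists_reg (mkLP ⊥ fun _ => 0) T
  obtain ⟨ξ, hξ⟩ := hy.ctr
  exact ⟨ξ, hξ.mem⟩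

theorem Model.Dom.ctr {T S : Model L} (h : T.Dom S) {x : LP L} {ξ : ℙ ℂ (T.ι → ℂ)}
    (hx : T.Ctr x ξ) : S.Ctr x (T.dm S ξ) := by
  have h1 := (h ξ hx.mem).ctr
  rw [Model.dm, dif_pos h1]
  exact h1.choose_spec.mono hx.loc_le

theorem Model.Dom.mem {T S : Model L} (h : T.Dom S) {ξ : ℙ ℂ (T.ι → ℂ)} (hξ : ξ ∈ T.Pt) :
    T.dm S ξ ∈ S.Pt := by
  exact (h.ctr (T.ctr_loc hξ)).mem

theorem Model.Dom.loc_le {T S : Model L} (h : T.Dom S) {ξ : ℙ ℂ (T.ι → ℂ)} (hξ : ξ ∈ T.Pt) :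
    (S.loc (T.dm S ξ)).Le (T.loc ξ) := by
  exact (h.ctr (T.ctr_loc hξ)).loc_le

theorem Model.Dom.reg {T S : Model L} (h : T.Dom S) {x : LP L} (hx : T.Reg x) : S.Reg x := by
  obtain ⟨ξ, hξ⟩ := hx.ctr
  exact (h.ctr hξ).reg

theorem Model.Dom.refl (T : Model L) : T.Dom T := by
  exact fun ξ hξ => (T.ctr_loc hξ).reg

theorem Model.dm_self (T : Model L) {ξ : ℙ ℂ (T.ι → ℂ)} (hξ : ξ ∈ T.Pt) : T.dm T ξ = ξ := by
  exact ((Model.Dom.refl T).ctr (T.ctr_loc hξ)).unique (T.ctr_loc hξ)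

theorem Model.Dom.trans {T S R : Model L} (h : T.Dom S) (h' : S.Dom R) : T.Dom R := by
  exact fun ξ hξ => h'.reg (h ξ hξ)

theorem Model.dm_trans {T S R : Model L} (h : T.Dom S) (h' : S.Dom R) {ξ : ℙ ℂ (T.ι → ℂ)}
    (hξ : ξ ∈ T.Pt) : S.dm R (T.dm S ξ) = T.dm R ξ := by
  exact (h'.ctr (h.ctr (T.ctr_loc hξ))).unique ((h.trans h').ctr (T.ctr_loc hξ))

theorem Model.Dom.surj {T S : Model L} (h : T.Dom S) {η : ℙ ℂ (S.ι → ℂ)} (hη : η ∈ S.Pt) :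
    ∃ ξ ∈ T.Pt, T.dm S ξ = η := by
  obtain ⟨y, hy, hr⟩ := exists_reg (S.loc η) T
  obtain ⟨ξ, hξ⟩ := hr.ctr
  exact ⟨ξ, hξ.mem, (h.ctr hξ).unique ((S.ctr_loc hη).mono hy)⟩

theorem Model.Tr2.dom {T S : Model L} (h : T.Dom S) (hS : S.Tr2) : T.Tr2 := by
  obtain ⟨u, v, hi, hf⟩ := hS
  exact ⟨u, v, hi, fun ξ hξ => ⟨(hf _ (h.mem hξ)).1.mono (h.loc_le hξ),
    (hf _ (h.mem hξ)).2.mono (h.loc_le hξ)⟩⟩

theorem Model.reg_seg (T S : Model L) (x : LP L) : (T.seg S).Reg x ↔ T.Reg x ∧ S.Reg x := by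
  constructor
  · rintro ⟨l, hl, p, hp⟩
    have e1 : ∀ i, l * S.f p.2 * T.f i = l * (T.seg S).f (i, p.2) := fun i => by
      change _ = l * (T.f i * S.f p.2)
      ring
    have e2 : ∀ i, l * T.f p.1 * S.f i = l * (T.seg S).f (p.1, i) := fun i => mul_assoc _ _ _
    exact ⟨⟨l * S.f p.2, fun i => by rw [e1]; exact hl _, p.1, by rw [e1]; exact hp⟩,
      ⟨l * T.f p.1, fun i => by rw [e2]; exact hl _, p.2, by rw [e2]; exact hp⟩⟩
  · rintro ⟨⟨l, hl, i, hi⟩, ⟨l', hl', k, hk⟩⟩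
    have e : ∀ p : (T.seg S).ι, l * l' * (T.seg S).f p = l * T.f p.1 * (l' * S.f p.2) := fun p =>
      mul_mul_mul_comm _ _ _ _
    refine ⟨l * l', fun p => by rw [e]; exact x.O.mul_mem (hl _) (hl' _), (i, k), ?_⟩
    rw [e (i, k), x.hom.mul _ (hl _) _ (hl' _)]
    exact mul_ne_zero hi hk

theorem Model.seg_dom_left (T S : Model L) : (T.seg S).Dom T := by
  exact fun ξ hξ => ((T.reg_seg S _).1 ((T.seg S).ctr_loc hξ).reg).1

theorem Model.seg_dom_right (T S : Model L) : (T.seg S).Dom S := by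
  exact fun ξ hξ => ((T.reg_seg S _).1 ((T.seg S).ctr_loc hξ).reg).2

omit [Algebra ℂ L] in
theorem mod_seg_ne (T S : Model L) (ξ : ℙ ℂ (T.ι → ℂ)) (η : ℙ ℂ (S.ι → ℂ)) :
    (fun p : (T.seg S).ι => ξ.rep p.1 * η.rep p.2) ≠ 0 :=
  Function.ne_iff.2 ⟨(nz ξ, nz η), mul_ne_zero (nz_spec ξ) (nz_spec η)⟩

theorem mod_seg_ctr {T S : Model L} {y : LP L} {ξ : ℙ ℂ (T.ι → ℂ)} {η : ℙ ℂ (S.ι → ℂ)}
    (h : T.Ctr y ξ) (h' : S.Ctr y η) :
    (T.seg S).Ctr y (Projectivization.mk ℂ _ (mod_seg_ne T S ξ η)) := by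
  obtain ⟨l, hl, e⟩ := h
  obtain ⟨l', hl', e'⟩ := h'
  have e1 : ∀ p : (T.seg S).ι, l * l' * (T.seg S).f p = l * T.f p.1 * (l' * S.f p.2) := fun p =>
    mul_mul_mul_comm _ _ _ _
  have e2 : (fun p : (T.seg S).ι => ξ.rep p.1 * η.rep p.2) =
      fun p => y.ev (l * l' * (T.seg S).f p) := funext fun p => by
    rw [e1, y.hom.mul _ (hl _) _ (hl' _), e, e']
  have h3 := (T.seg S).ctr_mk (x := y) (l := l * l')
    (fun p => by rw [e1]; exact y.O.mul_mem (hl _) (hl' _)) (e2 ▸ mod_seg_ne T S ξ η)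
  simpa only [e2] using h3

theorem mod_seg_eq (T S : Model L) {a : ℙ ℂ ((T.seg S).ι → ℂ)} (ha : a ∈ (T.seg S).Pt) :
    a = Projectivization.mk ℂ _ (mod_seg_ne T S ((T.seg S).dm T a) ((T.seg S).dm S a)) :=
  ((T.seg S).ctr_loc ha).unique (mod_seg_ctr ((T.seg_dom_left S).ctr ((T.seg S).ctr_loc ha))
    ((T.seg_dom_right S).ctr ((T.seg S).ctr_loc ha)))

theorem Model.seg_ext (T S : Model L) {a b : ℙ ℂ ((T.seg S).ι → ℂ)} (ha : a ∈ (T.seg S).Pt)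
    (hb : b ∈ (T.seg S).Pt) (h1 : (T.seg S).dm T a = (T.seg S).dm T b)
    (h2 : (T.seg S).dm S a = (T.seg S).dm S b) : a = b := by
  rw [mod_seg_eq T S ha, mod_seg_eq T S hb]
  simp only [h1, h2]

/-- the local ring of the join is the smallest one dominating both local rings -/
theorem Model.seg_loc_le (T S : Model L) {a : ℙ ℂ ((T.seg S).ι → ℂ)} (ha : a ∈ (T.seg S).Pt)
    {y : LP L} (h1 : (T.loc ((T.seg S).dm T a)).Le y) (h2 : (S.loc ((T.seg S).dm S a)).Le y) :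
    ((T.seg S).loc a).Le y := by
  have h3 := mod_seg_ctr ((T.ctr_loc ((T.seg_dom_left S).mem ha)).mono h1)
    ((S.ctr_loc ((T.seg_dom_right S).mem ha)).mono h2)
  rw [← mod_seg_eq T S ha] at h3
  exact h3.loc_le

/-- generators of the maximal ideal of the join -/
theorem Model.seg_m (T S : Model L) {a : ℙ ℂ ((T.seg S).ι → ℂ)} (ha : a ∈ (T.seg S).Pt)
    (I : Ideal ((T.seg S).loc a).O)
    (h1 : ∀ b : ((T.seg S).loc a).O, (T.loc ((T.seg S).dm T a)).m b → b ∈ I)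
    (h2 : ∀ b : ((T.seg S).loc a).O, (S.loc ((T.seg S).dm S a)).m b → b ∈ I) :
    ∀ b : ((T.seg S).loc a).O, ((T.seg S).loc a).ev b = 0 → b ∈ I := by
  intro b hb
  have hc := (T.seg S).ctr_loc ha
  have cT := (T.seg_dom_left S).ctr hc
  have cS := (T.seg_dom_right S).ctr hc
  have hn : ((T.seg S).dm T a).rep (nz a).1 * ((T.seg S).dm S a).rep (nz a).2 ≠ 0 := by
    obtain ⟨s, hs⟩ := Projectivization.exists_smul_eq_mk_rep ℂ _
      (mod_seg_ne T S ((T.seg S).dm T a) ((T.seg S).dm S a))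
    rw [← mod_seg_eq T S ha] at hs
    have h3 := nz_spec a
    rw [← congrFun hs (nz a)] at h3
    exact right_ne_zero_of_mul h3
  have n1 := left_ne_zero_of_mul hn
  have n2 := right_ne_zero_of_mul hn
  obtain ⟨α, hα, e⟩ := pv_m ((T.seg S).valid ha (nz_spec a)) (a := b) ⟨b.2, hb⟩
  have key : ∀ p : (T.seg S).ι, ∃ c ∈ I, (c : L) = α p * ((T.seg S).f p / (T.seg S).f (nz a) -
      algebraMap ℂ L (a.rep p / a.rep (nz a))) := fun p => by
    have r1 := cT.ratio n1 p.1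
    have r2 := cS.ratio n2 p.2
    have t1 := (T.ctr_loc cT.mem).ratio n1 p.1
    have t2 := (S.ctr_loc cS.mem).ratio n2 p.2
    have m1 := LP.m_sub_ev _ t1.1
    have m2 := LP.m_sub_ev _ t2.1
    rw [t1.2, ← r1.2] at m1
    rw [t2.2, ← r2.2] at m2
    have e1 : (T.seg S).f p / (T.seg S).f (nz a) =
        T.f p.1 / T.f (nz a).1 * (S.f p.2 / S.f (nz a).2) := mul_div_mul_comm _ _ _ _
    have e2 := (hc.ratio (nz_spec a) p).2
    rw [e1, ((T.seg S).loc a).hom.mul _ r1.1 _ r2.1] at e2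
    have i1 := h1 ⟨_, ((T.seg S).loc a).O.sub_mem r1.1 (Subalgebra.algebraMap_mem _ _)⟩ m1
    have i2 := h2 ⟨_, ((T.seg S).loc a).O.sub_mem r2.1 (Subalgebra.algebraMap_mem _ _)⟩ m2
    refine ⟨_, I.mul_mem_left ⟨α p, hα p⟩ (I.add_mem (I.mul_mem_left ⟨_, r2.1⟩ i1)
      (I.mul_mem_left (algebraMap ℂ _ (((T.seg S).loc a).ev (T.f p.1 / T.f (nz a).1))) i2)), ?_⟩
    rw [e1, ← e2, map_mul]
    simp only [Subalgebra.coe_mul, Subalgebra.coe_add, Subalgebra.coe_algebraMap]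
    ring
  choose c hcI hce using key
  have e3 : b = ∑ p, c p := Subtype.ext (by
    rw [e, AddSubmonoidClass.coe_finsetSum]
    exact Finset.sum_congr rfl fun p _ => (hce p).symm)
  rw [e3]
  exact I.sum_mem fun p _ => hcI p

theorem Model.In.seg {T S : Model L} {M : IntermediateField ℂ L} (h : T.In M) (h' : S.In M) :
    (T.seg S).In M := by
  intro p q
  have e : (T.seg S).f p / (T.seg S).f q = T.f p.1 / T.f q.1 * (S.f p.2 / S.f q.2) :=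
    mul_div_mul_comm _ _ _ _
  rw [e]
  exact M.mul_mem (h _ _) (h' _ _)

theorem Model.In.mono {T : Model L} {M M' : IntermediateField ℂ L} (h : T.In M) (h' : M ≤ M') :
    T.In M' := fun i j => h' (h i j)

/-- if `S` is regular at a point of `T` dominated by `T'`-points, the fibre is a single point -/
theorem Model.Dom.loc_eq {T S : Model L} (h : T.Dom S) {ξ : ℙ ℂ (T.ι → ℂ)} (hξ : ξ ∈ T.Pt)
    (hr : T.Reg (S.loc (T.dm S ξ))) :
    T.loc ξ = S.loc (T.dm S ξ) ∧ ∀ ξ' ∈ T.Pt, T.dm S ξ' = T.dm S ξ → ξ' = ξ := by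
  obtain ⟨ξ₀, h0⟩ := hr.ctr
  have h1 : ∀ ξ' ∈ T.Pt, T.dm S ξ' = T.dm S ξ → ξ' = ξ₀ := fun ξ' h' e =>
    (T.ctr_loc h').unique (h0.mono (e ▸ h.loc_le h'))
  have h2 := h1 ξ hξ rfl
  refine ⟨LP.ext' ?_ (h.loc_le hξ), fun ξ' h' e => (h1 ξ' h' e).trans h2.symm⟩
  rw [← h2] at h0
  exact h0.loc_le

end Vale.Agent.P300
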