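import Vale.Agent.P300.Ext

/-! Regular local rings. `prime`: in the Noetherian local ring `O / u` the maximal ideal is `(v)`,
every nonzero element is `v ^ n` times a unit (Krull), and `v` is not nilpotent. `expand`:
induction using `Gen2`. `rigid`: `g a - a ∈ (u ^ N, v ^ N)` for all `N`. `cl_rg`: `ℂ[u, v]` is a
polynomial ring (UFD, integrally closed), localisation. -/

open scoped LinearAlgebra.Projectivization Topology Classical Pointwise
open Polynomial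

namespace Vale.Agent.P300

variable {L : Type} [Field L] [Algebra ℂ L]

theorem rg1_int {A K : Type} [CommRing A] [IsDomain A] [IsIntegrallyClosed A] [Field K]
    [Algebra A K] (hi : Function.Injective (algebraMap A K)) (p q : A)
    (h : IsIntegral A (algebraMap A K p / algebraMap A K q)) :
    ∃ r, algebraMap A K r = algebraMap A K p / algebraMap A K q := by
  let f : FractionRing A →ₐ[A] K := IsFractionRing.liftAlgHom (g := Algebra.ofId A K) hi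
  have e : f (algebraMap A _ p / algebraMap A _ q) = algebraMap A K p / algebraMap A K q := by
    rw [map_div₀, f.commutes, f.commutes]
  rw [← e, isIntegral_algHom_iff f f.injective, IsIntegrallyClosed.isIntegral_iff] at h
  obtain ⟨r, hr⟩ := h
  exact ⟨r, by rw [← e, ← hr, f.commutes]⟩

theorem rg1_valid {ι : Type} {g : ι → L} (h : AlgebraicIndependent ℂ g) (c : ι → ℂ) :
    Valid g c := fun P hP => by
  rw [algebraicIndependent_iff.1 h P hP, map_zero]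

theorem rg1_nd {ι : Type} {g : ι → L} (h : AlgebraicIndependent ℂ g) {i j : ι} (hij : j ≠ i)
    (n : ℕ) : ¬ (pv g 0).Dvd (g i) (g j ^ n) := by
  rintro ⟨c, hc, e⟩
  obtain ⟨P, Q, h1, h2⟩ := (mem_pv (rg1_valid h 0)).1 hc
  have h3 : MvPolynomial.X j ^ n * Q = MvPolynomial.X i * P := by
    apply h
    simp only [map_mul, map_pow, MvPolynomial.aeval_X]
    rw [e, ← h2, mul_assoc]
  let φ : MvPolynomial ι ℂ →ₐ[ℂ] ℂ[X] := MvPolynomial.aeval fun k => if k = i then 0 else X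
  have h4 := congrArg φ h3
  simp only [φ, map_mul, map_pow, MvPolynomial.aeval_X, if_true, if_neg hij, zero_mul] at h4
  have h5 := (mul_eq_zero.1 h4).resolve_left (pow_ne_zero _ X_ne_zero)
  have h6 : (aeval (0 : ℂ)).comp φ = MvPolynomial.aeval (0 : ι → ℂ) := by
    refine MvPolynomial.algHom_ext fun k => ?_
    by_cases hk : k = i <;> simp [φ, hk]
  have h7 := AlgHom.congr_fun h6 Q
  rw [AlgHom.comp_apply, h5, map_zero] at h7
  exact h1 h7.symm

theorem rg1_normal {ι : Type} [Finite ι] {g : ι → L} (h : AlgebraicIndependent ℂ g) (c : ι → ℂ)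
    {a : L} (ha : a ∈ IntermediateField.adjoin ℂ (Set.range g)) (hi : IsIntegral (pv g c).O a) :
    a ∈ (pv g c).O := by
  have hv := rg1_valid h c
  let _ : Algebra (MvPolynomial ι ℂ) L := (MvPolynomial.aeval g).toRingHom.toAlgebra
  let _ : Algebra (MvPolynomial ι ℂ) (pv g c).O :=
    ((MvPolynomial.aeval g).codRestrict (pv g c).O fun P => (pv_aeval hv P).1).toRingHom.toAlgebra
  have : IsScalarTower (MvPolynomial ι ℂ) (pv g c).O L :=
    IsScalarTower.of_algebraMap_eq fun _ => rfl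
  let S : Submonoid (MvPolynomial ι ℂ) := (nonZeroDivisors ℂ).comap (MvPolynomial.eval c)
  have : IsLocalization S (pv g c).O := by
    refine (isLocalization_iff _ _).2 ⟨fun s => ?_, fun z => ?_, fun {b d} e => ⟨1, ?_⟩⟩
    · refine (LP.isUnit_iff _ _).2 ?_
      change (pv g c).ev (MvPolynomial.aeval g s.1) ≠ 0
      rw [(pv_aeval hv _).2]
      exact nonZeroDivisors.ne_zero s.2
    · obtain ⟨P, Q, h1, h2⟩ := (mem_pv hv).1 z.2
      exact ⟨(P, ⟨Q, mem_nonZeroDivisors_of_ne_zero h1⟩), Subtype.ext h2⟩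
    · have e' : MvPolynomial.aeval g b = MvPolynomial.aeval g d :=
        congrArg (fun z : (pv g c).O => (z : L)) e
      rw [h e']
  obtain ⟨s, hs⟩ := IsIntegral.exists_multiple_integral_of_isLocalization S a hi
  obtain ⟨p, q, rfl⟩ := (IntermediateField.mem_adjoin_range_iff ℂ g a).1 ha
  have e : s • (MvPolynomial.aeval g p / MvPolynomial.aeval g q) =
      algebraMap (MvPolynomial ι ℂ) L (s.1 * p) / algebraMap (MvPolynomial ι ℂ) L q := by
    rw [map_mul, mul_div_assoc]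
    rfl
  rw [e] at hs
  obtain ⟨r, hr⟩ := rg1_int (A := MvPolynomial ι ℂ) h _ _ hs
  refine (mem_pv hv).2 ⟨r, s.1, nonZeroDivisors.ne_zero s.2, ?_⟩
  rw [← e] at hr
  exact (mul_comm _ _).trans hr.symm

theorem cl_rg {u v : L} (h : AlgebraicIndependent ℂ ![u, v]) :
    (cl u v).Rg u v (IntermediateField.adjoin ℂ {u, v}) := by
  have hv := rg1_valid h 0
  have e : ({u, v} : Set L) = Set.range ![u, v] := by
    rw [Matrix.range_cons_cons_empty]
  rw [e]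
  refine ⟨pv_noeth hv, ⟨pv_gen hv 0, pv_gen hv 1, fun a ha => ?_⟩,
    rg1_nd h (i := 0) (j := 1) (by decide), rg1_nd h (i := 1) (j := 0) (by decide),
    pv_sub hv fun i => IntermediateField.subset_adjoin _ _ ⟨i, rfl⟩, fun a ha => ?_,
    fun a ha hi => rg1_normal h 0 ha hi⟩
  · obtain ⟨α, h1, h2⟩ := pv_m hv ha
    exact ⟨α 0, h1 0, α 1, h1 1, by simpa [Fin.sum_univ_two] using h2⟩
  · obtain ⟨p, q, rfl⟩ := (IntermediateField.mem_adjoin_range_iff ℂ _ a).1 ha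
    by_cases hq : MvPolynomial.aeval ![u, v] q = 0
    · exact ⟨0, zero_mem _, 1, one_mem _, one_ne_zero, by rw [hq, div_zero, zero_mul]⟩
    · exact ⟨_, (pv_aeval hv p).1, _, (pv_aeval hv q).1, hq, div_mul_cancel₀ _ hq⟩

theorem rg1_krull {x : LP L} (hN : IsNoetherianRing x.O) {u w a : L} (hu : u ∈ x.O) (hw : x.m w)
    (ha : a ∈ x.O) (h : ∀ n : ℕ, ∃ α ∈ x.O, ∃ β ∈ x.O, a = α * u + β * w ^ n) : x.Dvd u a := by
  have h1 := x.krull_mod hN (Ideal.span {⟨u, hu⟩}) (a := ⟨a, ha⟩) fun n => by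
    obtain ⟨α, hα, β, hβ, e⟩ := h n
    have e' : (⟨a, ha⟩ : x.O) = ⟨α, hα⟩ * ⟨u, hu⟩ + ⟨β, hβ⟩ * ⟨w, hw.1⟩ ^ n := Subtype.ext e
    rw [e']
    exact Submodule.add_mem_sup (Ideal.mul_mem_left _ _ (Ideal.mem_span_singleton_self _))
      (Ideal.mul_mem_left _ _ (Ideal.pow_mem_pow ((x.mem_max _).2 hw.2) n))
  obtain ⟨c, hc⟩ := Ideal.mem_span_singleton.1 h1
  exact ⟨c, c.2, congrArg Subtype.val hc⟩

theorem rg1_krull2 {x : LP L} (hN : IsNoetherianRing x.O) {u w a : L} (hu : x.m u) (hw : x.m w)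
    (ha : a ∈ x.O) (h : ∀ n : ℕ, ∃ α ∈ x.O, ∃ β ∈ x.O, a = α * u ^ n + β * w ^ n) : a = 0 := by
  have h1 := x.krull hN (a := ⟨a, ha⟩) fun n => by
    obtain ⟨α, hα, β, hβ, e⟩ := h n
    have e' : (⟨a, ha⟩ : x.O) = ⟨α, hα⟩ * ⟨u, hu.1⟩ ^ n + ⟨β, hβ⟩ * ⟨w, hw.1⟩ ^ n := Subtype.ext e
    rw [e']
    exact Ideal.add_mem _ (Ideal.mul_mem_left _ _ (Ideal.pow_mem_pow ((x.mem_max _).2 hu.2) n))
      (Ideal.mul_mem_left _ _ (Ideal.pow_mem_pow ((x.mem_max _).2 hw.2) n))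
  exact congrArg Subtype.val h1

theorem rg1_zero {x : LP L} (hN : IsNoetherianRing x.O) {w a : L}
    (hw : x.m w) (ha : ∀ n : ℕ, x.Dvd (w ^ n) a) : a = 0 := by
  obtain ⟨c, hc, e⟩ := ha 0
  refine rg1_krull2 hN hw hw (by rw [e, pow_zero, one_mul]; exact hc) fun n => ?_
  obtain ⟨d, hd, e'⟩ := ha n
  exact ⟨d, hd, 0, zero_mem _, by rw [e']; ring⟩

theorem rg1_unit {x : LP L} {u v : L} {F : IntermediateField ℂ L} (h : x.Rg u v F) {ε : L}
    (hε : x.U ε) (n : ℕ) : ¬ x.Dvd u (ε * v ^ n) := by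
  rintro ⟨c, hc, e⟩
  refine h.nu n ⟨ε⁻¹ * c, mul_mem (x.ev_inv hε).1.1 hc, ?_⟩
  rw [mul_left_comm, ← e, inv_mul_cancel_left₀ hε.ne]

theorem LP.Rg.swap {x : LP L} {u v : L} {F : IntermediateField ℂ L} (h : x.Rg u v F) : x.Rg v u F :=
  ⟨h.noeth, ⟨h.gen.2.1, h.gen.1, fun a ha => by
    obtain ⟨α, hα, β, hβ, e⟩ := h.gen.2.2 a ha
    exact ⟨β, hβ, α, hα, e.trans (add_comm _ _)⟩⟩, h.nv, h.nu, h.sub, h.fr, h.normal⟩

theorem LP.Rg.ne {x : LP L} {u v : L} {F : IntermediateField ℂ L} (h : x.Rg u v F) : u ≠ 0 :=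
  fun e => h.nv 1 ⟨0, zero_mem _, by rw [e, pow_one, mul_zero]⟩

theorem LP.Rg.dvr {x : LP L} {u v : L} {F : IntermediateField ℂ L} (h : x.Rg u v F) {a : L}
    (ha : a ∈ x.O) (hu : ¬ x.Dvd u a) : ∃ (n : ℕ) (ε : L), x.U ε ∧ x.Dvd u (a - ε * v ^ n) := by
  by_contra hn
  refine hu (rg1_krull h.noeth h.gen.1.1 h.gen.2.1 ha fun n => ?_)
  induction n with
  | zero => exact ⟨0, zero_mem _, a, ha, by ring⟩
  | succ n ih =>
    obtain ⟨α, hα, β, hβ, e⟩ := ih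
    have h1 : x.ev β = 0 := by
      by_contra h2
      exact hn ⟨n, β, ⟨hβ, h2⟩, α, hα, by rw [e]; ring⟩
    obtain ⟨γ, hγ, δ, hδ, e'⟩ := h.gen.2.2 β ⟨hβ, h1⟩
    exact ⟨α + γ * v ^ n, add_mem hα (mul_mem hγ (pow_mem h.gen.2.1.1 n)), δ, hδ,
      by rw [e, e']; ring⟩

theorem LP.Rg.prime {x : LP L} {u v : L} {F : IntermediateField ℂ L} (h : x.Rg u v F) {a b : L}
    (ha : a ∈ x.O) (hb : b ∈ x.O) (hab : x.Dvd u (a * b)) : x.Dvd u a ∨ x.Dvd u b := by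
  by_contra hn
  obtain ⟨n, ε, hε, c, hc, e⟩ := h.dvr ha fun q => hn (Or.inl q)
  obtain ⟨m, η, hη, d, hd, e'⟩ := h.dvr hb fun q => hn (Or.inr q)
  obtain ⟨r, hr, e''⟩ := hab
  refine rg1_unit h (hε.mul hη) (n + m) ⟨r - c * b - d * a + u * c * d,
    add_mem (sub_mem (sub_mem hr (mul_mem hc hb)) (mul_mem hd ha))
      (mul_mem (mul_mem h.gen.1.1 hc) hd), ?_⟩
  have e1 : ε * v ^ n = a - u * c := by linear_combination -e
  have e2 : η * v ^ m = b - u * d := by linear_combination -e'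
  calc ε * η * v ^ (n + m) = (ε * v ^ n) * (η * v ^ m) := by ring
    _ = _ := by rw [e1, e2]; linear_combination e''

theorem LP.Rg.ord {x : LP L} {u v : L} {F : IntermediateField ℂ L} (h : x.Rg u v F) {a : L}
    (ha : a ∈ x.O) (h0 : a ≠ 0) : ∃ (n : ℕ) (b : L), b ∈ x.O ∧ ¬ x.Dvd u b ∧ a = u ^ n * b := by
  by_contra hn
  refine h0 (rg1_zero h.noeth h.gen.1 fun n => ?_)
  induction n with
  | zero => exact ⟨a, ha, by ring⟩
  | succ n ih =>
    obtain ⟨b, hb, e⟩ := ih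
    obtain ⟨c, hc, e'⟩ : x.Dvd u b := by
      by_contra q
      exact hn ⟨n, b, hb, q, e⟩
    exact ⟨c, hc, by rw [e, e']; ring⟩

theorem LP.Rg.inter {x : LP L} {u v : L} {F : IntermediateField ℂ L} (h : x.Rg u v F) {a : L}
    (hu : x.Dvd u a) (hv : x.Dvd v a) : x.Dvd (u * v) a := by
  obtain ⟨c, hc, rfl⟩ := hu
  obtain ⟨d, hd, rfl⟩ := (h.swap.prime h.gen.1.1 hc hv).resolve_left (pow_one u ▸ h.nv 1)
  exact ⟨d, hd, by ring⟩

theorem rg1_cancel {x : LP L} {u v : L} {F : IntermediateField ℂ L} (h : x.Rg u v F) {e w : L}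
    (he : e ∈ x.O) (hu : ¬ x.Dvd u e) (hw : w ∈ x.O) (p : ℕ) (hd : x.Dvd e (u ^ p * w)) :
    x.Dvd e w := by
  induction p with
  | zero => simpa using hd
  | succ p ih =>
    obtain ⟨c, hc, q⟩ := hd
    obtain ⟨d, hd, rfl⟩ := (h.prime he hc ⟨u ^ p * w, mul_mem (pow_mem h.gen.1.1 p) hw,
      by rw [← q]; ring⟩).resolve_left hu
    exact ih ⟨d, hd, mul_left_cancel₀ h.ne (by linear_combination q)⟩

theorem rg1_le {x : LP L} {u v : L} {F : IntermediateField ℂ L} (h : x.Rg u v F) {ε c : L}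
    (hε : x.U ε) (hc : c ∈ x.O) {n i j : ℕ} (e : ε * u ^ i * v ^ j = u ^ n * c) : n ≤ i := by
  by_contra hn
  obtain ⟨k, rfl⟩ := Nat.exists_eq_add_of_lt (not_le.1 hn)
  refine rg1_unit h hε j ⟨u ^ k * c, mul_mem (pow_mem h.gen.1.1 k) hc, ?_⟩
  exact mul_left_cancel₀ (pow_ne_zero i h.ne) (by linear_combination e)

theorem LP.Rg.factor {x : LP L} {u v : L} {F : IntermediateField ℂ L} (h : x.Rg u v F) {a : L}
    (ha : a ∈ x.O) {i j : ℕ} (hd : x.Dvd a (u ^ i * v ^ j)) :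
    ∃ (i' j' : ℕ) (ε : L), i' ≤ i ∧ j' ≤ j ∧ x.U ε ∧ a = ε * u ^ i' * v ^ j' := by
  obtain ⟨c, hc, q⟩ := hd
  have hu := h.gen.1.1
  have hv := h.gen.2.1.1
  have h0 : a ≠ 0 := by
    rintro rfl
    exact mul_ne_zero (pow_ne_zero i h.ne) (pow_ne_zero j h.swap.ne) (by rw [q, zero_mul])
  obtain ⟨n, b, hb, h1, rfl⟩ := h.ord ha h0
  obtain ⟨m, e, he, h2, rfl⟩ := h.swap.ord hb (right_ne_zero_of_mul h0)
  have h3 : ¬ x.Dvd u e := by
    rintro ⟨d, hd, rfl⟩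
    exact h1 ⟨v ^ m * d, mul_mem (pow_mem hv m) hd, by ring⟩
  have one : x.U 1 := ⟨one_mem _, by rw [x.hom.one]; exact one_ne_zero⟩
  refine ⟨n, m, e, rg1_le h one (mul_mem (mul_mem (pow_mem hv m) he) hc) (j := j)
    (by linear_combination q), rg1_le h.swap one (mul_mem (mul_mem (pow_mem hu n) he) hc) (j := i)
    (by linear_combination q), ?_, by ring⟩
  have h4 := rg1_cancel h he h3 (pow_mem hv j) i
    ⟨u ^ n * v ^ m * c, mul_mem (mul_mem (pow_mem hu n) (pow_mem hv m)) hc,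
      by linear_combination q⟩
  obtain ⟨d, hd, h5⟩ := rg1_cancel h.swap he h2 (one_mem _) j (by rwa [mul_one])
  have h6 := x.hom.mul _ he _ hd
  rw [← h5, x.hom.one] at h6
  exact ⟨he, left_ne_zero_of_mul_eq_one h6.symm⟩

theorem rg1_exp {x : LP L} {u v : L} {F : IntermediateField ℂ L} (h : x.Rg u v F) {a : L}
    (ha : a ∈ x.O) (N : ℕ) : ∃ (c : ℕ → ℂ) (α β : L), α ∈ x.O ∧ β ∈ x.O ∧
      a = ∑ j ∈ Finset.range N, c j • v ^ j + α * u + β * v ^ N := by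
  induction N with
  | zero => exact ⟨0, 0, a, zero_mem _, ha, by simp⟩
  | succ N ih =>
    obtain ⟨c, α, β, hα, hβ, e⟩ := ih
    obtain ⟨γ, hγ, δ, hδ, e'⟩ := h.gen.2.2 _ (x.m_sub_ev hβ)
    refine ⟨fun j => if j = N then x.ev β else c j, α + γ * v ^ N, δ,
      add_mem hα (mul_mem hγ (pow_mem h.gen.2.1.1 N)), hδ, ?_⟩
    rw [Finset.sum_range_succ, Finset.sum_congr rfl (g := fun j => c j • v ^ j) fun j hj =>
      by simp only [if_neg (Finset.mem_range.1 hj).ne]]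
    simp only [if_true, Algebra.smul_def] at e ⊢
    linear_combination e + v ^ N * e'

theorem rg1_exp2 {x : LP L} {u v : L} {F : IntermediateField ℂ L} (h : x.Rg u v F) {a : L}
    (ha : a ∈ x.O) (M N : ℕ) : ∃ (c : ℕ → ℕ → ℂ) (α β : L), α ∈ x.O ∧ β ∈ x.O ∧
      a = ∑ i ∈ Finset.range M, ∑ j ∈ Finset.range N, c i j • (u ^ i * v ^ j) +
        α * u ^ M + β * v ^ N := by
  induction M with
  | zero => exact ⟨0, a, 0, ha, zero_mem _, by simp⟩
  | succ M ih =>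
    obtain ⟨c, α, β, hα, hβ, e⟩ := ih
    obtain ⟨d, γ, δ, hγ, hδ, e'⟩ := rg1_exp h hα N
    refine ⟨fun i => if i = M then d else c i, γ, β + δ * u ^ M, hγ,
      add_mem hβ (mul_mem hδ (pow_mem h.gen.1.1 M)), ?_⟩
    rw [Finset.sum_range_succ, Finset.sum_congr rfl
      (g := fun i => ∑ j ∈ Finset.range N, c i j • (u ^ i * v ^ j)) fun i hi =>
      by simp only [if_neg (Finset.mem_range.1 hi).ne]]
    have e2 : ∑ j ∈ Finset.range N, d j • (u ^ M * v ^ j) =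
        u ^ M * ∑ j ∈ Finset.range N, d j • v ^ j := by
      rw [Finset.mul_sum]
      exact Finset.sum_congr rfl fun j _ => (mul_smul_comm _ _ _).symm
    simp only [if_true, e2]
    linear_combination e + u ^ M * e'

theorem LP.Rg.expand {x : LP L} {u v : L} {F : IntermediateField ℂ L} (h : x.Rg u v F) {a : L}
    (ha : a ∈ x.O) (N : ℕ) : ∃ (c : ℕ → ℕ → ℂ) (α β : L), α ∈ x.O ∧ β ∈ x.O ∧
      a = ∑ i ∈ Finset.range N, ∑ j ∈ Finset.range N, c i j • (u ^ i * v ^ j) +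
        α * u ^ N + β * v ^ N := rg1_exp2 h ha N N

theorem LP.Rg.zero_of_dvd {x : LP L} {u v : L} {F : IntermediateField ℂ L} (h : x.Rg u v F) {w a : L}
    (hw : x.m w) (ha : ∀ n : ℕ, x.Dvd (w ^ n) a) : a = 0 := rg1_zero h.noeth hw ha

theorem LP.Rg.rigid {x : LP L} {u v : L} {F : IntermediateField ℂ L} (h : x.Rg u v F)
    (g : L →ₐ[ℂ] L) (hg : ∀ a ∈ x.O, g a ∈ x.O) (hu : g u = u) (hv : g v = v) :
    ∀ a ∈ F, g a = a := by
  have key : ∀ a ∈ x.O, g a = a := fun a ha => by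
    refine sub_eq_zero.1 (rg1_krull2 h.noeth h.gen.1 h.gen.2.1 (sub_mem (hg a ha) ha) fun n => ?_)
    obtain ⟨c, α, β, hα, hβ, e⟩ := h.expand ha n
    have e' := congrArg g e
    simp only [map_add, map_sum, map_smul, map_mul, map_pow, hu, hv] at e'
    exact ⟨g α - α, sub_mem (hg α hα) hα, g β - β, sub_mem (hg β hβ) hβ,
      by linear_combination e' - e⟩
  intro a ha
  obtain ⟨b, hb, c, hc, h0, e⟩ := h.fr a ha
  have e' := congrArg g e
  rw [map_mul, key c hc, key b hb, ← e] at e'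
  exact mul_right_cancel₀ h0 e'

theorem LP.Rg.rigid_mod {x : LP L} {u v : L} {F : IntermediateField ℂ L} (h : x.Rg u v F)
    (g : L →ₐ[ℂ] L) (hg : ∀ a ∈ x.O, g a ∈ x.O) (hu : x.Dvd u (g u)) (hv : g v = v) :
    ∀ a ∈ x.O, x.Dvd u (g a - a) := fun a ha => by
  obtain ⟨d, hd, hu⟩ := hu
  refine rg1_krull h.noeth h.gen.1.1 h.gen.2.1 (sub_mem (hg a ha) ha) fun n => ?_
  obtain ⟨c, α, β, hα, hβ, e⟩ := rg1_exp h ha n
  have e' := congrArg g e
  simp only [map_add, map_sum, map_smul, map_mul, map_pow, hu, hv] at e'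
  exact ⟨g α * d - α, sub_mem (mul_mem (hg α hα) hd) hα, g β - β, sub_mem (hg β hβ) hβ,
    by linear_combination e' - e⟩

theorem rg1_two {x : LP L} {u v : L} {F : IntermediateField ℂ L} (h : x.Rg u v F) {η θ : L}
    (hη : x.U η) (hθ : θ ∈ x.O) {p q : ℕ} (hpq : p < q) : ¬ x.Dvd u (η * v ^ p - θ * v ^ q) := by
  obtain ⟨k, rfl⟩ := Nat.exists_eq_add_of_lt hpq
  have h1 : x.m (θ * v ^ k * v) := LP.m.mul_left (mul_mem hθ (pow_mem h.gen.2.1.1 k)) h.gen.2.1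
  have h2 : x.U (η - θ * v ^ k * v) := ⟨sub_mem hη.1 h1.1, by
    rw [x.hom.sub hη.1 h1.1, h1.2, sub_zero]; exact hη.2⟩
  have e : η * v ^ p - θ * v ^ (p + k + 1) = (η - θ * v ^ k * v) * v ^ p := by ring
  rw [e]
  exact rg1_unit h h2 p

/-- `u` times a unit is not a square, also not modulo the other parameter -/
theorem LP.Rg.not_sq {x : LP L} {u v : L} {F : IntermediateField ℂ L} (h : x.Rg u v F) {ε b c : L}
    (hε : x.U ε) (hb : b ∈ x.O) (hc : c ∈ x.O) (hcu : ¬ x.Dvd u c) :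
    ¬ x.Dvd u (b ^ 2 - ε * v * c ^ 2) := by
  rintro ⟨r, hr, e⟩
  have hu := h.gen.1.1
  have hv := h.gen.2.1.1
  obtain ⟨m, η, hη, d, hd, e1⟩ := h.dvr hc hcu
  have hθ := hε.mul (hη.mul hη)
  have hs : r + ε * v * (d * (c + η * v ^ m)) ∈ x.O := add_mem hr (mul_mem (mul_mem hε.1 hv)
    (mul_mem hd (add_mem hc (mul_mem hη.1 (pow_mem hv m)))))
  have e2 : b ^ 2 - ε * (η * η) * v ^ (2 * m + 1) = u * (r + ε * v * (d * (c + η * v ^ m))) := by
    linear_combination e + ε * v * (c + η * v ^ m) * e1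
  generalize r + ε * v * (d * (c + η * v ^ m)) = s at hs e2
  by_cases hbu : x.Dvd u b
  · obtain ⟨t, ht, rfl⟩ := hbu
    exact rg1_unit h hθ (2 * m + 1) ⟨u * t * t - s, sub_mem (mul_mem (mul_mem hu ht) ht) hs,
      by linear_combination -e2⟩
  obtain ⟨n, ζ, hζ, t, ht, e3⟩ := h.dvr hb hbu
  have hs' : s - t * (b + ζ * v ^ n) ∈ x.O :=
    sub_mem hs (mul_mem ht (add_mem hb (mul_mem hζ.1 (pow_mem hv n))))
  have e4 : ζ * ζ * v ^ (2 * n) - ε * (η * η) * v ^ (2 * m + 1) =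
      u * (s - t * (b + ζ * v ^ n)) := by
    linear_combination e2 - (b + ζ * v ^ n) * e3
  rcases le_or_gt n m with q | q
  · exact rg1_two h (hζ.mul hζ) hθ.1 (by omega) ⟨_, hs', e4⟩
  · exact rg1_two h hθ (hζ.mul hζ).1 (p := 2 * m + 1) (q := 2 * n) (by omega)
      ⟨_, neg_mem hs', by linear_combination -e4⟩

theorem LP.Rg.not_sq' {x : LP L} {u v : L} {F : IntermediateField ℂ L} (h : x.Rg u v F) {ε w : L}
    (hε : x.U ε) {i j : ℕ} (hw : w ∈ F) (e : w ^ 2 = ε * u ^ i * v ^ j) : Even i ∧ Even j := by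
  have hu := h.gen.1.1
  have hv := h.gen.2.1.1
  have h1 : w ^ 2 ∈ x.O := e ▸ mul_mem (mul_mem hε.1 (pow_mem hu i)) (pow_mem hv j)
  have h2 : w ∈ x.O := h.normal w hw
    (IsIntegral.of_pow two_pos (isIntegral_algebraMap (x := (⟨_, h1⟩ : x.O))))
  obtain ⟨p, q, η, -, -, hη, rfl⟩ := h.factor h2 (i := i) (j := j)
    ⟨w * ε⁻¹, mul_mem h2 (x.ev_inv hε).1.1, by
      rw [← mul_assoc, ← sq, e, eq_mul_inv_iff_mul_eq₀ hε.ne]; ring⟩
  have hθ := hη.mul hη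
  have a1 := rg1_le h hε (mul_mem hθ.1 (pow_mem hv (2 * q))) (n := 2 * p) (i := i) (j := j)
    (by linear_combination -e)
  have a2 := rg1_le h hθ (mul_mem hε.1 (pow_mem hv j)) (n := i) (i := 2 * p) (j := 2 * q)
    (by linear_combination e)
  have a3 := rg1_le h.swap hε (mul_mem hθ.1 (pow_mem hu (2 * p))) (n := 2 * q) (i := j) (j := i)
    (by linear_combination -e)
  have a4 := rg1_le h.swap hθ (mul_mem hε.1 (pow_mem hu i)) (n := j) (i := 2 * q) (j := 2 * p)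
    (by linear_combination e)
  exact ⟨⟨p, by omega⟩, ⟨q, by omega⟩⟩

theorem LP.Rg.res_self {x P : LP L} {u v : L} {F : IntermediateField ℂ L} (h : x.Rg u v F)
    (hP : NP x ⊤ P) : res x F P = x := by
  have h1 : NP x F x := ⟨LP.Le.refl x, fun b hb => h.normal b (mem_Bx.1 hb).2 (mem_Bx.1 hb).1,
    fun a ha => ⟨a, Ext_O_le h.sub ha, 1, one_mem _, by rw [x.hom.one]; exact one_ne_zero,
      mul_one a⟩⟩
  exact (h1.eq_res hP.le).symm

/-- a valuation ring over the divisor `u = 0` -/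
theorem LP.Rg.val {x : LP L} {u v : L} {F : IntermediateField ℂ L} (h : x.Rg u v F)
    {V : ValuationSubring L} (hV : ∀ a ∈ x.O, a ∈ V) (hu : u ∈ V.nonunits) (hv : v ∉ V.nonunits) :
    (∀ a ∈ x.O, a ∈ V.nonunits ↔ x.Dvd u a) ∧
    (∀ a ∈ F, a ∈ V ↔ ∃ b ∈ x.O, ∃ c ∈ x.O, ¬ x.Dvd u c ∧ a * c = b) ∧
    ∀ t ∈ F, t ∈ V → ∃ s ∈ x.O, t - s ∈ V.nonunits ∨ t⁻¹ - s ∈ V.nonunits := by
  simp only [ValuationSubring.mem_nonunits_iff] at hu hv ⊢
  have le1 : ∀ a ∈ x.O, V.valuation a ≤ 1 := fun a ha => (V.valuation_le_one_iff a).2 (hV a ha)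
  have lt1 : ∀ a, x.Dvd u a → V.valuation a < 1 := by
    rintro _ ⟨c, hc, rfl⟩
    rw [map_mul]
    exact mul_lt_one_of_nonneg_of_lt_one_left zero_le hu (le1 c hc)
  have un : ∀ ε, x.U ε → V.valuation ε = 1 := fun ε hε => by
    refine le_antisymm (le1 ε hε.1) ?_
    have h1 := le1 _ (x.ev_inv hε).1.1
    rwa [map_inv₀, inv_le_one₀ (zero_lt_iff.2 ((_root_.map_ne_zero _).2 hε.ne))] at h1
  have eq1 : ∀ a ∈ x.O, ¬ x.Dvd u a → V.valuation a = 1 := fun a ha hn => by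
    obtain ⟨n, ε, hε, hd⟩ := h.dvr ha hn
    have h1 : V.valuation (ε * v ^ n) = 1 := by
      rw [map_mul, map_pow, un ε hε, le_antisymm (le1 v h.gen.2.1.1) (not_lt.1 hv), one_pow,
        one_mul]
    rw [← h1]
    exact V.valuation.map_eq_of_sub_lt (by rw [h1]; exact lt1 _ hd)
  have p1 : ∀ a ∈ x.O, V.valuation a < 1 ↔ x.Dvd u a := fun a ha =>
    ⟨fun q => not_not.1 fun hn => q.ne (eq1 a ha hn), lt1 a⟩
  have p2 : ∀ a ∈ F, a ∈ V ↔ ∃ b ∈ x.O, ∃ c ∈ x.O, ¬ x.Dvd u c ∧ a * c = b := fun a ha => by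
    constructor
    · intro haV
      obtain ⟨b, hb, c, hc, h0, e⟩ := h.fr a ha
      obtain ⟨m, d, hd, hn, rfl⟩ := h.ord hc h0
      clear hc h0
      induction m generalizing b with
      | zero => exact ⟨b, hb, d, hd, hn, by simpa using e⟩
      | succ m ih =>
        obtain ⟨b', hb', rfl⟩ := (p1 b hb).1 (by
          have e' : b = a * (u ^ m * d) * u := by rw [← e]; ring
          rw [e', map_mul, map_mul]
          exact mul_lt_one_of_nonneg_of_lt_one_right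
            (mul_le_one' ((V.valuation_le_one_iff a).2 haV)
              (le1 _ (mul_mem (pow_mem h.gen.1.1 m) hd))) zero_le hu)
        exact ih b' hb' (mul_left_cancel₀ h.ne (by linear_combination e))
    · rintro ⟨b, hb, c, hc, hn, e⟩
      have h1 := le1 b hb
      rwa [← e, map_mul, eq1 c hc hn, mul_one, V.valuation_le_one_iff] at h1
  have p3 : ∀ r b c ε η : L, ∀ n m : ℕ, r * c = b → c ∈ x.O → ¬ x.Dvd u c → x.U ε → x.U η →
      x.Dvd u (b - ε * v ^ n) → x.Dvd u (c - η * v ^ m) → m ≤ n →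
      ∃ s ∈ x.O, V.valuation (r - s) < 1 := by
    rintro r b c ε η n m e hc hn hε hη ⟨b', hb', e1⟩ ⟨c', hc', e2⟩ hmn
    obtain ⟨k, rfl⟩ := Nat.exists_eq_add_of_le hmn
    have hs : ε * η⁻¹ * v ^ k ∈ x.O :=
      mul_mem (mul_mem hε.1 (x.ev_inv hη).1.1) (pow_mem h.gen.2.1.1 k)
    refine ⟨_, hs, ?_⟩
    have h1 := lt1 ((r - ε * η⁻¹ * v ^ k) * c) ⟨b' - ε * η⁻¹ * v ^ k * c',
      sub_mem hb' (mul_mem hs hc'), by
        have h2 := inv_mul_cancel₀ hη.ne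
        linear_combination e + e1 - ε * η⁻¹ * v ^ k * e2 - ε * v ^ (m + k) * h2⟩
    rwa [map_mul, eq1 c hc hn, mul_one] at h1
  refine ⟨p1, p2, fun t ht htV => ?_⟩
  obtain ⟨b, hb, c, hc, hn, e⟩ := (p2 t ht).1 htV
  by_cases hbu : x.Dvd u b
  · have h1 := lt1 b hbu
    rw [← e, map_mul, eq1 c hc hn, mul_one] at h1
    exact ⟨0, zero_mem _, Or.inl (by rwa [sub_zero])⟩
  obtain ⟨n, ε, hε, h1⟩ := h.dvr hb hbu
  obtain ⟨m, η, hη, h2⟩ := h.dvr hc hn
  rcases le_total m n with q | q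
  · obtain ⟨s, hs, h3⟩ := p3 t b c ε η n m e hc hn hε hη h1 h2 q
    exact ⟨s, hs, Or.inl h3⟩
  · have h0 : t ≠ 0 := by
      rintro rfl
      exact hbu ⟨0, zero_mem _, by rw [← e]; ring⟩
    obtain ⟨s, hs, h3⟩ := p3 t⁻¹ c b η ε m n (by rw [← e, inv_mul_cancel_left₀ h0]) hb hbu hη hε
      h2 h1 q
    exact ⟨s, hs, Or.inr h3⟩

end Vale.Agent.P300
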