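import Vale.Agent.P300.Rg1

/-! Adjoining a square root. Let `S = res x E P`, `E' = E(y)`, `y ∉ E` (if `y ∈ E` then `E' = E`; in the
ramified case this is excluded by `not_sq'`). The integral closure of `S` in `E'` is `S + S y`
(trace and norm: `a + b y` integral gives `a ∈ S`, `b ^ 2 y ^ 2 ∈ S`, so `b ∈ S` by normality and
primality of `u`), and `res x E' P` is its localisation at `P.ev`. Unit case: the maximal ideal is
generated by `u, v, y - c` and `(y - c) (y + c) ∈ (u, v)` with `y + c` a unit; if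
`Q v ^ n = u f` with `Q = q₀ + q₁ y` of nonzero value then `u ∣ q₀ v ^ n, q₁ v ^ n` in `S` and one of
`q₀, q₁` is a unit. -/

open scoped LinearAlgebra.Projectivization Topology Classical Pointwise
open Polynomial

namespace Vale.Agent.P300

variable {L : Type} [Field L] [Algebra ℂ L]

theorem Rg2_repr {E : IntermediateField ℂ L} {y : L} (hy : y ^ 2 ∈ E) {a : L}
    (ha : a ∈ E ⊔ IntermediateField.adjoin ℂ {y}) : ∃ p ∈ E, ∃ q ∈ E, a = p + q * y := by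
  let R : Subalgebra ℂ L :=
    { carrier := {a | ∃ p ∈ E, ∃ q ∈ E, a = p + q * y}
      mul_mem' := by
        rintro _ _ ⟨p, hp, q, hq, rfl⟩ ⟨p', hp', q', hq', rfl⟩
        exact ⟨p * p' + q * q' * y ^ 2, E.add_mem (E.mul_mem hp hp') (E.mul_mem (E.mul_mem hq hq') hy),
          p * q' + q * p', E.add_mem (E.mul_mem hp hq') (E.mul_mem hq hp'), by ring⟩
      add_mem' := by
        rintro _ _ ⟨p, hp, q, hq, rfl⟩ ⟨p', hp', q', hq', rfl⟩
        exact ⟨p + p', E.add_mem hp hp', q + q', E.add_mem hq hq', by ring⟩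
      algebraMap_mem' := fun c => ⟨_, E.algebraMap_mem c, 0, E.zero_mem, by ring⟩ }
  have hinv : ∀ a ∈ R, a⁻¹ ∈ R := by
    rintro _ ⟨p, hp, q, hq, rfl⟩
    have hN : p * p - q * q * y ^ 2 ∈ E :=
      E.sub_mem (E.mul_mem hp hp) (E.mul_mem (E.mul_mem hq hq) hy)
    by_cases h0 : p + q * y = 0
    · exact ⟨0, E.zero_mem, 0, E.zero_mem, by rw [h0]; simp⟩
    by_cases h1 : p - q * y = 0
    · have e : p + q * y = p + p := by rw [sub_eq_zero.1 h1]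
      exact ⟨(p + p)⁻¹, E.inv_mem (E.add_mem hp hp), 0, E.zero_mem, by rw [e]; ring⟩
    · have h2 : p * p - q * q * y ^ 2 = (p + q * y) * (p - q * y) := by ring
      refine ⟨p / (p * p - q * q * y ^ 2), E.div_mem hp hN, -q / (p * p - q * q * y ^ 2),
        E.div_mem (E.neg_mem hq) hN, ?_⟩
      rw [h2]
      field_simp
      ring
  have hle : E ⊔ IntermediateField.adjoin ℂ {y} ≤ R.toIntermediateField hinv :=
    sup_le (fun a ha => ⟨a, ha, 0, E.zero_mem, by ring⟩)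
      (IntermediateField.adjoin_simple_le_iff.2 ⟨0, E.zero_mem, 1, E.one_mem, by ring⟩)
  exact hle ha

theorem Rg2_indep {E : IntermediateField ℂ L} {y : L} (hy : y ∉ E) {p q : L} (hp : p ∈ E)
    (hq : q ∈ E) (e : p + q * y = 0) : p = 0 ∧ q = 0 := by
  have h1 : q = 0 := by
    by_contra h
    refine hy ?_
    have h2 : y = -p / q := by
      field_simp
      linear_combination e
    rw [h2]
    exact E.div_mem (E.neg_mem hp) hq
  rw [h1, zero_mul, add_zero] at e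
  exact ⟨e, h1⟩

theorem Rg2_conj {E : IntermediateField ℂ L} {R : Subalgebra ℂ L} (hR : ∀ a ∈ R, a ∈ E) {y : L}
    (hy : y ∉ E) (hy2 : y ^ 2 ∈ E) {p q : L} (hp : p ∈ E) (hq : q ∈ E)
    (h : IsIntegral R (p + q * y)) : IsIntegral R (p - q * y) := by
  have key : ∀ f : R[X], ∃ A ∈ E, ∃ B ∈ E,
      aeval (p + q * y) f = A + B * y ∧ aeval (p - q * y) f = A - B * y := by
    intro f
    induction f using Polynomial.induction_on with
    | C a => exact ⟨a, hR a a.2, 0, E.zero_mem, by simp, by simp⟩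
    | add f g hf hg =>
      obtain ⟨A, hA, B, hB, h1, h2⟩ := hf
      obtain ⟨A', hA', B', hB', h1', h2'⟩ := hg
      exact ⟨A + A', E.add_mem hA hA', B + B', E.add_mem hB hB', by rw [map_add, h1, h1']; ring,
        by rw [map_add, h2, h2']; ring⟩
    | monomial n a hf =>
      obtain ⟨A, hA, B, hB, h1, h2⟩ := hf
      refine ⟨A * p + B * q * y ^ 2, E.add_mem (E.mul_mem hA hp) (E.mul_mem (E.mul_mem hB hq) hy2),
        A * q + B * p, E.add_mem (E.mul_mem hA hq) (E.mul_mem hB hp), ?_, ?_⟩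
      · rw [pow_succ, ← mul_assoc, map_mul, h1, aeval_X]; ring
      · rw [pow_succ, ← mul_assoc, map_mul, h2, aeval_X]; ring
  obtain ⟨f, hf, e⟩ := h
  obtain ⟨A, hA, B, hB, h1, h2⟩ := key f
  have e' : aeval (p + q * y) f = 0 := e
  obtain ⟨rfl, rfl⟩ := Rg2_indep hy hA hB (h1.symm.trans e')
  refine ⟨f, hf, ?_⟩
  have h3 : aeval (p - q * y) f = 0 := by rw [h2]; ring
  exact h3

theorem Rg2_int_pow {R : Subalgebra ℂ L} {y : L} {n : ℕ} (hn : 0 < n) (h : y ^ n ∈ R) :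
    IsIntegral R y :=
  IsIntegral.of_pow hn (isIntegral_algebraMap (x := (⟨y ^ n, h⟩ : R)))

/-- the integral closure is `S + S y` -/
theorem Rg2_B {S : LP L} {u v y : L} {E : IntermediateField ℂ L} (h : S.Rg u v E) (hy : y ∉ E)
    (hy2 : y ^ 2 ∈ S.O) (hsq : ∀ q ∈ E, q ^ 2 * y ^ 2 ∈ S.O → q ∈ S.O) {b : L}
    (hb : b ∈ Bx S (E ⊔ IntermediateField.adjoin ℂ {y})) :
    ∃ p ∈ S.O, ∃ q ∈ S.O, b = p + q * y := by
  obtain ⟨h1, h2⟩ := mem_Bx.1 hb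
  obtain ⟨p, hp, q, hq, rfl⟩ := Rg2_repr (h.sub _ hy2) h2
  have h3 := Rg2_conj h.sub hy (h.sub _ hy2) hp hq h1
  have h4 : p + p ∈ S.O := h.normal _ (E.add_mem hp hp) (by
    have := h1.add h3
    rwa [show p + q * y + (p - q * y) = p + p by ring] at this)
  have h5 : p ∈ S.O := by
    have := S.O.smul_mem h4 (2⁻¹ : ℂ)
    rwa [← two_smul ℂ p, smul_smul, inv_mul_cancel₀ two_ne_zero, one_smul] at this
  have h6 : IsIntegral S.O (q * y) := by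
    have := h1.sub (isIntegral_algebraMap (x := (⟨p, h5⟩ : S.O)))
    rwa [show p + q * y - algebraMap S.O L ⟨p, h5⟩ = q * y by
      change p + q * y - p = q * y
      ring] at this
  refine ⟨p, h5, q, hsq q hq (h.normal _ (E.mul_mem (pow_mem hq 2) (h.sub _ hy2)) ?_), rfl⟩
  rw [← mul_pow]
  exact h6.pow 2

theorem Rg2_sq_unit {S : LP L} {u v d : L} {E : IntermediateField ℂ L} (h : S.Rg u v E)
    (hd : S.U d) : ∀ q ∈ E, q ^ 2 * d ∈ S.O → q ∈ S.O := fun q hq h1 => by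
  have h2 := (S.ev_div h1 hd).1
  rw [mul_div_cancel_right₀ _ hd.ne] at h2
  exact h.normal q hq (Rg2_int_pow two_pos h2)

theorem Rg2_sq_ram {S : LP L} {u v ε : L} {E : IntermediateField ℂ L} (h : S.Rg u v E)
    (hε : S.U ε) : ∀ q ∈ E, q ^ 2 * (ε * u) ∈ S.O → q ∈ S.O := fun q hq h1 => by
  have hu := h.gen.1.1
  have h2 := (S.ev_div h1 hε).1
  have h3 : q ^ 2 * (ε * u) / ε = q ^ 2 * u := by
    have := hε.ne
    field_simp
  rw [h3] at h2
  have h4 : q * u ∈ S.O := h.normal _ (E.mul_mem hq (h.sub _ hu)) (Rg2_int_pow two_pos (by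
    have := S.O.mul_mem h2 hu
    rwa [show q ^ 2 * u * u = (q * u) ^ 2 by ring] at this))
  have h5 : S.Dvd u (q * u) := by
    have := h.prime h4 h4 ⟨q ^ 2 * u, h2, by ring⟩
    exact this.elim id id
  obtain ⟨c, hc, e⟩ := h5
  have h6 : q = c := mul_left_cancel₀ h.ne (by rw [← e]; ring)
  rwa [h6]

theorem Rg2_notMem {S : LP L} {u v y ε : L} {E : IntermediateField ℂ L} (h : S.Rg u v E)
    (hε : S.U ε) (hy : y ^ 2 = ε * u) : y ∉ E := fun hE => by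
  have := (h.not_sq' hε (i := 1) (j := 0) hE (by rw [hy]; ring)).1
  exact absurd this (by decide)

theorem Rg2_y_mem (E : IntermediateField ℂ L) (y : L) : y ∈ E ⊔ IntermediateField.adjoin ℂ {y} :=
  (le_sup_right : IntermediateField.adjoin ℂ {y} ≤ _) (IntermediateField.mem_adjoin_simple_self ℂ y)

/-- the point at the higher level as a point of the normalisation of the lower point -/
theorem Rg2_np {x P : LP L} (hP : NP x ⊤ P) {E E' : IntermediateField ℂ L} (hx : ∀ a ∈ x.O, a ∈ E)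
    (hE : E ≤ E') : NP (res x E P) E' (res x E' P) := by
  have h1 := (res_np hP le_top hx).1
  have h2 := (res_np hP le_top fun a ha => hE (hx a ha)).1
  have h3 := res_mono hP hE hx
  refine ⟨h3, fun b hb => h2.normal (mem_Bx.1 hb).2
    (Ext_int_mono (fun a ha => (h3 a ha).1) (mem_Bx.1 hb).1), fun a ha => ?_⟩
  obtain ⟨b, hb, c, hc, h4, h5⟩ := h2.fr a ha
  have h6 : ∀ b ∈ Bx x E', b ∈ Bx (res x E P) E' := fun b hb =>
    mem_Bx.2 ⟨Ext_int_mono (fun a ha => (h1.le a ha).1) (mem_Bx.1 hb).1, (mem_Bx.1 hb).2⟩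
  exact ⟨b, h6 b hb, c, h6 c hc, h4, h5⟩

section Quad

variable {S T : LP L} {u v y : L} {E : IntermediateField ℂ L}

theorem Rg2_yB (hy2 : y ^ 2 ∈ S.O) : y ∈ Bx S (E ⊔ IntermediateField.adjoin ℂ {y}) :=
  mem_Bx.2 ⟨Rg2_int_pow two_pos hy2, Rg2_y_mem E y⟩

theorem Rg2_noeth (h : S.Rg u v E) (hT : NP S (E ⊔ IntermediateField.adjoin ℂ {y}) T)
    (hy2 : y ^ 2 ∈ S.O)
    (hB : ∀ b ∈ Bx S (E ⊔ IntermediateField.adjoin ℂ {y}), ∃ p ∈ S.O, ∃ q ∈ S.O, b = p + q * y) :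
    IsNoetherianRing T.O := by
  have hle : S.O ≤ Bx S (E ⊔ IntermediateField.adjoin ℂ {y}) :=
    Ext_O_le fun a ha => (le_sup_left : E ≤ _) (h.sub a ha)
  have := h.noeth
  have hN : IsNoetherianRing (Bx S (E ⊔ IntermediateField.adjoin ℂ {y})) := by
    refine isNoetherianRing_of_surjective S.O[X] _
      (eval₂RingHom (Subalgebra.inclusion hle).toRingHom ⟨y, Rg2_yB hy2⟩) fun b => ?_
    obtain ⟨p, hp, q, hq, e⟩ := hB b b.2
    refine ⟨C ⟨p, hp⟩ + C ⟨q, hq⟩ * X, Subtype.ext ?_⟩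
    rw [e, coe_eval₂RingHom, eval₂_add, eval₂_mul, eval₂_C, eval₂_C, eval₂_X]
    rfl
  rw [hT.eq_res (LP.Le.refl T)]
  exact mkLP_noeth (T.hom.mono hT.int) hN

theorem Rg2_ev (hT : NP S (E ⊔ IntermediateField.adjoin ℂ {y}) T) (hy2 : y ^ 2 ∈ S.O) {p q : L}
    (hp : p ∈ S.O) (hq : q ∈ S.O) : T.ev (p + q * y) = S.ev p + S.ev q * T.ev y := by
  have h1 := hT.int _ (Rg2_yB hy2)
  rw [T.hom.add _ (hT.le p hp).1 _ (T.O.mul_mem (hT.le q hq).1 h1), T.hom.mul _ (hT.le q hq).1 _ h1,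
    (hT.le p hp).2, (hT.le q hq).2]

theorem Rg2_dvd (h : S.Rg u v E) (hT : NP S (E ⊔ IntermediateField.adjoin ℂ {y}) T) (hy : y ∉ E)
    (hy2 : y ^ 2 ∈ S.O)
    (hB : ∀ b ∈ Bx S (E ⊔ IntermediateField.adjoin ℂ {y}), ∃ p ∈ S.O, ∃ q ∈ S.O, b = p + q * y)
    {a b : L} (ha : a ∈ S.O) (hb : b ∈ S.O) (hd : T.Dvd a b) : S.Dvd a b := by
  obtain ⟨f, hf, e⟩ := hd
  obtain ⟨n, hn, c, hc, h1, h2⟩ := hT.fr f hf
  obtain ⟨n₀, hn₀, n₁, hn₁, rfl⟩ := hB n hn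
  obtain ⟨c₀, hc₀, c₁, hc₁, rfl⟩ := hB c hc
  have key := Rg2_indep (p := b * c₀ - a * n₀) (q := b * c₁ - a * n₁) hy
    (h.sub _ (S.O.sub_mem (S.O.mul_mem hb hc₀) (S.O.mul_mem ha hn₀)))
    (h.sub _ (S.O.sub_mem (S.O.mul_mem hb hc₁) (S.O.mul_mem ha hn₁)))
    (by rw [e]; linear_combination a * h2)
  have aux : ∀ c n : L, c ∈ S.O → n ∈ S.O → S.ev c ≠ 0 → b * c - a * n = 0 → S.Dvd a b :=
    fun c n hc hn h0 e => ⟨n / c, (S.ev_div hn ⟨hc, h0⟩).1, by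
      have := S.hom.ne h0
      field_simp
      linear_combination e⟩
  rw [Rg2_ev hT hy2 hc₀ hc₁] at h1
  by_cases h0 : S.ev c₀ = 0
  · refine aux c₁ n₁ hc₁ hn₁ (fun h3 => h1 ?_) key.2
    rw [h0, h3, zero_mul, add_zero]
  · exact aux c₀ n₀ hc₀ hn₀ h0 key.1

theorem Rg2_fr (h : S.Rg u v E) (hT : NP S (E ⊔ IntermediateField.adjoin ℂ {y}) T)
    (hy2 : y ^ 2 ∈ S.O) : ∀ a ∈ E ⊔ IntermediateField.adjoin ℂ {y}, T.Fr a := fun a ha => by
  obtain ⟨p, hp, q, hq, rfl⟩ := Rg2_repr (h.sub _ hy2) ha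
  obtain ⟨b, hb, c, hc, h1, h2⟩ := (h.fr p hp).mono hT.le
  obtain ⟨b', hb', c', hc', h1', h2'⟩ := (h.fr q hq).mono hT.le
  have hy := hT.int _ (Rg2_yB hy2)
  exact ⟨b * c' + b' * c * y, T.O.add_mem (T.O.mul_mem hb hc') (T.O.mul_mem (T.O.mul_mem hb' hc) hy),
    c * c', T.O.mul_mem hc hc', mul_ne_zero h1 h1', by rw [← h2, ← h2']; ring⟩

/-- generation of the maximal ideal can be tested on the integral closure -/
theorem Rg2_gen {M : IntermediateField ℂ L} (hT : NP S M T) {s t : L} (hs : T.m s) (ht : T.m t)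
    (H : ∀ b ∈ Bx S M, T.ev b = 0 → ∃ α ∈ T.O, ∃ β ∈ T.O, b = α * s + β * t) : T.Gen2 s t := by
  refine ⟨hs, ht, fun a ha => ?_⟩
  obtain ⟨b, hb, c, hc, h1, h2⟩ := hT.fr a ha.1
  have hc' : T.U c := ⟨hT.int c hc, h1⟩
  obtain ⟨α, hα, β, hβ, e⟩ := H b hb (by rw [← h2, T.hom.mul _ ha.1 _ hc'.1, ha.2, zero_mul])
  refine ⟨α / c, (T.ev_div hα hc').1, β / c, (T.ev_div hβ hc').1, ?_⟩
  have := hc'.ne
  field_simp
  rw [h2, e]

theorem Rg2_m (hT : S.Le T) {a : L} (ha : S.m a) : T.m a := ⟨(hT a ha.1).1, (hT a ha.1).2.trans ha.2⟩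

theorem Rg2_unit (h : S.Rg u v E) (hT : NP S (E ⊔ IntermediateField.adjoin ℂ {y}) T) (hy : y ∉ E)
    (hd : S.U (y ^ 2)) : T.Rg u v (E ⊔ IntermediateField.adjoin ℂ {y}) := by
  have hB : ∀ b ∈ Bx S (E ⊔ IntermediateField.adjoin ℂ {y}), ∃ p ∈ S.O, ∃ q ∈ S.O,
      b = p + q * y := fun b hb => Rg2_B h hy hd.1 (Rg2_sq_unit h hd) hb
  have hu := h.gen.1.1
  have hv := h.gen.2.1.1
  have hyT := hT.int _ (Rg2_yB hd.1)
  refine ⟨Rg2_noeth h hT hd.1 hB, Rg2_gen hT (Rg2_m hT.le h.gen.1) (Rg2_m hT.le h.gen.2.1) ?_,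
    fun n hn => h.nu n (Rg2_dvd h hT hy hd.1 hB hu (S.O.pow_mem hv n) hn),
    fun n hn => h.nv n (Rg2_dvd h hT hy hd.1 hB hv (S.O.pow_mem hu n) hn),
    hT.sub, Rg2_fr h hT hd.1, fun a ha hi => hT.normal ha hi⟩
  intro b hb h0
  obtain ⟨p, hp, q, hq, rfl⟩ := hB b hb
  rw [Rg2_ev hT hd.1 hp hq] at h0
  have e1 : T.ev y ^ 2 = S.ev (y ^ 2) := by rw [← T.hom.pow hyT, (hT.le _ hd.1).2]
  have hy0 : T.ev y ≠ 0 := fun e => hd.2 (by rw [← e1, e]; ring)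
  have hw : T.U (y + algebraMap ℂ L (T.ev y)) := ⟨T.O.add_mem hyT (T.O.algebraMap_mem _), by
    rw [T.hom.add _ hyT _ (T.O.algebraMap_mem _), T.hom.alg, ← two_mul]
    exact mul_ne_zero two_ne_zero hy0⟩
  obtain ⟨α₁, a1, β₁, b1, k1⟩ := h.gen.2.2 _ (S.m_sub_ev hp)
  obtain ⟨α₂, a2, β₂, b2, k2⟩ := h.gen.2.2 _ (S.m_sub_ev hq)
  obtain ⟨α₃, a3, β₃, b3, k3⟩ := h.gen.2.2 _ (S.m_sub_ev hd.1)
  have hq0 := T.O.algebraMap_mem (S.ev q)
  have k0 : algebraMap ℂ L (S.ev p) + algebraMap ℂ L (S.ev q) * algebraMap ℂ L (T.ev y) = 0 := by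
    rw [← map_mul, ← map_add, h0, map_zero]
  rw [← e1, map_pow] at k3
  refine ⟨α₁ + α₂ * y + algebraMap ℂ L (S.ev q) * (α₃ / (y + algebraMap ℂ L (T.ev y))),
    T.O.add_mem (T.O.add_mem (hT.le _ a1).1 (T.O.mul_mem (hT.le _ a2).1 hyT))
      (T.O.mul_mem hq0 (T.ev_div (hT.le _ a3).1 hw).1),
    β₁ + β₂ * y + algebraMap ℂ L (S.ev q) * (β₃ / (y + algebraMap ℂ L (T.ev y))),
    T.O.add_mem (T.O.add_mem (hT.le _ b1).1 (T.O.mul_mem (hT.le _ b2).1 hyT))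
      (T.O.mul_mem hq0 (T.ev_div (hT.le _ b3).1 hw).1), ?_⟩
  have k4 : y - algebraMap ℂ L (T.ev y) = α₃ / (y + algebraMap ℂ L (T.ev y)) * u +
      β₃ / (y + algebraMap ℂ L (T.ev y)) * v := by
    have := hw.ne
    field_simp
    linear_combination k3
  linear_combination k1 + y * k2 + algebraMap ℂ L (S.ev q) * k4 + k0

theorem Rg2_ram (h : S.Rg u v E) (hT : NP S (E ⊔ IntermediateField.adjoin ℂ {y}) T)
    (hd : y ^ 2 = u) : T.Rg y v (E ⊔ IntermediateField.adjoin ℂ {y}) := by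
  have h1 : S.U 1 := ⟨S.O.one_mem, by rw [S.hom.one]; exact one_ne_zero⟩
  have hd' : y ^ 2 = 1 * u := by rw [hd, one_mul]
  have hy := Rg2_notMem h h1 hd'
  have hu := h.gen.1.1
  have hv := h.gen.2.1.1
  have hy2 : y ^ 2 ∈ S.O := hd ▸ hu
  have hB : ∀ b ∈ Bx S (E ⊔ IntermediateField.adjoin ℂ {y}), ∃ p ∈ S.O, ∃ q ∈ S.O,
      b = p + q * y := fun b hb => Rg2_B h hy hy2 (hd' ▸ Rg2_sq_ram h h1) hb
  have hyT := hT.int _ (Rg2_yB hy2)
  have hy0 : T.ev y = 0 := by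
    have e1 : T.ev y ^ 2 = 0 := by rw [← T.hom.pow hyT, hd, (hT.le _ hu).2, h.gen.1.2]
    exact pow_eq_zero_iff two_ne_zero |>.1 e1
  refine ⟨Rg2_noeth h hT hy2 hB, Rg2_gen hT ⟨hyT, hy0⟩ (Rg2_m hT.le h.gen.2.1) ?_,
    fun n hn => h.nu (2 * n) (Rg2_dvd h hT hy hy2 hB hu (S.O.pow_mem hv _) ?_),
    fun n hn => h.nv n (Rg2_dvd h hT hy hy2 hB hv (S.O.pow_mem hu n) ?_),
    hT.sub, Rg2_fr h hT hy2, fun a ha hi => hT.normal ha hi⟩
  · intro b hb h0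
    obtain ⟨p, hp, q, hq, rfl⟩ := hB b hb
    rw [Rg2_ev hT hy2 hp hq, hy0, mul_zero, add_zero] at h0
    obtain ⟨α, a1, β, b1, k1⟩ := h.gen.2.2 p ⟨hp, h0⟩
    exact ⟨α * y + q, T.O.add_mem (T.O.mul_mem (hT.le _ a1).1 hyT) (hT.le _ hq).1, β,
      (hT.le _ b1).1, by rw [k1, ← hd]; ring⟩
  · obtain ⟨f, hf, e⟩ := hn
    exact ⟨f ^ 2, T.O.pow_mem hf 2, by rw [pow_mul', e, ← hd]; ring⟩
  · obtain ⟨f, hf, e⟩ := hn
    exact ⟨v * f ^ 2, T.O.mul_mem (hT.le _ hv).1 (T.O.pow_mem hf 2), by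
      rw [← hd, ← pow_mul, pow_mul', e]; ring⟩

end Quad

theorem Rg2_sup_eq {E : IntermediateField ℂ L} {y : L} (hy : y ∈ E) :
    E ⊔ IntermediateField.adjoin ℂ {y} = E :=
  sup_eq_left.2 (IntermediateField.adjoin_simple_le_iff.2 hy)

theorem Rg2_sup_sq (E : IntermediateField ℂ L) (y : L) :
    E ⊔ IntermediateField.adjoin ℂ {y ^ 2} ⊔ IntermediateField.adjoin ℂ {y} =
      E ⊔ IntermediateField.adjoin ℂ {y} := by
  rw [sup_assoc, sup_eq_right.2 (IntermediateField.adjoin_simple_le_iff.2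
    (pow_mem (IntermediateField.mem_adjoin_simple_self ℂ y) 2))]

theorem step_unit {x P : LP L} (hP : NP x ⊤ P) {E : IntermediateField ℂ L} (hx : ∀ a ∈ x.O, a ∈ E)
    {u v y : L} (h : (res x E P).Rg u v E) (hy : (res x E P).U (y ^ 2)) :
    (res x (E ⊔ IntermediateField.adjoin ℂ {y}) P).Rg u v (E ⊔ IntermediateField.adjoin ℂ {y}) := by
  by_cases hE : y ∈ E
  · rwa [Rg2_sup_eq hE]
  · exact Rg2_unit h (Rg2_np hP hx le_sup_left) hE hy

theorem step_ram {x P : LP L} (hP : NP x ⊤ P) {E : IntermediateField ℂ L} (hx : ∀ a ∈ x.O, a ∈ E)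
    {u v y : L} (h : (res x E P).Rg u v E) (hy : y ^ 2 = u) :
    (res x (E ⊔ IntermediateField.adjoin ℂ {y}) P).Rg y v (E ⊔ IntermediateField.adjoin ℂ {y}) :=
  Rg2_ram h (Rg2_np hP hx le_sup_left) hy

theorem Rg2_ev_ram {x P S : LP L} (hP : NP x ⊤ P) (hS : S.Le P) {u y ε p q : L} (hu : S.m u)
    (hε : ε ∈ S.O) (hy : y ^ 2 = ε * u) (hp : p ∈ S.O) (hq : q ∈ S.O) :
    P.ev (p + q * y) = S.ev p := by
  have h1 := Rg2_m hS (LP.m.mul_left hε hu)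
  have h2 : y ∈ P.O := hP.normal IntermediateField.mem_top (Rg2_int_pow two_pos (hy ▸ h1.1))
  have h3 : P.ev y = 0 := by
    have e1 : P.ev y ^ 2 = 0 := by rw [← P.hom.pow h2, hy, h1.2]
    exact pow_eq_zero_iff two_ne_zero |>.1 e1
  rw [P.hom.add _ (hS p hp).1 _ (P.O.mul_mem (hS q hq).1 h2), P.hom.mul _ (hS q hq).1 _ h2, h3,
    mul_zero, add_zero, (hS p hp).2]

/-- two points agreeing at level `E` agree after a ramified quadratic extension -/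
theorem ram_agree {x P P' : LP L} (hP : NP x ⊤ P) (hP' : NP x ⊤ P') {E : IntermediateField ℂ L}
    (hx : ∀ a ∈ x.O, a ∈ E) {u v y ε : L} (h : (res x E P).Rg u v E) (hε : (res x E P).U ε)
    (hy : y ^ 2 = ε * u) (e : ∀ b ∈ Bx x E, P.ev b = P'.ev b) :
    ∀ b ∈ Bx x (E ⊔ IntermediateField.adjoin ℂ {y}), P.ev b = P'.ev b := by
  intro b hb
  obtain ⟨h1, h2⟩ := res_np hP le_top hx
  obtain ⟨h1', h2'⟩ := res_np hP' le_top hx
  have h3 : res x E P = res x E P' := h1.ext h1' fun b hb => by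
    rw [← (h2 b (h1.int b hb)).2, ← (h2' b (h1'.int b hb)).2, e b hb]
  rw [← h3] at h2'
  have hy2 : y ^ 2 ∈ (res x E P).O := hy ▸ (res x E P).O.mul_mem hε.1 h.gen.1.1
  obtain ⟨p, hp, q, hq, rfl⟩ := Rg2_B h (Rg2_notMem h hε hy) hy2 (hy ▸ Rg2_sq_ram h hε)
    (mem_Bx.2 ⟨Ext_int_mono (fun a ha => (h1.le a ha).1) (mem_Bx.1 hb).1, (mem_Bx.1 hb).2⟩)
  rw [Rg2_ev_ram hP h2 h.gen.1 hε.1 hy hp hq, Rg2_ev_ram hP' h2' h.gen.1 hε.1 hy hp hq]

theorem step_units {x P : LP L} (hP : NP x ⊤ P) {E : IntermediateField ℂ L} (hx : ∀ a ∈ x.O, a ∈ E)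
    {u v y : L} (h : (res x E P).Rg u v E) {a : ℕ} (hy : (res x E P).U (y ^ 2 ^ a)) :
    (res x (E ⊔ IntermediateField.adjoin ℂ {y}) P).Rg u v (E ⊔ IntermediateField.adjoin ℂ {y}) := by
  induction a generalizing y with
  | zero =>
    rw [pow_zero, pow_one] at hy
    rwa [Rg2_sup_eq (h.sub y hy.1)]
  | succ a ih =>
    rw [pow_succ', pow_mul] at hy
    have h1 := ih hy
    have h2 := res_mono hP (le_sup_left : E ≤ E ⊔ IntermediateField.adjoin ℂ {y ^ 2}) hx _ hy.1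
    have h3 := h1.normal _ (Rg2_y_mem E (y ^ 2)) (Rg2_int_pow (pow_pos two_pos a) h2.1)
    have h4 := step_unit hP (fun a ha => (le_sup_left : E ≤ _) (hx a ha)) h1 (y := y) ⟨h3, fun e => by
      refine hy.2 ?_
      rw [← h2.2, HomOn.pow (LP.hom _) h3, e, zero_pow (pow_pos two_pos a).ne']⟩
    rwa [Rg2_sup_sq] at h4

theorem step_rams {x P : LP L} (hP : NP x ⊤ P) {E : IntermediateField ℂ L} (hx : ∀ a ∈ x.O, a ∈ E)
    {u v y : L} (h : (res x E P).Rg u v E) {a : ℕ} (hy : y ^ 2 ^ a = u) :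
    (res x (E ⊔ IntermediateField.adjoin ℂ {y}) P).Rg y v (E ⊔ IntermediateField.adjoin ℂ {y}) := by
  induction a generalizing y with
  | zero =>
    rw [pow_zero, pow_one] at hy
    subst hy
    rwa [Rg2_sup_eq (h.sub y h.gen.1.1)]
  | succ a ih =>
    rw [pow_succ', pow_mul] at hy
    have h4 := step_ram hP (fun a ha => (le_sup_left : E ≤ _) (hx a ha)) (ih hy) (y := y) rfl
    rwa [Rg2_sup_sq] at h4

theorem rams_agree {x P P' : LP L} (hP : NP x ⊤ P) (hP' : NP x ⊤ P') {E : IntermediateField ℂ L}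
    (hx : ∀ a ∈ x.O, a ∈ E) {u v y : L} (h : (res x E P).Rg u v E) {a : ℕ}
    (hy : y ^ 2 ^ a = u) (e : ∀ b ∈ Bx x E, P.ev b = P'.ev b) :
    ∀ b ∈ Bx x (E ⊔ IntermediateField.adjoin ℂ {y}), P.ev b = P'.ev b := by
  induction a generalizing y with
  | zero =>
    rw [pow_zero, pow_one] at hy
    subst hy
    rwa [Rg2_sup_eq (h.sub y h.gen.1.1)]
  | succ a ih =>
    rw [pow_succ', pow_mul] at hy
    have h4 := ram_agree hP hP' (fun a ha => (le_sup_left : E ≤ _) (hx a ha))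
      (step_rams hP hx h hy) (y := y) (ε := 1)
      ⟨Subalgebra.one_mem _, by rw [HomOn.one (LP.hom _)]; exact one_ne_zero⟩ (one_mul _).symm (ih hy)
    rwa [Rg2_sup_sq] at h4

theorem roots_agree {x P P' : LP L} (hP : NP x ⊤ P) (hP' : NP x ⊤ P') {E : IntermediateField ℂ L}
    {u v u' v' : L} (h : x.Rg u v E) {a : ℕ} (hu : u' ^ 2 ^ a = u) (hv : v' ^ 2 ^ a = v) :
    ∀ b ∈ Bx x (E ⊔ IntermediateField.adjoin ℂ {u', v'}), P.ev b = P'.ev b := by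
  have h0 : (res x E P).Rg u v E := by rwa [h.res_self hP]
  have e0 : ∀ b ∈ Bx x E, P.ev b = P'.ev b := fun b hb => by
    have h1 := h.normal b (mem_Bx.1 hb).2 (mem_Bx.1 hb).1
    rw [(hP.le b h1).2, (hP'.le b h1).2]
  have h2 := rams_agree hP hP' (fun a ha => (le_sup_left : E ≤ _) (h.sub a ha))
    (step_rams hP h.sub h0 hu).swap hv (rams_agree hP hP' h.sub h0 hu e0)
  rwa [sup_assoc, ← IntermediateField.adjoin_union, Set.singleton_union] at h2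

end Vale.Agent.P300
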