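import Vale.Agent.P300.Tr

/-! Towers of square roots of units. Induction on `Tw`. `Tw.normal`: if `F ≤ F'` with `F'` a normal
tower, adjoin to `F'` all conjugates of `y` (roots of `minpoly`; their squares are conjugates of
`y ^ 2 ∈ F'`, and `Un` is Galois invariant as `R0 ⊆ K`). -/

open scoped LinearAlgebra.Projectivization Topology Classical Pointwise
open Polynomial

set_option linter.unusedSectionVars false

namespace Vale.Agent.P300

variable {L : Type} [Field L] [Algebra ℂ L] [IsAlgClosed L] (A : Amb L)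

theorem Amb.tw_form (R : Subalgebra ℂ L) (hs : A.s ∈ R) (hz : A.z ∈ R) (l : Ln) :
    A.form l ∈ R := by
  rcases l with _ | j | _ | a | a
  exacts [one_mem _, sub_mem hs (algebraMap_mem _ _), sub_mem hz (zero_mem _),
    sub_mem hz (algebraMap_mem _ _), sub_mem hz (mul_mem (algebraMap_mem _ _) hs)]

theorem Amb.tw_int {a : L} (h : a ∈ A.R0) : IsIntegral A.R0 a :=
  isIntegral_algebraMap (x := (⟨a, h⟩ : A.R0))

theorem Amb.tw_pow {F : IntermediateField A.K L} (h : A.Tw F) :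
    ∃ k, ∀ g : A.G, g ^ 2 ^ k ∈ F.fixingSubgroup := by
  induction h with
  | bot => exact ⟨0, fun g => by simp⟩
  | step F y _ hy _ ih =>
    obtain ⟨k, hk⟩ := ih
    refine ⟨k + 1, fun g => ?_⟩
    rw [IntermediateField.fixingSubgroup_sup, pow_succ, pow_mul]
    refine Subgroup.mem_inf.2 ⟨pow_mem (hk g) 2, ?_⟩
    rw [← Subgroup.zpowers_le, ← IntermediateField.le_iff_le,
      IntermediateField.adjoin_simple_le_iff, IntermediateField.mem_fixedField_iff]
    have h1 := (IntermediateField.mem_fixingSubgroup_iff _ _).1 (hk g) _ hy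
    rw [map_pow] at h1
    have h2 : ((g ^ 2 ^ k) ^ 2) y = y := by
      rw [sq, AlgEquiv.mul_apply]
      rcases sq_eq_sq_iff_eq_or_eq_neg.1 h1 with e | e
      · rw [e, e]
      · rw [e, map_neg, e, neg_neg]
    intro f hf
    exact Subgroup.zpowers_le (H := MulAction.stabilizer A.G y) |>.2 h2 hf

theorem Amb.form_mem (l : Ln) : A.form l ∈ A.K := by
  have hs : A.s ∈ A.K := IntermediateField.subset_adjoin ℂ _ (by simp)
  have hz : A.z ∈ A.K := IntermediateField.subset_adjoin ℂ _ (by simp)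
  exact A.tw_form A.K.toSubalgebra hs hz l

theorem Amb.form_ne (l : Ln) : A.form l ≠ 0 := by
  have h : ∀ b c d : ℂ, b ≠ 0 ∨ c ≠ 0 →
      algebraMap ℂ L b * A.z + algebraMap ℂ L c * A.s + algebraMap ℂ L d ≠ 0 := by
    intro b c d h e
    have h1 := A.ind.eq_zero_of_aeval_eq_zero (MvPolynomial.C b * MvPolynomial.X 1 +
      MvPolynomial.C c * MvPolynomial.X 0 + MvPolynomial.C d) (by simpa using e)
    have h2 := congrArg (MvPolynomial.eval ![0, 0]) h1
    have h3 := congrArg (MvPolynomial.eval ![1, 0]) h1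
    have h4 := congrArg (MvPolynomial.eval ![0, 1]) h1
    simp at h2 h3 h4
    simp [h2] at h3 h4
    tauto
  rcases l with _ | j | _ | a | a
  · exact one_ne_zero
  · simpa [Amb.form, sub_eq_add_neg] using h 0 1 (-j.val) (by simp)
  · simpa [Amb.form, Amb.p] using h 1 0 0 (by simp)
  · simpa [Amb.form, Amb.p, mu, sub_eq_add_neg] using h 1 0 (-muC a) (by simp)
  · simpa [Amb.form, Amb.p, mu, sub_eq_add_neg] using h 1 (-muC a) 0 (by simp)

theorem Amb.R0_sub : ∀ a ∈ A.R0, a ∈ A.K := by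
  refine Algebra.adjoin_le (S := A.K.toSubalgebra) (Set.union_subset ?_ ?_)
  · exact IntermediateField.subset_adjoin ℂ _
  · rintro _ ⟨l, rfl⟩
    exact A.K.inv_mem (A.form_mem l)

theorem Amb.R0_fg : A.R0.FG := by
  exact Subalgebra.fg_def.2 ⟨_, (Set.toFinite _).union (Set.finite_range _), rfl⟩

theorem Amb.un_form (l : Ln) : A.Un (A.form l) := by
  exact ⟨A.form_ne l, A.tw_int (A.tw_form _ (Algebra.subset_adjoin (by simp))
    (Algebra.subset_adjoin (by simp)) l), A.tw_int (Algebra.subset_adjoin (Or.inr ⟨l, rfl⟩))⟩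

theorem Amb.un_const {c : ℂ} (hc : c ≠ 0) : A.Un (algebraMap ℂ L c) := by
  refine ⟨(_root_.map_ne_zero _).2 hc, A.tw_int (algebraMap_mem _ c), ?_⟩
  rw [← map_inv₀]
  exact A.tw_int (algebraMap_mem _ _)

theorem Amb.Un.mul {a b : L} (ha : A.Un a) (hb : A.Un b) : A.Un (a * b) := by
  exact ⟨mul_ne_zero ha.1 hb.1, ha.2.1.mul hb.2.1, mul_inv a b ▸ ha.2.2.mul hb.2.2⟩

theorem Amb.Un.inv {a : L} (ha : A.Un a) : A.Un a⁻¹ := by
  exact ⟨inv_ne_zero ha.1, ha.2.2, (inv_inv a).symm ▸ ha.2.1⟩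

theorem Amb.Un.of_pow {a : L} {n : ℕ} (hn : 1 ≤ n) (ha : A.Un (a ^ n)) : A.Un a := by
  refine ⟨fun h => ha.1 (by rw [h, zero_pow (by omega)]), ha.2.1.of_pow hn,
    IsIntegral.of_pow hn ?_⟩
  rw [inv_pow]
  exact ha.2.2

theorem Amb.Un.of_mul {a b : L} (h : A.Un (a * b)) (ha : IsIntegral A.R0 a)
    (hb : IsIntegral A.R0 b) : A.Un a := by
  refine ⟨left_ne_zero_of_mul h.1, ha, ?_⟩
  have := hb.mul h.2.2
  rwa [mul_inv, mul_left_comm, mul_inv_cancel₀ (right_ne_zero_of_mul h.1), mul_one] at this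

theorem Amb.Un.map {a : L} (ha : A.Un a) (g : A.G) : A.Un (g a) := by
  have h : ∀ {b : L}, IsIntegral A.R0 b → IsIntegral A.R0 (g b) := fun hb =>
    hb.map_of_comp_eq (RingHom.id _) (g : L →+* L)
      (RingHom.ext fun x => (A.fixK g (A.R0_sub _ x.2)).symm)
  exact ⟨(map_ne_zero g).2 ha.1, h ha.2.1, map_inv₀ g a ▸ h ha.2.2⟩

theorem Amb.Rat.un {u : L} (h : A.Rat u) : A.Un u ∧ u ∈ A.K := by
  obtain ⟨l, l', rfl⟩ := h
  refine ⟨?_, div_mem (A.form_mem l) (A.form_mem l')⟩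
  rw [div_eq_mul_inv]
  exact (A.un_form l).mul A ((A.un_form l').inv A)

theorem Amb.Tw.finite {F : IntermediateField A.K L} (h : A.Tw F) : FiniteDimensional A.K F := by
  induction h with
  | bot => infer_instance
  | step F y _ _ _ ih =>
    have := IntermediateField.adjoin.finiteDimensional (Algebra.IsIntegral.isIntegral (R := A.K) y)
    exact IntermediateField.finiteDimensional_sup _ _

theorem Amb.Tw.sup {F F' : IntermediateField A.K L} (h : A.Tw F) (h' : A.Tw F') : A.Tw (F ⊔ F') := by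
  induction h' with
  | bot => rwa [sup_bot_eq]
  | step F' y _ hy hu ih =>
    rw [← sup_assoc]
    exact .step _ y ih ((le_sup_right : F' ≤ F ⊔ F') hy) hu

theorem Amb.Tw.map {F : IntermediateField A.K L} (h : A.Tw F) (g : A.G) :
    A.Tw (F.map (g : L →ₐ[A.K] L)) := by
  induction h with
  | bot =>
    rw [IntermediateField.map_bot]
    exact .bot
  | step F y _ hy hu ih =>
    rw [IntermediateField.map_sup, IntermediateField.adjoin_map, Set.image_singleton]
    exact .step _ _ ih ⟨y ^ 2, hy, map_pow _ _ _⟩ (hu.map A g)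

theorem Amb.Tw.normal {F : IntermediateField A.K L} (h : A.Tw F) :
    ∃ F', F ≤ F' ∧ A.Tw F' ∧ Normal A.K F' := by
  have := h.finite A
  refine ⟨IntermediateField.normalClosure A.K F L, F.le_normalClosure, ?_, inferInstance⟩
  rw [normalClosure_def, ← Finset.sup_univ_eq_iSup]
  refine Finset.sup_induction .bot (fun _ h _ h' => h.sup A h') fun f _ => ?_
  have e : f.fieldRange = F.map (AlgEquiv.ofBijective (f.liftNormal L)
      (AlgHom.normal_bijective A.K L L _) : A.G) := by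
    ext b
    exact ⟨fun ⟨a, ha⟩ => ⟨a, a.2, ha ▸ f.liftNormal_commutes L a⟩,
      fun ⟨a, ha, e⟩ => ⟨⟨a, ha⟩, e ▸ (f.liftNormal_commutes L ⟨a, ha⟩).symm⟩⟩
  rw [e]
  exact h.map A _

theorem Amb.Tw.fix {F : IntermediateField A.K L} (h : A.Tw F) (hF : Normal A.K F) :
    F.fixingSubgroup.Normal ∧ F.fixingSubgroup.FiniteIndex ∧
      ∃ k, ∀ g : A.G, g ^ 2 ^ k ∈ F.fixingSubgroup := by
  have := h.finite A
  refine ⟨⟨fun n hn g => (IntermediateField.mem_fixingSubgroup_iff _ _).2 fun a ha => ?_⟩,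
    ⟨?_⟩, A.tw_pow h⟩
  · rw [AlgEquiv.mul_apply, AlgEquiv.mul_apply,
      (IntermediateField.mem_fixingSubgroup_iff _ _).1 hn _ (A.nm hF g⁻¹ ha), ← AlgEquiv.mul_apply,
      mul_inv_cancel, AlgEquiv.one_apply]
  · rw [← IntermediateField.finrank_eq_fixingSubgroup_index]
    exact Module.finrank_pos.ne'

/-- the big field -/
def Amb.OmF : IntermediateField A.K L where
  carrier := {a | A.Om a}
  mul_mem' := fun ⟨F, h, ha⟩ ⟨F', h', hb⟩ => ⟨F ⊔ F', h.sup A h',
    mul_mem ((le_sup_left : F ≤ F ⊔ F') ha) ((le_sup_right : F' ≤ F ⊔ F') hb)⟩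
  add_mem' := fun ⟨F, h, ha⟩ ⟨F', h', hb⟩ => ⟨F ⊔ F', h.sup A h',
    add_mem ((le_sup_left : F ≤ F ⊔ F') ha) ((le_sup_right : F' ≤ F ⊔ F') hb)⟩
  algebraMap_mem' := fun c => ⟨⊥, .bot, algebraMap_mem _ c⟩
  inv_mem' := fun _ ⟨F, h, ha⟩ => ⟨F, h, inv_mem ha⟩

theorem Amb.mem_OmF {a : L} : a ∈ A.OmF ↔ A.Om a := Iff.rfl

theorem Amb.om_K {a : L} (h : a ∈ A.K) : A.Om a := A.OmF.algebraMap_mem ⟨a, h⟩

theorem Amb.Om.map {a : L} (h : A.Om a) (g : A.G) : A.Om (g a) := by
  obtain ⟨F, hF, ha⟩ := h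
  exact ⟨_, hF.map A g, a, ha, rfl⟩

theorem Amb.Om.root {y : L} {a : ℕ} (h : A.Om (y ^ 2 ^ a)) (hu : A.Un (y ^ 2 ^ a)) : A.Om y := by
  induction a generalizing y with
  | zero => simpa using h
  | succ a ih =>
    have hy := hu.of_pow A Nat.one_le_two_pow
    rw [pow_succ', pow_mul] at h hu
    obtain ⟨F, hF, h2⟩ := ih h hu
    exact ⟨_, .step F y hF h2 hy, (le_sup_right : _ ≤ F ⊔ IntermediateField.adjoin A.K {y})
      (IntermediateField.mem_adjoin_simple_self _ y)⟩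

theorem Amb.tw_of_finset (s : Finset L) (h : ∀ a ∈ s, A.Om a) : ∃ F, A.Tw F ∧ ∀ a ∈ s, a ∈ F := by
  choose! F h1 h2 using h
  exact ⟨s.sup F, Finset.sup_induction .bot (fun _ h _ h' => h.sup A h') h1,
    fun a ha => Finset.le_sup (f := F) ha (h2 a ha)⟩

theorem Amb.rs_sup (F : IntermediateField A.K L) (s : Set L) :
    A.rs (F ⊔ IntermediateField.adjoin A.K s) = A.rs F ⊔ IntermediateField.adjoin ℂ s := by
  have h : A.K ≤ A.rs F := fun a ha => F.algebraMap_mem ⟨a, ha⟩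
  rw [Amb.rs, ← IntermediateField.restrictScalars_sup,
    IntermediateField.restrictScalars_adjoin_eq_sup, ← sup_assoc, sup_eq_left.2 h]

theorem Amb.rs_bot : A.rs ⊥ = A.K := by
  exact IntermediateField.restrictScalars_bot_eq_self _

theorem Amb.iv_dv {V : ValuationSubring L} {F : IntermediateField A.K L} (h : A.Tw F)
    (hF : Normal A.K F) {g : A.G} (hg : A.IV V F g) : g ∈ A.IVs V hF := by
  refine ⟨fun a ha => ⟨fun h1 => by_contra fun h2 => ?_, fun h1 => ?_⟩, hg⟩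
  · have h3 := V.inv_mem_nonunits_iff.2 (Or.inr h2)
    have h4 := V.nonunits.add_mem (hg _ (F.inv_mem ha) (V.nonunits_subset h3)) h3
    rw [sub_add_cancel, map_inv₀, V.inv_mem_nonunits_iff, map_eq_zero] at h4
    exact h4.elim (fun e => h2 (e ▸ V.zero_mem)) fun e => e h1
  · have h2 := V.add_mem _ _ (V.nonunits_subset (hg a ha h1)) h1
    rwa [sub_add_cancel] at h2

theorem Amb.IVO.iv {V : ValuationSubring L} {F : IntermediateField A.K L} (h : A.Tw F) {g : A.G}
    (hg : A.IVO V g) : A.IV V F g := fun a ha hv => hg a ⟨F, h, ha⟩ hv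

end Vale.Agent.P300
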