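import Vale.Agent.P300.Rg2
import Vale.Agent.P300.Tw
import Vale.Agent.P300.Norm

/-! Good levels exist (Abhyankar). Say `St F a` if for all charts, points and roots `u', v'` of order
`2 ^ a` (flagged parameters only) `res (F ⊔ ℂ(u', v'))` is `Rg u' v'`. `St ⊥ 0` (`cl_rg`, `res_self`);
`St F a → St F (a + 1)` (`step_ram`); if `y ^ 2 ∈ F`, `Un y` then by `r0` both `y ^ 2 w ^ N` and
`y⁻¹ ^ 2 w ^ N` (`w` the product of the flagged parameters) are integral over `cl u v`, so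
`y ^ 2 = ε u' ^ i v' ^ j` with `i, j ∈ ℤ` (`factor`), and after one more `step_ram` the element
`y / (u'' ^ i v'' ^ j)` has a unit square: `St (F ⊔ K(y)) (a + 1)`. Finally adjoin the roots of all
forms (`step_units`; a flagged parameter is a ratio of forms, so its roots lie in the field). -/

open scoped LinearAlgebra.Projectivization Topology Classical Pointwise
open Polynomial

set_option linter.unusedSectionVars false

namespace Vale.Agent.P300

variable {L : Type} [Field L] [Algebra ℂ L] [IsAlgClosed L] (A : Amb L)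

theorem Amb.Ch.sub {u v : L} {fu fv : Bool} (h : A.Ch u v fu fv) : ∀ a ∈ (cl u v).O, a ∈ A.K := by
  exact fun a ha => h.gen ▸ (cl_rg h.ind).sub a ha

theorem Amb.Ch.rg {u v : L} {fu fv : Bool} (h : A.Ch u v fu fv) : (cl u v).Rg u v A.K := by
  exact h.gen ▸ cl_rg h.ind

theorem Amb.Ch.swap {u v : L} {fu fv : Bool} (h : A.Ch u v fu fv) : A.Ch v u fv fu := by
  refine ⟨ind_swap h.ind, by rw [Set.pair_comm, h.gen], fun a ha => ?_, h.rv, h.ru⟩
  rw [← cl_swap h.ind, mul_comm (if fv then v else 1)]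
  exact h.r0 a ha

theorem rg3_l (E : IntermediateField ℂ L) (u v : L) : u ∈ E ⊔ IntermediateField.adjoin ℂ {u, v} :=
  (le_sup_right : _ ≤ E ⊔ _) (IntermediateField.subset_adjoin _ _ (by simp))

theorem rg3_r (E : IntermediateField ℂ L) (u v : L) : v ∈ E ⊔ IntermediateField.adjoin ℂ {u, v} :=
  (le_sup_right : _ ≤ E ⊔ _) (IntermediateField.subset_adjoin _ _ (by simp))

theorem rg3_sl {E G : IntermediateField ℂ L} {c : L} (h : c ∈ E) : c ∈ E ⊔ G :=
  (le_sup_left : E ≤ E ⊔ G) h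

theorem rg3_le {E : IntermediateField ℂ L} {u v : L} (hu : u ∈ E) (hv : v ∈ E) :
    IntermediateField.adjoin ℂ {u, v} ≤ E :=
  IntermediateField.adjoin_le_iff.2 (Set.insert_subset hu (Set.singleton_subset_iff.2 hv))

theorem rg3_div {k : Type} [Field k] [Algebra k L] {E : IntermediateField k L} {y z : L}
    (h1 : z ∈ E ⊔ IntermediateField.adjoin k {y}) (h2 : y ∈ E ⊔ IntermediateField.adjoin k {z}) :
    E ⊔ IntermediateField.adjoin k {z} = E ⊔ IntermediateField.adjoin k {y} :=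
  le_antisymm (sup_le le_sup_left (IntermediateField.adjoin_simple_le_iff.2 h1))
    (sup_le le_sup_left (IntermediateField.adjoin_simple_le_iff.2 h2))

theorem rg3_self {k : Type} [Field k] [Algebra k L] (E : IntermediateField k L) (y : L) :
    y ∈ E ⊔ IntermediateField.adjoin k {y} :=
  (le_sup_right : _ ≤ E ⊔ _) (IntermediateField.mem_adjoin_simple_self k y)

theorem rg3_ex (f : Bool) (a b : ℕ) (w : L) :
    (w ^ (if f then 2 ^ b else 1)) ^ (if f then 2 ^ a else 1) =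
      w ^ (if f then 2 ^ (a + b) else 1) := by
  cases f <;> simp [← pow_mul, pow_add, mul_comm]

/-- regularity after adjoining the roots of the parameters -/
def Amb.St (F : IntermediateField A.K L) (a : ℕ) : Prop :=
  ∀ u v fu fv, A.Ch u v fu fv → ∀ P, Ab (cl u v) P → ∀ u' v' : L,
    u' ^ (if fu then 2 ^ a else 1) = u → v' ^ (if fv then 2 ^ a else 1) = v →
    (res (cl u v) (A.rs F ⊔ IntermediateField.adjoin ℂ {u', v'}) P).Rg u' v'
      (A.rs F ⊔ IntermediateField.adjoin ℂ {u', v'})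

theorem Amb.rg3_K (F : IntermediateField A.K L) : A.K ≤ A.rs F :=
  fun a ha => F.algebraMap_mem ⟨a, ha⟩

theorem Amb.st_bot : A.St ⊥ 0 := by
  intro u v fu fv h P hP u' v' hu hv
  simp only [pow_zero, ite_self, pow_one] at hu hv
  subst hu hv
  rw [A.rs_bot, h.gen, sup_idem, (h.rg A).res_self hP]
  exact h.rg A

theorem Amb.St.add {F : IntermediateField A.K L} {a : ℕ} (hF : A.St F a) (b : ℕ) :
    A.St F (a + b) := by
  intro u v fu fv h P hP u' v' hu hv
  have h1 := hF u v fu fv h P hP _ _ ((rg3_ex fu a b u').trans hu) ((rg3_ex fv a b v').trans hv)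
  have hx : ∀ c ∈ (cl u v).O, c ∈ A.rs F := fun c hc => A.rg3_K F (h.sub A c hc)
  have h2 := step_rams hP (fun c hc => rg3_sl (hx c hc)) h1 (y := u')
    (a := if fu then b else 0) (by cases fu <;> simp)
  have h3 := step_rams hP (fun c hc => rg3_sl (rg3_sl (hx c hc)))
    h2.swap (y := v') (a := if fv then b else 0) (by cases fv <;> simp)
  have e : A.rs F ⊔ IntermediateField.adjoin ℂ
      {u' ^ (if fu then 2 ^ b else 1), v' ^ (if fv then 2 ^ b else 1)} ⊔
      IntermediateField.adjoin ℂ {u'} ⊔ IntermediateField.adjoin ℂ {v'} =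
      A.rs F ⊔ IntermediateField.adjoin ℂ {u', v'} := by
    refine le_antisymm (sup_le (sup_le (sup_le le_sup_left
      (rg3_le (pow_mem (rg3_l _ _ _) _) (pow_mem (rg3_r _ _ _) _)))
      (IntermediateField.adjoin_simple_le_iff.2 (rg3_l _ _ _)))
      (IntermediateField.adjoin_simple_le_iff.2 (rg3_r _ _ _)))
      (sup_le (le_sup_left.trans (le_sup_left.trans le_sup_left))
        (rg3_le (rg3_sl (rg3_self _ _)) (rg3_self _ _)))
  rw [e] at h3
  exact h3.swap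

theorem Amb.Ch.factor {u v : L} {fu fv : Bool} (h : A.Ch u v fu fv) {P : LP L}
    (hP : Ab (cl u v) P) {E : IntermediateField ℂ L} (hE : A.K ≤ E) {u' v' : L} {a : ℕ}
    (hu : u' ^ (if fu then 2 ^ a else 1) = u) (hv : v' ^ (if fv then 2 ^ a else 1) = v)
    (hS : (res (cl u v) E P).Rg u' v' E) {g : L} (hg : g ∈ E) (hU : A.Un g) :
    ∃ (ε : L) (i j : ℤ), (res (cl u v) E P).U ε ∧ (fu = false → i = 0) ∧ (fv = false → j = 0) ∧
      g = ε * u' ^ i * v' ^ j := by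
  obtain ⟨w, hw⟩ : ∃ w, w = (if fu then u else 1) * (if fv then v else 1) := ⟨_, rfl⟩
  obtain ⟨p, hp⟩ : ∃ p : ℕ, p = if fu then 2 ^ a else 0 := ⟨_, rfl⟩
  obtain ⟨q, hq⟩ : ∃ q : ℕ, q = if fv then 2 ^ a else 0 := ⟨_, rfl⟩
  have e : w = u' ^ p * v' ^ q := by
    rw [hw, hp, hq, ← hu, ← hv]
    cases fu <;> cases fv <;> simp
  have hwO : w ∈ (cl u v).O := by
    rw [hw]
    refine mul_mem ?_ ?_ <;> split_ifs
    exacts [(cl_gen h.ind).1.1, one_mem _, (cl_gen h.ind).2.1.1, one_mem _]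
  have hx : ∀ c ∈ (cl u v).O, c ∈ E := fun c hc => hE (h.sub A c hc)
  have key : ∀ b ∈ E, IsIntegral A.R0 b → ∃ N : ℕ, w ^ N * b ∈ (res (cl u v) E P).O := by
    intro b hb hi
    obtain ⟨_, ⟨N, rfl⟩, hN⟩ := norm_clear (R := (cl u v).O) (Submonoid.powers w)
      (by rintro _ ⟨N, rfl⟩; exact pow_mem hwO N) (fun c hc => by
        obtain ⟨N, hN⟩ := h.r0 c hc
        exact ⟨w ^ N, ⟨N, rfl⟩, by rwa [mul_comm, hw]⟩) hi
    exact ⟨N, (res_np hP le_top hx).1.int _ ⟨hN, mul_mem (pow_mem (hx w hwO) N) hb⟩⟩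
  obtain ⟨N₁, h₁⟩ := key g hg hU.2.1
  obtain ⟨N₂, h₂⟩ := key g⁻¹ (inv_mem hg) hU.2.2
  have g0 := hU.1
  have u0 := hS.ne
  have v0 := hS.swap.ne
  obtain ⟨i, j, ε, hi, hj, hε, he⟩ := hS.factor h₁ (i := p * (N₁ + N₂)) (j := q * (N₁ + N₂))
    ⟨_, h₂, by rw [e]; field_simp; ring⟩
  refine ⟨ε, i - (p * N₁ : ℕ), j - (q * N₁ : ℕ), hε, fun k => ?_, fun k => ?_, ?_⟩
  · simp only [k, Bool.false_eq_true, if_false] at hp
    subst hp
    omega
  · simp only [k, Bool.false_eq_true, if_false] at hq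
    subst hq
    omega
  · rw [zpow_sub₀ u0, zpow_sub₀ v0, zpow_natCast, zpow_natCast, zpow_natCast, zpow_natCast]
    rw [e] at he
    field_simp
    rw [← he]
    ring

theorem rg3_zpow {f : Bool} {i : ℤ} (h : f = false → i = 0) (w : L) (b : ℕ) :
    (w ^ i) ^ 2 ^ b = (w ^ (if f then 2 ^ b else 1)) ^ i := by
  cases f
  · simp [h rfl]
  · rw [if_pos rfl, ← zpow_natCast, ← zpow_natCast, zpow_comm]

theorem Amb.St.root {F₁ F₂ : IntermediateField A.K L} {a b : ℕ} (h1 : A.St F₁ a)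
    (h2 : A.St F₂ (a + b)) (hle : F₁ ≤ F₂) {y : L} (hy : y ^ 2 ^ b ∈ F₁)
    (hU : A.Un (y ^ 2 ^ b)) : A.St (F₂ ⊔ IntermediateField.adjoin A.K {y}) (a + b) := by
  intro u v fu fv h P hP u' v' hu hv
  have e1 := (rg3_ex fu a b u').trans hu
  have e2 := (rg3_ex fv a b v').trans hv
  have S1 := h1 u v fu fv h P hP _ _ e1 e2
  have S2 := h2 u v fu fv h P hP u' v' hu hv
  obtain ⟨ε, i, j, hε, hi, hj, he⟩ := h.factor A hP ((A.rg3_K F₁).trans le_sup_left) e1 e2 S1
    (rg3_sl (show _ ∈ A.rs F₁ from hy)) hU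
  have hm := res_mono hP (sup_le ((show A.rs F₁ ≤ A.rs F₂ from hle).trans le_sup_left)
    (rg3_le (pow_mem (rg3_l (A.rs F₂) u' v') (if fu then 2 ^ b else 1))
      (pow_mem (rg3_r (A.rs F₂) u' v') (if fv then 2 ^ b else 1))))
    (fun c hc => rg3_sl (A.rg3_K F₁ (h.sub A c hc))) ε hε.1
  have u0 := zpow_ne_zero i S2.ne
  have v0 := zpow_ne_zero j S2.swap.ne
  have ht : u' ^ i * v' ^ j ∈ A.rs F₂ ⊔ IntermediateField.adjoin ℂ {u', v'} :=
    mul_mem (zpow_mem (rg3_l _ _ _) i) (zpow_mem (rg3_r _ _ _) j)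
  have e3 : (y / (u' ^ i * v' ^ j)) ^ 2 ^ b = ε := by
    rw [div_pow, he, ← rg3_zpow hi, ← rg3_zpow hj]
    rw [mul_assoc, ← mul_pow, mul_div_cancel_right₀ _ (pow_ne_zero _ (mul_ne_zero u0 v0))]
  have S3 := step_units hP (fun c hc => rg3_sl (A.rg3_K F₂ (h.sub A c hc))) S2
    (y := y / (u' ^ i * v' ^ j)) (a := b) (by rw [e3]; exact ⟨hm.1, hm.2 ▸ hε.2⟩)
  rw [rg3_div (y := y) (div_mem (rg3_self _ _) (rg3_sl ht)) (by
    have k := mul_mem (rg3_self (k := ℂ) _ (y / (u' ^ i * v' ^ j))) (rg3_sl ht)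
    rwa [div_mul_cancel₀ _ (mul_ne_zero u0 v0)] at k)] at S3
  rwa [A.rs_sup, sup_right_comm]

theorem Amb.Tw.st {F : IntermediateField A.K L} (h : A.Tw F) : ∃ a, A.St F a := by
  induction h with
  | bot => exact ⟨0, A.st_bot⟩
  | step F y _ hy hU ih =>
    obtain ⟨a, ha⟩ := ih
    exact ⟨a + 1, ha.root A (ha.add A 1) le_rfl hy (by simpa [sq] using hU.mul A hU)⟩

theorem Amb.Tw.root (b : ℕ) : ∀ {F : IntermediateField A.K L} {y : L}, A.Tw F → y ^ 2 ^ b ∈ F →
    A.Un (y ^ 2 ^ b) → A.Tw (F ⊔ IntermediateField.adjoin A.K {y}) := by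
  induction b with
  | zero =>
    intro F y h hy _
    rwa [sup_eq_left.2 (IntermediateField.adjoin_simple_le_iff.2 (by simpa using hy))]
  | succ b ih =>
    intro F y h hy hU
    have k := Amb.Tw.step _ y (ih (y := y ^ 2) h (by rwa [← pow_mul, ← pow_succ'])
      (by rwa [← pow_mul, ← pow_succ'])) (rg3_self _ _) (hU.of_pow A Nat.one_le_two_pow)
    rwa [sup_right_comm, sup_eq_left.2 (IntermediateField.adjoin_simple_le_iff.2
      (pow_mem (rg3_self F y) 2))] at k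

theorem Amb.rg3_rat {F : IntermediateField A.K L} {a : ℕ}
    (h : ∀ l y, y ^ 2 ^ a = A.form l → y ∈ F) {u y : L} (hu : A.Rat u) (hy : y ^ 2 ^ a = u) :
    y ∈ F := by
  obtain ⟨l, l', rfl⟩ := hu
  obtain ⟨z, hz⟩ := IsAlgClosed.exists_pow_nat_eq (A.form l') (n := 2 ^ a) (by positivity)
  have z0 : z ≠ 0 := by
    rintro rfl
    exact A.form_ne l' (by rw [← hz, zero_pow (by positivity)])
  have k := div_mem (h l (y * z) (by
    rw [mul_pow, hy, hz, div_mul_cancel₀ _ (A.form_ne l')])) (h l' z hz)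
  rwa [mul_div_cancel_right₀ _ z0] at k

theorem Amb.good_exists {F₀ : IntermediateField A.K L} (h : A.Tw F₀) (a₀ : ℕ) :
    ∃ F a, A.Good F a ∧ F₀ ≤ F ∧ a₀ ≤ a := by
  obtain ⟨F₁, hle, hT, hN⟩ := h.normal A
  obtain ⟨a₁, ha₁⟩ := hT.st A
  have hS := ha₁.add A (a₀ + 1)
  generalize ha : a₁ + (a₀ + 1) = a at hS
  obtain ⟨s, hs⟩ : ∃ s : Finset L, ∀ y, y ∈ s ↔ ∃ l, y ^ 2 ^ a = A.form l :=
    ⟨Finset.univ.biUnion fun l => (nthRoots (2 ^ a) (A.form l)).toFinset, fun y => by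
      simp [mem_nthRoots (show 0 < 2 ^ a by positivity)]⟩
  have key : ∀ t : Finset L, t ⊆ s → A.Tw (F₁ ⊔ IntermediateField.adjoin A.K (t : Set L)) ∧
      A.St (F₁ ⊔ IntermediateField.adjoin A.K (t : Set L)) a := by
    intro t
    induction t using Finset.induction_on with
    | empty => simpa using ⟨hT, hS⟩
    | insert y t _ ih =>
      intro ht
      obtain ⟨i1, i2⟩ := ih ((Finset.subset_insert _ _).trans ht)
      obtain ⟨l, hl⟩ := (hs y).1 (ht (Finset.mem_insert_self _ _))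
      have m : ∀ F : IntermediateField A.K L, y ^ 2 ^ a ∈ F := fun F =>
        hl ▸ A.rg3_K F (A.form_mem l)
      have hU : A.Un (y ^ 2 ^ a) := hl ▸ A.un_form l
      rw [Finset.coe_insert, Set.insert_eq, Set.union_comm, IntermediateField.adjoin_union,
        ← sup_assoc]
      refine ⟨Amb.Tw.root A a i1 (m _) hU, ?_⟩
      simpa using A.st_bot.root A (by simpa using i2) bot_le (m _) hU
  obtain ⟨k1, k2⟩ := key s le_rfl
  have hr : ∀ l y, y ^ 2 ^ a = A.form l → y ∈ F₁ ⊔ IntermediateField.adjoin A.K (s : Set L) :=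
    fun l y hy => (le_sup_right : _ ≤ F₁ ⊔ _)
      (IntermediateField.subset_adjoin _ _ ((hs y).2 ⟨l, hy⟩))
  have hN' : Normal A.K (IntermediateField.adjoin A.K (s : Set L)) := by
    refine IntermediateField.normal_iff_forall_map_le'.2 fun σ => ?_
    rw [IntermediateField.adjoin_map]
    refine IntermediateField.adjoin.mono _ _ _ ?_
    rintro _ ⟨y, hy, rfl⟩
    obtain ⟨l, hl⟩ := (hs y).1 hy
    refine (hs _).2 ⟨l, ?_⟩
    rw [← map_pow, hl]
    exact σ.commutes ⟨_, A.form_mem l⟩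
  refine ⟨_, a, ⟨k1, inferInstance, by omega, hr, fun u v fu fv hc P hP u' v' hu hv => ?_⟩,
    hle.trans le_sup_left, by omega⟩
  have k := k2 u v fu fv hc P hP u' v' hu hv
  have m : ∀ (f : Bool) (w w' : L), w ∈ A.K → (f = true → A.Rat w) →
      w' ^ (if f then 2 ^ a else 1) = w →
      w' ∈ A.rs (F₁ ⊔ IntermediateField.adjoin A.K (s : Set L)) := by
    intro f w w' h1 h2 h3
    cases f
    · exact A.rg3_K _ (by rw [← h3] at h1; simpa using h1)
    · exact A.rg3_rat hr (h2 rfl) h3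
  rwa [sup_eq_left.2 (rg3_le (m fu u u' (hc.sub A u (cl_gen hc.ind).1.1) hc.ru hu)
    (m fv v v' (hc.sub A v (cl_gen hc.ind).2.1.1) hc.rv hv))] at k

theorem Amb.good_above (s : Finset L) (h : ∀ a ∈ s, A.Om a) {F₀ : IntermediateField A.K L}
    (h0 : A.Tw F₀) (a₀ : ℕ) : ∃ F a, A.Good F a ∧ F₀ ≤ F ∧ a₀ ≤ a ∧ ∀ b ∈ s, b ∈ F := by
  obtain ⟨F₁, h1, h2⟩ := A.tw_of_finset s h
  obtain ⟨F, a, hG, hle, ha⟩ := A.good_exists (h0.sup A h1) a₀
  exact ⟨F, a, hG, le_sup_left.trans hle, ha, fun b hb => (le_sup_right.trans hle) (h2 b hb)⟩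

theorem Amb.Good.rat_root {F : IntermediateField A.K L} {a : ℕ} (h : A.Good F a) {u y : L}
    (hu : A.Rat u) {c : ℂ} {b : ℕ} (hb : b ≤ a) (hy : y ^ 2 ^ b = algebraMap ℂ L c * u) : y ∈ F := by
  obtain ⟨z, hz⟩ := IsAlgClosed.exists_pow_nat_eq y (n := 2 ^ (a - b)) (by positivity)
  obtain ⟨d, hd⟩ := IsAlgClosed.exists_pow_nat_eq c (n := 2 ^ a) (by positivity)
  by_cases hc : c = 0
  · rw [hc, map_zero, zero_mul] at hy
    rw [pow_eq_zero_iff (by positivity) |>.1 hy]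
    exact zero_mem _
  have c0 : algebraMap ℂ L c ≠ 0 := by simpa using hc
  have d0 : algebraMap ℂ L d ≠ 0 := by
    rw [← hd, map_pow] at c0
    exact ne_zero_pow (by positivity) c0
  have k := A.rg3_rat h.roots hu (y := z / algebraMap ℂ L d) (by
    rw [div_pow, ← map_pow, hd, ← Nat.sub_add_cancel hb, pow_add, pow_mul, hz, hy,
      mul_div_cancel_left₀ _ c0])
  have k2 := mul_mem k (show algebraMap ℂ L d ∈ F from A.rg3_K F (A.K.algebraMap_mem d))
  rw [div_mul_cancel₀ _ d0] at k2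
  exact hz ▸ pow_mem k2 _

theorem Amb.NN_ne : A.NN.Nonempty := by
  obtain ⟨F, a, h, -⟩ := A.good_exists Amb.Tw.bot 0
  exact ⟨_, F, a, h, rfl⟩

theorem Amb.NN_dir : ∀ N ∈ A.NN, ∀ N' ∈ A.NN, ∃ N'' ∈ A.NN, N'' ≤ N ⊓ N' := by
  rintro _ ⟨F, a, h, rfl⟩ _ ⟨F', a', h', rfl⟩
  obtain ⟨F'', a'', h'', hle, -⟩ := A.good_exists (h.tw.sup A h'.tw) 0
  exact ⟨_, ⟨F'', a'', h'', rfl⟩,
    le_inf (IntermediateField.fixingSubgroup_le (le_sup_left.trans hle))
      (IntermediateField.fixingSubgroup_le (le_sup_right.trans hle))⟩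

end Vale.Agent.P300
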