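import Vale.Agent.P300.Top

/-! Auxiliary algebra for `Smooth`: scaling and homogenisation, the Krull and Nakayama step,
two generators of the maximal ideal. -/

open scoped LinearAlgebra.Projectivization Topology Classical

namespace Vale.Agent.P300

theorem hom_scale {ι A : Type} [CommRing A] [Algebra ℂ A] {F : MvPolynomial ι ℂ} {d : ℕ}
    (hF : F.IsHomogeneous d) (t : A) (w : ι → A) :
    MvPolynomial.aeval (fun i => t * w i) F = t ^ d * MvPolynomial.aeval w F := by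
  rw [MvPolynomial.aeval_def, MvPolynomial.aeval_def, MvPolynomial.eval₂_eq,
    MvPolynomial.eval₂_eq, Finset.mul_sum]
  refine Finset.sum_congr rfl fun s hs => ?_
  simp only [mul_pow]
  rw [Finset.prod_mul_distrib, Finset.prod_pow_eq_pow_sum, hF.degree_eq_sum_deg_support hs]
  ring

theorem hom_scale' {ι : Type} {F : MvPolynomial ι ℂ} {d : ℕ}
    (hF : F.IsHomogeneous d) (t : ℂ) (w : ι → ℂ) :
    MvPolynomial.eval (fun i => t * w i) F = t ^ d * MvPolynomial.eval w F := by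
  simpa only [MvPolynomial.coe_aeval_eq_eval, MvPolynomial.aeval_eq_eval] using hom_scale hF t w

theorem homog {ι : Type} (j : ι) (P : MvPolynomial ι ℂ) : ∃ D0 : ℕ, ∀ D, D0 ≤ D →
    ∃ P' : MvPolynomial ι ℂ, P'.IsHomogeneous D ∧ MvPolynomial.X j - 1 ∣ P' - P := by
  induction P using MvPolynomial.induction_on with
  | C a =>
    refine ⟨0, fun D _ => ⟨MvPolynomial.C a * MvPolynomial.X j ^ D,
      MvPolynomial.isHomogeneous_C_mul_X_pow a j D, ?_⟩⟩
    have := (sub_one_dvd_pow_sub_one (MvPolynomial.X j : MvPolynomial ι ℂ) D).mul_left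
      (MvPolynomial.C a)
    rwa [mul_sub, mul_one] at this
  | add p q hp hq =>
    obtain ⟨a, ha⟩ := hp
    obtain ⟨b, hb⟩ := hq
    refine ⟨max a b, fun D hD => ?_⟩
    obtain ⟨p', h1, h2⟩ := ha D (le_of_max_le_left hD)
    obtain ⟨q', h3, h4⟩ := hb D (le_of_max_le_right hD)
    exact ⟨p' + q', h1.add h3, by rw [add_sub_add_comm]; exact dvd_add h2 h4⟩
  | mul_X p i hp =>
    obtain ⟨a, ha⟩ := hp
    refine ⟨a + 1, fun D hD => ?_⟩
    obtain ⟨p', h1, h2⟩ := ha (D - 1) (by omega)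
    refine ⟨p' * MvPolynomial.X i, ?_, by rw [← sub_mul]; exact h2.mul_right _⟩
    have := h1.mul (MvPolynomial.isHomogeneous_X ℂ i)
    rwa [Nat.sub_add_cancel (by omega)] at this

theorem core_nak {R : Type} [CommRing R] [IsNoetherianRing R] (p m I : Ideal R) (A B S r₀ : R)
    (hI : I ≤ p) (hA : A ∈ m) (hB : B ∈ m) (hr : r₀ ∈ m) (hS : IsCoprime S r₀)
    (hm : ∀ y ∈ m, ∃ b, S * y - b * B ∈ I ⊔ Ideal.span {A})
    (hA' : ∀ G, G * A ∈ p → G ∈ p) (hq : ∀ (k : ℕ) a b, a * A + b * B ^ k ∈ p → b ∈ m) :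
    ∃ r : R, r - 1 ∈ m ∧ ∀ G ∈ p, r * G ∈ I := by
  have h1 : ∀ k : ℕ, ∀ y ∈ m ^ k, ∃ b, S ^ k * y - b * B ^ k ∈ I ⊔ Ideal.span {A} := by
    intro k
    induction k with
    | zero => exact fun y _ => ⟨y, by simp⟩
    | succ k ih =>
      intro y hy
      rw [pow_succ] at hy
      refine Submodule.mul_induction_on hy ?_ ?_
      · intro a ha z hz
        obtain ⟨b, hb⟩ := ih a ha
        obtain ⟨b', hb'⟩ := hm z hz
        refine ⟨b * b', ?_⟩
        have e : S ^ (k + 1) * (a * z) - b * b' * B ^ (k + 1) =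
            (S * z) * (S ^ k * a - b * B ^ k) + (b * B ^ k) * (S * z - b' * B) := by ring
        rw [e]
        exact add_mem (Ideal.mul_mem_left _ _ hb) (Ideal.mul_mem_left _ _ hb')
      · rintro a z ⟨b, hb⟩ ⟨b', hb'⟩
        refine ⟨b + b', ?_⟩
        have e : S ^ (k + 1) * (a + z) - (b + b') * B ^ (k + 1) =
            (S ^ (k + 1) * a - b * B ^ (k + 1)) + (S ^ (k + 1) * z - b' * B ^ (k + 1)) := by ring
        rw [e]
        exact add_mem hb hb'
  have h2 : ∀ G ∈ p, ∀ k : ℕ, G ∈ (I ⊔ Ideal.span {A}) ⊔ m ^ k := by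
    intro G hG k
    induction k with
    | zero => simp
    | succ k ih =>
      obtain ⟨κ, hκ, y, hy, rfl⟩ := Submodule.mem_sup.1 ih
      obtain ⟨b, hb⟩ := h1 k y hy
      have h3 : S ^ k * (κ + y) - b * B ^ k ∈ I ⊔ Ideal.span {A} := by
        have e : S ^ k * (κ + y) - b * B ^ k = S ^ k * κ + (S ^ k * y - b * B ^ k) := by ring
        rw [e]
        exact add_mem (Ideal.mul_mem_left _ _ hκ) hb
      obtain ⟨i, hi, z, hz, e⟩ := Submodule.mem_sup.1 h3
      obtain ⟨a, rfl⟩ := Ideal.mem_span_singleton'.1 hz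
      have h4 : b ∈ m := by
        refine hq k a b ?_
        have e' : a * A + b * B ^ k = S ^ k * (κ + y) - i := by linear_combination e
        rw [e']
        exact sub_mem (Ideal.mul_mem_left _ _ hG) (hI hi)
      have h5 : b * B ^ k ∈ m ^ (k + 1) := by
        rw [pow_succ']
        exact Ideal.mul_mem_mul h4 (Ideal.pow_mem_pow hB k)
      have h6 : S ^ k * (κ + y) ∈ (I ⊔ Ideal.span {A}) ⊔ m ^ (k + 1) := by
        have e' : S ^ k * (κ + y) = (S ^ k * (κ + y) - b * B ^ k) + b * B ^ k := by ring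
        rw [e']
        exact Submodule.add_mem_sup h3 h5
      obtain ⟨s, t, hst⟩ : IsCoprime (S ^ k) (r₀ ^ (k + 1)) := hS.pow
      have e' : κ + y = s * (S ^ k * (κ + y)) + (t * (κ + y)) * r₀ ^ (k + 1) := by
        linear_combination -(κ + y) * hst
      rw [e']
      exact add_mem (Ideal.mul_mem_left _ _ h6)
        (Ideal.mem_sup_right (Ideal.mul_mem_left _ _ (Ideal.pow_mem_pow hr _)))
  have h3 : p ≤ I ⊔ m • p := by
    intro G hG
    have h4 : (Ideal.Quotient.mk (I ⊔ Ideal.span {A}) G) ∈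
        (⨅ i : ℕ, m ^ i • ⊤ : Submodule R (R ⧸ (I ⊔ Ideal.span {A}))) := by
      refine (Submodule.mem_iInf _).2 fun k => ?_
      obtain ⟨κ, hκ, y, hy, rfl⟩ := Submodule.mem_sup.1 (h2 G hG k)
      rw [map_add, Ideal.Quotient.eq_zero_iff_mem.2 hκ, zero_add]
      have e : Ideal.Quotient.mk (I ⊔ Ideal.span {A}) y =
          y • (1 : R ⧸ (I ⊔ Ideal.span {A})) := by
        rw [Algebra.smul_def, mul_one]; rfl
      rw [e]
      exact Submodule.smul_mem_smul hy Submodule.mem_top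
    obtain ⟨r, hr'⟩ := (m.mem_iInf_smul_pow_eq_bot_iff _).1 h4
    have h5 : G - r * G ∈ I ⊔ Ideal.span {A} := by
      rw [← Ideal.Quotient.eq, map_mul]
      rw [Algebra.smul_def] at hr'
      exact hr'.symm
    obtain ⟨i, hi, z, hz, e⟩ := Submodule.mem_sup.1 h5
    obtain ⟨a, rfl⟩ := Ideal.mem_span_singleton'.1 hz
    have h6 : a ∈ p := by
      refine hA' a ?_
      have e' : a * A = G - r * G - i := by linear_combination e
      rw [e']
      exact sub_mem (sub_mem hG (Ideal.mul_mem_left _ _ hG)) (hI hi)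
    have e' : G = i + (A • a + (r : R) • G) := by
      simp only [smul_eq_mul]; linear_combination -e
    rw [e']
    exact Submodule.add_mem_sup hi
      (add_mem (Submodule.smul_mem_smul hA h6) (Submodule.smul_mem_smul r.2 hG))
  obtain ⟨r, hr1, hr2⟩ := Submodule.exists_sub_one_mem_and_smul_le_of_fg_of_le_sup
    (IsNoetherian.noetherian p) le_rfl h3
  exact ⟨r, hr1, fun G hG => hr2 (Submodule.smul_mem_pointwise_smul G r p hG)⟩

variable {L : Type} [Field L] [Algebra ℂ L]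

theorem LP.Gen2.swap' {x : LP L} {u v : L} (h : x.Gen2 u v) : x.Gen2 v u :=
  ⟨h.2.1, h.1, fun a ha => by
    obtain ⟨α, hα, β, hβ, e⟩ := h.2.2 a ha
    exact ⟨β, hβ, α, hα, by rw [e, add_comm]⟩⟩

theorem LP.Gen2.not_dvd' {x : LP L} (hd : x.Dim2) {u v : L} (h : x.Gen2 u v) (n : ℕ) :
    ¬ x.Dvd u (v ^ n) := by
  rintro ⟨c, hc, e⟩
  obtain ⟨b, hb, hn⟩ := hd u h.1
  obtain ⟨α, hα, β, hβ, rfl⟩ := h.2.2 b hb
  apply hn n
  obtain ⟨z, hz⟩ := sub_dvd_pow_sub_pow (⟨α * u + β * v, hb.1⟩ : x.O)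
    ⟨β * v, x.O.mul_mem hβ h.2.1.1⟩ n
  have hz' : (α * u + β * v) ^ n - (β * v) ^ n = (α * u + β * v - β * v) * z := by
    simpa using congrArg Subtype.val hz
  refine ⟨α * z + β ^ n * c, x.O.add_mem (x.O.mul_mem hα z.2)
    (x.O.mul_mem (x.O.pow_mem hβ n) hc), ?_⟩
  rw [mul_pow] at hz'
  linear_combination hz' + β ^ n * e

theorem LP.Gen2.ne' {x : LP L} (hd : x.Dim2) {u v : L} (h : x.Gen2 u v) : u ≠ 0 := by
  rintro rfl
  exact h.swap'.not_dvd' hd 1 ⟨0, x.O.zero_mem, by simp⟩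

theorem LP.Gen2.ev_zero' {x : LP L} (hd : x.Dim2) {u v : L} (h : x.Gen2 u v) {a b : L}
    (ha : a ∈ x.O) (hb : b ∈ x.O) {k : ℕ} (e : a * u + b * v ^ k = 0) : x.ev b = 0 := by
  by_contra h0
  have hU : x.U b := ⟨hb, h0⟩
  refine h.not_dvd' hd k ⟨-(a * b⁻¹), x.O.neg_mem (x.O.mul_mem ha (x.inv_mem b hb h0)), ?_⟩
  have := hU.ne
  field_simp
  linear_combination e

theorem LP.Gen2.dvd_of' {x : LP L} (hx : IsNoetherianRing x.O) (hd : x.Dim2) {u v : L}
    (h : x.Gen2 u v) {c : L} (hc : c ∈ x.O) {n : ℕ} (h1 : x.Dvd u (c * v ^ n)) : x.Dvd u c := by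
  obtain ⟨z, hz, e⟩ := h1
  have hu := h.1.1
  have hv := h.2.1.1
  have key : ∀ k : ℕ, ∃ a ∈ x.O, ∃ b ∈ x.O, c = a * u + b * v ^ k := by
    intro k
    induction k with
    | zero => exact ⟨0, x.O.zero_mem, c, hc, by simp⟩
    | succ k ih =>
      obtain ⟨a, ha, b, hb, e'⟩ := ih
      have h0 : x.ev b = 0 := h.ev_zero' hd (a := a * v ^ n - z) (k := k + n)
        (x.O.sub_mem (x.O.mul_mem ha (x.O.pow_mem hv n)) hz) hb
        (by linear_combination e - v ^ n * e')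
      obtain ⟨α, hα, β, hβ, rfl⟩ := h.2.2 b ⟨hb, h0⟩
      exact ⟨a + α * v ^ k, x.O.add_mem ha (x.O.mul_mem hα (x.O.pow_mem hv k)), β, hβ,
        by rw [e']; ring⟩
  have h2 : (⟨c, hc⟩ : x.O) ∈ Ideal.span {(⟨u, hu⟩ : x.O)} := by
    refine x.krull_mod hx _ fun k => ?_
    obtain ⟨a, ha, b, hb, e'⟩ := key k
    have e2 : (⟨c, hc⟩ : x.O) = ⟨a, ha⟩ * ⟨u, hu⟩ + ⟨b, hb⟩ * ⟨v, hv⟩ ^ k := Subtype.ext e'
    rw [e2]
    exact Submodule.add_mem_sup (Ideal.mul_mem_left _ _ (Ideal.mem_span_singleton_self _))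
      (Ideal.mul_mem_left _ _ (Ideal.pow_mem_pow ((x.mem_max _).2 h.2.1.2) k))
  obtain ⟨a, ha⟩ := Ideal.mem_span_singleton'.1 h2
  exact ⟨a, a.2, by rw [mul_comm]; exact (congrArg Subtype.val ha).symm⟩

end Vale.Agent.P300
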