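import Vale.Agent.P300.Geo
import Vale.Agent.P300.Ext

/-! Galois transitivity and Kummer theory. `tr_prime`: `Algebra.IsInvariant.exists_smul_of_under_eq_of_profinite`
for `Gal(L / E)` acting on `B` (discrete; stabilisers are open since `L / K` is algebraic) over the
invariant subring `B ∩ E`. `kummer`: `C` is open, so `C = (fixedField C).fixingSubgroup`
(`InfiniteGalois.fixingSubgroup_fixedField`); take `a` fixed by `C` and moved by `τ`, `w = a - τ a`. -/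

open scoped LinearAlgebra.Projectivization Topology Classical Pointwise
open Polynomial

set_option linter.unusedSectionVars false

namespace Vale.Agent.P300

variable {L : Type} [Field L] [Algebra ℂ L] [IsAlgClosed L] (A : Amb L)

theorem Amb.smul_def (g : A.G) (a : L) : g • a = g a := rfl

theorem Amb.fixK (g : A.G) {a : L} (ha : a ∈ A.K) : g a = a := g.commutes ⟨a, ha⟩

theorem Amb.fixC (g : A.G) (c : ℂ) : g (algebraMap ℂ L c) = algebraMap ℂ L c :=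
  A.fixK g (A.K.algebraMap_mem c)

theorem tr_gen {K : Type} [Field K] [Algebra K L] [IsGalois K L] (E : IntermediateField K L)
    (B : Subring L) (hB : ∀ g ∈ E.fixingSubgroup, ∀ b ∈ B, g b ∈ B) (Q Q' : Ideal B) [Q.IsPrime]
    [Q'.IsPrime] (h : ∀ b : B, (b : L) ∈ E → (b ∈ Q ↔ b ∈ Q')) :
    ∃ g ∈ E.fixingSubgroup, ∀ b b' : B, (b' : L) = g b → (b ∈ Q ↔ b' ∈ Q') := by
  let _ : MulSemiringAction E.fixingSubgroup B :=
    { smul := fun g b => ⟨g.1 b, hB g.1 g.2 b b.2⟩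
      one_smul := fun _ => rfl
      mul_smul := fun _ _ _ => rfl
      smul_zero := fun g => Subtype.ext (map_zero g.1)
      smul_add := fun g a b => Subtype.ext (map_add g.1 (a : L) b)
      smul_one := fun g => Subtype.ext (map_one g.1)
      smul_mul := fun g a b => Subtype.ext (map_mul g.1 (a : L) b) }
  let _ : TopologicalSpace B := ⊥
  have : DiscreteTopology B := ⟨rfl⟩
  have : CompactSpace E.fixingSubgroup :=
    isCompact_iff_compactSpace.1 (InfiniteGalois.fixingSubgroup_isClosed E).isCompact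
  have : ContinuousConstSMul E.fixingSubgroup B := ⟨fun _ => continuous_of_discreteTopology⟩
  have : ContinuousSMul E.fixingSubgroup B := by
    refine continuousSMul_iff_stabilizer_isOpen.2 fun b => ?_
    have h1 := (stabilizer_isOpen_of_isIntegral (K := K) (b : L)).preimage
      (continuous_subtype_val (p := fun g => g ∈ E.fixingSubgroup))
    have e : (MulAction.stabilizer E.fixingSubgroup b : Set E.fixingSubgroup) =
        Subtype.val ⁻¹' (MulAction.stabilizer (L ≃ₐ[K] L) (b : L) : Set (L ≃ₐ[K] L)) := by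
      ext g
      exact Subtype.ext_iff
    rw [e]
    exact h1
  have : Algebra.IsInvariant (FixedPoints.subring B E.fixingSubgroup) B E.fixingSubgroup :=
    ⟨fun b hb => ⟨⟨b, hb⟩, rfl⟩⟩
  obtain ⟨g, hg⟩ := Algebra.IsInvariant.exists_smul_of_under_eq_of_profinite
    (A := FixedPoints.subring B E.fixingSubgroup) (G := E.fixingSubgroup) Q Q' (by
      ext a
      exact h a.1 ((InfiniteGalois.fixedField_fixingSubgroup E).le
        ((IntermediateField.mem_fixedField_iff _ _).2 fun f hf =>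
          congrArg Subtype.val (a.2 ⟨f, hf⟩))))
  refine ⟨g.1, g.2, fun b b' e => ?_⟩
  have e' : b' = g • b := Subtype.ext e
  rw [hg, e', Ideal.smul_mem_pointwise_smul_iff]

theorem tr_ker {B : Subalgebra ℂ L} {φ : L → ℂ} (h : HomOn B φ) :
    ∃ Q : Ideal B.toSubring, Q.IsPrime ∧ ∀ b : B.toSubring, b ∈ Q ↔ φ b = 0 :=
  ⟨RingHom.ker h.toH, RingHom.ker_isPrime h.toH, fun _ => Iff.rfl⟩

theorem tr_root {ζ : L} {n : ℕ} (hn : 1 ≤ n) (h : ζ ^ n = 1) :
    ∃ c : ℂ, c ^ n = 1 ∧ ζ = algebraMap ℂ L c := by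
  have hn' : n ≠ 0 := by omega
  have : NeZero n := ⟨hn'⟩
  have h1 := Complex.isPrimitiveRoot_exp n hn'
  have h2 := h1.map_of_injective (algebraMap ℂ L).injective
  obtain ⟨i, -, hi⟩ := h2.eq_pow_of_pow_eq_one h
  refine ⟨_ ^ i, ?_, by rw [← hi, map_pow]⟩
  rw [← pow_mul, mul_comm i, pow_mul, h1.pow_eq_one, one_pow]

theorem Amb.tr_cancel (g : A.G) (b : L) : g (g⁻¹ b) = b := g.apply_symm_apply b

theorem Amb.tr_cancel' (g : A.G) (b : L) : g⁻¹ (g b) = b := g.symm_apply_apply b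

theorem Amb.tr_prime (E : IntermediateField A.K L) (B : Subring L)
    (hB : ∀ g ∈ E.fixingSubgroup, ∀ b ∈ B, g b ∈ B) (Q Q' : Ideal B) [Q.IsPrime] [Q'.IsPrime]
    (h : ∀ b : B, (b : L) ∈ E → (b ∈ Q ↔ b ∈ Q')) :
    ∃ g ∈ E.fixingSubgroup, ∀ b b' : B, (b' : L) = g b → (b ∈ Q ↔ b' ∈ Q') :=
  tr_gen E B hB Q Q' h

theorem Amb.Bx_map {x : LP L} (hx : ∀ a ∈ x.O, a ∈ A.K) (g : A.G) {b : L} (hb : b ∈ Bx x ⊤) :
    g b ∈ Bx x ⊤ :=
  mem_Bx.2 ⟨(mem_Bx.1 hb).1.map_of_comp_eq (RingHom.id _) (g : L →+* L)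
    (RingHom.ext fun a : x.O => (A.fixK g (hx a a.2)).symm), IntermediateField.mem_top⟩

theorem Amb.Bx_map' {x : LP L} (hx : ∀ a ∈ x.O, a ∈ A.K) {F : IntermediateField A.K L}
    (hF : Normal A.K F) (g : A.G) {b : L} (hb : b ∈ Bx x (A.rs F)) : g b ∈ Bx x (A.rs F) :=
  mem_Bx.2 ⟨(mem_Bx.1 (A.Bx_map hx g (Ext_Bx_mono x le_top hb))).1, A.nm hF g (mem_Bx.1 hb).2⟩

theorem Amb.mem_act {g : A.G} {P : LP L} {a : L} : a ∈ (A.act g P).O ↔ g⁻¹ a ∈ P.O := Iff.rfl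

theorem Amb.ev_act {g : A.G} {P : LP L} {a : L} : (A.act g P).ev a = P.ev (g⁻¹ a) := rfl

theorem Amb.act_act (g h : A.G) (P : LP L) : A.act g (A.act h P) = A.act (g * h) P :=
  LP.ext' (fun _ ha => ⟨ha, rfl⟩) fun _ ha => ⟨ha, rfl⟩

theorem Amb.act_one (P : LP L) : A.act 1 P = P :=
  LP.ext' (fun _ ha => ⟨ha, rfl⟩) fun _ ha => ⟨ha, rfl⟩

theorem Amb.ab_act {x P : LP L} (hx : ∀ a ∈ x.O, a ∈ A.K) (h : Ab x P) (g : A.G) :
    Ab x (A.act g P) :=
  h.map (g.restrictScalars ℂ) (fun a ha => A.fixK g (hx a ha))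
    fun _ => iff_of_true IntermediateField.mem_top IntermediateField.mem_top

theorem Amb.ip_iff {x P : LP L} (hx : ∀ a ∈ x.O, a ∈ A.K) (h : Ab x P) (g : A.G) :
    A.IP x ⊤ P g ↔ A.act g P = P := by
  refine ⟨fun hg => (A.ab_act hx h g).ext h fun b hb => ?_, fun e b _ => ?_⟩
  · rw [A.ev_act, ← hg _ (A.Bx_map hx g⁻¹ hb), A.tr_cancel]
  · have h1 : (A.act g P).ev (g b) = P.ev b := by rw [A.ev_act, A.tr_cancel']
    rwa [e] at h1

theorem Amb.tr_lp (E : IntermediateField A.K L) {x P P' : LP L} (hx : ∀ a ∈ x.O, a ∈ A.K)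
    (h : Ab x P) (h' : Ab x P') (e : ∀ b ∈ Bx x (A.rs E), P.ev b = P'.ev b) :
    ∃ g ∈ E.fixingSubgroup, A.act g P = P' := by
  have k : HomOn (Bx x ⊤) P.ev := P.hom.mono h.int
  have k' : HomOn (Bx x ⊤) P'.ev := P'.hom.mono h'.int
  obtain ⟨Q, hQ, mQ⟩ := tr_ker k
  obtain ⟨Q', hQ', mQ'⟩ := tr_ker k'
  obtain ⟨g, hg, hh⟩ := A.tr_prime E (Bx x ⊤).toSubring (fun g _ b hb => A.Bx_map hx g hb) Q Q'
    fun b hb => by rw [mQ, mQ', e b (mem_Bx.2 ⟨(mem_Bx.1 b.2).1, hb⟩)]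
  refine ⟨g, hg, (A.ab_act hx h g).ext h' fun b hb => ?_⟩
  rw [A.ev_act]
  have h1 := A.Bx_map hx g⁻¹ hb
  have h2 := (Bx x ⊤).algebraMap_mem (P.ev (g⁻¹ b))
  have h3 := hh ⟨_, (Bx x ⊤).sub_mem h1 h2⟩ ⟨_, (Bx x ⊤).sub_mem hb h2⟩
    (by simp only [map_sub, A.tr_cancel, A.fixC])
  rw [mQ, mQ'] at h3
  refine (Ext_val k' hb (h3.1 ?_)).symm
  exact (P.m_sub_ev (h.int _ h1)).2

/-- transitivity above a point of a normal local ring of `K` -/
theorem Amb.tr_lp0 {x P P' : LP L} (hx : ∀ a ∈ x.O, a ∈ A.K)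
    (hn : ∀ a ∈ A.K, IsIntegral x.O a → a ∈ x.O) (h : Ab x P) (h' : Ab x P') :
    ∃ g, A.act g P = P' := by
  obtain ⟨g, -, hg⟩ := A.tr_lp ⊥ hx h h' fun b hb => by
    obtain ⟨y, hy⟩ := IntermediateField.mem_bot.1 (mem_Bx.1 hb).2
    have h1 : b ∈ x.O := hn b (hy ▸ y.2) (mem_Bx.1 hb).1
    rw [(h.le b h1).2, (h'.le b h1).2]
  exact ⟨g, hg⟩

/-- a level stabiliser lifts to a full stabiliser -/
theorem Amb.ip_lift {x P : LP L} (hx : ∀ a ∈ x.O, a ∈ A.K) (h : Ab x P)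
    (E : IntermediateField A.K L) {g : A.G} (hE : ∀ a ∈ E, g⁻¹ a ∈ E)
    (hg : A.IP x (A.rs E) P g) : ∃ n ∈ E.fixingSubgroup, A.IP x ⊤ P (n * g) := by
  obtain ⟨n, hn, e⟩ := A.tr_lp E hx (A.ab_act hx h g) h fun b hb => by
    have h1 : g⁻¹ b ∈ Bx x (A.rs E) :=
      mem_Bx.2 ⟨(mem_Bx.1 (A.Bx_map hx g⁻¹ (Ext_Bx_mono x le_top hb))).1, hE b (mem_Bx.1 hb).2⟩
    rw [A.ev_act, ← hg _ h1, A.tr_cancel]
  exact ⟨n, hn, (A.ip_iff hx h _).2 (by rw [← A.act_act, e])⟩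

theorem Amb.IP.mul {x P : LP L} (hx : ∀ a ∈ x.O, a ∈ A.K) {F : IntermediateField A.K L}
    (hF : Normal A.K F) {g h : A.G} (hg : A.IP x (A.rs F) P g) (hh : A.IP x (A.rs F) P h) :
    A.IP x (A.rs F) P (g * h) := fun b hb => by
  rw [AlgEquiv.mul_apply, hg _ (A.Bx_map' hx hF h hb), hh b hb]

theorem Amb.IP.inv {x P : LP L} (hx : ∀ a ∈ x.O, a ∈ A.K) {F : IntermediateField A.K L}
    (hF : Normal A.K F) {g : A.G} (hg : A.IP x (A.rs F) P g) : A.IP x (A.rs F) P g⁻¹ := fun b hb => by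
  rw [← hg _ (A.Bx_map' hx hF g⁻¹ hb), A.tr_cancel]

theorem Amb.IP.top_mul {x P : LP L} (hx : ∀ a ∈ x.O, a ∈ A.K) {g h : A.G} (hg : A.IP x ⊤ P g)
    (hh : A.IP x ⊤ P h) : A.IP x ⊤ P (g * h) := fun b hb => by
  rw [AlgEquiv.mul_apply, hg _ (A.Bx_map hx h hb), hh b hb]

theorem Amb.IP.top_zpow {x P : LP L} (hx : ∀ a ∈ x.O, a ∈ A.K) {g : A.G} (hg : A.IP x ⊤ P g)
    (n : ℤ) : A.IP x ⊤ P (g ^ n) := by
  let S : Subgroup A.G :=
    { carrier := {g | A.IP x ⊤ P g}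
      mul_mem' := fun ha hb => Amb.IP.top_mul A hx ha hb
      one_mem' := fun _ _ => rfl
      inv_mem' := fun {g} hg b hb => by
        rw [← hg _ (A.Bx_map hx g⁻¹ hb), A.tr_cancel] }
  exact S.zpow_mem (x := g) hg n

theorem Amb.IP.mono {x P : LP L} {M M' : IntermediateField ℂ L} (h : M ≤ M') {g : A.G}
    (hg : A.IP x M' P g) : A.IP x M P g := fun b hb => hg b ⟨hb.1, h hb.2⟩

/-- a level stabiliser preserves the local ring and the values -/
theorem Amb.IP.res {x P : LP L} (hx : ∀ a ∈ x.O, a ∈ A.K) (hP : Ab x P)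
    {F : IntermediateField A.K L} (hF : Normal A.K F) {g : A.G} (hg : A.IP x (A.rs F) P g) :
    ∀ a ∈ (res x (A.rs F) P).O,
      g a ∈ (res x (A.rs F) P).O ∧ (res x (A.rs F) P).ev (g a) = (res x (A.rs F) P).ev a := by
  intro a ha
  have k : HomOn (Bx x (A.rs F)) P.ev :=
    P.hom.mono fun b hb => hP.int b (Ext_Bx_mono x le_top hb)
  obtain ⟨b, hb, c, hc, h1, h2⟩ := (mem_mkLP k).1 ha
  have hb' := A.Bx_map' hx hF g hb
  have hc' := A.Bx_map' hx hF g hc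
  have h3 : P.ev (g c) ≠ 0 := by rwa [hg c hc]
  have h4 : g a * g c = g b := by rw [← map_mul, h2]
  refine ⟨(mem_mkLP k).2 ⟨_, hb', _, hc', h3, h4⟩, ?_⟩
  unfold Vale.Agent.P300.res
  rw [ev_mkLP k hb' hc' h3 h4, ev_mkLP k hb hc h1 h2, hg b hb, hg c hc]

theorem Amb.isClopen_eval (b : L) (φ : L → Prop) : IsClopen {g : A.G | φ (g b)} := by
  let _ : TopologicalSpace L := ⊥
  have : DiscreteTopology L := ⟨rfl⟩
  have : ContinuousConstSMul A.G L := ⟨fun _ => continuous_of_discreteTopology⟩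
  have : ContinuousSMul A.G L :=
    continuousSMul_iff_stabilizer_isOpen.2 fun b => stabilizer_isOpen_of_isIntegral b
  exact (isClopen_discrete {a : L | φ a}).preimage
    (f := fun g : A.G => g • b) (continuous_id.smul continuous_const)

theorem Amb.fix_fix (H : Subgroup A.G) {F : IntermediateField A.K L} [FiniteDimensional A.K F]
    (h : F.fixingSubgroup ≤ H) :
    (IntermediateField.fixedField H).fixingSubgroup = H ∧ IntermediateField.fixedField H ≤ F := by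
  have h1 : IsOpen (H : Set A.G) := Subgroup.isOpen_mono h F.fixingSubgroup_isOpen
  refine ⟨InfiniteGalois.fixingSubgroup_fixedField ⟨H, H.isClosed_of_isOpen h1⟩, fun a ha => ?_⟩
  rw [← InfiniteGalois.fixedField_fixingSubgroup F, IntermediateField.mem_fixedField_iff]
  exact fun f hf => (IntermediateField.mem_fixedField_iff H a).1 ha f (h hf)

theorem Amb.fx_span (H : Subgroup A.G) {F : IntermediateField A.K L} [FiniteDimensional A.K F]
    (h : F.fixingSubgroup ≤ H) :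
    A.K ≤ A.fx H ∧ ∃ s : Finset L, ∀ a ∈ A.fx H, a ∈ Submodule.span A.K (s : Set L) := by
  refine ⟨fun a ha => (IntermediateField.fixedField H).algebraMap_mem ⟨a, ha⟩, ?_⟩
  obtain ⟨s, hs⟩ := (Submodule.fg_iff_finiteDimensional F.toSubalgebra.toSubmodule).2
    (inferInstanceAs (FiniteDimensional A.K F))
  refine ⟨s, fun a ha => ?_⟩
  rw [hs]
  exact (A.fix_fix H h).2 ha

theorem Amb.mem_K {a : L} (h : ∀ g : A.G, g a = a) : a ∈ A.K := by
  obtain ⟨y, rfl⟩ := (InfiniteGalois.mem_range_algebraMap_iff_fixed (k := A.K) a).2 h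
  exact y.2

theorem Amb.kummer {F : IntermediateField A.K L} [FiniteDimensional A.K F] (B C : Subgroup A.G)
    (hN : F.fixingSubgroup ≤ C) (hCB : C ≤ B) (hτ : ∃ τ ∈ B, τ ∉ C)
    (h2 : ∀ g ∈ B, ∀ h ∈ B, g ∉ C → h ∉ C → g * h ∈ C) :
    ∃ w ∈ F, w ≠ 0 ∧ ∀ g ∈ B, (g ∈ C → g w = w) ∧ (g ∉ C → g w = -w) := by
  obtain ⟨τ, hτB, hτC⟩ := hτ
  obtain ⟨h1, h3⟩ := A.fix_fix C hN
  have h4 : ¬ ∀ a ∈ IntermediateField.fixedField C, τ a = a := fun e =>
    hτC (h1 ▸ (IntermediateField.mem_fixingSubgroup_iff _ _).2 e)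
  push Not at h4
  obtain ⟨a, ha, hne⟩ := h4
  have fa : ∀ g ∈ C, g a = a := (IntermediateField.mem_fixedField_iff C a).1 ha
  have hi : τ⁻¹ ∉ C := fun e => hτC (C.inv_mem_iff.1 e)
  have k1 : ∀ g ∈ B, g ∉ C → g a = τ a := fun g hg hgC => by
    have := fa _ (h2 _ (B.inv_mem hτB) g hg hi hgC)
    rw [AlgEquiv.mul_apply] at this
    rw [← A.tr_cancel τ (g a), this]
  have k2 : ∀ g ∈ C, g (τ a) = τ a := fun g hg =>
    k1 (g * τ) (B.mul_mem (hCB hg) hτB) fun e => hτC ((C.mul_mem_cancel_left hg).1 e)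
  refine ⟨a - τ a, F.sub_mem (h3 ha) (h3 ((IntermediateField.mem_fixedField_iff C _).2 k2)),
    sub_ne_zero.2 hne.symm, fun g hg => ⟨fun hgC => ?_, fun hgC => ?_⟩⟩
  · rw [map_sub, fa g hgC, k2 g hgC]
  · have := fa _ (h2 g hg τ hτB hgC hτC)
    rw [AlgEquiv.mul_apply] at this
    rw [map_sub, k1 g hg hgC, this, neg_sub]

/-- the character on an `n`-th root of an element of `K` -/
theorem Amb.exists_char {y : L} (hy : y ≠ 0) {n : ℕ} (hn : 1 ≤ n) (h : y ^ n ∈ A.K) :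
    ∃ ψ : A.G →* ℂˣ, (∀ g, ψ g ^ n = 1) ∧ ∀ g, g y = algebraMap ℂ L (ψ g : ℂ) * y := by
  have h1 : ∀ g : A.G, ∃ c : ℂˣ, c ^ n = 1 ∧ g y = algebraMap ℂ L (c : ℂ) * y := fun g => by
    obtain ⟨c, h2, h3⟩ := tr_root (ζ := g y / y) hn (by
      rw [div_pow, ← map_pow, A.fixK g h, div_self (pow_ne_zero _ hy)])
    have h4 : c ≠ 0 := by
      rintro rfl
      rw [zero_pow (by omega)] at h2
      exact zero_ne_one h2
    refine ⟨Units.mk0 c h4, Units.ext h2, ?_⟩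
    rw [Units.val_mk0, ← h3, div_mul_cancel₀ _ hy]
  choose c h2 h3 using h1
  refine ⟨MonoidHom.mk' c fun g k => Units.ext ((algebraMap ℂ L).injective
    (mul_right_cancel₀ hy ?_)), h2, h3⟩
  rw [← h3, AlgEquiv.mul_apply, h3 k, map_mul, A.fixC, h3 g, Units.val_mul, map_mul]
  ring

theorem Amb.exists_sign {y : L} (hy : y ≠ 0) (h : y ^ 2 ∈ A.K) :
    ∃ χ : A.G →* ℤˣ, ∀ g, g y = ((χ g : ℤ) : L) * y := by
  have : CharZero L := charZero_of_injective_algebraMap (algebraMap ℂ L).injective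
  have h1 : ∀ g : A.G, ∃ c : ℤˣ, g y = ((c : ℤ) : L) * y := fun g => by
    have h2 : g y ^ 2 = y ^ 2 := by rw [← map_pow, A.fixK g h]
    rcases sq_eq_sq_iff_eq_or_eq_neg.1 h2 with e | e
    · exact ⟨1, by simpa using e⟩
    · exact ⟨-1, by simpa using e⟩
  choose c h3 using h1
  refine ⟨MonoidHom.mk' c fun g k => Units.ext (Int.cast_injective (α := L)
    (mul_right_cancel₀ hy ?_)), h3⟩
  rw [← h3, AlgEquiv.mul_apply, h3 k, map_mul, map_intCast, h3 g, Units.val_mul, Int.cast_mul]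
  ring

theorem zt_prim (a : ℕ) : IsPrimitiveRoot (zt L a) (2 ^ a) :=
  (Complex.isPrimitiveRoot_exp (2 ^ a) (by positivity)).map_of_injective
    (algebraMap ℂ L).injective

theorem zt_one : zt L 1 = -1 := (zt_prim 1).eq_neg_one_of_two_right

theorem zt_sq (a : ℕ) : zt L (a + 1) ^ 2 = zt L a := by
  unfold zt
  rw [← map_pow, ← Complex.exp_nat_mul]
  congr 2
  push_cast
  field_simp
  ring

/-- roots of unity of `L` are complex -/
theorem root_mem {ζ : L} {n : ℕ} (hn : 1 ≤ n) (h : ζ ^ n = 1) :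
    ∃ c : ℂ, c ^ n = 1 ∧ ζ = algebraMap ℂ L c := tr_root hn h

end Vale.Agent.P300
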