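import Vale.Agent.P300.X2
import Vale.Agent.P300.Mod

/-! Helpers for the classification of the points of the blown-up plane: regularity of `X`. -/

open scoped LinearAlgebra.Projectivization Topology Classical Pointwise
open Polynomial

set_option linter.unusedSectionVars false

namespace Vale.Agent.P300

variable {L : Type} [Field L] [Algebra ℂ L] [IsAlgClosed L] (A : Amb L)

theorem Amb.x3_s (c : ℂ) : A.s - algebraMap ℂ L c ≠ 0 := fun e =>
  A.ind.transcendental 0 (by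
    rw [sub_eq_zero] at e
    simp only [Matrix.cons_val_zero, e]
    exact isAlgebraic_algebraMap c)

theorem Amb.x3_z (c : ℂ) : A.z - algebraMap ℂ L c ≠ 0 := fun e =>
  A.ind.transcendental 1 (by
    rw [sub_eq_zero] at e
    simp only [Matrix.cons_val_one, Matrix.cons_val_zero, e]
    exact isAlgebraic_algebraMap c)

theorem Amb.x3_s0 : A.s ≠ 0 := by simpa using A.x3_s 0

theorem Amb.x3_z0 : A.z ≠ 0 := by simpa using A.x3_z 0

theorem Amb.x3_pen (m : Mp) (e : Bool) : A.pen m e ≠ 0 := by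
  cases e
  · cases m with
    | m0 => exact A.x3_z0
    | m1 => exact A.x3_z0
    | m2 => exact A.x3_s0
    | fin b a => exact A.x3_z _
  · exact A.pen_ne m

theorem Amb.x3_penK (m : Mp) (e : Bool) : A.pen m e ∈ A.K := by
  have hs := A.pi_sK
  have hz := A.pi_zK
  cases e <;> cases m
  exacts [hz, hz, hs, sub_mem hz (A.K.algebraMap_mem _), hs, one_mem _, one_mem _,
    sub_mem hs (A.K.algebraMap_mem _)]

theorem Amb.x3_f (i : Fin 3) (e : Mp → Bool) :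
    A.X.f (i, e) = ![1, A.s, A.z] i * ∏ m, A.pen m (e m) := rfl

theorem Amb.x3_prod (e : Mp → Bool) : ∏ m, A.pen m (e m) ≠ 0 :=
  Finset.prod_ne_zero_iff.2 fun m _ => A.x3_pen m _

theorem Amb.x3_reg (x : LP L) : A.X.Reg x ↔
    (∃ j : Fin 3, ![1, A.s, A.z] j ≠ 0 ∧ ∀ i, ![1, A.s, A.z] i / ![1, A.s, A.z] j ∈ x.O) ∧
      ∀ m, A.pen m true / A.pen m false ∈ x.O ∨ A.pen m false / A.pen m true ∈ x.O := by
  rw [Model.reg_iff]
  constructor
  · rintro ⟨⟨j, e⟩, h0, h⟩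
    have hj : ![1, A.s, A.z] j ≠ 0 := left_ne_zero_of_mul h0
    refine ⟨⟨j, hj, fun i => ?_⟩, fun m => ?_⟩
    · have h1 := h (i, e)
      rwa [A.x3_f, A.x3_f, mul_div_mul_right _ _ (A.x3_prod e)] at h1
    · have h1 := h (j, Function.update e m (!e m))
      rw [A.x3_f, A.x3_f, mul_div_mul_left _ _ hj, ← Finset.prod_div_distrib,
        Finset.prod_eq_single m (fun m' _ hm => by
          rw [Function.update_of_ne hm, div_self (A.x3_pen _ _)]) (by simp),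
        Function.update_self] at h1
      cases he : e m
      · rw [he] at h1
        exact Or.inl h1
      · rw [he] at h1
        exact Or.inr h1
  · rintro ⟨⟨j, hj, h⟩, h'⟩
    refine ⟨(j, fun m => decide (A.pen m true / A.pen m false ∉ x.O)),
      mul_ne_zero hj (A.x3_prod _), fun ⟨i, e⟩ => ?_⟩
    rw [A.x3_f, A.x3_f, mul_div_mul_comm, ← Finset.prod_div_distrib]
    refine x.O.mul_mem (h _) (x.O.prod_mem fun m _ => ?_)
    by_cases hm : A.pen m true / A.pen m false ∈ x.O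
    · rw [decide_eq_false (not_not.2 hm)]
      cases e m
      · rw [div_self (A.x3_pen _ _)]
        exact x.O.one_mem
      · exact hm
    · rw [decide_eq_true hm]
      cases e m
      · exact (h' m).resolve_left hm
      · rw [div_self (A.x3_pen _ _)]
        exact x.O.one_mem

theorem LP.m.x3_val {x : LP L} {a : L} {c : ℂ} (h : x.m (a - algebraMap ℂ L c)) : a ∈ x.O := by
  simpa using x.O.add_mem h.1 (x.O.algebraMap_mem c)

theorem LP.m.x3_U {x : LP L} {a b : L} {c : ℂ} (h : x.m a) (hc : c ≠ 0) (e : b = a + algebraMap ℂ L c) :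
    x.U b := by
  rw [e]
  exact ⟨x.O.add_mem h.1 (x.O.algebraMap_mem c), by
    rw [x.hom.add _ h.1 _ (x.O.algebraMap_mem c), h.2, x.hom.alg, zero_add]; exact hc⟩

theorem LP.m.x3_sub {x : LP L} {a : L} {c d : ℂ} (h : x.m (a - algebraMap ℂ L c)) (hd : c ≠ d) :
    x.U (a - algebraMap ℂ L d) :=
  h.x3_U (sub_ne_zero.2 hd) (by rw [map_sub]; ring)

theorem LP.m.x3_c {x : LP L} {a : L} (c : ℂ) (h : x.m a) : x.m (algebraMap ℂ L c * a) :=
  LP.m.mul_left (x.O.algebraMap_mem c) h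

theorem LP.m.x3_inv {x : LP L} {a c : L} (h : x.m a⁻¹) (h0 : a ≠ 0) (hc : c ∈ x.O) :
    x.U ((a - c) * a⁻¹) :=
  (LP.m.mul_left (x.O.neg_mem hc) h).x3_U one_ne_zero (by
    rw [sub_mul, mul_inv_cancel₀ h0, _root_.map_one]; ring)

theorem LP.x3_or (x : LP L) {a : L} (h : a ∈ x.O) : x.U a ∨ x.m a := by
  by_cases e : x.ev a = 0
  exacts [Or.inr ⟨h, e⟩, Or.inl ⟨h, e⟩]

theorem LP.U.x3_inv {x : LP L} {a : L} (h : x.U a⁻¹) : a ∈ x.O := by
  simpa using (x.ev_inv h).1.1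

theorem LP.x3_one (x : LP L) : x.U 1 := ⟨x.O.one_mem, by rw [x.hom.one]; exact one_ne_zero⟩

/-- finite multiple points -/
def Mult (c d : ℂ) : Prop := (c = 0 ∧ d = 0) ∨ ∃ b a, c = muC b ∧ d = muC a

theorem Amb.x3_regA {x : LP L} {c d : ℂ} (hs : x.m (A.s - algebraMap ℂ L c)) (hz : x.m (A.z - algebraMap ℂ L d))
    (h : Mult c d → (A.s - algebraMap ℂ L c) / (A.z - algebraMap ℂ L d) ∈ x.O ∨ (A.z - algebraMap ℂ L d) / (A.s - algebraMap ℂ L c) ∈ x.O) :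
    A.X.Reg x := by
  have hs' := hs.x3_val
  have hz' := hz.x3_val
  have key : ∀ c' d' : ℂ, Mult c' d' →
      (A.s - algebraMap ℂ L c') / (A.z - algebraMap ℂ L d') ∈ x.O ∨ (A.z - algebraMap ℂ L d') / (A.s - algebraMap ℂ L c') ∈ x.O := by
    intro c' d' hm
    by_cases h1 : c = c'
    · by_cases h2 : d = d'
      · subst h1 h2
        exact h hm
      · exact Or.inl (x.ev_div (x.O.sub_mem hs' (x.O.algebraMap_mem _)) (hz.x3_sub h2)).1
    · exact Or.inr (x.ev_div (x.O.sub_mem hz' (x.O.algebraMap_mem _)) (hs.x3_sub h1)).1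
  refine (A.x3_reg x).2 ⟨⟨0, by simp, fun i => ?_⟩, fun m => ?_⟩
  · fin_cases i
    · simp
    · simpa using hs'
    · simpa using hz'
  · cases m with
    | m0 => simpa [Amb.pen] using key 0 0 (Or.inl ⟨rfl, rfl⟩)
    | m1 => exact Or.inr (by simpa [Amb.pen] using hz')
    | m2 => exact Or.inr (by simpa [Amb.pen] using hs')
    | fin b a => exact key _ _ (Or.inr ⟨b, a, rfl, rfl⟩)

theorem Amb.x3_regB {x : LP L} (hs : x.m A.s⁻¹) (hr : A.z / A.s ∈ x.O)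
    (hz : A.z ∈ x.O ∨ A.z⁻¹ ∈ x.O) : A.X.Reg x := by
  refine (A.x3_reg x).2 ⟨⟨1, by simpa using A.x3_s0, fun i => ?_⟩, fun m => ?_⟩
  · fin_cases i
    · simpa using hs.1
    · simp [div_self A.x3_s0]
    · simpa using hr
  · cases m with
    | m0 => exact Or.inr hr
    | m1 => simpa [Amb.pen] using hz.symm
    | m2 => exact Or.inl (by simpa [Amb.pen] using hs.1)
    | fin b a =>
      refine Or.inr ?_
      have h1 := (x.ev_div (x.O.sub_mem hr (x.O.mul_mem (x.O.algebraMap_mem (muC a)) hs.1))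
        (hs.x3_inv A.x3_s0 (x.O.algebraMap_mem (muC b)))).1
      rwa [div_eq_mul_inv A.z, ← sub_mul, mul_div_mul_right _ _ (inv_ne_zero A.x3_s0)] at h1

theorem Amb.x3_regC {x : LP L} (hz : x.m A.z⁻¹) (hr : A.s / A.z ∈ x.O)
    (hs : A.s ∈ x.O ∨ A.s⁻¹ ∈ x.O) : A.X.Reg x := by
  refine (A.x3_reg x).2 ⟨⟨2, by simpa using A.x3_z0, fun i => ?_⟩, fun m => ?_⟩
  · fin_cases i
    · simpa using hz.1
    · simpa using hr
    · simp [div_self A.x3_z0]
  · cases m with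
    | m0 => exact Or.inl hr
    | m1 => exact Or.inl (by simpa [Amb.pen] using hz.1)
    | m2 => simpa [Amb.pen] using hs.symm
    | fin b a =>
      refine Or.inl ?_
      have h1 := (x.ev_div (x.O.sub_mem hr (x.O.mul_mem (x.O.algebraMap_mem (muC b)) hz.1))
        (hz.x3_inv A.x3_z0 (x.O.algebraMap_mem (muC a)))).1
      rwa [div_eq_mul_inv A.s, ← sub_mul, mul_div_mul_right _ _ (inv_ne_zero A.x3_z0)] at h1

theorem Amb.x3_nc (n : Nd) {x : LP L} (hu : x.m (A.nc n).1) (hv : x.m (A.nc n).2) : A.X.Reg x := by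
  have h := LP.m.mul_left hu.1 hv
  rw [A.nc_mul] at h
  cases n with
  | zero =>
    refine A.x3_regA (c := 0) (d := 0) h (by simpa [Amb.nc] using hv) fun _ => Or.inl ?_
    simpa [Amb.nc] using hu.1
  | inf => exact A.x3_regB h hv.1 (Or.inr hu.1)
  | fin b a => exact A.x3_regA (c := muC b) (d := muC a) h hv fun _ => Or.inl hu.1

theorem Amb.x3_h1 (a : Mu) {x : LP L} (h : x.m (A.z - mu L a * A.s)) (h' : x.m (A.z - mu L a)) :
    x.m (A.s - algebraMap ℂ L (muC 0)) := by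
  have h2 := (h'.add (h.x3_c (-1))).x3_c (muC a)⁻¹
  have h3 : algebraMap ℂ L (muC a) ≠ 0 := (_root_.map_ne_zero _).2 (muC_ne a)
  convert h2 using 1
  rw [muC_zero, map_inv₀, map_neg, map_one, mu]
  field_simp
  ring

theorem Amb.x3_hcc (a : Mu) {x : LP L} (hu : x.m (A.hc (some (.cst a))).1)
    (hv : x.m (A.hc (some (.cst a))).2) : x.m (A.s - algebraMap ℂ L (muC 0)) ∧ x.m (A.z - algebraMap ℂ L (muC a)) ∧
      x.m ((A.z - algebraMap ℂ L (muC a)) / (A.s - algebraMap ℂ L (muC 0))) := by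
  have h0 : A.z - mu L a * A.s ≠ 0 := A.form_ne (.sec (.dia a))
  have h2 : x.m (A.z - mu L a) := by
    have h3 := LP.m.mul_left hv.1 hu
    rwa [show (A.hc (some (.cst a))).2 * (A.hc (some (.cst a))).1 = A.z - mu L a from
      div_mul_cancel₀ _ h0] at h3
  refine ⟨A.x3_h1 a hu h2, h2, ?_⟩
  have h3 := LP.m.mul_left (x.ev_inv (hv.x3_U (neg_ne_zero.2 one_ne_zero) rfl)).1.1 (hv.x3_c (muC a))
  have h4 : algebraMap ℂ L (muC a) ≠ 0 := (_root_.map_ne_zero _).2 (muC_ne a)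
  have h5 := A.x3_s 1
  convert h3 using 1
  simp only [Amb.hc, muC_zero, mu, map_neg, map_one] at h0 h5 ⊢
  have h6 : (A.z - algebraMap ℂ L (muC a)) / (A.z - algebraMap ℂ L (muC a) * A.s) + -1 =
      algebraMap ℂ L (muC a) * (A.s - 1) / (A.z - algebraMap ℂ L (muC a) * A.s) := by
    field_simp
    ring
  rw [h6]
  field_simp

theorem Amb.x3_e1 (a : Mu) : (A.hc (some (.dia a))).2 =
    1 - algebraMap ℂ L (muC a) * ((A.s - algebraMap ℂ L (muC 0)) / (A.z - algebraMap ℂ L (muC a))) := by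
  have h0 := A.x3_z (muC a)
  simp only [Amb.hc, muC_zero, mu, map_one]
  field_simp
  ring

theorem Amb.x3_hcd (a : Mu) {x : LP L} (hu : x.m (A.hc (some (.dia a))).1)
    (hv : x.m (A.hc (some (.dia a))).2) : x.m (A.s - algebraMap ℂ L (muC 0)) ∧
      (A.s - algebraMap ℂ L (muC 0)) / (A.z - algebraMap ℂ L (muC a)) ∈ x.O := by
  have h0 : A.z - mu L a ≠ 0 := A.x3_z _
  have h2 : x.m (A.z - mu L a * A.s) := by
    have h3 := LP.m.mul_left hv.1 hu
    rwa [show (A.hc (some (.dia a))).2 * (A.hc (some (.dia a))).1 = A.z - mu L a * A.s from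
      div_mul_cancel₀ _ h0] at h3
  refine ⟨A.x3_h1 a h2 hu, ?_⟩
  have h3 := x.O.mul_mem (x.O.algebraMap_mem (muC a)⁻¹) (x.O.sub_mem x.O.one_mem hv.1)
  have h4 : algebraMap ℂ L (muC a) ≠ 0 := (_root_.map_ne_zero _).2 (muC_ne a)
  rwa [A.x3_e1, sub_sub_cancel, map_inv₀, inv_mul_cancel_left₀ h4] at h3

theorem Amb.x3_hc (i : Option Sec) {x : LP L} (hu : x.m (A.hc i).1) (hv : x.m (A.hc i).2) :
    A.X.Reg x := by
  rcases i with _ | _ | a | a
  · have h2 : x.m (A.s - algebraMap ℂ L 1) := by simpa [Amb.hc] using hu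
    exact A.x3_regC hv (by rw [div_eq_mul_inv]; exact x.O.mul_mem h2.x3_val hv.1) (Or.inl h2.x3_val)
  · refine A.x3_regA (c := 1) (d := 0) (by simpa [Amb.hc] using hu) (by simpa [Amb.hc] using hv) ?_
    rintro (h | ⟨b, a, -, h⟩)
    · exact absurd h.1 one_ne_zero
    · exact absurd h.symm (muC_ne a)
  · obtain ⟨h1, h2, h3⟩ := A.x3_hcc a hu hv
    exact A.x3_regA h1 h2 fun _ => Or.inr h3.1
  · obtain ⟨h1, h2⟩ := A.x3_hcd a hu hv
    exact A.x3_regA h1 hu fun _ => Or.inl h2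

theorem LP.Le.x3_down {x y : LP L} (h : y.Le x) {a b : L} (h1 : a / b ∈ y.O ∨ b / a ∈ y.O) :
    (a / b ∈ x.O → a / b ∈ y.O) ∧ (b / a ∈ x.O → b / a ∈ y.O) := by
  have key : ∀ c : L, c⁻¹ ∈ y.O → c ∈ x.O → c ∈ y.O := fun c h2 h3 => by
    by_cases h0 : c = 0
    · rw [h0]
      exact y.O.zero_mem
    · have h4 := x.U_of_inv (h _ h2).1 (by rwa [inv_inv]) (inv_ne_zero h0)
      exact LP.U.x3_inv ⟨h2, by rw [← (h _ h2).2]; exact h4.2⟩
  exact ⟨fun h2 => h1.elim id fun h3 => key _ (by rwa [inv_div]) h2,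
    fun h2 => h1.elim (fun h3 => key _ (by rwa [inv_div]) h2) id⟩

theorem Amb.x3_down {x y : LP L} (h : y.Le x) (hy : A.X.Reg y) :
    (A.s ∈ x.O → A.s ∈ y.O) ∧ (A.z ∈ x.O → A.z ∈ y.O) ∧ (A.z⁻¹ ∈ x.O → A.z⁻¹ ∈ y.O) := by
  have h1 := h.x3_down (((A.x3_reg y).1 hy).2 .m1)
  have h2 := h.x3_down (((A.x3_reg y).1 hy).2 .m2)
  simp only [Amb.pen, if_true, Bool.false_eq_true, if_false, div_one, one_div] at h1 h2
  exact ⟨h2.2, h1.2, h1.1⟩

theorem Amb.x3_ncd (n : Nd) {x y : LP L} (h : y.Le x) (hy : A.X.Reg y) (hu : x.m (A.nc n).1)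
    (hv : x.m (A.nc n).2) : (A.nc n).1 ∈ y.O ∧ (A.nc n).2 ∈ y.O := by
  obtain ⟨-, h2, h3⟩ := A.x3_down h hy
  have h4 := fun m => h.x3_down (((A.x3_reg y).1 hy).2 m)
  cases n with
  | zero => exact ⟨(h4 .m0).1 hu.1, h2 hv.1⟩
  | inf => exact ⟨h3 hu.1, (h4 .m0).2 hv.1⟩
  | fin b a => exact ⟨(h4 (.fin b a)).1 hu.1,
      y.O.sub_mem (h2 (LP.m.x3_val hv)) (y.O.algebraMap_mem _)⟩

theorem Amb.x3_hcn (i : Option Sec) {x y : LP L} (h : y.Le x) (hy : A.X.Reg y) (hu : x.m (A.hc i).1)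
    (hv : x.m (A.hc i).2) : (A.hc i).1 ∈ y.O ∧ (A.hc i).2 ∈ y.O := by
  obtain ⟨h1, h2, h3⟩ := A.x3_down h hy
  have h4 := fun m => h.x3_down (((A.x3_reg y).1 hy).2 m)
  have h5 : x.m (A.s - 1) → A.s - 1 ∈ y.O := fun h =>
    y.O.sub_mem (h1 (by simpa using x.O.add_mem h.1 x.O.one_mem)) y.O.one_mem
  rcases i with _ | _ | a | a
  · exact ⟨h5 hu, h3 hv.1⟩
  · exact ⟨h5 hu, h2 hv.1⟩
  · obtain ⟨k1, k2, k3⟩ := A.x3_hcc a hu hv
    refine ⟨y.O.sub_mem (h2 k2.x3_val) (y.O.mul_mem (y.O.algebraMap_mem _) (h1 k1.x3_val)), ?_⟩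
    have k4 : (A.z - algebraMap ℂ L (muC a)) / (A.s - algebraMap ℂ L (muC 0)) ∈ y.O := (h4 (.fin 0 a)).2 k3.1
    have k5 : y.m ((A.z - algebraMap ℂ L (muC a)) / (A.s - algebraMap ℂ L (muC 0))) := ⟨k4, by rw [← (h _ k4).2]; exact k3.2⟩
    have k6 := (y.ev_div k4 (k5.x3_U (neg_ne_zero.2 (muC_ne a)) rfl)).1
    have h0 : A.z - mu L a * A.s ≠ 0 := A.form_ne (.sec (.dia a))
    have k7 := A.x3_s 1
    convert k6 using 1
    simp only [Amb.hc, muC_zero, mu, map_neg, map_one] at h0 k7 ⊢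
    have h6 : (A.z - algebraMap ℂ L (muC a)) / (A.s - 1) + -algebraMap ℂ L (muC a) =
        (A.z - algebraMap ℂ L (muC a) * A.s) / (A.s - 1) := by
      field_simp
      ring
    rw [h6, div_div_div_cancel_right₀ k7]
  · obtain ⟨k1, k2⟩ := A.x3_hcd a hu hv
    refine ⟨y.O.sub_mem (h2 (LP.m.x3_val hu)) (y.O.algebraMap_mem _), ?_⟩
    rw [A.x3_e1]
    exact y.O.sub_mem y.O.one_mem (y.O.mul_mem (y.O.algebraMap_mem _) ((h4 (.fin 0 a)).1 k2))

theorem Amb.x3_ex {u v : L} (hi : AlgebraicIndependent ℂ ![u, v]) (hr : A.X.Reg (cl u v))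
    (h : ∀ y : LP L, y.Le (cl u v) → A.X.Reg y → u ∈ y.O ∧ v ∈ y.O) :
    ∃ ξ ∈ A.X.Pt, A.X.loc ξ = cl u v := by
  obtain ⟨ξ, hξ⟩ := hr.ctr
  have h1 := hξ.loc_le
  obtain ⟨h2, h3⟩ := h _ h1 (A.X.ctr_loc hξ.mem).reg
  exact ⟨ξ, hξ.mem, LP.ext' h1 (cl_le hi ⟨h2, by rw [← (h1 _ h2).2]; exact (cl_gen hi).1.2⟩
    ⟨h3, by rw [← (h1 _ h3).2]; exact (cl_gen hi).2.1.2⟩)⟩

end Vale.Agent.P300
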