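import Vale.Agent.P300.X3A

/-! Helpers for the classification of the points of the blown-up plane: types of branches. -/

open scoped LinearAlgebra.Projectivization Topology Classical Pointwise
open Polynomial

set_option linter.unusedSectionVars false

namespace Vale.Agent.P300

variable {L : Type} [Field L] [Algebra ℂ L] [IsAlgClosed L] (A : Amb L)

theorem Over.x3_u {V : ValuationSubring L} {u v u' : L} (h : Over V u v) (hu : u' ∈ V.nonunits) :
    Over V u' v := ⟨h.alg, hu, h.hv, h.tr⟩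

theorem Over.x3_v {V : ValuationSubring L} {u v : L} (h : Over V u v) : VU V v :=
  ⟨h.hv, by simpa using h.tr X X_ne_zero⟩

theorem Over.x3_lin {V : ValuationSubring L} {u v v' w : L} (h : Over V u v) {a : ℂ} (ha : a ≠ 0)
    (b : ℂ) (hw : w ∈ V.nonunits) (e : v' = algebraMap ℂ L a * v + algebraMap ℂ L b + w) : Over V 0 v' :=
  h.change (zero_mem _) (a := a) (b := b) (c := 0) (d := 1) (by simpa using ha) (by
    rw [e]
    simpa using hw)

theorem Over.x3_inv {V : ValuationSubring L} {u v v' : L} (h : Over V u v) (d : ℂ)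
    (e : (v + algebraMap ℂ L d) * v' = 1) : Over V 0 v' :=
  h.change (zero_mem _) (a := 0) (b := 1) (c := 1) (d := d) (by simp) (by simp [e])

theorem VU.x3_nu {V : ValuationSubring L} {f u : L} (h : VU V (f / u)) (hu : u ∈ V.nonunits) :
    f ∈ V.nonunits := by
  have h0 : u ≠ 0 := by
    rintro rfl
    exact h.2 (by simp)
  rw [← div_mul_cancel₀ f h0]
  exact val_nu_mul h.1 hu

theorem x3_vu_self {V : ValuationSubring L} {u : L} (h : u ≠ 0) : VU V (u / u) :=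
  vu_iff.2 (by rw [div_self h, map_one])

theorem Amb.x3_sec (i : Sec) {V : ValuationSubring L} (h : Over V (A.form (.sec i)) A.s) :
    Over V (A.hc (some i)).2 (A.hc (some i)).1 ∧ VU V ((A.hc (some i)).2 / A.form (.sec i)) := by
  have h0 := A.form_ne (.sec i)
  have key : ∀ w : L, Over V 0 w →
      Over V (A.form (.sec i) / w) w ∧ VU V (A.form (.sec i) / w / A.form (.sec i)) := by
    intro w hw
    have e : A.form (.sec i) / w / A.form (.sec i) = w⁻¹ := by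
      rw [div_div, mul_comm w, ← div_div, div_self h0, one_div]
    have h1 : VU V (A.form (.sec i) / w / A.form (.sec i)) := e ▸ hw.x3_v.inv
    exact ⟨hw.x3_u (h1.x3_nu h.hu), h1⟩
  cases i with
  | zero =>
    have e : A.form (.sec .zero) = A.z := sub_zero _
    rw [e] at h ⊢
    exact ⟨(h.x3_lin one_ne_zero (-1) (zero_mem _) (by simp [Amb.hc, sub_eq_add_neg])).x3_u h.hu,
      x3_vu_self A.x3_z0⟩
  | cst a =>
    exact key _ (h.x3_lin (neg_ne_zero.2 (muC_ne a)) (muC a) h.hu (by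
      simp only [Amb.form, Amb.p, mu, map_neg]; ring))
  | dia a =>
    exact key _ (h.x3_lin (muC_ne a) (-muC a) h.hu (by
      simp only [Amb.form, Amb.p, mu, map_neg]; ring))

theorem x3_vu_tr {V : ValuationSubring L} {a b c : L} (h : VU V (a / b)) (h' : VU V (b / c)) :
    VU V (a / c) := by
  have h0 : b ≠ 0 := by
    rintro rfl
    exact h.2 (by simp)
  have h1 := h.mul h'
  rwa [div_mul_div_cancel₀ h0] at h1

theorem Amb.x3_hor {u v : L} (i : Sec)
    (h : ∀ V, Over V u v → VU V (A.form (.sec i) / u) ∧ Over V 0 A.s) : A.Hor u v := by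
  refine ⟨some i, fun V hV => ?_⟩
  obtain ⟨h1, h2⟩ := h V hV
  obtain ⟨h3, h4⟩ := A.x3_sec i (h2.x3_u (h1.x3_nu hV.hu))
  exact ⟨h3, x3_vu_tr h4 h1⟩

theorem Amb.x3_hori {u v : L} (h : ∀ V, Over V u v → VU V (A.z⁻¹ / u) ∧ Over V 0 A.s) :
    A.Hor u v := by
  refine ⟨none, fun V hV => ?_⟩
  obtain ⟨h1, h2⟩ := h V hV
  exact ⟨(h2.x3_lin one_ne_zero (-1) (zero_mem _) (by simp [Amb.hc, sub_eq_add_neg])).x3_u
    (h1.x3_nu hV.hu), h1⟩

theorem Amb.x3_ver {u v : L} (j : Option Cusp) (e : (A.mc j).1 = v) (h0 : v ≠ 0)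
    (h : ∀ V, Over V v u → Over V 0 (A.mc j).2) : A.Ver v u :=
  Or.inl ⟨j, fun V hV => by
    rw [e]
    exact ⟨(h V hV).x3_u hV.hu, x3_vu_self h0⟩⟩

theorem Amb.x3_bub {u v : L} (n : Nd) (e : (A.mc n.cusp).1 = v) (h0 : v ≠ 0)
    (h : ∀ V, Over V v u → (A.nc n).2 ∈ V.nonunits ∧ Over V 0 (A.nc n).1) : A.Ver v u :=
  Or.inr ⟨n, fun V hV => by
    rw [e]
    exact ⟨(h V hV).2.x3_u (h V hV).1, x3_vu_self h0⟩⟩

theorem Amb.x3_loc {u v : L} (hi : AlgebraicIndependent ℂ ![u, v]) (hr : A.X.Reg (cl u v))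
    {ξ : ℙ ℂ (A.X.ι → ℂ)} (hξ : ξ ∈ A.X.Pt) (hu : (A.X.loc ξ).m u) (hv : (A.X.loc ξ).m v) :
    A.X.loc ξ = cl u v := by
  have h1 := cl_le hi hu hv
  obtain ⟨η, hη⟩ := hr.ctr
  obtain rfl := (hη.mono h1).unique (A.X.ctr_loc hξ)
  exact LP.ext' hη.loc_le h1

/-- factorisation of a form into a unit and powers of the flagged parameters -/
def Fac (x : LP L) (u v : L) (P Q : Prop) (f : L) : Prop :=
  ∃ (i j : ℤ) (ε : L), x.U ε ∧ f = ε * u ^ i * v ^ j ∧ (¬ P → i = 0) ∧ (¬ Q → j = 0)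

theorem Fac.unit {x : LP L} {u v f : L} {P Q : Prop} (h : x.U f) : Fac x u v P Q f :=
  ⟨0, 0, f, h, by simp, fun _ => rfl, fun _ => rfl⟩

theorem Fac.left {x : LP L} {u v f ε : L} {P Q : Prop} (h : x.U ε) (hP : P) (i : ℤ)
    (e : f = ε * u ^ i) : Fac x u v P Q f :=
  ⟨i, 0, ε, h, by simp [e], fun h => absurd hP h, fun _ => rfl⟩

theorem Fac.right {x : LP L} {u v f ε : L} {P Q : Prop} (h : x.U ε) (hQ : Q) (j : ℤ)
    (e : f = ε * v ^ j) : Fac x u v P Q f :=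
  ⟨0, j, ε, h, by simp [e], fun _ => rfl, fun h => absurd hQ h⟩

theorem Fac.both {x : LP L} {u v f ε : L} {P Q : Prop} (h : x.U ε) (hP : P) (hQ : Q) (i j : ℤ)
    (e : f = ε * u ^ i * v ^ j) : Fac x u v P Q f :=
  ⟨i, j, ε, h, e, fun h => absurd hP h, fun h => absurd hQ h⟩

/-- the conclusion of the classification -/
def Amb.Cls (ξ : ℙ ℂ (A.X.ι → ℂ)) : Prop :=
  ∃ u v fu fv, A.Ch u v fu fv ∧ A.Typ u v fu fv ∧ A.X.loc ξ = cl u v

theorem Amb.x3_main {ξ : ℙ ℂ (A.X.ι → ℂ)} (hξ : ξ ∈ A.X.Pt) {u v : L} (P Q : Prop)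
    (hu : (A.X.loc ξ).m u) (hv : (A.X.loc ξ).m v) (uK : u ∈ A.K) (vK : v ∈ A.K)
    (hg : ∀ F : IntermediateField ℂ L, u ∈ F → v ∈ F → A.s ∈ F ∧ A.z ∈ F)
    (ru : u ≠ 0 → P → A.Rat u ∧ A.Hor u v) (rv : Q → A.Rat v ∧ A.Ver v u)
    (hx : ∀ x : LP L, x.m u → x.m v → A.X.Reg x ∧ (∀ j, Fac x u v P Q (A.form (.cusp j))) ∧
      ∀ i, Fac x u v P Q (A.form (.sec i))) : A.Cls ξ := by
  have h1 : IntermediateField.adjoin ℂ {u, v} = A.K := by
    refine le_antisymm (IntermediateField.adjoin_le_iff.2 ?_) (IntermediateField.adjoin_le_iff.2 ?_)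
    · rintro _ (rfl | rfl)
      exacts [uK, vK]
    · have h := hg (IntermediateField.adjoin ℂ {u, v})
        (IntermediateField.subset_adjoin ℂ _ (by simp)) (IntermediateField.subset_adjoin ℂ _ (by simp))
      rintro _ (rfl | rfl)
      exacts [h.1, h.2]
  have hi := A.ind_of_gen h1
  have h0 : u ≠ 0 := fun e => hi.transcendental 0 (by
    simp only [Matrix.cons_val_zero, e]
    exact isAlgebraic_zero)
  obtain ⟨h2, h3, h4⟩ := hx _ (cl_gen hi).1 (cl_gen hi).2.1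
  refine ⟨u, v, decide P, decide Q, A.ch_of h1 (fun h => (ru h0 (of_decide_eq_true h)).1)
    (fun h => (rv (of_decide_eq_true h)).1) fun l => ?_, Or.inl ⟨?_, ?_⟩, A.x3_loc hi h2 hξ hu hv⟩
  · have h5 : Fac (cl u v) u v P Q (A.form l) := by
      cases l with
      | inf => exact Fac.unit (cl u v).x3_one
      | cusp j => exact h3 j
      | sec i => exact h4 i
    obtain ⟨i, j, ε, k1, k2, k3, k4⟩ := h5
    exact ⟨i, j, ε, k1, k2, fun h => k3 (of_decide_eq_false h), fun h => k4 (of_decide_eq_false h)⟩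
  · by_cases h : P
    exacts [Or.inr (ru h0 h).2, Or.inl (decide_eq_false h)]
  · by_cases h : Q
    exacts [Or.inr (rv h).2, Or.inl (decide_eq_false h)]

theorem Amb.x3_node {ξ : ℙ ℂ (A.X.ι → ℂ)} (hξ : ξ ∈ A.X.Pt) (n : Nd)
    (hu : (A.X.loc ξ).m (A.nc n).1) (hv : (A.X.loc ξ).m (A.nc n).2) : A.Cls ξ :=
  have hi := (A.ch_nc n).ind
  ⟨_, _, true, true, A.ch_nc n, Or.inr ⟨rfl, rfl, n, rfl, rfl⟩,
    A.x3_loc hi (A.x3_nc n (cl_gen hi).1 (cl_gen hi).2.1) hξ hu hv⟩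

/-- constant term of a section -/
noncomputable def Sec.al : Sec → ℂ
  | .zero => 0
  | .cst a => muC a
  | .dia _ => 0

/-- slope of a section -/
noncomputable def Sec.be : Sec → ℂ
  | .zero => 0
  | .cst _ => 0
  | .dia a => muC a

theorem Amb.x3_form (i : Sec) : A.form (.sec i) = A.z - (algebraMap ℂ L i.al + algebraMap ℂ L i.be * A.s) := by
  cases i <;> simp [Amb.form, Amb.p, Sec.al, Sec.be, mu]

theorem Sec.al_zero {i : Sec} (h : i.be ≠ 0) : i.al = 0 := by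
  cases i
  exacts [rfl, absurd rfl h, rfl]

theorem x3_slope {c d : ℂ} (h : ¬ Mult c d) {i i' : Sec} (e : d = i.al + i.be * c)
    (e' : d = i'.al + i'.be * c) : i.be = i'.be := by
  have k1 : ∀ a, d = 0 → d = muC a * c → False := fun a e e' =>
    h (Or.inl ⟨(mul_eq_zero.1 (e'.symm.trans e)).resolve_left (muC_ne a), e⟩)
  have k2 : ∀ a a', d = muC a → d = muC a' * c → False := fun a a' e e' =>
    h (Or.inr ⟨a - a', a, mul_left_cancel₀ (muC_ne a') (by
      rw [← e', ← muC_add, add_sub_cancel, e]), e⟩)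
  cases i <;> cases i' <;> simp only [Sec.al, Sec.be, zero_mul, add_zero, zero_add] at e e' ⊢
  · exact (k1 _ e e').elim
  · exact (k2 _ _ e e').elim
  · exact (k1 _ e' e).elim
  · exact (k2 _ _ e' e).elim
  · by_contra hn
    have h1 : c = 0 := by
      by_contra h0
      exact hn (mul_right_cancel₀ h0 (e.symm.trans e'))
    exact h (Or.inl ⟨h1, by rw [e, h1, mul_zero]⟩)

theorem Amb.x3_mult {c d : ℂ} (h : Mult c d) : ∃ (n : Nd) (j : Cusp), n.cusp = some j ∧ c = j.val ∧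
    A.nc n = ((A.s - algebraMap ℂ L c) / (A.z - algebraMap ℂ L d), A.z - algebraMap ℂ L d) := by
  rcases h with ⟨rfl, rfl⟩ | ⟨b, a, rfl, rfl⟩
  · exact ⟨.zero, .zero, rfl, rfl, by simp [Amb.nc]⟩
  · exact ⟨.fin b a, .cst b, rfl, rfl, rfl⟩

theorem Amb.x3_cuspA {x : LP L} {u : L} {c : ℂ} {P Q : Prop} (hv : x.m (A.s - algebraMap ℂ L c))
    (hQ : ∀ j : Cusp, c = j.val → Q) (j : Cusp) :
    Fac x u (A.s - algebraMap ℂ L c) P Q (A.form (.cusp j)) := by
  by_cases h : c = j.val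
  · exact Fac.right x.x3_one (hQ j h) 1 (by simp [Amb.form, h])
  · exact Fac.unit (hv.x3_sub h)

theorem Amb.x3_cuspB {x : LP L} {u : L} {P : Prop} (hv : x.m A.s⁻¹) (j : Cusp) :
    Fac x u A.s⁻¹ P True (A.form (.cusp j)) :=
  Fac.right (hv.x3_inv A.x3_s0 (x.O.algebraMap_mem j.val)) trivial (-1) (by
    simp [Amb.form, A.x3_s0])

end Vale.Agent.P300
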