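import Vale.Agent.P300.X3B

/-! Helpers for the classification of the points of the blown-up plane: the cases. -/

open scoped LinearAlgebra.Projectivization Topology Classical Pointwise
open Polynomial

set_option linter.unusedSectionVars false

namespace Vale.Agent.P300

variable {L : Type} [Field L] [Algebra ℂ L] [IsAlgClosed L] (A : Amb L)

theorem Amb.x3_c0 : A.form (.cusp .zero) = A.s := by simp [Amb.form, Cusp.val]

theorem Amb.x3_z0' : A.form (.sec .zero) = A.z := sub_zero _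

theorem Amb.x3_os {V : ValuationSubring L} {u : L} {c : ℂ} (h : Over V u (A.s - algebraMap ℂ L c)) :
    Over V 0 A.s := h.x3_lin one_ne_zero c (zero_mem _) (by simp)

theorem Amb.x3_os' {V : ValuationSubring L} {u : L} (h : Over V u A.s⁻¹) : Over V 0 A.s :=
  h.x3_inv 0 (by simp [A.x3_s0])

theorem Amb.x3_A1 {ξ : ℙ ℂ (A.X.ι → ℂ)} (hξ : ξ ∈ A.X.Pt) {c d : ℂ} (hm : ¬ Mult c d)
    (hs : (A.X.loc ξ).m (A.s - algebraMap ℂ L c)) (hz : (A.X.loc ξ).m (A.z - algebraMap ℂ L d)) : A.Cls ξ := by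
  obtain ⟨β, hβ⟩ : ∃ β : ℂ, ∀ i : Sec, d = i.al + i.be * c → i.be = β := by
    by_cases h : ∃ i : Sec, d = i.al + i.be * c
    · obtain ⟨i, hi⟩ := h
      exact ⟨i.be, fun i' hi' => x3_slope hm hi' hi⟩
    · exact ⟨0, fun i hi => absurd ⟨i, hi⟩ h⟩
  have e1 : ∀ i : Sec, d = i.al + i.be * c →
      A.form (.sec i) = (A.z - algebraMap ℂ L d) + algebraMap ℂ L (-β) * (A.s - algebraMap ℂ L c) := fun i hi => by
    rw [A.x3_form, ← hβ i hi, hi, map_add, map_mul, map_neg]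
    ring
  have e2 : A.z - algebraMap ℂ L d = (A.z - algebraMap ℂ L d) + algebraMap ℂ L (-β) * (A.s - algebraMap ℂ L c) + algebraMap ℂ L β * (A.s - algebraMap ℂ L c) := by
    rw [map_neg]
    ring
  refine A.x3_main hξ (∃ i : Sec, d = i.al + i.be * c) (∃ j : Cusp, c = j.val)
    (hz.add (hs.x3_c (-β))) hs ?_ (sub_mem A.pi_sK (A.K.algebraMap_mem _)) (fun F hu hv => ?_)
    (fun h0 ⟨i, hi⟩ => ⟨⟨.sec i, .inf, by rw [e1 i hi]; exact (div_one _).symm⟩,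
      A.x3_hor i fun V hV => ⟨by rw [e1 i hi]; exact x3_vu_self h0, A.x3_os hV⟩⟩)
    (fun ⟨j, hj⟩ => ⟨⟨.cusp j, .inf, by rw [hj]; exact (div_one _).symm⟩,
      A.x3_ver (some j) (by rw [hj]; rfl) (A.x3_s c) fun V hV =>
        hV.x3_lin one_ne_zero d (val_nu_mul (hV.alg β) hV.hu) ?_⟩) fun x hu hv => ?_
  · exact add_mem (sub_mem A.pi_zK (A.K.algebraMap_mem _))
      (mul_mem (A.K.algebraMap_mem _) (sub_mem A.pi_sK (A.K.algebraMap_mem _)))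
  · have h1 := add_mem hu (mul_mem (F.algebraMap_mem β) hv)
    rw [← e2] at h1
    exact ⟨by simpa using add_mem hv (F.algebraMap_mem c), by
      simpa using add_mem h1 (F.algebraMap_mem d)⟩
  · simp only [Amb.mc, map_neg, map_one]
    ring
  · have h1 := hu.add (hv.x3_c β)
    rw [← e2] at h1
    refine ⟨A.x3_regA hv h1 fun h => absurd h hm, A.x3_cuspA hv fun j hj => ⟨j, hj⟩, fun i => ?_⟩
    by_cases hi : d = i.al + i.be * c
    · exact Fac.left x.x3_one ⟨i, hi⟩ 1 (by rw [e1 i hi]; simp)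
    · refine Fac.unit ((h1.add (hv.x3_c (-i.be))).x3_U (sub_ne_zero.2 hi) ?_)
      rw [A.x3_form, map_sub, map_add, map_mul, map_neg]
      ring

theorem Amb.x3_A2 {ξ : ℙ ℂ (A.X.ι → ℂ)} (hξ : ξ ∈ A.X.Pt) {c d t : ℂ} (hm : Mult c d)
    (hs : (A.X.loc ξ).m (A.s - algebraMap ℂ L c))
    (ht : (A.X.loc ξ).m ((A.z - algebraMap ℂ L d) / (A.s - algebraMap ℂ L c) - algebraMap ℂ L t)) : A.Cls ξ := by
  obtain ⟨n, j, hn, hj, e0⟩ := A.x3_mult hm
  have hs0 := A.x3_s c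
  have hz0 := A.x3_z d
  have e1 : ∀ i : Sec, d = i.al + i.be * c → A.form (.sec i) =
      ((A.z - algebraMap ℂ L d) / (A.s - algebraMap ℂ L c) - algebraMap ℂ L t + algebraMap ℂ L (t - i.be)) * (A.s - algebraMap ℂ L c) := fun i hi => by
    rw [map_sub, sub_add_sub_cancel, sub_mul, div_mul_cancel₀ _ hs0, A.x3_form, hi, map_add, map_mul]
    ring
  have e2 : A.z - algebraMap ℂ L d = ((A.z - algebraMap ℂ L d) / (A.s - algebraMap ℂ L c) - algebraMap ℂ L t + algebraMap ℂ L t) * (A.s - algebraMap ℂ L c) := by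
    rw [sub_add_cancel, div_mul_cancel₀ _ hs0]
  have e3 : A.form (.cusp j) = A.s - algebraMap ℂ L c := by rw [hj]; rfl
  refine A.x3_main hξ (∃ i : Sec, d = i.al + i.be * c ∧ t = i.be) True ht hs ?_
    (sub_mem A.pi_sK (A.K.algebraMap_mem _)) (fun F hu hv => ?_)
    (fun h0 ⟨i, hi, hi'⟩ => ⟨⟨.sec i, .cusp j, ?_⟩, A.x3_hor i fun V hV => ⟨?_, A.x3_os hV⟩⟩)
    (fun _ => ⟨⟨.cusp j, .inf, by rw [e3]; exact (div_one _).symm⟩,
      A.x3_bub n (by rw [hn]; exact e3) hs0 fun V hV => ⟨?_, hV.x3_inv t ?_⟩⟩) fun x hu hv => ?_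
  · exact sub_mem (div_mem (sub_mem A.pi_zK (A.K.algebraMap_mem _))
      (sub_mem A.pi_sK (A.K.algebraMap_mem _))) (A.K.algebraMap_mem _)
  · have h1 := mul_mem (add_mem hu (F.algebraMap_mem t)) hv
    rw [← e2] at h1
    exact ⟨by simpa using add_mem hv (F.algebraMap_mem c), by
      simpa using add_mem h1 (F.algebraMap_mem d)⟩
  · rw [e1 i hi, e3, mul_div_cancel_right₀ _ hs0, ← hi', sub_self, map_zero, add_zero]
  · rw [e1 i hi, ← hi', sub_self, map_zero, add_zero, mul_div_cancel_left₀ _ h0]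
    exact hV.x3_v
  · have h1 := val_nu_mul (add_mem hV.hv (hV.alg t)) hV.hu
    rw [← e2] at h1
    rw [e0]
    exact h1
  · rw [e0, sub_add_cancel]
    field_simp
  · have h1 := LP.m.mul_left (x.O.add_mem hu.1 (x.O.algebraMap_mem t)) hv
    rw [← e2] at h1
    refine ⟨A.x3_regA hv h1 fun _ => Or.inr hu.x3_val, A.x3_cuspA hv fun _ _ => trivial, fun i => ?_⟩
    by_cases hi : d = i.al + i.be * c
    · by_cases hi' : t = i.be
      · exact Fac.both x.x3_one ⟨i, hi, hi'⟩ trivial 1 1 (by rw [e1 i hi, ← hi']; simp)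
      · exact Fac.right (hu.x3_U (sub_ne_zero.2 hi') rfl) trivial 1 (by rw [e1 i hi]; simp)
    · refine Fac.unit ((h1.add (hv.x3_c (-i.be))).x3_U (sub_ne_zero.2 hi) ?_)
      rw [A.x3_form, map_sub, map_add, map_mul, map_neg]
      ring

theorem Amb.x3_ratv : A.Rat A.s⁻¹ := ⟨.inf, .cusp .zero, by rw [A.x3_c0]; exact (one_div _).symm⟩

theorem Amb.x3_B1 {ξ : ℙ ℂ (A.X.ι → ℂ)} (hξ : ξ ∈ A.X.Pt) {r : ℂ} (hr : r ≠ 0)
    (hs : (A.X.loc ξ).m A.s⁻¹) (ht : (A.X.loc ξ).m (A.z / A.s - algebraMap ℂ L r)) : A.Cls ξ := by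
  have hs0 := A.x3_s0
  have hz0 := A.x3_z0
  have e1 : ∀ i : Sec, r = i.be → A.form (.sec i) = (A.z / A.s - algebraMap ℂ L r) * A.s := fun i hi => by
    rw [A.x3_form, Sec.al_zero (hi ▸ hr), hi, sub_mul, div_mul_cancel₀ _ hs0, map_zero, zero_add]
  refine A.x3_main hξ (∃ i : Sec, r = i.be) True ht hs
    (sub_mem (div_mem A.pi_zK A.pi_sK) (A.K.algebraMap_mem _)) (inv_mem A.pi_sK) (fun F hu hv => ?_)
    (fun h0 ⟨i, hi⟩ => ⟨⟨.sec i, .cusp .zero, ?_⟩, A.x3_hor i fun V hV => ⟨?_, A.x3_os' hV⟩⟩)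
    (fun _ => ⟨A.x3_ratv, A.x3_ver none rfl (inv_ne_zero hs0) fun V hV =>
      hV.x3_lin one_ne_zero r (zero_mem _) (by simp [Amb.mc])⟩) fun x hu hv => ?_
  · have h1 : A.s ∈ F := by simpa using inv_mem hv
    exact ⟨h1, by simpa [hs0] using mul_mem (add_mem hu (F.algebraMap_mem r)) h1⟩
  · rw [e1 i hi, A.x3_c0, mul_div_cancel_right₀ _ hs0]
  · rw [e1 i hi, mul_div_cancel_left₀ _ h0]
    exact (A.x3_os' hV).x3_v
  · have h1 : x.U (A.z / A.s) := hu.x3_U hr (sub_add_cancel _ _).symm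
    refine ⟨A.x3_regB hv h1.1 (Or.inr ?_), A.x3_cuspB hv, fun i => ?_⟩
    · convert (x.ev_div hv.1 h1).1 using 1
      field_simp
    · by_cases hi : r = i.be
      · exact Fac.both x.x3_one ⟨i, hi⟩ trivial 1 (-1) (by rw [e1 i hi]; simp)
      · refine Fac.right ((hu.add (hv.x3_c (-i.al))).x3_U (sub_ne_zero.2 hi) rfl) trivial (-1) ?_
        rw [A.x3_form, map_sub, map_neg, zpow_neg_one, inv_inv]
        field_simp
        ring

theorem Amb.x3_B2 {ξ : ℙ ℂ (A.X.ι → ℂ)} (hξ : ξ ∈ A.X.Pt) {d : ℂ}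
    (hs : (A.X.loc ξ).m A.s⁻¹) (hz : (A.X.loc ξ).m (A.z - algebraMap ℂ L d)) : A.Cls ξ := by
  have hs0 := A.x3_s0
  have hz0 := A.x3_z0
  have e1 : ∀ i : Sec, i.be = 0 → A.form (.sec i) = A.z - algebraMap ℂ L i.al := fun i hi => by
    rw [A.x3_form, hi, map_zero, zero_mul, add_zero]
  refine A.x3_main hξ (∃ i : Sec, i.be = 0 ∧ d = i.al) True hz hs
    (sub_mem A.pi_zK (A.K.algebraMap_mem _)) (inv_mem A.pi_sK) (fun F hu hv => ?_)
    (fun h0 ⟨i, hi, hi'⟩ => ⟨⟨.sec i, .inf, by rw [e1 i hi, hi']; exact (div_one _).symm⟩,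
      A.x3_hor i fun V hV => ⟨by rw [e1 i hi, ← hi']; exact x3_vu_self h0, A.x3_os' hV⟩⟩)
    (fun _ => ⟨A.x3_ratv, A.x3_bub .inf rfl (inv_ne_zero hs0) fun V hV =>
      ⟨?_, hV.x3_inv d (by simp [Amb.nc, hz0])⟩⟩) fun x hu hv => ?_
  · exact ⟨by simpa using inv_mem hv, by simpa using add_mem hu (F.algebraMap_mem d)⟩
  · simpa [Amb.nc, div_eq_mul_inv] using val_nu_mul (add_mem hV.hv (hV.alg d)) hV.hu
  · have h1 := hu.x3_val
    refine ⟨A.x3_regB hv (by rw [div_eq_mul_inv]; exact x.O.mul_mem h1 hv.1) (Or.inl h1),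
      A.x3_cuspB hv, fun i => ?_⟩
    by_cases hi : i.be = 0
    · by_cases hi' : d = i.al
      · exact Fac.left x.x3_one ⟨i, hi, hi'⟩ 1 (by rw [e1 i hi, ← hi']; simp)
      · rw [e1 i hi]
        exact Fac.unit (hu.x3_sub hi')
    · refine Fac.right ((LP.m.mul_left (x.O.sub_mem h1 (x.O.algebraMap_mem i.al)) hv).x3_U
        (neg_ne_zero.2 hi) rfl) trivial (-1) ?_
      rw [A.x3_form, map_neg, zpow_neg_one, inv_inv]
      field_simp
      ring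

theorem Amb.x3_C1 {ξ : ℙ ℂ (A.X.ι → ℂ)} (hξ : ξ ∈ A.X.Pt) {c : ℂ}
    (hz : (A.X.loc ξ).m A.z⁻¹) (hs : (A.X.loc ξ).m (A.s - algebraMap ℂ L c)) : A.Cls ξ := by
  have hz0 := A.x3_z0
  refine A.x3_main hξ True (∃ j : Cusp, c = j.val) hz hs (inv_mem A.pi_zK)
    (sub_mem A.pi_sK (A.K.algebraMap_mem _)) (fun F hu hv => ?_)
    (fun h0 _ => ⟨⟨.inf, .sec .zero, by rw [A.x3_z0']; exact (one_div _).symm⟩,
      A.x3_hori fun V hV => ⟨x3_vu_self h0, A.x3_os hV⟩⟩)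
    (fun ⟨j, hj⟩ => ⟨⟨.cusp j, .inf, by rw [hj]; exact (div_one _).symm⟩,
      A.x3_ver (some j) (by rw [hj]; rfl) (A.x3_s c) fun V hV =>
        hV.x3_inv 0 (by simp [Amb.mc, hz0])⟩) fun x hu hv => ?_
  · exact ⟨by simpa using add_mem hv (F.algebraMap_mem c), by simpa using inv_mem hu⟩
  · have h1 := hv.x3_val
    refine ⟨A.x3_regC hu (by rw [div_eq_mul_inv]; exact x.O.mul_mem h1 hu.1) (Or.inl h1),
      A.x3_cuspA hv fun j hj => ⟨j, hj⟩, fun i => ?_⟩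
    refine Fac.left (hu.x3_inv hz0 (x.O.add_mem (x.O.algebraMap_mem i.al)
      (x.O.mul_mem (x.O.algebraMap_mem i.be) h1))) trivial (-1) ?_
    rw [A.x3_form, zpow_neg_one, inv_inv, inv_mul_cancel_right₀ hz0]

theorem Amb.x3_C2 {ξ : ℙ ℂ (A.X.ι → ℂ)} (hξ : ξ ∈ A.X.Pt)
    (hz : (A.X.loc ξ).m (A.s / A.z)) (hs : (A.X.loc ξ).m A.s⁻¹) : A.Cls ξ := by
  have hs0 := A.x3_s0
  have hz0 := A.x3_z0
  have e1 : A.s / A.z * A.s⁻¹ = A.z⁻¹ := by field_simp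
  refine A.x3_main hξ True True hz hs (div_mem A.pi_sK A.pi_zK) (inv_mem A.pi_sK)
    (fun F hu hv => ?_) (fun h0 _ => ⟨⟨.cusp .zero, .sec .zero, by rw [A.x3_z0', A.x3_c0]⟩,
      A.x3_hori fun V hV => ⟨?_, A.x3_os' hV⟩⟩)
    (fun _ => ⟨A.x3_ratv, A.x3_ver none rfl (inv_ne_zero hs0) fun V hV =>
      hV.x3_inv 0 (by simp only [Amb.mc, map_zero, add_zero]; field_simp)⟩) fun x hu hv => ?_
  · have h1 := inv_mem (mul_mem hu hv)
    rw [e1, inv_inv] at h1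
    exact ⟨by simpa using inv_mem hv, h1⟩
  · rw [← e1, mul_div_cancel_left₀ _ h0]
    exact hV.x3_v
  · have h1 := LP.m.mul_left hu.1 hv
    rw [e1] at h1
    refine ⟨A.x3_regC h1 hu.1 (Or.inr hv.1), A.x3_cuspB hv, fun i => ?_⟩
    refine Fac.both (((h1.x3_c (-i.al)).add (hu.x3_c (-i.be))).x3_U one_ne_zero rfl) trivial trivial
      (-1) (-1) ?_
    rw [A.x3_form, map_neg, map_neg, map_one, zpow_neg_one, zpow_neg_one, inv_inv]
    field_simp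
    ring

theorem Amb.x3_tri {x : LP L} (j : Fin 3) (h : ∀ i, ![1, A.s, A.z] i / ![1, A.s, A.z] j ∈ x.O) :
    (A.s ∈ x.O ∧ A.z ∈ x.O) ∨ (x.m A.s⁻¹ ∧ A.z / A.s ∈ x.O) ∨ (x.m A.z⁻¹ ∧ x.m (A.s / A.z)) := by
  have hs0 := A.x3_s0
  have hz0 := A.x3_z0
  have hB : A.s⁻¹ ∈ x.O → A.z / A.s ∈ x.O → (A.s ∈ x.O ∧ A.z ∈ x.O) ∨
      (x.m A.s⁻¹ ∧ A.z / A.s ∈ x.O) ∨ (x.m A.z⁻¹ ∧ x.m (A.s / A.z)) := fun h1 h2 => by
    rcases x.x3_or h1 with h3 | h3
    · exact Or.inl ⟨h3.x3_inv, by simpa [hs0] using x.O.mul_mem h2 h3.x3_inv⟩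
    · exact Or.inr (Or.inl ⟨h3, h2⟩)
  fin_cases j
  · exact Or.inl ⟨by simpa using h 1, by simpa using h 2⟩
  · exact hB (by simpa using h 0) (by simpa using h 2)
  · have h1 : A.z⁻¹ ∈ x.O := by simpa using h 0
    have h2 : A.s / A.z ∈ x.O := by simpa using h 1
    rcases x.x3_or h2 with h3 | h3
    · have h4 : A.z / A.s ∈ x.O := by simpa using (x.ev_inv h3).1.1
      refine hB ?_ h4
      convert x.O.mul_mem h1 h4 using 1
      field_simp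
    · rcases x.x3_or h1 with h4 | h4
      · exact Or.inl ⟨by simpa [hz0] using x.O.mul_mem h2 h4.x3_inv, h4.x3_inv⟩
      · exact Or.inr (Or.inr ⟨h4, h3⟩)

theorem Amb.x3_cls {ξ : ℙ ℂ (A.X.ι → ℂ)} (hξ : ξ ∈ A.X.Pt) : A.Cls ξ := by
  obtain ⟨⟨j, -, hj⟩, hp⟩ := (A.x3_reg _).1 (A.X.ctr_loc hξ).reg
  set y := A.X.loc ξ with hy
  rcases A.x3_tri j hj with ⟨hs, hz⟩ | ⟨hs, hr⟩ | ⟨hz, hr⟩
  · have hs' := y.m_sub_ev hs
    have hz' := y.m_sub_ev hz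
    generalize y.ev A.s = c at hs'
    generalize y.ev A.z = d at hz'
    by_cases hm : Mult c d
    · have h1 : (A.s - algebraMap ℂ L c) / (A.z - algebraMap ℂ L d) ∈ y.O ∨ (A.z - algebraMap ℂ L d) / (A.s - algebraMap ℂ L c) ∈ y.O := by
        rcases hm with ⟨rfl, rfl⟩ | ⟨b, a, rfl, rfl⟩
        · simpa [Amb.pen] using hp .m0
        · exact hp (.fin b a)
      rcases h1 with h1 | h1
      · rcases y.x3_or h1 with h2 | h2
        · exact A.x3_A2 hξ hm hs' (y.m_sub_ev (by simpa using (y.ev_inv h2).1.1))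
        · obtain ⟨n, -, -, -, e⟩ := A.x3_mult hm
          exact A.x3_node hξ n (by rw [e]; exact h2) (by rw [e]; exact hz')
      · exact A.x3_A2 hξ hm hs' (y.m_sub_ev h1)
    · exact A.x3_A1 hξ hm hs' hz'
  · rcases y.x3_or hr with h1 | h1
    · exact A.x3_B1 hξ h1.2 hs (y.m_sub_ev hr)
    · have h2 : A.z⁻¹ ∈ y.O ∨ A.z ∈ y.O := by simpa [Amb.pen] using hp .m1
      rcases h2 with h2 | h2
      · rcases y.x3_or h2 with h3 | h3
        · exact A.x3_B2 hξ hs (y.m_sub_ev h3.x3_inv)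
        · exact A.x3_node hξ .inf h3 h1
      · exact A.x3_B2 hξ hs (y.m_sub_ev h2)
  · have h2 : A.s⁻¹ ∈ y.O ∨ A.s ∈ y.O := by simpa [Amb.pen] using hp .m2
    rcases h2 with h2 | h2
    · rcases y.x3_or h2 with h3 | h3
      · exact A.x3_C1 hξ hz (y.m_sub_ev h3.x3_inv)
      · exact A.x3_C2 hξ hr h3
    · exact A.x3_C1 hξ hz (y.m_sub_ev h2)

end Vale.Agent.P300
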